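import Mathlib
import Crest.Prelude.Def_FinProb

/-!
ROW56 package G4: the p-biased (2,4) hypercontractive inequality / Bonami lemma, in raw form
(sums over `Crest.FinProb.bernoulliWeight`).
-/

set_option autoImplicit false

namespace Crest.Agent.R56Bonami

open Finset Crest.FinProb

variable {ι : Type*} [Fintype ι] [DecidableEq ι]

/-- expectation under independent coins of bias `p`. -/
noncomputable def bE (p : ℝ) (F : (ι → Bool) → ℝ) : ℝ := ∑ ω, bernoulliWeight p ω * F ω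

/-- the normalised character of one coin. -/
noncomputable def chi (p : ℝ) (b : Bool) : ℝ :=
  ((if b then 1 else 0) - p) / Real.sqrt (p * (1 - p))

/-- the p-biased Walsh function. -/
noncomputable def chiS (p : ℝ) (S : Finset ι) (ω : ι → Bool) : ℝ := ∏ i ∈ S, chi p (ω i)

lemma bernoulliWeight_nonneg {p : ℝ} (h0 : 0 ≤ p) (h1 : p ≤ 1) (ω : ι → Bool) :
    0 ≤ bernoulliWeight p ω := by
  unfold bernoulliWeight
  refine Finset.prod_nonneg fun i _ => ?_
  split_ifs
  · exact h0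
  · linarith

/-- one-coordinate averaging. -/
lemma bE_avg (p : ℝ) (a : ι) (F : (ι → Bool) → ℝ) :
    bE p F = bE p (fun ω => p * F (Function.update ω a true)
      + (1 - p) * F (Function.update ω a false)) := by
  classical
  unfold bE
  have key : ∀ G : (ι → Bool) → ℝ, ∑ ω, bernoulliWeight p ω * G ω
      = ∑ ω' : ({j // j ≠ a} → Bool), (∏ j, if ω' j then p else 1 - p) *
          (p * G ((Equiv.funSplitAt a Bool).symm (true, ω'))
            + (1 - p) * G ((Equiv.funSplitAt a Bool).symm (false, ω'))) := by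
    intro G
    rw [← (Equiv.funSplitAt a Bool).symm.sum_comp, Fintype.sum_prod_type, Fintype.sum_bool,
      ← Finset.sum_add_distrib]
    refine Finset.sum_congr rfl fun ω' _ => ?_
    have hw : ∀ b : Bool, bernoulliWeight p ((Equiv.funSplitAt a Bool).symm (b, ω'))
        = (if b then p else 1 - p) * ∏ j, if ω' j then p else 1 - p := by
      intro b
      unfold bernoulliWeight
      rw [Fintype.prod_eq_mul_prod_subtype_ne _ a]
      congr 1
      · simp [Equiv.funSplitAt, Equiv.piSplitAt]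
      · refine Finset.prod_congr rfl fun j _ => ?_
        simp [Equiv.funSplitAt, Equiv.piSplitAt, j.2]
    rw [hw, hw]
    simp
    ring
  rw [key F, key]
  refine Finset.sum_congr rfl fun ω' _ => ?_
  have hu : ∀ b c : Bool, Function.update ((Equiv.funSplitAt a Bool).symm (b, ω')) a c
      = (Equiv.funSplitAt a Bool).symm (c, ω') := by
    intro b c
    funext j
    by_cases hj : j = a
    · subst hj; simp [Equiv.funSplitAt, Equiv.piSplitAt]
    · simp [Equiv.funSplitAt, Equiv.piSplitAt, hj]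
  simp only [hu]
  ring


lemma bE_mono {p : ℝ} (h0 : 0 ≤ p) (h1 : p ≤ 1) {F G : (ι → Bool) → ℝ} (h : ∀ ω, F ω ≤ G ω) :
    bE p F ≤ bE p G :=
  Finset.sum_le_sum fun ω _ => mul_le_mul_of_nonneg_left (h ω) (bernoulliWeight_nonneg h0 h1 ω)

lemma bE_nonneg {p : ℝ} (h0 : 0 ≤ p) (h1 : p ≤ 1) {F : (ι → Bool) → ℝ} (h : ∀ ω, 0 ≤ F ω) :
    0 ≤ bE p F :=
  Finset.sum_nonneg fun ω _ => mul_nonneg (bernoulliWeight_nonneg h0 h1 ω) (h ω)

lemma bE_add (p : ℝ) (F G : (ι → Bool) → ℝ) : bE p (fun ω => F ω + G ω) = bE p F + bE p G := by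
  unfold bE
  rw [← Finset.sum_add_distrib]
  exact Finset.sum_congr rfl fun ω _ => by ring

lemma bE_const_mul (p c : ℝ) (F : (ι → Bool) → ℝ) : bE p (fun ω => c * F ω) = c * bE p F := by
  unfold bE
  rw [Finset.mul_sum]
  exact Finset.sum_congr rfl fun ω _ => by ring

/-- Cauchy-Schwarz. -/
lemma bE_mul_sq_le {p : ℝ} (h0 : 0 ≤ p) (h1 : p ≤ 1) (F G : (ι → Bool) → ℝ) :
    (bE p (fun ω => F ω * G ω)) ^ 2 ≤ bE p (fun ω => F ω ^ 2) * bE p (fun ω => G ω ^ 2) := by
  unfold bE
  refine Finset.sum_sq_le_sum_mul_sum_of_sq_le_mul _ (fun ω _ => ?_) (fun ω _ => ?_)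
    (fun ω _ => le_of_eq ?_)
  · exact mul_nonneg (bernoulliWeight_nonneg h0 h1 ω) (sq_nonneg _)
  · exact mul_nonneg (bernoulliWeight_nonneg h0 h1 ω) (sq_nonneg _)
  · ring

lemma chiS_update_of_notMem (p : ℝ) {S : Finset ι} {a : ι} (ha : a ∉ S) (ω : ι → Bool) (b : Bool) :
    chiS p S (Function.update ω a b) = chiS p S ω := by
  unfold chiS
  refine Finset.prod_congr rfl fun i hi => ?_
  rw [Function.update_of_ne]
  rintro rfl
  exact ha hi

lemma chiS_insert (p : ℝ) {S : Finset ι} {a : ι} (ha : a ∉ S) (ω : ι → Bool) :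
    chiS p (insert a S) ω = chi p (ω a) * chiS p S ω := by
  unfold chiS
  rw [Finset.prod_insert ha]

/-- the two-point inequality behind the induction. -/
lemma two_point {p : ℝ} (h0 : 0 < p) (h1 : p < 1) (g h : ℝ) :
    p * (g + chi p true * h) ^ 4 + (1 - p) * (g + chi p false * h) ^ 4
      ≤ g ^ 4 + 8 * (g ^ 2 * h ^ 2) + 4 / (p * (1 - p)) * h ^ 4 := by
  have hs2 : 0 < p * (1 - p) := mul_pos h0 (by linarith)
  set s := Real.sqrt (p * (1 - p)) with hs
  have hspos : 0 < s := Real.sqrt_pos.mpr hs2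
  have hss : s ^ 2 = p * (1 - p) := Real.sq_sqrt hs2.le
  have ha : chi p true = (1 - p) / s := by simp [chi, hs]
  have hb : chi p false = -p / s := by simp [chi, hs]
  rw [ha, hb, ← hss]
  set α := (1 - p) / s with hα
  set β := -p / s with hβ
  have hαs : α * s = 1 - p := by rw [hα]; field_simp
  have hβs : β * s = -p := by rw [hβ]; field_simp
  have hm1 : p * α + (1 - p) * β = 0 := by
    have : (p * α + (1 - p) * β) * s = 0 := by
      linear_combination p * hαs + (1 - p) * hβs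
    rcases mul_eq_zero.mp this with h | h
    · exact h
    · exact absurd h hspos.ne'
  have hm2 : p * α ^ 2 + (1 - p) * β ^ 2 = 1 := by
    have : (p * α ^ 2 + (1 - p) * β ^ 2) * s ^ 2 = 1 * s ^ 2 := by
      have e1 : α ^ 2 * s ^ 2 = (1 - p) ^ 2 := by rw [← mul_pow, hαs]
      have e2 : β ^ 2 * s ^ 2 = p ^ 2 := by rw [← mul_pow, hβs]; ring
      linear_combination p * e1 + (1 - p) * e2 - hss
    exact mul_right_cancel₀ (pow_ne_zero 2 hspos.ne') this
  set k3 := p * α ^ 3 + (1 - p) * β ^ 3 with hk3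
  set k4 := p * α ^ 4 + (1 - p) * β ^ 4 with hk4
  have hk3s : k3 * s = 1 - 2 * p := by
    have e1 : α ^ 3 * s ^ 3 = (1 - p) ^ 3 := by rw [← mul_pow, hαs]
    have e2 : β ^ 3 * s ^ 3 = -p ^ 3 := by rw [← mul_pow, hβs]; ring
    have : (k3 * s) * s ^ 2 = (1 - 2 * p) * s ^ 2 := by
      rw [hk3]
      linear_combination p * e1 + (1 - p) * e2 - (1 - 2 * p) * hss
    exact mul_right_cancel₀ (pow_ne_zero 2 hspos.ne') this
  have hk4s : k4 * s ^ 2 = 1 - 3 * s ^ 2 := by
    have e1 : α ^ 4 * s ^ 4 = (1 - p) ^ 4 := by rw [← mul_pow, hαs]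
    have e2 : β ^ 4 * s ^ 4 = p ^ 4 := by rw [← mul_pow, hβs]; ring
    have : (k4 * s ^ 2) * s ^ 2 = (1 - 3 * s ^ 2) * s ^ 2 := by
      rw [hk4]
      linear_combination p * e1 + (1 - p) * e2 + (-1 + 3 * (s ^ 2 + p * (1 - p))) * hss
    exact mul_right_cancel₀ (pow_ne_zero 2 hspos.ne') this
  have hk : k4 + 2 * k3 ^ 2 ≤ 4 / s ^ 2 := by
    rw [le_div_iff₀ (pow_pos hspos 2)]
    have : (k4 + 2 * k3 ^ 2) * s ^ 2 = 1 - 3 * s ^ 2 + 2 * (1 - 2 * p) ^ 2 := by
      rw [← hk3s, ← hk4s]; ring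
    rw [this, hss]
    nlinarith
  have hexp : p * (g + α * h) ^ 4 + (1 - p) * (g + β * h) ^ 4
      = g ^ 4 + 6 * (g ^ 2 * h ^ 2) + 4 * k3 * (g * h ^ 3) + k4 * h ^ 4 := by
    rw [hk3, hk4]
    linear_combination 4 * g ^ 3 * h * hm1 + 6 * g ^ 2 * h ^ 2 * hm2
  rw [hexp]
  have h4 : 0 ≤ h ^ 4 := by positivity
  have := mul_le_mul_of_nonneg_right hk h4
  nlinarith [sq_nonneg (g * h - k3 * h ^ 2)]


lemma sum_bernoulliWeight (p : ℝ) : ∑ ω : ι → Bool, bernoulliWeight p ω = 1 := by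
  unfold bernoulliWeight
  have := Finset.prod_univ_sum (fun _ : ι => (Finset.univ : Finset Bool))
    (fun (_ : ι) (b : Bool) => if b then p else 1 - p)
  rw [Fintype.piFinset_univ] at this
  rw [← this]
  simp

lemma bE_const (p c : ℝ) : bE p (fun _ : ι → Bool => c) = c := by
  unfold bE
  rw [← Finset.sum_mul, sum_bernoulliWeight, one_mul]

/-- **(2,4) hypercontractivity**, p-biased, with `N = 2 / √(p(1-p))`. -/
theorem hyper24 {p : ℝ} (h0 : 0 < p) (h1 : p < 1) (J : Finset ι) (c : Finset ι → ℝ) :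
    bE p (fun ω => (∑ S ∈ J.powerset, c S * chiS p S ω) ^ 4)
      ≤ (∑ S ∈ J.powerset, (2 / Real.sqrt (p * (1 - p))) ^ S.card * c S ^ 2) ^ 2 := by
  have hs2 : 0 < p * (1 - p) := mul_pos h0 (by linarith)
  set s := Real.sqrt (p * (1 - p)) with hs
  have hspos : 0 < s := Real.sqrt_pos.mpr hs2
  have hss : s ^ 2 = p * (1 - p) := Real.sq_sqrt hs2.le
  have hs_half : s ≤ 1 / 2 := by
    have : s ^ 2 ≤ (1 / 2) ^ 2 := by rw [hss]; nlinarith [sq_nonneg (p - 1 / 2)]
    exact (abs_le_of_sq_le_sq' this (by norm_num)).2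
  set N := 2 / s with hN
  have hN4 : 4 ≤ N := by
    rw [hN, le_div_iff₀ hspos]; linarith
  have hNsq : N ^ 2 = 4 / (p * (1 - p)) := by
    rw [hN, div_pow, hss]; norm_num
  induction J using Finset.induction_on generalizing c with
  | empty =>
    simp only [Finset.powerset_empty, Finset.sum_singleton, Finset.card_empty, pow_zero, one_mul]
    have : (fun ω : ι → Bool => (c ∅ * chiS p ∅ ω) ^ 4) = fun _ => (c ∅) ^ 4 := by
      funext ω; simp [chiS]
    rw [this, bE_const]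
    exact le_of_eq (by ring)
  | insert a J ha ih =>
    set g : (ι → Bool) → ℝ := fun ω => ∑ S ∈ J.powerset, c S * chiS p S ω with hg
    set h : (ι → Bool) → ℝ := fun ω => ∑ S ∈ J.powerset, c (insert a S) * chiS p S ω with hh
    set A := ∑ S ∈ J.powerset, N ^ S.card * c S ^ 2 with hA
    set B := ∑ S ∈ J.powerset, N ^ S.card * c (insert a S) ^ 2 with hB
    have hA0 : 0 ≤ A := Finset.sum_nonneg fun S _ => by positivity
    have hB0 : 0 ≤ B := Finset.sum_nonneg fun S _ => by positivity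
    have ihg : bE p (fun ω => g ω ^ 4) ≤ A ^ 2 := ih c
    have ihh : bE p (fun ω => h ω ^ 4) ≤ B ^ 2 := ih (fun S => c (insert a S))
    have hnot : ∀ S ∈ J.powerset, a ∉ S := fun S hS haS => ha (Finset.mem_powerset.mp hS haS)
    have hf : ∀ ω, ∑ S ∈ (insert a J).powerset, c S * chiS p S ω = g ω + chi p (ω a) * h ω := by
      intro ω
      rw [Finset.sum_powerset_insert ha, hg, hh]
      simp only
      rw [Finset.mul_sum]
      congr 1
      refine Finset.sum_congr rfl fun S hS => ?_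
      rw [chiS_insert p (hnot S hS)]
      ring
    have hgu : ∀ ω b, g (Function.update ω a b) = g ω := by
      intro ω b
      simp only [hg]
      exact Finset.sum_congr rfl fun S hS => by rw [chiS_update_of_notMem p (hnot S hS)]
    have hhu : ∀ ω b, h (Function.update ω a b) = h ω := by
      intro ω b
      simp only [hh]
      exact Finset.sum_congr rfl fun S hS => by rw [chiS_update_of_notMem p (hnot S hS)]
    have hsum : ∑ S ∈ (insert a J).powerset, N ^ S.card * c S ^ 2 = A + N * B := by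
      rw [Finset.sum_powerset_insert ha, hA, hB, Finset.mul_sum]
      congr 1
      refine Finset.sum_congr rfl fun S hS => ?_
      rw [Finset.card_insert_of_notMem (hnot S hS)]
      ring
    rw [hsum]
    have h1' : bE p (fun ω => (∑ S ∈ (insert a J).powerset, c S * chiS p S ω) ^ 4)
        ≤ bE p (fun ω => g ω ^ 4 + 8 * (g ω ^ 2 * h ω ^ 2) + 4 / (p * (1 - p)) * h ω ^ 4) := by
      rw [bE_avg p a]
      refine bE_mono h0.le h1.le fun ω => ?_
      simp only [hf, hgu, hhu, Function.update_self]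
      exact two_point h0 h1 (g ω) (h ω)
    have hcs : bE p (fun ω => g ω ^ 2 * h ω ^ 2) ≤ A * B := by
      have h2 := bE_mul_sq_le h0.le h1.le (fun ω => g ω ^ 2) (fun ω => h ω ^ 2)
      have e1 : (fun ω => (g ω ^ 2) ^ 2) = fun ω => g ω ^ 4 := by funext ω; ring
      have e2 : (fun ω => (h ω ^ 2) ^ 2) = fun ω => h ω ^ 4 := by funext ω; ring
      simp only [e1, e2] at h2
      have h3 : (bE p (fun ω => g ω ^ 2 * h ω ^ 2)) ^ 2 ≤ (A * B) ^ 2 := by
        refine h2.trans ?_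
        rw [mul_pow]
        exact mul_le_mul ihg ihh (bE_nonneg h0.le h1.le fun ω => by positivity) (by positivity)
      exact (abs_le_of_sq_le_sq' h3 (mul_nonneg hA0 hB0)).2
    have hsplit : bE p (fun ω => g ω ^ 4 + 8 * (g ω ^ 2 * h ω ^ 2) + 4 / (p * (1 - p)) * h ω ^ 4)
        = bE p (fun ω => g ω ^ 4) + 8 * bE p (fun ω => g ω ^ 2 * h ω ^ 2)
          + 4 / (p * (1 - p)) * bE p (fun ω => h ω ^ 4) := by
      rw [bE_add, bE_add, bE_const_mul, bE_const_mul]
    refine h1'.trans ?_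
    rw [hsplit, ← hNsq]
    have h5 : N ^ 2 * bE p (fun ω => h ω ^ 4) ≤ N ^ 2 * B ^ 2 :=
      mul_le_mul_of_nonneg_left ihh (by positivity)
    nlinarith [mul_nonneg hA0 hB0, mul_nonneg (mul_nonneg hA0 hB0) (sub_nonneg.mpr hN4)]

/-- **Bonami lemma**, raw form: a polynomial of degree `≤ k` in the p-biased characters. -/
theorem bonami {p : ℝ} (h0 : 0 < p) (h1 : p < 1) (k : ℕ) (c : Finset ι → ℝ)
    (hc : ∀ S, k < S.card → c S = 0) :
    ∑ ω : ι → Bool, bernoulliWeight p ω * (∑ S : Finset ι, c S * ∏ i ∈ S, chi p (ω i)) ^ 4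
      ≤ (4 / (p * (1 - p))) ^ k * (∑ S : Finset ι, c S ^ 2) ^ 2 := by
  have hs2 : 0 < p * (1 - p) := mul_pos h0 (by linarith)
  have hspos : 0 < Real.sqrt (p * (1 - p)) := Real.sqrt_pos.mpr hs2
  have hss : Real.sqrt (p * (1 - p)) ^ 2 = p * (1 - p) := Real.sq_sqrt hs2.le
  have hs_half : Real.sqrt (p * (1 - p)) ≤ 1 / 2 := by
    have : Real.sqrt (p * (1 - p)) ^ 2 ≤ (1 / 2) ^ 2 := by
      rw [hss]; nlinarith [sq_nonneg (p - 1 / 2)]
    exact (abs_le_of_sq_le_sq' this (by norm_num)).2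
  have hN1 : 1 ≤ 2 / Real.sqrt (p * (1 - p)) := by
    rw [le_div_iff₀ hspos]; linarith
  have hNsq : (2 / Real.sqrt (p * (1 - p))) ^ 2 = 4 / (p * (1 - p)) := by
    rw [div_pow, hss]; norm_num
  have h := hyper24 h0 h1 (Finset.univ : Finset ι) c
  rw [Finset.powerset_univ] at h
  refine le_trans h ?_
  rw [← hNsq, ← pow_mul, mul_comm 2 k, pow_mul, ← mul_pow]
  refine pow_le_pow_left₀ (Finset.sum_nonneg fun S _ => by positivity) ?_ 2
  rw [Finset.mul_sum]
  refine Finset.sum_le_sum fun S _ => ?_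
  by_cases hS : k < S.card
  · rw [hc S hS]; simp
  · exact mul_le_mul_of_nonneg_right (pow_le_pow_right₀ hN1 (not_lt.mp hS)) (sq_nonneg _)

end Crest.Agent.R56Bonami
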