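import Crest.Agent.S0047_Game

set_option autoImplicit false
set_option linter.unreachableTactic false
set_option linter.unusedTactic false
set_option linter.unnecessarySeqFocus false

namespace Crest.Agent.S0047

open Crest.CombinatoricsR.PolyominoGame

/-- bit masks of the eight orientations (stride 32). -/
def maskOf : Nat → Nat
  | 0 => 0x180000000f
  | 1 => 0x30000001e
  | 2 => 0xf00000018
  | 3 => 0x1e00000003
  | 4 => 0x200000003000000010000000100000001
  | 5 => 0x100000003000000020000000200000002
  | 6 => 0x100000001000000010000000300000002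
  | _ => 0x200000002000000020000000300000001

def copyOK (o a M : Nat) : Bool :=
  (Nat.ble (a % 32 + (cond (Nat.ble o 3) 4 1)) 31) &&
    (Nat.beq (Nat.land (Nat.shiftRight M a) (maskOf o)) (maskOf o))

def pop (cur : Nat) (rest : List Nat) : Nat × List Nat :=
  match Nat.beq cur 1, rest with
  | true, w :: r => (w, r)
  | _, _ => (cur, rest)

def bit (i : Nat) : Nat := Nat.shiftLeft 1 i

def tb (M i : Nat) : Bool := Nat.beq (Nat.land (Nat.shiftRight M i) 1) 1

abbrev Entry := Nat × Nat × Nat × Nat

def nth : List Entry → Nat → Option Entry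
  | [], _ => none
  | e :: _, 0 => some e
  | _ :: l, n+1 => nth l n

/-- children loop -/
def loop (f : Nat → Nat → List Nat → Option (Nat × Nat × List Nat)) (m B : Nat) :
    Nat → Nat → List Nat → Option (Nat × Nat × Nat × Nat × List Nat)
  | 0, _, _ => none
  | c+1, cur, rest =>
    let p := pop cur rest
    let key := p.1 % 1024
    let kb := cond (Nat.beq key m) 0 (bit key)
    match f (Nat.lor B kb) (p.1 / 1024) p.2 with
    | none => none
    | some (Z, cur2, rest2) =>
      match c with
      | 0 => some (Z, Z, kb, cur2, rest2)
      | _ =>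
        match loop f m B c cur2 rest2 with
        | none => none
        | some (U, I, K, cur3, rest3) =>
          some (Nat.lor Z U, Nat.land Z I, Nat.lor kb K, cur3, rest3)

abbrev Res := Option (Nat × Nat × List Nat)

def bodyOR (env : List Entry) (rec : Nat → Nat → Nat → List Nat → Res) (k M B cur : Nat)
    (rest : List Nat) : Res :=
    let p := pop cur rest
    let w := p.1
    let m := w % 1024
    let t := (w / 1024) % 1024
    match Nat.beq m 1023 with
    | true =>
      match nth env t with
      | none => none
      | some (k', M', B', Z') =>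
        match Nat.ble k' (k+1) && Nat.beq M' M && Nat.beq B' B with
        | true => some (Z', w / 1048576, p.2)
        | false => none
    | false =>
    match tb (Nat.lor M B) m with
    | true => none
    | false =>
      let M' := Nat.lor M (bit m)
      match Nat.ble t 7 with
      | true =>
        match copyOK t ((w / 1048576) % 1024) M' with
        | true => some (bit m, w / 1073741824, p.2)
        | false => none
      | false =>
        match Nat.ble t 15 with
        | true =>
          let f := (w / 1073741824) % 1024
          match tb (Nat.lor M' B) f || !(copyOK (t - 8) ((w / 1048576) % 1024) (Nat.lor M' (bit f))) with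
          | true => none
          | false =>
            match rec M' (Nat.lor B (bit f)) (w / 1099511627776) p.2 with
            | none => none
            | some (Z, cur2, rest2) => some (Nat.lor Z (Nat.lor (bit m) (bit f)), cur2, rest2)
        | false =>
          match loop (rec M') m B (t - 16) (w / 1048576) p.2 with
          | none => none
          | some (U, I, K, cur3, rest3) =>
            match Nat.beq (Nat.land I K) I with
            | true => some (Nat.lor U (bit m), cur3, rest3)
            | false => none

def chkOR (env : List Entry) : Nat → Nat → Nat → Nat → List Nat → Res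
  | 0 => fun _ _ _ _ => none
  | k+1 => bodyOR env (chkOR env k) k

def chkTop (env : List Entry) (k M B Z : Nat) (ws : List Nat) : Bool :=
  match chkOR env k M B 1 ws with
  | some (Z', _, _) => Nat.beq Z' Z
  | none => false

/-! ### Semantics -/

def dec (i : Nat) : Cell := (((i % 32 : Nat) : ℤ), ((i / 32 : Nat) : ℤ))

theorem dec_inj {i j : Nat} (h : dec i = dec j) : i = j := by
  unfold dec at h
  have h1 : ((i % 32 : Nat) : ℤ) = ((j % 32 : Nat) : ℤ) := congrArg Prod.fst h
  have h2 : ((i / 32 : Nat) : ℤ) = ((j / 32 : Nat) : ℤ) := congrArg Prod.snd h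
  omega

def cells (n : Nat) : Set Cell := {c | ∃ i, tb n i = true ∧ c = dec i}

theorem tb_eq (M i : Nat) : tb M i = M.testBit i := by
  unfold tb
  show Nat.beq ((M >>> i) &&& 1) 1 = _
  rw [Nat.testBit, Nat.and_comm 1]
  rw [Nat.and_one_is_mod]
  rcases Nat.mod_two_eq_zero_or_one (M >>> i) with h | h <;> rw [h] <;> rfl

theorem tb_lor (a b i : Nat) : tb (Nat.lor a b) i = (tb a i || tb b i) := by
  simp only [tb_eq]; exact Nat.testBit_or a b i

theorem tb_land (a b i : Nat) : tb (Nat.land a b) i = (tb a i && tb b i) := by
  simp only [tb_eq]; exact Nat.testBit_and a b i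

theorem tb_bit (m i : Nat) : tb (bit m) i = decide (m = i) := by
  rw [tb_eq]
  show (1 <<< m).testBit i = _
  rw [Nat.one_shiftLeft, Nat.testBit_two_pow]

theorem tb_zero (i : Nat) : tb 0 i = false := by
  rw [tb_eq]; exact Nat.zero_testBit i

theorem mem_cells {n i : Nat} : dec i ∈ cells n ↔ tb n i = true := by
  constructor
  · rintro ⟨j, hj, h⟩
    rw [dec_inj h]; exact hj
  · intro h; exact ⟨i, h, rfl⟩

theorem cells_zero : cells 0 = ∅ := by
  ext c
  simp only [cells, Set.mem_ofPred_eq, tb_zero, Set.mem_empty_iff_false, iff_false, not_exists]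
  intro i h
  exact absurd h.1 (by simp)

theorem cells_lor_bit (M m : Nat) : cells (Nat.lor M (bit m)) = insert (dec m) (cells M) := by
  ext c
  simp only [cells, Set.mem_ofPred_eq, Set.mem_insert_iff, tb_lor, tb_bit, Bool.or_eq_true,
    decide_eq_true_eq]
  constructor
  · rintro ⟨i, h | h, rfl⟩
    · exact Or.inr ⟨i, h, rfl⟩
    · exact Or.inl (by rw [h])
  · rintro (h | ⟨i, h, rfl⟩)
    · exact ⟨m, Or.inr rfl, h⟩
    · exact ⟨i, Or.inl h, rfl⟩

theorem cells_mono_lor (B kb : Nat) : cells B ⊆ cells (Nat.lor B kb) := by
  rintro c ⟨i, h, rfl⟩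
  exact ⟨i, by rw [tb_lor, h]; rfl, rfl⟩

/-! ### soundness of `copyOK` -/

theorem mem_of (M a dx dy : Nat) (hx : a % 32 + dx ≤ 31) (hb : tb M (a + (dy * 32 + dx)) = true)
    (c : Cell) (hc1 : c.1 = ((a % 32 : Nat) : ℤ) + (dx : ℤ)) (hc2 : c.2 = ((a / 32 : Nat) : ℤ) + (dy : ℤ)) :
    c ∈ cells M := by
  refine ⟨a + (dy * 32 + dx), hb, ?_⟩
  unfold dec
  have e1 : (a + (dy * 32 + dx)) % 32 = a % 32 + dx := by omega
  have e2 : (a + (dy * 32 + dx)) / 32 = a / 32 + dy := by omega
  rw [e1, e2]
  ext
  · rw [hc1]; push_cast; rfl
  · rw [hc2]; push_cast; rfl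

theorem key_bit (M a mask : Nat) (h : Nat.land (Nat.shiftRight M a) mask = mask) (d : Nat)
    (hd : mask.testBit d = true) : tb M (a + d) = true := by
  rw [tb_eq]
  have h1 : ((M >>> a) &&& mask).testBit d = true := by
    have : (M >>> a) &&& mask = mask := h
    rw [this]; exact hd
  rw [Nat.testBit_and, Bool.and_eq_true] at h1
  rw [← Nat.testBit_shiftRight]
  exact h1.1

theorem copyOK_sound (o a M : Nat) (h : copyOK o a M = true) : ContainsCopy (cells M) := by
  unfold copyOK at h
  rw [Bool.and_eq_true] at h
  obtain ⟨h1, h2⟩ := h
  have h1 := Nat.le_of_ble_eq_true h1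
  have h2 := Nat.eq_of_beq_eq_true h2
  have key := key_bit M a (maskOf o) h2
  match o, h1, key with
  | 0, h1, key =>
    have h1 : a % 32 + 4 ≤ 31 := h1
    refine ⟨(((a % 32 : Nat) : ℤ) + 0, ((a / 32 : Nat) : ℤ) + 0), 1, 1, by norm_num, by norm_num, Or.inl fun p hp => ?_⟩
    simp only [snaky, Finset.mem_insert, Finset.mem_singleton] at hp
    rcases hp with rfl | rfl | rfl | rfl | rfl | rfl
    · exact mem_of M a 0 0 (by omega) (key (0 * 32 + 0) (by decide)) _ (by norm_num <;> ring) (by norm_num <;> ring)
    · exact mem_of M a 1 0 (by omega) (key (0 * 32 + 1) (by decide)) _ (by norm_num <;> ring) (by norm_num <;> ring)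
    · exact mem_of M a 2 0 (by omega) (key (0 * 32 + 2) (by decide)) _ (by norm_num <;> ring) (by norm_num <;> ring)
    · exact mem_of M a 3 0 (by omega) (key (0 * 32 + 3) (by decide)) _ (by norm_num <;> ring) (by norm_num <;> ring)
    · exact mem_of M a 3 1 (by omega) (key (1 * 32 + 3) (by decide)) _ (by norm_num <;> ring) (by norm_num <;> ring)
    · exact mem_of M a 4 1 (by omega) (key (1 * 32 + 4) (by decide)) _ (by norm_num <;> ring) (by norm_num <;> ring)
  | 1, h1, key =>
    have h1 : a % 32 + 4 ≤ 31 := h1
    refine ⟨(((a % 32 : Nat) : ℤ) + 4, ((a / 32 : Nat) : ℤ) + 0), -1, 1, by norm_num, by norm_num, Or.inl fun p hp => ?_⟩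
    simp only [snaky, Finset.mem_insert, Finset.mem_singleton] at hp
    rcases hp with rfl | rfl | rfl | rfl | rfl | rfl
    · exact mem_of M a 4 0 (by omega) (key (0 * 32 + 4) (by decide)) _ (by norm_num <;> ring) (by norm_num <;> ring)
    · exact mem_of M a 3 0 (by omega) (key (0 * 32 + 3) (by decide)) _ (by norm_num <;> ring) (by norm_num <;> ring)
    · exact mem_of M a 2 0 (by omega) (key (0 * 32 + 2) (by decide)) _ (by norm_num <;> ring) (by norm_num <;> ring)
    · exact mem_of M a 1 0 (by omega) (key (0 * 32 + 1) (by decide)) _ (by norm_num <;> ring) (by norm_num <;> ring)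
    · exact mem_of M a 1 1 (by omega) (key (1 * 32 + 1) (by decide)) _ (by norm_num <;> ring) (by norm_num <;> ring)
    · exact mem_of M a 0 1 (by omega) (key (1 * 32 + 0) (by decide)) _ (by norm_num <;> ring) (by norm_num <;> ring)
  | 2, h1, key =>
    have h1 : a % 32 + 4 ≤ 31 := h1
    refine ⟨(((a % 32 : Nat) : ℤ) + 0, ((a / 32 : Nat) : ℤ) + 1), 1, -1, by norm_num, by norm_num, Or.inl fun p hp => ?_⟩
    simp only [snaky, Finset.mem_insert, Finset.mem_singleton] at hp
    rcases hp with rfl | rfl | rfl | rfl | rfl | rfl
    · exact mem_of M a 0 1 (by omega) (key (1 * 32 + 0) (by decide)) _ (by norm_num <;> ring) (by norm_num <;> ring)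
    · exact mem_of M a 1 1 (by omega) (key (1 * 32 + 1) (by decide)) _ (by norm_num <;> ring) (by norm_num <;> ring)
    · exact mem_of M a 2 1 (by omega) (key (1 * 32 + 2) (by decide)) _ (by norm_num <;> ring) (by norm_num <;> ring)
    · exact mem_of M a 3 1 (by omega) (key (1 * 32 + 3) (by decide)) _ (by norm_num <;> ring) (by norm_num <;> ring)
    · exact mem_of M a 3 0 (by omega) (key (0 * 32 + 3) (by decide)) _ (by norm_num <;> ring) (by norm_num <;> ring)
    · exact mem_of M a 4 0 (by omega) (key (0 * 32 + 4) (by decide)) _ (by norm_num <;> ring) (by norm_num <;> ring)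
  | 3, h1, key =>
    have h1 : a % 32 + 4 ≤ 31 := h1
    refine ⟨(((a % 32 : Nat) : ℤ) + 4, ((a / 32 : Nat) : ℤ) + 1), -1, -1, by norm_num, by norm_num, Or.inl fun p hp => ?_⟩
    simp only [snaky, Finset.mem_insert, Finset.mem_singleton] at hp
    rcases hp with rfl | rfl | rfl | rfl | rfl | rfl
    · exact mem_of M a 4 1 (by omega) (key (1 * 32 + 4) (by decide)) _ (by norm_num <;> ring) (by norm_num <;> ring)
    · exact mem_of M a 3 1 (by omega) (key (1 * 32 + 3) (by decide)) _ (by norm_num <;> ring) (by norm_num <;> ring)
    · exact mem_of M a 2 1 (by omega) (key (1 * 32 + 2) (by decide)) _ (by norm_num <;> ring) (by norm_num <;> ring)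
    · exact mem_of M a 1 1 (by omega) (key (1 * 32 + 1) (by decide)) _ (by norm_num <;> ring) (by norm_num <;> ring)
    · exact mem_of M a 1 0 (by omega) (key (0 * 32 + 1) (by decide)) _ (by norm_num <;> ring) (by norm_num <;> ring)
    · exact mem_of M a 0 0 (by omega) (key (0 * 32 + 0) (by decide)) _ (by norm_num <;> ring) (by norm_num <;> ring)
  | 4, h1, key =>
    have h1 : a % 32 + 1 ≤ 31 := h1
    refine ⟨(((a % 32 : Nat) : ℤ) + 0, ((a / 32 : Nat) : ℤ) + 0), 1, 1, by norm_num, by norm_num, Or.inr fun p hp => ?_⟩
    simp only [snaky, Finset.mem_insert, Finset.mem_singleton] at hp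
    rcases hp with rfl | rfl | rfl | rfl | rfl | rfl
    · exact mem_of M a 0 0 (by omega) (key (0 * 32 + 0) (by decide)) _ (by norm_num <;> ring) (by norm_num <;> ring)
    · exact mem_of M a 0 1 (by omega) (key (1 * 32 + 0) (by decide)) _ (by norm_num <;> ring) (by norm_num <;> ring)
    · exact mem_of M a 0 2 (by omega) (key (2 * 32 + 0) (by decide)) _ (by norm_num <;> ring) (by norm_num <;> ring)
    · exact mem_of M a 0 3 (by omega) (key (3 * 32 + 0) (by decide)) _ (by norm_num <;> ring) (by norm_num <;> ring)
    · exact mem_of M a 1 3 (by omega) (key (3 * 32 + 1) (by decide)) _ (by norm_num <;> ring) (by norm_num <;> ring)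
    · exact mem_of M a 1 4 (by omega) (key (4 * 32 + 1) (by decide)) _ (by norm_num <;> ring) (by norm_num <;> ring)
  | 5, h1, key =>
    have h1 : a % 32 + 1 ≤ 31 := h1
    refine ⟨(((a % 32 : Nat) : ℤ) + 1, ((a / 32 : Nat) : ℤ) + 0), -1, 1, by norm_num, by norm_num, Or.inr fun p hp => ?_⟩
    simp only [snaky, Finset.mem_insert, Finset.mem_singleton] at hp
    rcases hp with rfl | rfl | rfl | rfl | rfl | rfl
    · exact mem_of M a 1 0 (by omega) (key (0 * 32 + 1) (by decide)) _ (by norm_num <;> ring) (by norm_num <;> ring)
    · exact mem_of M a 1 1 (by omega) (key (1 * 32 + 1) (by decide)) _ (by norm_num <;> ring) (by norm_num <;> ring)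
    · exact mem_of M a 1 2 (by omega) (key (2 * 32 + 1) (by decide)) _ (by norm_num <;> ring) (by norm_num <;> ring)
    · exact mem_of M a 1 3 (by omega) (key (3 * 32 + 1) (by decide)) _ (by norm_num <;> ring) (by norm_num <;> ring)
    · exact mem_of M a 0 3 (by omega) (key (3 * 32 + 0) (by decide)) _ (by norm_num <;> ring) (by norm_num <;> ring)
    · exact mem_of M a 0 4 (by omega) (key (4 * 32 + 0) (by decide)) _ (by norm_num <;> ring) (by norm_num <;> ring)
  | 6, h1, key =>
    have h1 : a % 32 + 1 ≤ 31 := h1
    refine ⟨(((a % 32 : Nat) : ℤ) + 0, ((a / 32 : Nat) : ℤ) + 4), 1, -1, by norm_num, by norm_num, Or.inr fun p hp => ?_⟩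
    simp only [snaky, Finset.mem_insert, Finset.mem_singleton] at hp
    rcases hp with rfl | rfl | rfl | rfl | rfl | rfl
    · exact mem_of M a 0 4 (by omega) (key (4 * 32 + 0) (by decide)) _ (by norm_num <;> ring) (by norm_num <;> ring)
    · exact mem_of M a 0 3 (by omega) (key (3 * 32 + 0) (by decide)) _ (by norm_num <;> ring) (by norm_num <;> ring)
    · exact mem_of M a 0 2 (by omega) (key (2 * 32 + 0) (by decide)) _ (by norm_num <;> ring) (by norm_num <;> ring)
    · exact mem_of M a 0 1 (by omega) (key (1 * 32 + 0) (by decide)) _ (by norm_num <;> ring) (by norm_num <;> ring)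
    · exact mem_of M a 1 1 (by omega) (key (1 * 32 + 1) (by decide)) _ (by norm_num <;> ring) (by norm_num <;> ring)
    · exact mem_of M a 1 0 (by omega) (key (0 * 32 + 1) (by decide)) _ (by norm_num <;> ring) (by norm_num <;> ring)
  | (n+7), h1, key =>
    have h1 : a % 32 + 1 ≤ 31 := h1
    have key : ∀ (d : ℕ), (0x200000002000000020000000300000001 : Nat).testBit d = true → tb M (a + d) = true := key
    refine ⟨(((a % 32 : Nat) : ℤ) + 1, ((a / 32 : Nat) : ℤ) + 4), -1, -1, by norm_num, by norm_num, Or.inr fun p hp => ?_⟩
    simp only [snaky, Finset.mem_insert, Finset.mem_singleton] at hp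
    rcases hp with rfl | rfl | rfl | rfl | rfl | rfl
    · exact mem_of M a 1 4 (by omega) (key (4 * 32 + 1) (by decide)) _ (by norm_num <;> ring) (by norm_num <;> ring)
    · exact mem_of M a 1 3 (by omega) (key (3 * 32 + 1) (by decide)) _ (by norm_num <;> ring) (by norm_num <;> ring)
    · exact mem_of M a 1 2 (by omega) (key (2 * 32 + 1) (by decide)) _ (by norm_num <;> ring) (by norm_num <;> ring)
    · exact mem_of M a 1 1 (by omega) (key (1 * 32 + 1) (by decide)) _ (by norm_num <;> ring) (by norm_num <;> ring)
    · exact mem_of M a 0 1 (by omega) (key (1 * 32 + 0) (by decide)) _ (by norm_num <;> ring) (by norm_num <;> ring)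
    · exact mem_of M a 0 0 (by omega) (key (0 * 32 + 0) (by decide)) _ (by norm_num <;> ring) (by norm_num <;> ring)

/-! ### soundness of the checker -/

def Valid (k M B Z : Nat) : Prop :=
  ∀ X : Set Cell, (∀ i, tb Z i = true → dec i ∉ X) → W k (cells M) (cells B ∪ X)

def ValidE (e : Entry) : Prop := Valid e.1 e.2.1 e.2.2.1 e.2.2.2

def AllValid : List Entry → Prop
  | [] => True
  | e :: l => ValidE e ∧ AllValid l

theorem nth_valid : ∀ (env : List Entry), AllValid env → ∀ (t : Nat) (e : Entry),
    nth env t = some e → ValidE e
  | [], _, _, _, h => by simp [nth] at h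
  | e' :: _, hv, 0, e, h => by
    simp only [nth, Option.some.injEq] at h
    rw [← h]; exact hv.1
  | _ :: l, hv, n+1, e, h => by
    simp only [nth] at h
    exact nth_valid l hv.2 n e h

theorem child_sound (k M' B kb Z : Nat) (hkb : kb = 0 ∨ ∃ key, kb = bit key)
    (hv : Valid k M' (Nat.lor B kb) Z) (X : Set Cell) (hX : ∀ i, tb Z i = true → dec i ∉ X)
    (r : Cell) (hr : (∃ i, tb kb i = true ∧ r = dec i) ∨ r ∉ cells Z) :
    W k (cells M') (insert r (cells B ∪ X)) := by
  rcases hr with ⟨i, hi, rfl⟩ | hr
  · rcases hkb with rfl | ⟨key, rfl⟩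
    · rw [tb_zero] at hi; exact absurd hi (by simp)
    · rw [tb_bit, decide_eq_true_eq] at hi
      subst hi
      have := hv X hX
      rw [cells_lor_bit, Set.insert_union] at this
      exact this
  · have := hv (insert r X) (by
      intro i hi hmem
      rcases hmem with h | h
      · exact hr ⟨i, hi, h.symm⟩
      · exact hX i hi h)
    refine W_mono_B k ?_ this
    intro c hc
    rcases hc with rfl | hc | hc
    · exact Or.inr (Or.inl rfl)
    · exact Or.inl (cells_mono_lor B kb hc)
    · exact Or.inr (Or.inr hc)

theorem loop_sound (f : Nat → Nat → List Nat → Option (Nat × Nat × List Nat)) (m B k M' : Nat)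
    (hf : ∀ B' c r Z c' r', f B' c r = some (Z, c', r') → Valid k M' B' Z) :
    ∀ (c cur : Nat) (rest : List Nat) (U I K cur' : Nat) (rest' : List Nat),
      loop f m B c cur rest = some (U, I, K, cur', rest') →
      ∀ X : Set Cell, (∀ i, tb U i = true → dec i ∉ X) → ∀ r : Cell,
        ((∃ i, tb K i = true ∧ r = dec i) ∨ r ∉ cells I) →
        W k (cells M') (insert r (cells B ∪ X)) := by
  intro c
  induction c with
  | zero => intro cur rest U I K cur' rest' h; simp [loop] at h
  | succ c ih =>
    intro cur rest U I K cur' rest' h X hX r hr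
    rw [loop] at h
    have hkb : ∀ key, (cond (Nat.beq key m) 0 (bit key)) = 0 ∨
        ∃ key', (cond (Nat.beq key m) 0 (bit key)) = bit key' := by
      intro key
      cases Nat.beq key m
      · exact Or.inr ⟨key, rfl⟩
      · exact Or.inl rfl
    split at h
    · exact absurd h (by simp)
    · rename_i Z cur2 rest2 hfe
      have hv := hf _ _ _ _ _ _ hfe
      split at h
      · simp only [Option.some.injEq, Prod.mk.injEq] at h
        obtain ⟨rfl, rfl, rfl, _, _⟩ := h
        exact child_sound k M' B _ _ (hkb _) hv X hX r hr
      · split at h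
        · exact absurd h (by simp)
        · rename_i U' I' K' cur3 rest3 hl
          simp only [Option.some.injEq, Prod.mk.injEq] at h
          obtain ⟨rfl, rfl, rfl, _, _⟩ := h
          have hX1 : ∀ i, tb Z i = true → dec i ∉ X := fun i hi => hX i (by rw [tb_lor, hi]; rfl)
          have hX2 : ∀ i, tb U' i = true → dec i ∉ X := fun i hi => hX i (by rw [tb_lor, hi]; simp)
          rcases hr with ⟨i, hi, rfl⟩ | hr
          · rw [tb_lor, Bool.or_eq_true] at hi
            rcases hi with hi | hi
            · exact child_sound k M' B _ _ (hkb _) hv X hX1 _ (Or.inl ⟨i, hi, rfl⟩)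
            · exact ih _ _ _ _ _ _ _ hl X hX2 _ (Or.inl ⟨i, hi, rfl⟩)
          · by_cases hz : r ∈ cells Z
            · have : r ∉ cells I' := by
                intro hI
                obtain ⟨i, hi, rfl⟩ := hz
                exact hr ⟨i, by rw [tb_land, hi, mem_cells.mp hI]; rfl, rfl⟩
              exact ih _ _ _ _ _ _ _ hl X hX2 _ (Or.inr this)
            · exact child_sound k M' B _ _ (hkb _) hv X hX1 _ (Or.inr hz)

theorem not_mem_of_occ {M B m : Nat} (h : tb (Nat.lor M B) m = false) :
    dec m ∉ cells M ∧ dec m ∉ cells B := by
  rw [tb_lor, Bool.or_eq_false_iff] at h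
  exact ⟨fun hm => by rw [mem_cells.mp hm] at h; exact absurd h.1 (by simp),
    fun hm => by rw [mem_cells.mp hm] at h; exact absurd h.2 (by simp)⟩

theorem chkOR_sound (env : List Entry) (henv : AllValid env) :
    ∀ (k M B cur : Nat) (rest : List Nat) (Z cur' : Nat) (rest' : List Nat),
      chkOR env k M B cur rest = some (Z, cur', rest') → Valid k M B Z := by
  intro k
  induction k with
  | zero => intro M B cur rest Z cur' rest' h; exact absurd h (by simp [chkOR])
  | succ k ih =>
    intro M B cur rest Z cur' rest' h
    change bodyOR env (chkOR env k) k M B cur rest = _ at h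
    unfold bodyOR at h
    dsimp only at h
    split at h
    · -- reference to an already validated entry
      split at h
      · exact absurd h (by simp)
      · rename_i k' M' B' Z' hn
        split at h
        · rename_i hc
          simp only [Option.some.injEq, Prod.mk.injEq] at h
          obtain ⟨rfl, _, _⟩ := h
          rw [Bool.and_eq_true, Bool.and_eq_true] at hc
          obtain ⟨⟨hk, hM⟩, hB⟩ := hc
          have hk := Nat.le_of_ble_eq_true hk
          have hM := Nat.eq_of_beq_eq_true hM
          have hB := Nat.eq_of_beq_eq_true hB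
          subst hM hB
          have hv : Valid k' M' B' Z' := nth_valid env henv _ _ hn
          intro X hX
          exact W_mono_k hk (hv X hX)
        · exact absurd h (by simp)
    · split at h
      · exact absurd h (by simp)
      · rename_i hocc
        obtain ⟨hmM, hmB⟩ := not_mem_of_occ hocc
        split at h
        · split at h
          · -- immediate win
            rename_i hcopy
            simp only [Option.some.injEq, Prod.mk.injEq] at h
            obtain ⟨rfl, _, _⟩ := h
            intro X hX
            refine Or.inr ⟨dec _, hmM, ?_, fun r _ => W_of_copy ?_ _ _⟩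
            · rintro (hx | hx)
              · exact hmB hx
              · exact hX _ (by rw [tb_bit]; simp) hx
            · rw [← cells_lor_bit]; exact copyOK_sound _ _ _ hcopy
          · exact absurd h (by simp)
        · split at h
          · split at h
            · exact absurd h (by simp)
            · rename_i hchk
              rw [Bool.or_eq_false_iff] at hchk
              obtain ⟨hoccf, hcopy⟩ := hchk
              rw [Bool.not_eq_false'] at hcopy
              obtain ⟨hfM, hfB⟩ := not_mem_of_occ hoccf
              split at h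
              · exact absurd h (by simp)
              · rename_i Z1 cur2 rest2 hrec
                simp only [Option.some.injEq, Prod.mk.injEq] at h
                obtain ⟨rfl, _, _⟩ := h
                have hv := ih _ _ _ _ _ _ _ hrec
                intro X hX
                refine Or.inr ⟨dec _, hmM, ?_, fun r _ => ?_⟩
                · rintro (hx | hx)
                  · exact hmB hx
                  · exact hX _ (by rw [tb_lor, tb_lor, tb_bit]; simp) hx
                · rw [← cells_lor_bit]
                  by_cases hrf : r = dec ((pop cur rest).1 / 1073741824 % 1024)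
                  · have := hv X (fun i hi => hX i (by rw [tb_lor, hi]; rfl))
                    rw [cells_lor_bit B, Set.insert_union] at this
                    rw [hrf]; exact this
                  · cases k with
                    | zero => exact absurd hrec (by simp [chkOR])
                    | succ k0 =>
                      refine Or.inr ⟨dec _, hfM, ?_, fun r' _ => W_of_copy ?_ _ _⟩
                      · rintro (hx | hx | hx)
                        · exact hrf hx.symm
                        · exact hfB hx
                        · exact hX _ (by rw [tb_lor, tb_lor, tb_bit, tb_bit]; simp) hx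
                      · rw [← cells_lor_bit]; exact copyOK_sound _ _ _ hcopy
          · split at h
            · exact absurd h (by simp)
            · rename_i U I K cur3 rest3 hl
              split at h
              · rename_i hIK
                have hIK := Nat.eq_of_beq_eq_true hIK
                simp only [Option.some.injEq, Prod.mk.injEq] at h
                obtain ⟨rfl, _, _⟩ := h
                intro X hX
                refine Or.inr ⟨dec _, hmM, ?_, fun r _ => ?_⟩
                · rintro (hx | hx)
                  · exact hmB hx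
                  · exact hX _ (by rw [tb_lor, tb_bit]; simp) hx
                · rw [← cells_lor_bit]
                  refine loop_sound _ _ B k _ (fun B' c r Z c' r' h => ih _ B' c r Z c' r' h)
                    _ _ _ _ _ _ _ _ hl X (fun i hi => hX i (by rw [tb_lor, hi]; rfl)) r ?_
                  by_cases hr : r ∈ cells I
                  · obtain ⟨i, hi, rfl⟩ := hr
                    refine Or.inl ⟨i, ?_, rfl⟩
                    have : tb (Nat.land I K) i = tb I i := by rw [hIK]
                    rw [tb_land, hi] at this
                    simpa using this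
                  · exact Or.inr hr
              · exact absurd h (by simp)

theorem chkTop_sound (env : List Entry) (henv : AllValid env) (k M B Z : Nat) (ws : List Nat)
    (h : chkTop env k M B Z ws = true) : Valid k M B Z := by
  unfold chkTop at h
  split at h
  · rename_i Z' c r hc
    have := Nat.eq_of_beq_eq_true h
    subst this
    exact chkOR_sound env henv _ _ _ _ _ _ _ _ hc
  · exact absurd h (by simp)

theorem W_of_valid {Z : Nat} (h : Valid 21 0 0 Z) : W 21 ∅ ∅ := by
  have := h ∅ (fun _ _ => Set.notMem_empty _)
  rw [cells_zero, Set.union_empty] at this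
  exact this

end Crest.Agent.S0047
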