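import Crest.Statements.S0047

set_option autoImplicit false

namespace Crest.Agent.S0047

open Crest.CombinatoricsR.PolyominoGame

abbrev Cell := ℤ × ℤ

/-- `W k M B`: Maker (to move, owning `M`, Breaker owning `B`) completes a copy within `k` more moves. -/
def W : ℕ → Set Cell → Set Cell → Prop
  | 0, M, _ => ContainsCopy M
  | k+1, M, B => ContainsCopy M ∨
      ∃ m, m ∉ M ∧ m ∉ B ∧ ∀ r, r ∉ insert m M → W k (insert m M) (insert r B)

theorem copy_mono {M M' : Set Cell} (h : M ⊆ M') (hc : ContainsCopy M) : ContainsCopy M' := by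
  obtain ⟨t, e1, e2, h1, h2, h3⟩ := hc
  refine ⟨t, e1, e2, h1, h2, ?_⟩
  rcases h3 with h3 | h3
  · exact Or.inl fun p hp => h (h3 p hp)
  · exact Or.inr fun p hp => h (h3 p hp)

theorem W_of_copy {M : Set Cell} (hc : ContainsCopy M) (k : ℕ) (B : Set Cell) : W k M B := by
  cases k with
  | zero => exact hc
  | succ k => exact Or.inl hc

theorem W_mono_B : ∀ (k : ℕ) {M B B' : Set Cell}, B' ⊆ B → W k M B → W k M B' := by
  intro k
  induction k with
  | zero => intro M B B' _ h; exact h
  | succ k ih =>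
    intro M B B' hB h
    rcases h with h | ⟨m, hm, hmB, h⟩
    · exact Or.inl h
    · exact Or.inr ⟨m, hm, fun hx => hmB (hB hx), fun r hr =>
        ih (Set.insert_subset_insert hB) (h r hr)⟩

theorem W_succ : ∀ (k : ℕ) {M B : Set Cell}, W k M B → W (k+1) M B := by
  intro k
  induction k with
  | zero => intro M B h; exact Or.inl h
  | succ k ih =>
    intro M B h
    rcases h with h | ⟨m, hm, hmB, h⟩
    · exact Or.inl h
    · exact Or.inr ⟨m, hm, hmB, fun r hr => ih (h r hr)⟩

theorem W_mono_k {k k' : ℕ} (hk : k ≤ k') {M B : Set Cell} (h : W k M B) : W k' M B := by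
  induction hk with
  | refl => exact h
  | step _ ih => exact W_succ _ ih

open Classical in
/-- Maker's move in a state. -/
noncomputable def mv (k : ℕ) (M B : Set Cell) : Cell :=
  if h : ∃ m, m ∉ M ∧ m ∉ B ∧ ∀ r, r ∉ insert m M → W (k-1) (insert m M) (insert r B) then h.choose
  else if h2 : ∃ m, m ∉ M ∧ m ∉ B then h2.choose else (0, 0)

noncomputable def step (s : ℕ × Set Cell × Set Cell) (r : Cell) : ℕ × Set Cell × Set Cell :=
  (s.1 - 1, insert (mv s.1 s.2.1 s.2.2) s.2.1, insert r s.2.2)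

noncomputable def st (l : List Cell) : ℕ × Set Cell × Set Cell := l.foldl step (21, ∅, ∅)

noncomputable def strat (l : List Cell) : Cell := mv (st l).1 (st l).2.1 (st l).2.2

theorem exists_fresh {M B : Set Cell} (hM : M.Finite) (hB : B.Finite) : ∃ m, m ∉ M ∧ m ∉ B := by
  obtain ⟨m, hm⟩ := (hM.union hB).exists_notMem
  exact ⟨m, fun h => hm (Or.inl h), fun h => hm (Or.inr h)⟩

theorem mv_fresh {k : ℕ} {M B : Set Cell} (hM : M.Finite) (hB : B.Finite) :
    mv k M B ∉ M ∧ mv k M B ∉ B := by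
  unfold mv
  split_ifs with h h2
  · exact ⟨h.choose_spec.1, h.choose_spec.2.1⟩
  · exact h2.choose_spec
  · exact absurd (exists_fresh hM hB) h2

theorem mv_spec {k : ℕ} {M B : Set Cell} (hW : W (k+1) M B) (r : Cell)
    (hr : r ∉ insert (mv (k+1) M B) M) :
    W k (insert (mv (k+1) M B) M) (insert r B) := by
  by_cases h : ∃ m, m ∉ M ∧ m ∉ B ∧ ∀ r, r ∉ insert m M → W k (insert m M) (insert r B)
  · have e : mv (k+1) M B = h.choose := by
      unfold mv
      exact dif_pos h
    rw [e] at hr ⊢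
    exact h.choose_spec.2.2 r hr
  · rcases hW with hc | hc
    · exact W_of_copy (copy_mono (Set.subset_insert _ _) hc) _ _
    · exact absurd hc h

theorem st_succ (b : ℕ → Cell) (k : ℕ) :
    st ((List.range (k+1)).map b) = step (st ((List.range k).map b)) (b k) := by
  unfold st
  rw [List.range_succ, List.map_append, List.foldl_append]
  rfl

theorem main_of_W (hW : W 21 ∅ ∅) :
    ∃ σ : List (ℤ × ℤ) → ℤ × ℤ, ∀ b : ℕ → ℤ × ℤ,
      (∀ k : ℕ, k < 20 →
        (∀ j : ℕ, j ≤ k → b k ≠ makerClaim σ b j) ∧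
        (∀ j : ℕ, j < k → b k ≠ b j)) →
      (∀ k : ℕ, k ≤ 20 →
        (∀ j : ℕ, j < k → makerClaim σ b k ≠ makerClaim σ b j) ∧
        (∀ j : ℕ, j < k → makerClaim σ b k ≠ b j)) ∧
      ContainsCopy {c | ∃ j : ℕ, j ≤ 20 ∧ c = makerClaim σ b j} := by
  refine ⟨strat, fun b hb => ?_⟩
  set s : ℕ → ℕ × Set Cell × Set Cell := fun k => st ((List.range k).map b) with hs
  have hclaim : ∀ k, makerClaim strat b k = mv (s k).1 (s k).2.1 (s k).2.2 := fun k => rfl
  have hsucc : ∀ k, s (k+1) = step (s k) (b k) := fun k => st_succ b k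
  -- invariant
  have inv : ∀ k, k ≤ 20 → (s k).1 = 21 - k ∧ (s k).2.1 = {c | ∃ j, j < k ∧ c = makerClaim strat b j} ∧
      (s k).2.2 = {c | ∃ j, j < k ∧ c = b j} ∧ W (21 - k) (s k).2.1 (s k).2.2 := by
    intro k
    induction k with
    | zero =>
      intro _
      refine ⟨rfl, ?_, ?_, ?_⟩
      · show (∅ : Set Cell) = _
        ext c; simp
      · show (∅ : Set Cell) = _
        ext c; simp
      · exact hW
    | succ k ih =>
      intro hk
      obtain ⟨h1, h2, h3, h4⟩ := ih (by omega)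
      rw [hsucc k]
      refine ⟨?_, ?_, ?_, ?_⟩
      · show (s k).1 - 1 = _
        rw [h1]; omega
      · show insert (mv (s k).1 (s k).2.1 (s k).2.2) (s k).2.1 = _
        rw [← hclaim k, h2]
        ext c
        simp only [Set.mem_insert_iff, Set.mem_ofPred_eq]
        constructor
        · rintro (h | ⟨j, hj, h⟩)
          · exact ⟨k, by omega, h⟩
          · exact ⟨j, by omega, h⟩
        · rintro ⟨j, hj, h⟩
          rcases Nat.lt_succ_iff_lt_or_eq.mp hj with hj | hj
          · exact Or.inr ⟨j, hj, h⟩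
          · subst hj; exact Or.inl h
      · show insert (b k) (s k).2.2 = _
        rw [h3]
        ext c
        simp only [Set.mem_insert_iff, Set.mem_ofPred_eq]
        constructor
        · rintro (h | ⟨j, hj, h⟩)
          · exact ⟨k, by omega, h⟩
          · exact ⟨j, by omega, h⟩
        · rintro ⟨j, hj, h⟩
          rcases Nat.lt_succ_iff_lt_or_eq.mp hj with hj | hj
          · exact Or.inr ⟨j, hj, h⟩
          · subst hj; exact Or.inl h
      · show W (21 - (k+1)) (insert (mv (s k).1 (s k).2.1 (s k).2.2) (s k).2.1) (insert (b k) (s k).2.2)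
        have e : 21 - k = (21 - (k+1)) + 1 := by omega
        rw [h1, e]
        rw [e] at h4
        apply mv_spec h4
        rw [← e, ← h1, ← hclaim k, h2]
        simp only [Set.mem_insert_iff, Set.mem_ofPred_eq, not_or, not_exists, not_and]
        exact ⟨(hb k (by omega)).1 k le_rfl, fun j hj => (hb k (by omega)).1 j (by omega)⟩
  have finM : ∀ k, k ≤ 20 → (s k).2.1.Finite := by
    intro k hk
    rw [(inv k hk).2.1]
    have : {c | ∃ j, j < k ∧ c = makerClaim strat b j} = (fun j => makerClaim strat b j) '' (Set.Iio k) := by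
      ext c; simp only [Set.mem_ofPred_eq, Set.mem_image, Set.mem_Iio]
      constructor
      · rintro ⟨j, hj, h⟩; exact ⟨j, hj, h.symm⟩
      · rintro ⟨j, hj, h⟩; exact ⟨j, hj, h.symm⟩
    rw [this]
    exact (Set.finite_Iio k).image _
  have finB : ∀ k, k ≤ 20 → (s k).2.2.Finite := by
    intro k hk
    rw [(inv k hk).2.2.1]
    have : {c | ∃ j, j < k ∧ c = b j} = b '' (Set.Iio k) := by
      ext c; simp only [Set.mem_ofPred_eq, Set.mem_image, Set.mem_Iio]
      constructor
      · rintro ⟨j, hj, h⟩; exact ⟨j, hj, h.symm⟩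
      · rintro ⟨j, hj, h⟩; exact ⟨j, hj, h.symm⟩
    rw [this]
    exact (Set.finite_Iio k).image _
  constructor
  · intro k hk
    have hf := mv_fresh (k := (s k).1) (finM k hk) (finB k hk)
    rw [← hclaim k] at hf
    obtain ⟨_, h2, h3, _⟩ := inv k hk
    rw [h2, h3] at hf
    simp only [Set.mem_ofPred_eq, not_exists, not_and] at hf
    exact ⟨fun j hj => hf.1 j hj, fun j hj => hf.2 j hj⟩
  · obtain ⟨h1, h2, h3, h4⟩ := inv 20 le_rfl
    have hset : {c | ∃ j : ℕ, j ≤ 20 ∧ c = makerClaim strat b j} =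
        insert (mv (s 20).1 (s 20).2.1 (s 20).2.2) (s 20).2.1 := by
      rw [← hclaim 20, h2]
      ext c
      simp only [Set.mem_insert_iff, Set.mem_ofPred_eq]
      constructor
      · rintro ⟨j, hj, h⟩
        rcases Nat.lt_succ_iff_lt_or_eq.mp (Nat.lt_succ_of_le hj) with hj | hj
        · exact Or.inr ⟨j, hj, h⟩
        · subst hj; exact Or.inl h
      · rintro (h | ⟨j, hj, h⟩)
        · exact ⟨20, le_rfl, h⟩
        · exact ⟨j, by omega, h⟩
    rw [hset]
    have h4' : W (0+1) (s 20).2.1 (s 20).2.2 := h4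
    have h1' : (s 20).1 = 0 + 1 := h1
    rw [h1']
    obtain ⟨r, hr, _⟩ := exists_fresh (((finM 20 le_rfl).insert (mv (0+1) (s 20).2.1 (s 20).2.2))) (finB 20 le_rfl)
    exact mv_spec h4' r hr

end Crest.Agent.S0047
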