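import Crest.Agent.S0076_Hyp

/-!
# S0076: the conclusion side

`spread_of_star`: the spread hypothesis of `PP56.s0076_of_spread` follows from the purely
combinatorial bound `inj(J,H) ≤ κ ^ e(J) · (n)_{v(J)}` for graphs `J` without isolated vertices.
-/

set_option autoImplicit false

namespace Crest.Agent.Hyp95

open Finset Crest.FinProb Crest.CombinatoricsR.RandomGraph

variable {n : ℕ} {W : Type} [Fintype W] [DecidableEq W]

/-- number of extensions of a partial injection. -/
theorem card_extensions_le (s : Finset (Fin n)) (ψ : s → W) (hψ : Function.Injective ψ) :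
    Nat.card {σ : W ↪ Fin n // ∀ x : s, σ (ψ x) = x.1}
      ≤ (n - s.card).descFactorial (Fintype.card W - s.card) := by
  classical
  have hc1 : Fintype.card {y : Fin n // y ∉ s} = n - s.card := by
    rw [Fintype.card_subtype_compl (fun y : Fin n => y ∈ s), Fintype.card_fin]
    simp
  have hc2 : Fintype.card {w : W // w ∉ Set.range ψ} = Fintype.card W - s.card := by
    rw [Fintype.card_subtype_compl (fun w : W => w ∈ Set.range ψ)]
    congr 1
    have : Fintype.card {w : W // w ∈ Set.range ψ} = Fintype.card s :=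
      (Fintype.card_congr (Equiv.ofInjective ψ hψ)).symm
    rw [this]
    simp
  rw [← hc1, ← hc2, ← Fintype.card_embedding_eq, ← Nat.card_eq_fintype_card]
  refine Nat.card_le_card_of_injective
    (fun σ : {σ : W ↪ Fin n // ∀ x : s, σ (ψ x) = x.1} =>
      (⟨fun w : {w : W // w ∉ Set.range ψ} => (⟨σ.1 w.1, ?_⟩ : {y : Fin n // y ∉ s}), ?_⟩ :
        {w : W // w ∉ Set.range ψ} ↪ {y : Fin n // y ∉ s})) ?_
  · intro hmem
    have h1 := σ.2 ⟨σ.1 w.1, hmem⟩
    exact w.2 ⟨_, σ.1.injective h1⟩
  · intro a b hab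
    have : σ.1 a.1 = σ.1 b.1 := congrArg Subtype.val hab
    exact Subtype.ext (σ.1.injective this)
  · intro σ τ h
    apply Subtype.ext
    ext w
    by_cases hw : w ∈ Set.range ψ
    · obtain ⟨x, rfl⟩ := hw
      rw [σ.2 x, τ.2 x]
    · have h2 := DFunLike.congr_fun h (⟨w, hw⟩ : {w : W // w ∉ Set.range ψ})
      have h3 := congrArg Subtype.val h2
      exact congrArg Fin.val h3

/-- the vertices touched by a set of edge slots. -/
def vset (I : Finset (EdgeSlot n)) : Finset (Fin n) :=
  Finset.univ.filter fun v => ∃ z ∈ I, v ∈ z.1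

/-- the graph on `vset I` whose edges are the slots of `I`. -/
def slotGraph (I : Finset (EdgeSlot n)) : SimpleGraph (vset I) where
  Adj x y := ∃ z ∈ I, z.1 = s(x.1, y.1)
  symm := ⟨by
    rintro x y ⟨z, hz, h⟩
    exact ⟨z, hz, by rw [h, Sym2.eq_swap]⟩⟩
  loopless := ⟨by
    rintro x ⟨z, _, h⟩
    exact z.2 (by rw [h]; simp)⟩

theorem mem_vset {I : Finset (EdgeSlot n)} {z : EdgeSlot n} (hz : z ∈ I) {v : Fin n}
    (hv : v ∈ z.1) : v ∈ vset I :=
  Finset.mem_filter.mpr ⟨Finset.mem_univ _, z, hz, hv⟩

theorem slotGraph_no_isolated (I : Finset (EdgeSlot n)) (v : vset I) :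
    ∃ u, (slotGraph I).Adj v u := by
  obtain ⟨z, hz, hv⟩ := (Finset.mem_filter.mp v.2).2
  obtain ⟨u, hu⟩ := Sym2.mem_iff_exists.mp hv
  have hu' : u ∈ z.1 := by rw [hu]; simp
  exact ⟨⟨u, mem_vset hz hu'⟩, z, hz, hu⟩

theorem card_edgeFinset_slotGraph (I : Finset (EdgeSlot n)) [DecidableRel (slotGraph I).Adj] :
    (slotGraph I).edgeFinset.card = I.card := by
  classical
  have h1 : (slotGraph I).edgeFinset.image (Sym2.map (Subtype.val : vset I → Fin n))
      = I.image (fun z : EdgeSlot n => z.1) := by
    ext y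
    constructor
    · intro hy
      obtain ⟨e, he, rfl⟩ := Finset.mem_image.mp hy
      induction e using Sym2.ind with
      | _ a b =>
        rw [SimpleGraph.mem_edgeFinset, SimpleGraph.mem_edgeSet] at he
        obtain ⟨z, hz, h⟩ := he
        exact Finset.mem_image.mpr ⟨z, hz, by rw [h]; rfl⟩
    · intro hy
      obtain ⟨z, hz, rfl⟩ := Finset.mem_image.mp hy
      obtain ⟨a, b, hab⟩ : ∃ a b, z.1 = s(a, b) := by
        induction h : z.1 using Sym2.ind with
        | _ a b => exact ⟨a, b, rfl⟩
      have ha : a ∈ z.1 := by rw [hab]; simp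
      have hb : b ∈ z.1 := by rw [hab]; simp
      refine Finset.mem_image.mpr ⟨s(⟨a, mem_vset hz ha⟩, ⟨b, mem_vset hz hb⟩), ?_, ?_⟩
      · rw [SimpleGraph.mem_edgeFinset, SimpleGraph.mem_edgeSet]
        exact ⟨z, hz, hab⟩
      · rw [hab]; rfl
  calc (slotGraph I).edgeFinset.card
      = ((slotGraph I).edgeFinset.image (Sym2.map (Subtype.val : vset I → Fin n))).card :=
        (Finset.card_image_of_injective _ (Sym2.map.injective Subtype.val_injective)).symm
    _ = (I.image (fun z : EdgeSlot n => z.1)).card := by rw [h1]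
    _ = I.card := Finset.card_image_of_injective _ Subtype.val_injective

omit [DecidableEq W] in
/-- a labelled copy of `H` through `I` has every vertex of `I` in its range. -/
theorem exists_preimage (H : SimpleGraph W) [DecidableRel H.Adj] (I : Finset (EdgeSlot n))
    (σ : W ↪ Fin n) (h : I ⊆ PP56.copyEdges H σ) (x : vset I) : ∃ w, σ w = x.1 := by
  obtain ⟨z, hz, hv⟩ := (Finset.mem_filter.mp x.2).2
  obtain ⟨e, _, hez⟩ := (Finset.mem_filter.mp (h hz)).2
  rw [← hez, Sym2.mem_map] at hv
  obtain ⟨w, _, hw⟩ := hv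
  exact ⟨w, hw⟩

/-- the copy of `slotGraph I` in `H` read off from a labelled copy `σ` of `H` through `I`. -/
noncomputable def pullCopy (H : SimpleGraph W) [DecidableRel H.Adj] (I : Finset (EdgeSlot n))
    (σ : W ↪ Fin n) (h : I ⊆ PP56.copyEdges H σ) : (slotGraph I).Copy H where
  toHom :=
    { toFun := fun x => Classical.choose (exists_preimage H I σ h x)
      map_rel' := by
        intro x y hxy
        have hx := Classical.choose_spec (exists_preimage H I σ h x)
        have hy := Classical.choose_spec (exists_preimage H I σ h y)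
        obtain ⟨z, hz, hzxy⟩ := hxy
        obtain ⟨e, he, hez⟩ := (Finset.mem_filter.mp (h hz)).2
        induction e using Sym2.ind with
        | _ a b =>
          rw [SimpleGraph.mem_edgeFinset, SimpleGraph.mem_edgeSet] at he
          rw [hzxy, Sym2.map_mk, Sym2.eq_iff] at hez
          rcases hez with ⟨h1, h2⟩ | ⟨h1, h2⟩
          · have e1 : a = Classical.choose (exists_preimage H I σ h x) :=
              σ.injective (h1.trans hx.symm)
            have e2 : b = Classical.choose (exists_preimage H I σ h y) :=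
              σ.injective (h2.trans hy.symm)
            rw [← e1, ← e2]; exact he
          · have e1 : a = Classical.choose (exists_preimage H I σ h y) :=
              σ.injective (h1.trans hy.symm)
            have e2 : b = Classical.choose (exists_preimage H I σ h x) :=
              σ.injective (h2.trans hx.symm)
            rw [← e1, ← e2]; exact he.symm }
  injective' := by
    intro x y hxy
    have hx := Classical.choose_spec (exists_preimage H I σ h x)
    have hy := Classical.choose_spec (exists_preimage H I σ h y)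
    apply Subtype.ext
    rw [← hx, ← hy]
    exact congrArg σ hxy

omit [DecidableEq W] in
theorem pullCopy_spec (H : SimpleGraph W) [DecidableRel H.Adj] (I : Finset (EdgeSlot n))
    (σ : W ↪ Fin n) (h : I ⊆ PP56.copyEdges H σ) (x : vset I) :
    σ (pullCopy H I σ h x) = x.1 :=
  Classical.choose_spec (exists_preimage H I σ h x)

theorem card_good_le (H : SimpleGraph W) [DecidableRel H.Adj] (I : Finset (EdgeSlot n)) :
    (Finset.univ.filter fun σ : W ↪ Fin n => I ⊆ PP56.copyEdges H σ).card
      ≤ Nat.card ((slotGraph I).Copy H) *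
          (n - (vset I).card).descFactorial (Fintype.card W - (vset I).card) := by
  classical
  have hfin : Finite ((slotGraph I).Copy H) :=
    Finite.of_injective (fun f => (f : vset I → W)) DFunLike.coe_injective
  let _ : Fintype ((slotGraph I).Copy H) := Fintype.ofFinite _
  have h1 : (Finset.univ.filter fun σ : W ↪ Fin n => I ⊆ PP56.copyEdges H σ).card
      = Nat.card {σ : W ↪ Fin n // I ⊆ PP56.copyEdges H σ} := by
    rw [Nat.card_eq_fintype_card, Fintype.card_subtype]
  have h2 : Nat.card {σ : W ↪ Fin n // I ⊆ PP56.copyEdges H σ}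
      ≤ Nat.card (Σ ψ : (slotGraph I).Copy H, {σ : W ↪ Fin n // ∀ x : vset I, σ (ψ x) = x.1}) := by
    refine Nat.card_le_card_of_injective
      (fun σ => ⟨pullCopy H I σ.1 σ.2, ⟨σ.1, pullCopy_spec H I σ.1 σ.2⟩⟩) ?_
    intro σ τ h
    exact Subtype.ext (congrArg
      (fun x : (Σ ψ : (slotGraph I).Copy H, {σ : W ↪ Fin n // ∀ x : vset I, σ (ψ x) = x.1}) =>
        x.2.1) h)
  rw [h1]
  refine h2.trans ?_
  rw [Nat.card_sigma, Nat.card_eq_fintype_card, ← Finset.card_univ, ← smul_eq_mul,
    ← Finset.sum_const]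
  refine Finset.sum_le_sum fun ψ _ => ?_
  exact card_extensions_le (vset I) (fun x => ψ x) ψ.injective

/-- **The spread hypothesis from the combinatorial lemma (*).** -/
theorem spread_of_star (H : SimpleGraph W) [DecidableRel H.Adj] (κ : ℝ) (hκ : 0 ≤ κ)
    (hstar : ∀ (s : Finset (Fin n)) (J : SimpleGraph s) [DecidableRel J.Adj],
      (∀ v, ∃ u, J.Adj v u) →
      (Nat.card (J.Copy H) : ℝ) ≤ κ ^ J.edgeFinset.card * (n.descFactorial s.card : ℝ))
    (I : Finset (EdgeSlot n)) :
    ((Finset.univ.filter fun σ : W ↪ Fin n => I ⊆ PP56.copyEdges H σ).card : ℝ)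
      ≤ κ ^ I.card * (Fintype.card (W ↪ Fin n) : ℝ) := by
  classical
  by_cases hne : Nonempty ((slotGraph I).Copy H)
  · obtain ⟨ψ⟩ := hne
    have hsW : (vset I).card ≤ Fintype.card W := by
      have := Fintype.card_le_of_injective _ ψ.injective
      simpa using this
    have h1 := card_good_le H I
    have h2 := hstar (vset I) (slotGraph I) (slotGraph_no_isolated I)
    rw [card_edgeFinset_slotGraph] at h2
    have h3 : (n - (vset I).card).descFactorial (Fintype.card W - (vset I).card)
        * n.descFactorial (vset I).card = n.descFactorial (Fintype.card W) :=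
      Nat.descFactorial_mul_descFactorial hsW
    rw [Fintype.card_embedding_eq, Fintype.card_fin, ← h3]
    push_cast
    calc ((Finset.univ.filter fun σ : W ↪ Fin n => I ⊆ PP56.copyEdges H σ).card : ℝ)
        ≤ (Nat.card ((slotGraph I).Copy H) : ℝ) *
          ((n - (vset I).card).descFactorial (Fintype.card W - (vset I).card) : ℝ) := by
          exact_mod_cast h1
      _ ≤ (κ ^ I.card * (n.descFactorial (vset I).card : ℝ)) *
          ((n - (vset I).card).descFactorial (Fintype.card W - (vset I).card) : ℝ) :=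
          mul_le_mul_of_nonneg_right h2 (Nat.cast_nonneg _)
      _ = _ := by ring
  · have h1 := card_good_le H I
    have h0 : Nat.card ((slotGraph I).Copy H) = 0 := by
      have : IsEmpty ((slotGraph I).Copy H) := not_nonempty_iff.mp hne
      exact Nat.card_of_isEmpty
    rw [h0, zero_mul] at h1
    have h2 : ((Finset.univ.filter fun σ : W ↪ Fin n => I ⊆ PP56.copyEdges H σ).card : ℝ) = 0 := by
      exact_mod_cast Nat.le_zero.mp h1
    rw [h2]
    positivity

/-- **S0076 reduced to pure combinatorics**: `(A) ⇒ (*)` with constant `128 e^50`. -/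
theorem s0076_of_comb (n : ℕ) (W : Type) [Fintype W] [DecidableEq W] (H : SimpleGraph W)
    [DecidableRel H.Adj] (hW : Fintype.card W ≤ n) (hH : 1 ≤ H.edgeFinset.card)
    (p : ℝ) (hp0 : 0 ≤ p) (hp1 : p ≤ 1)
    (hE : ∀ F : H.Subgraph, (1 : ℝ) / 2 ≤ gnpExpect n p (fun G => (G.copyCount F.coe : ℝ)))
    (hcomb :
      (∀ (α : Type) [Fintype α] [DecidableEq α] (A : SimpleGraph α) [DecidableRel A.Adj],
        Nonempty (A.Copy H) →
        (Nat.card (A ≃g A) : ℝ)
          ≤ 2 * ((n.descFactorial (Fintype.card α) : ℝ) * p ^ A.edgeFinset.card)) →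
      ∀ (s : Finset (Fin n)) (J : SimpleGraph s) [DecidableRel J.Adj],
        (∀ v, ∃ u, J.Adj v u) →
        (Nat.card (J.Copy H) : ℝ)
          ≤ (128 * Real.exp 50 * p) ^ J.edgeFinset.card * (n.descFactorial s.card : ℝ)) :
    (1 : ℝ) / 2 ≤ gnpProb n
      (min 1 (2048 * Real.exp 50 * p * (1 + Real.logb 2 (H.edgeFinset.card : ℝ))))
      {G | H.IsContained G} := by
  have hκ : 0 ≤ 128 * Real.exp 50 * p := by positivity
  have hA : ∀ (α : Type) [Fintype α] [DecidableEq α] (A : SimpleGraph α) [DecidableRel A.Adj],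
      Nonempty (A.Copy H) →
      (Nat.card (A ≃g A) : ℝ)
        ≤ 2 * ((n.descFactorial (Fintype.card α) : ℝ) * p ^ A.edgeFinset.card) := by
    intro α _ _ A _ ⟨f⟩
    exact hypA' H hp0 hp1 hE A f
  have h := PP56.s0076_of_spread H hW hH (128 * Real.exp 50 * p) hκ
    (spread_of_star H _ hκ (hcomb hA))
  have e : 16 * (128 * Real.exp 50 * p) * (1 + Real.logb 2 (H.edgeFinset.card : ℝ))
      = 2048 * Real.exp 50 * p * (1 + Real.logb 2 (H.edgeFinset.card : ℝ)) := by ring
  rw [e] at h
  linarith

end Crest.Agent.Hyp95
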