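import Crest.Agent.S0076_Concl

/-!
# S0076: bridge from the abstract group frame

`FrameClaim K`: for every finite group `G` acting on a finite set `X`, every `H ⊆ X` and
`p ∈ [0,1]`: if every `U ⊆ H` has at least `p^{-|U|}/2` distinct images under `G`, then a uniformly
random image of `H` contains a fixed set `S` with probability at most `2 (K p)^{|S|}`.

`s0076_of_frame`: `FrameClaim (64 e^50)` implies the conclusion of S0076.
-/

set_option autoImplicit false

namespace Crest.Agent.Frame94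

open Finset Crest.FinProb Crest.CombinatoricsR.RandomGraph

/-- the abstract claim (board post 1023(0)). -/
def FrameClaim (K : ℝ) : Prop :=
  ∀ (G : Type) [Group G] [Fintype G] (X : Type) [Fintype X] [DecidableEq X] [MulAction G X]
    (H : Finset X) (p : ℝ), 0 ≤ p → p ≤ 1 →
    (∀ U : Finset X, U ⊆ H →
      (1 : ℝ) / 2 ≤ ((Finset.univ.image fun g : G => U.image fun x => g • x).card : ℝ)
        * p ^ U.card) →
    ∀ S : Finset X,
      ((Finset.univ.filter fun g : G => S ⊆ H.image fun x => g • x).card : ℝ)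
        ≤ 2 * (K * p) ^ S.card * (Fintype.card G : ℝ)

variable {n : ℕ}

/-- the action of the permutations of `Fin n` on the edge slots. -/
instance slotAction : MulAction (Equiv.Perm (Fin n)) (EdgeSlot n) where
  smul γ z := ⟨Sym2.map γ z.1, by
    intro h
    apply z.2
    induction hz : z.1 using Sym2.ind with
    | _ a b =>
      rw [hz] at h
      simpa using h⟩
  one_smul z := by
    apply Subtype.ext
    show Sym2.map (⇑(1 : Equiv.Perm (Fin n))) z.1 = z.1
    have : (⇑(1 : Equiv.Perm (Fin n))) = id := rfl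
    rw [this, Sym2.map_id]; rfl
  mul_smul γ δ z := by
    apply Subtype.ext
    show Sym2.map (⇑(γ * δ)) z.1 = Sym2.map γ (Sym2.map δ z.1)
    rw [Sym2.map_map]; rfl

theorem smul_val (γ : Equiv.Perm (Fin n)) (z : EdgeSlot n) : (γ • z).1 = Sym2.map γ z.1 := rfl

section copy

variable {α : Type} [Fintype α]

/-- relabelling a labelled copy. -/
theorem copyEdges_trans (A : SimpleGraph α) [DecidableRel A.Adj] (σ : α ↪ Fin n)
    (γ : Equiv.Perm (Fin n)) :
    PP56.copyEdges A (σ.trans γ.toEmbedding) = (PP56.copyEdges A σ).image fun z => γ • z := by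
  classical
  ext z
  constructor
  · intro hz
    obtain ⟨e, he, hez⟩ := (Finset.mem_filter.mp hz).2
    have hnd : ¬ (Sym2.map σ e).IsDiag := by
      induction e using Sym2.ind with
      | _ a b =>
        rw [SimpleGraph.mem_edgeFinset, SimpleGraph.mem_edgeSet] at he
        simpa using he.ne
    refine Finset.mem_image.mpr ⟨⟨Sym2.map σ e, hnd⟩, ?_, ?_⟩
    · unfold PP56.copyEdges
      rw [Finset.mem_filter]
      exact ⟨Finset.mem_univ _, e, he, rfl⟩
    · apply Subtype.ext
      rw [smul_val, ← hez, Sym2.map_map]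
      rfl
  · intro hz
    obtain ⟨y, hy, rfl⟩ := Finset.mem_image.mp hz
    obtain ⟨e, he, hey⟩ := (Finset.mem_filter.mp hy).2
    unfold PP56.copyEdges
    rw [Finset.mem_filter]
    refine ⟨Finset.mem_univ _, e, he, ?_⟩
    rw [smul_val, ← hey, Sym2.map_map]
    rfl

/-- any two labellings differ by a permutation of `Fin n`. -/
theorem exists_perm (σ₀ σ : α ↪ Fin n) :
    ∃ γ : Equiv.Perm (Fin n), σ₀.trans γ.toEmbedding = σ := by
  classical
  let e : {x // x ∈ Set.range σ₀} ≃ {x // x ∈ Set.range σ} :=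
    (Equiv.ofInjective σ₀ σ₀.injective).symm.trans (Equiv.ofInjective σ σ.injective)
  refine ⟨e.extendSubtype, ?_⟩
  ext a
  have h := e.extendSubtype_apply_of_mem (σ₀ a) ⟨a, rfl⟩
  have h2 : e ⟨σ₀ a, ⟨a, rfl⟩⟩ = ⟨σ a, ⟨a, rfl⟩⟩ := by
    show (Equiv.ofInjective σ σ.injective)
      ((Equiv.ofInjective σ₀ σ₀.injective).symm ⟨σ₀ a, ⟨a, rfl⟩⟩) = _
    have h3 : (Equiv.ofInjective σ₀ σ₀.injective).symm ⟨σ₀ a, ⟨a, rfl⟩⟩ = a := by
      rw [Equiv.symm_apply_eq]; rfl
    rw [h3]; rfl
  show ((e.extendSubtype (σ₀ a) : Fin n) : ℕ) = _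
  rw [h, h2]

/-- all the fibres of `γ ↦ γ ∘ σ₀` have the same size. -/
theorem card_fibre (σ₀ σ : α ↪ Fin n) :
    (Finset.univ.filter fun γ : Equiv.Perm (Fin n) => σ₀.trans γ.toEmbedding = σ).card
      = (Finset.univ.filter fun γ : Equiv.Perm (Fin n) => σ₀.trans γ.toEmbedding = σ₀).card := by
  classical
  obtain ⟨δ, hδ⟩ := exists_perm σ₀ σ
  refine Finset.card_bij' (fun γ _ => δ⁻¹ * γ) (fun γ _ => δ * γ) ?_ ?_ ?_ ?_
  · intro γ hγ
    rw [Finset.mem_filter] at hγ ⊢
    refine ⟨Finset.mem_univ _, ?_⟩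
    ext a
    have h1 : γ (σ₀ a) = σ a := DFunLike.congr_fun hγ.2 a
    have h2 : δ (σ₀ a) = σ a := DFunLike.congr_fun hδ a
    show (((δ⁻¹ * γ) (σ₀ a) : Fin n) : ℕ) = _
    rw [Equiv.Perm.mul_apply, h1, ← h2]; simp
  · intro γ hγ
    rw [Finset.mem_filter] at hγ ⊢
    refine ⟨Finset.mem_univ _, ?_⟩
    ext a
    have h1 : γ (σ₀ a) = σ₀ a := DFunLike.congr_fun hγ.2 a
    have h2 : δ (σ₀ a) = σ a := DFunLike.congr_fun hδ a
    show (((δ * γ) (σ₀ a) : Fin n) : ℕ) = _
    rw [Equiv.Perm.mul_apply, h1, h2]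
  · intro γ _; simp
  · intro γ _; simp

/-- a uniformly random permutation applied to `σ₀` is a uniformly random labelling. -/
theorem card_perm_filter (σ₀ : α ↪ Fin n) (P : (α ↪ Fin n) → Prop) [DecidablePred P] :
    (Finset.univ.filter fun γ : Equiv.Perm (Fin n) => P (σ₀.trans γ.toEmbedding)).card
      = (Finset.univ.filter fun γ : Equiv.Perm (Fin n) => σ₀.trans γ.toEmbedding = σ₀).card
        * (Finset.univ.filter P).card := by
  classical
  have hmaps : ∀ γ ∈ (Finset.univ.filter fun γ : Equiv.Perm (Fin n) =>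
      P (σ₀.trans γ.toEmbedding)), σ₀.trans γ.toEmbedding ∈ Finset.univ.filter P := by
    intro γ hγ
    rw [Finset.mem_filter] at hγ ⊢
    exact ⟨Finset.mem_univ _, hγ.2⟩
  rw [Finset.card_eq_sum_card_fiberwise hmaps]
  have : ∀ σ ∈ Finset.univ.filter P,
      ((Finset.univ.filter fun γ : Equiv.Perm (Fin n) => P (σ₀.trans γ.toEmbedding)).filter
        fun γ => σ₀.trans γ.toEmbedding = σ).card
      = (Finset.univ.filter fun γ : Equiv.Perm (Fin n) => σ₀.trans γ.toEmbedding = σ₀).card := by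
    intro σ hσ
    rw [← card_fibre σ₀ σ]
    congr 1
    ext γ
    simp only [Finset.mem_filter, Finset.mem_univ, true_and]
    constructor
    · intro h; exact h.2
    · intro h; exact ⟨h ▸ (Finset.mem_filter.mp hσ).2, h⟩
  rw [Finset.sum_congr rfl this, Finset.sum_const, smul_eq_mul, mul_comm]

theorem mem_copyEdges_of_adj (A : SimpleGraph α) [DecidableRel A.Adj] (τ : α ↪ Fin n)
    {a b : α} (h : A.Adj a b) (hnd : ¬ (s(τ a, τ b) : Sym2 (Fin n)).IsDiag) :
    (⟨s(τ a, τ b), hnd⟩ : EdgeSlot n) ∈ PP56.copyEdges A τ := by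
  unfold PP56.copyEdges
  rw [Finset.mem_filter]
  refine ⟨Finset.mem_univ _, s(a, b), ?_, rfl⟩
  rw [SimpleGraph.mem_edgeFinset]; exact h

theorem exists_adj_of_mem_copyEdges (A : SimpleGraph α) [DecidableRel A.Adj] (τ : α ↪ Fin n)
    {z : EdgeSlot n} (hz : z ∈ PP56.copyEdges A τ) :
    ∃ a b, A.Adj a b ∧ z.1 = s(τ a, τ b) := by
  obtain ⟨e, he, hez⟩ := (Finset.mem_filter.mp hz).2
  induction e using Sym2.ind with
  | _ a b =>
    rw [SimpleGraph.mem_edgeFinset, SimpleGraph.mem_edgeSet] at he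
    exact ⟨a, b, he, hez.symm⟩

/-- transfer of an edge between two labellings with the same edge set. -/
theorem transfer (A : SimpleGraph α) [DecidableRel A.Adj] (τ τ' : α ↪ Fin n)
    (h : PP56.copyEdges A τ = PP56.copyEdges A τ') {a b : α} (hab : A.Adj a b) :
    ∃ a' b', A.Adj a' b' ∧ (s(τ a, τ b) : Sym2 (Fin n)) = s(τ' a', τ' b') := by
  have hnd : ¬ (s(τ a, τ b) : Sym2 (Fin n)).IsDiag := by
    simpa using fun h' => hab.ne (τ.injective h')
  have h1 := mem_copyEdges_of_adj A τ hab hnd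
  rw [h] at h1
  exact exists_adj_of_mem_copyEdges A τ' h1

theorem adj_of_sym2_eq (A : SimpleGraph α) (τ : α ↪ Fin n) {a b x y : α} (hab : A.Adj a b)
    (h : (s(τ x, τ y) : Sym2 (Fin n)) = s(τ a, τ b)) : A.Adj x y := by
  rw [Sym2.eq_iff] at h
  rcases h with ⟨h1, h2⟩ | ⟨h1, h2⟩
  · rw [τ.injective h1, τ.injective h2]; exact hab
  · rw [τ.injective h1, τ.injective h2]; exact hab.symm

/-- two labellings with the same edge set differ by an automorphism. -/
theorem exists_aut (A : SimpleGraph α) [DecidableRel A.Adj] (hiso : ∀ v, ∃ u, A.Adj v u)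
    (τ₀ τ : α ↪ Fin n) (h : PP56.copyEdges A τ = PP56.copyEdges A τ₀) :
    ∃ e : A ≃g A, ∀ x, τ₀ (e x) = τ x := by
  classical
  have hex : ∀ x, ∃ x', τ₀ x' = τ x := by
    intro x
    obtain ⟨u, hu⟩ := hiso x
    obtain ⟨a', b', _, h2⟩ := transfer A τ τ₀ h hu
    rw [Sym2.eq_iff] at h2
    rcases h2 with ⟨h1, _⟩ | ⟨h1, _⟩
    · exact ⟨a', h1.symm⟩
    · exact ⟨b', h1.symm⟩
  choose f hf using hex
  have finj : Function.Injective f := by
    intro x y hxy
    apply τ.injective
    rw [← hf x, ← hf y, hxy]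
  have fbij : Function.Bijective f := Finite.injective_iff_bijective.mp finj
  refine ⟨⟨Equiv.ofBijective f fbij, ?_⟩, fun x => hf x⟩
  intro x y
  show A.Adj (f x) (f y) ↔ A.Adj x y
  constructor
  · intro hxy
    obtain ⟨a, b, hab, h2⟩ := transfer A τ₀ τ h.symm hxy
    rw [hf x, hf y] at h2
    exact adj_of_sym2_eq A τ hab h2
  · intro hxy
    obtain ⟨a, b, hab, h2⟩ := transfer A τ τ₀ h hxy
    rw [← hf x, ← hf y] at h2
    exact adj_of_sym2_eq A τ₀ hab h2

theorem card_same_edges_le (A : SimpleGraph α) [DecidableRel A.Adj]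
    (hiso : ∀ v, ∃ u, A.Adj v u) (τ₀ : α ↪ Fin n) :
    (Finset.univ.filter fun τ : α ↪ Fin n =>
      PP56.copyEdges A τ = PP56.copyEdges A τ₀).card ≤ Nat.card (A ≃g A) := by
  classical
  have : Finite (A ≃g A) :=
    Finite.of_injective (fun f : A ≃g A => f.toEquiv) (fun f g hfg => by
      ext x
      exact DFunLike.congr_fun hfg x)
  have h1 : (Finset.univ.filter fun τ : α ↪ Fin n =>
      PP56.copyEdges A τ = PP56.copyEdges A τ₀).card
      = Nat.card {τ : α ↪ Fin n // PP56.copyEdges A τ = PP56.copyEdges A τ₀} := by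
    rw [Nat.card_eq_fintype_card, Fintype.card_subtype]
  rw [h1]
  refine Nat.card_le_card_of_injective
    (fun τ => Classical.choose (exists_aut A hiso τ₀ τ.1 τ.2)) ?_
  intro τ τ' hττ'
  apply Subtype.ext
  ext x
  have h2 := Classical.choose_spec (exists_aut A hiso τ₀ τ.1 τ.2) x
  have h3 := Classical.choose_spec (exists_aut A hiso τ₀ τ'.1 τ'.2) x
  simp only at hττ'
  rw [← h2, ← h3, hττ']

end copy

section orbit

open Hyp95

/-- the tautological labelling of `slotGraph U` has edge set `U`. -/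
theorem copyEdges_slotGraph (U : Finset (EdgeSlot n)) [DecidableRel (slotGraph U).Adj] :
    PP56.copyEdges (slotGraph U) (Function.Embedding.subtype fun x => x ∈ vset U) = U := by
  classical
  ext z
  constructor
  · intro hz
    obtain ⟨a, b, ⟨y, hy, hyab⟩, hzab⟩ := exists_adj_of_mem_copyEdges _ _ hz
    have : z = y := Subtype.ext (by rw [hzab, hyab]; rfl)
    rw [this]; exact hy
  · intro hz
    obtain ⟨a, b, hab⟩ : ∃ a b, z.1 = s(a, b) := by
      induction h : z.1 using Sym2.ind with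
      | _ a b => exact ⟨a, b, rfl⟩
    have ha : a ∈ z.1 := by rw [hab]; simp
    have hb : b ∈ z.1 := by rw [hab]; simp
    have hadj : (slotGraph U).Adj ⟨a, mem_vset hz ha⟩ ⟨b, mem_vset hz hb⟩ := ⟨z, hz, hab⟩
    have hnd : ¬ (s((Function.Embedding.subtype fun x => x ∈ vset U) ⟨a, mem_vset hz ha⟩,
        (Function.Embedding.subtype fun x => x ∈ vset U) ⟨b, mem_vset hz hb⟩)
          : Sym2 (Fin n)).IsDiag := by
      have := z.2
      rw [hab] at this
      exact this
    have h1 := mem_copyEdges_of_adj (slotGraph U) _ hadj hnd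
    have : z = ⟨s((Function.Embedding.subtype fun x => x ∈ vset U) ⟨a, mem_vset hz ha⟩,
        (Function.Embedding.subtype fun x => x ∈ vset U) ⟨b, mem_vset hz hb⟩), hnd⟩ :=
      Subtype.ext hab
    rw [this]; exact h1

/-- `(n)_{v(U)} ≤ |Aut| · |orbit|`. -/
theorem card_embedding_le (U : Finset (EdgeSlot n)) :
    Fintype.card (vset U ↪ Fin n)
      ≤ Nat.card (slotGraph U ≃g slotGraph U)
        * (Finset.univ.image fun γ : Equiv.Perm (Fin n) => U.image fun z => γ • z).card := by
  classical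
  have h := Finset.card_le_mul_card_image_of_maps_to
    (f := fun τ : vset U ↪ Fin n => PP56.copyEdges (slotGraph U) τ)
    (s := Finset.univ)
    (t := Finset.univ.image fun γ : Equiv.Perm (Fin n) => U.image fun z => γ • z)
    (by
      intro τ _
      obtain ⟨γ, hγ⟩ := exists_perm (Function.Embedding.subtype fun x => x ∈ vset U) τ
      refine Finset.mem_image.mpr ⟨γ, Finset.mem_univ _, ?_⟩
      rw [← hγ, copyEdges_trans, copyEdges_slotGraph])
    (Nat.card (slotGraph U ≃g slotGraph U))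
    (by
      intro b _
      by_cases hb : ∃ τ₀ : vset U ↪ Fin n, PP56.copyEdges (slotGraph U) τ₀ = b
      · obtain ⟨τ₀, rfl⟩ := hb
        exact card_same_edges_le (slotGraph U) (slotGraph_no_isolated U) τ₀
      · have : (Finset.univ.filter fun τ : vset U ↪ Fin n =>
            PP56.copyEdges (slotGraph U) τ = b) = ∅ := by
          rw [Finset.filter_eq_empty_iff]
          intro τ _ hτ
          exact hb ⟨τ, hτ⟩
        rw [this]; simp)
  simpa using h

variable {W : Type} [Fintype W] [DecidableEq W]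

/-- hypothesis `(A_{1/2})` of the abstract frame, from the hypothesis of S0076. -/
theorem half_le_orbit (H : SimpleGraph W) [DecidableRel H.Adj] {p : ℝ} (h0 : 0 ≤ p) (h1 : p ≤ 1)
    (hE : ∀ F : H.Subgraph, (1 : ℝ) / 2 ≤ gnpExpect n p (fun G => (G.copyCount F.coe : ℝ)))
    (σ₀ : W ↪ Fin n) (U : Finset (EdgeSlot n)) (hU : U ⊆ PP56.copyEdges H σ₀) :
    (1 : ℝ) / 2 ≤ ((Finset.univ.image fun γ : Equiv.Perm (Fin n) =>
      U.image fun z => γ • z).card : ℝ) * p ^ U.card := by
  classical
  have hA := hypA (n := n) H h0 h1 hE (slotGraph U) (pullCopy H U σ₀ hU)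
  rw [card_edgeFinset_slotGraph] at hA
  have hO : (Fintype.card (vset U ↪ Fin n) : ℝ)
      ≤ (Nat.card (slotGraph U ≃g slotGraph U) : ℝ)
        * ((Finset.univ.image fun γ : Equiv.Perm (Fin n) => U.image fun z => γ • z).card : ℝ) := by
    exact_mod_cast card_embedding_le U
  have hfin : Finite (slotGraph U ≃g slotGraph U) :=
    Finite.of_injective (fun f : slotGraph U ≃g slotGraph U => f.toEquiv) (fun f g hfg => by
      apply DFunLike.ext
      intro x
      exact DFunLike.congr_fun hfg x)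
  have hpos : (0 : ℝ) < (Nat.card (slotGraph U ≃g slotGraph U) : ℝ) := by
    have : 0 < Nat.card (slotGraph U ≃g slotGraph U) :=
      Nat.card_pos_iff.mpr ⟨⟨SimpleGraph.Iso.refl⟩, hfin⟩
    exact_mod_cast this
  have hp : 0 ≤ p ^ U.card := pow_nonneg h0 _
  set a : ℝ := (Nat.card (slotGraph U ≃g slotGraph U) : ℝ) with ha
  set o : ℝ := ((Finset.univ.image fun γ : Equiv.Perm (Fin n) =>
    U.image fun z => γ • z).card : ℝ) with ho
  have h2 : a ≤ 2 * (a * o * p ^ U.card) :=
    hA.trans (by nlinarith [mul_le_mul_of_nonneg_right hO hp])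
  have h3 : a * 1 ≤ a * (2 * (o * p ^ U.card)) := by nlinarith
  have h4 := le_of_mul_le_mul_left h3 hpos
  linarith

end orbit

/-- **S0076 from the abstract frame claim** with constant `64 e^50` (prefactor `2`). -/
theorem s0076_of_frame (hframe : FrameClaim (64 * Real.exp 50))
    (n : ℕ) (W : Type) [Fintype W] [DecidableEq W] (H : SimpleGraph W)
    [DecidableRel H.Adj] (hW : Fintype.card W ≤ n) (hH : 1 ≤ H.edgeFinset.card)
    (p : ℝ) (hp0 : 0 ≤ p) (hp1 : p ≤ 1)
    (hE : ∀ F : H.Subgraph, (1 : ℝ) / 2 ≤ gnpExpect n p (fun G => (G.copyCount F.coe : ℝ))) :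
    (1 : ℝ) / 2 ≤ gnpProb n
      (min 1 (2048 * Real.exp 50 * p * (1 + Real.logb 2 (H.edgeFinset.card : ℝ))))
      {G | H.IsContained G} := by
  classical
  obtain ⟨σ₀⟩ : Nonempty (W ↪ Fin n) :=
    Function.Embedding.nonempty_of_card_le (by simpa using hW)
  have hκ : 0 ≤ 128 * Real.exp 50 * p := by positivity
  have hfr := hframe (Equiv.Perm (Fin n)) (EdgeSlot n) (PP56.copyEdges H σ₀) p hp0 hp1
    (fun U hU => half_le_orbit H hp0 hp1 hE σ₀ U hU)
  have hspread : ∀ I : Finset (EdgeSlot n),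
      ((Finset.univ.filter fun σ : W ↪ Fin n => I ⊆ PP56.copyEdges H σ).card : ℝ)
        ≤ (128 * Real.exp 50 * p) ^ I.card * (Fintype.card (W ↪ Fin n) : ℝ) := by
    intro I
    by_cases hI : I.card = 0
    · rw [hI, pow_zero, one_mul]
      exact_mod_cast Finset.card_le_univ _
    · have h1 := card_perm_filter σ₀ (fun σ : W ↪ Fin n => I ⊆ PP56.copyEdges H σ)
      have h2 := card_perm_filter σ₀ (fun _ : W ↪ Fin n => True)
      have h3 := hfr I
      have h4 : (Finset.univ.filter fun γ : Equiv.Perm (Fin n) =>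
          I ⊆ (PP56.copyEdges H σ₀).image fun z => γ • z)
          = Finset.univ.filter fun γ : Equiv.Perm (Fin n) =>
            I ⊆ PP56.copyEdges H (σ₀.trans γ.toEmbedding) := by
        ext γ
        simp only [Finset.mem_filter, Finset.mem_univ, true_and]
        rw [copyEdges_trans]
      rw [h4, h1] at h3
      have h5 : Fintype.card (Equiv.Perm (Fin n))
          = (Finset.univ.filter fun γ : Equiv.Perm (Fin n) =>
              σ₀.trans γ.toEmbedding = σ₀).card * Fintype.card (W ↪ Fin n) := by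
        simpa [Finset.card_univ] using h2
      rw [h5] at h3
      have hc : 0 < (Finset.univ.filter fun γ : Equiv.Perm (Fin n) =>
          σ₀.trans γ.toEmbedding = σ₀).card := by
        refine Finset.card_pos.mpr ⟨1, ?_⟩
        rw [Finset.mem_filter]
        refine ⟨Finset.mem_univ _, ?_⟩
        ext a
        rfl
      set c : ℕ := (Finset.univ.filter fun γ : Equiv.Perm (Fin n) =>
          σ₀.trans γ.toEmbedding = σ₀).card with hcdef
      have hc' : (0 : ℝ) < (c : ℝ) := by exact_mod_cast hc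
      push_cast at h3
      have h6 : (c : ℝ) * ((Finset.univ.filter fun σ : W ↪ Fin n =>
          I ⊆ PP56.copyEdges H σ).card : ℝ)
          ≤ (c : ℝ) * (2 * (64 * Real.exp 50 * p) ^ I.card * (Fintype.card (W ↪ Fin n) : ℝ)) := by
        calc _ ≤ 2 * (64 * Real.exp 50 * p) ^ I.card
              * ((c : ℝ) * (Fintype.card (W ↪ Fin n) : ℝ)) := h3
          _ = _ := by ring
      have h7 := le_of_mul_le_mul_left h6 hc'
      refine h7.trans ?_
      refine mul_le_mul_of_nonneg_right ?_ (Nat.cast_nonneg _)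
      have h8 : (128 * Real.exp 50 * p) ^ I.card
          = 2 ^ I.card * (64 * Real.exp 50 * p) ^ I.card := by
        rw [← mul_pow]; congr 1; ring
      rw [h8]
      refine mul_le_mul_of_nonneg_right ?_ (by positivity)
      calc (2 : ℝ) = 2 ^ 1 := (pow_one 2).symm
        _ ≤ 2 ^ I.card := pow_le_pow_right₀ (by norm_num) (Nat.one_le_iff_ne_zero.mpr hI)
  have h := PP56.s0076_of_spread H hW hH (128 * Real.exp 50 * p) hκ hspread
  have e : 16 * (128 * Real.exp 50 * p) * (1 + Real.logb 2 (H.edgeFinset.card : ℝ))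
      = 2048 * Real.exp 50 * p * (1 + Real.logb 2 (H.edgeFinset.card : ℝ)) := by ring
  rw [e] at h
  linarith

end Crest.Agent.Frame94
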