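import Crest.Agent.S0076_Frame

/-!
# S0076: toolkit for the abstract group frame

`G` a finite group acting on a finite set `X`, `H S U : Finset X`.
* `cnt G H S` = number of `g` with `S ⊆ g • H` (so `ρ_H(S) = cnt / |G|`);
* `orb G U` = number of distinct images of `U`;
* `sub G S H` = number of images of `S` that lie inside `H`.
Main facts: `cnt_mul_orb` (`ρ_H(S) = N(S,H)/N(S)`), `star` (`Σ_π cnt (S ∪ π • F) = cnt S * cnt F`),
`cnt_le_choose` (trivial bound from `(A)`).
-/

set_option autoImplicit false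

namespace Crest.Agent.Frame94

open Finset
open scoped Pointwise

variable (G : Type) [Group G] [Fintype G] {X : Type} [Fintype X] [DecidableEq X] [MulAction G X]

/-- number of `g` with `S ⊆ g • H`. -/
def cnt (H S : Finset X) : ℕ := (Finset.univ.filter fun g : G => S ⊆ g • H).card

/-- number of `g` with `g • S ⊆ H`. -/
def cnt' (H S : Finset X) : ℕ := (Finset.univ.filter fun g : G => g • S ⊆ H).card

/-- number of distinct images of `U`. -/
def orb (U : Finset X) : ℕ := (Finset.univ.image fun g : G => g • U).card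

/-- number of images of `S` inside `H`. -/
def sub (S H : Finset X) : ℕ := ((Finset.univ.image fun g : G => g • S).filter (· ⊆ H)).card

/-- order of the setwise stabiliser. -/
def stab (S : Finset X) : ℕ := (Finset.univ.filter fun g : G => g • S = S).card

theorem cnt_eq_cnt' (H S : Finset X) : cnt G H S = cnt' G H S := by
  unfold cnt cnt'
  refine Finset.card_bij' (fun g _ => g⁻¹) (fun g _ => g⁻¹) ?_ ?_ ?_ ?_
  · intro g hg
    rw [Finset.mem_filter] at hg ⊢
    refine ⟨Finset.mem_univ _, ?_⟩
    rw [← Finset.subset_smul_finset_iff]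
    exact hg.2
  · intro g hg
    rw [Finset.mem_filter] at hg ⊢
    refine ⟨Finset.mem_univ _, ?_⟩
    rw [Finset.subset_smul_finset_iff, inv_inv]
    exact hg.2
  · intro g _; simp
  · intro g _; simp

theorem card_fibre_smul (S : Finset X) (g₀ : G) :
    (Finset.univ.filter fun g : G => g • S = g₀ • S).card = stab G S := by
  unfold stab
  refine Finset.card_bij' (fun g _ => g₀⁻¹ * g) (fun g _ => g₀ * g) ?_ ?_ ?_ ?_
  · intro g hg
    rw [Finset.mem_filter] at hg ⊢
    refine ⟨Finset.mem_univ _, ?_⟩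
    rw [mul_smul, hg.2, inv_smul_smul]
  · intro g hg
    rw [Finset.mem_filter] at hg ⊢
    refine ⟨Finset.mem_univ _, ?_⟩
    rw [mul_smul, hg.2]
  · intro g _; simp
  · intro g _; simp

/-- fibre counting over the images of `S`. -/
theorem card_filter_smul (S : Finset X) (P : Finset X → Prop) [DecidablePred P] :
    (Finset.univ.filter fun g : G => P (g • S)).card
      = stab G S * ((Finset.univ.image fun g : G => g • S).filter P).card := by
  have hmaps : ∀ g ∈ (Finset.univ.filter fun g : G => P (g • S)),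
      g • S ∈ (Finset.univ.image fun g : G => g • S).filter P := by
    intro g hg
    rw [Finset.mem_filter] at hg ⊢
    exact ⟨Finset.mem_image.mpr ⟨g, Finset.mem_univ _, rfl⟩, hg.2⟩
  rw [Finset.card_eq_sum_card_fiberwise hmaps]
  have : ∀ T ∈ (Finset.univ.image fun g : G => g • S).filter P,
      ((Finset.univ.filter fun g : G => P (g • S)).filter fun g => g • S = T).card
        = stab G S := by
    intro T hT
    obtain ⟨hT1, hT2⟩ := Finset.mem_filter.mp hT
    obtain ⟨g₀, _, rfl⟩ := Finset.mem_image.mp hT1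
    rw [← card_fibre_smul G S g₀]
    congr 1
    ext g
    simp only [Finset.mem_filter, Finset.mem_univ, true_and]
    constructor
    · intro h; exact h.2
    · intro h; exact ⟨h ▸ hT2, h⟩
  rw [Finset.sum_congr rfl this, Finset.sum_const, smul_eq_mul, mul_comm]

/-- orbit-stabiliser. -/
theorem stab_mul_orb (S : Finset X) : stab G S * orb G S = Fintype.card G := by
  have h := card_filter_smul G S (fun _ => True)
  simp only [Finset.filter_true] at h
  unfold orb
  rw [← h, Finset.card_univ]

theorem cnt_eq (H S : Finset X) : cnt G H S = stab G S * sub G S H := by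
  rw [cnt_eq_cnt']
  exact card_filter_smul G S (· ⊆ H)

/-- `ρ_H(S) = N(S,H) / N(S)`. -/
theorem cnt_mul_orb (H S : Finset X) :
    cnt G H S * orb G S = Fintype.card G * sub G S H := by
  rw [cnt_eq, ← stab_mul_orb G S]
  ring

theorem cnt'_smul (H F : Finset X) (g : G) :
    (Finset.univ.filter fun π : G => π • F ⊆ g • H).card = cnt' G H F := by
  unfold cnt'
  refine Finset.card_bij' (fun π _ => g⁻¹ * π) (fun π _ => g * π) ?_ ?_ ?_ ?_
  · intro π hπ
    rw [Finset.mem_filter] at hπ ⊢
    refine ⟨Finset.mem_univ _, ?_⟩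
    rw [mul_smul, ← Finset.subset_smul_finset_iff]
    exact hπ.2
  · intro π hπ
    rw [Finset.mem_filter] at hπ ⊢
    refine ⟨Finset.mem_univ _, ?_⟩
    rw [mul_smul]
    exact Finset.smul_finset_subset_smul_finset hπ.2
  · intro π _; simp
  · intro π _; simp

/-- **(STAR)**: `Σ_π cnt (S ∪ π • F) = cnt S * cnt F`. -/
theorem star (H S F : Finset X) :
    ∑ π : G, cnt G H (S ∪ π • F) = cnt G H S * cnt G H F := by
  have h1 : ∀ π : G, cnt G H (S ∪ π • F)
      = ∑ g ∈ Finset.univ.filter (fun g : G => S ⊆ g • H), if π • F ⊆ g • H then 1 else 0 := by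
    intro π
    unfold cnt
    rw [Finset.card_eq_sum_ones, ← Finset.sum_filter, Finset.filter_filter]
    congr 1
    ext g
    simp only [Finset.mem_filter, Finset.mem_univ, true_and, Finset.union_subset_iff]
  simp_rw [h1]
  rw [Finset.sum_comm]
  have h2 : ∀ g : G, (∑ π : G, if π • F ⊆ g • H then 1 else 0) = cnt G H F := by
    intro g
    rw [← Finset.sum_filter, ← Finset.card_eq_sum_ones, cnt'_smul, cnt_eq_cnt']
  simp_rw [h2]
  rw [Finset.sum_const, smul_eq_mul]
  rfl

theorem sub_le_choose (S H : Finset X) : sub G S H ≤ H.card.choose S.card := by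
  unfold sub
  rw [← Finset.card_powersetCard]
  refine Finset.card_le_card ?_
  intro T hT
  obtain ⟨hT1, hT2⟩ := Finset.mem_filter.mp hT
  obtain ⟨g, _, rfl⟩ := Finset.mem_image.mp hT1
  rw [Finset.mem_powersetCard]
  exact ⟨hT2, Finset.card_smul_finset g S⟩

/-- trivial bound: `(A)` for `S` gives `ρ_H(S) ≤ 2 C(h,s) p^s`. -/
theorem cnt_le_choose (H S : Finset X) (p : ℝ) (hp : 0 ≤ p)
    (hA : (1 : ℝ) / 2 ≤ (orb G S : ℝ) * p ^ S.card) :
    (cnt G H S : ℝ) ≤ 2 * (H.card.choose S.card : ℝ) * p ^ S.card * (Fintype.card G : ℝ) := by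
  have h1 : (cnt G H S : ℝ) * (orb G S : ℝ) = (Fintype.card G : ℝ) * (sub G S H : ℝ) := by
    exact_mod_cast cnt_mul_orb G H S
  have h2 : (sub G S H : ℝ) ≤ (H.card.choose S.card : ℝ) := by
    exact_mod_cast sub_le_choose G S H
  have hc : (0 : ℝ) ≤ (cnt G H S : ℝ) := Nat.cast_nonneg _
  have hg : (0 : ℝ) ≤ (Fintype.card G : ℝ) := Nat.cast_nonneg _
  have hpp : 0 ≤ p ^ S.card := pow_nonneg hp _
  calc (cnt G H S : ℝ) = 2 * ((cnt G H S : ℝ) * (1 / 2)) := by ring
    _ ≤ 2 * ((cnt G H S : ℝ) * ((orb G S : ℝ) * p ^ S.card)) := by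
        have := mul_le_mul_of_nonneg_left hA hc
        linarith
    _ = 2 * ((Fintype.card G : ℝ) * (sub G S H : ℝ)) * p ^ S.card := by rw [← h1]; ring
    _ ≤ 2 * ((Fintype.card G : ℝ) * (H.card.choose S.card : ℝ)) * p ^ S.card := by
        have := mul_le_mul_of_nonneg_left h2 hg
        have := mul_le_mul_of_nonneg_right this hpp
        linarith
    _ = _ := by ring

/-- `FrameClaim` in the notation of this file. -/
theorem frameClaim_iff (K : ℝ) :
    FrameClaim K ↔
      ∀ (G : Type) [Group G] [Fintype G] (X : Type) [Fintype X] [DecidableEq X] [MulAction G X]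
        (H : Finset X) (p : ℝ), 0 ≤ p → p ≤ 1 →
        (∀ U : Finset X, U ⊆ H → (1 : ℝ) / 2 ≤ (orb G U : ℝ) * p ^ U.card) →
        ∀ S : Finset X, (cnt G H S : ℝ) ≤ 2 * (K * p) ^ S.card * (Fintype.card G : ℝ) :=
  Iff.rfl

end Crest.Agent.Frame94
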