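import Crest.Agent.S0076_FrameLib

/-!
# S0076: rooting in the abstract group frame

* `cnt_insert` (one-atom recursion): `#{g | x + F' ⊆ g • H} = Σ_{y ∈ H ∩ Γx} #{s ∈ Γ_x | F' ⊆ s • (t_y H - x)}`;
* `orb_root` (pair counting): `|Γ_x . Y| · |Γ x| = N(Y + x) · o_{Y+x}(x)`.
-/

set_option autoImplicit false

namespace Crest.Agent.Frame94

open Finset
open scoped Pointwise

variable {G : Type} [Group G] [Fintype G] {X : Type} [Fintype X] [DecidableEq X] [MulAction G X]

theorem coe_smul_finset (x : X) (s : MulAction.stabilizer G x) (A : Finset X) :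
    s • A = (s : G) • A := rfl

theorem subset_smul_erase (x : X) (s : G) (hs : s • x = x) (A F' : Finset X) (hx : x ∉ F') :
    F' ⊆ s • (A.erase x) ↔ F' ⊆ s • A := by
  constructor
  · intro h
    exact h.trans (Finset.smul_finset_subset_smul_finset (Finset.erase_subset _ _))
  · intro h z hz
    have h1 := h hz
    rw [← Finset.inv_smul_mem_iff] at h1 ⊢
    rw [Finset.mem_erase]
    refine ⟨?_, h1⟩
    intro h2
    apply hx
    have : z = s • x := by rw [← h2, smul_inv_smul]
    rw [hs] at this
    rw [← this]; exact hz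

/-- **rooting (one-atom recursion)**. -/
theorem cnt_insert (x : X) [Fintype (MulAction.stabilizer G x)] (H F' : Finset X) (hx : x ∉ F')
    (t : X → G) (ht : ∀ y ∈ H, (∃ g : G, g • y = x) → t y • y = x) :
    cnt G H (insert x F') = ∑ y ∈ H.filter (fun y => ∃ g : G, g • y = x),
        cnt (MulAction.stabilizer G x) ((t y • H).erase x) F' := by
  unfold cnt
  have hmaps : ∀ g ∈ (Finset.univ.filter fun g : G => insert x F' ⊆ g • H),
      g⁻¹ • x ∈ H.filter (fun y => ∃ g : G, g • y = x) := by
    intro g hg
    rw [Finset.mem_filter] at hg ⊢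
    refine ⟨?_, g, smul_inv_smul g x⟩
    rw [Finset.inv_smul_mem_iff]
    exact hg.2 (Finset.mem_insert_self _ _)
  rw [Finset.card_eq_sum_card_fiberwise hmaps]
  refine Finset.sum_congr rfl ?_
  intro y hy
  obtain ⟨hyH, hyx⟩ := Finset.mem_filter.mp hy
  have hty : t y • y = x := ht y hyH hyx
  have hty' : (t y)⁻¹ • x = y := by rw [← hty, inv_smul_smul]
  refine Finset.card_bij'
    (fun g hg => (⟨g * (t y)⁻¹, by
      have h1 : g⁻¹ • x = y := (Finset.mem_filter.mp hg).2
      rw [MulAction.mem_stabilizer_iff, mul_smul, hty', ← h1, smul_inv_smul]⟩ :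
        MulAction.stabilizer G x))
    (fun s _ => (s : G) * t y) ?_ ?_ ?_ ?_
  · intro g hg
    obtain ⟨hg1, hg2⟩ := Finset.mem_filter.mp hg
    have hg3 := (Finset.mem_filter.mp hg1).2
    rw [Finset.mem_filter]
    refine ⟨Finset.mem_univ _, ?_⟩
    rw [coe_smul_finset]
    have hs : (g * (t y)⁻¹) • x = x := by
      rw [mul_smul, hty', ← hg2, smul_inv_smul]
    show F' ⊆ (g * (t y)⁻¹) • ((t y • H).erase x)
    rw [subset_smul_erase x _ hs _ _ hx, smul_smul, inv_mul_cancel_right]
    exact (Finset.subset_insert _ _).trans hg3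
  · intro s hs
    have hs2 := (Finset.mem_filter.mp hs).2
    rw [coe_smul_finset, subset_smul_erase x _ s.2 _ _ hx, smul_smul] at hs2
    rw [Finset.mem_filter, Finset.mem_filter]
    refine ⟨⟨Finset.mem_univ _, ?_⟩, ?_⟩
    · rw [Finset.insert_subset_iff]
      refine ⟨?_, hs2⟩
      rw [← Finset.inv_smul_mem_iff, mul_inv_rev, mul_smul]
      have : (s : G)⁻¹ • x = x := by
        have := s.2
        rw [MulAction.mem_stabilizer_iff] at this
        rw [inv_smul_eq_iff, this]
      rw [this, hty']
      exact hyH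
    · rw [mul_inv_rev, mul_smul]
      have : (s : G)⁻¹ • x = x := by
        have := s.2
        rw [MulAction.mem_stabilizer_iff] at this
        rw [inv_smul_eq_iff, this]
      rw [this, hty']
  · intro g _; simp
  · intro s _; apply Subtype.ext; simp


/-- size of the orbit of `x` under the setwise stabiliser of `U`. -/
def share (G : Type) [Group G] [Fintype G] {X : Type} [DecidableEq X] [MulAction G X]
    (U : Finset X) (x : X) : ℕ :=
  ((Finset.univ.filter fun g : G => g • U = U).image fun g => g • x).card

theorem smul_insert_eq_iff (x : X) (s : G) (hs : s • x = x) (Y : Finset X) (hx : x ∉ Y) :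
    s • insert x Y = insert x Y ↔ s • Y = Y := by
  have h1 : s • insert x Y = insert x (s • Y) := by
    rw [Finset.smul_finset_insert, hs]
  have h2 : x ∉ s • Y := by
    intro h
    rw [← Finset.inv_smul_mem_iff] at h
    have : s⁻¹ • x = x := by rw [inv_smul_eq_iff, hs]
    rw [this] at h
    exact hx h
  rw [h1]
  constructor
  · intro h
    have := congrArg (fun A => A.erase x) h
    simpa [Finset.erase_insert h2, Finset.erase_insert hx] using this
  · intro h; rw [h]

theorem card_stabilizer_eq (x : X) [Fintype (MulAction.stabilizer G x)] :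
    Fintype.card (MulAction.stabilizer G x) = stab G ({x} : Finset X) := by
  unfold stab
  rw [← Fintype.card_subtype]
  refine Fintype.card_congr (Equiv.subtypeEquivRight ?_)
  intro g
  rw [MulAction.mem_stabilizer_iff, Finset.smul_finset_singleton, Finset.singleton_inj]

theorem stab_root (x : X) [Fintype (MulAction.stabilizer G x)] (Y : Finset X) (hx : x ∉ Y) :
    stab (MulAction.stabilizer G x) Y
      = (Finset.univ.filter fun g : G => g • insert x Y = insert x Y ∧ g • x = x).card := by
  unfold stab
  refine Finset.card_bij' (fun s _ => (s : G))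
    (fun g hg => (⟨g, (Finset.mem_filter.mp hg).2.2⟩ : MulAction.stabilizer G x)) ?_ ?_ ?_ ?_
  · intro s hs
    have h1 := (Finset.mem_filter.mp hs).2
    rw [coe_smul_finset] at h1
    rw [Finset.mem_filter]
    exact ⟨Finset.mem_univ _, (smul_insert_eq_iff x _ s.2 Y hx).mpr h1, s.2⟩
  · intro g hg
    obtain ⟨_, h1, h2⟩ := Finset.mem_filter.mp hg
    rw [Finset.mem_filter]
    refine ⟨Finset.mem_univ _, ?_⟩
    rw [coe_smul_finset]
    exact (smul_insert_eq_iff x g h2 Y hx).mp h1
  · intro s _; rfl
  · intro g _; rfl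

theorem stab_eq_mul_share (x : X) (U : Finset X) :
    stab G U = (Finset.univ.filter fun g : G => g • U = U ∧ g • x = x).card * share G U x := by
  unfold stab share
  have hmaps : ∀ g ∈ (Finset.univ.filter fun g : G => g • U = U),
      g • x ∈ (Finset.univ.filter fun g : G => g • U = U).image fun g => g • x :=
    fun g hg => Finset.mem_image_of_mem _ hg
  rw [Finset.card_eq_sum_card_fiberwise hmaps]
  have : ∀ z ∈ (Finset.univ.filter fun g : G => g • U = U).image fun g => g • x,
      ((Finset.univ.filter fun g : G => g • U = U).filter fun g => g • x = z).card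
        = (Finset.univ.filter fun g : G => g • U = U ∧ g • x = x).card := by
    intro z hz
    obtain ⟨g₀, hg₀, rfl⟩ := Finset.mem_image.mp hz
    have hg₀' : g₀ • U = U := (Finset.mem_filter.mp hg₀).2
    refine Finset.card_bij' (fun g _ => g₀⁻¹ * g) (fun g _ => g₀ * g) ?_ ?_ ?_ ?_
    · intro g hg
      obtain ⟨h1, h2⟩ := Finset.mem_filter.mp hg
      have h3 : g • U = U := (Finset.mem_filter.mp h1).2
      rw [Finset.mem_filter]
      refine ⟨Finset.mem_univ _, ?_, ?_⟩
      · rw [mul_smul, h3, inv_smul_eq_iff, hg₀']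
      · rw [mul_smul, h2, inv_smul_smul]
    · intro g hg
      obtain ⟨_, h1, h2⟩ := Finset.mem_filter.mp hg
      rw [Finset.mem_filter, Finset.mem_filter]
      refine ⟨⟨Finset.mem_univ _, ?_⟩, ?_⟩
      · rw [mul_smul, h1, hg₀']
      · rw [mul_smul, h2]
    · intro g _; simp
    · intro g _; simp
  rw [Finset.sum_congr rfl this, Finset.sum_const, smul_eq_mul, mul_comm]

/-- **pair counting**: `|Γ_x . Y| · |Γ x| = N(Y + x) · o_{Y+x}(x)`. -/
theorem orb_root (x : X) [Fintype (MulAction.stabilizer G x)] (Y : Finset X) (hx : x ∉ Y) :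
    orb (MulAction.stabilizer G x) Y * orb G ({x} : Finset X)
      = orb G (insert x Y) * share G (insert x Y) x := by
  have h1 := stab_mul_orb G (insert x Y)
  have h2 := stab_mul_orb (MulAction.stabilizer G x) Y
  have h3 := stab_mul_orb G ({x} : Finset X)
  have h4 := card_stabilizer_eq (G := G) x
  have h5 := stab_root (G := G) x Y hx
  have h6 := stab_eq_mul_share (G := G) x (insert x Y)
  rw [← h5] at h6
  have hpos : 0 < stab (MulAction.stabilizer G x) Y := by
    unfold stab
    refine Finset.card_pos.mpr ⟨1, ?_⟩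
    rw [Finset.mem_filter]
    exact ⟨Finset.mem_univ _, one_smul _ _⟩
  apply Nat.eq_of_mul_eq_mul_left hpos
  calc stab (MulAction.stabilizer G x) Y
        * (orb (MulAction.stabilizer G x) Y * orb G ({x} : Finset X))
      = (stab (MulAction.stabilizer G x) Y * orb (MulAction.stabilizer G x) Y)
        * orb G ({x} : Finset X) := by ring
    _ = stab G ({x} : Finset X) * orb G ({x} : Finset X) := by rw [h2, h4]
    _ = Fintype.card G := h3
    _ = stab G (insert x Y) * orb G (insert x Y) := h1.symm
    _ = _ := by rw [h6]; ring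

end Crest.Agent.Frame94
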