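import Crest.Agent.S0076_Rec

/-!
# S0076: Harris' inequality for the product measure `wt q`

`harris_mono` (two increasing functions), `harris_anti` (two decreasing functions),
`harris_mixed` (one increasing, one decreasing), and the bound
`prod_le_avoid`: `∏_{D ∈ 𝒟} (1 - q^{|D|}) ≤ P(G' contains no member of 𝒟)`.
-/

set_option autoImplicit false
set_option linter.unusedSectionVars false

namespace Crest.Agent.Rec91

open Finset

variable {X : Type} [Fintype X] [DecidableEq X]

theorem wt_mul_wt (q : ℝ) (a b : Finset X) : wt q a * wt q b = wt q (a ⊓ b) * wt q (a ⊔ b) := by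
  have h1 : (a ⊔ b).card + (a ⊓ b).card = a.card + b.card := Finset.card_union_add_card_inter a b
  have ha : a.card ≤ Fintype.card X := Finset.card_le_univ a
  have hb : b.card ≤ Fintype.card X := Finset.card_le_univ b
  have hs : (a ⊔ b).card ≤ Fintype.card X := Finset.card_le_univ _
  have hi : (a ⊓ b).card ≤ Fintype.card X := Finset.card_le_univ _
  have h2 : (Fintype.card X - a.card) + (Fintype.card X - b.card)
      = (Fintype.card X - (a ⊓ b).card) + (Fintype.card X - (a ⊔ b).card) := by omega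
  unfold wt
  calc q ^ a.card * (1 - q) ^ (Fintype.card X - a.card)
        * (q ^ b.card * (1 - q) ^ (Fintype.card X - b.card))
      = q ^ (a.card + b.card)
        * (1 - q) ^ ((Fintype.card X - a.card) + (Fintype.card X - b.card)) := by
        rw [pow_add, pow_add]; ring
    _ = q ^ ((a ⊓ b).card + (a ⊔ b).card)
        * (1 - q) ^ ((Fintype.card X - (a ⊓ b).card) + (Fintype.card X - (a ⊔ b).card)) := by
        rw [h2, ← h1, add_comm]
    _ = _ := by rw [pow_add, pow_add]; ring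

/-- **Harris' inequality**, two increasing functions. -/
theorem harris_mono {q : ℝ} (h0 : 0 ≤ q) (h1 : q ≤ 1) (f g : Finset X → ℝ)
    (hf0 : 0 ≤ f) (hg0 : 0 ≤ g) (hf : Monotone f) (hg : Monotone g) :
    (∑ S, wt q S * f S) * ∑ S, wt q S * g S ≤ ∑ S, wt q S * (f S * g S) := by
  have h := fkg (μ := wt q) (f := f) (g := g) (fun S => wt_nonneg h0 h1 S) hf0 hg0 hf hg
    (fun a b => (wt_mul_wt q a b).le)
  rwa [sum_wt, one_mul] at h

/-- **Harris' inequality**, two decreasing functions. -/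
theorem harris_anti {q : ℝ} (h0 : 0 ≤ q) (h1 : q ≤ 1) (f g : Finset X → ℝ)
    (hf0 : 0 ≤ f) (hg0 : 0 ≤ g) (hf : Antitone f) (hg : Antitone g) :
    (∑ S, wt q S * f S) * ∑ S, wt q S * g S ≤ ∑ S, wt q S * (f S * g S) := by
  have h := fkg (α := (Finset X)ᵒᵈ) (μ := fun S => wt q (OrderDual.ofDual S))
    (f := fun S => f (OrderDual.ofDual S)) (g := fun S => g (OrderDual.ofDual S))
    (fun S => wt_nonneg h0 h1 _) (fun S => hf0 _) (fun S => hg0 _)
    (fun a b hab => hf hab) (fun a b hab => hg hab)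
    (fun a b => by
      show wt q (OrderDual.ofDual a) * wt q (OrderDual.ofDual b)
        ≤ wt q (OrderDual.ofDual a ⊔ OrderDual.ofDual b)
          * wt q (OrderDual.ofDual a ⊓ OrderDual.ofDual b)
      rw [wt_mul_wt, mul_comm])
  have e : ∀ φ : Finset X → ℝ, ∑ S : (Finset X)ᵒᵈ, φ (OrderDual.ofDual S) = ∑ S : Finset X, φ S :=
    fun φ => Equiv.sum_comp OrderDual.ofDual φ
  rw [e fun S => wt q S * f S, e fun S => wt q S * g S, e fun S => wt q S,
    e fun S => wt q S * (f S * g S), sum_wt, one_mul] at h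
  exact h

/-- **Harris' inequality**, an increasing against a decreasing function. -/
theorem harris_mixed {q : ℝ} (h0 : 0 ≤ q) (h1 : q ≤ 1) (f g : Finset X → ℝ)
    (hf0 : 0 ≤ f) (hf : Monotone f) (hg : Antitone g) :
    ∑ S, wt q S * (f S * g S) ≤ (∑ S, wt q S * f S) * ∑ S, wt q S * g S := by
  -- `g ≤ g ∅ =: C`, and `C - g` is increasing and nonnegative
  set C := g ∅ with hC
  have hg' : Monotone fun S => C - g S := fun a b hab => by
    have := hg hab
    show C - g a ≤ C - g b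
    linarith
  have hg0' : (0 : Finset X → ℝ) ≤ fun S => C - g S := fun S => by
    have := hg (Finset.empty_subset S)
    show 0 ≤ C - g S
    linarith
  have h := harris_mono h0 h1 f (fun S => C - g S) hf0 hg0' hf hg'
  have e1 : ∑ S, wt q S * (C - g S) = C - ∑ S, wt q S * g S := by
    simp only [mul_sub, Finset.sum_sub_distrib]
    rw [← Finset.sum_mul, sum_wt, one_mul]
  have e2 : ∑ S, wt q S * (f S * (C - g S))
      = C * (∑ S, wt q S * f S) - ∑ S, wt q S * (f S * g S) := by
    rw [Finset.mul_sum, ← Finset.sum_sub_distrib]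
    exact Finset.sum_congr rfl fun S _ => by ring
  rw [e1, e2] at h
  nlinarith [h]

/-- the probability that `G'` contains a fixed set. -/
theorem prob_superset (q : ℝ) (D : Finset X) :
    ∑ S ∈ univ.filter (fun S : Finset X => D ⊆ S), wt q S = q ^ D.card := by
  have h := planting q D fun _ => (1 : ℝ)
  simp only [mul_one] at h
  rw [← h, sum_wt, mul_one]

/-- `∏_{D ∈ 𝒟} (1 - q^{|D|}) ≤ P(G' contains no member of 𝒟)`. -/
theorem prod_le_avoid {q : ℝ} (h0 : 0 ≤ q) (h1 : q ≤ 1) (𝒟 : Finset (Finset X)) :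
    ∏ D ∈ 𝒟, (1 - q ^ D.card)
      ≤ ∑ S, wt q S * (if ∀ D ∈ 𝒟, ¬ D ⊆ S then (1 : ℝ) else 0) := by
  classical
  induction 𝒟 using Finset.induction_on with
  | empty => simp [sum_wt]
  | insert D 𝒟 hD ih =>
    rw [Finset.prod_insert hD]
    set f : Finset X → ℝ := fun S => if ¬ D ⊆ S then (1 : ℝ) else 0 with hf
    set g : Finset X → ℝ := fun S => if ∀ D ∈ 𝒟, ¬ D ⊆ S then (1 : ℝ) else 0 with hg
    have hf0 : (0 : Finset X → ℝ) ≤ f := fun S => by
      show 0 ≤ (if ¬ D ⊆ S then (1 : ℝ) else 0)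
      split_ifs <;> norm_num
    have hg0 : (0 : Finset X → ℝ) ≤ g := fun S => by
      show 0 ≤ (if ∀ D ∈ 𝒟, ¬ D ⊆ S then (1 : ℝ) else 0)
      split_ifs <;> norm_num
    have hfa : Antitone f := fun a b hab => by
      show (if ¬ D ⊆ b then (1 : ℝ) else 0) ≤ if ¬ D ⊆ a then (1 : ℝ) else 0
      by_cases hb : D ⊆ b
      · simp only [hb, not_true_eq_false, if_false]
        split_ifs <;> norm_num
      · have ha : ¬ D ⊆ a := fun h => hb (h.trans hab)
        simp [ha, hb]
    have hga : Antitone g := fun a b hab => by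
      show (if ∀ D ∈ 𝒟, ¬ D ⊆ b then (1 : ℝ) else 0) ≤ if ∀ D ∈ 𝒟, ¬ D ⊆ a then (1 : ℝ) else 0
      by_cases hb : ∀ D ∈ 𝒟, ¬ D ⊆ b
      · have ha : ∀ D ∈ 𝒟, ¬ D ⊆ a := fun E hE h => hb E hE (h.trans hab)
        rw [if_pos hb, if_pos ha]
      · rw [if_neg hb]
        split_ifs <;> norm_num
    have hEf : ∑ S, wt q S * f S = 1 - q ^ D.card := by
      have h2 : ∀ S : Finset X, wt q S * f S = wt q S - wt q S * (if D ⊆ S then (1 : ℝ) else 0) := by
        intro S
        show wt q S * (if ¬ D ⊆ S then (1 : ℝ) else 0) = _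
        by_cases h : D ⊆ S <;> simp [h]
      simp only [h2, Finset.sum_sub_distrib, sum_wt]
      congr 1
      rw [← prob_superset q D, Finset.sum_filter]
      exact Finset.sum_congr rfl fun S _ => by split_ifs <;> simp
    have hnn : 0 ≤ 1 - q ^ D.card := by
      have : q ^ D.card ≤ 1 := pow_le_one₀ h0 h1
      linarith
    calc (1 - q ^ D.card) * ∏ E ∈ 𝒟, (1 - q ^ E.card)
        ≤ (1 - q ^ D.card) * ∑ S, wt q S * g S := mul_le_mul_of_nonneg_left ih hnn
      _ = (∑ S, wt q S * f S) * ∑ S, wt q S * g S := by rw [hEf]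
      _ ≤ ∑ S, wt q S * (f S * g S) := harris_anti h0 h1 f g hf0 hg0 hfa hga
      _ = ∑ S, wt q S * (if ∀ E ∈ insert D 𝒟, ¬ E ⊆ S then (1 : ℝ) else 0) := by
          refine Finset.sum_congr rfl fun S _ => ?_
          congr 1
          show (if ¬ D ⊆ S then (1 : ℝ) else 0) * (if ∀ D ∈ 𝒟, ¬ D ⊆ S then (1 : ℝ) else 0) = _
          simp only [Finset.forall_mem_insert]
          by_cases h1 : D ⊆ S
          · rw [if_neg (not_not.2 h1), zero_mul,
              if_neg (fun h : (¬ D ⊆ S ∧ ∀ D ∈ 𝒟, ¬ D ⊆ S) => h.1 h1)]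
          · by_cases h2 : ∀ D ∈ 𝒟, ¬ D ⊆ S
            · rw [if_pos h1, if_pos h2, if_pos ⟨h1, h2⟩, one_mul]
            · rw [if_pos h1, if_neg h2, one_mul,
                if_neg (fun h : (¬ D ⊆ S ∧ ∀ D ∈ 𝒟, ¬ D ⊆ S) => h2 h.2)]

end Crest.Agent.Rec91
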