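import Crest.Agent.S0076_Red

/-!
# S0076: the hypothesis side

`aut_le_of_half_le`: if the expected number of (unlabelled) copies of a finite graph `A` in
`G(n,p)` is at least `1/2`, then `|Aut A| ≤ 2 · (n)_{v(A)} · p ^ e(A)`.
-/

set_option autoImplicit false

namespace Crest.Agent.Hyp95

open Finset Crest.FinProb Crest.CombinatoricsR.RandomGraph

section weight

variable {ι : Type*} [Fintype ι] [DecidableEq ι]

omit [DecidableEq ι] in
theorem weight_nonneg {p : ℝ} (h0 : 0 ≤ p) (h1 : p ≤ 1) (ω : ι → Bool) :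
    0 ≤ bernoulliWeight p ω := by
  unfold bernoulliWeight
  refine Finset.prod_nonneg fun i _ => ?_
  split_ifs
  · exact h0
  · linarith

/-- the probability that all the coins of `S` show `true` is `p ^ |S|`. -/
theorem sum_weight_up (p : ℝ) (S : Finset ι) :
    ∑ ω : ι → Bool, bernoulliWeight p ω * (if ∀ z ∈ S, ω z = true then (1 : ℝ) else 0)
      = p ^ S.card := by
  classical
  have h1 : ∀ ω : ι → Bool,
      bernoulliWeight p ω * (if ∀ z ∈ S, ω z = true then (1 : ℝ) else 0)
        = ∏ i, ((if ω i then p else 1 - p) * (if i ∈ S then (if ω i then 1 else 0) else 1)) := by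
    intro ω
    rw [Finset.prod_mul_distrib]
    unfold bernoulliWeight
    congr 1
    by_cases h : ∀ z ∈ S, ω z = true
    · rw [if_pos h]
      symm
      refine Finset.prod_eq_one fun i _ => ?_
      by_cases hi : i ∈ S
      · rw [if_pos hi, if_pos (h i hi)]
      · rw [if_neg hi]
    · rw [if_neg h]
      push Not at h
      obtain ⟨z, hz, hω⟩ := h
      symm
      refine Finset.prod_eq_zero (Finset.mem_univ z) ?_
      rw [if_pos hz, if_neg hω]
  simp_rw [h1]
  have h2 := (Finset.prod_univ_sum (fun _ : ι => (Finset.univ : Finset Bool))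
    (fun (i : ι) (b : Bool) =>
      ((if b then p else 1 - p) * (if i ∈ S then (if b then (1 : ℝ) else 0) else 1)))).symm
  rw [Fintype.piFinset_univ] at h2
  rw [h2]
  have h3 : ∀ i : ι, ∑ b : Bool,
      ((if b then p else 1 - p) * (if i ∈ S then (if b then (1 : ℝ) else 0) else 1))
        = if i ∈ S then p else 1 := by
    intro i
    rw [Fintype.sum_bool]
    by_cases hi : i ∈ S
    · simp [hi]
    · simp [hi]
  simp_rw [h3]
  rw [Finset.prod_ite, Finset.prod_const_one, mul_one, Finset.prod_const]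
  congr 1
  congr 1
  ext i
  simp

end weight

variable {n : ℕ} {α : Type} [Fintype α] [DecidableEq α]

/-- the labelled copy of `A` attached to a subgraph `G'` of `G`, an isomorphism `A ≃g G'.coe` and an
automorphism of `A`. -/
noncomputable def lab {V : Type} {G : SimpleGraph V} (A : SimpleGraph α) (G' : G.Subgraph)
    (e : A ≃g G'.coe) (φ : A ≃g A) : α ↪ V :=
  ⟨fun a => (e (φ a)).1, fun _ _ h => φ.injective (e.injective (Subtype.ext h))⟩

omit [DecidableEq α] in
theorem copyCount_mul_aut_le {V : Type} [Fintype V] [DecidableEq V] (G : SimpleGraph V)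
    (A : SimpleGraph α) :
    G.copyCount A * Nat.card (A ≃g A) ≤
      Nat.card {σ : α ↪ V // ∀ a b, A.Adj a b → G.Adj (σ a) (σ b)} := by
  classical
  have : Finite (A ≃g A) := Finite.of_injective (fun e => (e : α → α)) DFunLike.coe_injective
  have h1 : G.copyCount A = Nat.card {G' : G.Subgraph // Nonempty (A ≃g G'.coe)} := by
    unfold SimpleGraph.copyCount
    rw [Nat.card_eq_fintype_card, Fintype.card_subtype]
    congr!
  rw [h1, ← Nat.card_prod]
  refine Nat.card_le_card_of_injective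
    (fun x : {G' : G.Subgraph // Nonempty (A ≃g G'.coe)} × (A ≃g A) =>
      (⟨lab A x.1.1 (Classical.choice x.1.2) x.2, ?_⟩ :
        {σ : α ↪ V // ∀ a b, A.Adj a b → G.Adj (σ a) (σ b)})) ?_
  · intro a b hab
    have h2 : A.Adj (x.2 a) (x.2 b) := x.2.map_rel_iff.2 hab
    have h3 := (Classical.choice x.1.2).map_rel_iff.2 h2
    exact x.1.1.adj_sub h3
  · rintro ⟨⟨G₁, h₁⟩, φ₁⟩ ⟨⟨G₂, h₂⟩, φ₂⟩ h
    have h' : lab A G₁ (Classical.choice h₁) φ₁ = lab A G₂ (Classical.choice h₂) φ₂ :=
      congrArg Subtype.val h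
    have hpt : ∀ a, ((Classical.choice h₁) (φ₁ a)).1 = ((Classical.choice h₂) (φ₂ a)).1 :=
      fun a => DFunLike.congr_fun h' a
    -- description of a subgraph through its labelling
    have key : ∀ (G' : G.Subgraph) (e : A ≃g G'.coe) (φ : A ≃g A),
        (∀ v, v ∈ G'.verts ↔ ∃ a, (e (φ a)).1 = v) ∧
        (∀ u v, G'.Adj u v ↔ ∃ a b, A.Adj a b ∧ (e (φ a)).1 = u ∧ (e (φ b)).1 = v) := by
      intro G' e φ
      constructor
      · intro v
        constructor
        · intro hv
          refine ⟨φ.symm (e.symm ⟨v, hv⟩), ?_⟩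
          simp
        · rintro ⟨a, rfl⟩
          exact (e (φ a)).2
      · intro u v
        constructor
        · intro huv
          have hu := G'.edge_vert huv
          have hv := G'.edge_vert huv.symm
          refine ⟨φ.symm (e.symm ⟨u, hu⟩), φ.symm (e.symm ⟨v, hv⟩), ?_, by simp, by simp⟩
          rw [φ.symm.map_rel_iff, e.symm.map_rel_iff]
          exact huv
        · rintro ⟨a, b, hab, rfl, rfl⟩
          have h2 : A.Adj (φ a) (φ b) := φ.map_rel_iff.2 hab
          exact e.map_rel_iff.2 h2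
    have hG : G₁ = G₂ := by
      obtain ⟨k1, k2⟩ := key G₁ (Classical.choice h₁) φ₁
      obtain ⟨l1, l2⟩ := key G₂ (Classical.choice h₂) φ₂
      refine SimpleGraph.Subgraph.ext ?_ ?_
      · ext v
        rw [k1, l1]
        simp_rw [hpt]
      · ext u v
        rw [k2, l2]
        simp_rw [hpt]
    subst hG
    have hφ : φ₁ = φ₂ := by
      ext a
      exact (Classical.choice h₁).injective (Subtype.ext (hpt a))
    rw [hφ]

omit [DecidableEq α] in
theorem card_copyEdges (A : SimpleGraph α) [DecidableRel A.Adj] (σ : α ↪ Fin n) :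
    (PP56.copyEdges A σ).card = A.edgeFinset.card := by
  classical
  have h1 : ((PP56.copyEdges A σ).image fun z : EdgeSlot n => z.1) =
      A.edgeFinset.image (Sym2.map σ) := by
    ext y
    constructor
    · intro hy
      obtain ⟨z, hz, rfl⟩ := Finset.mem_image.mp hy
      obtain ⟨e, he, hez⟩ := (Finset.mem_filter.mp hz).2
      exact Finset.mem_image.mpr ⟨e, he, hez⟩
    · intro hy
      obtain ⟨e, he, rfl⟩ := Finset.mem_image.mp hy
      have hnd : ¬ (Sym2.map σ e).IsDiag := by
        induction e using Sym2.ind with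
        | _ a b =>
          rw [SimpleGraph.mem_edgeFinset, SimpleGraph.mem_edgeSet] at he
          simpa using he.ne
      refine Finset.mem_image.mpr ⟨⟨Sym2.map σ e, hnd⟩, ?_, rfl⟩
      unfold PP56.copyEdges
      rw [Finset.mem_filter]
      exact ⟨Finset.mem_univ _, e, he, rfl⟩
  calc (PP56.copyEdges A σ).card = ((PP56.copyEdges A σ).image fun z : EdgeSlot n => z.1).card :=
        (Finset.card_image_of_injective _ Subtype.val_injective).symm
    _ = (A.edgeFinset.image (Sym2.map σ)).card := by rw [h1]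
    _ = A.edgeFinset.card :=
        Finset.card_image_of_injective _ (Sym2.map.injective σ.injective)

omit [DecidableEq α] in
theorem slots_true_of_hom (A : SimpleGraph α) [DecidableRel A.Adj] (σ : α ↪ Fin n)
    (ω : EdgeSlot n → Bool) (h : ∀ a b, A.Adj a b → (graphOf ω).Adj (σ a) (σ b)) :
    ∀ z ∈ PP56.copyEdges A σ, ω z = true := by
  intro z hz
  obtain ⟨e, he, hez⟩ := (Finset.mem_filter.mp hz).2
  induction e using Sym2.ind with
  | _ a b =>
    rw [SimpleGraph.mem_edgeFinset, SimpleGraph.mem_edgeSet] at he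
    have h2 := h a b he
    unfold graphOf at h2
    rw [SimpleGraph.fromEdgeSet_adj] at h2
    obtain ⟨⟨hnd, hω⟩, _⟩ := h2
    have : z = ⟨s(σ a, σ b), hnd⟩ := Subtype.ext (by rw [← hez]; rfl)
    rw [this]
    exact hω

/-- **First moment bound**: `E #copies(A) · |Aut A| ≤ (n)_{v(A)} p^{e(A)}`. -/
theorem expect_copyCount_mul_aut_le (A : SimpleGraph α) [DecidableRel A.Adj] {p : ℝ}
    (h0 : 0 ≤ p) (h1 : p ≤ 1) :
    gnpExpect n p (fun G => (G.copyCount A : ℝ)) * (Nat.card (A ≃g A) : ℝ)
      ≤ (Fintype.card (α ↪ Fin n) : ℝ) * p ^ A.edgeFinset.card := by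
  classical
  unfold gnpExpect
  rw [Finset.sum_mul]
  have hstep : ∀ ω : EdgeSlot n → Bool,
      bernoulliWeight p ω * ((graphOf ω).copyCount A : ℝ) * (Nat.card (A ≃g A) : ℝ)
        ≤ ∑ σ : α ↪ Fin n, bernoulliWeight p ω *
            (if ∀ z ∈ PP56.copyEdges A σ, ω z = true then (1 : ℝ) else 0) := by
    intro ω
    rw [← Finset.mul_sum, mul_assoc]
    refine mul_le_mul_of_nonneg_left ?_ (weight_nonneg h0 h1 ω)
    have h2 := copyCount_mul_aut_le (graphOf ω) A
    have h3 : Nat.card {σ : α ↪ Fin n // ∀ a b, A.Adj a b → (graphOf ω).Adj (σ a) (σ b)}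
        ≤ (Finset.univ.filter fun σ : α ↪ Fin n =>
            ∀ z ∈ PP56.copyEdges A σ, ω z = true).card := by
      rw [Nat.card_eq_fintype_card, Fintype.card_subtype]
      refine Finset.card_le_card ?_
      intro σ hσ
      rw [Finset.mem_filter] at hσ ⊢
      exact ⟨hσ.1, slots_true_of_hom A σ ω hσ.2⟩
    have h4 : ∑ σ : α ↪ Fin n, (if ∀ z ∈ PP56.copyEdges A σ, ω z = true then (1 : ℝ) else 0)
        = ((Finset.univ.filter fun σ : α ↪ Fin n =>
            ∀ z ∈ PP56.copyEdges A σ, ω z = true).card : ℝ) := by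
      rw [Finset.sum_ite, Finset.sum_const_zero, add_zero, Finset.sum_const, nsmul_eq_mul, mul_one]
    rw [h4]
    exact_mod_cast h2.trans h3
  refine (Finset.sum_le_sum fun ω _ => hstep ω).trans ?_
  rw [Finset.sum_comm]
  simp_rw [sum_weight_up, card_copyEdges]
  rw [Finset.sum_const, nsmul_eq_mul, Finset.card_univ]

/-- **(A)**: if the expected number of copies of `A` in `G(n,p)` is at least `1/2`, then
`|Aut A| ≤ 2 (n)_{v(A)} p^{e(A)}`. -/
theorem aut_le_of_half_le (A : SimpleGraph α) [DecidableRel A.Adj] {p : ℝ}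
    (h0 : 0 ≤ p) (h1 : p ≤ 1)
    (hE : (1 : ℝ) / 2 ≤ gnpExpect n p (fun G => (G.copyCount A : ℝ))) :
    (Nat.card (A ≃g A) : ℝ) ≤ 2 * ((Fintype.card (α ↪ Fin n) : ℝ) * p ^ A.edgeFinset.card) := by
  have h := expect_copyCount_mul_aut_le (n := n) A h0 h1
  have hn : (0 : ℝ) ≤ (Nat.card (A ≃g A) : ℝ) := Nat.cast_nonneg _
  nlinarith [mul_le_mul_of_nonneg_right hE hn]

theorem copyCount_congr {V β : Type} [Fintype V] (G : SimpleGraph V) {A : SimpleGraph α}
    {B : SimpleGraph β} (e : A ≃g B) : G.copyCount A = G.copyCount B := by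
  classical
  unfold SimpleGraph.copyCount
  congr 1
  ext G'
  simp only [Finset.mem_filter, Finset.mem_univ, true_and]
  exact ⟨fun ⟨f⟩ => ⟨e.symm.trans f⟩, fun ⟨f⟩ => ⟨e.trans f⟩⟩

/-- **(A) for every graph with a copy in `H`**, from the hypothesis `hE` of S0076. -/
theorem hypA {W : Type} (H : SimpleGraph W) {p : ℝ} (h0 : 0 ≤ p) (h1 : p ≤ 1)
    (hE : ∀ F : H.Subgraph, (1 : ℝ) / 2 ≤ gnpExpect n p (fun G => (G.copyCount F.coe : ℝ)))
    (A : SimpleGraph α) [DecidableRel A.Adj] (f : SimpleGraph.Copy A H) :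
    (Nat.card (A ≃g A) : ℝ) ≤ 2 * ((Fintype.card (α ↪ Fin n) : ℝ) * p ^ A.edgeFinset.card) := by
  refine aut_le_of_half_le A h0 h1 ?_
  have h := hE f.toSubgraph
  have h2 : (fun G : SimpleGraph (Fin n) => (G.copyCount A : ℝ))
      = fun G : SimpleGraph (Fin n) => (G.copyCount f.toSubgraph.coe : ℝ) := by
    funext G
    rw [copyCount_congr G f.isoToSubgraph]
  rw [h2]
  exact h

/-- the same with the falling factorial. -/
theorem hypA' {W : Type} (H : SimpleGraph W) {p : ℝ} (h0 : 0 ≤ p) (h1 : p ≤ 1)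
    (hE : ∀ F : H.Subgraph, (1 : ℝ) / 2 ≤ gnpExpect n p (fun G => (G.copyCount F.coe : ℝ)))
    (A : SimpleGraph α) [DecidableRel A.Adj] (f : SimpleGraph.Copy A H) :
    (Nat.card (A ≃g A) : ℝ)
      ≤ 2 * ((n.descFactorial (Fintype.card α) : ℝ) * p ^ A.edgeFinset.card) := by
  have h := hypA (n := n) H h0 h1 hE A f
  rwa [Fintype.card_embedding_eq, Fintype.card_fin] at h

end Crest.Agent.Hyp95
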