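import Mathlib

/-!
# S0076: the "private elements" lemma in the abstract group frame

`G` a finite group acting on a finite set `X`, `orb G U` the set of images of `U`.
If `FF` is a family of `k` images of `F` inside `H`, each of which meets the union of the other
members in at most `m` elements, then `N(U) p^{|U|} k! ≤ B^k` for `U = ⋃ FF`, where `B` is any bound
for the one-step weight `∑_{A ∈ orb F, |A ∩ V| ≤ m} p^{f - |A ∩ V|}`, `V ⊆ H`.
-/

set_option autoImplicit false
set_option linter.unusedSectionVars false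

namespace Crest.Agent.L1h91

open Finset
open scoped Pointwise

section frame

variable (G : Type) [Group G] [Fintype G] {X : Type} [Fintype X] [DecidableEq X] [MulAction G X]

/-- the set of images of `U`. -/
def orb (U : Finset X) : Finset (Finset X) := univ.image fun g : G => g • U

theorem mem_orb {U A : Finset X} : A ∈ orb G U ↔ ∃ g : G, g • U = A := by
  simp [orb]

theorem smul_mem_orb {U A : Finset X} (g : G) (h : A ∈ orb G U) : g • A ∈ orb G U := by
  obtain ⟨a, rfl⟩ := (mem_orb G).1 h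
  exact (mem_orb G).2 ⟨g * a, by rw [mul_smul]⟩

theorem card_of_mem_orb {U A : Finset X} (h : A ∈ orb G U) : A.card = U.card := by
  obtain ⟨a, rfl⟩ := (mem_orb G).1 h
  exact Finset.card_smul_finset a U

/-- union of a family. -/
abbrev un (𝒜 : Finset (Finset X)) : Finset X := 𝒜.biUnion id

variable {G}

theorem un_image_smul (g : G) (𝒜 : Finset (Finset X)) :
    un (𝒜.image fun A => g • A) = g • un 𝒜 := by
  ext x
  constructor
  · intro hx
    obtain ⟨B, hB, hxB⟩ := mem_biUnion.1 hx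
    obtain ⟨A, hA, rfl⟩ := mem_image.1 hB
    obtain ⟨y, hy, rfl⟩ := Finset.mem_smul_finset.1 hxB
    exact Finset.smul_mem_smul_finset (mem_biUnion.2 ⟨A, hA, hy⟩)
  · intro hx
    obtain ⟨y, hy, rfl⟩ := Finset.mem_smul_finset.1 hx
    obtain ⟨A, hA, hyA⟩ := mem_biUnion.1 hy
    exact mem_biUnion.2 ⟨g • A, mem_image.2 ⟨A, hA, rfl⟩, Finset.smul_mem_smul_finset hyA⟩

theorem smul_injective (g : G) : Function.Injective fun A : Finset X => g • A :=
  MulAction.injective g

variable (G)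

/-- the one-step weight. -/
noncomputable def stepSum (F V : Finset X) (m : ℕ) (p : ℝ) : ℝ :=
  ∑ A ∈ (orb G F).filter (fun A => (A ∩ V).card ≤ m), p ^ (F.card - (A ∩ V).card)

theorem stepSum_smul (F V : Finset X) (m : ℕ) (p : ℝ) (g : G) :
    stepSum G F (g • V) m p = stepSum G F V m p := by
  unfold stepSum
  refine Finset.sum_nbij' (fun A => g⁻¹ • A) (fun A => g • A) ?_ ?_ ?_ ?_ ?_
  · intro A hA
    rw [mem_filter] at hA ⊢
    refine ⟨smul_mem_orb G _ hA.1, ?_⟩
    have : g⁻¹ • A ∩ V = g⁻¹ • (A ∩ g • V) := by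
      rw [Finset.smul_finset_inter, inv_smul_smul]
    rw [this, Finset.card_smul_finset]
    exact hA.2
  · intro A hA
    rw [mem_filter] at hA ⊢
    refine ⟨smul_mem_orb G _ hA.1, ?_⟩
    rw [← Finset.smul_finset_inter, Finset.card_smul_finset]
    exact hA.2
  · intro A _
    exact smul_inv_smul g A
  · intro A _
    exact inv_smul_smul g A
  · intro A _
    have : g⁻¹ • A ∩ V = g⁻¹ • (A ∩ g • V) := by
      rw [Finset.smul_finset_inter, inv_smul_smul]
    rw [this, Finset.card_smul_finset]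

/-- good families of size `k`. -/
def Good (H F : Finset X) (m k : ℕ) (𝒜 : Finset (Finset X)) : Prop :=
  𝒜.card = k ∧ (∀ A ∈ 𝒜, A ∈ orb G F) ∧ (∃ g : G, ∀ A ∈ 𝒜, A ⊆ g • H) ∧
    ∀ A ∈ 𝒜, (A ∩ un (𝒜.erase A)).card ≤ m

open Classical in
/-- the finset of good families. -/
noncomputable def goodSet (H F : Finset X) (m k : ℕ) : Finset (Finset (Finset X)) :=
  univ.filter fun 𝒜 => Good G H F m k 𝒜

theorem mem_goodSet {H F : Finset X} {m k : ℕ} {𝒜 : Finset (Finset X)} :
    𝒜 ∈ goodSet G H F m k ↔ Good G H F m k 𝒜 := by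
  classical
  simp [goodSet]

/-- the weighted number of good families. -/
noncomputable def T (H F : Finset X) (m k : ℕ) (p : ℝ) : ℝ :=
  ∑ 𝒜 ∈ goodSet G H F m k, p ^ (un 𝒜).card

theorem stepSum_nonneg (F V : Finset X) (m : ℕ) {p : ℝ} (hp : 0 ≤ p) :
    0 ≤ stepSum G F V m p :=
  Finset.sum_nonneg fun _ _ => pow_nonneg hp _

theorem T_nonneg (H F : Finset X) (m k : ℕ) {p : ℝ} (hp : 0 ≤ p) : 0 ≤ T G H F m k p :=
  Finset.sum_nonneg fun _ _ => pow_nonneg hp _

variable {G}

theorem un_mono {𝒜 ℬ : Finset (Finset X)} (h : 𝒜 ⊆ ℬ) : un 𝒜 ⊆ un ℬ :=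
  Finset.biUnion_subset_biUnion_of_subset_left _ h

theorem un_eq_union_erase {𝒜 : Finset (Finset X)} {A : Finset X} (hA : A ∈ 𝒜) :
    un 𝒜 = A ∪ un (𝒜.erase A) := by
  conv_lhs => rw [← Finset.insert_erase hA]
  unfold un
  rw [Finset.biUnion_insert]
  rfl

theorem Good.erase {H F : Finset X} {m k : ℕ} {𝒜 : Finset (Finset X)}
    (h : Good G H F m (k + 1) 𝒜) {A : Finset X} (hA : A ∈ 𝒜) : Good G H F m k (𝒜.erase A) := by
  obtain ⟨h1, h2, ⟨g, h3⟩, h4⟩ := h
  refine ⟨by rw [Finset.card_erase_of_mem hA, h1]; rfl, fun B hB => h2 B (Finset.mem_of_mem_erase hB),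
    ⟨g, fun B hB => h3 B (Finset.mem_of_mem_erase hB)⟩, fun B hB => ?_⟩
  refine le_trans (Finset.card_le_card ?_) (h4 B (Finset.mem_of_mem_erase hB))
  refine Finset.inter_subset_inter_left (un_mono ?_)
  exact Finset.erase_subset_erase _ (Finset.erase_subset _ _)

theorem Good.smul {H F : Finset X} {m k : ℕ} {𝒜 : Finset (Finset X)}
    (h : Good G H F m k 𝒜) (a : G) : Good G H F m k (𝒜.image fun A => a • A) := by
  obtain ⟨h1, h2, ⟨g, h3⟩, h4⟩ := h
  refine ⟨by rw [Finset.card_image_of_injective _ (smul_injective a), h1], ?_, ⟨a * g, ?_⟩, ?_⟩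
  · intro B hB
    obtain ⟨A, hA, rfl⟩ := mem_image.1 hB
    exact smul_mem_orb G a (h2 A hA)
  · intro B hB
    obtain ⟨A, hA, rfl⟩ := mem_image.1 hB
    rw [mul_smul]
    exact Finset.smul_finset_subset_smul_finset (h3 A hA)
  · intro B hB
    obtain ⟨A, hA, rfl⟩ := mem_image.1 hB
    have e1 : (𝒜.image fun A => a • A).erase (a • A) = (𝒜.erase A).image fun A => a • A :=
      (Finset.image_erase (smul_injective a) 𝒜 A).symm
    rw [e1, un_image_smul, ← Finset.smul_finset_inter, Finset.card_smul_finset]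
    exact h4 A hA

theorem Good.stepSum_le {H F : Finset X} {m k : ℕ} {𝒜 : Finset (Finset X)}
    (h : Good G H F m k 𝒜) {p B : ℝ} (hB : ∀ V : Finset X, V ⊆ H → stepSum G F V m p ≤ B) :
    stepSum G F (un 𝒜) m p ≤ B := by
  obtain ⟨-, -, ⟨g, h3⟩, -⟩ := h
  have hsub : g⁻¹ • un 𝒜 ⊆ H := by
    have h5 : un 𝒜 ⊆ g • H := Finset.biUnion_subset.2 h3
    have h6 := Finset.smul_finset_subset_smul_finset (a := g⁻¹) h5
    rwa [inv_smul_smul] at h6
  have h7 := hB _ hsub
  rwa [← stepSum_smul G F _ m p g, smul_inv_smul] at h7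

theorem card_un_eq {F : Finset X} {𝒜 : Finset (Finset X)} {A : Finset X} (hA : A ∈ 𝒜)
    (hF : A.card = F.card) :
    (un 𝒜).card = (un (𝒜.erase A)).card + (F.card - (A ∩ un (𝒜.erase A)).card) := by
  rw [un_eq_union_erase hA]
  have h1 := Finset.card_union_add_card_inter A (un (𝒜.erase A))
  have h2 : (A ∩ un (𝒜.erase A)).card ≤ A.card := Finset.card_le_card Finset.inter_subset_left
  have h3 : un ((insert A (𝒜.erase A)).erase A) = un (𝒜.erase A) := by
    rw [Finset.insert_erase hA]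
  omega

variable (G)

theorem succ_mul_T_le (H F : Finset X) (m k : ℕ) {p B : ℝ} (hp : 0 ≤ p)
    (hB : ∀ V : Finset X, V ⊆ H → stepSum G F V m p ≤ B) :
    ((k : ℝ) + 1) * T G H F m (k + 1) p ≤ B * T G H F m k p := by
  classical
  have e1 : ((k : ℝ) + 1) * T G H F m (k + 1) p
      = ∑ 𝒜 ∈ goodSet G H F m (k + 1), ∑ _A ∈ 𝒜, p ^ (un 𝒜).card := by
    unfold T
    rw [Finset.mul_sum]
    refine Finset.sum_congr rfl fun 𝒜 h𝒜 => ?_
    rw [Finset.sum_const, ((mem_goodSet G).1 h𝒜).1, nsmul_eq_mul]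
    push_cast
    ring
  have e2 : B * T G H F m k p
      = ∑ 𝒜 ∈ goodSet G H F m k, p ^ (un 𝒜).card * B := by
    unfold T
    rw [Finset.mul_sum]
    exact Finset.sum_congr rfl fun _ _ => mul_comm _ _
  have e3 : ∑ 𝒜 ∈ goodSet G H F m k, p ^ (un 𝒜).card * stepSum G F (un 𝒜) m p
      ≤ ∑ 𝒜 ∈ goodSet G H F m k, p ^ (un 𝒜).card * B := by
    refine Finset.sum_le_sum fun 𝒜 h𝒜 => ?_
    exact mul_le_mul_of_nonneg_left (((mem_goodSet G).1 h𝒜).stepSum_le hB) (pow_nonneg hp _)
  rw [e1, e2]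
  refine le_trans ?_ e3
  have e4 : ∑ 𝒜 ∈ goodSet G H F m k, p ^ (un 𝒜).card * stepSum G F (un 𝒜) m p
      = ∑ 𝒜 ∈ goodSet G H F m k, ∑ A ∈ (orb G F).filter (fun A => (A ∩ un 𝒜).card ≤ m),
          p ^ (un 𝒜).card * p ^ (F.card - (A ∩ un 𝒜).card) := by
    refine Finset.sum_congr rfl fun 𝒜 _ => ?_
    unfold stepSum
    rw [Finset.mul_sum]
  rw [e4, Finset.sum_sigma', Finset.sum_sigma']
  set e : (Σ _ : Finset (Finset X), Finset X) → (Σ _ : Finset (Finset X), Finset X) :=
    fun x => ⟨x.1.erase x.2, x.2⟩ with he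
  set S := (goodSet G H F m (k + 1)).sigma fun 𝒜 => 𝒜 with hS
  set S' := (goodSet G H F m k).sigma
    fun 𝒜 => (orb G F).filter (fun A => (A ∩ un 𝒜).card ≤ m) with hS'
  set gg : (Σ _ : Finset (Finset X), Finset X) → ℝ :=
    fun x => p ^ (un x.1).card * p ^ (F.card - (x.2 ∩ un x.1).card) with hgg
  have hinj : Set.InjOn e (S : Set (Σ _ : Finset (Finset X), Finset X)) := by
    rintro ⟨𝒜, A⟩ hx ⟨ℬ, B⟩ hy hxy
    have hx2 : A ∈ 𝒜 := (Finset.mem_sigma.1 hx).2
    have hy2 : B ∈ ℬ := (Finset.mem_sigma.1 hy).2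
    simp only [he, Sigma.mk.injEq, heq_eq_eq] at hxy
    obtain ⟨h1, rfl⟩ := hxy
    have : 𝒜 = ℬ := by
      rw [← Finset.insert_erase hx2, ← Finset.insert_erase hy2, h1]
    rw [this]
  have hsub : S.image e ⊆ S' := by
    intro y hy
    obtain ⟨⟨𝒜, A⟩, hx, rfl⟩ := mem_image.1 hy
    have hx1 : Good G H F m (k + 1) 𝒜 := (mem_goodSet G).1 (Finset.mem_sigma.1 hx).1
    have hx2 : A ∈ 𝒜 := (Finset.mem_sigma.1 hx).2
    refine Finset.mem_sigma.2 ⟨(mem_goodSet G).2 (hx1.erase hx2), ?_⟩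
    exact mem_filter.2 ⟨hx1.2.1 A hx2, hx1.2.2.2 A hx2⟩
  calc ∑ x ∈ S, p ^ (un x.1).card = ∑ x ∈ S, gg (e x) := by
        refine Finset.sum_congr rfl ?_
        rintro ⟨𝒜, A⟩ hx
        have hx1 : Good G H F m (k + 1) 𝒜 := (mem_goodSet G).1 (Finset.mem_sigma.1 hx).1
        have hx2 : A ∈ 𝒜 := (Finset.mem_sigma.1 hx).2
        show p ^ (un 𝒜).card
          = p ^ (un (𝒜.erase A)).card * p ^ (F.card - (A ∩ un (𝒜.erase A)).card)
        rw [← pow_add, ← card_un_eq hx2 (card_of_mem_orb G (hx1.2.1 A hx2))]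
    _ = ∑ y ∈ S.image e, gg y := (Finset.sum_image hinj).symm
    _ ≤ ∑ y ∈ S', gg y :=
        Finset.sum_le_sum_of_subset_of_nonneg hsub fun y _ _ =>
          mul_nonneg (pow_nonneg hp _) (pow_nonneg hp _)

theorem T_zero (H F : Finset X) (m : ℕ) (p : ℝ) : T G H F m 0 p = 1 := by
  have : goodSet G H F m 0 = {∅} := by
    ext 𝒜
    rw [mem_goodSet, Finset.mem_singleton]
    constructor
    · intro h
      exact Finset.card_eq_zero.1 h.1
    · rintro rfl
      exact ⟨rfl, by simp, ⟨1, by simp⟩, by simp⟩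
  unfold T
  rw [this, Finset.sum_singleton]
  simp

theorem factorial_mul_T_le (H F : Finset X) (m k : ℕ) {p B : ℝ} (hp : 0 ≤ p)
    (hB : ∀ V : Finset X, V ⊆ H → stepSum G F V m p ≤ B) :
    (k.factorial : ℝ) * T G H F m k p ≤ B ^ k := by
  have hB0 : 0 ≤ B := le_trans (stepSum_nonneg G F ∅ m hp) (hB ∅ (Finset.empty_subset _))
  induction k with
  | zero => simp [T_zero]
  | succ k ih =>
    have h1 := succ_mul_T_le G H F m k hp hB
    calc ((k + 1).factorial : ℝ) * T G H F m (k + 1) p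
        = (k.factorial : ℝ) * (((k : ℝ) + 1) * T G H F m (k + 1) p) := by
          rw [Nat.factorial_succ]; push_cast; ring
      _ ≤ (k.factorial : ℝ) * (B * T G H F m k p) :=
          mul_le_mul_of_nonneg_left h1 (Nat.cast_nonneg _)
      _ = B * ((k.factorial : ℝ) * T G H F m k p) := by ring
      _ ≤ B * B ^ k := mul_le_mul_of_nonneg_left ih hB0
      _ = B ^ (k + 1) := by ring

theorem card_orb_mul_le_T {H F : Finset X} {m k : ℕ} {FF : Finset (Finset X)}
    (h : Good G H F m k FF) {p : ℝ} (hp : 0 ≤ p) :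
    ((orb G (un FF)).card : ℝ) * p ^ (un FF).card ≤ T G H F m k p := by
  classical
  have hch : ∀ U ∈ orb G (un FF), ∃ g : G, g • un FF = U := fun U hU => (mem_orb G).1 hU
  choose! c hc using hch
  set Φ : Finset X → Finset (Finset X) := fun U => FF.image fun A => c U • A with hΦ
  have hun : ∀ U ∈ orb G (un FF), un (Φ U) = U := by
    intro U hU
    rw [hΦ]
    show un (FF.image fun A => c U • A) = U
    rw [un_image_smul, hc U hU]
  have hinj : Set.InjOn Φ (orb G (un FF) : Set (Finset X)) := by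
    intro U hU V hV hUV
    rw [← hun U hU, ← hun V hV, hUV]
  have hsub : (orb G (un FF)).image Φ ⊆ goodSet G H F m k := by
    intro 𝒜 h𝒜
    obtain ⟨U, _, rfl⟩ := mem_image.1 h𝒜
    exact (mem_goodSet G).2 (h.smul (c U))
  calc ((orb G (un FF)).card : ℝ) * p ^ (un FF).card
      = ∑ U ∈ orb G (un FF), p ^ (un (Φ U)).card := by
        rw [← nsmul_eq_mul, ← Finset.sum_const]
        refine Finset.sum_congr rfl fun U hU => ?_
        rw [hun U hU, card_of_mem_orb G hU]
    _ = ∑ 𝒜 ∈ (orb G (un FF)).image Φ, p ^ (un 𝒜).card :=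
        (Finset.sum_image (f := fun 𝒜 : Finset (Finset X) => p ^ (un 𝒜).card) hinj).symm
    _ ≤ T G H F m k p :=
        Finset.sum_le_sum_of_subset_of_nonneg hsub fun y _ _ => pow_nonneg hp _

/-- **The private elements lemma.** -/
theorem listBound {H F : Finset X} {m k : ℕ} {FF : Finset (Finset X)}
    (h : Good G H F m k FF) {p B : ℝ} (hp : 0 ≤ p)
    (hB : ∀ V : Finset X, V ⊆ H → stepSum G F V m p ≤ B) :
    (k.factorial : ℝ) * (((orb G (un FF)).card : ℝ) * p ^ (un FF).card) ≤ B ^ k :=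
  le_trans (mul_le_mul_of_nonneg_left (card_orb_mul_le_T G h hp) (Nat.cast_nonneg _))
    (factorial_mul_T_le G H F m k hp hB)

/-- order of the setwise stabiliser. -/
def stb (F : Finset X) : ℕ := (univ.filter fun g : G => g • F = F).card

theorem stb_pos (F : Finset X) : 0 < stb G F :=
  Finset.card_pos.2 ⟨1, mem_filter.2 ⟨mem_univ _, one_smul _ _⟩⟩

theorem card_fibre (F : Finset X) (a : G) :
    (univ.filter fun g : G => g • F = a • F).card = stb G F := by
  unfold stb
  refine Finset.card_bij' (fun g _ => a⁻¹ * g) (fun g _ => a * g) ?_ ?_ ?_ ?_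
  · intro g hg
    rw [mem_filter] at hg ⊢
    exact ⟨mem_univ _, by rw [mul_smul, hg.2, inv_smul_smul]⟩
  · intro g hg
    rw [mem_filter] at hg ⊢
    exact ⟨mem_univ _, by rw [mul_smul, hg.2]⟩
  · intro g _; simp
  · intro g _; simp

/-- a sum over the group is `stb` times the sum over the images. -/
theorem sum_group_eq (F : Finset X) (φ : Finset X → ℝ) :
    ∑ g : G, φ (g • F) = (stb G F : ℝ) * ∑ A ∈ orb G F, φ A := by
  have hmaps : ∀ g ∈ (univ : Finset G), g • F ∈ orb G F :=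
    fun g _ => (mem_orb G).2 ⟨g, rfl⟩
  rw [← Finset.sum_fiberwise_of_maps_to hmaps, Finset.mul_sum]
  refine Finset.sum_congr rfl fun A hA => ?_
  obtain ⟨a, rfl⟩ := (mem_orb G).1 hA
  have : ∑ g ∈ univ.filter (fun g : G => g • F = a • F), φ (g • F)
      = ∑ _g ∈ univ.filter (fun g : G => g • F = a • F), φ (a • F) :=
    Finset.sum_congr rfl fun g hg => by rw [(mem_filter.1 hg).2]
  rw [this, Finset.sum_const, card_fibre, nsmul_eq_mul]

theorem stb_mul_card_orb (F : Finset X) :
    (stb G F : ℝ) * ((orb G F).card : ℝ) = (Fintype.card G : ℝ) := by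
  have h := sum_group_eq G F fun _ => (1 : ℝ)
  simp only [Finset.sum_const, nsmul_eq_mul, mul_one, Finset.card_univ] at h
  exact h.symm

/-- **One-step bound** from the bounds for the small kernels. -/
theorem stepBound (H F : Finset X) (m : ℕ) {p x K : ℝ} (hp : 0 ≤ p) (hx : 0 ≤ x) (hK : 1 ≤ K)
    (hρ : ∀ R : Finset X, R ⊆ F → R.card ≤ m →
      ((univ.filter fun g : G => g • R ⊆ H).card : ℝ)
        ≤ x * (K * p) ^ R.card * (Fintype.card G : ℝ))
    (V : Finset X) (hV : V ⊆ H) :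
    stepSum G F V m p ≤ ((orb G F).card : ℝ) * p ^ F.card * (2 ^ F.card * x * K ^ m) := by
  classical
  set φ : Finset X → ℝ := fun A => if (A ∩ V).card ≤ m then p ^ (F.card - (A ∩ V).card) else 0
    with hφ
  have e1 : stepSum G F V m p = ∑ A ∈ orb G F, φ A := by
    unfold stepSum
    rw [Finset.sum_filter]
  set P := (F.powerset).filter fun R => R.card ≤ m with hP
  set r : G → Finset X := fun g => F ∩ g⁻¹ • V with hr
  have hrc : ∀ g : G, (g • F ∩ V).card = (r g).card := by
    intro g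
    have : g • F ∩ V = g • (F ∩ g⁻¹ • V) := by
      rw [Finset.smul_finset_inter, smul_inv_smul]
    rw [this, Finset.card_smul_finset]
  have e2 : ∑ g : G, φ (g • F)
      = ∑ g ∈ univ.filter (fun g : G => (r g).card ≤ m), p ^ (F.card - (r g).card) := by
    rw [Finset.sum_filter]
    refine Finset.sum_congr rfl fun g _ => ?_
    simp only [hφ, hrc]
  have hmaps : ∀ g ∈ univ.filter (fun g : G => (r g).card ≤ m), r g ∈ P := by
    intro g hg
    exact mem_filter.2 ⟨Finset.mem_powerset.2 Finset.inter_subset_left, (mem_filter.1 hg).2⟩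
  have e3 : ∑ g : G, φ (g • F)
      ≤ ∑ R ∈ P, x * K ^ m * p ^ F.card * (Fintype.card G : ℝ) := by
    rw [e2, ← Finset.sum_fiberwise_of_maps_to hmaps]
    refine Finset.sum_le_sum fun R hR => ?_
    have hR1 : R ⊆ F := Finset.mem_powerset.1 (mem_filter.1 hR).1
    have hR2 : R.card ≤ m := (mem_filter.1 hR).2
    have hRf : R.card ≤ F.card := Finset.card_le_card hR1
    have c1 : ∑ g ∈ (univ.filter (fun g : G => (r g).card ≤ m)).filter (fun g => r g = R),
        p ^ (F.card - (r g).card)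
        = (((univ.filter (fun g : G => (r g).card ≤ m)).filter (fun g => r g = R)).card : ℝ)
          * p ^ (F.card - R.card) := by
      rw [← nsmul_eq_mul, ← Finset.sum_const]
      exact Finset.sum_congr rfl fun g hg => by rw [(mem_filter.1 hg).2]
    have c2 : (univ.filter (fun g : G => (r g).card ≤ m)).filter (fun g => r g = R)
        ⊆ univ.filter fun g : G => g • R ⊆ H := by
      intro g hg
      refine mem_filter.2 ⟨mem_univ _, ?_⟩
      have h1 : r g = R := (mem_filter.1 hg).2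
      rw [← h1]
      have h2 : g • (F ∩ g⁻¹ • V) ⊆ V := by
        rw [Finset.smul_finset_inter, smul_inv_smul]
        exact Finset.inter_subset_right
      exact h2.trans hV
    have c3 : (((univ.filter (fun g : G => (r g).card ≤ m)).filter (fun g => r g = R)).card : ℝ)
        ≤ x * (K * p) ^ R.card * (Fintype.card G : ℝ) :=
      le_trans (by exact_mod_cast Finset.card_le_card c2) (hρ R hR1 hR2)
    rw [c1]
    calc (((univ.filter (fun g : G => (r g).card ≤ m)).filter (fun g => r g = R)).card : ℝ)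
          * p ^ (F.card - R.card)
        ≤ (x * (K * p) ^ R.card * (Fintype.card G : ℝ)) * p ^ (F.card - R.card) :=
          mul_le_mul_of_nonneg_right c3 (pow_nonneg hp _)
      _ = x * K ^ R.card * (p ^ R.card * p ^ (F.card - R.card)) * (Fintype.card G : ℝ) := by
          rw [mul_pow]; ring
      _ = x * K ^ R.card * p ^ F.card * (Fintype.card G : ℝ) := by
          rw [← pow_add, Nat.add_sub_cancel' hRf]
      _ ≤ x * K ^ m * p ^ F.card * (Fintype.card G : ℝ) := by
          have : K ^ R.card ≤ K ^ m := pow_le_pow_right₀ hK hR2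
          gcongr
  have e4 : (P.card : ℝ) ≤ 2 ^ F.card := by
    have : P.card ≤ 2 ^ F.card := by
      rw [← Finset.card_powerset]
      exact Finset.card_le_card (Finset.filter_subset _ _)
    exact_mod_cast this
  have hK0 : 0 ≤ K := le_trans zero_le_one hK
  have e5 : (stb G F : ℝ) * stepSum G F V m p
      ≤ (stb G F : ℝ) * (((orb G F).card : ℝ) * p ^ F.card * (2 ^ F.card * x * K ^ m)) := by
    rw [e1, ← sum_group_eq]
    refine le_trans e3 ?_
    rw [Finset.sum_const, nsmul_eq_mul, ← stb_mul_card_orb G F]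
    have h0 : 0 ≤ x * K ^ m * p ^ F.card * ((stb G F : ℝ) * ((orb G F).card : ℝ)) := by positivity
    calc (P.card : ℝ) * (x * K ^ m * p ^ F.card * ((stb G F : ℝ) * ((orb G F).card : ℝ)))
        ≤ 2 ^ F.card * (x * K ^ m * p ^ F.card * ((stb G F : ℝ) * ((orb G F).card : ℝ))) :=
          mul_le_mul_of_nonneg_right e4 h0
      _ = (stb G F : ℝ) * (((orb G F).card : ℝ) * p ^ F.card * (2 ^ F.card * x * K ^ m)) := by
          ring
  exact le_of_mul_le_mul_left e5 (by exact_mod_cast stb_pos G F)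

/-- **Private elements lemma, final form**: `k` images of `F` inside `H`, each meeting the union of
the others in at most `m` elements; `(A)` for their union; the bound `ρ_H(R) ≤ x (K p)^{|R|}` for the
kernels `R ⊆ F`, `|R| ≤ m`. Then `k! ≤ 2 (N(F) p^f 2^f x K^m)^k`. -/
theorem private_bound {H F : Finset X} {m k : ℕ} {FF : Finset (Finset X)}
    (h : Good G H F m k FF) {p x K : ℝ} (hp : 0 ≤ p) (hx : 0 ≤ x) (hK : 1 ≤ K)
    (hA : (1 : ℝ) / 2 ≤ ((orb G (un FF)).card : ℝ) * p ^ (un FF).card)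
    (hρ : ∀ R : Finset X, R ⊆ F → R.card ≤ m →
      ((univ.filter fun g : G => g • R ⊆ H).card : ℝ)
        ≤ x * (K * p) ^ R.card * (Fintype.card G : ℝ)) :
    (k.factorial : ℝ) ≤ 2 * (((orb G F).card : ℝ) * p ^ F.card * (2 ^ F.card * x * K ^ m)) ^ k := by
  have h1 := listBound G h hp (stepBound G H F m hp hx hK hρ)
  have h2 : (k.factorial : ℝ) * (1 / 2)
      ≤ (k.factorial : ℝ) * (((orb G (un FF)).card : ℝ) * p ^ (un FF).card) :=
    mul_le_mul_of_nonneg_left hA (Nat.cast_nonneg _)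
  linarith

end frame

end Crest.Agent.L1h91
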