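import Mathlib
import Crest.Prelude.Def_FinProb

/-!
# Park–Pham theorem, product-measure form (part a: weights, two-stage exposure)

Insurance library for ROW55 (S0076).  Everything lives on the subsets of a finite ground set `A`.
-/

set_option autoImplicit false

namespace Crest.Agent.PP56

open Finset

variable {X : Type*} [DecidableEq X]

/-- product weight of `W` as a subset of the ground set `A`. -/
noncomputable def wt (q : ℝ) (A W : Finset X) : ℝ := ∏ x ∈ A, if x ∈ W then q else 1 - q

/-- expectation over a `q`-random subset of `A`. -/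
noncomputable def Ex (q : ℝ) (A : Finset X) (g : Finset X → ℝ) : ℝ :=
  ∑ W ∈ A.powerset, wt q A W * g W

theorem wt_nonneg {q : ℝ} (h0 : 0 ≤ q) (h1 : q ≤ 1) (A W : Finset X) : 0 ≤ wt q A W := by
  unfold wt
  refine Finset.prod_nonneg fun x _ => ?_
  split_ifs
  · exact h0
  · linarith

theorem wt_insert_not {q : ℝ} {A W : Finset X} {a : X} (ha : a ∉ A) (hW : W ⊆ A) :
    wt q (insert a A) W = (1 - q) * wt q A W := by
  unfold wt
  rw [Finset.prod_insert ha]
  have : a ∉ W := fun h => ha (hW h)
  simp [this]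

theorem wt_insert_mem {q : ℝ} {A W : Finset X} {a : X} (ha : a ∉ A) :
    wt q (insert a A) (insert a W) = q * wt q A W := by
  unfold wt
  rw [Finset.prod_insert ha]
  simp only [Finset.mem_insert, true_or, if_true]
  congr 1
  refine Finset.prod_congr rfl fun x hx => ?_
  have : x ≠ a := fun h => ha (h ▸ hx)
  simp [this]

theorem Ex_insert {q : ℝ} {A : Finset X} {a : X} (ha : a ∉ A) (g : Finset X → ℝ) :
    Ex q (insert a A) g = (1 - q) * Ex q A g + q * Ex q A (fun W => g (insert a W)) := by
  unfold Ex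
  rw [Finset.sum_powerset_insert ha, Finset.mul_sum, Finset.mul_sum]
  congr 1
  · refine Finset.sum_congr rfl fun W hW => ?_
    rw [wt_insert_not ha (Finset.mem_powerset.mp hW)]; ring
  · refine Finset.sum_congr rfl fun W _ => ?_
    rw [wt_insert_mem ha]; ring

theorem Ex_empty (q : ℝ) (g : Finset X → ℝ) : Ex q ∅ g = g ∅ := by
  simp [Ex, wt]

theorem Ex_const (q : ℝ) (A : Finset X) (c : ℝ) : Ex q A (fun _ => c) = c := by
  induction A using Finset.induction_on with
  | empty => simp [Ex_empty]
  | insert a A ha ih => rw [Ex_insert ha, ih]; ring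

theorem Ex_mono {q : ℝ} (h0 : 0 ≤ q) (h1 : q ≤ 1) {A : Finset X} {g g' : Finset X → ℝ}
    (h : ∀ W, W ⊆ A → g W ≤ g' W) : Ex q A g ≤ Ex q A g' := by
  unfold Ex
  refine Finset.sum_le_sum fun W hW => ?_
  exact mul_le_mul_of_nonneg_left (h W (Finset.mem_powerset.mp hW)) (wt_nonneg h0 h1 A W)

theorem Ex_nonneg {q : ℝ} (h0 : 0 ≤ q) (h1 : q ≤ 1) {A : Finset X} {g : Finset X → ℝ}
    (h : ∀ W, W ⊆ A → 0 ≤ g W) : 0 ≤ Ex q A g := by
  unfold Ex
  refine Finset.sum_nonneg fun W hW => ?_
  exact mul_nonneg (wt_nonneg h0 h1 A W) (h W (Finset.mem_powerset.mp hW))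

theorem Ex_add (q : ℝ) (A : Finset X) (g g' : Finset X → ℝ) :
    Ex q A (fun W => g W + g' W) = Ex q A g + Ex q A g' := by
  unfold Ex
  rw [← Finset.sum_add_distrib]
  exact Finset.sum_congr rfl fun W _ => by ring

theorem Ex_const_mul (q : ℝ) (A : Finset X) (c : ℝ) (g : Finset X → ℝ) :
    Ex q A (fun W => c * g W) = c * Ex q A g := by
  unfold Ex
  rw [Finset.mul_sum]
  exact Finset.sum_congr rfl fun W _ => by ring

/-- Two-stage exposure: the union of independent `q`- and `s`-random subsets is
`(q + s - q s)`-random. -/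
theorem Ex_union (q s : ℝ) (A : Finset X) (g : Finset X → ℝ) :
    Ex q A (fun W₁ => Ex s A (fun W₂ => g (W₁ ∪ W₂))) = Ex (q + s - q * s) A g := by
  induction A using Finset.induction_on generalizing g with
  | empty => simp [Ex_empty]
  | insert a A ha ih =>
    rw [Ex_insert ha, Ex_insert ha]
    have e1 : (fun W₁ => Ex s (insert a A) (fun W₂ => g (W₁ ∪ W₂)))
        = fun W₁ => (1 - s) * Ex s A (fun W₂ => g (W₁ ∪ W₂))
            + s * Ex s A (fun W₂ => g (insert a (W₁ ∪ W₂))) := by
      funext W₁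
      rw [Ex_insert ha]
      simp only [Finset.union_insert]
    have e2 : (fun W₁ => Ex s (insert a A) (fun W₂ => g (insert a W₁ ∪ W₂)))
        = fun W₁ => (1 - s) * Ex s A (fun W₂ => g (insert a (W₁ ∪ W₂)))
            + s * Ex s A (fun W₂ => g (insert a (W₁ ∪ W₂))) := by
      funext W₁
      rw [Ex_insert ha]
      simp only [Finset.union_insert, Finset.insert_union, Finset.insert_idem]
    rw [e1, e2, Ex_add, Ex_add]
    simp only [Ex_const_mul]
    rw [ih g, ih (fun W => g (insert a W))]
    ring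

end Crest.Agent.PP56
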