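import Crest.Agent.S0076_PPa

/-!
# Park–Pham theorem, part b: minimum fragments and the cost of the large fragments
-/

set_option autoImplicit false

namespace Crest.Agent.PP56

open Finset

variable {X : Type*} [DecidableEq X]

/-- The minimum fragments of the family `G` with respect to `W`: the sets `S' \ W`, `S' ∈ G`,
such that no member of `G` inside `S' ∪ W` has a smaller trace outside `W`. -/
def Frag (G : Finset (Finset X)) (W : Finset X) : Finset (Finset X) :=
  (G.filter (fun S' => ∀ S'' ∈ G, S'' ⊆ S' ∪ W → (S' \ W).card ≤ (S'' \ W).card)).image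
    (fun S' => S' \ W)

theorem mem_Frag {G : Finset (Finset X)} {W U : Finset X} :
    U ∈ Frag G W ↔ ∃ S' ∈ G, (∀ S'' ∈ G, S'' ⊆ S' ∪ W → (S' \ W).card ≤ (S'' \ W).card) ∧
      S' \ W = U := by
  unfold Frag
  simp only [Finset.mem_image, Finset.mem_filter]
  constructor
  · rintro ⟨S', ⟨h1, h2⟩, h3⟩; exact ⟨S', h1, h2, h3⟩
  · rintro ⟨S', h1, h2, h3⟩; exact ⟨S', ⟨h1, h2⟩, h3⟩

theorem frag_cover (G : Finset (Finset X)) (W : Finset X) {S : Finset X} (hS : S ∈ G) :
    ∃ U ∈ Frag G W, U ⊆ S := by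
  have hne : (G.filter (fun S' => S' ⊆ S ∪ W)).Nonempty :=
    ⟨S, Finset.mem_filter.mpr ⟨hS, Finset.subset_union_left⟩⟩
  obtain ⟨S', hS', hmin⟩ := Finset.exists_min_image _ (fun S' => (S' \ W).card) hne
  rw [Finset.mem_filter] at hS'
  refine ⟨S' \ W, mem_Frag.mpr ⟨S', hS'.1, ?_, rfl⟩, ?_⟩
  · intro S'' h1 h2
    refine hmin S'' (Finset.mem_filter.mpr ⟨h1, h2.trans ?_⟩)
    exact Finset.union_subset hS'.2 Finset.subset_union_right
  · intro x hx
    rw [Finset.mem_sdiff] at hx
    rcases Finset.mem_union.mp (hS'.2 hx.1) with h | h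
    · exact h
    · exact absurd h hx.2

theorem frag_lift {G : Finset (Finset X)} {W U : Finset X} (hU : U ∈ Frag G W) :
    ∃ S' ∈ G, S' ⊆ U ∪ W := by
  obtain ⟨S', h1, _, rfl⟩ := mem_Frag.mp hU
  refine ⟨S', h1, ?_⟩
  intro x hx
  by_cases hxW : x ∈ W
  · exact Finset.mem_union_right _ hxW
  · exact Finset.mem_union_left _ (Finset.mem_sdiff.mpr ⟨hx, hxW⟩)

theorem frag_disj {G : Finset (Finset X)} {W U : Finset X} (hU : U ∈ Frag G W) :
    Disjoint U W := by
  obtain ⟨S', _, _, rfl⟩ := mem_Frag.mp hU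
  exact Finset.sdiff_disjoint

theorem frag_key {G : Finset (Finset X)} {W U : Finset X} (hU : U ∈ Frag G W)
    {S'' : Finset X} (h1 : S'' ∈ G) (h2 : S'' ⊆ U ∪ W) : U ⊆ S'' := by
  obtain ⟨S', _, hmin, rfl⟩ := mem_Frag.mp hU
  have h3 : S'' ⊆ S' ∪ W := by
    refine h2.trans (Finset.union_subset ?_ Finset.subset_union_right)
    exact Finset.sdiff_subset.trans Finset.subset_union_left
  have h4 : S'' \ W ⊆ S' \ W := by
    intro x hx
    rw [Finset.mem_sdiff] at hx
    rcases Finset.mem_union.mp (h2 hx.1) with h | h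
    · exact h
    · exact absurd h hx.2
  have h5 : S'' \ W = S' \ W := Finset.eq_of_subset_of_card_le h4 (hmin S'' h1 h3)
  rw [← h5]
  exact Finset.sdiff_subset

theorem frag_sub_mem {G : Finset (Finset X)} {W U : Finset X} (hU : U ∈ Frag G W) :
    ∃ S' ∈ G, U ⊆ S' := by
  obtain ⟨S', h1, _, rfl⟩ := mem_Frag.mp hU
  exact ⟨S', h1, Finset.sdiff_subset⟩

theorem frag_card {G : Finset (Finset X)} {W U : Finset X} {l : ℕ}
    (hl : ∀ S ∈ G, S.card ≤ l) (hU : U ∈ Frag G W) : U.card ≤ l := by
  obtain ⟨S', h1, h2⟩ := frag_sub_mem hU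
  exact (Finset.card_le_card h2).trans (hl S' h1)

theorem frag_sub {G : Finset (Finset X)} {A W U : Finset X}
    (hA : ∀ S ∈ G, S ⊆ A) (hU : U ∈ Frag G W) : U ⊆ A := by
  obtain ⟨S', h1, h2⟩ := frag_sub_mem hU
  exact h2.trans (hA S' h1)

/-- moving a set `U` disjoint from `W` into `W`. -/
theorem wt_union {q : ℝ} {A W U : Finset X} (hU : U ⊆ A) (hd : Disjoint U W) :
    wt q A W * q ^ U.card = wt q A (W ∪ U) * (1 - q) ^ U.card := by
  unfold wt
  rw [← Finset.prod_sdiff hU, ← Finset.prod_sdiff hU]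
  have e1 : ∏ x ∈ U, (if x ∈ W then q else 1 - q) = (1 - q) ^ U.card := by
    rw [Finset.prod_congr rfl (g := fun _ => 1 - q)]
    · simp
    · intro x hx
      have : x ∉ W := Finset.disjoint_left.mp hd hx
      simp [this]
  have e2 : ∏ x ∈ U, (if x ∈ W ∪ U then q else 1 - q) = q ^ U.card := by
    rw [Finset.prod_congr rfl (g := fun _ => q)]
    · simp
    · intro x hx
      simp [hx]
  have e3 : ∏ x ∈ A \ U, (if x ∈ W ∪ U then q else 1 - q)
      = ∏ x ∈ A \ U, (if x ∈ W then q else 1 - q) := by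
    refine Finset.prod_congr rfl fun x hx => ?_
    have : x ∉ U := (Finset.mem_sdiff.mp hx).2
    simp [this]
  rw [e1, e2, e3]
  ring

theorem wt_union_le {q : ℝ} (h0 : 0 ≤ q) (h1 : q ≤ 1) {A W U : Finset X} (hU : U ⊆ A)
    (hd : Disjoint U W) : wt q A W * q ^ U.card ≤ wt q A (W ∪ U) := by
  rw [wt_union hU hd]
  have : (1 - q) ^ U.card ≤ 1 := pow_le_one₀ (by linarith) (by linarith)
  calc wt q A (W ∪ U) * (1 - q) ^ U.card ≤ wt q A (W ∪ U) * 1 :=
        mul_le_mul_of_nonneg_left this (wt_nonneg h0 h1 _ _)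
    _ = wt q A (W ∪ U) := mul_one _

/-- the large fragments -/
def Large (G : Finset (Finset X)) (m : ℕ) (W : Finset X) : Finset (Finset X) :=
  (Frag G W).filter (fun U => m < U.card)

/-- the small fragments -/
def Small (G : Finset (Finset X)) (m : ℕ) (W : Finset X) : Finset (Finset X) :=
  (Frag G W).filter (fun U => U.card ≤ m)

/-- for a given `Z = W ∪ U`, the possible large fragments -/
def Val (G : Finset (Finset X)) (m : ℕ) (Z : Finset X) : Finset (Finset X) :=
  Z.powerset.filter (fun U => U ∈ Large G m (Z \ U))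

theorem card_Val_le {G : Finset (Finset X)} {l : ℕ} (hl : ∀ S ∈ G, S.card ≤ l) (m : ℕ)
    (Z : Finset X) : (Val G m Z).card ≤ 2 ^ l := by
  rcases (Val G m Z).eq_empty_or_nonempty with h | ⟨U₀, hU₀⟩
  · simp [h]
  · unfold Val Large at hU₀
    simp only [Finset.mem_filter, Finset.mem_powerset] at hU₀
    obtain ⟨S', hS', hS'Z⟩ := frag_lift hU₀.2.1
    have hZ0 : U₀ ∪ Z \ U₀ = Z := Finset.union_sdiff_of_subset hU₀.1
    rw [hZ0] at hS'Z
    have hsub : Val G m Z ⊆ S'.powerset := by
      intro U hU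
      unfold Val Large at hU
      simp only [Finset.mem_filter, Finset.mem_powerset] at hU
      rw [Finset.mem_powerset]
      refine frag_key hU.2.1 hS' ?_
      rw [Finset.union_sdiff_of_subset hU.1]
      exact hS'Z
    calc (Val G m Z).card ≤ S'.powerset.card := Finset.card_le_card hsub
      _ = 2 ^ S'.card := Finset.card_powerset _
      _ ≤ 2 ^ l := Nat.pow_le_pow_right (by norm_num) (hl S' hS')

/-- **Cost of the large fragments.** -/
theorem cost_large {q : ℝ} (h0 : 0 ≤ q) (h1 : q ≤ 1) {L : ℝ} (hL : 1 ≤ L)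
    {A : Finset X} {G : Finset (Finset X)} (hA : ∀ S ∈ G, S ⊆ A) {l : ℕ}
    (hl : ∀ S ∈ G, S.card ≤ l) (m : ℕ) :
    Ex q A (fun W => ∑ U ∈ Large G m W, (q / L) ^ U.card) ≤ 2 ^ l * (1 / L) ^ (m + 1) := by
  have hL0 : 0 < L := by linarith
  have hL1 : 1 / L ≤ 1 := by rw [div_le_one hL0]; exact hL
  have hLn : 0 ≤ 1 / L := by positivity
  unfold Ex
  simp only [Finset.mul_sum]
  rw [Finset.sum_sigma' A.powerset (fun W => Large G m W)
    (fun W U => wt q A W * (q / L) ^ U.card)]
  set e : (Σ _ : Finset X, Finset X) → (Σ _ : Finset X, Finset X) :=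
    fun x => ⟨x.1 ∪ x.2, x.2⟩ with he
  have hinj : Set.InjOn e (A.powerset.sigma (fun W => Large G m W) : Set _) := by
    rintro ⟨W, U⟩ hx ⟨W', U'⟩ hx' hxx
    simp only [Finset.coe_sigma, Set.mem_sigma_iff, Finset.mem_coe] at hx hx'
    simp only [he, Sigma.mk.injEq, heq_eq_eq] at hxx
    obtain ⟨hz, rfl⟩ := hxx
    have d1 : Disjoint U W := frag_disj (Finset.mem_filter.mp hx.2).1
    have d2 : Disjoint U W' := frag_disj (Finset.mem_filter.mp hx'.2).1
    have : W = W' := by
      have a1 : (W ∪ U) \ U = W := Finset.union_sdiff_cancel_right d1.symm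
      have a2 : (W' ∪ U) \ U = W' := Finset.union_sdiff_cancel_right d2.symm
      rw [← a1, ← a2, hz]
    subst this
    rfl
  calc ∑ x ∈ A.powerset.sigma (fun W => Large G m W), wt q A x.1 * (q / L) ^ x.2.card
      ≤ ∑ x ∈ A.powerset.sigma (fun W => Large G m W),
          wt q A (e x).1 * (1 / L) ^ (e x).2.card := by
        refine Finset.sum_le_sum ?_
        rintro ⟨W, U⟩ hx
        simp only [Finset.mem_sigma] at hx
        have hUF := (Finset.mem_filter.mp hx.2).1
        have := wt_union_le h0 h1 (frag_sub hA hUF) (frag_disj hUF)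
        simp only [he]
        rw [div_pow, one_div, inv_pow, div_eq_mul_inv, ← mul_assoc]
        exact mul_le_mul_of_nonneg_right this (by positivity)
    _ = ∑ y ∈ (A.powerset.sigma (fun W => Large G m W)).image e,
          wt q A y.1 * (1 / L) ^ y.2.card := by
        rw [Finset.sum_image hinj]
    _ ≤ ∑ y ∈ A.powerset.sigma (fun Z => Val G m Z), wt q A y.1 * (1 / L) ^ y.2.card := by
        refine Finset.sum_le_sum_of_subset_of_nonneg ?_ ?_
        · intro y hy
          obtain ⟨⟨W, U⟩, hx, rfl⟩ := Finset.mem_image.mp hy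
          simp only [Finset.mem_sigma, Finset.mem_powerset] at hx
          have hUF := (Finset.mem_filter.mp hx.2).1
          simp only [he, Finset.mem_sigma, Finset.mem_powerset]
          refine ⟨Finset.union_subset hx.1 (frag_sub hA hUF), ?_⟩
          unfold Val
          rw [Finset.mem_filter, Finset.mem_powerset]
          refine ⟨Finset.subset_union_right, ?_⟩
          rw [Finset.union_sdiff_cancel_right (frag_disj hUF).symm]
          exact hx.2
        · intro y _ _
          exact mul_nonneg (wt_nonneg h0 h1 _ _) (by positivity)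
    _ = ∑ Z ∈ A.powerset, ∑ U ∈ Val G m Z, wt q A Z * (1 / L) ^ U.card := by
        rw [Finset.sum_sigma' A.powerset (fun Z => Val G m Z)
          (fun Z U => wt q A Z * (1 / L) ^ U.card)]
    _ ≤ ∑ Z ∈ A.powerset, wt q A Z * (2 ^ l * (1 / L) ^ (m + 1)) := by
        refine Finset.sum_le_sum fun Z _ => ?_
        rw [← Finset.mul_sum]
        refine mul_le_mul_of_nonneg_left ?_ (wt_nonneg h0 h1 _ _)
        calc ∑ U ∈ Val G m Z, (1 / L) ^ U.card
            ≤ ∑ _U ∈ Val G m Z, (1 / L) ^ (m + 1) := by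
              refine Finset.sum_le_sum fun U hU => ?_
              unfold Val Large at hU
              simp only [Finset.mem_filter] at hU
              exact pow_le_pow_of_le_one hLn hL1 hU.2.2
          _ = (Val G m Z).card * (1 / L) ^ (m + 1) := by
              rw [Finset.sum_const, nsmul_eq_mul]
          _ ≤ 2 ^ l * (1 / L) ^ (m + 1) := by
              refine mul_le_mul_of_nonneg_right ?_ (by positivity)
              exact_mod_cast card_Val_le hl m Z
    _ = 2 ^ l * (1 / L) ^ (m + 1) := by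
        have := Ex_const q A (2 ^ l * (1 / L) ^ (m + 1))
        unfold Ex at this
        exact this

end Crest.Agent.PP56
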