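import Crest.Agent.S0076_PPb

/-!
# Park–Pham theorem, part c: the induction over the rounds
-/

set_option autoImplicit false

namespace Crest.Agent.PP56

open Finset

variable {X : Type*} [DecidableEq X]

/-- failure indicator: `W` contains no member of `G`. -/
noncomputable def fail (G : Finset (Finset X)) (W : Finset X) : ℝ :=
  if ∃ S ∈ G, S ⊆ W then 0 else 1

/-- failure probability at density `s`. -/
noncomputable def failP (s : ℝ) (A : Finset X) (G : Finset (Finset X)) : ℝ := Ex s A (fail G)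

/-- `C` covers `G`: every member of `G` contains a member of `C`. -/
def Covers (C G : Finset (Finset X)) : Prop := ∀ S ∈ G, ∃ I ∈ C, I ⊆ S

/-- cost of a family at `p`. -/
noncomputable def cost (p : ℝ) (C : Finset (Finset X)) : ℝ := ∑ I ∈ C, p ^ I.card

/-- density after `r` rounds of density `q`. -/
noncomputable def dens (q : ℝ) : ℕ → ℝ
  | 0 => 0
  | r + 1 => q + dens q r - q * dens q r

theorem fail_nonneg (G : Finset (Finset X)) (W : Finset X) : 0 ≤ fail G W := by
  unfold fail; split_ifs <;> norm_num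

theorem fail_le_one (G : Finset (Finset X)) (W : Finset X) : fail G W ≤ 1 := by
  unfold fail; split_ifs <;> norm_num

theorem failP_nonneg {s : ℝ} (h0 : 0 ≤ s) (h1 : s ≤ 1) (A : Finset X) (G : Finset (Finset X)) :
    0 ≤ failP s A G := Ex_nonneg h0 h1 fun W _ => fail_nonneg G W

theorem failP_le_one {s : ℝ} (h0 : 0 ≤ s) (h1 : s ≤ 1) (A : Finset X) (G : Finset (Finset X)) :
    failP s A G ≤ 1 := by
  have := Ex_mono h0 h1 (A := A) (g := fail G) (g' := fun _ => 1) fun W _ => fail_le_one G W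
  rwa [Ex_const] at this

theorem cost_nonneg {p : ℝ} (hp : 0 ≤ p) (C : Finset (Finset X)) : 0 ≤ cost p C :=
  Finset.sum_nonneg fun _ _ => pow_nonneg hp _

theorem cost_union_le {p : ℝ} (hp : 0 ≤ p) (C D : Finset (Finset X)) :
    cost p (C ∪ D) ≤ cost p C + cost p D := by
  unfold cost
  have h := Finset.sum_union_inter (s₁ := C) (s₂ := D) (f := fun I : Finset X => p ^ I.card)
  have h2 : 0 ≤ ∑ I ∈ C ∩ D, p ^ I.card := Finset.sum_nonneg fun _ _ => pow_nonneg hp _
  linarith

theorem dens_mem {q : ℝ} (h0 : 0 ≤ q) (h1 : q ≤ 1) (r : ℕ) : 0 ≤ dens q r ∧ dens q r ≤ 1 := by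
  induction r with
  | zero => simp [dens]
  | succ r ih =>
    obtain ⟨a, b⟩ := ih
    simp only [dens]
    constructor
    · nlinarith
    · nlinarith

theorem dens_le {q : ℝ} (h0 : 0 ≤ q) (h1 : q ≤ 1) (r : ℕ) : dens q r ≤ r * q := by
  induction r with
  | zero => simp [dens]
  | succ r ih =>
    have := (dens_mem h0 h1 r).1
    simp only [dens]
    push_cast
    nlinarith

/-- the case of a `0`-bounded family. -/
theorem main_zero {s : ℝ} (h0 : 0 ≤ s) (h1 : s ≤ 1) (p : ℝ) (A : Finset X)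
    (G : Finset (Finset X)) (hl : ∀ S ∈ G, S.card ≤ 0) (k0 : ℝ)
    (hk : ∀ C, Covers C G → k0 ≤ cost p C) : k0 * failP s A G ≤ 0 := by
  rcases G.eq_empty_or_nonempty with rfl | ⟨S, hS⟩
  · have : k0 ≤ 0 := by
      have := hk ∅ (by intro S hS; simp at hS)
      simpa [cost] using this
    exact mul_nonpos_of_nonpos_of_nonneg this (failP_nonneg h0 h1 _ _)
  · have hS0 : S = ∅ := Finset.card_eq_zero.mp (Nat.le_zero.mp (hl S hS))
    have : failP s A G = 0 := by
      unfold failP
      have e : fail G = fun _ => (0 : ℝ) := by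
        funext W
        unfold fail
        rw [if_pos ⟨S, hS, by rw [hS0]; exact Finset.empty_subset _⟩]
      rw [e, Ex_const]
    rw [this, mul_zero]

theorem fail_union_le (G : Finset (Finset X)) (m : ℕ) (W₁ W₂ : Finset X) :
    fail G (W₁ ∪ W₂) ≤ fail (Small G m W₁) W₂ := by
  by_cases h : ∃ T ∈ Small G m W₁, T ⊆ W₂
  · obtain ⟨T, hT, hTW⟩ := h
    obtain ⟨S', hS', hsub⟩ := frag_lift (Finset.mem_filter.mp hT).1
    have : ∃ S ∈ G, S ⊆ W₁ ∪ W₂ :=
      ⟨S', hS', hsub.trans (Finset.union_subset (hTW.trans Finset.subset_union_right)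
        Finset.subset_union_left)⟩
    unfold fail
    rw [if_pos this]
    split_ifs <;> norm_num
  · have : fail (Small G m W₁) W₂ = 1 := by unfold fail; rw [if_neg h]
    rw [this]
    exact fail_le_one _ _

theorem covers_union (G : Finset (Finset X)) (m : ℕ) (W : Finset X) {C : Finset (Finset X)}
    (hC : Covers C (Small G m W)) : Covers (C ∪ Large G m W) G := by
  intro S hS
  obtain ⟨U, hU, hUS⟩ := frag_cover G W hS
  by_cases hc : U.card ≤ m
  · obtain ⟨I, hI, hIU⟩ := hC U (Finset.mem_filter.mpr ⟨hU, hc⟩)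
    exact ⟨I, Finset.mem_union_left _ hI, hIU.trans hUS⟩
  · exact ⟨U, Finset.mem_union_right _ (Finset.mem_filter.mpr ⟨hU, not_le.mp hc⟩), hUS⟩

theorem num_step (l : ℕ) (hl : 1 ≤ l) :
    (1 / 6 : ℝ) * (1 - (1 / 4) ^ (l / 2)) + 2 ^ l * (1 / 16) ^ (l / 2 + 1)
      ≤ (1 / 6) * (1 - (1 / 4) ^ l) := by
  set m := l / 2 with hm
  have h1 : l ≤ 2 * m + 1 := by omega
  have h2 : m + 1 ≤ l := by omega
  have hx : (0 : ℝ) < (1 / 4) ^ m := by positivity
  have a1 : (2 : ℝ) ^ l ≤ 2 ^ (2 * m + 1) := pow_le_pow_right₀ (by norm_num) h1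
  have a2 : (2 : ℝ) ^ (2 * m + 1) * (1 / 16) ^ (m + 1) = (1 / 8) * (1 / 4) ^ m := by
    rw [pow_succ, pow_mul, pow_succ]
    have : ((2 : ℝ) ^ 2) ^ m * (1 / 16) ^ m = (1 / 4) ^ m := by
      rw [← mul_pow]; norm_num
    calc (2 ^ 2 : ℝ) ^ m * 2 * ((1 / 16) ^ m * (1 / 16))
        = ((2 ^ 2 : ℝ) ^ m * (1 / 16) ^ m) * (1 / 8) := by ring
      _ = (1 / 8) * (1 / 4) ^ m := by rw [this]; ring
  have a3 : (2 : ℝ) ^ l * (1 / 16) ^ (m + 1) ≤ (1 / 8) * (1 / 4) ^ m := by
    rw [← a2]
    exact mul_le_mul_of_nonneg_right a1 (by positivity)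
  have a4 : ((1 : ℝ) / 4) ^ l ≤ (1 / 4) ^ (m + 1) :=
    pow_le_pow_of_le_one (by norm_num) (by norm_num) h2
  have a5 : ((1 : ℝ) / 4) ^ (m + 1) = (1 / 4) ^ m * (1 / 4) := pow_succ _ _
  nlinarith

/-- **Main induction.**  If every cover of the `l`-bounded family `G` costs at least `k0` at
`q / 16`, then after `r > log₂ l` rounds of density `q` the failure probability is at most
`1 / (6 k0)`. -/
theorem main {q : ℝ} (h0 : 0 ≤ q) (h1 : q ≤ 1) (A : Finset X) :
    ∀ (r l : ℕ), l < 2 ^ r → ∀ G : Finset (Finset X), (∀ S ∈ G, S ⊆ A) →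
      (∀ S ∈ G, S.card ≤ l) → ∀ k0 : ℝ, (∀ C, Covers C G → k0 ≤ cost (q / 16) C) →
      k0 * failP (dens q r) A G ≤ (1 / 6) * (1 - (1 / 4) ^ l) := by
  intro r
  induction r with
  | zero =>
    intro l hl G _ hGl k0 hk
    have hl0 : l = 0 := by simpa using hl
    subst hl0
    have := main_zero (s := dens q 0) (by simp [dens]) (by simp [dens]) (q / 16) A G hGl k0 hk
    simpa using this
  | succ r ih =>
    intro l hl G hGA hGl k0 hk
    have hp : 0 ≤ q / 16 := by positivity
    obtain ⟨d0, d1⟩ := dens_mem h0 h1 r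
    obtain ⟨e0, e1⟩ := dens_mem h0 h1 (r + 1)
    have hR : (0 : ℝ) ≤ (1 / 6) * (1 - (1 / 4) ^ l) := by
      have : ((1 : ℝ) / 4) ^ l ≤ 1 := pow_le_one₀ (by norm_num) (by norm_num)
      nlinarith
    rcases Nat.eq_zero_or_pos l with rfl | hlpos
    · have := main_zero e0 e1 (q / 16) A G hGl k0 hk
      simpa using this
    rcases le_or_gt k0 0 with hk0 | hk0
    · exact (mul_nonpos_of_nonpos_of_nonneg hk0 (failP_nonneg e0 e1 _ _)).trans hR
    set m := l / 2 with hm
    have hm2 : m < 2 ^ r := by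
      rw [pow_succ] at hl
      omega
    -- two-stage exposure
    have step1 : failP (dens q (r + 1)) A G
        ≤ Ex q A (fun W₁ => failP (dens q r) A (Small G m W₁)) := by
      have : failP (dens q (r + 1)) A G
          = Ex q A (fun W₁ => Ex (dens q r) A (fun W₂ => fail G (W₁ ∪ W₂))) := by
        rw [Ex_union]; rfl
      rw [this]
      refine Ex_mono h0 h1 fun W₁ _ => ?_
      exact Ex_mono d0 d1 fun W₂ _ => fail_union_le G m W₁ W₂
    -- pointwise use of the induction hypothesis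
    have step2 : ∀ W₁, k0 * failP (dens q r) A (Small G m W₁)
        ≤ (1 / 6) * (1 - (1 / 4) ^ m) + cost (q / 16) (Large G m W₁) := by
      intro W₁
      have hc0 := cost_nonneg hp (Large G m W₁)
      have hih := ih m hm2 (Small G m W₁)
        (fun S hS => frag_sub hGA (Finset.mem_filter.mp hS).1)
        (fun S hS => (Finset.mem_filter.mp hS).2)
        (k0 - cost (q / 16) (Large G m W₁))
        (fun C hC => by
          have h1' := hk _ (covers_union G m W₁ hC)
          have h2' := cost_union_le hp C (Large G m W₁)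
          linarith)
      have f0 := failP_nonneg d0 d1 A (Small G m W₁)
      have f1 := failP_le_one d0 d1 A (Small G m W₁)
      nlinarith
    have step3 : k0 * Ex q A (fun W₁ => failP (dens q r) A (Small G m W₁))
        ≤ (1 / 6) * (1 - (1 / 4) ^ m) + 2 ^ l * (1 / 16) ^ (m + 1) := by
      rw [← Ex_const_mul]
      calc Ex q A (fun W₁ => k0 * failP (dens q r) A (Small G m W₁))
          ≤ Ex q A (fun W₁ => (1 / 6) * (1 - (1 / 4) ^ m) + cost (q / 16) (Large G m W₁)) :=
            Ex_mono h0 h1 fun W₁ _ => step2 W₁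
        _ = (1 / 6) * (1 - (1 / 4) ^ m) + Ex q A (fun W₁ => cost (q / 16) (Large G m W₁)) := by
            rw [Ex_add, Ex_const]
        _ ≤ (1 / 6) * (1 - (1 / 4) ^ m) + 2 ^ l * (1 / 16) ^ (m + 1) := by
            have := cost_large h0 h1 (L := 16) (by norm_num) hGA hGl m
            unfold cost
            linarith
    calc k0 * failP (dens q (r + 1)) A G
        ≤ k0 * Ex q A (fun W₁ => failP (dens q r) A (Small G m W₁)) :=
          mul_le_mul_of_nonneg_left step1 hk0.le
      _ ≤ (1 / 6) * (1 - (1 / 4) ^ m) + 2 ^ l * (1 / 16) ^ (m + 1) := step3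
      _ ≤ (1 / 6) * (1 - (1 / 4) ^ l) := num_step l hlpos

end Crest.Agent.PP56
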