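import Crest.Agent.S0076_PPc

/-!
# Park–Pham theorem, part d: monotonicity in the density, final statements
-/

set_option autoImplicit false

namespace Crest.Agent.PP56

open Finset

section
variable {X : Type*} [DecidableEq X]

theorem fail_anti (G : Finset (Finset X)) {W W' : Finset X} (h : W ⊆ W') :
    fail G W' ≤ fail G W := by
  by_cases hW : ∃ S ∈ G, S ⊆ W
  · obtain ⟨S, hS, hSW⟩ := hW
    have : fail G W' = 0 := by unfold fail; rw [if_pos ⟨S, hS, hSW.trans h⟩]
    rw [this]; exact fail_nonneg _ _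
  · have : fail G W = 1 := by unfold fail; rw [if_neg hW]
    rw [this]; exact fail_le_one _ _

theorem failP_anti {s s' : ℝ} (h0 : 0 ≤ s) (hs : s ≤ s') (h1 : s' ≤ 1) (A : Finset X)
    (G : Finset (Finset X)) : failP s' A G ≤ failP s A G := by
  rcases eq_or_lt_of_le (hs.trans h1) with rfl | hlt
  · have : s' = 1 := le_antisymm h1 hs
    rw [this]
  · have hpos : 0 < 1 - s := by linarith
    set t := (s' - s) / (1 - s) with ht
    have t0 : 0 ≤ t := div_nonneg (by linarith) hpos.le
    have t1 : t ≤ 1 := by rw [ht, div_le_one hpos]; linarith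
    have e : t + s - t * s = s' := by
      have : t * (1 - s) = s' - s := by rw [ht]; field_simp
      linarith
    have : failP s' A G = Ex t A (fun W₁ => Ex s A (fun W₂ => fail G (W₁ ∪ W₂))) := by
      rw [Ex_union, e]; rfl
    rw [this]
    calc Ex t A (fun W₁ => Ex s A (fun W₂ => fail G (W₁ ∪ W₂)))
        ≤ Ex t A (fun _ => failP s A G) := by
          refine Ex_mono t0 t1 fun W₁ _ => ?_
          exact Ex_mono h0 (hs.trans h1) fun W₂ _ => fail_anti G Finset.subset_union_right
      _ = failP s A G := Ex_const _ _ _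

theorem Ex_one (A : Finset X) (g : Finset X → ℝ) : Ex 1 A g = g A := by
  induction A using Finset.induction_on generalizing g with
  | empty => simp [Ex_empty]
  | insert a A ha ih =>
    rw [Ex_insert ha, ih g, ih (fun W => g (insert a W))]; ring

/-- **Park–Pham, finset form.** -/
theorem pp_finset (A : Finset X) (G : Finset (Finset X)) (hGA : ∀ S ∈ G, S ⊆ A) (l : ℕ)
    (hl1 : 1 ≤ l) (hGl : ∀ S ∈ G, S.card ≤ l) (p : ℝ) (hp : 0 ≤ p)
    (hns : ∀ C, Covers C G → (1 / 2 : ℝ) ≤ cost p C) :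
    failP (min 1 (16 * p * (1 + Real.logb 2 l))) A G ≤ 1 / 3 := by
  have hlog : 0 ≤ Real.logb 2 l := Real.logb_nonneg (by norm_num) (by exact_mod_cast hl1)
  rcases le_or_gt 1 (16 * p * (1 + Real.logb 2 l)) with hbig | hsmall
  · rw [min_eq_left hbig]
    have hne : G.Nonempty := by
      by_contra h
      rw [Finset.not_nonempty_iff_eq_empty] at h
      subst h
      have := hns ∅ (by intro S hS; simp at hS)
      simp [cost] at this
      linarith
    obtain ⟨S, hS⟩ := hne
    unfold failP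
    rw [Ex_one]
    unfold fail
    rw [if_pos ⟨S, hS, hGA S hS⟩]
    norm_num
  · rw [min_eq_right hsmall.le]
    set q := 16 * p with hq
    have q0 : 0 ≤ q := by positivity
    have q1 : q ≤ 1 := by nlinarith
    set r := Nat.log 2 l + 1 with hr
    have hlr : l < 2 ^ r := Nat.lt_pow_succ_log_self (by norm_num) l
    have hqp : q / 16 = p := by rw [hq]; ring
    have hmain := main q0 q1 A r l hlr G hGA hGl (1 / 2) (by rw [hqp]; exact hns)
    have hx : (0 : ℝ) ≤ (1 / 4) ^ l := by positivity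
    have h3 : failP (dens q r) A G ≤ 1 / 3 := by nlinarith
    have hd : dens q r ≤ q * (1 + Real.logb 2 l) := by
      refine (dens_le q0 q1 r).trans ?_
      have : ((Nat.log 2 l : ℕ) : ℝ) ≤ Real.logb 2 l := by
        have := Real.natLog_le_logb l 2
        exact_mod_cast this
      rw [hr]
      push_cast
      nlinarith
    exact (failP_anti (dens_mem q0 q1 r).1 hd hsmall.le A G).trans h3

end

section
variable {X : Type*} [Fintype X] [DecidableEq X]

open Crest.FinProb

theorem sum_weight_eq_Ex (p : ℝ) (F : Finset X → ℝ) :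
    ∑ ω : X → Bool, bernoulliWeight p ω * F (Finset.univ.filter fun x => ω x = true)
      = Ex p Finset.univ F := by
  unfold Ex
  rw [Finset.powerset_univ]
  refine Finset.sum_nbij' (fun ω => Finset.univ.filter fun x => ω x = true)
    (fun W x => decide (x ∈ W)) ?_ ?_ ?_ ?_ ?_
  · intro ω _; exact Finset.mem_univ _
  · intro W _; exact Finset.mem_univ _
  · intro ω _; funext x; simp
  · intro W _; ext x; simp
  · intro ω _
    congr 1
    unfold bernoulliWeight wt
    refine Finset.prod_congr rfl fun x _ => ?_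
    simp

theorem bernoulliProb_eq (p : ℝ) (G : Finset (Finset X)) :
    bernoulliProb p {ω : X → Bool | ∃ S ∈ G, ∀ x ∈ S, ω x = true}
      = 1 - failP p Finset.univ G := by
  have h1 : (1 : ℝ) = Ex p (Finset.univ : Finset X) (fun _ => 1) := (Ex_const _ _ _).symm
  unfold failP
  rw [h1, ← sum_weight_eq_Ex, ← sum_weight_eq_Ex, ← Finset.sum_sub_distrib]
  unfold bernoulliProb
  rw [Finset.sum_filter]
  refine Finset.sum_congr rfl fun ω _ => ?_
  have key : (ω ∈ {ω : X → Bool | ∃ S ∈ G, ∀ x ∈ S, ω x = true}) ↔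
      ∃ S ∈ G, S ⊆ Finset.univ.filter fun x => ω x = true := by
    show (∃ S ∈ G, ∀ x ∈ S, ω x = true) ↔ _
    constructor
    · rintro ⟨S, hS, h⟩
      exact ⟨S, hS, fun x hx => Finset.mem_filter.mpr ⟨Finset.mem_univ _, h x hx⟩⟩
    · rintro ⟨S, hS, h⟩
      exact ⟨S, hS, fun x hx => (Finset.mem_filter.mp (h hx)).2⟩
  unfold fail
  by_cases h : ω ∈ {ω : X → Bool | ∃ S ∈ G, ∀ x ∈ S, ω x = true}
  · rw [if_pos h, if_pos (key.mp h)]; ring
  · rw [if_neg h, if_neg (fun h' => h (key.mpr h'))]; ring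

/-- **Park–Pham theorem** (product measure, explicit constant 16).  If the `l`-bounded family `G`
is not `p`-small (every cover costs at least `1/2` at `p`), then a random subset of density
`min 1 (16 p (1 + log₂ l))` contains a member of `G` with probability at least `2/3`. -/
theorem parkPham (G : Finset (Finset X)) (l : ℕ) (hl1 : 1 ≤ l) (hGl : ∀ S ∈ G, S.card ≤ l)
    (p : ℝ) (hp : 0 ≤ p)
    (hns : ∀ C : Finset (Finset X), (∀ S ∈ G, ∃ I ∈ C, I ⊆ S) →
      (1 / 2 : ℝ) ≤ ∑ I ∈ C, p ^ I.card) :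
    (2 / 3 : ℝ) ≤ bernoulliProb (min 1 (16 * p * (1 + Real.logb 2 l)))
      {ω : X → Bool | ∃ S ∈ G, ∀ x ∈ S, ω x = true} := by
  rw [bernoulliProb_eq]
  have := pp_finset Finset.univ G (fun S _ => Finset.subset_univ S) l hl1 hGl p hp hns
  linarith

/-- Spread form: a probability vector `ν` on `G` which is `κ`-spread. -/
theorem parkPham_spread (G : Finset (Finset X)) (l : ℕ) (hl1 : 1 ≤ l)
    (hGl : ∀ S ∈ G, S.card ≤ l) (κ : ℝ) (hκ : 0 ≤ κ) (ν : Finset X → ℝ)
    (hν0 : ∀ S ∈ G, 0 ≤ ν S) (hν1 : ∑ S ∈ G, ν S = 1)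
    (hspread : ∀ I : Finset X, ∑ S ∈ G.filter (fun S => I ⊆ S), ν S ≤ κ ^ I.card) :
    (2 / 3 : ℝ) ≤ bernoulliProb (min 1 (16 * κ * (1 + Real.logb 2 l)))
      {ω : X → Bool | ∃ S ∈ G, ∀ x ∈ S, ω x = true} := by
  refine parkPham G l hl1 hGl κ hκ fun C hC => ?_
  have h1 : (1 : ℝ) ≤ ∑ I ∈ C, ∑ S ∈ G.filter (fun S => I ⊆ S), ν S := by
    rw [← hν1]
    simp only [Finset.sum_filter]
    rw [Finset.sum_comm]
    refine Finset.sum_le_sum fun S hS => ?_
    obtain ⟨I, hI, hIS⟩ := hC S hS
    calc ν S = if I ⊆ S then ν S else 0 := by rw [if_pos hIS]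
      _ ≤ ∑ I ∈ C, if I ⊆ S then ν S else 0 :=
        Finset.single_le_sum (f := fun I => if I ⊆ S then ν S else 0)
          (fun J _ => by split_ifs; exact hν0 S hS; exact le_rfl) hI
  have h2 : ∑ I ∈ C, ∑ S ∈ G.filter (fun S => I ⊆ S), ν S ≤ ∑ I ∈ C, κ ^ I.card :=
    Finset.sum_le_sum fun I _ => hspread I
  linarith

end

end Crest.Agent.PP56
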