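import Crest.Agent.S0076_L1

/-!
# S0076: the recognition principle in the abstract group frame

`G` a finite group acting on a finite set `X`; `wt q S = q^{|S|} (1-q)^{|X|-|S|}` is the product
measure of density `q` on the subsets of `X`.

* `planting`: `q^{|U|} E[φ(U ∪ G')] = E[φ(G') 1{U ⊆ G'}]`.
* `recognition`: if `P S U' ≥ 0` is an equivariant kernel with `∑_{U' image of U, U' ⊆ S} P S U' ≤ M`
  for every `S`, then `N(U) q^{|U|} E[P (U ∪ G') U] ≤ M`.
-/

set_option autoImplicit false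
set_option linter.unusedSectionVars false

namespace Crest.Agent.Rec91

open Finset Crest.Agent.L1h91
open scoped Pointwise

section measure

variable {X : Type} [Fintype X] [DecidableEq X]

/-- the product measure of density `q`. -/
noncomputable def wt (q : ℝ) (S : Finset X) : ℝ :=
  q ^ S.card * (1 - q) ^ (Fintype.card X - S.card)

theorem wt_nonneg {q : ℝ} (h0 : 0 ≤ q) (h1 : q ≤ 1) (S : Finset X) : 0 ≤ wt q S :=
  mul_nonneg (pow_nonneg h0 _) (pow_nonneg (by linarith) _)

theorem sum_wt (q : ℝ) : ∑ S : Finset X, wt q S = 1 := by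
  have h := Finset.sum_pow_mul_eq_add_pow q (1 - q) (univ : Finset X)
  rw [Finset.powerset_univ, Finset.card_univ] at h
  unfold wt
  rw [h]
  simp

/-- the fibre of `S ↦ U ∪ S` over `T ⊇ U`. -/
theorem sum_fibre (q : ℝ) {U T : Finset X} (hUT : U ⊆ T) :
    q ^ U.card * ∑ S ∈ univ.filter (fun S : Finset X => U ∪ S = T), wt q S = wt q T := by
  have e1 : ∑ S ∈ univ.filter (fun S : Finset X => U ∪ S = T), wt q S
      = ∑ A ∈ U.powerset, wt q ((T \ U) ∪ A) := by
    refine Finset.sum_nbij' (fun S => S ∩ U) (fun A => (T \ U) ∪ A) ?_ ?_ ?_ ?_ ?_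
    · intro S _
      exact Finset.mem_powerset.2 Finset.inter_subset_right
    · intro A hA
      have hA' : A ⊆ U := Finset.mem_powerset.1 hA
      refine mem_filter.2 ⟨mem_univ _, ?_⟩
      ext x
      simp only [Finset.mem_union, Finset.mem_sdiff]
      constructor
      · rintro (h | ⟨h, _⟩ | h)
        · exact hUT h
        · exact h
        · exact hUT (hA' h)
      · intro h
        by_cases hx : x ∈ U
        · exact Or.inl hx
        · exact Or.inr (Or.inl ⟨h, hx⟩)
    · intro S hS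
      have hS' : U ∪ S = T := (mem_filter.1 hS).2
      ext x
      simp only [Finset.mem_union, Finset.mem_sdiff, Finset.mem_inter, ← hS']
      constructor
      · rintro (⟨h | h, h2⟩ | h)
        · exact absurd h h2
        · exact h
        · exact h.1
      · intro h
        by_cases hx : x ∈ U
        · exact Or.inr ⟨h, hx⟩
        · exact Or.inl ⟨Or.inr h, hx⟩
    · intro A hA
      have hA' : A ⊆ U := Finset.mem_powerset.1 hA
      ext x
      simp only [Finset.mem_union, Finset.mem_sdiff, Finset.mem_inter]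
      constructor
      · rintro ⟨⟨_, h2⟩ | h, h3⟩
        · exact absurd h3 h2
        · exact h
      · intro h
        exact ⟨Or.inr h, hA' h⟩
    · intro S hS
      have hS' : U ∪ S = T := (mem_filter.1 hS).2
      congr 1
      ext x
      simp only [Finset.mem_union, Finset.mem_sdiff, Finset.mem_inter, ← hS']
      constructor
      · intro h
        by_cases hx : x ∈ U
        · exact Or.inr ⟨h, hx⟩
        · exact Or.inl ⟨Or.inr h, hx⟩
      · rintro (⟨h | h, h2⟩ | h)
        · exact absurd h h2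
        · exact h
        · exact h.1
  have hTn : T.card ≤ Fintype.card X := Finset.card_le_univ T
  have hUTc : U.card ≤ T.card := Finset.card_le_card hUT
  have e2 : ∀ A ∈ U.powerset, wt q ((T \ U) ∪ A)
      = (q ^ (T.card - U.card) * (1 - q) ^ (Fintype.card X - T.card))
        * (q ^ A.card * (1 - q) ^ (U.card - A.card)) := by
    intro A hA
    have hA' : A ⊆ U := Finset.mem_powerset.1 hA
    have hAc : A.card ≤ U.card := Finset.card_le_card hA'
    have hdis : Disjoint (T \ U) A :=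
      Finset.disjoint_of_subset_right hA' Finset.sdiff_disjoint
    have hc : ((T \ U) ∪ A).card = (T.card - U.card) + A.card := by
      rw [Finset.card_union_of_disjoint hdis, Finset.card_sdiff_of_subset hUT]
    have hc2 : Fintype.card X - ((T.card - U.card) + A.card)
        = (Fintype.card X - T.card) + (U.card - A.card) := by omega
    unfold wt
    rw [hc, hc2, pow_add, pow_add]
    ring
  rw [e1, Finset.sum_congr rfl e2, ← Finset.mul_sum, Finset.sum_pow_mul_eq_add_pow]
  have : q + (1 - q) = 1 := by ring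
  rw [this, one_pow, mul_one]
  unfold wt
  rw [← mul_assoc, ← pow_add, Nat.add_sub_cancel' hUTc]

/-- **Planting identity.** -/
theorem planting (q : ℝ) (U : Finset X) (φ : Finset X → ℝ) :
    q ^ U.card * ∑ S : Finset X, wt q S * φ (U ∪ S)
      = ∑ T ∈ univ.filter (fun T : Finset X => U ⊆ T), wt q T * φ T := by
  have hmaps : ∀ S ∈ (univ : Finset (Finset X)), U ∪ S ∈ univ.filter (fun T : Finset X => U ⊆ T) :=
    fun S _ => mem_filter.2 ⟨mem_univ _, Finset.subset_union_left⟩
  rw [← Finset.sum_fiberwise_of_maps_to hmaps, Finset.mul_sum]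
  refine Finset.sum_congr rfl fun T hT => ?_
  have hUT : U ⊆ T := (mem_filter.1 hT).2
  have : ∑ S ∈ univ.filter (fun S : Finset X => U ∪ S = T), wt q S * φ (U ∪ S)
      = (∑ S ∈ univ.filter (fun S : Finset X => U ∪ S = T), wt q S) * φ T := by
    rw [Finset.sum_mul]
    exact Finset.sum_congr rfl fun S hS => by rw [(mem_filter.1 hS).2]
  rw [this, ← mul_assoc, sum_fibre q hUT]

end measure

section frame

variable (G : Type) [Group G] [Fintype G] {X : Type} [Fintype X] [DecidableEq X] [MulAction G X]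

theorem wt_smul (q : ℝ) (g : G) (S : Finset X) : wt q (g • S) = wt q S := by
  unfold wt
  rw [Finset.card_smul_finset]

/-- the expectation of an equivariant kernel does not depend on the image. -/
theorem expect_smul (q : ℝ) (P : Finset X → Finset X → ℝ)
    (hP : ∀ (g : G) (S U : Finset X), P (g • S) (g • U) = P S U) (g : G) (U : Finset X) :
    ∑ S : Finset X, wt q S * P (g • U ∪ S) (g • U) = ∑ S : Finset X, wt q S * P (U ∪ S) U := by
  refine Finset.sum_nbij' (fun S => g⁻¹ • S) (fun S => g • S) ?_ ?_ ?_ ?_ ?_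
  · intro S _; exact mem_univ _
  · intro S _; exact mem_univ _
  · intro S _; exact smul_inv_smul g S
  · intro S _; exact inv_smul_smul g S
  · intro S _
    rw [wt_smul]
    congr 1
    have : g • U ∪ S = g • (U ∪ g⁻¹ • S) := by
      rw [Finset.smul_finset_union, smul_inv_smul]
    rw [this, hP]

/-- **Recognition principle** (kernel form). -/
theorem recognition {q M : ℝ} (h0 : 0 ≤ q) (h1 : q ≤ 1) (U : Finset X)
    (P : Finset X → Finset X → ℝ)
    (hP : ∀ (g : G) (S U : Finset X), P (g • S) (g • U) = P S U)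
    (hM : ∀ S : Finset X, ∑ U' ∈ (orb G U).filter (fun U' => U' ⊆ S), P S U' ≤ M) :
    ((orb G U).card : ℝ) * q ^ U.card * ∑ S : Finset X, wt q S * P (U ∪ S) U ≤ M := by
  have e1 : ((orb G U).card : ℝ) * q ^ U.card * ∑ S : Finset X, wt q S * P (U ∪ S) U
      = ∑ U' ∈ orb G U, q ^ U'.card * ∑ S : Finset X, wt q S * P (U' ∪ S) U' := by
    rw [mul_assoc, ← nsmul_eq_mul, ← Finset.sum_const]
    refine Finset.sum_congr rfl fun U' hU' => ?_
    obtain ⟨g, rfl⟩ := (mem_orb G).1 hU'
    rw [expect_smul G q P hP, Finset.card_smul_finset]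
  have e2 : ∑ U' ∈ orb G U, q ^ U'.card * ∑ S : Finset X, wt q S * P (U' ∪ S) U'
      = ∑ U' ∈ orb G U, ∑ T ∈ univ.filter (fun T : Finset X => U' ⊆ T), wt q T * P T U' :=
    Finset.sum_congr rfl fun U' _ => planting q U' fun T => P T U'
  have e3 : ∑ U' ∈ orb G U, ∑ T ∈ univ.filter (fun T : Finset X => U' ⊆ T), wt q T * P T U'
      = ∑ T : Finset X, wt q T * ∑ U' ∈ (orb G U).filter (fun U' => U' ⊆ T), P T U' := by
    simp only [Finset.sum_filter, Finset.mul_sum]
    rw [Finset.sum_comm]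
    refine Finset.sum_congr rfl fun T _ => Finset.sum_congr rfl fun U' _ => ?_
    split_ifs <;> simp
  rw [e1, e2, e3]
  calc ∑ T : Finset X, wt q T * ∑ U' ∈ (orb G U).filter (fun U' => U' ⊆ T), P T U'
      ≤ ∑ T : Finset X, wt q T * M :=
        Finset.sum_le_sum fun T _ => mul_le_mul_of_nonneg_left (hM T) (wt_nonneg h0 h1 T)
    _ = M := by rw [← Finset.sum_mul, sum_wt, one_mul]

/-- elementary symmetric sums: `(m+1) e_{m+1} ≤ e_m e_1`. -/
theorem succ_mul_esymm_le (S : Finset X) (y : X → ℝ) (hy : ∀ x ∈ S, 0 ≤ y x) (m : ℕ) :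
    ((m : ℝ) + 1) * ∑ V ∈ S.powersetCard (m + 1), ∏ x ∈ V, y x
      ≤ (∑ V ∈ S.powersetCard m, ∏ x ∈ V, y x) * ∑ x ∈ S, y x := by
  classical
  have e1 : ((m : ℝ) + 1) * ∑ V ∈ S.powersetCard (m + 1), ∏ x ∈ V, y x
      = ∑ V ∈ S.powersetCard (m + 1), ∑ _a ∈ V, ∏ x ∈ V, y x := by
    rw [Finset.mul_sum]
    refine Finset.sum_congr rfl fun V hV => ?_
    rw [Finset.sum_const, (Finset.mem_powersetCard.1 hV).2, nsmul_eq_mul]
    push_cast
    ring
  have e2 : (∑ V ∈ S.powersetCard m, ∏ x ∈ V, y x) * ∑ x ∈ S, y x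
      = ∑ V ∈ S.powersetCard m, ∑ a ∈ S, (∏ x ∈ V, y x) * y a := by
    rw [Finset.sum_mul]
    exact Finset.sum_congr rfl fun V _ => Finset.mul_sum _ _ _
  rw [e1, e2, Finset.sum_sigma', Finset.sum_sigma']
  set e : (Σ _ : Finset X, X) → (Σ _ : Finset X, X) := fun z => ⟨z.1.erase z.2, z.2⟩ with he
  set D := (S.powersetCard (m + 1)).sigma fun V => V with hD
  set D' := (S.powersetCard m).sigma fun _ => S with hD'
  set gg : (Σ _ : Finset X, X) → ℝ := fun z => (∏ x ∈ z.1, y x) * y z.2 with hgg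
  have hinj : Set.InjOn e (D : Set (Σ _ : Finset X, X)) := by
    rintro ⟨V, a⟩ hx ⟨W, b⟩ hy' hxy
    have hx2 : a ∈ V := (Finset.mem_sigma.1 hx).2
    have hy2 : b ∈ W := (Finset.mem_sigma.1 hy').2
    simp only [he, Sigma.mk.injEq, heq_eq_eq] at hxy
    obtain ⟨h1, rfl⟩ := hxy
    have : V = W := by
      rw [← Finset.insert_erase hx2, ← Finset.insert_erase hy2, h1]
    rw [this]
  have hsub : D.image e ⊆ D' := by
    intro z hz
    obtain ⟨⟨V, a⟩, hx, rfl⟩ := mem_image.1 hz
    have hx1 := Finset.mem_powersetCard.1 (Finset.mem_sigma.1 hx).1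
    have hx2 : a ∈ V := (Finset.mem_sigma.1 hx).2
    refine Finset.mem_sigma.2 ⟨Finset.mem_powersetCard.2
      ⟨(Finset.erase_subset _ _).trans hx1.1, ?_⟩, hx1.1 hx2⟩
    rw [Finset.card_erase_of_mem hx2, hx1.2]
    rfl
  calc ∑ z ∈ D, ∏ x ∈ z.1, y x = ∑ z ∈ D, gg (e z) := by
        refine Finset.sum_congr rfl ?_
        rintro ⟨V, a⟩ hx
        have hx2 : a ∈ V := (Finset.mem_sigma.1 hx).2
        show ∏ x ∈ V, y x = (∏ x ∈ V.erase a, y x) * y a
        rw [Finset.prod_erase_mul _ _ hx2]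
    _ = ∑ z ∈ D.image e, gg z := (Finset.sum_image hinj).symm
    _ ≤ ∑ z ∈ D', gg z := by
        refine Finset.sum_le_sum_of_subset_of_nonneg hsub ?_
        rintro ⟨V, a⟩ hz _
        have h1 := Finset.mem_powersetCard.1 (Finset.mem_sigma.1 hz).1
        have h2 : a ∈ S := (Finset.mem_sigma.1 hz).2
        exact mul_nonneg (Finset.prod_nonneg fun x hx => hy x (h1.1 hx)) (hy a h2)

/-- `m! e_m ≤ e_1^m`. -/
theorem factorial_mul_esymm_le (S : Finset X) (y : X → ℝ) (hy : ∀ x ∈ S, 0 ≤ y x) (m : ℕ) :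
    (m.factorial : ℝ) * ∑ V ∈ S.powersetCard m, ∏ x ∈ V, y x ≤ (∑ x ∈ S, y x) ^ m := by
  have h0 : 0 ≤ ∑ x ∈ S, y x := Finset.sum_nonneg hy
  induction m with
  | zero => simp
  | succ m ih =>
    calc ((m + 1).factorial : ℝ) * ∑ V ∈ S.powersetCard (m + 1), ∏ x ∈ V, y x
        = (m.factorial : ℝ) * (((m : ℝ) + 1) * ∑ V ∈ S.powersetCard (m + 1), ∏ x ∈ V, y x) := by
          rw [Nat.factorial_succ]; push_cast; ring
      _ ≤ (m.factorial : ℝ) * ((∑ V ∈ S.powersetCard m, ∏ x ∈ V, y x) * ∑ x ∈ S, y x) :=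
          mul_le_mul_of_nonneg_left (succ_mul_esymm_le S y hy m) (Nat.cast_nonneg _)
      _ = ((m.factorial : ℝ) * ∑ V ∈ S.powersetCard m, ∏ x ∈ V, y x) * ∑ x ∈ S, y x := by ring
      _ ≤ (∑ x ∈ S, y x) ^ m * ∑ x ∈ S, y x := mul_le_mul_of_nonneg_right ih h0
      _ = (∑ x ∈ S, y x) ^ (m + 1) := by ring

/-- **Recognition principle, weighted (product) form.** -/
theorem recognition_weighted {q M0 : ℝ} (h0 : 0 ≤ q) (h1 : q ≤ 1) (U : Finset X)
    (w : Finset X → X → ℝ) (hw0 : ∀ S x, 0 ≤ w S x)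
    (hw : ∀ (g : G) (S : Finset X) (x : X), w (g • S) (g • x) = w S x)
    (hM : ∀ S : Finset X, ∑ x ∈ S, w S x ≤ M0) :
    (U.card.factorial : ℝ) * (((orb G U).card : ℝ) * q ^ U.card
      * ∑ S : Finset X, wt q S * ∏ x ∈ U, w (U ∪ S) x) ≤ M0 ^ U.card := by
  have hfac : (0 : ℝ) < (U.card.factorial : ℝ) := by exact_mod_cast Nat.factorial_pos _
  have key := recognition G (M := M0 ^ U.card / (U.card.factorial : ℝ)) h0 h1 U
    (fun S U' => ∏ x ∈ U', w S x) ?_ ?_
  · calc (U.card.factorial : ℝ) * (((orb G U).card : ℝ) * q ^ U.card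
          * ∑ S : Finset X, wt q S * ∏ x ∈ U, w (U ∪ S) x)
        ≤ (U.card.factorial : ℝ) * (M0 ^ U.card / (U.card.factorial : ℝ)) :=
          mul_le_mul_of_nonneg_left key hfac.le
      _ = M0 ^ U.card := by field_simp
  · intro g S U'
    show ∏ x ∈ g • U', w (g • S) x = ∏ x ∈ U', w S x
    have : g • U' = U'.image fun x => g • x := rfl
    rw [this, Finset.prod_image fun a _ b _ h => MulAction.injective g h]
    exact Finset.prod_congr rfl fun x _ => hw g S x
  · intro S
    rw [le_div_iff₀ hfac, mul_comm]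
    have hsub : (orb G U).filter (fun U' => U' ⊆ S) ⊆ S.powersetCard U.card := by
      intro U' hU'
      have h := mem_filter.1 hU'
      exact Finset.mem_powersetCard.2 ⟨h.2, card_of_mem_orb G h.1⟩
    have h2 : ∑ U' ∈ (orb G U).filter (fun U' => U' ⊆ S), ∏ x ∈ U', w S x
        ≤ ∑ V ∈ S.powersetCard U.card, ∏ x ∈ V, w S x :=
      Finset.sum_le_sum_of_subset_of_nonneg hsub fun V _ _ =>
        Finset.prod_nonneg fun x _ => hw0 S x
    calc (U.card.factorial : ℝ) * ∑ U' ∈ (orb G U).filter (fun U' => U' ⊆ S), ∏ x ∈ U', w S x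
        ≤ (U.card.factorial : ℝ) * ∑ V ∈ S.powersetCard U.card, ∏ x ∈ V, w S x :=
          mul_le_mul_of_nonneg_left h2 hfac.le
      _ ≤ (∑ x ∈ S, w S x) ^ U.card :=
          factorial_mul_esymm_le S (w S) (fun x _ => hw0 S x) _
      _ ≤ M0 ^ U.card :=
          pow_le_pow_left₀ (Finset.sum_nonneg fun x _ => hw0 S x) (hM S) _

/-- **Recognition principle, set form**: `CC` equivariant; the planted set is recognised if it lies
in `CC (U ∪ G')` and `CC (U ∪ G')` has at most `L` elements. -/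
theorem recognition_set {q : ℝ} (h0 : 0 ≤ q) (h1 : q ≤ 1) (U : Finset X) (L : ℕ)
    (CC : Finset X → Finset X) (hCC : ∀ (g : G) (S : Finset X), CC (g • S) = g • CC S) :
    ((orb G U).card : ℝ) * q ^ U.card
      * ∑ S ∈ univ.filter (fun S : Finset X => U ⊆ CC (U ∪ S) ∧ (CC (U ∪ S)).card ≤ L), wt q S
      ≤ (L.choose U.card : ℝ) := by
  classical
  have key := recognition G (M := (L.choose U.card : ℝ)) h0 h1 U
    (fun S U' => if U' ⊆ CC S ∧ (CC S).card ≤ L then 1 else 0) ?_ ?_
  · have : ∑ S : Finset X, wt q S * (if U ⊆ CC (U ∪ S) ∧ (CC (U ∪ S)).card ≤ L then (1 : ℝ) else 0)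
        = ∑ S ∈ univ.filter (fun S : Finset X => U ⊆ CC (U ∪ S) ∧ (CC (U ∪ S)).card ≤ L),
            wt q S := by
      rw [Finset.sum_filter]
      exact Finset.sum_congr rfl fun S _ => by split_ifs <;> simp
    rw [← this]
    exact key
  · intro g S U'
    show (if g • U' ⊆ CC (g • S) ∧ (CC (g • S)).card ≤ L then (1 : ℝ) else 0)
      = if U' ⊆ CC S ∧ (CC S).card ≤ L then 1 else 0
    simp only [hCC, Finset.card_smul_finset, Finset.smul_finset_subset_smul_finset_iff]
  · intro S
    rw [← Finset.sum_filter, Finset.sum_const, nsmul_eq_mul, mul_one]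
    by_cases hL : (CC S).card ≤ L
    · have hsub : ((orb G U).filter (fun U' => U' ⊆ S)).filter
          (fun U' => U' ⊆ CC S ∧ (CC S).card ≤ L) ⊆ (CC S).powersetCard U.card := by
        intro U' hU'
        have h := mem_filter.1 hU'
        exact Finset.mem_powersetCard.2 ⟨h.2.1, card_of_mem_orb G (mem_filter.1 h.1).1⟩
      have h3 := Finset.card_le_card hsub
      rw [Finset.card_powersetCard] at h3
      exact_mod_cast h3.trans (Nat.choose_le_choose _ hL)
    · have : ((orb G U).filter (fun U' => U' ⊆ S)).filter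
          (fun U' => U' ⊆ CC S ∧ (CC S).card ≤ L) = ∅ := by
        refine Finset.filter_eq_empty_iff.2 fun U' _ h => hL h.2
      rw [this]
      simp

end frame

end Crest.Agent.Rec91
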