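import Crest.Agent.S0076_PPd
import Crest.Prelude.Def_RandomGraph

/-!
# S0076: reduction to the spread lemma

`s0076_of_spread`: if the uniform measure on the labelled copies of `H` in `K_n` is `κ`-spread,
then `G(n, min 1 (16 κ (1 + log₂ e(H))))` contains `H` with probability at least `2/3`.
-/

set_option autoImplicit false

namespace Crest.Agent.PP56

open Finset Crest.FinProb Crest.CombinatoricsR.RandomGraph

variable {n : ℕ} {W : Type} [Fintype W] [DecidableEq W]

/-- the edge slots of `K_n` used by the labelled copy `σ` of `H`. -/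
noncomputable def copyEdges (H : SimpleGraph W) [DecidableRel H.Adj] (σ : W ↪ Fin n) :
    Finset (EdgeSlot n) :=
  Finset.univ.filter fun z : EdgeSlot n => ∃ e ∈ H.edgeFinset, Sym2.map σ e = z.1

theorem card_copyEdges_le (H : SimpleGraph W) [DecidableRel H.Adj] (σ : W ↪ Fin n) :
    (copyEdges H σ).card ≤ H.edgeFinset.card := by
  have h1 : ((copyEdges H σ).image fun z : EdgeSlot n => z.1) ⊆
      H.edgeFinset.image (Sym2.map σ) := by
    intro y hy
    obtain ⟨z, hz, rfl⟩ := Finset.mem_image.mp hy
    obtain ⟨e, he, hez⟩ := (Finset.mem_filter.mp hz).2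
    exact Finset.mem_image.mpr ⟨e, he, hez⟩
  calc (copyEdges H σ).card = ((copyEdges H σ).image fun z : EdgeSlot n => z.1).card :=
        (Finset.card_image_of_injective _ Subtype.val_injective).symm
    _ ≤ (H.edgeFinset.image (Sym2.map σ)).card := Finset.card_le_card h1
    _ ≤ H.edgeFinset.card := Finset.card_image_le

theorem isContained_of_copyEdges (H : SimpleGraph W) [DecidableRel H.Adj] (σ : W ↪ Fin n)
    (ω : EdgeSlot n → Bool) (h : ∀ z ∈ copyEdges H σ, ω z = true) :
    H.IsContained (graphOf ω) := by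
  rw [SimpleGraph.isContained_iff_exists_le_comap]
  refine ⟨σ, ?_⟩
  intro a b hab
  have hne : σ a ≠ σ b := fun h' => hab.ne (σ.injective h')
  have hnd : ¬ (s(σ a, σ b) : Sym2 (Fin n)).IsDiag := by simpa using hne
  have hz : (⟨s(σ a, σ b), hnd⟩ : EdgeSlot n) ∈ copyEdges H σ := by
    unfold copyEdges
    rw [Finset.mem_filter]
    refine ⟨Finset.mem_univ _, s(a, b), ?_, ?_⟩
    · rw [SimpleGraph.mem_edgeFinset]; exact hab
    · simp
  have := h _ hz
  show (graphOf ω).Adj (σ a) (σ b)
  unfold graphOf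
  rw [SimpleGraph.fromEdgeSet_adj]
  exact ⟨⟨hnd, this⟩, hne⟩

theorem bernoulliProb_mono {ι : Type*} [Fintype ι] [DecidableEq ι] {p : ℝ} (h0 : 0 ≤ p)
    (h1 : p ≤ 1) {E E' : Set (ι → Bool)} (h : E ⊆ E') :
    bernoulliProb p E ≤ bernoulliProb p E' := by
  classical
  unfold bernoulliProb
  refine Finset.sum_le_sum_of_subset_of_nonneg ?_ ?_
  · intro ω hω
    rw [Finset.mem_filter] at hω ⊢
    exact ⟨hω.1, h hω.2⟩
  · intro ω _ _
    unfold bernoulliWeight
    refine Finset.prod_nonneg fun i _ => ?_
    split_ifs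
    · exact h0
    · linarith

/-- **Reduction of S0076 to the spread lemma.** -/
theorem s0076_of_spread (H : SimpleGraph W) [DecidableRel H.Adj] (hW : Fintype.card W ≤ n)
    (hH : 1 ≤ H.edgeFinset.card) (κ : ℝ) (hκ : 0 ≤ κ)
    (hspread : ∀ I : Finset (EdgeSlot n),
      ((Finset.univ.filter fun σ : W ↪ Fin n => I ⊆ copyEdges H σ).card : ℝ)
        ≤ κ ^ I.card * (Fintype.card (W ↪ Fin n) : ℝ)) :
    (2 / 3 : ℝ) ≤ gnpProb n (min 1 (16 * κ * (1 + Real.logb 2 (H.edgeFinset.card : ℝ))))
      {G | H.IsContained G} := by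
  classical
  have hne : Nonempty (W ↪ Fin n) :=
    Function.Embedding.nonempty_of_card_le (by simpa using hW)
  set N : ℝ := (Fintype.card (W ↪ Fin n) : ℝ) with hN
  have hNpos : 0 < N := by
    rw [hN]; exact_mod_cast Fintype.card_pos
  set G : Finset (Finset (EdgeSlot n)) :=
    Finset.univ.image fun σ : W ↪ Fin n => copyEdges H σ with hG
  set ν : Finset (EdgeSlot n) → ℝ := fun S =>
    ((Finset.univ.filter fun σ : W ↪ Fin n => copyEdges H σ = S).card : ℝ) / N with hν
  -- general fibre counting
  have fib : ∀ P : Finset (EdgeSlot n) → Prop, ∀ [DecidablePred P],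
      ∑ S ∈ G.filter P, ν S
        = ((Finset.univ.filter fun σ : W ↪ Fin n => P (copyEdges H σ)).card : ℝ) / N := by
    intro P _
    rw [hν]
    simp only
    rw [← Finset.sum_div]
    congr 1
    have hmaps : ∀ σ ∈ (Finset.univ.filter fun σ : W ↪ Fin n => P (copyEdges H σ)),
        copyEdges H σ ∈ G.filter P := by
      intro σ hσ
      rw [Finset.mem_filter] at hσ ⊢
      exact ⟨Finset.mem_image.mpr ⟨σ, Finset.mem_univ _, rfl⟩, hσ.2⟩
    rw [Finset.card_eq_sum_card_fiberwise hmaps]
    push_cast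
    refine Finset.sum_congr rfl fun S hS => ?_
    congr 2
    ext σ
    simp only [Finset.mem_filter, Finset.mem_univ, true_and]
    constructor
    · intro h; exact ⟨h ▸ (Finset.mem_filter.mp hS).2, h⟩
    · intro h; exact h.2
  have hpp := parkPham_spread G H.edgeFinset.card hH
    (by
      intro S hS
      obtain ⟨σ, _, rfl⟩ := Finset.mem_image.mp hS
      exact card_copyEdges_le H σ)
    κ hκ ν
    (by intro S _; rw [hν]; positivity)
    (by
      have := fib (fun _ => True)
      simp only [Finset.filter_true] at this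
      rw [this, Finset.card_univ, ← hN]
      exact div_self hNpos.ne')
    (by
      intro I
      rw [fib (fun S => I ⊆ S), div_le_iff₀ hNpos]
      exact hspread I)
  refine hpp.trans ?_
  unfold gnpProb
  refine bernoulliProb_mono ?_ (min_le_left _ _) ?_
  · refine le_min (by norm_num) ?_
    have : 0 ≤ Real.logb 2 (H.edgeFinset.card : ℝ) :=
      Real.logb_nonneg (by norm_num) (by exact_mod_cast hH)
    positivity
  · rintro ω ⟨S, hS, hω⟩
    obtain ⟨σ, _, rfl⟩ := Finset.mem_image.mp hS
    exact isContained_of_copyEdges H σ ω hω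

end Crest.Agent.PP56
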