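import Crest.Agent.S0076_Red

/-!
# S0076: the conclusion-side bridge

`#{σ : W ↪ Fin n | I ⊆ copyEdges H σ}` in terms of the number of embeddings of the graph `J_I`
spanned by `I` into `H`.
-/

set_option autoImplicit false
set_option linter.unusedSectionVars false

namespace Crest.Agent.Spr18

open Finset Crest.FinProb Crest.CombinatoricsR.RandomGraph Crest.Agent.PP56

section Extend

variable {A W Y : Type} [Fintype A] [Fintype W] [Fintype Y]
  [DecidableEq A] [DecidableEq W] [DecidableEq Y]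

/-- splitting an embedding of `W` along an embedding `ψ : A ↪ W`. -/
noncomputable def splitEquiv (ψ : A ↪ W) :
    (W ↪ Y) ≃ Σ f : A ↪ Y, (↥(Set.range ψ)ᶜ ↪ ↥(Set.range f)ᶜ) := by
  classical
  exact (Equiv.embeddingCongr
    (((Equiv.ofInjective ψ ψ.injective).sumCongr (Equiv.refl _)).trans
      (Equiv.Set.sumCompl (Set.range ψ))).symm (Equiv.refl Y)).trans
    Equiv.sumEmbeddingEquivSigmaEmbeddingRestricted

theorem splitEquiv_fst (ψ : A ↪ W) (σ : W ↪ Y) : (splitEquiv ψ σ).1 = ψ.trans σ := by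
  classical
  ext a
  simp [splitEquiv, Equiv.sumEmbeddingEquivSigmaEmbeddingRestricted,
    Equiv.sumEmbeddingEquivProdEmbeddingDisjoint,
    Equiv.prodEmbeddingDisjointEquivSigmaEmbeddingRestricted,
    Equiv.subtypeProdEquivSigmaSubtype]

/-- the number of extensions of a partial embedding. -/
theorem card_extend (ψ : A ↪ W) (f : A ↪ Y) :
    (Finset.univ.filter fun σ : W ↪ Y => ψ.trans σ = f).card
      = (Fintype.card Y - Fintype.card A).descFactorial (Fintype.card W - Fintype.card A) := by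
  classical
  have e : {σ : W ↪ Y // ψ.trans σ = f} ≃ (↥(Set.range ψ)ᶜ ↪ ↥(Set.range f)ᶜ) :=
    ((splitEquiv ψ).subtypeEquiv (p := fun σ => ψ.trans σ = f) (q := fun x => x.1 = f)
      (fun σ => by rw [splitEquiv_fst])).trans (Equiv.sigmaSubtype f)
  rw [← Fintype.card_subtype, Fintype.card_congr e, Fintype.card_embedding_eq]
  have h1 : Fintype.card ↥(Set.range ψ)ᶜ = Fintype.card W - Fintype.card A := by
    rw [Fintype.card_compl_set, Set.card_range_of_injective ψ.injective]
  have h2 : Fintype.card ↥(Set.range f)ᶜ = Fintype.card Y - Fintype.card A := by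
    rw [Fintype.card_compl_set, Set.card_range_of_injective f.injective]
  rw [h1, h2]

end Extend

section Bridge

variable {n : ℕ} {W : Type} [Fintype W] [DecidableEq W]

/-- the endpoints of the edge slots in `I`. -/
def vset (I : Finset (EdgeSlot n)) : Finset (Fin n) :=
  Finset.univ.filter fun x => ∃ z ∈ I, x ∈ z.1

/-- the graph spanned by `I`, on the subtype of its endpoints. -/
def spanGraph (I : Finset (EdgeSlot n)) : SimpleGraph {x // x ∈ vset I} where
  Adj a b := ∃ z ∈ I, z.1 = s(a.1, b.1)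
  symm := ⟨by
    rintro a b ⟨z, hz, h⟩
    exact ⟨z, hz, by rw [h, Sym2.eq_swap]⟩⟩
  loopless := ⟨by
    rintro a ⟨z, _, h⟩
    exact z.2 (by rw [h]; simp)⟩

theorem mem_vset_left {I : Finset (EdgeSlot n)} {z : EdgeSlot n} (hz : z ∈ I) {x y : Fin n}
    (h : z.1 = s(x, y)) : x ∈ vset I := by
  unfold vset
  rw [Finset.mem_filter]
  exact ⟨Finset.mem_univ _, z, hz, by rw [h]; simp⟩

theorem mem_vset_right {I : Finset (EdgeSlot n)} {z : EdgeSlot n} (hz : z ∈ I) {x y : Fin n}
    (h : z.1 = s(x, y)) : y ∈ vset I := by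
  unfold vset
  rw [Finset.mem_filter]
  exact ⟨Finset.mem_univ _, z, hz, by rw [h]; simp⟩

theorem spanGraph_no_isolated (I : Finset (EdgeSlot n)) (a : {x // x ∈ vset I}) :
    ∃ b, (spanGraph I).Adj a b := by
  obtain ⟨x, hx⟩ := a
  have hx' := hx
  unfold vset at hx'
  rw [Finset.mem_filter] at hx'
  obtain ⟨_, z, hz, hxz⟩ := hx'
  obtain ⟨y, hy⟩ := Sym2.mem_iff_exists.mp hxz
  exact ⟨⟨y, mem_vset_right hz hy⟩, z, hz, hy⟩

theorem ncard_edgeSet_spanGraph (I : Finset (EdgeSlot n)) :
    (spanGraph I).edgeSet.ncard = I.card := by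
  classical
  have hinj : Function.Injective (Sym2.map (Subtype.val : {x // x ∈ vset I} → Fin n)) :=
    Sym2.map.injective Subtype.val_injective
  have himg : Sym2.map (Subtype.val : {x // x ∈ vset I} → Fin n) '' (spanGraph I).edgeSet
      = ((I.image fun z : EdgeSlot n => z.1 : Finset (Sym2 (Fin n))) : Set (Sym2 (Fin n))) := by
    ext e
    constructor
    · rintro ⟨e', he', rfl⟩
      induction e' using Sym2.ind with
      | _ a b =>
        rw [SimpleGraph.mem_edgeSet] at he'
        obtain ⟨z, hz, h⟩ := he'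
        rw [Finset.mem_coe, Finset.mem_image]
        exact ⟨z, hz, by rw [h]; simp⟩
    · intro he
      rw [Finset.mem_coe, Finset.mem_image] at he
      obtain ⟨z, hz, rfl⟩ := he
      obtain ⟨x, y, hxy⟩ : ∃ x y, z.1 = s(x, y) := by
        induction h : z.1 using Sym2.ind with
        | _ x y => exact ⟨x, y, rfl⟩
      refine ⟨s(⟨x, mem_vset_left hz hxy⟩, ⟨y, mem_vset_right hz hxy⟩), ?_, ?_⟩
      · rw [SimpleGraph.mem_edgeSet]
        exact ⟨z, hz, hxy⟩
      · rw [hxy]; simp
  rw [← Set.ncard_image_of_injective _ hinj, himg, Set.ncard_coe_finset,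
    Finset.card_image_of_injective _ Subtype.val_injective]

/-- the set of embeddings of the graph `J` into `H`. -/
def IsEmb {V : Type} (J : SimpleGraph V) (H : SimpleGraph W) (ψ : V ↪ W) : Prop :=
  ∀ a b, J.Adj a b → H.Adj (ψ a) (ψ b)

theorem subset_copyEdges_of_isEmb (H : SimpleGraph W) [DecidableRel H.Adj]
    (I : Finset (EdgeSlot n)) (ψ : {x // x ∈ vset I} ↪ W) (hψ : IsEmb (spanGraph I) H ψ)
    (σ : W ↪ Fin n) (hσ : ψ.trans σ = Function.Embedding.subtype _) :
    I ⊆ copyEdges H σ := by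
  intro z hz
  obtain ⟨x, y, hxy⟩ : ∃ x y, z.1 = s(x, y) := by
    induction h : z.1 using Sym2.ind with
    | _ x y => exact ⟨x, y, rfl⟩
  have hx := mem_vset_left hz hxy
  have hy := mem_vset_right hz hxy
  have hadj : H.Adj (ψ ⟨x, hx⟩) (ψ ⟨y, hy⟩) := hψ _ _ ⟨z, hz, hxy⟩
  have h1 : σ (ψ ⟨x, hx⟩) = x := by
    have := DFunLike.congr_fun hσ ⟨x, hx⟩
    simpa using this
  have h2 : σ (ψ ⟨y, hy⟩) = y := by
    have := DFunLike.congr_fun hσ ⟨y, hy⟩
    simpa using this
  unfold copyEdges
  rw [Finset.mem_filter]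
  refine ⟨Finset.mem_univ _, s(ψ ⟨x, hx⟩, ψ ⟨y, hy⟩), ?_, ?_⟩
  · rw [SimpleGraph.mem_edgeFinset]; exact hadj
  · rw [hxy, Sym2.map_mk, h1, h2]

theorem exists_isEmb_of_subset_copyEdges (H : SimpleGraph W) [DecidableRel H.Adj]
    (I : Finset (EdgeSlot n)) (σ : W ↪ Fin n) (hσ : I ⊆ copyEdges H σ) :
    ∃ ψ : {x // x ∈ vset I} ↪ W, IsEmb (spanGraph I) H ψ ∧
      ψ.trans σ = Function.Embedding.subtype _ := by
  classical
  have hedge : ∀ z ∈ I, ∃ e ∈ H.edgeFinset, Sym2.map σ e = z.1 := by
    intro z hz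
    have := hσ hz
    unfold copyEdges at this
    exact (Finset.mem_filter.mp this).2
  have hrange : ∀ a : {x // x ∈ vset I}, ∃ w : W, σ w = a.1 := by
    rintro ⟨x, hx⟩
    unfold vset at hx
    rw [Finset.mem_filter] at hx
    obtain ⟨_, z, hz, hxz⟩ := hx
    obtain ⟨e, _, he⟩ := hedge z hz
    rw [← he, Sym2.mem_map] at hxz
    obtain ⟨w, _, hw⟩ := hxz
    exact ⟨w, hw⟩
  choose g hg using hrange
  have ginj : Function.Injective g := by
    intro a b hab
    apply Subtype.ext
    rw [← hg a, ← hg b, hab]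
  refine ⟨⟨g, ginj⟩, ?_, ?_⟩
  · rintro a b ⟨z, hz, hzab⟩
    obtain ⟨e, he, hez⟩ := hedge z hz
    induction e using Sym2.ind with
    | _ u v =>
      rw [SimpleGraph.mem_edgeFinset, SimpleGraph.mem_edgeSet] at he
      rw [hzab, Sym2.map_mk, Sym2.eq_iff] at hez
      show H.Adj (g a) (g b)
      rcases hez with ⟨h1, h2⟩ | ⟨h1, h2⟩
      · have hu : u = g a := σ.injective (by rw [h1, hg])
        have hv : v = g b := σ.injective (by rw [h2, hg])
        rw [← hu, ← hv]; exact he
      · have hu : u = g b := σ.injective (by rw [h1, hg])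
        have hv : v = g a := σ.injective (by rw [h2, hg])
        rw [← hu, ← hv]; exact he.symm
  · ext a
    simp [hg]

/-- **Exact count** of the labelled copies of `H` in `K_n` containing `I`. -/
theorem card_filter_subset_copyEdges (H : SimpleGraph W) [DecidableRel H.Adj]
    (I : Finset (EdgeSlot n)) :
    (Finset.univ.filter fun σ : W ↪ Fin n => I ⊆ copyEdges H σ).card
      = Nat.card {ψ : {x // x ∈ vset I} ↪ W // IsEmb (spanGraph I) H ψ}
        * (n - (vset I).card).descFactorial (Fintype.card W - (vset I).card) := by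
  classical
  set E : Finset ({x // x ∈ vset I} ↪ W) :=
    Finset.univ.filter fun ψ => IsEmb (spanGraph I) H ψ with hE
  have hunion : (Finset.univ.filter fun σ : W ↪ Fin n => I ⊆ copyEdges H σ)
      = E.biUnion fun ψ => Finset.univ.filter fun σ : W ↪ Fin n =>
          ψ.trans σ = Function.Embedding.subtype _ := by
    ext σ
    simp only [Finset.mem_filter, Finset.mem_univ, true_and, Finset.mem_biUnion, hE]
    constructor
    · intro h
      exact exists_isEmb_of_subset_copyEdges H I σ h
    · rintro ⟨ψ, hψ, h⟩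
      exact subset_copyEdges_of_isEmb H I ψ hψ σ h
  rw [hunion, Finset.card_biUnion]
  · have : ∀ ψ ∈ E, (Finset.univ.filter fun σ : W ↪ Fin n =>
        ψ.trans σ = Function.Embedding.subtype _).card
        = (n - (vset I).card).descFactorial (Fintype.card W - (vset I).card) := by
      intro ψ _
      rw [card_extend]
      simp
    rw [Finset.sum_congr rfl this, Finset.sum_const, smul_eq_mul]
    congr 1
    rw [Nat.card_eq_fintype_card, Fintype.card_subtype]
  · intro ψ _ ψ' _ hne
    show Disjoint _ _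
    rw [Finset.disjoint_left]
    intro σ h1 h2
    rw [Finset.mem_filter] at h1 h2
    apply hne
    ext a
    apply σ.injective
    have e1 := DFunLike.congr_fun h1.2 a
    have e2 := DFunLike.congr_fun h2.2 a
    simp only [Function.Embedding.trans_apply] at e1 e2
    rw [e1, e2]

/-- The paper form of the spread lemma `(*)` with constant `κ` (per edge):
`inj(J,H) ≤ κ^{e(J)} (n)_{v(J)}` for every graph `J` without isolated vertices, with at least one
edge and at most `n` vertices. -/
def Star (n : ℕ) (H : SimpleGraph W) (κ : ℝ) : Prop :=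
  ∀ (V : Type) [Fintype V] [DecidableEq V] (J : SimpleGraph V),
    (∀ a, ∃ b, J.Adj a b) → 1 ≤ J.edgeSet.ncard → Fintype.card V ≤ n →
    (Nat.card {ψ : V ↪ W // IsEmb J H ψ} : ℝ)
      ≤ κ ^ J.edgeSet.ncard * (n.descFactorial (Fintype.card V) : ℝ)

/-- `(*)` with a prefactor `2`. -/
def Star2 (n : ℕ) (H : SimpleGraph W) (κ : ℝ) : Prop :=
  ∀ (V : Type) [Fintype V] [DecidableEq V] (J : SimpleGraph V),
    (∀ a, ∃ b, J.Adj a b) → 1 ≤ J.edgeSet.ncard → Fintype.card V ≤ n →
    (Nat.card {ψ : V ↪ W // IsEmb J H ψ} : ℝ)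
      ≤ 2 * κ ^ J.edgeSet.ncard * (n.descFactorial (Fintype.card V) : ℝ)

theorem Star2.star {H : SimpleGraph W} {κ : ℝ} (hκ : 0 ≤ κ) (h : Star2 n H κ) :
    Star n H (2 * κ) := by
  intro V _ _ J h1 h2 h3
  refine (h V J h1 h2 h3).trans ?_
  refine mul_le_mul_of_nonneg_right ?_ (by positivity)
  rw [mul_pow]
  refine mul_le_mul_of_nonneg_right ?_ (by positivity)
  calc (2 : ℝ) = 2 ^ 1 := by norm_num
    _ ≤ 2 ^ J.edgeSet.ncard := pow_le_pow_right₀ (by norm_num) h2

theorem hspread_of_star (H : SimpleGraph W) [DecidableRel H.Adj] (κ : ℝ) (hκ : 0 ≤ κ)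
    (hstar : Star n H κ) (I : Finset (EdgeSlot n)) :
    ((Finset.univ.filter fun σ : W ↪ Fin n => I ⊆ copyEdges H σ).card : ℝ)
      ≤ κ ^ I.card * (Fintype.card (W ↪ Fin n) : ℝ) := by
  classical
  rcases Finset.eq_empty_or_nonempty I with rfl | hI
  · simp only [Finset.card_empty, pow_zero, one_mul]
    exact_mod_cast Finset.card_le_univ _
  rw [card_filter_subset_copyEdges]
  set N := Nat.card {ψ : {x // x ∈ vset I} ↪ W // IsEmb (spanGraph I) H ψ} with hN
  rcases Nat.eq_zero_or_pos N with h0 | hpos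
  · rw [h0]
    simp only [zero_mul, Nat.cast_zero]
    positivity
  have hne : Nonempty {ψ : {x // x ∈ vset I} ↪ W // IsEmb (spanGraph I) H ψ} :=
    (Nat.card_pos_iff.mp hpos).1
  obtain ⟨ψ, _⟩ := hne
  have hvW : (vset I).card ≤ Fintype.card W := by
    have := Fintype.card_le_of_embedding ψ
    simpa using this
  have hvn : (vset I).card ≤ n := by
    have := Finset.card_le_univ (vset I)
    simpa using this
  have hs := hstar {x // x ∈ vset I} (spanGraph I) (spanGraph_no_isolated I)
    (by rw [ncard_edgeSet_spanGraph]; exact Finset.card_pos.mpr hI)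
    (by simpa using hvn)
  rw [ncard_edgeSet_spanGraph, ← hN] at hs
  have hcard : Fintype.card (W ↪ Fin n)
      = (n - (vset I).card).descFactorial (Fintype.card W - (vset I).card)
        * n.descFactorial (vset I).card := by
    rw [Fintype.card_embedding_eq, Fintype.card_fin, Nat.descFactorial_mul_descFactorial hvW]
  rw [hcard]
  push_cast
  have hs' : (N : ℝ) ≤ κ ^ I.card * (n.descFactorial (vset I).card : ℝ) := by
    simpa using hs
  calc (N : ℝ) * ((n - (vset I).card).descFactorial (Fintype.card W - (vset I).card) : ℝ)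
      ≤ (κ ^ I.card * (n.descFactorial (vset I).card : ℝ))
        * ((n - (vset I).card).descFactorial (Fintype.card W - (vset I).card) : ℝ) :=
        mul_le_mul_of_nonneg_right hs' (by positivity)
    _ = _ := by ring

/-- **S0076 from the paper form of the spread lemma.** -/
theorem s0076_of_star (H : SimpleGraph W) [DecidableRel H.Adj] (hW : Fintype.card W ≤ n)
    (hH : 1 ≤ H.edgeFinset.card) (p : ℝ) (hp0 : 0 ≤ p)
    (hstar : Star n H (128 * Real.exp 50 * p)) :
    (1 : ℝ) / 2 ≤ gnpProb n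
      (min 1 (2048 * Real.exp 50 * p * (1 + Real.logb 2 (H.edgeFinset.card : ℝ))))
      {G | H.IsContained G} := by
  have hκ : 0 ≤ 128 * Real.exp 50 * p := by positivity
  have h := s0076_of_spread H hW hH (128 * Real.exp 50 * p) hκ (hspread_of_star H _ hκ hstar)
  have e : 16 * (128 * Real.exp 50 * p) * (1 + Real.logb 2 (H.edgeFinset.card : ℝ))
      = 2048 * Real.exp 50 * p * (1 + Real.logb 2 (H.edgeFinset.card : ℝ)) := by ring
  rw [e] at h
  linarith

end Bridge

end Crest.Agent.Spr18
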