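import Mathlib
import Crest.Prelude.Def_FinProb

/-!
ROW56, package G5 (helper21): Russo's formula for `Crest.FinProb.bernoulliProb` on an abstract
finite index type, and the logit ODE argument that turns `μ(1-μ) ≤ K * I` into a bound for the
threshold window.
-/

set_option autoImplicit false

namespace Crest.Agent.R56W

open Crest.FinProb Finset

variable {ι : Type*} [Fintype ι] [DecidableEq ι]

/-- expectation as a raw sum -/
noncomputable def expect (p : ℝ) (F : (ι → Bool) → ℝ) : ℝ :=
  ∑ ω : ι → Bool, bernoulliWeight p ω * F ω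

omit [DecidableEq ι] in
lemma bernoulliWeight_nonneg {p : ℝ} (h0 : 0 ≤ p) (h1 : p ≤ 1) (ω : ι → Bool) :
    0 ≤ bernoulliWeight p ω := by
  unfold bernoulliWeight
  refine Finset.prod_nonneg fun i _ => ?_
  split_ifs <;> linarith

omit [DecidableEq ι] in
lemma bernoulliWeight_pos {p : ℝ} (h0 : 0 < p) (h1 : p < 1) (ω : ι → Bool) :
    0 < bernoulliWeight p ω := by
  unfold bernoulliWeight
  refine Finset.prod_pos fun i _ => ?_
  split_ifs <;> linarith

lemma sum_bernoulliWeight (p : ℝ) : ∑ ω : ι → Bool, bernoulliWeight p ω = 1 := by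
  unfold bernoulliWeight
  have h := (Finset.prod_univ_sum (fun _ : ι => (Finset.univ : Finset Bool))
    (fun (_ : ι) (b : Bool) => if b then p else 1 - p)).symm
  rw [Fintype.piFinset_univ] at h
  rw [h]
  simp

lemma bernoulliProb_eq_sum (p : ℝ) (E : Set (ι → Bool)) [DecidablePred (· ∈ E)] :
    bernoulliProb p E = ∑ ω : ι → Bool, bernoulliWeight p ω * (if ω ∈ E then 1 else 0) := by
  unfold bernoulliProb
  rw [Finset.sum_filter]
  refine Finset.sum_congr rfl fun ω _ => ?_
  by_cases h : ω ∈ E <;> simp [h]

/-- weight = (factor at `i`) * (product over the other coordinates) -/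
lemma bernoulliWeight_eq_mul_erase (p : ℝ) (ω : ι → Bool) (i : ι) :
    bernoulliWeight p ω =
      (if ω i then p else 1 - p) * ∏ j ∈ Finset.univ.erase i, (if ω j then p else 1 - p) := by
  unfold bernoulliWeight
  exact (Finset.mul_prod_erase Finset.univ (fun j => if ω j then p else 1 - p)
    (Finset.mem_univ i)).symm

lemma prod_erase_update (p : ℝ) (ω : ι → Bool) (i : ι) (b : Bool) :
    ∏ j ∈ Finset.univ.erase i, (if Function.update ω i b j then p else 1 - p) =
      ∏ j ∈ Finset.univ.erase i, (if ω j then p else 1 - p) := by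
  refine Finset.prod_congr rfl fun j hj => ?_
  rw [Function.update_of_ne (Finset.ne_of_mem_erase hj)]

/-- the flip of coordinate `i`, as a permutation of the cube -/
def flipAt (i : ι) : Equiv.Perm (ι → Bool) :=
  Function.Involutive.toPerm (fun ω => Function.update ω i (!ω i)) (by
    intro ω
    funext j
    by_cases h : j = i
    · subst h; simp
    · simp [Function.update_of_ne h])

omit [Fintype ι] in
lemma flipAt_apply (i : ι) (ω : ι → Bool) : flipAt i ω = Function.update ω i (!ω i) := rfl

/-- pairing principle: two functions with the same sums over all `{ω, flip ω}` have equal sums -/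
lemma sum_eq_of_pair (i : ι) (A B : (ι → Bool) → ℝ)
    (h : ∀ ω, A ω + A (flipAt i ω) = B ω + B (flipAt i ω)) :
    ∑ ω, A ω = ∑ ω, B ω := by
  have hA : ∑ ω, A (flipAt i ω) = ∑ ω, A ω := Equiv.sum_comp (flipAt i) A
  have hB : ∑ ω, B (flipAt i ω) = ∑ ω, B ω := Equiv.sum_comp (flipAt i) B
  have : ∑ ω, (A ω + A (flipAt i ω)) = ∑ ω, (B ω + B (flipAt i ω)) :=
    Finset.sum_congr rfl fun ω _ => h ω
  rw [Finset.sum_add_distrib, Finset.sum_add_distrib, hA, hB] at this
  linarith

/-- one-coordinate identity behind Russo's formula -/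
lemma sum_erase_sign (p : ℝ) (F : (ι → Bool) → ℝ) (i : ι) :
    ∑ ω : ι → Bool, (∏ j ∈ Finset.univ.erase i, (if ω j then p else 1 - p)) *
        (if ω i then 1 else -1) * F ω =
      ∑ ω : ι → Bool, bernoulliWeight p ω *
        (F (Function.update ω i true) - F (Function.update ω i false)) := by
  refine sum_eq_of_pair i _ _ fun ω => ?_
  rw [flipAt_apply]
  simp only [bernoulliWeight_eq_mul_erase p _ i, prod_erase_update, Function.update_idem,
    Function.update_self]
  cases hω : ω i
  · have h1 : Function.update ω i false = ω := by rw [← hω]; exact Function.update_eq_self i ω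
    simp only [h1, Bool.not_false, Bool.false_eq_true, if_false, if_true]
    ring
  · have h1 : Function.update ω i true = ω := by rw [← hω]; exact Function.update_eq_self i ω
    simp only [h1, Bool.not_true, Bool.false_eq_true, if_false, if_true]
    ring

/-- **Margulis–Russo**, general form. -/
theorem hasDerivAt_expect (F : (ι → Bool) → ℝ) (p : ℝ) :
    HasDerivAt (fun t : ℝ => expect t F)
      (∑ i : ι, expect p (fun ω => F (Function.update ω i true) - F (Function.update ω i false)))
      p := by
  unfold expect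
  have hw : ∀ ω : ι → Bool, HasDerivAt (fun t : ℝ => bernoulliWeight t ω)
      (∑ i : ι, (∏ j ∈ Finset.univ.erase i, (if ω j then p else 1 - p)) *
        (if ω i then 1 else -1)) p := by
    intro ω
    unfold bernoulliWeight
    have h := HasDerivAt.fun_finsetProd (u := (Finset.univ : Finset ι))
      (f := fun (i : ι) (t : ℝ) => if ω i then t else 1 - t)
      (f' := fun i => if ω i then (1 : ℝ) else -1) (x := p) (fun i _ => by
        by_cases h : ω i
        · simp only [h, if_true]; exact hasDerivAt_id' p
        · simp only [h, if_false, Bool.false_eq_true]; exact (hasDerivAt_id' p).const_sub 1)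
    simpa only [smul_eq_mul] using h
  have h2 := HasDerivAt.fun_sum (u := (Finset.univ : Finset (ι → Bool)))
    (A := fun (ω : ι → Bool) (t : ℝ) => bernoulliWeight t ω * F ω) (x := p)
    (fun ω _ => (hw ω).mul_const (F ω))
  have h3 : (∑ i : ι, ∑ ω : ι → Bool, bernoulliWeight p ω *
        (F (Function.update ω i true) - F (Function.update ω i false))) =
      ∑ ω : ι → Bool, (∑ i : ι, (∏ j ∈ Finset.univ.erase i, (if ω j then p else 1 - p)) *
        (if ω i then 1 else -1)) * F ω := by
    simp_rw [Finset.sum_mul]
    rw [Finset.sum_comm (s := (Finset.univ : Finset (ι → Bool)))]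
    exact Finset.sum_congr rfl fun i _ => (sum_erase_sign p F i).symm
  rw [h3]
  exact h2

/-! ### Boolean functions -/

lemma probTrue_eq_expect (p : ℝ) (f : (ι → Bool) → Bool) :
    bernoulliProb p {x | f x = true} = expect p (fun x => if f x then (1 : ℝ) else 0) := by
  classical
  rw [bernoulliProb_eq_sum]
  unfold expect
  refine Finset.sum_congr rfl fun ω _ => ?_
  simp only [Set.mem_ofPred_eq]

lemma probSet_eq_expect (p : ℝ) (E : Set (ι → Bool)) [DecidablePred (· ∈ E)] :
    bernoulliProb p E = expect p (fun x => if x ∈ E then (1 : ℝ) else 0) := by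
  rw [bernoulliProb_eq_sum]
  rfl

/-- **Russo's formula** for a monotone Boolean function, in the raw Prelude vocabulary. -/
theorem russo (f : (ι → Bool) → Bool)
    (hmono : ∀ x y : ι → Bool, (∀ i, x i = true → y i = true) → f x = true → f y = true)
    (p : ℝ) :
    HasDerivAt (fun t : ℝ => bernoulliProb t {x | f x = true})
      (∑ e : ι, bernoulliProb p
        {x | f (Function.update x e true) ≠ f (Function.update x e false)}) p := by
  classical
  have h := hasDerivAt_expect (fun x : ι → Bool => if f x then (1 : ℝ) else 0) p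
  have h1 : (fun t : ℝ => bernoulliProb t {x | f x = true}) =
      fun t : ℝ => expect t (fun x => if f x then (1 : ℝ) else 0) := by
    funext t; exact probTrue_eq_expect t f
  rw [h1]
  convert h using 1
  refine Finset.sum_congr rfl fun e _ => ?_
  rw [probSet_eq_expect]
  unfold expect
  refine Finset.sum_congr rfl fun ω _ => ?_
  congr 1
  have hm : f (Function.update ω e false) = true → f (Function.update ω e true) = true := by
    refine hmono _ _ fun i hi => ?_
    by_cases hie : i = e
    · subst hie; simp
    · rw [Function.update_of_ne hie] at hi ⊢; exact hi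
  simp only [Set.mem_ofPred_eq]
  by_cases h1 : f (Function.update ω e true) = true <;>
    by_cases h2 : f (Function.update ω e false) = true
  · simp [h1, h2]
  · have h2' : f (Function.update ω e false) = false := by simpa using h2
    simp [h1, h2']
  · exact absurd (hm h2) h1
  · have h1' : f (Function.update ω e true) = false := by simpa using h1
    have h2' : f (Function.update ω e false) = false := by simpa using h2
    simp [h1', h2']

lemma probTrue_add_probFalse (p : ℝ) (f : (ι → Bool) → Bool) :
    bernoulliProb p {x | f x = true} +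
      expect p (fun x => if f x then (0 : ℝ) else 1) = 1 := by
  rw [probTrue_eq_expect]
  unfold expect
  rw [← Finset.sum_add_distrib]
  refine Eq.trans ?_ (sum_bernoulliWeight (ι := ι) p)
  refine Finset.sum_congr rfl fun ω _ => ?_
  by_cases h : f ω = true <;> simp [h]

lemma probTrue_pos {p : ℝ} (h0 : 0 < p) (h1 : p < 1) (f : (ι → Bool) → Bool)
    (hne : ∃ x, f x = true) : 0 < bernoulliProb p {x | f x = true} := by
  obtain ⟨x0, hx0⟩ := hne
  rw [probTrue_eq_expect]
  unfold expect
  refine Finset.sum_pos' (fun ω _ => ?_) ⟨x0, Finset.mem_univ _, ?_⟩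
  · refine mul_nonneg (bernoulliWeight_nonneg h0.le h1.le ω) ?_
    show (0 : ℝ) ≤ if f ω = true then 1 else 0
    split_ifs <;> norm_num
  · simpa [hx0] using bernoulliWeight_pos h0 h1 x0

lemma probTrue_lt_one {p : ℝ} (h0 : 0 < p) (h1 : p < 1) (f : (ι → Bool) → Bool)
    (hnu : ∃ x, f x = false) : bernoulliProb p {x | f x = true} < 1 := by
  obtain ⟨x0, hx0⟩ := hnu
  have h := probTrue_add_probFalse p f
  have : 0 < expect p (fun x => if f x then (0 : ℝ) else 1) := by
    unfold expect
    refine Finset.sum_pos' (fun ω _ => ?_) ⟨x0, Finset.mem_univ _, ?_⟩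
    · refine mul_nonneg (bernoulliWeight_nonneg h0.le h1.le ω) ?_
      show (0 : ℝ) ≤ if f ω = true then 0 else 1
      split_ifs <;> norm_num
    · simpa [hx0] using bernoulliWeight_pos h0 h1 x0
  linarith

lemma probTrue_zero (f : (ι → Bool) → Bool)
    (hmono : ∀ x y : ι → Bool, (∀ i, x i = true → y i = true) → f x = true → f y = true)
    (hnu : ∃ x, f x = false) : bernoulliProb 0 {x | f x = true} = 0 := by
  obtain ⟨x0, hx0⟩ := hnu
  rw [probTrue_eq_expect]
  unfold expect
  refine Finset.sum_eq_zero fun ω _ => ?_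
  cases hω : f ω
  · simp [hω]
  · have : ∃ i, ω i = true := by
      by_contra hcon
      push Not at hcon
      have := hmono ω x0 (fun i hi => absurd hi (hcon i)) hω
      rw [hx0] at this
      exact Bool.false_ne_true this
    obtain ⟨i, hi⟩ := this
    have : bernoulliWeight 0 ω = 0 := by
      unfold bernoulliWeight
      exact Finset.prod_eq_zero (Finset.mem_univ i) (by simp [hi])
    rw [this, zero_mul]

lemma probTrue_one (f : (ι → Bool) → Bool)
    (hmono : ∀ x y : ι → Bool, (∀ i, x i = true → y i = true) → f x = true → f y = true)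
    (hne : ∃ x, f x = true) : bernoulliProb 1 {x | f x = true} = 1 := by
  obtain ⟨x0, hx0⟩ := hne
  have h := probTrue_add_probFalse 1 f
  have : expect 1 (fun x => if f x then (0 : ℝ) else 1) = 0 := by
    unfold expect
    refine Finset.sum_eq_zero fun ω _ => ?_
    cases hω : f ω
    · have : ∃ i, ω i = false := by
        by_contra hcon
        push Not at hcon
        have := hmono x0 ω (fun i _ => by simpa using hcon i) hx0
        rw [hω] at this
        exact Bool.false_ne_true this
      obtain ⟨i, hi⟩ := this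
      have : bernoulliWeight 1 ω = 0 := by
        unfold bernoulliWeight
        exact Finset.prod_eq_zero (Finset.mem_univ i) (by simp [hi])
      rw [this, zero_mul]
    · simp [hω]
  linarith

/-! ### The logit ODE -/

/-- growth of the logit under `μ (1 - μ) ≤ K μ'`. -/
theorem logit_growth (μ I : ℝ → ℝ) (K : ℝ) (hK : 0 < K) (a b : ℝ) (hab : a ≤ b)
    (hderiv : ∀ t ∈ Set.Icc a b, HasDerivAt μ (I t) t)
    (hpos : ∀ t ∈ Set.Icc a b, 0 < μ t ∧ μ t < 1)
    (hcore : ∀ t ∈ Set.Icc a b, μ t * (1 - μ t) ≤ K * I t) :
    (b - a) / K ≤ (Real.log (μ b) - Real.log (1 - μ b)) - (Real.log (μ a) - Real.log (1 - μ a)) := by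
  set g : ℝ → ℝ := fun t => Real.log (μ t) - Real.log (1 - μ t) with hg
  have hgd : ∀ t ∈ Set.Icc a b, HasDerivAt g (I t / μ t - (-(I t)) / (1 - μ t)) t := by
    intro t ht
    have h1 := (hderiv t ht).log (hpos t ht).1.ne'
    have h2 := ((hderiv t ht).const_sub 1).log (by have := (hpos t ht).2; linarith)
    exact h1.sub h2
  have hmain := Convex.mul_sub_le_image_sub_of_le_deriv (convex_Icc a b) (f := g) (C := 1 / K)
    (fun t ht => (hgd t ht).continuousAt.continuousWithinAt)
    (fun t ht => ((hgd t (interior_subset ht)).differentiableAt).differentiableWithinAt)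
    (fun t ht => by
      have ht' := interior_subset ht
      rw [(hgd t ht').deriv]
      obtain ⟨h0, h1⟩ := hpos t ht'
      have h1' : 0 < 1 - μ t := by linarith
      have hc := hcore t ht'
      have : I t / μ t - (-(I t)) / (1 - μ t) = I t / (μ t * (1 - μ t)) := by
        field_simp
        ring
      rw [this, div_le_div_iff₀ hK (mul_pos h0 h1')]
      linarith)
    a (Set.left_mem_Icc.2 hab) b (Set.right_mem_Icc.2 hab) hab
  have : (b - a) / K = 1 / K * (b - a) := by ring
  rw [this]
  exact hmain

/-- `2 log((1-ε)/ε) ≤ 4 log(1/(2ε))`. -/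
lemma eps_arith {ε : ℝ} (h0 : 0 < ε) (h1 : ε < 1 / 2) :
    2 * (Real.log (1 - ε) - Real.log ε) ≤ 4 * Real.log (1 / (2 * ε)) := by
  have h2 : Real.log (1 / (2 * ε)) = -(Real.log 2 + Real.log ε) := by
    rw [one_div, Real.log_inv, Real.log_mul (by norm_num) h0.ne']
  rw [h2]
  -- log(1-ε) + log ε + 2 log 2 ≤ 0  i.e. 4 ε (1-ε) ≤ 1
  have h3 : Real.log (4 * (ε * (1 - ε))) ≤ 0 := by
    apply Real.log_nonpos
    · have : 0 < 1 - ε := by linarith
      positivity
    · nlinarith [sq_nonneg (1 - 2 * ε)]
  have h4 : Real.log (4 * (ε * (1 - ε))) = 2 * Real.log 2 + (Real.log ε + Real.log (1 - ε)) := by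
    rw [Real.log_mul (by norm_num) (by have : 0 < 1 - ε := by linarith
                                       positivity),
      Real.log_mul h0.ne' (by linarith)]
    have : Real.log 4 = 2 * Real.log 2 := by
      rw [show (4 : ℝ) = 2 ^ 2 by norm_num, Real.log_pow]; norm_num
    rw [this]
  linarith

/-- **Window theorem.**  If a non-trivial monotone Boolean function satisfies
`μ_t (1 - μ_t) ≤ K * I_t` for all `t ∈ (0,1)`, then the `ε`-window has length at most
`4 K log (1/(2ε))`. -/
theorem window_of_core (f : (ι → Bool) → Bool)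
    (hmono : ∀ x y : ι → Bool, (∀ i, x i = true → y i = true) → f x = true → f y = true)
    (hne : ∃ x, f x = true) (hnu : ∃ x, f x = false) (K : ℝ) (hK : 0 < K)
    (hcore : ∀ t : ℝ, 0 < t → t < 1 →
      bernoulliProb t {x | f x = true} * (1 - bernoulliProb t {x | f x = true}) ≤
        K * ∑ e : ι, bernoulliProb t
          {x | f (Function.update x e true) ≠ f (Function.update x e false)})
    (ε : ℝ) (hε0 : 0 < ε) (hε : ε < 1 / 2) (p q : ℝ) (hp0 : 0 ≤ p) (hq1 : q ≤ 1)
    (hp : ε ≤ bernoulliProb p {x | f x = true})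
    (hq : p + 4 * K * Real.log (1 / (2 * ε)) ≤ q) :
    1 - ε ≤ bernoulliProb q {x | f x = true} := by
  set μ : ℝ → ℝ := fun t => bernoulliProb t {x | f x = true} with hμ
  rcases eq_or_lt_of_le hq1 with hq1' | hq1'
  · rw [hq1', probTrue_one f hmono hne]; linarith
  rcases eq_or_lt_of_le hp0 with hp0' | hp0'
  · rw [← hp0', probTrue_zero f hmono hnu] at hp; linarith
  have hlog : 0 < Real.log (1 / (2 * ε)) := by
    apply Real.log_pos
    rw [lt_div_iff₀ (by linarith)]
    linarith
  have hpq : p ≤ q := by
    have : 0 < 4 * K * Real.log (1 / (2 * ε)) := by positivity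
    linarith
  have hin : ∀ t ∈ Set.Icc p q, 0 < t ∧ t < 1 := fun t ht =>
    ⟨lt_of_lt_of_le hp0' ht.1, lt_of_le_of_lt ht.2 hq1'⟩
  have hgrow := logit_growth μ
    (fun t => ∑ e : ι, bernoulliProb t
      {x | f (Function.update x e true) ≠ f (Function.update x e false)}) K hK p q hpq
    (fun t _ => russo f hmono t)
    (fun t ht => ⟨probTrue_pos (hin t ht).1 (hin t ht).2 f hne,
      probTrue_lt_one (hin t ht).1 (hin t ht).2 f hnu⟩)
    (fun t ht => hcore t (hin t ht).1 (hin t ht).2)
  by_contra hcon
  push Not at hcon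
  have hμq0 : 0 < μ q := probTrue_pos (lt_of_lt_of_le hp0' hpq) hq1' f hne
  have hμp1 : μ p < 1 := probTrue_lt_one hp0' (lt_of_le_of_lt hpq hq1') f hnu
  have hcon' : μ q < 1 - ε := hcon
  have hp' : ε ≤ μ p := hp
  -- bounds on the logs
  have l1 : Real.log (μ q) < Real.log (1 - ε) := Real.log_lt_log hμq0 hcon'
  have l2 : Real.log ε < Real.log (1 - μ q) := Real.log_lt_log hε0 (by linarith)
  have l3 : Real.log ε ≤ Real.log (μ p) := Real.log_le_log hε0 hp'
  have l4 : Real.log (1 - μ p) ≤ Real.log (1 - ε) := Real.log_le_log (by linarith) (by linarith)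
  have l5 := eps_arith hε0 hε
  have l6 : 4 * Real.log (1 / (2 * ε)) ≤ (q - p) / K := by
    rw [le_div_iff₀ hK]
    linarith
  linarith

end Crest.Agent.R56W
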