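import Crest.Agent.S0077_Bridge
import Crest.Agent.S0077_Window
import Crest.Prelude.Def_RandomGraph

/-!
ROW56 (helper21): the complete endgame of S0077.  From the `r = 2` core inequality
`Var ≤ 2^17 / log² n * I` for symmetric Boolean functions on `HyperedgeSlot n 2` we get the exact
statement of S0077 for this `n`.
-/

set_option autoImplicit false

namespace Crest.Agent.R56W

open Crest.Agent.BK Crest.CombinatoricsR.RandomGraph Crest.CombinatoricsR.HypergraphCube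

theorem s0077_of_core2 (n : ℕ) (hn : 2 ≤ n)
    (hcore2 : ∀ t : ℝ, 0 < t → t < 1 → ∀ f : (HyperedgeSlot n 2 → Bool) → Bool, IsSymmetric f →
      prT t f * (1 - prT t f) ≤ 2 ^ 17 / Real.log n ^ 2 * totInfl t f)
    (P : Set (SimpleGraph (Fin n)))
    (hsymm : ∀ σ : Equiv.Perm (Fin n), ∀ G : SimpleGraph (Fin n), G ∈ P → G.map σ.toEmbedding ∈ P)
    (hmono : ∀ G G' : SimpleGraph (Fin n), G ≤ G' → G ∈ P → G' ∈ P)
    (hne : P.Nonempty) (hnu : P ≠ Set.univ) (ε : ℝ) (hε0 : 0 < ε) (hε : ε < 1 / 2)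
    (p q : ℝ) (hp0 : 0 ≤ p) (_hp1 : p ≤ 1) (_hq0 : 0 ≤ q) (hq1 : q ≤ 1)
    (hp : ε ≤ gnpProb n p P)
    (hq : p + 2 ^ 19 / Real.log n ^ 2 * Real.log (1 / (2 * ε)) ≤ q) :
    1 - ε ≤ gnpProb n q P := by
  have hlog : 0 < Real.log n := Real.log_pos (by exact_mod_cast (by omega : 1 < n))
  have hK : (0 : ℝ) < 2 ^ 17 / Real.log n ^ 2 := by positivity
  rw [gnpProb_eq_prT] at hp ⊢
  refine window_of_core (fP P) (fP_mono P hmono) ⟨_, fP_true P hmono hne⟩
    ⟨_, fP_false P hmono hnu⟩ (2 ^ 17 / Real.log n ^ 2) hK ?_ ε hε0 hε p q hp0 hq1 hp ?_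
  · intro t ht0 ht1
    exact core_transfer _ t (hcore2 t ht0 ht1) P hsymm
  · have : 4 * (2 ^ 17 / Real.log n ^ 2) * Real.log (1 / (2 * ε)) =
        2 ^ 19 / Real.log n ^ 2 * Real.log (1 / (2 * ε)) := by ring
    rw [this]
    exact hq

end Crest.Agent.R56W
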