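import Crest.Agent.S0078_Defs
import Crest.Agent.R56Bonami

/-!
ROW56 package G4 on the names of `S0078_Defs`: the p-biased (2,4) hypercontractive inequality and
the Bonami lemma.  (The proofs are in `R56Bonami`.)
-/

set_option autoImplicit false

namespace Crest.Agent.BK

open Crest.FinProb

variable {ι : Type*} [Fintype ι] [DecidableEq ι]

lemma chi1_eq_R56 (p : ℝ) (b : Bool) : chi1 p b = R56Bonami.chi p b := by
  cases b
  · simp [chi1, R56Bonami.chi, sg, neg_div]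
  · simp [chi1, R56Bonami.chi, sg]

lemma chi_eq_R56 (p : ℝ) (S : Finset ι) (x : ι → Bool) : chi p S x = R56Bonami.chiS p S x := by
  unfold chi R56Bonami.chiS
  exact Finset.prod_congr rfl fun i _ => chi1_eq_R56 p _

lemma E_eq_R56 (p : ℝ) (F : (ι → Bool) → ℝ) : E p F = R56Bonami.bE p F := rfl

/-- one-coordinate averaging. -/
theorem E_avg_coord (p : ℝ) (a : ι) (F : (ι → Bool) → ℝ) :
    E p F = E p (fun x => p * F (Function.update x a true)
      + (1 - p) * F (Function.update x a false)) :=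
  R56Bonami.bE_avg p a F

/-- **(2,4) hypercontractivity**, p-biased, `N = 2 / sg p`, polynomial in the coordinates of `J`. -/
theorem hyper_24 {p : ℝ} (h0 : 0 < p) (h1 : p < 1) (J : Finset ι) (c : Finset ι → ℝ) :
    E p (fun x => (∑ S ∈ J.powerset, c S * chi p S x) ^ 4)
      ≤ (∑ S ∈ J.powerset, (2 / sg p) ^ S.card * c S ^ 2) ^ 2 := by
  have h := R56Bonami.hyper24 h0 h1 J c
  simp only [chi_eq_R56, E_eq_R56, sg]
  exact h

/-- **Bonami lemma**: `h = ∑ c S χ_S` of degree `≤ k` has `E h⁴ ≤ (2/σ)^(2k) (∑ c S²)²`. -/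
theorem bonami_24 {p : ℝ} (h0 : 0 < p) (h1 : p < 1) (k : ℕ) (c : Finset ι → ℝ)
    (hc : ∀ S, k < S.card → c S = 0) :
    E p (fun x => (∑ S : Finset ι, c S * chi p S x) ^ 4)
      ≤ (2 / sg p) ^ (2 * k) * (∑ S : Finset ι, c S ^ 2) ^ 2 := by
  have h := R56Bonami.bonami h0 h1 k c hc
  have hs2 : 0 < p * (1 - p) := mul_pos h0 (by linarith)
  have hNsq : (2 / sg p) ^ 2 = 4 / (p * (1 - p)) := by
    rw [sg, div_pow, Real.sq_sqrt hs2.le]; norm_num
  rw [pow_mul, hNsq]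
  simp only [chi_eq_R56, E, R56Bonami.chiS]
  exact h

/-- Bonami lemma for a sum over an arbitrary finite family `𝒜` of sets of size `≤ k`. -/
theorem bonami_24_finset {p : ℝ} (h0 : 0 < p) (h1 : p < 1) (k : ℕ) (𝒜 : Finset (Finset ι))
    (h𝒜 : ∀ S ∈ 𝒜, S.card ≤ k) (c : Finset ι → ℝ) :
    E p (fun x => (∑ S ∈ 𝒜, c S * chi p S x) ^ 4)
      ≤ (2 / sg p) ^ (2 * k) * (∑ S ∈ 𝒜, c S ^ 2) ^ 2 := by
  classical
  have h := bonami_24 h0 h1 k (fun S => if S ∈ 𝒜 then c S else 0) (by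
    intro S hS
    by_cases hm : S ∈ 𝒜
    · exact absurd (h𝒜 S hm) (not_le.mpr hS)
    · simp [hm])
  have e1 : ∀ x : ι → Bool, ∑ S : Finset ι, (if S ∈ 𝒜 then c S else 0) * chi p S x
      = ∑ S ∈ 𝒜, c S * chi p S x := by
    intro x
    simp only [ite_mul, zero_mul]
    rw [Finset.sum_ite_mem, Finset.univ_inter]
  have e2 : ∑ S : Finset ι, (if S ∈ 𝒜 then c S else 0) ^ 2 = ∑ S ∈ 𝒜, c S ^ 2 := by
    simp only [ite_pow, ne_eq, OfNat.ofNat_ne_zero, not_false_eq_true, zero_pow]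
    rw [Finset.sum_ite_mem, Finset.univ_inter]
  simp only [e1, e2] at h
  exact h

end Crest.Agent.BK
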