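import Crest.Agent.S0078_Defs
import Crest.Agent.S0078_Bonami

/-!
# ROW56: the Block Lemma
-/

set_option autoImplicit false
set_option linter.unusedSectionVars false

namespace Crest.Agent.BK
namespace Blk

open Crest.FinProb Finset

variable {ι : Type*} [Fintype ι] [DecidableEq ι]

/-- Walsh synthesis of a coefficient function. -/
noncomputable def syn (p : ℝ) (u : Finset ι → ℝ) (x : ι → Bool) : ℝ := ∑ T, u T * chi p T x

/-! ## basic facts -/

theorem w_nonneg {p : ℝ} (hp0 : 0 ≤ p) (hp1 : p ≤ 1) (x : ι → Bool) :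
    0 ≤ bernoulliWeight p x := by
  unfold bernoulliWeight
  apply Finset.prod_nonneg
  intro i _
  split_ifs <;> linarith

theorem E_prod (p : ℝ) (G : ι → Bool → ℝ) :
    E p (fun x => ∏ i, G i (x i)) = ∏ i, (p * G i true + (1 - p) * G i false) := by
  unfold E bernoulliWeight
  simp_rw [← Finset.prod_mul_distrib]
  have h := Finset.prod_univ_sum (fun _ : ι => (Finset.univ : Finset Bool))
    (fun i b => (if b = true then p else 1 - p) * G i b)
  rw [Fintype.piFinset_univ] at h
  rw [← h]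
  simp

theorem w_sum (p : ℝ) : ∑ x : ι → Bool, bernoulliWeight p x = 1 := by
  have := E_prod (ι := ι) p (fun _ _ => 1)
  simpa [E] using this

theorem E_const (p : ℝ) (c : ℝ) : E (ι := ι) p (fun _ => c) = c := by
  unfold E
  rw [← Finset.sum_mul, w_sum, one_mul]

theorem E_add (p : ℝ) (F G : (ι → Bool) → ℝ) :
    E p (fun x => F x + G x) = E p F + E p G := by
  unfold E
  rw [← Finset.sum_add_distrib]
  exact Finset.sum_congr rfl (fun x _ => by ring)

theorem E_sum {α : Type*} (p : ℝ) (s : Finset α) (F : α → (ι → Bool) → ℝ) :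
    E p (fun x => ∑ a ∈ s, F a x) = ∑ a ∈ s, E p (F a) := by
  unfold E
  rw [Finset.sum_comm]
  exact Finset.sum_congr rfl (fun x _ => by rw [Finset.mul_sum])

theorem E_const_mul (p : ℝ) (c : ℝ) (F : (ι → Bool) → ℝ) :
    E p (fun x => c * F x) = c * E p F := by
  unfold E
  rw [Finset.mul_sum]
  exact Finset.sum_congr rfl (fun x _ => by ring)

theorem E_mono {p : ℝ} (hp0 : 0 ≤ p) (hp1 : p ≤ 1) {F G : (ι → Bool) → ℝ}
    (h : ∀ x, F x ≤ G x) : E p F ≤ E p G := by
  unfold E
  exact Finset.sum_le_sum (fun x _ => mul_le_mul_of_nonneg_left (h x) (w_nonneg hp0 hp1 x))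

theorem E_nonneg {p : ℝ} (hp0 : 0 ≤ p) (hp1 : p ≤ 1) {F : (ι → Bool) → ℝ}
    (h : ∀ x, 0 ≤ F x) : 0 ≤ E p F := by
  unfold E
  exact Finset.sum_nonneg (fun x _ => mul_nonneg (w_nonneg hp0 hp1 x) (h x))

theorem abs_E_le {p : ℝ} (hp0 : 0 ≤ p) (hp1 : p ≤ 1) (F : (ι → Bool) → ℝ) :
    |E p F| ≤ E p (fun x => |F x|) := by
  unfold E
  refine (Finset.abs_sum_le_sum_abs _ _).trans (le_of_eq ?_)
  exact Finset.sum_congr rfl (fun x _ => by rw [abs_mul, abs_of_nonneg (w_nonneg hp0 hp1 x)])

theorem sg_pos {p : ℝ} (hp0 : 0 < p) (hp1 : p < 1) : 0 < sg p :=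
  Real.sqrt_pos.mpr (mul_pos hp0 (by linarith))

theorem sg_sq {p : ℝ} (hp0 : 0 < p) (hp1 : p < 1) : sg p ^ 2 = p * (1 - p) :=
  Real.sq_sqrt (mul_pos hp0 (by linarith)).le


theorem chi_eq_prod_univ (p : ℝ) (S : Finset ι) (x : ι → Bool) :
    chi p S x = ∏ i, (if i ∈ S then chi1 p (x i) else 1) := by
  unfold chi
  rw [Finset.prod_ite_mem, Finset.univ_inter]

theorem chi_empty (p : ℝ) (x : ι → Bool) : chi p (∅ : Finset ι) x = 1 := by
  simp [chi]

theorem chi1_sq_avg {p : ℝ} (hp0 : 0 < p) (hp1 : p < 1) :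
    p * (chi1 p true * chi1 p true) + (1 - p) * (chi1 p false * chi1 p false) = 1 := by
  have hs := sg_pos hp0 hp1
  have hs2 := sg_sq hp0 hp1
  simp only [chi1, if_true, Bool.false_eq_true, if_false]
  field_simp
  nlinarith

theorem chi1_avg {p : ℝ} (hp0 : 0 < p) (hp1 : p < 1) :
    p * chi1 p true + (1 - p) * chi1 p false = 0 := by
  have hs := sg_pos hp0 hp1
  simp only [chi1, if_true, Bool.false_eq_true, if_false]
  field_simp
  ring

theorem E_chi_mul {p : ℝ} (hp0 : 0 < p) (hp1 : p < 1) (S T : Finset ι) :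
    E p (fun x => chi p S x * chi p T x) = if S = T then 1 else 0 := by
  have h1 : (fun x : ι → Bool => chi p S x * chi p T x) = fun x => ∏ i,
      (fun i b => (if i ∈ S then chi1 p b else 1) * (if i ∈ T then chi1 p b else 1)) i (x i) := by
    funext x
    rw [chi_eq_prod_univ, chi_eq_prod_univ, ← Finset.prod_mul_distrib]
  rw [h1, E_prod p
    (fun i b => (if i ∈ S then chi1 p b else 1) * (if i ∈ T then chi1 p b else 1))]
  split_ifs with h
  · subst h
    apply Finset.prod_eq_one
    intro i _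
    by_cases hi : i ∈ S
    · simp only [hi, if_true]
      exact chi1_sq_avg hp0 hp1
    · simp only [hi, if_false]
      ring
  · have : ∃ i, ¬ (i ∈ S ↔ i ∈ T) := by
      by_contra hcon
      push Not at hcon
      exact h (Finset.ext hcon)
    obtain ⟨i, hi⟩ := this
    apply Finset.prod_eq_zero (Finset.mem_univ i)
    by_cases hS : i ∈ S
    · have hT : i ∉ T := fun hT => hi ⟨fun _ => hT, fun _ => hS⟩
      simp only [hS, hT, if_true, if_false, mul_one]
      exact chi1_avg hp0 hp1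
    · have hT : i ∈ T := by
        by_contra hT
        exact hi ⟨fun h => absurd h hS, fun h => absurd h hT⟩
      simp only [hS, hT, if_true, if_false, one_mul]
      exact chi1_avg hp0 hp1

theorem E_chi {p : ℝ} (hp0 : 0 < p) (hp1 : p < 1) (S : Finset ι) :
    E p (fun x => chi p S x) = if S = ∅ then 1 else 0 := by
  have := E_chi_mul hp0 hp1 S (∅ : Finset ι)
  simpa [chi_empty] using this

/-- Parseval for synthesised functions. -/
theorem E_syn_mul {p : ℝ} (hp0 : 0 < p) (hp1 : p < 1) (u v : Finset ι → ℝ) :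
    E p (fun x => syn p u x * syn p v x) = ∑ T, u T * v T := by
  have h1 : (fun x : ι → Bool => syn p u x * syn p v x) =
      fun x => ∑ S, ∑ T, (u S * v T) * (chi p S x * chi p T x) := by
    funext x
    unfold syn
    rw [Finset.sum_mul_sum]
    exact Finset.sum_congr rfl (fun S _ => Finset.sum_congr rfl (fun T _ => by ring))
  rw [h1, E_sum]
  apply Finset.sum_congr rfl
  intro S _
  rw [E_sum]
  simp_rw [E_const_mul, E_chi_mul hp0 hp1]
  simp

theorem one_add_chi1 {p : ℝ} (hp0 : 0 < p) (hp1 : p < 1) (b b' : Bool) :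
    (if b = true then p else 1 - p) * (1 + chi1 p b * chi1 p b') = if b = b' then 1 else 0 := by
  have hs := sg_pos hp0 hp1
  have hs2 := sg_sq hp0 hp1
  have h1p : (0:ℝ) < 1 - p := by linarith
  cases b <;> cases b' <;> simp only [chi1, if_true, Bool.false_eq_true, if_false,
    Bool.true_eq_false] <;> field_simp <;> nlinarith

/-- Walsh expansion. -/
theorem expansion {p : ℝ} (hp0 : 0 < p) (hp1 : p < 1) (F : (ι → Bool) → ℝ) (x : ι → Bool) :
    F x = syn p (fh p F) x := by
  unfold syn fh E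
  simp_rw [Finset.sum_mul]
  rw [Finset.sum_comm]
  have key : ∀ y : ι → Bool, ∑ S : Finset ι, bernoulliWeight p y * (F y * chi p S y) * chi p S x
      = if y = x then F y else 0 := by
    intro y
    have h1 : ∑ S : Finset ι, bernoulliWeight p y * (F y * chi p S y) * chi p S x
        = F y * (bernoulliWeight p y * ∑ S : Finset ι, ∏ i ∈ S, (chi1 p (y i) * chi1 p (x i))) := by
      rw [Finset.mul_sum, Finset.mul_sum]
      apply Finset.sum_congr rfl
      intro S _
      unfold chi
      rw [Finset.prod_mul_distrib]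
      ring
    rw [h1, ← Finset.powerset_univ, ← Finset.prod_one_add]
    unfold bernoulliWeight
    rw [← Finset.prod_mul_distrib]
    simp_rw [one_add_chi1 hp0 hp1]
    by_cases hyx : y = x
    · subst hyx
      simp
    · rw [if_neg hyx]
      have : ∃ i, y i ≠ x i := by
        by_contra hcon
        push Not at hcon
        exact hyx (funext hcon)
      obtain ⟨i, hi⟩ := this
      rw [Finset.prod_eq_zero (Finset.mem_univ i) (by simp [hi]), mul_zero]
  simp_rw [key]
  simp


theorem chi_update (p : ℝ) (S : Finset ι) (x : ι → Bool) (a : ι) (b : Bool) :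
    chi p S (Function.update x a b) =
      if a ∈ S then chi1 p b * chi p (S.erase a) x else chi p S x := by
  unfold chi
  split_ifs with h
  · rw [← Finset.mul_prod_erase S _ h]
    congr 1
    · simp
    · apply Finset.prod_congr rfl
      intro i hi
      rw [Function.update_of_ne (Finset.ne_of_mem_erase hi)]
  · apply Finset.prod_congr rfl
    intro i hi
    have : i ≠ a := fun hia => h (hia ▸ hi)
    rw [Function.update_of_ne this]

theorem chi1_diff {p : ℝ} (hp0 : 0 < p) (hp1 : p < 1) :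
    chi1 p true - chi1 p false = 1 / sg p := by
  have hs := sg_pos hp0 hp1
  simp only [chi1, if_true, Bool.false_eq_true, if_false]
  field_simp
  ring

/-- Walsh expansion of the discrete derivative. -/
theorem D_eq_syn {p : ℝ} (hp0 : 0 < p) (hp1 : p < 1) (a : ι) (F : (ι → Bool) → ℝ)
    (x : ι → Bool) :
    D a F x = syn p (fun T => if a ∈ T then 0 else fh p F (insert a T) / sg p) x := by
  unfold D
  rw [expansion hp0 hp1 F (Function.update x a true),
    expansion hp0 hp1 F (Function.update x a false)]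
  unfold syn
  rw [← Finset.sum_sub_distrib]
  have h1 : ∀ S : Finset ι, fh p F S * chi p S (Function.update x a true) -
      fh p F S * chi p S (Function.update x a false) =
      if a ∈ S then fh p F S / sg p * chi p (S.erase a) x else 0 := by
    intro S
    rw [chi_update, chi_update]
    split_ifs with h
    · have := chi1_diff hp0 hp1
      have e : fh p F S * (chi1 p true * chi p (S.erase a) x) -
          fh p F S * (chi1 p false * chi p (S.erase a) x) =
          fh p F S * (chi1 p true - chi1 p false) * chi p (S.erase a) x := by ring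
      rw [e, this]
      ring
    · ring
  simp_rw [h1]
  have h2 : ∀ T : Finset ι, (if a ∈ T then 0 else fh p F (insert a T) / sg p) * chi p T x =
      if a ∉ T then fh p F (insert a T) / sg p * chi p T x else 0 := by
    intro T
    by_cases h : a ∈ T <;> simp [h]
  simp_rw [h2]
  rw [← Finset.sum_filter, ← Finset.sum_filter]
  refine Finset.sum_nbij' (fun S => S.erase a) (fun T => insert a T) ?_ ?_ ?_ ?_ ?_
  · intro S hS
    simp
  · intro T hT
    simp
  · intro S hS
    simp only [Finset.mem_filter, Finset.mem_univ, true_and] at hS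
    exact Finset.insert_erase hS
  · intro T hT
    simp only [Finset.mem_filter, Finset.mem_univ, true_and] at hT
    exact Finset.erase_insert hT
  · intro S hS
    simp only [Finset.mem_filter, Finset.mem_univ, true_and] at hS
    rw [Finset.insert_erase hS]

theorem w_mix (p : ℝ) (J : Finset ι) (x z : ι → Bool) :
    bernoulliWeight p (mix J x z) * bernoulliWeight p (mix J z x) =
      bernoulliWeight p x * bernoulliWeight p z := by
  unfold bernoulliWeight
  rw [← Finset.prod_mul_distrib, ← Finset.prod_mul_distrib]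
  apply Finset.prod_congr rfl
  intro i _
  by_cases h : i ∈ J
  · simp only [mix, h, if_true]
    ring
  · simp only [mix, h, if_false]

theorem mix_mix (J : Finset ι) (x z : ι → Bool) : mix J (mix J x z) (mix J z x) = x := by
  funext i
  by_cases h : i ∈ J <;> simp [mix, h]

/-- The mixing lemma. -/
theorem E_mix (p : ℝ) (J : Finset ι) (F : (ι → Bool) → ℝ) :
    E p (fun x => E p (fun z => F (mix J x z))) = E p F := by
  have inv : Function.Involutive
      (fun q : (ι → Bool) × (ι → Bool) => (mix J q.1 q.2, mix J q.2 q.1)) := by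
    intro q
    simp only [mix_mix]
  have h1 : E p (fun x => E p (fun z => F (mix J x z))) =
      ∑ q : (ι → Bool) × (ι → Bool),
        bernoulliWeight p q.1 * bernoulliWeight p q.2 * F (mix J q.1 q.2) := by
    unfold E
    rw [Fintype.sum_prod_type]
    apply Finset.sum_congr rfl
    intro x _
    rw [Finset.mul_sum]
    exact Finset.sum_congr rfl (fun z _ => by ring)
  have h2 : E p F = ∑ q : (ι → Bool) × (ι → Bool),
        bernoulliWeight p q.1 * bernoulliWeight p q.2 * F q.1 := by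
    unfold E
    rw [Fintype.sum_prod_type]
    apply Finset.sum_congr rfl
    intro x _
    have : ∑ z : ι → Bool, bernoulliWeight p x * bernoulliWeight p z * F x =
        bernoulliWeight p x * F x * ∑ z : ι → Bool, bernoulliWeight p z := by
      rw [Finset.mul_sum]
      exact Finset.sum_congr rfl (fun z _ => by ring)
    rw [this, w_sum, mul_one]
  rw [h1, h2, ← Equiv.sum_comp inv.toPerm
    (fun q : (ι → Bool) × (ι → Bool) => bernoulliWeight p q.1 * bernoulliWeight p q.2 * F q.1)]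
  apply Finset.sum_congr rfl
  intro q _
  simp only [Function.Involutive.coe_toPerm]
  rw [w_mix]

theorem chi_mix (p : ℝ) (T J : Finset ι) (x z : ι → Bool) :
    chi p T (mix J x z) = chi p (T.filter (· ∈ J)) z * chi p (T.filter (· ∉ J)) x := by
  unfold chi
  rw [← Finset.prod_filter_mul_prod_filter_not T (· ∈ J)]
  congr 1
  · apply Finset.prod_congr rfl
    intro i hi
    simp only [Finset.mem_filter] at hi
    simp [mix, hi.2]
  · apply Finset.prod_congr rfl
    intro i hi
    simp only [Finset.mem_filter] at hi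
    simp [mix, hi.2]

/-- Averaging out the coordinates in `J` kills the characters meeting `J`. -/
theorem E_syn_mix {p : ℝ} (hp0 : 0 < p) (hp1 : p < 1) (J : Finset ι) (u : Finset ι → ℝ)
    (x : ι → Bool) :
    E p (fun z => syn p u (mix J x z)) = syn p (fun T => if Disjoint T J then u T else 0) x := by
  unfold syn
  rw [E_sum]
  apply Finset.sum_congr rfl
  intro T _
  simp_rw [chi_mix]
  have : (fun z : ι → Bool => u T * (chi p (T.filter (· ∈ J)) z * chi p (T.filter (· ∉ J)) x)) =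
      fun z => (u T * chi p (T.filter (· ∉ J)) x) * chi p (T.filter (· ∈ J)) z := by
    funext z; ring
  rw [this, E_const_mul, E_chi hp0 hp1]
  by_cases h : Disjoint T J
  · have e1 : T.filter (· ∈ J) = ∅ := by
      rw [Finset.filter_eq_empty_iff]
      intro i hi hiJ
      exact (Finset.disjoint_left.mp h hi) hiJ
    have e2 : T.filter (· ∉ J) = T := by
      rw [Finset.filter_eq_self]
      intro i hi hiJ
      exact (Finset.disjoint_left.mp h hi) hiJ
    rw [e1, e2, if_pos rfl, if_pos h, mul_one]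
  · have e1 : T.filter (· ∈ J) ≠ ∅ := by
      intro he
      apply h
      rw [Finset.disjoint_left]
      intro i hi hiJ
      rw [Finset.filter_eq_empty_iff] at he
      exact he hi hiJ
    rw [if_neg e1, if_neg h, mul_zero, zero_mul]

theorem abs_D_ind (f : (ι → Bool) → Bool) (a : ι) (x : ι → Bool) :
    |D a (ind f) x| =
      if f (Function.update x a true) ≠ f (Function.update x a false) then 1 else 0 := by
  unfold D ind
  cases h1 : f (Function.update x a true) <;> cases h2 : f (Function.update x a false) <;> simp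

theorem infl_eq (p : ℝ) (f : (ι → Bool) → Bool) (a : ι) :
    infl p f a = E p (fun x => |D a (ind f) x|) := by
  classical
  unfold infl bernoulliProb E
  simp_rw [abs_D_ind]
  rw [Finset.sum_filter]
  apply Finset.sum_congr rfl
  intro x _
  by_cases h : f (Function.update x a true) = f (Function.update x a false)
  · simp [h]
  · simp [h]

/-- Hölder with exponents 2, 4, 4. -/
theorem holder244 {p : ℝ} (hp0 : 0 ≤ p) (hp1 : p ≤ 1) (d h : (ι → Bool) → ℝ) :
    (E p (fun x => d x * h x)) ^ 4 ≤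
      (E p (fun x => |d x|)) ^ 2 * E p (fun x => d x ^ 2) * E p (fun x => h x ^ 4) := by
  have hw := fun x : ι → Bool => w_nonneg hp0 hp1 x
  have c1 : (E p (fun x => d x * h x)) ^ 2 ≤
      E p (fun x => |d x|) * E p (fun x => |d x| * h x ^ 2) := by
    unfold E
    apply Finset.sum_sq_le_sum_mul_sum_of_sq_le_mul
    · intro x _; exact mul_nonneg (hw x) (abs_nonneg _)
    · intro x _; exact mul_nonneg (hw x) (mul_nonneg (abs_nonneg _) (sq_nonneg _))
    · intro x _
      have : d x ^ 2 = |d x| * |d x| := by rw [← sq, sq_abs]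
      apply le_of_eq
      calc (bernoulliWeight p x * (d x * h x)) ^ 2
          = bernoulliWeight p x ^ 2 * d x ^ 2 * h x ^ 2 := by ring
        _ = _ := by rw [this]; ring
  have c2 : (E p (fun x => |d x| * h x ^ 2)) ^ 2 ≤
      E p (fun x => d x ^ 2) * E p (fun x => h x ^ 4) := by
    unfold E
    apply Finset.sum_sq_le_sum_mul_sum_of_sq_le_mul
    · intro x _; exact mul_nonneg (hw x) (sq_nonneg _)
    · intro x _; exact mul_nonneg (hw x) (by positivity)
    · intro x _
      have : |d x| ^ 2 = d x ^ 2 := sq_abs _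
      apply le_of_eq
      calc (bernoulliWeight p x * (|d x| * h x ^ 2)) ^ 2
          = bernoulliWeight p x ^ 2 * |d x| ^ 2 * h x ^ 4 := by ring
        _ = _ := by rw [this]; ring
  have n1 : 0 ≤ E p (fun x => |d x|) := E_nonneg hp0 hp1 (fun x => abs_nonneg _)
  have n2 : 0 ≤ E p (fun x => |d x| * h x ^ 2) :=
    E_nonneg hp0 hp1 (fun x => mul_nonneg (abs_nonneg _) (sq_nonneg _))
  calc (E p (fun x => d x * h x)) ^ 4 = ((E p (fun x => d x * h x)) ^ 2) ^ 2 := by ring
    _ ≤ (E p (fun x => |d x|) * E p (fun x => |d x| * h x ^ 2)) ^ 2 :=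
        pow_le_pow_left₀ (sq_nonneg _) c1 2
    _ = (E p (fun x => |d x|)) ^ 2 * (E p (fun x => |d x| * h x ^ 2)) ^ 2 := by ring
    _ ≤ (E p (fun x => |d x|)) ^ 2 * (E p (fun x => d x ^ 2) * E p (fun x => h x ^ 4)) :=
        mul_le_mul_of_nonneg_left c2 (sq_nonneg _)
    _ = _ := by ring

/-- Parseval. -/
theorem parseval {p : ℝ} (hp0 : 0 < p) (hp1 : p < 1) (F : (ι → Bool) → ℝ) :
    ∑ S, fh p F S ^ 2 = E p (fun x => F x ^ 2) := by
  have h := E_syn_mul hp0 hp1 (fh p F) (fh p F)
  have e : (fun x : ι → Bool => syn p (fh p F) x * syn p (fh p F) x) = fun x => F x ^ 2 := by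
    funext x
    rw [← expansion hp0 hp1 F x]
    ring
  rw [e] at h
  rw [h]
  exact Finset.sum_congr rfl (fun S _ => by ring)

theorem sum_fh_sq_le_one {p : ℝ} (hp0 : 0 < p) (hp1 : p < 1) (f : (ι → Bool) → Bool) :
    ∑ S, fh p (ind f) S ^ 2 ≤ 1 := by
  rw [parseval hp0 hp1]
  calc E p (fun x => ind f x ^ 2) ≤ E p (fun _ => (1:ℝ)) := by
        apply E_mono hp0.le hp1.le
        intro x
        unfold ind
        split_ifs <;> norm_num
    _ = 1 := E_const p 1


/-! ## the Block Lemma -/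

/-- The Bonami (2,4) inequality on the cube `ι → Bool` (package G4). -/
def BonamiHyp (ι : Type*) [Fintype ι] [DecidableEq ι] : Prop :=
  ∀ p : ℝ, 0 < p → p < 1 → ∀ (k : ℕ) (c : Finset ι → ℝ), (∀ S, k < S.card → c S = 0) →
    E p (fun x => syn p c x ^ 4) ≤ (2 / sg p) ^ (2 * k) * (E p (fun x => syn p c x ^ 2)) ^ 2

/-- coefficients of `d_a = E[D_a g | x_B]`. -/
noncomputable def uu (p : ℝ) (f : (ι → Bool) → Bool) (B0 : Finset ι) (a : ι) (T : Finset ι) : ℝ :=
  if T ⊆ B0 ∧ a ∉ T then fh p (ind f) (insert a T) / sg p else 0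

/-- coefficients of `h_a = D_a ψ`. -/
noncomputable def vv (p : ℝ) (f : (ι → Bool) → Bool) (B0 : Finset ι) (D : ℕ) (a : ι)
    (T : Finset ι) : ℝ :=
  if T ⊆ B0 ∧ a ∉ T ∧ T.card + 1 ≤ D then fh p (ind f) (insert a T) / sg p else 0

theorem syn_uu {p : ℝ} (hp0 : 0 < p) (hp1 : p < 1) (f : (ι → Bool) → Bool) (B0 : Finset ι)
    (a : ι) (x : ι → Bool) :
    syn p (uu p f B0 a) x = E p (fun z => D a (ind f) (mix B0ᶜ x z)) := by
  simp_rw [D_eq_syn hp0 hp1]
  rw [E_syn_mix hp0 hp1]
  congr 1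
  funext T
  unfold uu
  have hiff : Disjoint T B0ᶜ ↔ T ⊆ B0 := disjoint_compl_right_iff
  by_cases h1 : T ⊆ B0
  · have h1' : Disjoint T B0ᶜ := hiff.mpr h1
    by_cases h2 : a ∈ T <;> simp [h1, h1', h2]
  · have h1' : ¬ Disjoint T B0ᶜ := fun h => h1 (hiff.mp h)
    simp [h1, h1']

theorem E_abs_syn_uu_le {p : ℝ} (hp0 : 0 < p) (hp1 : p < 1) (f : (ι → Bool) → Bool)
    (B0 : Finset ι) (a : ι) :
    E p (fun x => |syn p (uu p f B0 a) x|) ≤ infl p f a := by
  rw [infl_eq, ← E_mix p B0ᶜ (fun x => |D a (ind f) x|)]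
  apply E_mono hp0.le hp1.le
  intro x
  rw [syn_uu hp0 hp1]
  exact abs_E_le hp0.le hp1.le _

theorem sum_uu_sq_le (p : ℝ) (f : (ι → Bool) → Bool)
    (B0 : Finset ι) (a : ι) (ha : a ∈ B0) :
    ∑ T, uu p f B0 a T ^ 2 ≤
      (∑ A ∈ B0.powerset.filter (·.Nonempty), fh p (ind f) A ^ 2) / sg p ^ 2 := by
  have h1 : ∀ T : Finset ι, uu p f B0 a T ^ 2 =
      if T ⊆ B0 ∧ a ∉ T then (fun A => fh p (ind f) A ^ 2 / sg p ^ 2) (insert a T) else 0 := by
    intro T
    unfold uu
    split_ifs
    · simp only [div_pow]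
    · ring
  simp_rw [h1]
  rw [← Finset.sum_filter, Finset.sum_div]
  rw [← Finset.sum_image (f := fun A => fh p (ind f) A ^ 2 / sg p ^ 2) (g := fun T => insert a T)]
  · apply Finset.sum_le_sum_of_subset_of_nonneg
    · intro A hA
      simp only [Finset.mem_image, Finset.mem_filter, Finset.mem_univ, true_and] at hA
      obtain ⟨T, ⟨hT, _⟩, rfl⟩ := hA
      simp only [Finset.mem_filter, Finset.mem_powerset]
      exact ⟨Finset.insert_subset ha hT, Finset.insert_nonempty a T⟩
    · intro A _ _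
      positivity
  · intro T hT T' hT' h
    simp only [Finset.coe_filter, Finset.mem_univ, true_and, Set.mem_ofPred_eq] at hT hT'
    have := congrArg (fun A => A.erase a) h
    simpa [Finset.erase_insert hT.2, Finset.erase_insert hT'.2] using this

theorem uu_mul_vv (p : ℝ) (f : (ι → Bool) → Bool) (B0 : Finset ι) (D : ℕ) (a : ι)
    (T : Finset ι) : uu p f B0 a T * vv p f B0 D a T = vv p f B0 D a T * vv p f B0 D a T := by
  unfold uu vv
  by_cases h : T ⊆ B0 ∧ a ∉ T ∧ T.card + 1 ≤ D
  · rw [if_pos h, if_pos ⟨h.1, h.2.1⟩]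
  · rw [if_neg h, mul_zero, mul_zero]

/-- The heart of the Block Lemma, for one coordinate `a ∈ B0`. -/
theorem block_one (hBon : BonamiHyp ι) {p : ℝ} (hp0 : 0 < p) (hp1 : p < 1)
    (f : (ι → Bool) → Bool) (B0 : Finset ι) (y : ℝ) (hy : 0 < y)
    (hw : y * ∑ A ∈ B0.powerset.filter (·.Nonempty), fh p (ind f) A ^ 2 ≤ 1)
    (D : ℕ) (hD : 1 ≤ D) (a : ι) (ha : a ∈ B0) :
    ∑ T, vv p f B0 D a T ^ 2 ≤ infl p f a * ((2 / sg p) ^ (D - 1) / (sg p * Real.sqrt y)) := by
  set q := ∑ T, vv p f B0 D a T ^ 2 with hq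
  set s := sg p with hs
  have hs0 : 0 < s := sg_pos hp0 hp1
  set N := (2 / s) ^ (D - 1) with hN
  have hN0 : 0 < N := by positivity
  set I := infl p f a with hI
  have hq0 : 0 ≤ q := Finset.sum_nonneg (fun T _ => sq_nonneg _)
  have hEabs0 : 0 ≤ E p (fun x => |syn p (uu p f B0 a) x|) :=
    E_nonneg hp0.le hp1.le (fun x => abs_nonneg _)
  have hI0 : 0 ≤ I := hEabs0.trans (E_abs_syn_uu_le hp0 hp1 f B0 a)
  have hsy : 0 < Real.sqrt y := Real.sqrt_pos.mpr hy
  have hR0 : 0 ≤ I * (N / (s * Real.sqrt y)) := by positivity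
  -- the four expectations
  have e_dh : E p (fun x => syn p (uu p f B0 a) x * syn p (vv p f B0 D a) x) = q := by
    rw [E_syn_mul hp0 hp1, hq]
    exact Finset.sum_congr rfl (fun T _ => by rw [uu_mul_vv]; ring)
  have e_hh : E p (fun x => syn p (vv p f B0 D a) x ^ 2) = q := by
    have : (fun x : ι → Bool => syn p (vv p f B0 D a) x ^ 2) =
        fun x => syn p (vv p f B0 D a) x * syn p (vv p f B0 D a) x := by
      funext x; ring
    rw [this, E_syn_mul hp0 hp1, hq]
    exact Finset.sum_congr rfl (fun T _ => by ring)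
  have e_dd : E p (fun x => syn p (uu p f B0 a) x ^ 2) ≤ 1 / (s ^ 2 * y) := by
    have : (fun x : ι → Bool => syn p (uu p f B0 a) x ^ 2) =
        fun x => syn p (uu p f B0 a) x * syn p (uu p f B0 a) x := by
      funext x; ring
    rw [this, E_syn_mul hp0 hp1]
    have h1 : ∑ T, uu p f B0 a T * uu p f B0 a T = ∑ T, uu p f B0 a T ^ 2 :=
      Finset.sum_congr rfl (fun T _ => by ring)
    rw [h1]
    refine (sum_uu_sq_le p f B0 a ha).trans ?_
    rw [div_le_div_iff₀ (by positivity) (by positivity)]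
    calc (∑ A ∈ B0.powerset.filter (·.Nonempty), fh p (ind f) A ^ 2) * (s ^ 2 * y)
        = s ^ 2 * (y * ∑ A ∈ B0.powerset.filter (·.Nonempty), fh p (ind f) A ^ 2) := by ring
      _ ≤ s ^ 2 * 1 := mul_le_mul_of_nonneg_left hw (by positivity)
      _ = 1 * sg p ^ 2 := by ring
  have e_h4 : E p (fun x => syn p (vv p f B0 D a) x ^ 4) ≤ N ^ 2 * q ^ 2 := by
    have := hBon p hp0 hp1 (D - 1) (vv p f B0 D a) (by
      intro S hS
      unfold vv
      rw [if_neg]
      rintro ⟨_, _, h3⟩
      omega)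
    rw [e_hh] at this
    refine this.trans (le_of_eq ?_)
    rw [hN, ← pow_mul, mul_comm (D - 1) 2]
  have e_dd0 : 0 ≤ E p (fun x => syn p (uu p f B0 a) x ^ 2) :=
    E_nonneg hp0.le hp1.le (fun x => sq_nonneg _)
  have e_h40 : 0 ≤ E p (fun x => syn p (vv p f B0 D a) x ^ 4) :=
    E_nonneg hp0.le hp1.le (fun x => by positivity)
  have key : q ^ 4 ≤ I ^ 2 * (1 / (s ^ 2 * y)) * (N ^ 2 * q ^ 2) := by
    have h := holder244 hp0.le hp1.le (syn p (uu p f B0 a)) (syn p (vv p f B0 D a))
    rw [e_dh] at h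
    refine h.trans ?_
    apply mul_le_mul _ e_h4 e_h40 (by positivity)
    apply mul_le_mul _ e_dd e_dd0 (by positivity)
    exact pow_le_pow_left₀ hEabs0 (E_abs_syn_uu_le hp0 hp1 f B0 a) 2
  rcases hq0.eq_or_lt with h0 | hpos
  · rw [← h0]; exact hR0
  · have h2 : q ^ 2 ≤ (I * (N / (s * Real.sqrt y))) ^ 2 := by
      have hq2 : 0 < q ^ 2 := by positivity
      have e : (I * (N / (s * Real.sqrt y))) ^ 2 = I ^ 2 * (1 / (s ^ 2 * y)) * N ^ 2 := by
        have : Real.sqrt y ^ 2 = y := Real.sq_sqrt hy.le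
        rw [mul_pow, div_pow, mul_pow, this]
        ring
      rw [e]
      have : q ^ 2 * q ^ 2 ≤ (I ^ 2 * (1 / (s ^ 2 * y)) * N ^ 2) * q ^ 2 := by
        calc q ^ 2 * q ^ 2 = q ^ 4 := by ring
          _ ≤ _ := key
          _ = _ := by ring
      exact le_of_mul_le_mul_right this hq2
    exact (pow_le_pow_iff_left₀ hq0 hR0 two_ne_zero).mp h2


theorem sum_vv_sq_one (p : ℝ) (f : (ι → Bool) → Bool) (B0 : Finset ι) (D : ℕ) (a : ι)
    (ha : a ∈ B0) :
    ∑ T, vv p f B0 D a T ^ 2 =
      ∑ A ∈ B0.powerset.filter (fun A => 1 ≤ A.card ∧ A.card ≤ D),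
        if a ∈ A then fh p (ind f) A ^ 2 / sg p ^ 2 else 0 := by
  have h1 : ∀ T : Finset ι, vv p f B0 D a T ^ 2 =
      if T ⊆ B0 ∧ a ∉ T ∧ T.card + 1 ≤ D then fh p (ind f) (insert a T) ^ 2 / sg p ^ 2 else 0 := by
    intro T
    unfold vv
    split_ifs
    · simp only [div_pow]
    · ring
  simp_rw [h1]
  rw [← Finset.sum_filter, ← Finset.sum_filter]
  refine Finset.sum_nbij' (fun T => insert a T) (fun A => A.erase a) ?_ ?_ ?_ ?_ ?_
  · intro T hT
    simp only [Finset.mem_filter, Finset.mem_univ, true_and] at hT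
    simp only [Finset.mem_filter, Finset.mem_powerset]
    refine ⟨⟨Finset.insert_subset ha hT.1, ?_, ?_⟩, Finset.mem_insert_self a T⟩
    · rw [Finset.card_insert_of_notMem hT.2.1]; omega
    · rw [Finset.card_insert_of_notMem hT.2.1]; exact hT.2.2
  · intro A hA
    simp only [Finset.mem_filter, Finset.mem_powerset] at hA
    simp only [Finset.mem_filter, Finset.mem_univ, true_and]
    refine ⟨(Finset.erase_subset a A).trans hA.1.1, Finset.notMem_erase a A, ?_⟩
    rw [Finset.card_erase_of_mem hA.2]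
    omega
  · intro T hT
    simp only [Finset.mem_filter, Finset.mem_univ, true_and] at hT
    exact Finset.erase_insert hT.2.1
  · intro A hA
    simp only [Finset.mem_filter, Finset.mem_powerset] at hA
    exact Finset.insert_erase hA.2
  · intro T _
    rfl

theorem sum_vv_sq (p : ℝ) (f : (ι → Bool) → Bool) (B0 : Finset ι) (D : ℕ) :
    ∑ a ∈ B0, ∑ T, vv p f B0 D a T ^ 2 =
      (∑ A ∈ B0.powerset.filter (fun A => 1 ≤ A.card ∧ A.card ≤ D),
        (A.card : ℝ) * fh p (ind f) A ^ 2) / sg p ^ 2 := by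
  rw [Finset.sum_congr rfl (fun a ha => sum_vv_sq_one p f B0 D a ha), Finset.sum_comm,
    Finset.sum_div]
  apply Finset.sum_congr rfl
  intro A hA
  simp only [Finset.mem_filter, Finset.mem_powerset] at hA
  rw [← Finset.sum_filter, Finset.sum_const, nsmul_eq_mul]
  have : B0.filter (fun a => a ∈ A) = A := by
    ext a
    simp only [Finset.mem_filter]
    exact ⟨fun h => h.2, fun h => ⟨hA.1 h, h⟩⟩
  rw [this]
  ring

/-- **Block Lemma**, weight form: if `y · w(B0) ≤ 1`, where `w(B0)` is the Fourier weight of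
`ind f` on the non-empty subsets of `B0`. -/
theorem block_weight (hBon : BonamiHyp ι) {p : ℝ} (hp0 : 0 < p) (hp1 : p < 1)
    (f : (ι → Bool) → Bool) (B0 : Finset ι) (y : ℝ) (hy : 0 < y)
    (hw : y * ∑ A ∈ B0.powerset.filter (·.Nonempty), fh p (ind f) A ^ 2 ≤ 1)
    (D : ℕ) (hD : 1 ≤ D) :
    ∑ A ∈ B0.powerset.filter (fun A => 1 ≤ A.card ∧ A.card ≤ D),
        (A.card : ℝ) * fh p (ind f) A ^ 2 ≤
      sg p * (2 / sg p) ^ (D - 1) / Real.sqrt y * ∑ a ∈ B0, infl p f a := by
  have hs0 : 0 < sg p := sg_pos hp0 hp1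
  have hsy : 0 < Real.sqrt y := Real.sqrt_pos.mpr hy
  have h1 : ∑ a ∈ B0, ∑ T, vv p f B0 D a T ^ 2 ≤
      ∑ a ∈ B0, infl p f a * ((2 / sg p) ^ (D - 1) / (sg p * Real.sqrt y)) :=
    Finset.sum_le_sum (fun a ha => block_one hBon hp0 hp1 f B0 y hy hw D hD a ha)
  rw [sum_vv_sq, ← Finset.sum_mul, div_le_iff₀ (by positivity)] at h1
  refine h1.trans (le_of_eq ?_)
  field_simp

/-- **Block Lemma**: `B j`, `j : κ`, pairwise disjoint coordinate sets with equal weights. -/
theorem block_lemma (hBon : BonamiHyp ι) {κ : Type*} [Fintype κ] {p : ℝ} (hp0 : 0 < p)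
    (hp1 : p < 1) (f : (ι → Bool) → Bool) (B : κ → Finset ι)
    (hdisj : ∀ j k, j ≠ k → Disjoint (B j) (B k))
    (hw : ∀ j k, ∑ A ∈ (B j).powerset.filter (·.Nonempty), fh p (ind f) A ^ 2 =
      ∑ A ∈ (B k).powerset.filter (·.Nonempty), fh p (ind f) A ^ 2)
    (j0 : κ) (D : ℕ) (hD : 1 ≤ D) :
    ∑ A ∈ (B j0).powerset.filter (fun A => 1 ≤ A.card ∧ A.card ≤ D),
        (A.card : ℝ) * fh p (ind f) A ^ 2 ≤
      sg p * (2 / sg p) ^ (D - 1) / Real.sqrt (Fintype.card κ) * ∑ a ∈ B j0, infl p f a := by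
  classical
  have hy : (0:ℝ) < Fintype.card κ := by
    have : 0 < Fintype.card κ := Fintype.card_pos_iff.mpr ⟨j0⟩
    exact_mod_cast this
  apply block_weight hBon hp0 hp1 f (B j0) _ hy _ D hD
  have h1 : (Fintype.card κ : ℝ) * ∑ A ∈ (B j0).powerset.filter (·.Nonempty), fh p (ind f) A ^ 2
      = ∑ j : κ, ∑ A ∈ (B j).powerset.filter (·.Nonempty), fh p (ind f) A ^ 2 := by
    rw [Finset.sum_congr rfl (fun j _ => hw j j0), Finset.sum_const, nsmul_eq_mul,
      Finset.card_univ]
  rw [h1, ← Finset.sum_biUnion]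
  · refine le_trans ?_ (sum_fh_sq_le_one hp0 hp1 f)
    exact Finset.sum_le_sum_of_subset_of_nonneg (Finset.subset_univ _)
      (fun A _ _ => sq_nonneg _)
  · intro j _ k _ hjk
    simp only [Function.onFun]
    rw [Finset.disjoint_left]
    intro A hA hA'
    simp only [Finset.mem_filter, Finset.mem_powerset] at hA hA'
    obtain ⟨i, hi⟩ := hA.2
    exact (Finset.disjoint_left.mp (hdisj j k hjk) (hA.1 hi)) (hA'.1 hi)


/-- The Bonami hypothesis holds (package G4, `bonami_24`). -/
theorem bonamiHyp : BonamiHyp ι := by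
  intro p hp0 hp1 k c hc
  have h := bonami_24 hp0 hp1 k c hc
  have e : E p (fun x => syn p c x ^ 2) = ∑ S : Finset ι, c S ^ 2 := by
    have : (fun x : ι → Bool => syn p c x ^ 2) = fun x => syn p c x * syn p c x := by
      funext x; ring
    rw [this, E_syn_mul hp0 hp1]
    exact Finset.sum_congr rfl (fun T _ => by ring)
  rw [e]
  exact h

/-- **Block Lemma** (final form 1): hypothesis `y * w(B) ≤ 1`. -/
theorem block_lemma_mul {p : ℝ} (hp0 : 0 < p) (hp1 : p < 1)
    (f : (ι → Bool) → Bool) (B0 : Finset ι) (y : ℝ) (hy : 0 < y)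
    (hw : y * ∑ A ∈ B0.powerset.filter (fun A => A.Nonempty), fh p (ind f) A ^ 2 ≤ 1)
    (D : ℕ) (hD : 1 ≤ D) :
    ∑ A ∈ B0.powerset.filter (fun A => 1 ≤ A.card ∧ A.card ≤ D),
        (A.card : ℝ) * fh p (ind f) A ^ 2 ≤
      sg p * (2 / sg p) ^ (D - 1) / Real.sqrt y * ∑ a ∈ B0, infl p f a :=
  block_weight bonamiHyp hp0 hp1 f B0 y hy hw D hD

/-- **Block Lemma** (final form 2): hypothesis `w(B) ≤ 1 / y`. -/
theorem block_lemma_div {p : ℝ} (hp0 : 0 < p) (hp1 : p < 1)
    (f : (ι → Bool) → Bool) (B0 : Finset ι) (y : ℝ) (hy : 0 < y)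
    (hw : ∑ A ∈ B0.powerset.filter (fun A => A.Nonempty), fh p (ind f) A ^ 2 ≤ 1 / y)
    (D : ℕ) (hD : 1 ≤ D) :
    ∑ A ∈ B0.powerset.filter (fun A => 1 ≤ A.card ∧ A.card ≤ D),
        (A.card : ℝ) * fh p (ind f) A ^ 2 ≤
      sg p * (2 / sg p) ^ (D - 1) / Real.sqrt y * ∑ a ∈ B0, infl p f a := by
  apply block_lemma_mul hp0 hp1 f B0 y hy _ D hD
  rw [le_div_iff₀ hy] at hw
  linarith

/-- **Block Lemma** (final form 3): a family of pairwise disjoint blocks of equal weights. -/
theorem block_lemma_family {κ : Type*} [Fintype κ] {p : ℝ} (hp0 : 0 < p)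
    (hp1 : p < 1) (f : (ι → Bool) → Bool) (B : κ → Finset ι)
    (hdisj : ∀ j k, j ≠ k → Disjoint (B j) (B k))
    (hw : ∀ j k, ∑ A ∈ (B j).powerset.filter (fun A => A.Nonempty), fh p (ind f) A ^ 2 =
      ∑ A ∈ (B k).powerset.filter (fun A => A.Nonempty), fh p (ind f) A ^ 2)
    (j0 : κ) (D : ℕ) (hD : 1 ≤ D) :
    ∑ A ∈ (B j0).powerset.filter (fun A => 1 ≤ A.card ∧ A.card ≤ D),
        (A.card : ℝ) * fh p (ind f) A ^ 2 ≤
      sg p * (2 / sg p) ^ (D - 1) / Real.sqrt (Fintype.card κ) * ∑ a ∈ B j0, infl p f a :=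
  block_lemma bonamiHyp hp0 hp1 f B hdisj hw j0 D hD

end Blk
end Crest.Agent.BK
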