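import Mathlib
import Crest.Prelude.Def_FinProb
import Crest.Prelude.Def_HypergraphCube

/-!
# ROW56 (S0077 + S0078): basic definitions

p-biased analysis on the finite cube `ι → Bool` with the explicit weights
`Crest.FinProb.bernoulliWeight p`.  All later files of the row import this one.
-/

namespace Crest.Agent.BK

open Crest.FinProb

variable {ι : Type*} [Fintype ι] [DecidableEq ι]

/-- Expectation of `F` under independent coins of bias `p`. -/
noncomputable def E (p : ℝ) (F : (ι → Bool) → ℝ) : ℝ :=
  ∑ x : ι → Bool, bernoulliWeight p x * F x

/-- The standard deviation of one coin. -/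
noncomputable def sg (p : ℝ) : ℝ := Real.sqrt (p * (1 - p))

/-- The normalised one-coordinate character `(b - p)/σ`. -/
noncomputable def chi1 (p : ℝ) (b : Bool) : ℝ := if b then (1 - p) / sg p else -(p / sg p)

/-- The p-biased Walsh character of the coordinate set `S`. -/
noncomputable def chi (p : ℝ) (S : Finset ι) (x : ι → Bool) : ℝ := ∏ i ∈ S, chi1 p (x i)

/-- The p-biased Fourier-Walsh coefficient. -/
noncomputable def fh (p : ℝ) (F : (ι → Bool) → ℝ) (S : Finset ι) : ℝ :=
  E p (fun x => F x * chi p S x)

/-- Discrete derivative in the coordinate `a`. -/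
def D (a : ι) (F : (ι → Bool) → ℝ) (x : ι → Bool) : ℝ :=
  F (Function.update x a true) - F (Function.update x a false)

/-- `mix J x z` takes the coordinates in `J` from `z` and the others from `x`. -/
def mix (J : Finset ι) (x z : ι → Bool) : ι → Bool := fun i => if i ∈ J then z i else x i

/-- 0/1 indicator of a Boolean function. -/
def ind (f : (ι → Bool) → Bool) (x : ι → Bool) : ℝ := if f x then 1 else 0

/-- Pivotal influence of the coordinate `a` on the Boolean function `f`. -/
noncomputable def infl (p : ℝ) (f : (ι → Bool) → Bool) (a : ι) : ℝ :=
  bernoulliProb p {x | f (Function.update x a true) ≠ f (Function.update x a false)}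

/-- Total influence. -/
noncomputable def totInfl (p : ℝ) (f : (ι → Bool) → Bool) : ℝ := ∑ a, infl p f a

/-- Probability that `f` is true. -/
noncomputable def prT (p : ℝ) (f : (ι → Bool) → Bool) : ℝ := bernoulliProb p {x | f x = true}

/-- Restriction: the coordinates outside `H` are frozen to those of `x`. -/
def restr (H : Finset ι) (f : (ι → Bool) → Bool) (x : ι → Bool) : (ι → Bool) → Bool :=
  fun z => f (mix H x z)

end Crest.Agent.BK
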