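import Mathlib
import Crest.Agent.S0078_Defs

/-!
# ROW56: the averaged block lemma (abstract coordinates)

Self-contained on `S0078_Defs`.  The Block lemma enters as an explicit hypothesis `hBlock`.
-/

namespace Crest.Agent.BK
namespace AvgBlock

open Crest.FinProb

set_option linter.unusedSectionVars false

variable {ι : Type*} [Fintype ι] [DecidableEq ι]

lemma w_nonneg {p : ℝ} (hp0 : 0 ≤ p) (hp1 : p ≤ 1) (x : ι → Bool) :
    0 ≤ bernoulliWeight p x := by
  unfold bernoulliWeight
  apply Finset.prod_nonneg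
  intro i _
  split_ifs <;> linarith

/-- Expectation of a product of one-coordinate functions. -/
lemma E_prod (p : ℝ) (g : ι → Bool → ℝ) :
    E p (fun x => ∏ i, g i (x i)) = ∏ i, (p * g i true + (1 - p) * g i false) := by
  unfold E bernoulliWeight
  simp_rw [← Finset.prod_mul_distrib]
  have := (Finset.prod_univ_sum (fun _ : ι => (Finset.univ : Finset Bool))
    (fun i b => (if b then p else 1 - p) * g i b))
  rw [Fintype.piFinset_univ] at this
  rw [← this]
  simp

lemma w_sum (p : ℝ) : ∑ x : ι → Bool, bernoulliWeight p x = 1 := by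
  have := E_prod (ι := ι) p (fun _ _ => 1)
  simpa [E] using this

lemma E_add (p : ℝ) (F G : (ι → Bool) → ℝ) :
    E p (fun x => F x + G x) = E p F + E p G := by
  simp [E, mul_add, Finset.sum_add_distrib]

lemma E_sub (p : ℝ) (F G : (ι → Bool) → ℝ) :
    E p (fun x => F x - G x) = E p F - E p G := by
  simp [E, mul_sub, Finset.sum_sub_distrib]

lemma E_const_mul (p c : ℝ) (F : (ι → Bool) → ℝ) :
    E p (fun x => c * F x) = c * E p F := by
  simp only [E, Finset.mul_sum]
  apply Finset.sum_congr rfl
  intro x _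
  ring

lemma E_sum {κ : Type*} (p : ℝ) (s : Finset κ) (F : κ → (ι → Bool) → ℝ) :
    E p (fun x => ∑ k ∈ s, F k x) = ∑ k ∈ s, E p (F k) := by
  simp only [E, Finset.mul_sum]
  rw [Finset.sum_comm]

lemma E_mono {p : ℝ} (hp0 : 0 ≤ p) (hp1 : p ≤ 1) {F G : (ι → Bool) → ℝ} (h : ∀ x, F x ≤ G x) :
    E p F ≤ E p G := by
  unfold E
  apply Finset.sum_le_sum
  intro x _
  exact mul_le_mul_of_nonneg_left (h x) (w_nonneg hp0 hp1 x)

lemma E_nonneg {p : ℝ} (hp0 : 0 ≤ p) (hp1 : p ≤ 1) {F : (ι → Bool) → ℝ} (h : ∀ x, 0 ≤ F x) :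
    0 ≤ E p F := by
  unfold E
  apply Finset.sum_nonneg
  intro x _
  exact mul_nonneg (w_nonneg hp0 hp1 x) (h x)

lemma w_mix (p : ℝ) (J : Finset ι) (x z : ι → Bool) :
    bernoulliWeight p (mix J x z) * bernoulliWeight p (mix J z x)
      = bernoulliWeight p x * bernoulliWeight p z := by
  unfold bernoulliWeight mix
  rw [← Finset.prod_mul_distrib, ← Finset.prod_mul_distrib]
  apply Finset.prod_congr rfl
  intro i _
  by_cases h : i ∈ J <;> simp [h, mul_comm]

lemma mix_mix (J : Finset ι) (x z : ι → Bool) : mix J (mix J x z) (mix J z x) = x := by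
  funext i
  by_cases h : i ∈ J <;> simp [mix, h]

/-- The mix lemma. -/
lemma E_mix (p : ℝ) (J : Finset ι) (F : (ι → Bool) → ℝ) :
    E p (fun x => E p (fun z => F (mix J x z))) = E p F := by
  let φ : (ι → Bool) × (ι → Bool) → (ι → Bool) × (ι → Bool) :=
    fun q => (mix J q.1 q.2, mix J q.2 q.1)
  have hφ : Function.Involutive φ := by
    intro q
    simp only [φ, mix_mix]
  have h1 : E p F = ∑ q : (ι → Bool) × (ι → Bool),
      bernoulliWeight p q.1 * bernoulliWeight p q.2 * F q.1 := by
    rw [Fintype.sum_prod_type]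
    unfold E
    apply Finset.sum_congr rfl
    intro x _
    have : ∑ y : ι → Bool, bernoulliWeight p x * bernoulliWeight p y * F x
        = bernoulliWeight p x * F x * ∑ y : ι → Bool, bernoulliWeight p y := by
      rw [Finset.mul_sum]
      apply Finset.sum_congr rfl
      intro y _
      ring
    rw [this, w_sum, mul_one]
  rw [h1, ← Equiv.sum_comp (Function.Involutive.toPerm φ hφ), Fintype.sum_prod_type]
  unfold E
  apply Finset.sum_congr rfl
  intro x _
  rw [Finset.mul_sum]
  apply Finset.sum_congr rfl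
  intro z _
  simp only [Function.Involutive.coe_toPerm, φ]
  rw [w_mix]
  ring


lemma sg_pos {p : ℝ} (hp0 : 0 < p) (hp1 : p < 1) : 0 < sg p := by
  unfold sg
  apply Real.sqrt_pos.mpr
  apply mul_pos hp0
  linarith

lemma sg_sq {p : ℝ} (hp0 : 0 < p) (hp1 : p < 1) : sg p ^ 2 = p * (1 - p) := by
  unfold sg
  apply Real.sq_sqrt
  apply mul_nonneg hp0.le
  linarith

lemma chi1_mean (p : ℝ) :
    p * chi1 p true + (1 - p) * chi1 p false = 0 := by
  simp only [chi1, if_true, Bool.false_eq_true, if_false]
  ring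

lemma chi1_sq {p : ℝ} (hp0 : 0 < p) (hp1 : p < 1) :
    p * (chi1 p true * chi1 p true) + (1 - p) * (chi1 p false * chi1 p false) = 1 := by
  have hs := sg_pos hp0 hp1
  have hs2 := sg_sq hp0 hp1
  simp only [chi1, if_true, Bool.false_eq_true, if_false]
  field_simp
  rw [hs2]
  ring

lemma chi_eq_prod_univ (p : ℝ) (S : Finset ι) (x : ι → Bool) :
    chi p S x = ∏ i, (if i ∈ S then chi1 p (x i) else 1) := by
  unfold chi
  rw [Finset.prod_ite_mem, Finset.univ_inter]

/-- Orthonormality of the characters. -/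
lemma E_chi_mul {p : ℝ} (hp0 : 0 < p) (hp1 : p < 1) (S T : Finset ι) :
    E p (fun x => chi p S x * chi p T x) = if S = T then 1 else 0 := by
  have h : E p (fun x => chi p S x * chi p T x) = ∏ i,
      (p * ((if i ∈ S then chi1 p true else 1) * (if i ∈ T then chi1 p true else 1))
        + (1 - p) * ((if i ∈ S then chi1 p false else 1) * (if i ∈ T then chi1 p false else 1))) := by
    rw [← E_prod p (fun (i : ι) (b : Bool) =>
      (if i ∈ S then chi1 p b else 1) * (if i ∈ T then chi1 p b else 1))]
    congr 1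
    funext x
    rw [chi_eq_prod_univ, chi_eq_prod_univ, ← Finset.prod_mul_distrib]
  rw [h]
  split_ifs with hST
  · subst hST
    apply Finset.prod_eq_one
    intro i _
    by_cases hi : i ∈ S
    · simp only [hi, if_true]
      exact chi1_sq hp0 hp1
    · simp only [hi, if_false]
      ring
  · have : ∃ i, ¬ (i ∈ S ↔ i ∈ T) := by
      by_contra hcon
      push Not at hcon
      exact hST (Finset.ext hcon)
    obtain ⟨i, hi⟩ := this
    apply Finset.prod_eq_zero (Finset.mem_univ i)
    by_cases h1 : i ∈ S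
    · have h2 : i ∉ T := fun h2 => hi ⟨fun _ => h2, fun _ => h1⟩
      simp only [h1, h2, if_true, if_false, mul_one]
      exact chi1_mean p
    · have h2 : i ∈ T := by
        by_contra h2
        exact hi ⟨fun h => absurd h h1, fun h => absurd h h2⟩
      simp only [h1, h2, if_true, if_false, one_mul]
      exact chi1_mean p

/-- Bessel's inequality. -/
lemma bessel {p : ℝ} (hp0 : 0 < p) (hp1 : p < 1) (G : (ι → Bool) → ℝ)
    (fam : Finset (Finset ι)) :
    ∑ S ∈ fam, fh p G S ^ 2 ≤ E p (fun x => G x ^ 2) := by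
  have h0 : 0 ≤ E p (fun x => (G x - ∑ S ∈ fam, fh p G S * chi p S x) ^ 2) :=
    E_nonneg hp0.le hp1.le (fun x => sq_nonneg _)
  have h1 : (fun x => (G x - ∑ S ∈ fam, fh p G S * chi p S x) ^ 2)
      = fun x => (G x ^ 2 - 2 * ∑ S ∈ fam, fh p G S * (G x * chi p S x))
        + ∑ S ∈ fam, ∑ T ∈ fam, (fh p G S * fh p G T) * (chi p S x * chi p T x) := by
    funext x
    have e1 : ∑ S ∈ fam, fh p G S * (G x * chi p S x)
        = G x * ∑ S ∈ fam, fh p G S * chi p S x := by
      rw [Finset.mul_sum]
      apply Finset.sum_congr rfl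
      intro S _
      ring
    have e2 : ∑ S ∈ fam, ∑ T ∈ fam, (fh p G S * fh p G T) * (chi p S x * chi p T x)
        = (∑ S ∈ fam, fh p G S * chi p S x) * (∑ S ∈ fam, fh p G S * chi p S x) := by
      rw [Finset.sum_mul_sum]
      apply Finset.sum_congr rfl
      intro S _
      apply Finset.sum_congr rfl
      intro T _
      ring
    rw [e1, e2]
    ring
  rw [h1, E_add, E_sub, E_const_mul, E_sum, E_sum] at h0
  have h2 : ∑ S ∈ fam, E p (fun x => fh p G S * (G x * chi p S x)) = ∑ S ∈ fam, fh p G S ^ 2 := by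
    apply Finset.sum_congr rfl
    intro S _
    rw [E_const_mul]
    unfold fh
    ring
  have h3 : ∑ S ∈ fam, E p (fun x => ∑ T ∈ fam, (fh p G S * fh p G T) * (chi p S x * chi p T x))
      = ∑ S ∈ fam, fh p G S ^ 2 := by
    apply Finset.sum_congr rfl
    intro S hS
    rw [E_sum]
    simp_rw [E_const_mul, E_chi_mul hp0 hp1]
    rw [Finset.sum_eq_single S]
    · simp
      ring
    · intro T _ hT
      simp [Ne.symm hT]
    · intro h
      exact absurd hS h
  rw [h2, h3] at h0
  linarith

lemma chi_mix_in (p : ℝ) {A H : Finset ι} (hA : A ⊆ H) (x z : ι → Bool) :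
    chi p A (mix H x z) = chi p A z := by
  unfold chi
  apply Finset.prod_congr rfl
  intro i hi
  simp [mix, hA hi]

lemma chi_mix_out (p : ℝ) {S0 H : Finset ι} (hS : Disjoint S0 H) (x z : ι → Bool) :
    chi p S0 (mix H x z) = chi p S0 x := by
  unfold chi
  apply Finset.prod_congr rfl
  intro i hi
  simp [mix, Finset.disjoint_left.mp hS hi]

lemma chi_split (p : ℝ) (S H : Finset ι) (x : ι → Bool) :
    chi p S x = chi p (S ∩ H) x * chi p (S \ H) x := by
  unfold chi
  rw [← Finset.prod_union (Finset.disjoint_sdiff_inter S H).symm]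
  rw [Finset.union_comm, Finset.sdiff_union_inter]

/-- The Walsh coefficients of the restricted coefficient function. -/
lemma fh_restr (p : ℝ) (F : (ι → Bool) → ℝ) (H S : Finset ι) :
    fh p (fun w => fh p (fun z => F (mix H w z)) (S ∩ H)) (S \ H) = fh p F S := by
  unfold fh
  rw [← E_mix p H (fun x => F x * chi p S x)]
  congr 1
  funext w
  rw [mul_comm, ← E_const_mul]
  congr 1
  funext z
  rw [chi_split p S H (mix H w z), chi_mix_in p Finset.inter_subset_right,
    chi_mix_out p Finset.sdiff_disjoint]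
  ring

/-- Bessel in the frozen coordinates. -/
lemma sum_fiber_le {p : ℝ} (hp0 : 0 < p) (hp1 : p < 1) (F : (ι → Bool) → ℝ) (H A : Finset ι) :
    ∑ S ∈ Finset.univ.filter (fun S : Finset ι => S ∩ H = A), fh p F S ^ 2
      ≤ E p (fun w => fh p (fun z => F (mix H w z)) A ^ 2) := by
  have hinj : Set.InjOn (fun S : Finset ι => S \ H)
      (Finset.univ.filter (fun S : Finset ι => S ∩ H = A) : Finset (Finset ι)) := by
    intro S hS T hT hST
    simp only [Finset.coe_filter, Finset.mem_univ, true_and, Set.mem_ofPred_eq] at hS hT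
    have hST' : S \ H = T \ H := hST
    rw [← Finset.sdiff_union_inter S H, ← Finset.sdiff_union_inter T H, hS, hT, hST']
  have h1 : ∑ S ∈ Finset.univ.filter (fun S : Finset ι => S ∩ H = A), fh p F S ^ 2
      = ∑ S0 ∈ (Finset.univ.filter (fun S : Finset ι => S ∩ H = A)).image (fun S => S \ H),
          fh p (fun w => fh p (fun z => F (mix H w z)) A) S0 ^ 2 := by
    rw [Finset.sum_image hinj]
    apply Finset.sum_congr rfl
    intro S hS
    simp only [Finset.mem_filter, Finset.mem_univ, true_and] at hS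
    rw [← hS, fh_restr]
  rw [h1]
  exact bessel hp0 hp1 _ _

lemma prob_eq_E (p : ℝ) (Ev : Set (ι → Bool)) :
    bernoulliProb p Ev = E p (Ev.indicator 1) := by
  classical
  unfold bernoulliProb E
  rw [Finset.sum_filter]
  apply Finset.sum_congr rfl
  intro x _
  by_cases hx : x ∈ Ev <;> simp [hx]

lemma mix_update {H : Finset ι} {a : ι} (ha : a ∈ H) (w z : ι → Bool) (b : Bool) :
    mix H w (Function.update z a b) = Function.update (mix H w z) a b := by
  funext i
  by_cases hi : i = a
  · subst hi
    simp [mix, ha]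
  · simp [mix, Function.update_of_ne hi]

/-- Averaging the influence of a free coordinate over the frozen ones. -/
lemma E_infl_restr (p : ℝ) (f : (ι → Bool) → Bool) {H : Finset ι} {a : ι} (ha : a ∈ H) :
    E p (fun w => infl p (restr H f w) a) = infl p f a := by
  unfold infl
  rw [prob_eq_E p {x | f (Function.update x a true) ≠ f (Function.update x a false)},
    ← E_mix p H (Set.indicator {x | f (Function.update x a true) ≠ f (Function.update x a false)} 1)]
  congr 1
  funext w
  rw [prob_eq_E]
  congr 1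
  funext z
  simp only [Set.indicator_apply, Set.mem_ofPred_eq, restr, mix_update ha, Pi.one_apply]

/-- **Averaged block lemma, core form**: if the conclusion of the Block lemma holds for every
restriction `restr H f x`, it holds in averaged form for `f`. -/
theorem avg_block_core {p : ℝ} (hp0 : 0 < p) (hp1 : p < 1) (f : (ι → Bool) → Bool)
    (H B : Finset ι) (hBH : B ⊆ H) (Dg : ℕ) (K : ℝ)
    (hBlock : ∀ x, ∑ A ∈ B.powerset.filter (fun A => 1 ≤ A.card ∧ A.card ≤ Dg),
        (A.card : ℝ) * fh p (ind (restr H f x)) A ^ 2 ≤ K * ∑ a ∈ B, infl p (restr H f x) a) :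
    ∑ S ∈ Finset.univ.filter (fun S : Finset ι =>
        S ∩ H ⊆ B ∧ 1 ≤ (S ∩ H).card ∧ (S ∩ H).card ≤ Dg), fh p (ind f) S ^ 2
      ≤ K * ∑ a ∈ B, infl p f a := by
  have hmaps : ∀ S ∈ Finset.univ.filter (fun S : Finset ι =>
        S ∩ H ⊆ B ∧ 1 ≤ (S ∩ H).card ∧ (S ∩ H).card ≤ Dg),
      S ∩ H ∈ B.powerset.filter (fun A => 1 ≤ A.card ∧ A.card ≤ Dg) := by
    intro S hS
    simp only [Finset.mem_filter, Finset.mem_univ, true_and] at hS
    simp only [Finset.mem_filter, Finset.mem_powerset]
    exact hS
  rw [← Finset.sum_fiberwise_of_maps_to hmaps]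
  calc _ ≤ ∑ A ∈ B.powerset.filter (fun A => 1 ≤ A.card ∧ A.card ≤ Dg),
        E p (fun w => (A.card : ℝ) * fh p (ind (restr H f w)) A ^ 2) := by
        apply Finset.sum_le_sum
        intro A hA
        simp only [Finset.mem_filter, Finset.mem_powerset] at hA
        calc _ ≤ ∑ S ∈ Finset.univ.filter (fun S : Finset ι => S ∩ H = A), fh p (ind f) S ^ 2 := by
              apply Finset.sum_le_sum_of_subset_of_nonneg
              · intro S hS
                simp only [Finset.mem_filter, Finset.mem_univ, true_and] at hS ⊢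
                exact hS.2
              · intro S _ _
                exact sq_nonneg _
          _ ≤ E p (fun w => fh p (fun z => ind f (mix H w z)) A ^ 2) :=
              sum_fiber_le hp0 hp1 (ind f) H A
          _ ≤ _ := by
              apply E_mono hp0.le hp1.le
              intro w
              have h1 : (1 : ℝ) ≤ (A.card : ℝ) := by exact_mod_cast hA.2.1
              have h2 : fh p (fun z => ind f (mix H w z)) A = fh p (ind (restr H f w)) A := rfl
              rw [h2]
              nlinarith [sq_nonneg (fh p (ind (restr H f w)) A)]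
    _ = E p (fun w => ∑ A ∈ B.powerset.filter (fun A => 1 ≤ A.card ∧ A.card ≤ Dg),
          (A.card : ℝ) * fh p (ind (restr H f w)) A ^ 2) := (E_sum p _ _).symm
    _ ≤ E p (fun w => K * ∑ a ∈ B, infl p (restr H f w) a) := E_mono hp0.le hp1.le hBlock
    _ = K * ∑ a ∈ B, infl p f a := by
        rw [E_const_mul, E_sum]
        congr 1
        apply Finset.sum_congr rfl
        intro a ha
        exact E_infl_restr p f (hBH ha)

end AvgBlock
end Crest.Agent.BK
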