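import Mathlib

/-!
# ROW56 (S0077 + S0078): the combinatorial step between Lemma A and the total bound

Abstract setting: `V` vertices, `ι` slots, `vs : ι → Finset V` the (injective) vertex set of a slot,
all of cardinality `r`.
-/

set_option linter.unusedSectionVars false

namespace Crest.Agent.BK

open Finset

variable {V ι : Type*} [Fintype V] [DecidableEq V] [Fintype ι] [DecidableEq ι]

/-- The vertex support of a set of slots. -/
def vsup (vs : ι → Finset V) (S : Finset ι) : Finset V := S.biUnion vs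

/-- The degree of the vertex `u` in the set of slots `S`. -/
def vdeg (vs : ι → Finset V) (S : Finset ι) (u : V) : ℕ := (S.filter (fun e => u ∈ vs e)).card

/-- The sets of slots that meet `Y` exactly in the vertex `v`, which has degree at most `D`. -/
def Scal (vs : ι → Finset V) (Y : Finset V) (v : V) (D : ℕ) : Finset (Finset ι) :=
  Finset.univ.filter (fun S => vsup vs S ∩ Y = {v} ∧ vdeg vs S v ≤ D)

namespace Comb

omit [Fintype V] [Fintype ι] in
theorem sum_vdeg (vs : ι → Finset V) (S : Finset ι) :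
    ∑ u ∈ vsup vs S, vdeg vs S u = ∑ e ∈ S, (vs e).card := by
  have h := Finset.sum_card_bipartiteAbove_eq_sum_card_bipartiteBelow
    (s := S) (t := vsup vs S) (r := fun e u => u ∈ vs e)
  rw [← show (∑ b ∈ vsup vs S, ((S.bipartiteBelow (fun e u => u ∈ vs e) b).card))
      = ∑ u ∈ vsup vs S, vdeg vs S u from rfl, ← h]
  refine Finset.sum_congr rfl fun e he => ?_
  congr 1
  ext u
  simp only [Finset.bipartiteAbove, Finset.mem_filter, vsup, Finset.mem_biUnion]
  constructor
  · exact fun h => h.2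
  · exact fun h => ⟨⟨e, he, h⟩, h⟩

omit [Fintype V] [Fintype ι] in
theorem card_vsup_le (vs : ι → Finset V) (r : ℕ) (hcard : ∀ e, (vs e).card = r) (S : Finset ι) :
    (vsup vs S).card ≤ r * S.card := by
  calc (vsup vs S).card ≤ ∑ e ∈ S, (vs e).card := Finset.card_biUnion_le
    _ = r * S.card := by simp [hcard, mul_comm]

omit [Fintype V] [Fintype ι] in
theorem vdeg_pos (vs : ι → Finset V) (S : Finset ι) (u : V) (hu : u ∈ vsup vs S) :
    1 ≤ vdeg vs S u := by
  obtain ⟨e, he, hue⟩ := Finset.mem_biUnion.1 hu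
  exact Finset.card_pos.2 ⟨e, Finset.mem_filter.2 ⟨he, hue⟩⟩

omit [Fintype V] [Fintype ι] in
theorem vdeg_le_pow (vs : ι → Finset V) (hinj : Function.Injective vs) (r : ℕ)
    (hcard : ∀ e, (vs e).card = r) (S : Finset ι) (u : V) :
    vdeg vs S u ≤ (vsup vs S).card ^ (r - 1) := by
  have h1 : vdeg vs S u ≤ (Finset.powersetCard (r - 1) ((vsup vs S).erase u)).card := by
    refine Finset.card_le_card_of_injOn (fun e => (vs e).erase u) ?_ ?_
    · intro e he
      have he' := Finset.mem_filter.1 he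
      refine Finset.mem_coe.2 (Finset.mem_powersetCard.2 ⟨?_, ?_⟩)
      · exact Finset.erase_subset_erase _ (Finset.subset_biUnion_of_mem vs he'.1)
      · rw [Finset.card_erase_of_mem he'.2, hcard]
    · intro e he e' he' hee
      have h1 := (Finset.mem_filter.1 (Finset.mem_coe.1 he)).2
      have h2 := (Finset.mem_filter.1 (Finset.mem_coe.1 he')).2
      apply hinj
      have hee' : (vs e).erase u = (vs e').erase u := hee
      rw [← Finset.insert_erase h1, ← Finset.insert_erase h2, hee']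
  refine h1.trans ?_
  rw [Finset.card_powersetCard]
  refine (Nat.choose_le_pow _ _).trans ?_
  exact Nat.pow_le_pow_left (Finset.card_erase_le) _

omit [Fintype V] [Fintype ι] in
/-- If all degrees are at least `D'`, the set of slots is big. -/
theorem big_of_min_deg (vs : ι → Finset V) (hinj : Function.Injective vs) (r : ℕ) (hr : 1 ≤ r)
    (hcard : ∀ e, (vs e).card = r) (S : Finset ι) (hS : S.Nonempty) (D' : ℕ)
    (hdeg : ∀ u ∈ vsup vs S, D' ≤ vdeg vs S u) :
    D' ^ r ≤ (r * S.card) ^ (r - 1) := by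
  set v := (vsup vs S).card with hv
  have h1 : v * D' ≤ r * S.card := by
    calc v * D' = ∑ _u ∈ vsup vs S, D' := by simp [hv]
      _ ≤ ∑ u ∈ vsup vs S, vdeg vs S u := Finset.sum_le_sum hdeg
      _ = ∑ e ∈ S, (vs e).card := sum_vdeg vs S
      _ = r * S.card := by simp [hcard, mul_comm]
  have h2 : D' ≤ v ^ (r - 1) := by
    obtain ⟨e, he⟩ := hS
    have : (vs e).Nonempty := by
      rw [← Finset.card_pos, hcard]; omega
    obtain ⟨u, hu⟩ := this
    have hu' : u ∈ vsup vs S := Finset.mem_biUnion.2 ⟨e, he, hu⟩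
    exact (hdeg u hu').trans (vdeg_le_pow vs hinj r hcard S u)
  calc D' ^ r = D' * D' ^ (r - 1) := by
        rw [← pow_succ']; congr 1; omega
    _ ≤ v ^ (r - 1) * D' ^ (r - 1) := Nat.mul_le_mul_right _ h2
    _ = (v * D') ^ (r - 1) := (mul_pow _ _ _).symm
    _ ≤ (r * S.card) ^ (r - 1) := Nat.pow_le_pow_left h1 _

/-- A set of slots that is not big has few vertices. -/
theorem small_lt_sq (r : ℕ) (hr : 2 ≤ r) (m D' : ℕ) (hD : 1 ≤ D')
    (h : m ^ (r - 1) < D' ^ r) : m < D' ^ 2 := by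
  by_contra hcon
  have hcon := not_lt.1 hcon
  have h1 : D' ^ r ≤ (D' ^ 2) ^ (r - 1) := by
    rw [← pow_mul]
    exact Nat.pow_le_pow_right hD (by omega)
  have h2 : (D' ^ 2) ^ (r - 1) ≤ m ^ (r - 1) := Nat.pow_le_pow_left hcon _
  omega

/-- The weight of the random vertex set `Y` (every vertex independently with probability `θ`). -/
noncomputable def wY (θ : ℝ) (Y : Finset V) : ℝ :=
  (∏ _i ∈ Y, θ) * ∏ _i ∈ Finset.univ \ Y, (1 - θ)

theorem wY_nonneg (θ : ℝ) (h0 : 0 ≤ θ) (h1 : θ ≤ 1) (Y : Finset V) : 0 ≤ wY θ Y :=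
  mul_nonneg (Finset.prod_nonneg fun _ _ => h0) (Finset.prod_nonneg fun _ _ => by linarith)

theorem sum_wY (θ : ℝ) : ∑ Y : Finset V, wY θ Y = 1 := by
  have h := Finset.prod_add (fun _ : V => θ) (fun _ => 1 - θ) Finset.univ
  rw [Finset.powerset_univ] at h
  unfold wY
  rw [← h]
  simp

theorem sum_wY_hit (θ : ℝ) (U : Finset V) (u : V) (hu : u ∈ U) :
    ∑ Y : Finset V, wY θ Y * (if U ∩ Y = {u} then 1 else 0) = θ * (1 - θ) ^ (U.card - 1) := by
  have h := Finset.prod_add (fun i : V => if i ∈ U ∧ i ≠ u then 0 else θ)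
    (fun i => if i = u then 0 else 1 - θ) Finset.univ
  rw [Finset.powerset_univ] at h
  have h2 : ∏ i : V, ((if i ∈ U ∧ i ≠ u then 0 else θ) + (if i = u then 0 else 1 - θ))
      = θ * (1 - θ) ^ (U.card - 1) := by
    have : ∀ i : V, ((if i ∈ U ∧ i ≠ u then 0 else θ) + (if i = u then 0 else 1 - θ))
        = (if i = u then θ else 1) * (if i ∈ U.erase u then (1 - θ) else 1) := by
      intro i
      by_cases h1 : i = u
      · subst h1; simp
      · by_cases h2 : i ∈ U
        · simp [h1, h2]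
        · simp [h1, h2]
    simp_rw [this]
    rw [Finset.prod_mul_distrib, Finset.prod_ite_eq' Finset.univ u (fun _ => θ)]
    rw [Finset.prod_ite_mem, Finset.univ_inter, Finset.prod_const, Finset.card_erase_of_mem hu]
    simp
  rw [← h2, h]
  refine Finset.sum_congr rfl fun Y _ => ?_
  by_cases hY : U ∩ Y = {u}
  · rw [if_pos hY, mul_one]
    unfold wY
    have huY : u ∈ Y := by
      have : u ∈ U ∩ Y := by rw [hY]; exact Finset.mem_singleton_self u
      exact (Finset.mem_inter.1 this).2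
    congr 1
    · refine Finset.prod_congr rfl fun i hi => ?_
      rw [if_neg]
      rintro ⟨h1, h2⟩
      have : i ∈ U ∩ Y := Finset.mem_inter.2 ⟨h1, hi⟩
      rw [hY] at this
      exact h2 (Finset.mem_singleton.1 this)
    · refine Finset.prod_congr rfl fun i hi => ?_
      rw [if_neg]
      rintro rfl
      exact (Finset.mem_sdiff.1 hi).2 huY
  · rw [if_neg hY, mul_zero]
    symm
    by_cases huY : u ∈ Y
    · have : ∃ i ∈ U ∩ Y, i ≠ u := by
        by_contra hcon
        apply hY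
        ext i
        constructor
        · intro hi
          by_contra h3
          exact hcon ⟨i, hi, fun h4 => h3 (Finset.mem_singleton.2 h4)⟩
        · intro hi
          rw [Finset.mem_singleton.1 hi]
          exact Finset.mem_inter.2 ⟨hu, huY⟩
      obtain ⟨i, hi, hiu⟩ := this
      have hi' := Finset.mem_inter.1 hi
      rw [Finset.prod_eq_zero hi'.2 (by rw [if_pos ⟨hi'.1, hiu⟩]), zero_mul]
    · rw [Finset.prod_eq_zero (i := u) (Finset.mem_sdiff.2 ⟨Finset.mem_univ _, huY⟩)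
        (by rw [if_pos rfl]), mul_zero]

/-- `(1 - 1/M)^(m-1) / M ≥ 1/(4M)` for `m ≤ M`. -/
theorem hit_lower (M : ℕ) (hM : 2 ≤ M) (m : ℕ) (hm : m ≤ M) :
    1 / (4 * (M : ℝ)) ≤ (1 / (M : ℝ)) * (1 - 1 / (M : ℝ)) ^ (m - 1) := by
  have hM0 : (0 : ℝ) < M := by positivity
  have hM1 : (1 : ℝ) < M := by exact_mod_cast (by omega : 1 < M)
  set t : ℝ := 1 - 1 / (M : ℝ) with ht
  have ht0 : 0 < t := by
    rw [ht, sub_pos, div_lt_one hM0]; exact hM1
  have ht1 : t ≤ 1 := by
    rw [ht]; have : 0 < 1 / (M : ℝ) := by positivity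
    linarith
  have h1 : t ^ (M - 1) ≤ t ^ (m - 1) := pow_le_pow_of_le_one ht0.le ht1 (by omega)
  -- `t⁻¹ = 1 + 1/(M-1) ≤ exp (1/(M-1))`
  have h2 : t⁻¹ ≤ Real.exp (1 / ((M : ℝ) - 1)) := by
    have hM2 : (M : ℝ) - 1 ≠ 0 := by linarith
    have : t⁻¹ = 1 / ((M : ℝ) - 1) + 1 := by
      have h5 : t = ((M : ℝ) - 1) / M := by rw [ht]; field_simp
      rw [h5, inv_div]; field_simp; ring
    rw [this]
    exact Real.add_one_le_exp _
  have h3 : (t⁻¹) ^ (M - 1) ≤ Real.exp 1 := by
    calc (t⁻¹) ^ (M - 1) ≤ (Real.exp (1 / ((M : ℝ) - 1))) ^ (M - 1) :=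
          pow_le_pow_left₀ (inv_nonneg.2 ht0.le) h2 _
      _ = Real.exp (((M - 1 : ℕ) : ℝ) * (1 / ((M : ℝ) - 1))) := (Real.exp_nat_mul _ _).symm
      _ = Real.exp 1 := by
          congr 1
          have hM2 : (M : ℝ) - 1 ≠ 0 := by linarith
          rw [Nat.cast_sub (by omega : 1 ≤ M), Nat.cast_one]
          field_simp
  have h4 : (1 : ℝ) / 4 ≤ t ^ (M - 1) := by
    have he : Real.exp 1 < 4 := by
      have := Real.exp_one_lt_d9; linarith
    have hpos : 0 < t ^ (M - 1) := pow_pos ht0 _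
    rw [inv_pow] at h3
    have h5 : (t ^ (M - 1))⁻¹ < 4 := lt_of_le_of_lt h3 he
    rw [inv_lt_comm₀ hpos (by norm_num)] at h5
    linarith
  calc 1 / (4 * (M : ℝ)) = (1 / (M : ℝ)) * (1 / 4) := by field_simp
    _ ≤ (1 / (M : ℝ)) * t ^ (m - 1) := by
        apply mul_le_mul_of_nonneg_left (h4.trans h1) (by positivity)

/-- Real form of bigness. -/
theorem rpow_le_of_big (r : ℕ) (hr : 2 ≤ r) (m D' : ℕ) (h : D' ^ r ≤ m ^ (r - 1)) :
    (D' : ℝ) ^ ((r : ℝ) / ((r : ℝ) - 1)) ≤ (m : ℝ) := by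
  have hn : r - 1 ≠ 0 := by omega
  have hcast : ((r - 1 : ℕ) : ℝ) = (r : ℝ) - 1 := by
    rw [Nat.cast_sub (by omega : 1 ≤ r), Nat.cast_one]
  have hx : (0 : ℝ) ≤ (D' : ℝ) := Nat.cast_nonneg _
  have hy : (0 : ℝ) ≤ (m : ℝ) := Nat.cast_nonneg _
  have h1 : ((D' : ℝ)) ^ r ≤ (m : ℝ) ^ (r - 1) := by exact_mod_cast h
  calc (D' : ℝ) ^ ((r : ℝ) / ((r : ℝ) - 1))
      = ((D' : ℝ) ^ (r : ℝ)) ^ (((r - 1 : ℕ) : ℝ)⁻¹) := by
        rw [← Real.rpow_mul hx, hcast, div_eq_mul_inv]
    _ = ((D' : ℝ) ^ r) ^ (((r - 1 : ℕ) : ℝ)⁻¹) := by rw [Real.rpow_natCast]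
    _ ≤ ((m : ℝ) ^ (r - 1)) ^ (((r - 1 : ℕ) : ℝ)⁻¹) :=
        Real.rpow_le_rpow (pow_nonneg hx _) h1 (inv_nonneg.2 (Nat.cast_nonneg _))
    _ = (m : ℝ) := Real.pow_rpow_inv_natCast hy hn

end Comb

open Comb in
/-- **From Lemma A to the total bound.** -/
theorem total_of_lemmaA (vs : ι → Finset V) (hinj : Function.Injective vs) (r : ℕ) (hr : 2 ≤ r)
    (hcard : ∀ e, (vs e).card = r) (a : Finset ι → ℝ) (ha : ∀ S, 0 ≤ a S) (D : ℕ) (hD : 1 ≤ D)
    (K : ℝ) (hA : ∀ Y : Finset V, ∑ v ∈ Y, ∑ S ∈ Scal vs Y v D, a S ≤ K) :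
    ∑ S ∈ Finset.univ.filter (fun S : Finset ι => S ≠ ∅), a S ≤
      4 * ((D : ℝ) + 1) ^ 2 * K +
        (r : ℝ) / (((D : ℝ) + 1) ^ ((r : ℝ) / ((r : ℝ) - 1))) *
          ∑ S : Finset ι, (S.card : ℝ) * a S := by
  classical
  set D' : ℕ := D + 1 with hD'
  set M : ℕ := D' ^ 2 with hM
  have hM2 : 2 ≤ M := by
    have : 2 ^ 2 ≤ D' ^ 2 := Nat.pow_le_pow_left (by omega) 2
    omega
  have hMpos : (0 : ℝ) < M := by positivity
  set θ : ℝ := 1 / (M : ℝ) with hθ
  have hθ0 : 0 ≤ θ := by positivity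
  have hθ1 : θ ≤ 1 := by
    rw [hθ, div_le_one hMpos]; exact_mod_cast (by omega : 1 ≤ M)
  have hcastD : ((D : ℝ) + 1) = (D' : ℝ) := by rw [hD']; push_cast; ring
  have hcastM : ((D : ℝ) + 1) ^ 2 = (M : ℝ) := by rw [hcastD, hM]; push_cast; ring
  let big : Finset ι → Prop := fun S => D' ^ r ≤ (r * S.card) ^ (r - 1)
  rw [← Finset.sum_filter_add_sum_filter_not (Finset.univ.filter (fun S : Finset ι => S ≠ ∅)) big,
    add_comm]
  refine add_le_add ?_ ?_
  · -- the small sets
    set sm := (Finset.univ.filter (fun S : Finset ι => S ≠ ∅)).filter (fun S => ¬ big S) with hsm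
    -- pointwise lower bound
    have key : ∀ S ∈ sm, a S / (4 * (M : ℝ)) ≤
        ∑ Y : Finset V, wY θ Y * ∑ v ∈ Y, (if S ∈ Scal vs Y v D then a S else 0) := by
      intro S hS
      have hS' := Finset.mem_filter.1 hS
      have hne : S.Nonempty := Finset.nonempty_iff_ne_empty.2 (Finset.mem_filter.1 hS'.1).2
      have hnb : ¬ big S := hS'.2
      have hex : ∃ u ∈ vsup vs S, vdeg vs S u ≤ D := by
        by_contra hcon
        apply hnb
        refine big_of_min_deg vs hinj r (by omega) hcard S hne D' ?_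
        intro u hu
        by_contra h3
        exact hcon ⟨u, hu, by omega⟩
      obtain ⟨u, hu, hdu⟩ := hex
      have hv : (vsup vs S).card ≤ M := by
        have h1 := card_vsup_le vs r hcard S
        have h2 := small_lt_sq r hr (r * S.card) D' (by omega) (not_le.1 hnb)
        omega
      have h1 := hit_lower M hM2 _ hv
      have h2 := sum_wY_hit θ (vsup vs S) u hu
      calc a S / (4 * (M : ℝ)) = (1 / (4 * (M : ℝ))) * a S := by ring
        _ ≤ (θ * (1 - θ) ^ ((vsup vs S).card - 1)) * a S :=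
            mul_le_mul_of_nonneg_right h1 (ha S)
        _ = ∑ Y : Finset V, wY θ Y * ((if vsup vs S ∩ Y = {u} then 1 else 0) * a S) := by
            rw [← h2, Finset.sum_mul]
            exact Finset.sum_congr rfl fun Y _ => by ring
        _ ≤ _ := by
            refine Finset.sum_le_sum fun Y _ => ?_
            refine mul_le_mul_of_nonneg_left ?_ (wY_nonneg θ hθ0 hθ1 Y)
            have hnn : ∀ v ∈ Y, (0 : ℝ) ≤ (if S ∈ Scal vs Y v D then a S else 0) := by
              intro v _; split_ifs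
              · exact ha S
              · exact le_rfl
            by_cases hY : vsup vs S ∩ Y = {u}
            · rw [if_pos hY, one_mul]
              have huY : u ∈ Y := by
                have : u ∈ vsup vs S ∩ Y := by rw [hY]; exact Finset.mem_singleton_self u
                exact (Finset.mem_inter.1 this).2
              have hmem : S ∈ Scal vs Y u D :=
                Finset.mem_filter.2 ⟨Finset.mem_univ _, hY, hdu⟩
              calc a S = (if S ∈ Scal vs Y u D then a S else 0) := by rw [if_pos hmem]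
                _ ≤ _ := Finset.single_le_sum hnn huY
            · rw [if_neg hY, zero_mul]
              exact Finset.sum_nonneg hnn
    have h1 : ∑ S ∈ sm, a S / (4 * (M : ℝ)) ≤
        ∑ Y : Finset V, wY θ Y * ∑ v ∈ Y, ∑ S ∈ Scal vs Y v D, a S := by
      calc ∑ S ∈ sm, a S / (4 * (M : ℝ))
          ≤ ∑ S ∈ sm, ∑ Y : Finset V, wY θ Y *
              ∑ v ∈ Y, (if S ∈ Scal vs Y v D then a S else 0) := Finset.sum_le_sum key
        _ ≤ ∑ S : Finset ι, ∑ Y : Finset V, wY θ Y *
              ∑ v ∈ Y, (if S ∈ Scal vs Y v D then a S else 0) := by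
            refine Finset.sum_le_sum_of_subset_of_nonneg (Finset.subset_univ _) ?_
            intro S _ _
            refine Finset.sum_nonneg fun Y _ => mul_nonneg (wY_nonneg θ hθ0 hθ1 Y) ?_
            refine Finset.sum_nonneg fun v _ => ?_
            split_ifs
            · exact ha S
            · exact le_rfl
        _ = ∑ Y : Finset V, wY θ Y * ∑ v ∈ Y, ∑ S ∈ Scal vs Y v D, a S := by
            rw [Finset.sum_comm]
            refine Finset.sum_congr rfl fun Y _ => ?_
            rw [← Finset.mul_sum, Finset.sum_comm]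
            congr 1
            refine Finset.sum_congr rfl fun v _ => ?_
            rw [Finset.sum_ite_mem, Finset.univ_inter]
    have h2 : ∑ Y : Finset V, wY θ Y * ∑ v ∈ Y, ∑ S ∈ Scal vs Y v D, a S ≤ K := by
      calc ∑ Y : Finset V, wY θ Y * ∑ v ∈ Y, ∑ S ∈ Scal vs Y v D, a S
          ≤ ∑ Y : Finset V, wY θ Y * K :=
            Finset.sum_le_sum fun Y _ => mul_le_mul_of_nonneg_left (hA Y) (wY_nonneg θ hθ0 hθ1 Y)
        _ = K := by rw [← Finset.sum_mul, sum_wY, one_mul]
    have h3 : (∑ S ∈ sm, a S) / (4 * (M : ℝ)) ≤ K := by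
      rw [Finset.sum_div]; exact h1.trans h2
    rw [div_le_iff₀ (by positivity)] at h3
    rw [hcastM]
    linarith
  · -- the big sets
    rw [hcastD, Finset.mul_sum]
    have hDpos : (0 : ℝ) < (D' : ℝ) ^ ((r : ℝ) / ((r : ℝ) - 1)) :=
      Real.rpow_pos_of_pos (by positivity) _
    calc ∑ S ∈ (Finset.univ.filter (fun S : Finset ι => S ≠ ∅)).filter big, a S
        ≤ ∑ S ∈ (Finset.univ.filter (fun S : Finset ι => S ≠ ∅)).filter big,
            (r : ℝ) / ((D' : ℝ) ^ ((r : ℝ) / ((r : ℝ) - 1))) * ((S.card : ℝ) * a S) := by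
          refine Finset.sum_le_sum fun S hS => ?_
          have hb : big S := (Finset.mem_filter.1 hS).2
          have h1 := rpow_le_of_big r hr (r * S.card) D' hb
          push_cast at h1
          have h2 : 1 ≤ (r : ℝ) / ((D' : ℝ) ^ ((r : ℝ) / ((r : ℝ) - 1))) * (S.card : ℝ) := by
            rw [div_mul_eq_mul_div, le_div_iff₀ hDpos, one_mul]; exact h1
          calc a S = 1 * a S := (one_mul _).symm
            _ ≤ ((r : ℝ) / ((D' : ℝ) ^ ((r : ℝ) / ((r : ℝ) - 1))) * (S.card : ℝ)) * a S :=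
                mul_le_mul_of_nonneg_right h2 (ha S)
            _ = _ := by ring
      _ ≤ _ := by
          refine Finset.sum_le_sum_of_subset_of_nonneg (Finset.subset_univ _) ?_
          intro S _ _
          have : 0 ≤ (r : ℝ) / ((D' : ℝ) ^ ((r : ℝ) / ((r : ℝ) - 1))) := by positivity
          exact mul_nonneg this (mul_nonneg (Nat.cast_nonneg _) (ha S))

end Crest.Agent.BK
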