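import Mathlib
import Crest.Agent.S0078_Defs

/-!
# ROW56: the action of coordinate permutations / vertex permutations

Abstract part: invariance of `E`, `fh`, `infl` under a permutation of the coordinates.
Slot part: the permutation of `HyperedgeSlot n r` induced by a vertex permutation, transitivity,
equal influences of a symmetric function, the stars `starB Y v`.
-/

set_option linter.unusedSectionVars false

namespace Crest.Agent.BK.Symm

open Crest.FinProb Crest.CombinatoricsR.HypergraphCube

section abstract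

variable {ι : Type*} [Fintype ι] [DecidableEq ι]

theorem bernoulliWeight_comp_perm (p : ℝ) (π : Equiv.Perm ι) (x : ι → Bool) :
    bernoulliWeight p (x ∘ π) = bernoulliWeight p x := by
  unfold bernoulliWeight
  exact Equiv.prod_comp π (fun i => if x i then p else 1 - p)

/-- precomposition with `π` as a permutation of the cube. -/
def cubePerm (π : Equiv.Perm ι) : Equiv.Perm (ι → Bool) :=
  (Equiv.arrowCongr π (Equiv.refl Bool)).symm

theorem cubePerm_apply (π : Equiv.Perm ι) (x : ι → Bool) : cubePerm π x = x ∘ π := by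
  funext i; simp [cubePerm, Equiv.arrowCongr]

theorem E_comp_perm (p : ℝ) (π : Equiv.Perm ι) (F : (ι → Bool) → ℝ) :
    E p (fun x => F (x ∘ π)) = E p F := by
  unfold E
  rw [← Equiv.sum_comp (cubePerm π) (fun x : ι → Bool => bernoulliWeight p x * F x)]
  refine Finset.sum_congr rfl (fun x _ => ?_)
  rw [cubePerm_apply, bernoulliWeight_comp_perm]

theorem bernoulliProb_comp_perm (p : ℝ) (π : Equiv.Perm ι) (A : Set (ι → Bool)) :
    bernoulliProb p {x | x ∘ π ∈ A} = bernoulliProb p A := by
  classical
  unfold bernoulliProb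
  rw [Finset.sum_filter, Finset.sum_filter]
  rw [← Equiv.sum_comp (cubePerm π)
    (fun x : ι → Bool => if x ∈ A then bernoulliWeight p x else 0)]
  refine Finset.sum_congr rfl (fun x _ => ?_)
  rw [cubePerm_apply, bernoulliWeight_comp_perm]
  rfl

theorem chi_comp_perm (p : ℝ) (π : Equiv.Perm ι) (S : Finset ι) (x : ι → Bool) :
    chi p S (x ∘ π) = chi p (S.map π.toEmbedding) x := by
  unfold chi
  rw [Finset.prod_map]
  rfl

theorem fh_map_perm (p : ℝ) (π : Equiv.Perm ι) (F : (ι → Bool) → ℝ)
    (hF : ∀ x, F (x ∘ π) = F x) (S : Finset ι) :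
    fh p F (S.map π.toEmbedding) = fh p F S := by
  unfold fh
  rw [← E_comp_perm p π (fun x => F x * chi p S x)]
  refine congrArg (E p) ?_
  funext x
  rw [hF, chi_comp_perm]

theorem update_comp_perm (π : Equiv.Perm ι) (x : ι → Bool) (a : ι) (b : Bool) :
    (Function.update x (π a) b) ∘ π = Function.update (x ∘ π) a b := by
  funext i
  by_cases h : i = a
  · subst h; simp
  · have : π i ≠ π a := fun h' => h (π.injective h')
    simp [Function.update_of_ne h, Function.update_of_ne this]

theorem infl_perm (p : ℝ) (π : Equiv.Perm ι) (f : (ι → Bool) → Bool)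
    (hf : ∀ x, f (x ∘ π) = f x) (a : ι) :
    infl p f (π a) = infl p f a := by
  unfold infl
  rw [← bernoulliProb_comp_perm p π
    {x | f (Function.update x a true) ≠ f (Function.update x a false)}]
  congr 1
  ext x
  simp only [Set.mem_ofPred_eq]
  rw [← update_comp_perm, ← update_comp_perm, hf, hf]

theorem ind_comp_perm (π : Equiv.Perm ι) (f : (ι → Bool) → Bool)
    (hf : ∀ x, f (x ∘ π) = f x) (x : ι → Bool) : ind f (x ∘ π) = ind f x := by
  unfold ind; rw [hf]

/-- If `π` fixes every coordinate outside `H`, it maps `H` to `H`. -/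
theorem perm_mem_iff_of_fix (π : Equiv.Perm ι) (H : Finset ι) (hπ : ∀ i, i ∉ H → π i = i)
    (i : ι) : π i ∈ H ↔ i ∈ H := by
  constructor
  · intro h
    by_contra hi
    rw [hπ i hi] at h
    exact hi h
  · intro h
    by_contra hi
    have h2 : π (π i) = π i := hπ _ hi
    have h3 : π i = i := π.injective h2
    rw [h3] at hi
    exact hi h

theorem mix_comp_perm (π : Equiv.Perm ι) (H : Finset ι) (hπ : ∀ i, i ∉ H → π i = i)
    (x z : ι → Bool) : mix H x (z ∘ π) = (mix H x z) ∘ π := by
  funext i
  unfold mix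
  simp only [Function.comp]
  by_cases hi : i ∈ H
  · have : π i ∈ H := (perm_mem_iff_of_fix π H hπ i).2 hi
    simp [hi, this]
  · have : π i ∉ H := fun h => hi ((perm_mem_iff_of_fix π H hπ i).1 h)
    simp [hi, hπ i hi]

/-- The restriction of a `π`-invariant function to the free coordinates `H` is again
`π`-invariant, if `π` fixes the frozen coordinates. -/
theorem restr_comp_perm (π : Equiv.Perm ι) (H : Finset ι) (hπ : ∀ i, i ∉ H → π i = i)
    (f : (ι → Bool) → Bool) (hf : ∀ x, f (x ∘ π) = f x) (x z : ι → Bool) :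
    restr H f x (z ∘ π) = restr H f x z := by
  unfold restr
  rw [mix_comp_perm π H hπ, hf]

theorem sum_powerset_map_perm (π : Equiv.Perm ι) (B : Finset ι) (w : Finset ι → ℝ) :
    ∑ A ∈ (B.map π.toEmbedding).powerset, w A = ∑ A ∈ B.powerset, w (A.map π.toEmbedding) := by
  refine (Finset.sum_bij (fun A _ => A.map π.toEmbedding) ?_ ?_ ?_ ?_).symm
  · intro A hA
    rw [Finset.mem_powerset] at hA ⊢
    exact Finset.map_subset_map.2 hA
  · intro A _ A' _ h
    exact Finset.map_injective _ h
  · intro A hA
    rw [Finset.mem_powerset] at hA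
    refine ⟨A.map π.symm.toEmbedding, ?_, ?_⟩
    · rw [Finset.mem_powerset]
      intro i hi
      rw [Finset.mem_map] at hi
      obtain ⟨j, hj, rfl⟩ := hi
      have := hA hj
      rw [Finset.mem_map] at this
      obtain ⟨k, hk, rfl⟩ := this
      simpa using hk
    · ext i
      simp
  · intro A _
    rfl

/-- Equal block weights: a symmetry `π` of `F` carries the Walsh weight of the block `B`
(any `π`-invariant selection `q` of the subsets, e.g. `A ≠ ∅`) to that of `B.map π`. -/
theorem blockWeight_map_perm (p : ℝ) (π : Equiv.Perm ι) (F : (ι → Bool) → ℝ)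
    (hF : ∀ x, F (x ∘ π) = F x) (B : Finset ι) :
    ∑ A ∈ (B.map π.toEmbedding).powerset.filter (fun A => A ≠ ∅), fh p F A ^ 2
      = ∑ A ∈ B.powerset.filter (fun A => A ≠ ∅), fh p F A ^ 2 := by
  rw [Finset.sum_filter, Finset.sum_filter, sum_powerset_map_perm]
  refine Finset.sum_congr rfl (fun A _ => ?_)
  rw [fh_map_perm p π F hF]
  by_cases hA : A = ∅
  · subst hA; simp
  · have : A.map π.toEmbedding ≠ ∅ := by
      intro h; exact hA (Finset.map_eq_empty.1 h)
    simp [hA, this]

end abstract

section slots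

variable {n r : ℕ}

/-- The permutation of the slots induced by a vertex permutation. -/
def slotPerm (σ : Equiv.Perm (Fin n)) : Equiv.Perm (HyperedgeSlot n r) where
  toFun := relabelSlot σ
  invFun := relabelSlot σ.symm
  left_inv := by
    intro e
    apply Subtype.ext
    ext i
    simp [relabelSlot]
  right_inv := by
    intro e
    apply Subtype.ext
    ext i
    simp [relabelSlot]

@[simp] theorem slotPerm_apply (σ : Equiv.Perm (Fin n)) (e : HyperedgeSlot n r) :
    slotPerm σ e = relabelSlot σ e := rfl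

theorem relabel_eq_comp (σ : Equiv.Perm (Fin n)) (x : HyperedgeSlot n r → Bool) :
    relabel σ x = x ∘ slotPerm σ := rfl

theorem symm_comp_slotPerm {f : (HyperedgeSlot n r → Bool) → Bool} (hf : IsSymmetric f)
    (σ : Equiv.Perm (Fin n)) (x : HyperedgeSlot n r → Bool) : f (x ∘ slotPerm σ) = f x :=
  hf σ x

theorem mem_relabelSlot (σ : Equiv.Perm (Fin n)) (e : HyperedgeSlot n r) (i : Fin n) :
    i ∈ (relabelSlot σ e).1 ↔ σ.symm i ∈ e.1 := by
  simp only [relabelSlot, Finset.mem_map, Equiv.coe_toEmbedding]
  constructor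
  · rintro ⟨j, hj, rfl⟩; simpa using hj
  · intro h; exact ⟨_, h, by simp⟩

/-- The symmetric group is transitive on the slots. -/
theorem exists_relabelSlot_eq (e e' : HyperedgeSlot n r) :
    ∃ σ : Equiv.Perm (Fin n), relabelSlot σ e = e' := by
  classical
  have hc : e.1.card = e'.1.card := e.2.trans e'.2.symm
  let τ : {x // x ∈ e.1} ≃ {x // x ∈ e'.1} := Finset.equivOfCardEq hc
  refine ⟨τ.extendSubtype, ?_⟩
  apply Subtype.ext
  apply Finset.eq_of_subset_of_card_le
  · intro i hi
    simp only [relabelSlot, Finset.mem_map, Equiv.coe_toEmbedding] at hi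
    obtain ⟨j, hj, rfl⟩ := hi
    exact Equiv.extendSubtype_mem τ j hj
  · rw [(relabelSlot τ.extendSubtype e).2, e'.2]

theorem infl_eq_of_symm (p : ℝ) {f : (HyperedgeSlot n r → Bool) → Bool} (hf : IsSymmetric f)
    (e e' : HyperedgeSlot n r) : infl p f e = infl p f e' := by
  obtain ⟨σ, hσ⟩ := exists_relabelSlot_eq e e'
  rw [← hσ, ← slotPerm_apply, infl_perm p (slotPerm σ) f (symm_comp_slotPerm hf σ)]

theorem card_slots : Fintype.card (HyperedgeSlot n r) = n.choose r := by
  rw [Fintype.card_finset_len, Fintype.card_fin]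

theorem choose_mul_infl (p : ℝ) {f : (HyperedgeSlot n r → Bool) → Bool} (hf : IsSymmetric f)
    (e : HyperedgeSlot n r) : (n.choose r : ℝ) * infl p f e = totInfl p f := by
  unfold totInfl
  rw [Finset.sum_congr rfl (fun a _ => infl_eq_of_symm p hf a e), Finset.sum_const,
    Finset.card_univ, card_slots, nsmul_eq_mul]

/-- The slots containing the vertex `v`. -/
def slotsAt (n r : ℕ) (v : Fin n) : Finset (HyperedgeSlot n r) :=
  Finset.univ.filter (fun e => v ∈ e.1)

theorem card_slotsAt_eq (u v : Fin n) : (slotsAt n r u).card = (slotsAt n r v).card := by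
  refine Finset.card_bij (fun e _ => slotPerm (Equiv.swap u v) e) ?_ ?_ ?_
  · intro e he
    simp only [slotsAt, Finset.mem_filter, Finset.mem_univ, true_and] at he ⊢
    rw [slotPerm_apply, mem_relabelSlot]
    simpa using he
  · intro e _ e' _ h
    exact (slotPerm (Equiv.swap u v)).injective h
  · intro e he
    simp only [slotsAt, Finset.mem_filter, Finset.mem_univ, true_and] at he
    refine ⟨(slotPerm (Equiv.swap u v)).symm e, ?_, by simp⟩
    simp only [slotsAt, Finset.mem_filter, Finset.mem_univ, true_and]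
    change u ∈ (relabelSlot (Equiv.swap u v).symm e).1
    rw [mem_relabelSlot]
    simpa using he

theorem card_slotsAt_mul (v : Fin n) : (slotsAt n r v).card * n = r * n.choose r := by
  have h1 : ∑ u : Fin n, (slotsAt n r u).card = ∑ e : HyperedgeSlot n r, e.1.card := by
    simp only [slotsAt, Finset.card_filter]
    rw [Finset.sum_comm]
    refine Finset.sum_congr rfl (fun e _ => ?_)
    rw [← Finset.card_filter]
    congr 1
    ext i; simp
  have h2 : ∑ u : Fin n, (slotsAt n r u).card = n * (slotsAt n r v).card := by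
    rw [Finset.sum_congr rfl (fun u _ => card_slotsAt_eq u v), Finset.sum_const,
      Finset.card_univ, Fintype.card_fin, smul_eq_mul]
  have h3 : ∑ e : HyperedgeSlot n r, e.1.card = n.choose r * r := by
    rw [Finset.sum_congr rfl (fun e _ => e.2), Finset.sum_const, Finset.card_univ, card_slots,
      smul_eq_mul]
  rw [mul_comm, ← h2, h1, h3, mul_comm]

/-- The star of `v` relative to `Y`: the slots meeting `Y` exactly in `v`. -/
def starB (Y : Finset (Fin n)) (v : Fin n) : Finset (HyperedgeSlot n r) :=
  Finset.univ.filter (fun e => e.1 ∩ Y = {v})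

theorem mem_starB {Y : Finset (Fin n)} {v : Fin n} {e : HyperedgeSlot n r} :
    e ∈ starB Y v ↔ e.1 ∩ Y = {v} := by
  simp [starB]

theorem starB_subset_slotsAt (Y : Finset (Fin n)) (v : Fin n) :
    (starB Y v : Finset (HyperedgeSlot n r)) ⊆ slotsAt n r v := by
  intro e he
  rw [mem_starB] at he
  simp only [slotsAt, Finset.mem_filter, Finset.mem_univ, true_and]
  have : v ∈ e.1 ∩ Y := by rw [he]; simp
  exact (Finset.mem_inter.1 this).1

theorem card_starB_mul_le (Y : Finset (Fin n)) (v : Fin n) :
    (starB Y v : Finset (HyperedgeSlot n r)).card * n ≤ r * n.choose r := by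
  rw [← card_slotsAt_mul v]
  exact Nat.mul_le_mul_right _ (Finset.card_le_card (starB_subset_slotsAt Y v))

theorem starB_disjoint (Y : Finset (Fin n)) {u v : Fin n} (huv : u ≠ v) :
    Disjoint (starB Y u : Finset (HyperedgeSlot n r)) (starB Y v) := by
  rw [Finset.disjoint_left]
  intro e hu hv
  rw [mem_starB] at hu hv
  rw [hu] at hv
  exact huv (Finset.singleton_injective hv)

theorem infl_nonneg (p : ℝ) (hp0 : 0 ≤ p) (hp1 : p ≤ 1) {ι : Type*} [Fintype ι] [DecidableEq ι]
    (f : (ι → Bool) → Bool) (a : ι) : 0 ≤ infl p f a := by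
  classical
  unfold infl bernoulliProb
  refine Finset.sum_nonneg (fun x _ => ?_)
  unfold bernoulliWeight
  refine Finset.prod_nonneg (fun i _ => ?_)
  split_ifs
  · exact hp0
  · linarith

/-- The influences of the star of `v` add up to at most `(r/n)` times the total influence. -/
theorem sum_starB_infl_le (p : ℝ) (hp0 : 0 ≤ p) (hp1 : p ≤ 1) (hn : 0 < n)
    {f : (HyperedgeSlot n r → Bool) → Bool} (hf : IsSymmetric f)
    (Y : Finset (Fin n)) (v : Fin n) :
    ∑ a ∈ (starB Y v : Finset (HyperedgeSlot n r)), infl p f a ≤ (r : ℝ) / n * totInfl p f := by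
  have hn' : (0 : ℝ) < n := by exact_mod_cast hn
  by_cases hne : (starB Y v : Finset (HyperedgeSlot n r)).Nonempty
  · obtain ⟨e, _⟩ := hne
    rw [Finset.sum_congr rfl (fun a _ => infl_eq_of_symm p hf a e), Finset.sum_const,
      nsmul_eq_mul, ← choose_mul_infl p hf e]
    have h1 : ((starB Y v : Finset (HyperedgeSlot n r)).card : ℝ) * n ≤ r * n.choose r := by
      exact_mod_cast card_starB_mul_le (r := r) Y v
    have h2 : 0 ≤ infl p f e := infl_nonneg p hp0 hp1 f e
    have h3 : ((starB Y v : Finset (HyperedgeSlot n r)).card : ℝ) ≤ r * n.choose r / n := by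
      rw [le_div_iff₀ hn']; exact h1
    calc ((starB Y v : Finset (HyperedgeSlot n r)).card : ℝ) * infl p f e
        ≤ (r * n.choose r / n) * infl p f e := mul_le_mul_of_nonneg_right h3 h2
      _ = (r : ℝ) / n * ((n.choose r : ℝ) * infl p f e) := by ring
  · rw [Finset.not_nonempty_iff_eq_empty] at hne
    rw [hne, Finset.sum_empty]
    have : 0 ≤ totInfl p f := Finset.sum_nonneg (fun a _ => infl_nonneg p hp0 hp1 f a)
    positivity

/-- A transposition of two vertices outside the slot fixes the slot. -/
theorem relabelSlot_swap_of_notMem {u v : Fin n} {e : HyperedgeSlot n r}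
    (hu : u ∉ e.1) (hv : v ∉ e.1) : relabelSlot (Equiv.swap u v) e = e := by
  apply Subtype.ext
  ext i
  rw [mem_relabelSlot, Equiv.symm_swap]
  by_cases h1 : i = u
  · subst h1; simp [hu, hv]
  · by_cases h2 : i = v
    · subst h2; simp [hu, hv]
    · rw [Equiv.swap_apply_of_ne_of_ne h1 h2]

/-- The free coordinates for `Y`: the slots meeting `Y`. -/
def freeH (Y : Finset (Fin n)) : Finset (HyperedgeSlot n r) :=
  Finset.univ.filter (fun e => (e.1 ∩ Y).Nonempty)

theorem slotPerm_swap_fix {Y : Finset (Fin n)} {u v : Fin n} (hu : u ∈ Y) (hv : v ∈ Y)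
    (e : HyperedgeSlot n r) (he : e ∉ (freeH Y : Finset (HyperedgeSlot n r))) :
    slotPerm (Equiv.swap u v) e = e := by
  simp only [freeH, Finset.mem_filter, Finset.mem_univ, true_and,
    Finset.not_nonempty_iff_eq_empty] at he
  apply relabelSlot_swap_of_notMem
  · intro h
    have : u ∈ e.1 ∩ Y := Finset.mem_inter.2 ⟨h, hu⟩
    rw [he] at this; simp at this
  · intro h
    have : v ∈ e.1 ∩ Y := Finset.mem_inter.2 ⟨h, hv⟩
    rw [he] at this; simp at this

theorem starB_subset_freeH (Y : Finset (Fin n)) (v : Fin n) :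
    (starB Y v : Finset (HyperedgeSlot n r)) ⊆ freeH Y := by
  intro e he
  rw [mem_starB] at he
  simp only [freeH, Finset.mem_filter, Finset.mem_univ, true_and]
  rw [he]; simp

theorem swap_mem_iff {Y : Finset (Fin n)} {u v : Fin n} (hu : u ∈ Y) (hv : v ∈ Y) (i : Fin n) :
    Equiv.swap u v i ∈ Y ↔ i ∈ Y := by
  by_cases h1 : i = u
  · subst h1; simp [hu, hv]
  · by_cases h2 : i = v
    · subst h2; simp [hu, hv]
    · rw [Equiv.swap_apply_of_ne_of_ne h1 h2]

theorem relabelSlot_swap_mem_starB {Y : Finset (Fin n)} {u v : Fin n} (hu : u ∈ Y) (hv : v ∈ Y)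
    {e : HyperedgeSlot n r} (he : e ∈ (starB Y u : Finset (HyperedgeSlot n r))) :
    relabelSlot (Equiv.swap u v) e ∈ (starB Y v : Finset (HyperedgeSlot n r)) := by
  rw [mem_starB] at he ⊢
  ext i
  rw [Finset.mem_inter, mem_relabelSlot, Equiv.symm_swap, ← swap_mem_iff hu hv i,
    ← Finset.mem_inter, he, Finset.mem_singleton, Finset.mem_singleton]
  constructor
  · intro h
    have := congrArg (Equiv.swap u v) h
    simpa using this
  · intro h
    subst h; simp

theorem relabelSlot_swap_swap (u v : Fin n) (e : HyperedgeSlot n r) :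
    relabelSlot (Equiv.swap u v) (relabelSlot (Equiv.swap u v) e) = e := by
  apply Subtype.ext
  ext i
  rw [mem_relabelSlot, mem_relabelSlot, Equiv.symm_swap, Equiv.swap_apply_self]

theorem starB_map_swap {Y : Finset (Fin n)} {u v : Fin n} (hu : u ∈ Y) (hv : v ∈ Y) :
    (starB Y u : Finset (HyperedgeSlot n r)).map (slotPerm (Equiv.swap u v)).toEmbedding
      = starB Y v := by
  ext e
  rw [Finset.mem_map]
  constructor
  · rintro ⟨e0, he0, rfl⟩
    exact relabelSlot_swap_mem_starB hu hv he0
  · intro he
    refine ⟨relabelSlot (Equiv.swap u v) e, ?_, ?_⟩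
    · rw [Equiv.swap_comm]
      exact relabelSlot_swap_mem_starB hv hu he
    · exact relabelSlot_swap_swap u v e

/-- **Equal block weights** for the restrictions of a symmetric function: freezing the slots that
do not meet `Y`, the stars of any two vertices of `Y` carry the same Walsh weight. -/
theorem starB_weight_eq (p : ℝ) {f : (HyperedgeSlot n r → Bool) → Bool} (hf : IsSymmetric f)
    {Y : Finset (Fin n)} {u v : Fin n} (hu : u ∈ Y) (hv : v ∈ Y)
    (x : HyperedgeSlot n r → Bool) :
    ∑ A ∈ (starB Y v : Finset (HyperedgeSlot n r)).powerset.filter (fun A => A ≠ ∅),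
        fh p (ind (restr (freeH Y) f x)) A ^ 2
      = ∑ A ∈ (starB Y u : Finset (HyperedgeSlot n r)).powerset.filter (fun A => A ≠ ∅),
        fh p (ind (restr (freeH Y) f x)) A ^ 2 := by
  rw [← starB_map_swap hu hv]
  refine blockWeight_map_perm p (slotPerm (Equiv.swap u v)) _ ?_ _
  intro z
  refine ind_comp_perm _ _ ?_ z
  intro z'
  exact restr_comp_perm _ _ (slotPerm_swap_fix hu hv) f (symm_comp_slotPerm hf _) x z'

end slots

end Crest.Agent.BK.Symm
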