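import Mathlib
import Crest.Agent.S0078_Defs
import Crest.Agent.S0078_AvgBlock
import Crest.Agent.S0078_Symm
import Crest.Agent.S0078_Comb

/-!
# ROW56: Lemma A (summed form) from the Block lemma

The Block lemma enters as the hypothesis `BlockStmt` (signature of `block_lemma`, helper51).
-/

namespace Crest.Agent.BK
namespace LemA22

open Crest.FinProb Crest.CombinatoricsR.HypergraphCube
open Crest.Agent.BK.Symm Crest.Agent.BK.AvgBlock

set_option linter.unusedSectionVars false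

/-- The statement of the Block lemma on the coordinate type `ι` at bias `p`. -/
def BlockStmt (ι : Type*) [Fintype ι] [DecidableEq ι] (p : ℝ) : Prop :=
  ∀ (g : (ι → Bool) → Bool) (B : Finset ι) (y : ℕ), 1 ≤ y →
    (y : ℝ) * ∑ A ∈ B.powerset.filter (fun A => A.Nonempty), fh p (ind g) A ^ 2 ≤ 1 →
    ∀ D : ℕ, 1 ≤ D →
      ∑ A ∈ B.powerset.filter (fun A => 1 ≤ A.card ∧ A.card ≤ D), (A.card : ℝ) * fh p (ind g) A ^ 2
        ≤ sg p * (2 / sg p) ^ (D - 1) / Real.sqrt y * ∑ a ∈ B, infl p g a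

section abstractPart
variable {ι : Type*} [Fintype ι] [DecidableEq ι]

lemma E_ind_sq_le {p : ℝ} (hp0 : 0 < p) (hp1 : p < 1) (g : (ι → Bool) → Bool) :
    E p (fun x => ind g x ^ 2) ≤ 1 := by
  calc E p (fun x => ind g x ^ 2) ≤ E p (fun _ => (1 : ℝ)) := by
        apply E_mono hp0.le hp1.le
        intro x
        unfold ind
        split_ifs <;> norm_num
    _ = 1 := by
        unfold E
        simp [w_sum]

/-- Pairwise disjoint blocks with equal weights: each weight is at most `1/y`. -/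
lemma weight_le {κ : Type*} [DecidableEq κ] {p : ℝ} (hp0 : 0 < p) (hp1 : p < 1)
    (g : (ι → Bool) → Bool) (Y : Finset κ) (Bk : κ → Finset ι)
    (hdisj : ∀ u ∈ Y, ∀ v ∈ Y, u ≠ v → Disjoint (Bk u) (Bk v))
    (heq : ∀ u ∈ Y, ∀ v ∈ Y,
      ∑ A ∈ (Bk v).powerset.filter (fun A => A.Nonempty), fh p (ind g) A ^ 2
        = ∑ A ∈ (Bk u).powerset.filter (fun A => A.Nonempty), fh p (ind g) A ^ 2)
    (v : κ) (hv : v ∈ Y) :
    (Y.card : ℝ) * ∑ A ∈ (Bk v).powerset.filter (fun A => A.Nonempty), fh p (ind g) A ^ 2 ≤ 1 := by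
  have h1 : (Y.card : ℝ) * ∑ A ∈ (Bk v).powerset.filter (fun A => A.Nonempty), fh p (ind g) A ^ 2
      = ∑ u ∈ Y, ∑ A ∈ (Bk u).powerset.filter (fun A => A.Nonempty), fh p (ind g) A ^ 2 := by
    rw [Finset.sum_congr rfl (fun u hu => heq v hv u hu), Finset.sum_const, nsmul_eq_mul]
  rw [h1, ← Finset.sum_biUnion]
  · exact (bessel hp0 hp1 (ind g) _).trans (E_ind_sq_le hp0 hp1 g)
  · intro u hu w hw huw
    simp only [Function.onFun]
    rw [Finset.disjoint_left]
    intro A hAu hAw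
    simp only [Finset.mem_filter, Finset.mem_powerset] at hAu hAw
    obtain ⟨a, ha⟩ := hAu.2
    exact Finset.disjoint_left.mp (hdisj u hu w hw huw) (hAu.1 ha) (hAw.1 ha)

end abstractPart

section slots
variable {n r : ℕ}

lemma scal_subset (Y : Finset (Fin n)) (v : Fin n) (hv : v ∈ Y) (D : ℕ) :
    Scal (fun e : HyperedgeSlot n r => e.1) Y v D ⊆
      Finset.univ.filter (fun S : Finset (HyperedgeSlot n r) =>
        S ∩ freeH Y ⊆ starB Y v ∧ 1 ≤ (S ∩ freeH Y).card ∧ (S ∩ freeH Y).card ≤ D) := by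
  intro S hS
  simp only [Scal, Finset.mem_filter, Finset.mem_univ, true_and] at hS ⊢
  obtain ⟨h1, h2⟩ := hS
  have hsub : ∀ e ∈ S, e.1 ∩ Y ⊆ {v} := by
    intro e he
    rw [← h1]
    apply Finset.inter_subset_inter_right
    intro i hi
    simp only [vsup, Finset.mem_biUnion]
    exact ⟨e, he, hi⟩
  have heq : S ∩ freeH Y = S.filter (fun e => v ∈ e.1) := by
    ext e
    simp only [Finset.mem_inter, freeH, Finset.mem_filter, Finset.mem_univ, true_and]
    constructor
    · rintro ⟨he, i, hi⟩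
      refine ⟨he, ?_⟩
      have := hsub e he hi
      rw [Finset.mem_singleton] at this
      subst this
      exact (Finset.mem_inter.mp hi).1
    · rintro ⟨he, hve⟩
      exact ⟨he, v, Finset.mem_inter.mpr ⟨hve, hv⟩⟩
  refine ⟨?_, ?_, ?_⟩
  · intro e he
    rw [heq, Finset.mem_filter] at he
    rw [mem_starB]
    apply Finset.Subset.antisymm (hsub e he.1)
    intro i hi
    rw [Finset.mem_singleton] at hi
    subst hi
    exact Finset.mem_inter.mpr ⟨he.2, hv⟩
  · rw [heq, Nat.succ_le_iff, Finset.card_pos]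
    have : v ∈ vsup (fun e : HyperedgeSlot n r => e.1) S ∩ Y := by
      rw [h1]; simp
    have hv' := (Finset.mem_inter.mp this).1
    simp only [vsup, Finset.mem_biUnion] at hv'
    obtain ⟨e, he, hve⟩ := hv'
    exact ⟨e, Finset.mem_filter.mpr ⟨he, hve⟩⟩
  · rw [heq]
    exact h2

/-- **Lemma A** for one vertex. -/
theorem lemmaA_one (hn : 0 < n) (p : ℝ) (hp0 : 0 < p) (hp1 : p < 1)
    (hBL : BlockStmt (HyperedgeSlot n r) p)
    (f : (HyperedgeSlot n r → Bool) → Bool) (hf : IsSymmetric f) (D : ℕ) (hD : 1 ≤ D)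
    (Y : Finset (Fin n)) (v : Fin n) (hv : v ∈ Y) :
    ∑ S ∈ Scal (fun e : HyperedgeSlot n r => e.1) Y v D, fh p (ind f) S ^ 2
      ≤ sg p * (2 / sg p) ^ (D - 1) / Real.sqrt Y.card * ((r : ℝ) / n * totInfl p f) := by
  have hy : 1 ≤ Y.card := Finset.card_pos.mpr ⟨v, hv⟩
  have hK : 0 ≤ sg p * (2 / sg p) ^ (D - 1) / Real.sqrt Y.card := by
    have := sg_pos hp0 hp1
    positivity
  calc _ ≤ ∑ S ∈ Finset.univ.filter (fun S : Finset (HyperedgeSlot n r) =>
        S ∩ freeH Y ⊆ starB Y v ∧ 1 ≤ (S ∩ freeH Y).card ∧ (S ∩ freeH Y).card ≤ D),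
          fh p (ind f) S ^ 2 :=
        Finset.sum_le_sum_of_subset_of_nonneg (scal_subset Y v hv D) (fun _ _ _ => sq_nonneg _)
    _ ≤ sg p * (2 / sg p) ^ (D - 1) / Real.sqrt Y.card * ∑ a ∈ starB Y v, infl p f a := by
        apply avg_block_core hp0 hp1 f (freeH Y) (starB Y v) (starB_subset_freeH Y v) D
        intro x
        apply hBL (restr (freeH Y) f x) (starB Y v) Y.card hy _ D hD
        apply weight_le hp0 hp1 (restr (freeH Y) f x) Y (fun u => starB Y u)
          (fun u _ w _ huw => starB_disjoint Y huw) _ v hv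
        intro u hu w hw
        have := starB_weight_eq p hf hu hw x
        simpa only [Finset.nonempty_iff_ne_empty] using this
    _ ≤ _ := mul_le_mul_of_nonneg_left (sum_starB_infl_le p hp0.le hp1.le hn hf Y v) hK

/-- **Lemma A**, summed form (the interface statement `lemmaA_sum`), from the Block lemma. -/
theorem lemmaA_sum_of_block (n r : ℕ) (hr : 2 ≤ r) (hn : r ≤ n) (p : ℝ) (hp0 : 0 < p) (hp1 : p < 1)
    (hBL : BlockStmt (HyperedgeSlot n r) p)
    (f : (HyperedgeSlot n r → Bool) → Bool) (hf : IsSymmetric f) (D : ℕ) (hD : 1 ≤ D)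
    (Y : Finset (Fin n)) :
    ∑ v ∈ Y, ∑ S ∈ Scal (fun e : HyperedgeSlot n r => e.1) Y v D, fh p (ind f) S ^ 2
      ≤ sg p * (2 / sg p) ^ (D - 1) * (r : ℝ) / Real.sqrt n * totInfl p f := by
  have hn0 : 0 < n := by omega
  have hnR : (0 : ℝ) < n := by exact_mod_cast hn0
  have hs := sg_pos hp0 hp1
  have hI : 0 ≤ totInfl p f := Finset.sum_nonneg (fun a _ => Symm.infl_nonneg p hp0.le hp1.le f a)
  calc _ ≤ ∑ _v ∈ Y, sg p * (2 / sg p) ^ (D - 1) / Real.sqrt Y.card * ((r : ℝ) / n * totInfl p f) :=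
        Finset.sum_le_sum (fun v hv => lemmaA_one hn0 p hp0 hp1 hBL f hf D hD Y v hv)
    _ = (Y.card : ℝ) / Real.sqrt Y.card
          * (sg p * (2 / sg p) ^ (D - 1) * ((r : ℝ) / n * totInfl p f)) := by
        rw [Finset.sum_const, nsmul_eq_mul]
        ring
    _ = Real.sqrt Y.card * (sg p * (2 / sg p) ^ (D - 1) * ((r : ℝ) / n * totInfl p f)) := by
        rw [Real.div_sqrt]
    _ ≤ Real.sqrt n * (sg p * (2 / sg p) ^ (D - 1) * ((r : ℝ) / n * totInfl p f)) := by
        apply mul_le_mul_of_nonneg_right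
        · apply Real.sqrt_le_sqrt
          have : Y.card ≤ n := by
            simpa using Finset.card_le_univ Y
          exact_mod_cast this
        · positivity
    _ = _ := by
        have h1 : Real.sqrt n * Real.sqrt n = n := Real.mul_self_sqrt hnR.le
        have h2 : 0 < Real.sqrt n := Real.sqrt_pos.mpr hnR
        field_simp
        nlinarith [h1]

end slots

end LemA22
end Crest.Agent.BK
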