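import Crest.Agent.S0078_Core
import Crest.Agent.S0078_LemmaA22
import Crest.Agent.S0078_Block58

/-!
ROW56: Lemma A in the form needed by `S0078_Core`, from `LemA22.lemmaA_sum_of_block` and the
Block Lemma `Blk.block_lemma_mul`.
-/

set_option autoImplicit false

namespace Crest.Agent.BK.Final58

open Crest.FinProb Crest.CombinatoricsR.HypergraphCube

theorem blockStmt (ι : Type*) [Fintype ι] [DecidableEq ι] (p : ℝ) (hp0 : 0 < p) (hp1 : p < 1) :
    LemA22.BlockStmt ι p := by
  intro g B y hy hw D hD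
  exact Blk.block_lemma_mul hp0 hp1 g B (y : ℝ) (by exact_mod_cast hy) hw D hD

theorem lemmaA (n r : ℕ) (hr : 2 ≤ r) (hn : r ≤ n) : Core.LemmaA n r := by
  intro p hp0 hp1 f hf D hD Y
  exact LemA22.lemmaA_sum_of_block n r hr hn p hp0 hp1 (blockStmt _ p hp0 hp1) f hf D hD Y

end Crest.Agent.BK.Final58
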