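import Mathlib
import Crest.Prelude.Def_FinProb
import Crest.Prelude.Def_RandomGraph
import Crest.Prelude.Def_HypergraphCube
import Crest.Agent.S0078_Defs

/-!
# ROW56: bridge between the graph cube `EdgeSlot n` (S0077) and `HyperedgeSlot n 2` (S0078 core)

* transport of `bernoulliWeight`, `bernoulliProb`, `BK.prT`, `BK.infl`, `BK.totInfl` along an
  equivalence of index types;
* `slotEquiv n : EdgeSlot n ≃ HyperedgeSlot n 2`;
* the Boolean function `fP P` of a graph property and its properties;
* `core_transfer`: a variance/influence inequality for all symmetric functions on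
  `HyperedgeSlot n 2` gives the same inequality for `fP P` on `EdgeSlot n`.
-/

namespace Crest.Agent.BK

open Crest.FinProb Crest.CombinatoricsR.RandomGraph Crest.CombinatoricsR.HypergraphCube

section Transport

variable {ι ι' : Type*} [Fintype ι] [DecidableEq ι] [Fintype ι'] [DecidableEq ι']

omit [DecidableEq ι] [DecidableEq ι'] in
theorem bernoulliWeight_comp_equiv (e : ι ≃ ι') (p : ℝ) (y : ι' → Bool) :
    bernoulliWeight p (y ∘ e) = bernoulliWeight p y := by
  unfold bernoulliWeight
  exact Fintype.prod_equiv e _ _ (fun i => rfl)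

theorem bernoulliProb_eq_sum_ite (p : ℝ) (A : Set (ι → Bool)) [DecidablePred (· ∈ A)] :
    bernoulliProb p A = ∑ x : ι → Bool, if x ∈ A then bernoulliWeight p x else 0 := by
  unfold bernoulliProb
  rw [← Finset.sum_filter]
  congr 1
  ext x
  simp

theorem bernoulliProb_preimage_equiv (e : ι ≃ ι') (p : ℝ) (A : Set (ι → Bool)) :
    bernoulliProb p {y : ι' → Bool | y ∘ e ∈ A} = bernoulliProb p A := by
  classical
  rw [bernoulliProb_eq_sum_ite, bernoulliProb_eq_sum_ite]
  refine Fintype.sum_equiv (Equiv.arrowCongr e (Equiv.refl Bool)).symm _ _ (fun y => ?_)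
  have h : (Equiv.arrowCongr e (Equiv.refl Bool)).symm y = y ∘ e := by
    ext i; simp [Equiv.arrowCongr]
  rw [h, bernoulliWeight_comp_equiv]
  rfl

/-- Pull a Boolean function on the cube over `ι` back to the cube over `ι'`. -/
def pull (e : ι ≃ ι') (f : (ι → Bool) → Bool) : (ι' → Bool) → Bool := fun y => f (y ∘ e)

theorem prT_pull (e : ι ≃ ι') (p : ℝ) (f : (ι → Bool) → Bool) :
    prT p (pull e f) = prT p f :=
  bernoulliProb_preimage_equiv e p {x | f x = true}

theorem infl_pull (e : ι ≃ ι') (p : ℝ) (f : (ι → Bool) → Bool) (a : ι) :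
    infl p (pull e f) (e a) = infl p f a := by
  have key := bernoulliProb_preimage_equiv e p
    {x | f (Function.update x a true) ≠ f (Function.update x a false)}
  unfold infl
  rw [← key]
  congr 1
  ext y
  have h : ∀ b : Bool, Function.update y (e a) b ∘ e = Function.update (y ∘ e) a b := by
    intro b
    rw [Function.update_comp_equiv, Equiv.symm_apply_apply]
  simp only [Set.mem_ofPred_eq, pull, h]

theorem totInfl_pull (e : ι ≃ ι') (p : ℝ) (f : (ι → Bool) → Bool) :
    totInfl p (pull e f) = totInfl p f := by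
  unfold totInfl
  exact (Fintype.sum_equiv e _ _ (fun a => (infl_pull e p f a).symm)).symm

end Transport

section Prelude

variable {n r : ℕ}

theorem prT_eq_probTrue (p : ℝ) (f : (HyperedgeSlot n r → Bool) → Bool) :
    prT p f = probTrue p f := rfl

theorem infl_eq_pivotalInfluence (p : ℝ) (f : (HyperedgeSlot n r → Bool) → Bool)
    (e : HyperedgeSlot n r) : infl p f e = pivotalInfluence p f e := rfl

theorem totInfl_eq_totalInfluence (p : ℝ) (f : (HyperedgeSlot n r → Bool) → Bool) :
    totInfl p f = totalInfluence p f := rfl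

end Prelude

section Slots

variable {n : ℕ}

/-- The 2-subset of an edge slot. -/
def slotMap (n : ℕ) (z : EdgeSlot n) : HyperedgeSlot n 2 :=
  ⟨z.1.toFinset, Sym2.card_toFinset_of_not_isDiag z.1 z.2⟩

theorem slotMap_bijective (n : ℕ) : Function.Bijective (slotMap n) := by
  constructor
  · intro z w h
    have h' : z.1.toFinset = w.1.toFinset := congrArg Subtype.val h
    apply Subtype.ext
    apply Sym2.ext
    intro x
    rw [← Sym2.mem_toFinset, ← Sym2.mem_toFinset, h']
  · rintro ⟨s, hs⟩
    obtain ⟨a, b, hab, rfl⟩ := Finset.card_eq_two.mp hs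
    refine ⟨⟨s(a, b), by simpa using hab⟩, ?_⟩
    apply Subtype.ext
    simp [slotMap, Sym2.toFinset_mk_eq]

/-- Edge slots are the same as 2-element subsets. -/
noncomputable def slotEquiv (n : ℕ) : EdgeSlot n ≃ HyperedgeSlot n 2 :=
  Equiv.ofBijective (slotMap n) (slotMap_bijective n)

theorem slotEquiv_mk (i j : Fin n) (h : ¬ (s(i, j) : Sym2 (Fin n)).IsDiag) :
    ((slotEquiv n ⟨s(i, j), h⟩ : HyperedgeSlot n 2) : Finset (Fin n)) = {i, j} := by
  simp [slotEquiv, slotMap, Sym2.toFinset_mk_eq]

theorem graphOf_adj (ω : EdgeSlot n → Bool) (i j : Fin n) (hij : i ≠ j) :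
    (graphOf ω).Adj i j ↔ ω ⟨s(i, j), by simpa using hij⟩ = true := by
  unfold graphOf
  rw [SimpleGraph.fromEdgeSet_adj]
  constructor
  · rintro ⟨⟨h, hω⟩, -⟩
    exact hω
  · intro h
    exact ⟨⟨by simpa using hij, h⟩, hij⟩

/-- The Boolean function on the graph cube attached to a graph property. -/
noncomputable def fP (P : Set (SimpleGraph (Fin n))) : (EdgeSlot n → Bool) → Bool :=
  fun ω => @decide (graphOf ω ∈ P) (Classical.propDecidable _)

theorem fP_eq_true_iff (P : Set (SimpleGraph (Fin n))) (ω : EdgeSlot n → Bool) :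
    fP P ω = true ↔ graphOf ω ∈ P := by
  unfold fP
  exact @decide_eq_true_iff _ (Classical.propDecidable _)

theorem gnpProb_eq_prT (p : ℝ) (P : Set (SimpleGraph (Fin n))) :
    gnpProb n p P = prT p (fP P) := by
  unfold gnpProb prT
  congr 1
  ext ω
  exact (fP_eq_true_iff P ω).symm

theorem graphOf_mono {x y : EdgeSlot n → Bool} (h : ∀ i, x i = true → y i = true) :
    graphOf x ≤ graphOf y := by
  intro i j hij
  have hne : i ≠ j := hij.ne
  rw [graphOf_adj _ _ _ hne] at hij ⊢
  exact h _ hij

theorem fP_mono (P : Set (SimpleGraph (Fin n)))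
    (hmono : ∀ G G' : SimpleGraph (Fin n), G ≤ G' → G ∈ P → G' ∈ P)
    (x y : EdgeSlot n → Bool) (h : ∀ i, x i = true → y i = true) (hx : fP P x = true) :
    fP P y = true := by
  rw [fP_eq_true_iff] at hx ⊢
  exact hmono _ _ (graphOf_mono h) hx

theorem graphOf_true : graphOf (fun _ : EdgeSlot n => true) = ⊤ := by
  ext i j
  by_cases hij : i = j
  · subst hij; simp
  · rw [graphOf_adj _ _ _ hij]; simp [hij]

theorem graphOf_false : graphOf (fun _ : EdgeSlot n => false) = ⊥ := by
  ext i j
  by_cases hij : i = j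
  · subst hij; simp
  · rw [graphOf_adj _ _ _ hij]; simp

theorem fP_true (P : Set (SimpleGraph (Fin n)))
    (hmono : ∀ G G' : SimpleGraph (Fin n), G ≤ G' → G ∈ P → G' ∈ P) (hne : P.Nonempty) :
    fP P (fun _ => true) = true := by
  obtain ⟨G, hG⟩ := hne
  rw [fP_eq_true_iff, graphOf_true]
  exact hmono G ⊤ le_top hG

theorem fP_false (P : Set (SimpleGraph (Fin n)))
    (hmono : ∀ G G' : SimpleGraph (Fin n), G ≤ G' → G ∈ P → G' ∈ P) (hnu : P ≠ Set.univ) :
    fP P (fun _ => false) = false := by
  by_contra h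
  have h' : fP P (fun _ => false) = true := by simpa using h
  rw [fP_eq_true_iff, graphOf_false] at h'
  exact hnu (Set.eq_univ_of_forall (fun G => hmono ⊥ G bot_le h'))

/-- Relabelling the 2-subsets corresponds to taking the comap/map of the graph. -/
theorem graphOf_relabel (σ : Equiv.Perm (Fin n)) (y : HyperedgeSlot n 2 → Bool) :
    (graphOf (relabel σ y ∘ slotEquiv n)).map σ.toEmbedding = graphOf (y ∘ slotEquiv n) := by
  ext a b
  rw [SimpleGraph.map_adj]
  have key : ∀ i j : Fin n, ∀ hij : i ≠ j,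
      (relabel σ y ∘ slotEquiv n) ⟨s(i, j), by simpa using hij⟩ =
        (y ∘ slotEquiv n) ⟨s(σ i, σ j), by simpa using hij⟩ := by
    intro i j hij
    simp only [Function.comp, relabel]
    congr 1
    apply Subtype.ext
    simp only [relabelSlot]
    rw [slotEquiv_mk, slotEquiv_mk]
    simp [Finset.map_insert]
  constructor
  · rintro ⟨u, v, huv, rfl, rfl⟩
    have hne : u ≠ v := huv.ne
    have hne' : σ u ≠ σ v := fun h => hne (σ.injective h)
    rw [graphOf_adj _ _ _ hne, key u v hne] at huv
    exact (graphOf_adj _ _ _ hne').mpr huv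
  · intro hab
    have hne : a ≠ b := hab.ne
    have hne' : σ.symm a ≠ σ.symm b := fun h => hne (σ.symm.injective h)
    refine ⟨σ.symm a, σ.symm b, ?_, by simp, by simp⟩
    rw [graphOf_adj _ _ _ hne', key _ _ hne']
    rw [graphOf_adj _ _ _ hne] at hab
    convert hab using 3; simp

theorem isSymmetric_pull_fP (P : Set (SimpleGraph (Fin n)))
    (hsymm : ∀ σ : Equiv.Perm (Fin n), ∀ G : SimpleGraph (Fin n), G ∈ P → G.map σ.toEmbedding ∈ P) :
    IsSymmetric (pull (slotEquiv n) (fP P)) := by
  intro σ y
  have h1 := graphOf_relabel σ y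
  have h2 : graphOf (relabel σ y ∘ slotEquiv n) ∈ P ↔ graphOf (y ∘ slotEquiv n) ∈ P := by
    constructor
    · intro h
      rw [← h1]
      exact hsymm σ _ h
    · intro h
      have h3 := hsymm σ.symm _ h
      rw [← h1, SimpleGraph.map_map] at h3
      have h4 : (⇑σ.symm.toEmbedding ∘ ⇑σ.toEmbedding) = id := by
        ext x; simp
      rw [h4, SimpleGraph.map_id] at h3
      exact h3
  unfold pull
  by_cases h : graphOf (y ∘ slotEquiv n) ∈ P
  · rw [(fP_eq_true_iff P _).mpr h, (fP_eq_true_iff P _).mpr (h2.mpr h)]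
  · have e1 : fP P (y ∘ slotEquiv n) = false := by
      rw [← Bool.not_eq_true, fP_eq_true_iff]; exact h
    have e2 : fP P (relabel σ y ∘ slotEquiv n) = false := by
      rw [← Bool.not_eq_true, fP_eq_true_iff]; exact fun h' => h (h2.mp h')
    rw [e1, e2]

/-- **Bridge.**  A variance/influence inequality for all symmetric Boolean functions on
`HyperedgeSlot n 2` gives the inequality for a symmetric graph property on `EdgeSlot n`. -/
theorem core_transfer (K p : ℝ)
    (hcore : ∀ f : (HyperedgeSlot n 2 → Bool) → Bool, IsSymmetric f →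
      prT p f * (1 - prT p f) ≤ K * totInfl p f)
    (P : Set (SimpleGraph (Fin n)))
    (hsymm : ∀ σ : Equiv.Perm (Fin n), ∀ G : SimpleGraph (Fin n), G ∈ P → G.map σ.toEmbedding ∈ P) :
    prT p (fP P) * (1 - prT p (fP P)) ≤ K * totInfl p (fP P) := by
  have h := hcore _ (isSymmetric_pull_fP P hsymm)
  rwa [prT_pull, totInfl_pull] at h

end Slots

end Crest.Agent.BK
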