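import Mathlib
import Crest.Prelude.Def_FinProb
import Crest.Prelude.Def_HypergraphCube
import Crest.Prelude.Def_RandomGraph
import Crest.Agent.S0078_Defs

/-!
# ROW56: bridge between `EdgeSlot n` (S0077) and `HyperedgeSlot n 2` (core theorem)

Independent backup of the BRIDGE package.
-/

namespace Crest.Agent.BK.Bridge2

open Crest.FinProb Crest.Agent.BK
open Crest.CombinatoricsR.RandomGraph Crest.CombinatoricsR.HypergraphCube

section transport

variable {ι ι' : Type*} [Fintype ι] [DecidableEq ι] [Fintype ι'] [DecidableEq ι']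

theorem bernoulliWeight_comp_equiv (e : ι ≃ ι') (p : ℝ) (x : ι' → Bool) :
    bernoulliWeight p (x ∘ e) = bernoulliWeight p x := by
  unfold bernoulliWeight
  exact Equiv.prod_comp e (fun j => if x j then p else 1 - p)

theorem bernoulliProb_comp_equiv (e : ι ≃ ι') (p : ℝ) (A : Set (ι → Bool)) :
    bernoulliProb p {x : ι' → Bool | x ∘ e ∈ A} = bernoulliProb p A := by
  classical
  unfold bernoulliProb
  rw [Finset.sum_filter, Finset.sum_filter]
  refine Fintype.sum_equiv (Equiv.arrowCongr e.symm (Equiv.refl Bool)) _ _ ?_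
  intro x
  have hx : (Equiv.arrowCongr e.symm (Equiv.refl Bool)) x = x ∘ e := by
    funext i
    simp [Equiv.arrowCongr]
  rw [hx, bernoulliWeight_comp_equiv]
  simp only [Set.mem_ofPred_eq]

theorem prT_comp_equiv (e : ι ≃ ι') (p : ℝ) (f : (ι → Bool) → Bool) :
    prT p (fun x : ι' → Bool => f (x ∘ e)) = prT p f := by
  unfold prT
  exact bernoulliProb_comp_equiv e p {x | f x = true}

theorem update_comp_equiv' (e : ι ≃ ι') (x : ι' → Bool) (a : ι) (b : Bool) :
    (Function.update x (e a) b) ∘ e = Function.update (x ∘ e) a b := by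
  funext i
  by_cases h : i = a
  · subst h; simp
  · have : e i ≠ e a := fun h' => h (e.injective h')
    simp [Function.update_of_ne h, Function.update_of_ne this]

theorem infl_comp_equiv (e : ι ≃ ι') (p : ℝ) (f : (ι → Bool) → Bool) (a : ι) :
    infl p (fun x : ι' → Bool => f (x ∘ e)) (e a) = infl p f a := by
  unfold infl
  have := bernoulliProb_comp_equiv e p
    {x | f (Function.update x a true) ≠ f (Function.update x a false)}
  rw [← this]
  congr 1
  ext x
  simp only [Set.mem_ofPred_eq, update_comp_equiv']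

theorem totInfl_comp_equiv (e : ι ≃ ι') (p : ℝ) (f : (ι → Bool) → Bool) :
    totInfl p (fun x : ι' → Bool => f (x ∘ e)) = totInfl p f := by
  unfold totInfl
  rw [← Equiv.sum_comp e]
  exact Finset.sum_congr rfl (fun a _ => infl_comp_equiv e p f a)

end transport

section slots

variable {n : ℕ}

/-- The map from edge slots to 2-subsets. -/
def slotMap (z : EdgeSlot n) : HyperedgeSlot n 2 :=
  ⟨z.1.toFinset, Sym2.card_toFinset_of_not_isDiag z.1 z.2⟩

theorem mem_slotMap (z : EdgeSlot n) (v : Fin n) : v ∈ (slotMap z).1 ↔ v ∈ z.1 := by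
  simp [slotMap]

theorem slotMap_bijective : Function.Bijective (slotMap (n := n)) := by
  constructor
  · intro z w h
    apply Subtype.ext
    apply Sym2.ext
    intro v
    rw [← mem_slotMap, ← mem_slotMap, h]
  · intro s
    obtain ⟨a, b, hab, hs⟩ := Finset.card_eq_two.mp s.2
    refine ⟨⟨s(a, b), by simpa using hab⟩, ?_⟩
    apply Subtype.ext
    ext v
    rw [mem_slotMap, hs]
    simp

/-- `EdgeSlot n ≃ HyperedgeSlot n 2`. -/
noncomputable def slotEquiv (n : ℕ) : EdgeSlot n ≃ HyperedgeSlot n 2 :=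
  Equiv.ofBijective slotMap slotMap_bijective

theorem slotEquiv_apply (z : EdgeSlot n) : slotEquiv n z = slotMap z := rfl

/-- The action of a vertex permutation on edge slots. -/
def edgeMap (σ : Equiv.Perm (Fin n)) (z : EdgeSlot n) : EdgeSlot n :=
  ⟨Sym2.map σ z.1, by
    have h := z.2
    intro hd
    exact h ((Sym2.isDiag_map σ.injective).mp hd)⟩

theorem slotMap_edgeMap (σ : Equiv.Perm (Fin n)) (z : EdgeSlot n) :
    slotMap (edgeMap σ z) = relabelSlot σ (slotMap z) := by
  apply Subtype.ext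
  ext v
  rw [mem_slotMap]
  simp only [edgeMap, relabelSlot, Finset.mem_map, Equiv.coe_toEmbedding, Sym2.mem_map]
  constructor
  · rintro ⟨u, hu, rfl⟩
    exact ⟨u, (mem_slotMap z u).mpr hu, rfl⟩
  · rintro ⟨u, hu, rfl⟩
    exact ⟨u, (mem_slotMap z u).mp hu, rfl⟩

theorem graphOf_adj (ω : EdgeSlot n → Bool) (i j : Fin n) :
    (graphOf ω).Adj i j ↔ ∃ h : ¬ (s(i, j) : Sym2 (Fin n)).IsDiag, ω ⟨s(i, j), h⟩ = true := by
  unfold graphOf
  rw [SimpleGraph.fromEdgeSet_adj]
  constructor
  · rintro ⟨h, _⟩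
    exact h
  · rintro ⟨h, hω⟩
    exact ⟨⟨h, hω⟩, by simpa using h⟩

theorem graphOf_comp_edgeMap_adj (σ : Equiv.Perm (Fin n)) (ω : EdgeSlot n → Bool) (i j : Fin n) :
    (graphOf (ω ∘ edgeMap σ)).Adj i j ↔ (graphOf ω).Adj (σ i) (σ j) := by
  rw [graphOf_adj, graphOf_adj]
  constructor
  · rintro ⟨h, hω⟩
    refine ⟨?_, ?_⟩
    · simpa using h
    · simpa [edgeMap] using hω
  · rintro ⟨h, hω⟩
    refine ⟨?_, ?_⟩
    · simpa using h
    · simpa [edgeMap] using hω

theorem map_graphOf_comp_edgeMap (σ : Equiv.Perm (Fin n)) (ω : EdgeSlot n → Bool) :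
    (graphOf (ω ∘ edgeMap σ)).map σ.toEmbedding = graphOf ω := by
  ext a b
  rw [SimpleGraph.map_adj]
  constructor
  · rintro ⟨u, v, huv, rfl, rfl⟩
    exact (graphOf_comp_edgeMap_adj σ ω u v).mp huv
  · intro hab
    refine ⟨σ.symm a, σ.symm b, ?_, by simp, by simp⟩
    rw [graphOf_comp_edgeMap_adj]
    simpa using hab

theorem map_symm_graphOf (σ : Equiv.Perm (Fin n)) (ω : EdgeSlot n → Bool) :
    (graphOf ω).map σ.symm.toEmbedding = graphOf (ω ∘ edgeMap σ) := by
  ext a b
  rw [SimpleGraph.map_adj, graphOf_comp_edgeMap_adj]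
  constructor
  · rintro ⟨u, v, huv, rfl, rfl⟩
    simpa using huv
  · intro hab
    exact ⟨σ a, σ b, hab, by simp, by simp⟩

end slots

section property

variable {n : ℕ}

open Classical in
/-- The Boolean function of the coins attached to a graph property. -/
noncomputable def fP (P : Set (SimpleGraph (Fin n))) : (EdgeSlot n → Bool) → Bool :=
  fun ω => decide (graphOf ω ∈ P)

theorem fP_eq_true (P : Set (SimpleGraph (Fin n))) (ω : EdgeSlot n → Bool) :
    fP P ω = true ↔ graphOf ω ∈ P := by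
  simp [fP]

theorem gnpProb_eq (p : ℝ) (P : Set (SimpleGraph (Fin n))) :
    gnpProb n p P = prT p (fP P) := by
  unfold gnpProb prT
  congr 1
  ext ω
  simp [fP_eq_true]

theorem graphOf_mono {x y : EdgeSlot n → Bool} (h : ∀ i, x i = true → y i = true) :
    graphOf x ≤ graphOf y := by
  intro a b hab
  rw [graphOf_adj] at hab ⊢
  obtain ⟨hd, hx⟩ := hab
  exact ⟨hd, h _ hx⟩

theorem fP_mono (P : Set (SimpleGraph (Fin n)))
    (hmono : ∀ G G' : SimpleGraph (Fin n), G ≤ G' → G ∈ P → G' ∈ P)
    (x y : EdgeSlot n → Bool) (h : ∀ i, x i = true → y i = true) (hx : fP P x = true) :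
    fP P y = true := by
  rw [fP_eq_true] at hx ⊢
  exact hmono _ _ (graphOf_mono h) hx

theorem graphOf_true : graphOf (fun _ : EdgeSlot n => true) = ⊤ := by
  ext a b
  rw [graphOf_adj]
  simp

theorem graphOf_false : graphOf (fun _ : EdgeSlot n => false) = ⊥ := by
  ext a b
  rw [graphOf_adj]
  simp

theorem fP_top (P : Set (SimpleGraph (Fin n)))
    (hmono : ∀ G G' : SimpleGraph (Fin n), G ≤ G' → G ∈ P → G' ∈ P) (hne : P.Nonempty) :
    fP P (fun _ => true) = true := by
  rw [fP_eq_true, graphOf_true]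
  obtain ⟨G, hG⟩ := hne
  exact hmono G ⊤ le_top hG

theorem fP_bot (P : Set (SimpleGraph (Fin n)))
    (hmono : ∀ G G' : SimpleGraph (Fin n), G ≤ G' → G ∈ P → G' ∈ P) (hnu : P ≠ Set.univ) :
    fP P (fun _ => false) = false := by
  by_contra h
  have h' : fP P (fun _ => false) = true := by
    cases hh : fP P (fun _ => false)
    · exact absurd hh h
    · rfl
  rw [fP_eq_true, graphOf_false] at h'
  apply hnu
  ext G
  simp only [Set.mem_univ, iff_true]
  exact hmono ⊥ G bot_le h'

/-- The property transported to `HyperedgeSlot n 2`. -/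
noncomputable def fH (P : Set (SimpleGraph (Fin n))) : (HyperedgeSlot n 2 → Bool) → Bool :=
  fun x => fP P (x ∘ slotEquiv n)

theorem fH_symm (P : Set (SimpleGraph (Fin n)))
    (hsymm : ∀ σ : Equiv.Perm (Fin n), ∀ G : SimpleGraph (Fin n), G ∈ P →
      G.map σ.toEmbedding ∈ P) : IsSymmetric (fH P) := by
  intro σ x
  have hcomp : (relabel σ x) ∘ slotEquiv n = (x ∘ slotEquiv n) ∘ edgeMap σ := by
    funext z
    simp only [Function.comp, relabel, slotEquiv_apply, slotMap_edgeMap]
  unfold fH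
  rw [hcomp]
  set ω := x ∘ slotEquiv n with hω
  have hiff : graphOf (ω ∘ edgeMap σ) ∈ P ↔ graphOf ω ∈ P := by
    constructor
    · intro h
      have := hsymm σ _ h
      rwa [map_graphOf_comp_edgeMap] at this
    · intro h
      have := hsymm σ.symm _ h
      rwa [map_symm_graphOf] at this
  by_cases h : graphOf ω ∈ P
  · rw [(fP_eq_true P ω).mpr h, (fP_eq_true P _).mpr (hiff.mpr h)]
  · have h1 : fP P ω = false := by
      cases hh : fP P ω
      · rfl
      · exact absurd ((fP_eq_true P ω).mp hh) h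
    have h2 : fP P (ω ∘ edgeMap σ) = false := by
      cases hh : fP P (ω ∘ edgeMap σ)
      · rfl
      · exact absurd (hiff.mp ((fP_eq_true P _).mp hh)) h
    rw [h1, h2]

/-- Transfer of the core inequality from `HyperedgeSlot n 2` to `EdgeSlot n`. -/
theorem core_transfer (P : Set (SimpleGraph (Fin n)))
    (hsymm : ∀ σ : Equiv.Perm (Fin n), ∀ G : SimpleGraph (Fin n), G ∈ P →
      G.map σ.toEmbedding ∈ P) (p K : ℝ)
    (hcore : ∀ f : (HyperedgeSlot n 2 → Bool) → Bool, IsSymmetric f →
      prT p f * (1 - prT p f) ≤ K * totInfl p f) :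
    prT p (fP P) * (1 - prT p (fP P)) ≤ K * totInfl p (fP P) := by
  have h := hcore (fH P) (fH_symm P hsymm)
  have h1 : prT p (fH P) = prT p (fP P) := prT_comp_equiv (slotEquiv n) p (fP P)
  have h2 : totInfl p (fH P) = totInfl p (fP P) := totInfl_comp_equiv (slotEquiv n) p (fP P)
  rwa [h1, h2] at h

end property

end Crest.Agent.BK.Bridge2
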