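import Mathlib
import Crest.Prelude.Def_FinProb
import Crest.Agent.S0078_Defs

/-!
ROW56, package G5: Russo's formula for `Crest.FinProb.bernoulliProb` on an abstract finite index
type and the logit/ODE argument which turns an inequality `Var ≤ K * I` into a bound for the
length of the threshold interval.
-/

set_option autoImplicit false
set_option linter.unusedSectionVars false

namespace Crest.Agent.R56Russo84

open Crest.FinProb Finset

variable {ι : Type*} [Fintype ι] [DecidableEq ι]

/-- flip the coordinate `i`. -/
def flip (i : ι) (x : ι → Bool) : ι → Bool := Function.update x i (!x i)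

lemma flip_flip (i : ι) (x : ι → Bool) : flip i (flip i x) = x := by
  unfold flip
  ext j
  by_cases h : j = i
  · subst h; simp
  · simp [Function.update_of_ne h]

/-- the flip as an equivalence. -/
def flipEquiv (i : ι) : (ι → Bool) ≃ (ι → Bool) := ⟨flip i, flip i, flip_flip i, flip_flip i⟩

lemma sum_flip (i : ι) (F : (ι → Bool) → ℝ) : ∑ x, F (flip i x) = ∑ x, F x :=
  Equiv.sum_comp (flipEquiv i) F

lemma two_mul_sum (i : ι) (F : (ι → Bool) → ℝ) : 2 * ∑ x, F x = ∑ x, (F x + F (flip i x)) := by
  rw [Finset.sum_add_distrib, sum_flip]; ring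

/-- the weight of the coordinates different from `i`. -/
noncomputable def restWeight (i : ι) (p : ℝ) (x : ι → Bool) : ℝ :=
  ∏ j ∈ Finset.univ.erase i, if x j then p else 1 - p

lemma weight_eq (i : ι) (p : ℝ) (x : ι → Bool) :
    bernoulliWeight p x = (if x i then p else 1 - p) * restWeight i p x := by
  unfold bernoulliWeight restWeight
  exact (Finset.mul_prod_erase Finset.univ (fun j => if x j then p else 1 - p)
    (Finset.mem_univ i)).symm

lemma restWeight_update (i : ι) (p : ℝ) (x : ι → Bool) (b : Bool) :
    restWeight i p (Function.update x i b) = restWeight i p x := by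
  unfold restWeight
  refine Finset.prod_congr rfl fun j hj => ?_
  rw [Function.update_of_ne (Finset.ne_of_mem_erase hj)]

lemma restWeight_flip (i : ι) (p : ℝ) (x : ι → Bool) :
    restWeight i p (flip i x) = restWeight i p x := restWeight_update i p x _

lemma weight_add_flip (i : ι) (p : ℝ) (x : ι → Bool) :
    bernoulliWeight p x + bernoulliWeight p (flip i x) = restWeight i p x := by
  rw [weight_eq i p x, weight_eq i p (flip i x), restWeight_flip]
  have : flip i x i = !x i := by simp [flip]
  rw [this]
  cases x i <;> simp <;> ring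

lemma bernoulliProb_eq_sum (p : ℝ) (E : Set (ι → Bool)) :
    bernoulliProb p E = ∑ x, bernoulliWeight p x * Set.indicator E (fun _ => (1 : ℝ)) x := by
  classical
  unfold bernoulliProb
  rw [Finset.sum_filter]
  refine Finset.sum_congr rfl fun x _ => ?_
  by_cases h : x ∈ E <;> simp [h]

lemma hasDerivAt_weight (p : ℝ) (x : ι → Bool) :
    HasDerivAt (fun t => bernoulliWeight t x)
      (∑ i, restWeight i p x * (if x i then 1 else -1)) p := by
  unfold bernoulliWeight restWeight
  have h : ∀ i ∈ (Finset.univ : Finset ι),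
      HasDerivAt (fun t : ℝ => if x i then t else 1 - t) (if x i then (1 : ℝ) else -1) p := by
    intro i _
    cases x i
    · simpa using (hasDerivAt_id' p).const_sub 1
    · simpa using hasDerivAt_id' p
  have := HasDerivAt.fun_finsetProd h
  simpa [smul_eq_mul] using this

/-- the signed pivotality of the coordinate `i`. -/
noncomputable def signedPiv (E : Set (ι → Bool)) (i : ι) (x : ι → Bool) : ℝ :=
  Set.indicator E (fun _ => (1 : ℝ)) (Function.update x i true) -
    Set.indicator E (fun _ => (1 : ℝ)) (Function.update x i false)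

lemma signedPiv_flip (E : Set (ι → Bool)) (i : ι) (x : ι → Bool) :
    signedPiv E i (flip i x) = signedPiv E i x := by
  unfold signedPiv flip
  simp

lemma key_identity (p : ℝ) (E : Set (ι → Bool)) (i : ι) :
    ∑ x, (restWeight i p x * (if x i then 1 else -1)) * Set.indicator E (fun _ => (1 : ℝ)) x =
      ∑ x, bernoulliWeight p x * signedPiv E i x := by
  have h2 : (2 : ℝ) ≠ 0 := two_ne_zero
  apply mul_left_cancel₀ h2
  rw [two_mul_sum i, two_mul_sum i]
  refine Finset.sum_congr rfl fun x _ => ?_
  rw [signedPiv_flip, ← add_mul, weight_add_flip, restWeight_flip]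
  have hfi : flip i x i = !x i := by simp [flip]
  rw [hfi]
  unfold signedPiv
  cases hx : x i
  · have h1 : Function.update x i false = x := by rw [← hx]; exact Function.update_eq_self i x
    have h3 : flip i x = Function.update x i true := by unfold flip; rw [hx]; rfl
    rw [h1, h3]; simp; ring
  · have h1 : Function.update x i true = x := by rw [← hx]; exact Function.update_eq_self i x
    have h3 : flip i x = Function.update x i false := by unfold flip; rw [hx]; rfl
    rw [h1, h3]; simp; ring

/-- Russo's formula, signed version (no monotonicity). -/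
theorem hasDerivAt_bernoulliProb (p : ℝ) (E : Set (ι → Bool)) :
    HasDerivAt (fun t => bernoulliProb t E)
      (∑ i, ∑ x, bernoulliWeight p x * signedPiv E i x) p := by
  have h1 : (fun t => bernoulliProb t E) =
      fun t => ∑ x, bernoulliWeight t x * Set.indicator E (fun _ => (1 : ℝ)) x := by
    funext t; exact bernoulliProb_eq_sum t E
  rw [h1]
  have h2 : ∑ i, ∑ x, bernoulliWeight p x * signedPiv E i x =
      ∑ x, (∑ i, restWeight i p x * (if x i then 1 else -1)) *
        Set.indicator E (fun _ => (1 : ℝ)) x := by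
    simp_rw [← key_identity, Finset.sum_mul]
    exact Finset.sum_comm
  rw [h2]
  exact HasDerivAt.fun_sum fun x _ => (hasDerivAt_weight p x).mul_const _

/-- monotone Boolean functions on the cube. -/
def Mono (f : (ι → Bool) → Bool) : Prop :=
  ∀ x y : ι → Bool, (∀ i, x i = true → y i = true) → f x = true → f y = true

lemma signedPiv_of_mono (f : (ι → Bool) → Bool) (hf : Mono f) (i : ι) (x : ι → Bool) :
    signedPiv {x | f x = true} i x =
      Set.indicator {x | f (Function.update x i true) ≠ f (Function.update x i false)}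
        (fun _ => (1 : ℝ)) x := by
  unfold signedPiv
  have hle : f (Function.update x i false) = true → f (Function.update x i true) = true := by
    apply hf
    intro j hj
    by_cases h : j = i
    · subst h; simp
    · rw [Function.update_of_ne h] at hj ⊢; exact hj
  cases h1 : f (Function.update x i true) <;> cases h0 : f (Function.update x i false)
  · simp [Set.indicator, h1, h0]
  · rw [hle h0] at h1; exact absurd h1 (by simp)
  · simp [Set.indicator, h1, h0]
  · simp [Set.indicator, h1, h0]

/-- **Russo's formula** for a monotone Boolean function, in the raw Prelude form. -/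
theorem russo (f : (ι → Bool) → Bool) (hf : Mono f) (p : ℝ) :
    HasDerivAt (fun t => bernoulliProb t {x | f x = true})
      (∑ i, bernoulliProb p
        {x | f (Function.update x i true) ≠ f (Function.update x i false)}) p := by
  have h := hasDerivAt_bernoulliProb p {x : ι → Bool | f x = true}
  have h2 : ∑ i, ∑ x, bernoulliWeight p x * signedPiv {x : ι → Bool | f x = true} i x =
      ∑ i, bernoulliProb p
        {x | f (Function.update x i true) ≠ f (Function.update x i false)} := by
    refine Finset.sum_congr rfl fun i _ => ?_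
    rw [bernoulliProb_eq_sum]
    refine Finset.sum_congr rfl fun x _ => ?_
    rw [signedPiv_of_mono f hf]
  rwa [h2] at h

lemma sum_weight (p : ℝ) : ∑ x : ι → Bool, bernoulliWeight p x = 1 := by
  unfold bernoulliWeight
  have := (Finset.prod_univ_sum (fun _ : ι => (Finset.univ : Finset Bool))
    (fun (_ : ι) (b : Bool) => if b then p else 1 - p)).symm
  rw [Fintype.piFinset_univ] at this
  rw [this]
  simp

lemma weight_pos {p : ℝ} (h0 : 0 < p) (h1 : p < 1) (x : ι → Bool) : 0 < bernoulliWeight p x := by
  unfold bernoulliWeight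
  refine Finset.prod_pos fun i _ => ?_
  cases x i
  · simpa using h1
  · simpa using h0

lemma weight_nonneg {p : ℝ} (h0 : 0 ≤ p) (h1 : p ≤ 1) (x : ι → Bool) :
    0 ≤ bernoulliWeight p x := by
  unfold bernoulliWeight
  refine Finset.prod_nonneg fun i _ => ?_
  cases x i
  · simpa using h1
  · simpa using h0

lemma prob_pos {p : ℝ} (h0 : 0 < p) (h1 : p < 1) (E : Set (ι → Bool)) (hE : E.Nonempty) :
    0 < bernoulliProb p E := by
  obtain ⟨x0, hx0⟩ := hE
  rw [bernoulliProb_eq_sum]
  refine Finset.sum_pos' (fun x _ => ?_) ⟨x0, Finset.mem_univ _, ?_⟩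
  · exact mul_nonneg (weight_pos h0 h1 x).le (Set.indicator_nonneg (fun _ _ => zero_le_one) x)
  · simpa [hx0] using weight_pos h0 h1 x0

lemma prob_add_compl (p : ℝ) (E : Set (ι → Bool)) :
    bernoulliProb p E + bernoulliProb p Eᶜ = 1 := by
  rw [bernoulliProb_eq_sum, bernoulliProb_eq_sum, ← Finset.sum_add_distrib]
  refine Eq.trans ?_ (sum_weight (ι := ι) p)
  refine Finset.sum_congr rfl fun x _ => ?_
  by_cases h : x ∈ E <;> simp [h]

lemma prob_lt_one {p : ℝ} (h0 : 0 < p) (h1 : p < 1) (E : Set (ι → Bool)) (hE : Eᶜ.Nonempty) :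
    bernoulliProb p E < 1 := by
  have := prob_pos h0 h1 Eᶜ hE
  have := prob_add_compl p E
  linarith

lemma prob_zero_of_mono (f : (ι → Bool) → Bool) (hf : Mono f) (hnu : ∃ x, f x = false) :
    bernoulliProb 0 {x | f x = true} = 0 := by
  rw [bernoulliProb_eq_sum]
  refine Finset.sum_eq_zero fun x _ => ?_
  by_cases hx : f x = true
  · have : ∃ i, x i = true := by
      by_contra hcon
      push Not at hcon
      obtain ⟨y, hy⟩ := hnu
      have := hf x y (fun i hi => absurd hi (hcon i)) hx
      rw [hy] at this; exact absurd this (by simp)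
    obtain ⟨i, hi⟩ := this
    have : bernoulliWeight 0 x = 0 := by
      unfold bernoulliWeight
      exact Finset.prod_eq_zero (Finset.mem_univ i) (by simp [hi])
    rw [this, zero_mul]
  · simp [hx]

lemma prob_one_of_mono (f : (ι → Bool) → Bool) (hf : Mono f) (hne : ∃ x, f x = true) :
    bernoulliProb 1 {x | f x = true} = 1 := by
  have h := prob_add_compl 1 {x : ι → Bool | f x = true}
  have h2 : bernoulliProb 1 {x : ι → Bool | f x = true}ᶜ = 0 := by
    rw [bernoulliProb_eq_sum]
    refine Finset.sum_eq_zero fun x _ => ?_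
    by_cases hx : f x = true
    · simp [hx]
    · have : ∃ i, x i = false := by
        by_contra hcon
        push Not at hcon
        obtain ⟨y, hy⟩ := hne
        exact hx (hf y x (fun i _ => by simpa using hcon i) hy)
      obtain ⟨i, hi⟩ := this
      have : bernoulliWeight 1 x = 0 := by
        unfold bernoulliWeight
        exact Finset.prod_eq_zero (Finset.mem_univ i) (by simp [hi])
      rw [this, zero_mul]
  linarith

/-- The logit/ODE argument: `Var ≤ K * I` on `(0,1)` bounds the threshold interval by
`4 K log (1/(2ε))`. -/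
theorem threshold_of_var_le (f : (ι → Bool) → Bool) (hf : Mono f)
    (hne : ∃ x, f x = true) (hnu : ∃ x, f x = false) (K : ℝ) (hK : 0 < K)
    (hcore : ∀ t : ℝ, 0 < t → t < 1 →
      bernoulliProb t {x | f x = true} * (1 - bernoulliProb t {x | f x = true}) ≤
        K * ∑ e, bernoulliProb t
          {x | f (Function.update x e true) ≠ f (Function.update x e false)})
    (ε : ℝ) (hε0 : 0 < ε) (hε : ε < 1 / 2) (p q : ℝ) (hp0 : 0 ≤ p) (hq1 : q ≤ 1)
    (hp : ε ≤ bernoulliProb p {x | f x = true})
    (hq : p + 4 * K * Real.log (1 / (2 * ε)) ≤ q) :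
    1 - ε ≤ bernoulliProb q {x | f x = true} := by
  set μ : ℝ → ℝ := fun t => bernoulliProb t {x | f x = true} with hμ
  set I : ℝ → ℝ := fun t => ∑ e, bernoulliProb t
          {x | f (Function.update x e true) ≠ f (Function.update x e false)} with hI
  by_contra hcon
  push Not at hcon
  have hp0' : 0 < p := by
    rcases hp0.lt_or_eq with h | h
    · exact h
    · exfalso
      rw [← h, prob_zero_of_mono f hf hnu] at hp
      linarith
  have hq1' : q < 1 := by
    rcases hq1.lt_or_eq with h | h
    · exact h
    · exfalso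
      rw [h, prob_one_of_mono f hf hne] at hcon
      linarith
  have hlogpos : 0 < Real.log (1 / (2 * ε)) := by
    apply Real.log_pos
    rw [lt_div_iff₀ (by positivity)]
    linarith
  have hpq : p < q := by
    have : 0 < 4 * K * Real.log (1 / (2 * ε)) := by positivity
    linarith
  have hμpos : ∀ t, 0 < t → t < 1 → 0 < μ t := fun t h0 h1 =>
    prob_pos h0 h1 _ (by obtain ⟨x, hx⟩ := hne; exact ⟨x, hx⟩)
  have hμlt : ∀ t, 0 < t → t < 1 → μ t < 1 := fun t h0 h1 =>
    prob_lt_one h0 h1 _ (by obtain ⟨x, hx⟩ := hnu; exact ⟨x, by simp [hx]⟩)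
  set g : ℝ → ℝ := fun t => Real.log (μ t) - Real.log (1 - μ t) with hg
  have hgd : ∀ t, 0 < t → t < 1 → HasDerivAt g (I t / μ t - (-I t) / (1 - μ t)) t := by
    intro t h0 h1
    have hd : HasDerivAt μ (I t) t := russo f hf t
    have h1' := hd.log (hμpos t h0 h1).ne'
    have h2' := (hd.const_sub 1).log (sub_pos.2 (hμlt t h0 h1)).ne'
    exact h1'.sub h2'
  have hmv := (convex_Icc p q).mul_sub_le_image_sub_of_le_deriv (f := g) (C := 1 / K)
    (fun t ht => (hgd t (lt_of_lt_of_le hp0' ht.1) (lt_of_le_of_lt ht.2 hq1')).continuousAt.continuousWithinAt)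
    (fun t ht => by
      rw [interior_Icc] at ht
      exact (hgd t (hp0'.trans ht.1) (ht.2.trans hq1')).differentiableAt.differentiableWithinAt)
    (fun t ht => by
      rw [interior_Icc] at ht
      have h0 := hp0'.trans ht.1
      have h1 := ht.2.trans hq1'
      rw [(hgd t h0 h1).deriv]
      have ha := hμpos t h0 h1
      have hb := sub_pos.2 (hμlt t h0 h1)
      have hc := hcore t h0 h1
      have : I t / μ t - (-I t) / (1 - μ t) = I t / (μ t * (1 - μ t)) := by
        field_simp; ring
      rw [this, div_le_div_iff₀ hK (mul_pos ha hb)]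
      linarith)
    p (Set.left_mem_Icc.2 hpq.le) q (Set.right_mem_Icc.2 hpq.le) hpq.le
  have hp1' : p < 1 := hpq.trans hq1'
  have hq0' : 0 < q := hp0'.trans hpq
  have e1 : Real.log ε ≤ Real.log (μ p) := Real.log_le_log hε0 hp
  have e2 : Real.log (1 - μ p) ≤ Real.log (1 - ε) :=
    Real.log_le_log (sub_pos.2 (hμlt p hp0' hp1')) (by linarith)
  have e3 : Real.log (μ q) < Real.log (1 - ε) := Real.log_lt_log (hμpos q hq0' hq1') hcon
  have e4 : Real.log ε < Real.log (1 - μ q) := Real.log_lt_log hε0 (by linarith)
  have e5 : Real.log (1 - ε) + Real.log ε + 2 * Real.log 2 ≤ 0 := by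
    have : Real.log (1 - ε) + Real.log ε + 2 * Real.log 2 = Real.log ((1 - ε) * ε * (2 * 2)) := by
      rw [Real.log_mul (by nlinarith) (by norm_num), Real.log_mul (by linarith) hε0.ne',
        Real.log_mul (by norm_num) (by norm_num)]
      ring
    rw [this]
    apply Real.log_nonpos (by nlinarith)
    nlinarith [sq_nonneg (1 - 2 * ε)]
  have e6 : Real.log (1 / (2 * ε)) = - Real.log 2 - Real.log ε := by
    rw [one_div, Real.log_inv, Real.log_mul (by norm_num) hε0.ne']; ring
  have e7 : 4 * Real.log (1 / (2 * ε)) ≤ 1 / K * (q - p) := by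
    rw [div_mul_eq_mul_div, one_mul, le_div_iff₀ hK]
    linarith
  simp only [hg] at hmv
  linarith

/-- Russo's formula on the names of `S0078_Defs`. -/
theorem russo_BK (f : (ι → Bool) → Bool) (hf : Mono f) (p : ℝ) :
    HasDerivAt (fun t => Crest.Agent.BK.prT t f) (Crest.Agent.BK.totInfl p f) p :=
  russo f hf p

/-- The threshold lemma on the names of `S0078_Defs`. -/
theorem threshold_BK (f : (ι → Bool) → Bool) (hf : Mono f)
    (hne : ∃ x, f x = true) (hnu : ∃ x, f x = false) (K : ℝ) (hK : 0 < K)
    (hcore : ∀ t : ℝ, 0 < t → t < 1 →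
      Crest.Agent.BK.prT t f * (1 - Crest.Agent.BK.prT t f) ≤ K * Crest.Agent.BK.totInfl t f)
    (ε : ℝ) (hε0 : 0 < ε) (hε : ε < 1 / 2) (p q : ℝ) (hp0 : 0 ≤ p) (hq1 : q ≤ 1)
    (hp : ε ≤ Crest.Agent.BK.prT p f)
    (hq : p + 4 * K * Real.log (1 / (2 * ε)) ≤ q) :
    1 - ε ≤ Crest.Agent.BK.prT q f :=
  threshold_of_var_le f hf hne hnu K hK hcore ε hε0 hε p q hp0 hq1 hp hq

end Crest.Agent.R56Russo84
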