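import Mathlib
import Crest.Agent.S0078_Defs
import Crest.Agent.S0078_Bonami

/-!
# ROW56: the Block Lemma (abstract cube)
Auxiliary facts live in the namespace `Crest.Agent.BK.Block`.
-/

namespace Crest.Agent.BK

open Crest.FinProb

variable {ι : Type*} [Fintype ι] [DecidableEq ι]

set_option linter.unusedSectionVars false

namespace Block

lemma bw_nonneg {p : ℝ} (hp0 : 0 ≤ p) (hp1 : p ≤ 1) (x : ι → Bool) :
    0 ≤ bernoulliWeight p x := by
  unfold bernoulliWeight
  apply Finset.prod_nonneg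
  intro i _
  split_ifs <;> linarith

lemma sg_pos {p : ℝ} (hp0 : 0 < p) (hp1 : p < 1) : 0 < sg p :=
  Real.sqrt_pos.mpr (mul_pos hp0 (by linarith))

lemma sg_sq {p : ℝ} (hp0 : 0 < p) (hp1 : p < 1) : sg p ^ 2 = p * (1 - p) :=
  Real.sq_sqrt (mul_pos hp0 (by linarith)).le

/-- product formula -/
lemma E_prod (p : ℝ) (G : ι → Bool → ℝ) :
    E p (fun x => ∏ i, G i (x i)) = ∏ i, (p * G i true + (1 - p) * G i false) := by
  unfold E bernoulliWeight
  have h1 : ∀ x : ι → Bool, (∏ i, if x i then p else 1 - p) * ∏ i, G i (x i)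
      = ∏ i, ((if x i then p else 1 - p) * G i (x i)) := fun x => Finset.prod_mul_distrib.symm
  simp_rw [h1]
  have h2 := Finset.prod_univ_sum (fun _ : ι => (Finset.univ : Finset Bool))
    (fun i b => (if b then p else 1 - p) * G i b)
  rw [Fintype.piFinset_univ] at h2
  rw [← h2]
  simp

lemma E_sum (p : ℝ) {κ : Type*} (s : Finset κ) (G : κ → (ι → Bool) → ℝ) :
    E p (fun x => ∑ k ∈ s, G k x) = ∑ k ∈ s, E p (G k) := by
  unfold E
  simp_rw [Finset.mul_sum]
  exact Finset.sum_comm

lemma E_const_mul (p : ℝ) (c : ℝ) (G : (ι → Bool) → ℝ) :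
    E p (fun x => c * G x) = c * E p G := by
  unfold E
  rw [Finset.mul_sum]
  exact Finset.sum_congr rfl (fun x _ => by ring)

lemma E_mono {p : ℝ} (hp0 : 0 ≤ p) (hp1 : p ≤ 1) {F G : (ι → Bool) → ℝ} (h : ∀ x, F x ≤ G x) :
    E p F ≤ E p G := by
  unfold E
  exact Finset.sum_le_sum (fun x _ => mul_le_mul_of_nonneg_left (h x) (bw_nonneg hp0 hp1 x))

lemma E_nonneg {p : ℝ} (hp0 : 0 ≤ p) (hp1 : p ≤ 1) {F : (ι → Bool) → ℝ} (h : ∀ x, 0 ≤ F x) :
    0 ≤ E p F := by
  unfold E
  exact Finset.sum_nonneg (fun x _ => mul_nonneg (bw_nonneg hp0 hp1 x) (h x))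

lemma abs_E_le {p : ℝ} (hp0 : 0 ≤ p) (hp1 : p ≤ 1) (F : (ι → Bool) → ℝ) :
    |E p F| ≤ E p (fun x => |F x|) := by
  unfold E
  refine (Finset.abs_sum_le_sum_abs _ _).trans (le_of_eq ?_)
  exact Finset.sum_congr rfl (fun x _ => by rw [abs_mul, abs_of_nonneg (bw_nonneg hp0 hp1 x)])

lemma chi_eq_prod (p : ℝ) (S : Finset ι) (x : ι → Bool) :
    chi p S x = ∏ i, (if i ∈ S then chi1 p (x i) else 1) := by
  unfold chi
  rw [Finset.prod_ite_mem, Finset.univ_inter]

lemma chi1_mean {p : ℝ} : p * chi1 p true + (1 - p) * chi1 p false = 0 := by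
  simp only [chi1, if_true, Bool.false_eq_true, if_false]
  ring

lemma chi1_sq {p : ℝ} (hp0 : 0 < p) (hp1 : p < 1) :
    p * (chi1 p true * chi1 p true) + (1 - p) * (chi1 p false * chi1 p false) = 1 := by
  have hs := sg_pos hp0 hp1
  have hs2 := sg_sq hp0 hp1
  simp only [chi1, if_true, Bool.false_eq_true, if_false]
  field_simp
  rw [hs2]; ring

lemma chi1_diff {p : ℝ} : chi1 p true - chi1 p false = 1 / sg p := by
  simp only [chi1, if_true, Bool.false_eq_true, if_false]
  ring

lemma E_chi_mul_chi {p : ℝ} (hp0 : 0 < p) (hp1 : p < 1) (S T : Finset ι) :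
    E p (fun x => chi p S x * chi p T x) = if S = T then 1 else 0 := by
  have h1 : ∀ x : ι → Bool, chi p S x * chi p T x
      = ∏ i, ((if i ∈ S then chi1 p (x i) else 1) * (if i ∈ T then chi1 p (x i) else 1)) := by
    intro x
    rw [chi_eq_prod, chi_eq_prod, Finset.prod_mul_distrib]
  simp_rw [h1]
  rw [E_prod p (fun i b => (if i ∈ S then chi1 p b else 1) * (if i ∈ T then chi1 p b else 1))]
  split_ifs with h
  · subst h
    apply Finset.prod_eq_one
    intro i _
    by_cases hi : i ∈ S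
    · simp only [hi, if_true]; exact chi1_sq hp0 hp1
    · simp only [hi, if_false]; ring
  · have : ∃ i, ¬ (i ∈ S ↔ i ∈ T) := by
      by_contra hcon
      push Not at hcon
      exact h (Finset.ext hcon)
    obtain ⟨i, hi⟩ := this
    apply Finset.prod_eq_zero (Finset.mem_univ i)
    by_cases h1 : i ∈ S <;> by_cases h2 : i ∈ T
    · exact absurd (iff_of_true h1 h2) hi
    · simp only [h1, h2, if_true, if_false, mul_one]; exact chi1_mean
    · simp only [h1, h2, if_true, if_false, one_mul]; exact chi1_mean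
    · exact absurd (iff_of_false h1 h2) hi

lemma chi_empty (p : ℝ) (x : ι → Bool) : chi p ∅ x = 1 := by simp [chi]

lemma E_chi {p : ℝ} (hp0 : 0 < p) (hp1 : p < 1) (S : Finset ι) :
    E p (chi p S) = if S = ∅ then 1 else 0 := by
  have := E_chi_mul_chi hp0 hp1 S (∅ : Finset ι)
  simpa [chi_empty] using this

lemma E_lin_mul_lin {p : ℝ} (hp0 : 0 < p) (hp1 : p < 1) (c c' : Finset ι → ℝ) :
    E p (fun x => (∑ S, c S * chi p S x) * (∑ T, c' T * chi p T x)) = ∑ S, c S * c' S := by
  have h1 : ∀ x : ι → Bool, (∑ S, c S * chi p S x) * (∑ T, c' T * chi p T x)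
      = ∑ S, ∑ T, (c S * c' T) * (chi p S x * chi p T x) := by
    intro x
    rw [Finset.sum_mul_sum]
    exact Finset.sum_congr rfl (fun S _ => Finset.sum_congr rfl (fun T _ => by ring))
  simp_rw [h1]
  rw [E_sum]
  apply Finset.sum_congr rfl
  intro S _
  rw [E_sum]
  simp_rw [E_const_mul, E_chi_mul_chi hp0 hp1]
  simp

lemma compl1 {p : ℝ} (hp0 : 0 < p) (hp1 : p < 1) (b b' : Bool) :
    (if b then p else 1 - p) * (1 + chi1 p b * chi1 p b') = if b = b' then 1 else 0 := by
  have hs := sg_pos hp0 hp1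
  have hs2 := sg_sq hp0 hp1
  have h1p : (0:ℝ) < 1 - p := by linarith
  cases b <;> cases b' <;> simp only [chi1, if_true, Bool.false_eq_true, if_false, reduceCtorEq] <;>
    field_simp <;> rw [hs2] <;> ring

lemma expansion {p : ℝ} (hp0 : 0 < p) (hp1 : p < 1) (F : (ι → Bool) → ℝ) (x : ι → Bool) :
    F x = ∑ S : Finset ι, fh p F S * chi p S x := by
  have key : ∀ x0 : ι → Bool, bernoulliWeight p x0 * ∑ S : Finset ι, chi p S x0 * chi p S x
      = if x0 = x then 1 else 0 := by
    intro x0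
    have h1 : ∑ S : Finset ι, chi p S x0 * chi p S x = ∏ i, (1 + chi1 p (x0 i) * chi1 p (x i)) := by
      rw [Finset.prod_one_add, Finset.powerset_univ]
      exact Finset.sum_congr rfl (fun S _ => by unfold chi; rw [Finset.prod_mul_distrib])
    rw [h1]
    unfold bernoulliWeight
    rw [← Finset.prod_mul_distrib]
    simp_rw [compl1 hp0 hp1]
    split_ifs with h
    · subst h; simp
    · have : ∃ i, x0 i ≠ x i := by
        by_contra hcon
        push Not at hcon
        exact h (funext hcon)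
      obtain ⟨i, hi⟩ := this
      exact Finset.prod_eq_zero (Finset.mem_univ i) (by simp [hi])
  unfold fh E
  simp_rw [Finset.sum_mul]
  rw [Finset.sum_comm]
  have h2 : ∀ x0 : ι → Bool, ∑ S : Finset ι, bernoulliWeight p x0 * (F x0 * chi p S x0) * chi p S x
      = F x0 * (if x0 = x then 1 else 0) := by
    intro x0
    rw [← key x0, Finset.mul_sum, Finset.mul_sum]
    exact Finset.sum_congr rfl (fun S _ => by ring)
  simp_rw [h2]
  simp

lemma E_chi_mix {p : ℝ} (J T : Finset ι) (x : ι → Bool) :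
    E p (fun z => chi p T (mix J x z)) = if Disjoint T J then chi p T x else 0 := by
  have h1 : ∀ z : ι → Bool, chi p T (mix J x z)
      = ∏ i, (if i ∈ T then (if i ∈ J then chi1 p (z i) else chi1 p (x i)) else 1) := by
    intro z
    rw [chi_eq_prod]
    apply Finset.prod_congr rfl
    intro i _
    by_cases hT : i ∈ T <;> by_cases hJ : i ∈ J <;> simp [hT, hJ, mix]
  simp_rw [h1]
  rw [E_prod p (fun i b => if i ∈ T then (if i ∈ J then chi1 p b else chi1 p (x i)) else 1)]
  split_ifs with h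
  · rw [chi_eq_prod]
    apply Finset.prod_congr rfl
    intro i _
    by_cases hT : i ∈ T
    · have hJ : i ∉ J := Finset.disjoint_left.mp h hT
      simp only [hT, hJ, if_true, if_false]; ring
    · simp only [hT, if_false]; ring
  · rw [Finset.not_disjoint_iff] at h
    obtain ⟨i, hT, hJ⟩ := h
    apply Finset.prod_eq_zero (Finset.mem_univ i)
    simp only [hT, hJ, if_true]
    exact chi1_mean

lemma fh_empty (p : ℝ) (F : (ι → Bool) → ℝ) : fh p F ∅ = E p F := by
  unfold fh
  simp [chi_empty]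

/-- averaging out the coordinates in `J`, in Fourier terms -/
lemma E_mix_expansion {p : ℝ} (hp0 : 0 < p) (hp1 : p < 1) (J : Finset ι) (F : (ι → Bool) → ℝ)
    (x : ι → Bool) :
    E p (fun z => F (mix J x z)) = ∑ S, (if Disjoint S J then fh p F S else 0) * chi p S x := by
  have h1 : ∀ z : ι → Bool, F (mix J x z) = ∑ S, fh p F S * chi p S (mix J x z) :=
    fun z => expansion hp0 hp1 F _
  simp_rw [h1]
  rw [E_sum]
  apply Finset.sum_congr rfl
  intro S _
  rw [E_const_mul, E_chi_mix]
  split_ifs <;> ring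

/-- the `mix` lemma -/
lemma E_mix {p : ℝ} (hp0 : 0 < p) (hp1 : p < 1) (J : Finset ι) (F : (ι → Bool) → ℝ) :
    E p (fun x => E p (fun z => F (mix J x z))) = E p F := by
  simp_rw [E_mix_expansion hp0 hp1 J F]
  rw [E_sum]
  simp_rw [E_const_mul]
  have : ∀ S : Finset ι, E p (fun x => chi p S x) = if S = ∅ then 1 else 0 := E_chi hp0 hp1
  simp_rw [this]
  simp [fh_empty]

lemma chi_update (p : ℝ) (S : Finset ι) (x : ι → Bool) (a : ι) (b : Bool) :
    chi p S (Function.update x a b)
      = if a ∈ S then chi1 p b * chi p (S.erase a) x else chi p S x := by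
  unfold chi
  split_ifs with h
  · rw [← Finset.mul_prod_erase S _ h]
    congr 1
    · simp
    · apply Finset.prod_congr rfl
      intro i hi
      rw [Function.update_of_ne (Finset.ne_of_mem_erase hi)]
  · apply Finset.prod_congr rfl
    intro i hi
    have hne : i ≠ a := fun h' => h (h' ▸ hi)
    rw [Function.update_of_ne hne]

lemma reindex (a : ι) (φ : Finset ι → ℝ) :
    ∑ T : Finset ι, (if a ∈ T then 0 else φ (insert a T)) = ∑ A : Finset ι, (if a ∈ A then φ A else 0) := by
  have e1 : ∑ T : Finset ι, (if a ∈ T then 0 else φ (insert a T))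
      = ∑ T ∈ Finset.univ.filter (fun T : Finset ι => a ∉ T), φ (insert a T) := by
    rw [Finset.sum_filter]
    exact Finset.sum_congr rfl (fun T _ => by by_cases h : a ∈ T <;> simp [h])
  have e2 : ∑ A : Finset ι, (if a ∈ A then φ A else 0)
      = ∑ A ∈ Finset.univ.filter (fun A : Finset ι => a ∈ A), φ A := by
    rw [Finset.sum_filter]
  rw [e1, e2]
  apply Finset.sum_nbij' (fun T => insert a T) (fun A => A.erase a)
  · intro T _; simp
  · intro A _; simp
  · intro T hT
    simp only [Finset.mem_filter, Finset.mem_univ, true_and] at hT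
    exact Finset.erase_insert hT
  · intro A hA
    simp only [Finset.mem_filter, Finset.mem_univ, true_and] at hA
    exact Finset.insert_erase hA
  · intro T _; rfl

/-- Fourier expansion of the discrete derivative -/
lemma D_expansion {p : ℝ} (hp0 : 0 < p) (hp1 : p < 1) (a : ι) (F : (ι → Bool) → ℝ)
    (x : ι → Bool) :
    D a F x = ∑ T : Finset ι, (if a ∈ T then 0 else fh p F (insert a T) / sg p) * chi p T x := by
  unfold D
  rw [expansion hp0 hp1 F (Function.update x a true), expansion hp0 hp1 F (Function.update x a false),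
    ← Finset.sum_sub_distrib]
  have h1 : ∀ S : Finset ι, fh p F S * chi p S (Function.update x a true)
      - fh p F S * chi p S (Function.update x a false)
      = if a ∈ S then fh p F S / sg p * chi p (S.erase a) x else 0 := by
    intro S
    rw [chi_update, chi_update]
    split_ifs with h
    · have := @chi1_diff p
      have e : fh p F S * (chi1 p true * chi p (S.erase a) x)
          - fh p F S * (chi1 p false * chi p (S.erase a) x)
          = fh p F S * (chi1 p true - chi1 p false) * chi p (S.erase a) x := by ring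
      rw [e, this]; ring
    · ring
  simp_rw [h1]
  rw [← reindex a (fun A => fh p F A / sg p * chi p (A.erase a) x)]
  apply Finset.sum_congr rfl
  intro T _
  split_ifs with h
  · ring
  · rw [Finset.erase_insert h]

/-- Hölder with exponents (2,4,4) -/
lemma holder {p : ℝ} (hp0 : 0 ≤ p) (hp1 : p ≤ 1) (d h : (ι → Bool) → ℝ) :
    (E p (fun x => d x * h x)) ^ 4
      ≤ (E p (fun x => |d x|)) ^ 2 * E p (fun x => d x ^ 2) * E p (fun x => h x ^ 4) := by
  have hw := fun x : ι → Bool => bw_nonneg hp0 hp1 x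
  have s0 : |E p (fun x => d x * h x)| ≤ E p (fun x => |d x| * |h x|) := by
    refine (abs_E_le hp0 hp1 _).trans (le_of_eq ?_)
    simp_rw [abs_mul]
  have s1 : (E p (fun x => |d x| * |h x|)) ^ 2
      ≤ E p (fun x => |d x|) * E p (fun x => |d x| * h x ^ 2) := by
    unfold E
    apply Finset.sum_sq_le_sum_mul_sum_of_sq_le_mul
    · intro x _; exact mul_nonneg (hw x) (abs_nonneg _)
    · intro x _; exact mul_nonneg (hw x) (mul_nonneg (abs_nonneg _) (sq_nonneg _))
    · intro x _
      have : |h x| ^ 2 = h x ^ 2 := sq_abs _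
      apply le_of_eq
      calc (bernoulliWeight p x * (|d x| * |h x|)) ^ 2
          = bernoulliWeight p x ^ 2 * |d x| ^ 2 * |h x| ^ 2 := by ring
        _ = _ := by rw [this]; ring
  have s2 : (E p (fun x => |d x| * h x ^ 2)) ^ 2
      ≤ E p (fun x => d x ^ 2) * E p (fun x => h x ^ 4) := by
    unfold E
    apply Finset.sum_sq_le_sum_mul_sum_of_sq_le_mul
    · intro x _; exact mul_nonneg (hw x) (sq_nonneg _)
    · intro x _; exact mul_nonneg (hw x) (by positivity)
    · intro x _
      have : |d x| ^ 2 = d x ^ 2 := sq_abs _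
      apply le_of_eq
      calc (bernoulliWeight p x * (|d x| * h x ^ 2)) ^ 2
          = bernoulliWeight p x ^ 2 * |d x| ^ 2 * h x ^ 4 := by ring
        _ = _ := by rw [this]; ring
  have n1 : 0 ≤ E p (fun x => |d x|) := E_nonneg hp0 hp1 (fun x => abs_nonneg _)
  have n2 : 0 ≤ E p (fun x => |d x| * h x ^ 2) :=
    E_nonneg hp0 hp1 (fun x => mul_nonneg (abs_nonneg _) (sq_nonneg _))
  have n3 : 0 ≤ E p (fun x => |d x| * |h x|) :=
    E_nonneg hp0 hp1 (fun x => mul_nonneg (abs_nonneg _) (abs_nonneg _))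
  calc (E p (fun x => d x * h x)) ^ 4 = (|E p (fun x => d x * h x)| ^ 2) ^ 2 := by
        rw [sq_abs]; ring
    _ ≤ ((E p (fun x => |d x| * |h x|)) ^ 2) ^ 2 := by
        gcongr
    _ ≤ (E p (fun x => |d x|) * E p (fun x => |d x| * h x ^ 2)) ^ 2 := by
        gcongr
    _ = (E p (fun x => |d x|)) ^ 2 * (E p (fun x => |d x| * h x ^ 2)) ^ 2 := by ring
    _ ≤ (E p (fun x => |d x|)) ^ 2 * (E p (fun x => d x ^ 2) * E p (fun x => h x ^ 4)) := by
        gcongr
    _ = _ := by ring

lemma fh_lin {p : ℝ} (hp0 : 0 < p) (hp1 : p < 1) (γ : Finset ι → ℝ) (S : Finset ι) :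
    fh p (fun x => ∑ T, γ T * chi p T x) S = γ S := by
  unfold fh
  have h1 : ∀ x : ι → Bool, (∑ T, γ T * chi p T x) * chi p S x
      = (∑ T, γ T * chi p T x) * (∑ T, (if T = S then 1 else 0) * chi p T x) := by
    intro x
    congr 1
    simp
  simp_rw [h1]
  rw [E_lin_mul_lin hp0 hp1]
  simp

lemma fh_D {p : ℝ} (hp0 : 0 < p) (hp1 : p < 1) (a : ι) (F : (ι → Bool) → ℝ) (T : Finset ι) :
    fh p (D a F) T = if a ∈ T then 0 else fh p F (insert a T) / sg p := by
  have : D a F = fun x => ∑ T : Finset ι,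
      (if a ∈ T then 0 else fh p F (insert a T) / sg p) * chi p T x :=
    funext (D_expansion hp0 hp1 a F)
  rw [this, fh_lin hp0 hp1]

lemma prob_eq_E (p : ℝ) (S : Set (ι → Bool)) [DecidablePred (· ∈ S)] :
    bernoulliProb p S = E p (fun x => if x ∈ S then 1 else 0) := by
  unfold bernoulliProb E
  rw [Finset.sum_filter]
  apply Finset.sum_congr rfl
  intro x _
  by_cases h : x ∈ S <;> simp [h]

lemma E_abs_D_ind (p : ℝ) (g : (ι → Bool) → Bool) (a : ι) :
    E p (fun x => |D a (ind g) x|) = infl p g a := by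
  classical
  unfold infl
  rw [prob_eq_E]
  congr 1
  funext x
  by_cases h : g (Function.update x a true) = g (Function.update x a false)
  · have h' : x ∉ {x | g (Function.update x a true) ≠ g (Function.update x a false)} :=
      fun hx => hx h
    rw [if_neg h']; simp [D, ind, h]
  · have h' : x ∈ {x | g (Function.update x a true) ≠ g (Function.update x a false)} := h
    rw [if_pos h']
    simp only [D, ind]
    cases h1 : g (Function.update x a true) <;> cases h2 : g (Function.update x a false) <;>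
      simp_all

lemma sum_powerset_filter (B : Finset ι) (P : Finset ι → Prop) [DecidablePred P]
    (φ : Finset ι → ℝ) :
    ∑ A ∈ B.powerset.filter P, φ A = ∑ A : Finset ι, if A ⊆ B ∧ P A then φ A else 0 := by
  rw [← Finset.sum_filter]
  apply Finset.sum_congr _ (fun _ _ => rfl)
  ext A; simp

/-- The form of the Bonami lemma that is used. -/
def BonamiStmt (ι : Type*) [Fintype ι] [DecidableEq ι] (p : ℝ) : Prop :=
  ∀ (c : Finset ι → ℝ) (k : ℕ), (∀ S, k < S.card → c S = 0) →
    E p (fun x => (∑ S, c S * chi p S x) ^ 4) ≤ (2 / sg p) ^ (2 * k) * (∑ S, c S ^ 2) ^ 2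

/-- the per-coordinate estimate -/
lemma per_coord {p : ℝ} (hp0 : 0 < p) (hp1 : p < 1) (hBon : BonamiStmt ι p)
    (g : (ι → Bool) → Bool) (B : Finset ι) (y : ℝ) (hy : 0 < y)
    (hw : y * ∑ A ∈ B.powerset.filter (fun A => A.Nonempty), fh p (ind g) A ^ 2 ≤ 1)
    (D' : ℕ) (hD : 1 ≤ D') (a : ι) (ha : a ∈ B) :
    ∑ A : Finset ι, (if a ∈ A then (if A ⊆ B ∧ A.card ≤ D' then (fh p (ind g) A / sg p) ^ 2 else 0)
        else 0)
      ≤ infl p g a * (2 / sg p) ^ (D' - 1) / (sg p * Real.sqrt y) := by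
  have hs := sg_pos hp0 hp1
  have hp0' := hp0.le
  have hp1' := hp1.le
  have hy0 : (0:ℝ) < y := hy
  set c : Finset ι → ℝ := fun A => fh p (ind g) A with hc
  set cd : Finset ι → ℝ := fun T => if a ∈ T then 0 else
    (if insert a T ⊆ B then c (insert a T) / sg p else 0) with hcd
  set ch : Finset ι → ℝ := fun T => if a ∈ T then 0 else
    (if insert a T ⊆ B ∧ (insert a T).card ≤ D' then c (insert a T) / sg p else 0) with hch
  set d : (ι → Bool) → ℝ := fun x => ∑ T, cd T * chi p T x with hd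
  set h : (ι → Bool) → ℝ := fun x => ∑ T, ch T * chi p T x with hh
  set q : ℝ := ∑ A : Finset ι, (if a ∈ A then (if A ⊆ B ∧ A.card ≤ D' then
    (fh p (ind g) A / sg p) ^ 2 else 0) else 0) with hq
  -- (i) d is a conditional expectation
  have hdE : ∀ x, d x = E p (fun z => D a (ind g) (mix (Finset.univ \ B) x z)) := by
    intro x
    rw [E_mix_expansion hp0 hp1]
    apply Finset.sum_congr rfl
    intro T _
    congr 1
    rw [fh_D hp0 hp1]
    simp only [hcd, hc]
    have e : Disjoint T (Finset.univ \ B) ↔ T ⊆ B := by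
      rw [Finset.disjoint_left]
      constructor
      · intro h1 i hi
        by_contra hiB
        exact h1 hi (by simp [hiB])
      · intro h1 i hi
        simp [h1 hi]
    have e2 : insert a T ⊆ B ↔ T ⊆ B := by
      rw [Finset.insert_subset_iff]
      exact ⟨fun h => h.2, fun h => ⟨ha, h⟩⟩
    by_cases h1 : a ∈ T <;> by_cases h2 : T ⊆ B <;> simp [h1, h2, e, e2]
  -- (ii)
  have hd1 : E p (fun x => |d x|) ≤ infl p g a := by
    rw [← E_abs_D_ind, ← E_mix hp0 hp1 (Finset.univ \ B) (fun x => |D a (ind g) x|)]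
    apply E_mono hp0' hp1'
    intro x
    rw [hdE x]
    exact abs_E_le hp0' hp1' _
  -- (iii)
  have hd2 : E p (fun x => d x ^ 2) ≤ 1 / (sg p ^ 2 * y) := by
    have e1 : E p (fun x => d x ^ 2) = ∑ T, cd T * cd T := by
      rw [← E_lin_mul_lin hp0 hp1]
      congr 1
      funext x
      simp only [hd]; ring
    have e2 : ∑ T, cd T * cd T
        = ∑ A : Finset ι, (if a ∈ A then (if A ⊆ B then (c A / sg p) ^ 2 else 0) else 0) := by
      rw [← reindex a (fun A => if A ⊆ B then (c A / sg p) ^ 2 else 0)]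
      apply Finset.sum_congr rfl
      intro T _
      simp only [hcd]
      by_cases h1 : a ∈ T <;> by_cases h2 : insert a T ⊆ B <;> simp [h1, h2] <;> ring
    have e3 : ∑ A : Finset ι, (if a ∈ A then (if A ⊆ B then (c A / sg p) ^ 2 else 0) else 0)
        ≤ ∑ A ∈ B.powerset.filter (fun A => A.Nonempty), (c A / sg p) ^ 2 := by
      rw [sum_powerset_filter]
      apply Finset.sum_le_sum
      intro A _
      by_cases h1 : a ∈ A
      · have h3 : A.Nonempty := ⟨a, h1⟩
        by_cases h2 : A ⊆ B <;> simp [h1, h2, h3]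
      · simp only [h1, if_false]
        split_ifs
        · positivity
        · exact le_rfl
    have e4 : ∑ A ∈ B.powerset.filter (fun A => A.Nonempty), (c A / sg p) ^ 2
        = (∑ A ∈ B.powerset.filter (fun A => A.Nonempty), c A ^ 2) / sg p ^ 2 := by
      rw [Finset.sum_div]
      exact Finset.sum_congr rfl (fun A _ => by rw [div_pow])
    rw [e1, e2]
    refine e3.trans ?_
    rw [e4, div_le_div_iff₀ (by positivity) (by positivity)]
    calc (∑ A ∈ B.powerset.filter (fun A => A.Nonempty), c A ^ 2) * (sg p ^ 2 * y)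
        = sg p ^ 2 * (y * ∑ A ∈ B.powerset.filter (fun A => A.Nonempty), c A ^ 2) := by ring
      _ ≤ sg p ^ 2 * 1 := by gcongr
      _ = 1 * sg p ^ 2 := by ring
  -- (iv)
  have hch2 : ∑ T, ch T ^ 2 = q := by
    rw [hq, ← reindex a (fun A => if A ⊆ B ∧ A.card ≤ D' then (fh p (ind g) A / sg p) ^ 2 else 0)]
    apply Finset.sum_congr rfl
    intro T _
    simp only [hch, hc]
    by_cases h1 : a ∈ T <;> by_cases h2 : insert a T ⊆ B ∧ (insert a T).card ≤ D' <;> simp [h1, h2]
  have hdh : E p (fun x => d x * h x) = q := by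
    rw [← hch2]
    simp only [hd, hh]
    rw [E_lin_mul_lin hp0 hp1]
    apply Finset.sum_congr rfl
    intro T _
    simp only [hch, hcd]
    by_cases h1 : a ∈ T
    · simp [h1]
    · by_cases h2 : insert a T ⊆ B <;> by_cases h3 : (insert a T).card ≤ D' <;>
        simp only [h1, h2, h3, if_true, if_false, and_true, and_false, true_and, and_self] <;> ring
  -- (v)
  have hh4 : E p (fun x => h x ^ 4) ≤ (2 / sg p) ^ (2 * (D' - 1)) * q ^ 2 := by
    rw [← hch2]
    apply hBon ch (D' - 1)
    intro T hT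
    simp only [hch]
    by_cases h1 : a ∈ T
    · simp [h1]
    · have : ¬ (insert a T).card ≤ D' := by
        rw [Finset.card_insert_of_notMem h1]; omega
      rw [if_neg h1, if_neg (fun h => this h.2)]
  -- (vi)
  have hq0 : 0 ≤ q := by
    rw [← hch2]; positivity
  have hI0 : 0 ≤ infl p g a := le_trans (E_nonneg hp0' hp1' (fun x => abs_nonneg _)) hd1
  have hhol := holder hp0' hp1' d h
  rw [hdh] at hhol
  set R : ℝ := infl p g a * (2 / sg p) ^ (D' - 1) / (sg p * Real.sqrt y) with hR
  have hR0 : 0 ≤ R := by positivity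
  have hR2 : R ^ 2 = infl p g a ^ 2 * (1 / (sg p ^ 2 * y)) * (2 / sg p) ^ (2 * (D' - 1)) := by
    rw [hR, div_pow, mul_pow, mul_pow, Real.sq_sqrt hy0.le, ← pow_mul, mul_comm (D' - 1) 2]
    field_simp
  have hfin : q ^ 4 ≤ R ^ 2 * q ^ 2 := by
    calc q ^ 4 ≤ (E p (fun x => |d x|)) ^ 2 * E p (fun x => d x ^ 2) * E p (fun x => h x ^ 4) := hhol
      _ ≤ infl p g a ^ 2 * (1 / (sg p ^ 2 * y)) * ((2 / sg p) ^ (2 * (D' - 1)) * q ^ 2) := by
          have n1 : 0 ≤ E p (fun x => |d x|) := E_nonneg hp0' hp1' (fun x => abs_nonneg _)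
          have n2 : 0 ≤ E p (fun x => d x ^ 2) := E_nonneg hp0' hp1' (fun x => sq_nonneg _)
          have n3 : 0 ≤ E p (fun x => h x ^ 4) := E_nonneg hp0' hp1' (fun x => by positivity)
          gcongr
      _ = R ^ 2 * q ^ 2 := by rw [hR2]; ring
  by_contra hcon
  push Not at hcon
  have h1 : R ^ 2 < q ^ 2 := by nlinarith
  have h2 : 0 < q ^ 2 := by nlinarith
  nlinarith

theorem block_lemma_of_bonami {p : ℝ} (hp0 : 0 < p) (hp1 : p < 1) (hBon : BonamiStmt ι p)
    (g : (ι → Bool) → Bool) (B : Finset ι) (y : ℝ) (hy : 0 < y)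
    (hw : y * ∑ A ∈ B.powerset.filter (fun A => A.Nonempty), fh p (ind g) A ^ 2 ≤ 1)
    (D' : ℕ) (hD : 1 ≤ D') :
    ∑ A ∈ B.powerset.filter (fun A => 1 ≤ A.card ∧ A.card ≤ D'),
        (A.card : ℝ) * fh p (ind g) A ^ 2
      ≤ sg p * (2 / sg p) ^ (D' - 1) / Real.sqrt y * ∑ a ∈ B, infl p g a := by
  have hs := sg_pos hp0 hp1
  have hy0 : (0:ℝ) < y := hy
  have hsy : 0 < Real.sqrt y := Real.sqrt_pos.mpr hy0
  have h1 : ∑ A ∈ B.powerset.filter (fun A => 1 ≤ A.card ∧ A.card ≤ D'),
        (A.card : ℝ) * fh p (ind g) A ^ 2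
      = sg p ^ 2 * ∑ a ∈ B, ∑ A : Finset ι, (if a ∈ A then (if A ⊆ B ∧ A.card ≤ D' then
          (fh p (ind g) A / sg p) ^ 2 else 0) else 0) := by
    rw [Finset.sum_comm, sum_powerset_filter, Finset.mul_sum]
    apply Finset.sum_congr rfl
    intro A _
    rw [← Finset.sum_filter, Finset.sum_const, nsmul_eq_mul]
    by_cases hA : A ⊆ B
    · have e : B.filter (fun a => a ∈ A) = A := by
        ext i; simp only [Finset.mem_filter]
        exact ⟨fun h => h.2, fun h => ⟨hA h, h⟩⟩
      rw [e]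
      by_cases h2 : A.card ≤ D'
      · by_cases h3 : 1 ≤ A.card
        · simp only [hA, h2, h3, and_self, if_true]
          field_simp
        · have h4 : A.card = 0 := by omega
          simp [h4]
      · simp [h2]
    · simp [hA]
  rw [h1]
  calc sg p ^ 2 * ∑ a ∈ B, ∑ A : Finset ι, (if a ∈ A then (if A ⊆ B ∧ A.card ≤ D' then
          (fh p (ind g) A / sg p) ^ 2 else 0) else 0)
      ≤ sg p ^ 2 * ∑ a ∈ B, infl p g a * (2 / sg p) ^ (D' - 1) / (sg p * Real.sqrt y) := by
        apply mul_le_mul_of_nonneg_left _ (by positivity)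
        exact Finset.sum_le_sum (fun a ha => per_coord hp0 hp1 hBon g B y hy hw D' hD a ha)
    _ = sg p * (2 / sg p) ^ (D' - 1) / Real.sqrt y * ∑ a ∈ B, infl p g a := by
        rw [Finset.mul_sum, Finset.mul_sum]
        apply Finset.sum_congr rfl
        intro a _
        field_simp

end Block

/-- `(E d h)^4 ≤ (E|d|)^2 · E d^2 · E h^4`. -/
theorem E_mul_pow_four_le {p : ℝ} (h0 : 0 ≤ p) (h1 : p ≤ 1) (d h : (ι → Bool) → ℝ) :
    (E p (fun x => d x * h x)) ^ 4
      ≤ (E p (fun x => |d x|)) ^ 2 * E p (fun x => d x ^ 2) * E p (fun x => h x ^ 4) :=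
  Block.holder h0 h1 d h

/-- Block lemma. `y` = number of exchangeable blocks; `hw` says that the block `B` carries at most
the fraction `1/y` of the total weight. -/
theorem block_lemma {p : ℝ} (hp0 : 0 < p) (hp1 : p < 1) (g : (ι → Bool) → Bool) (B : Finset ι)
    (y : ℝ) (hy : 0 < y)
    (hw : y * ∑ A ∈ B.powerset.filter (fun A => A.Nonempty), fh p (ind g) A ^ 2 ≤ 1)
    (Dg : ℕ) (hD : 1 ≤ Dg) :
    ∑ A ∈ B.powerset.filter (fun A => 1 ≤ A.card ∧ A.card ≤ Dg),
        (A.card : ℝ) * fh p (ind g) A ^ 2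
      ≤ sg p * (2 / sg p) ^ (Dg - 1) / Real.sqrt y * ∑ a ∈ B, infl p g a :=
  Block.block_lemma_of_bonami hp0 hp1 (fun c k hc => bonami_24 hp0 hp1 k c hc) g B y hy hw Dg hD

end Crest.Agent.BK
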