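import Crest.Agent.S0078_G1

/-!
# ROW56, package G1 (supplement, helper16)

Complements to `S0078_G1`: positivity of the weights, `|E F| ≤ E |F|`, Cauchy-Schwarz, the Hölder
inequality `(2,4,4)` of the block lemma, indicator / derivative identities, `mix` calculus, Fubini,
independence in "depends only on" form, transport along a bijection of the index types.
-/

set_option linter.unusedSectionVars false

namespace Crest.Agent.BK.G1x

open Crest.FinProb

variable {ι : Type*} [Fintype ι] [DecidableEq ι]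

lemma bernoulliWeight_pos {p : ℝ} (h0 : 0 < p) (h1 : p < 1) (x : ι → Bool) :
    0 < bernoulliWeight p x := by
  unfold bernoulliWeight
  refine Finset.prod_pos fun i _ => ?_
  split_ifs
  · exact h0
  · linarith

lemma E_zero (p : ℝ) : E p (fun _ : ι → Bool => (0 : ℝ)) = 0 := E_const p 0

lemma E_div_const (p c : ℝ) (F : (ι → Bool) → ℝ) : E p (fun x => F x / c) = E p F / c := by
  simp only [div_eq_mul_inv]; exact E_mul_const p c⁻¹ F

lemma abs_E_le {p : ℝ} (h0 : 0 ≤ p) (h1 : p ≤ 1) (F : (ι → Bool) → ℝ) :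
    |E p F| ≤ E p (fun x => |F x|) := by
  unfold E
  refine (Finset.abs_sum_le_sum_abs _ _).trans (le_of_eq ?_)
  exact Finset.sum_congr rfl fun x _ => by
    rw [abs_mul, abs_of_nonneg (bernoulliWeight_nonneg h0 h1 x)]

/-- Cauchy-Schwarz. -/
lemma E_mul_sq_le {p : ℝ} (h0 : 0 ≤ p) (h1 : p ≤ 1) (F G : (ι → Bool) → ℝ) :
    (E p (fun x => F x * G x)) ^ 2 ≤ E p (fun x => F x ^ 2) * E p (fun x => G x ^ 2) := by
  unfold E
  have h := Finset.sum_mul_sq_le_sq_mul_sq (Finset.univ : Finset (ι → Bool))
    (fun x => Real.sqrt (bernoulliWeight p x) * F x) (fun x => Real.sqrt (bernoulliWeight p x) * G x)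
  have e1 : ∀ x : ι → Bool, Real.sqrt (bernoulliWeight p x) * F x *
      (Real.sqrt (bernoulliWeight p x) * G x) = bernoulliWeight p x * (F x * G x) := by
    intro x
    have := Real.mul_self_sqrt (bernoulliWeight_nonneg h0 h1 x)
    calc _ = (Real.sqrt (bernoulliWeight p x) * Real.sqrt (bernoulliWeight p x)) * (F x * G x) := by
          ring
      _ = _ := by rw [this]
  have e2 : ∀ (H : (ι → Bool) → ℝ) (x : ι → Bool), (Real.sqrt (bernoulliWeight p x) * H x) ^ 2 =
      bernoulliWeight p x * H x ^ 2 := by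
    intro H x
    rw [mul_pow, Real.sq_sqrt (bernoulliWeight_nonneg h0 h1 x)]
  simp only [e1, e2] at h
  exact h

/-- Jensen for the square. -/
lemma E_sq_le {p : ℝ} (h0 : 0 ≤ p) (h1 : p ≤ 1) (F : (ι → Bool) → ℝ) :
    (E p F) ^ 2 ≤ E p (fun x => F x ^ 2) := by
  have := E_mul_sq_le h0 h1 (fun _ => 1) F
  simpa [E_const] using this

/-- Hölder with exponents `(2,4,4)` in the form used in the block lemma. -/
lemma E_holder_244 {p : ℝ} (h0 : 0 ≤ p) (h1 : p ≤ 1) (d h : (ι → Bool) → ℝ) :
    (E p (fun x => |d x * h x|)) ^ 4 ≤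
      (E p (fun x => |d x|)) ^ 2 * E p (fun x => d x ^ 2) * E p (fun x => h x ^ 4) := by
  have A : (E p (fun x => |d x * h x|)) ^ 2 ≤
      E p (fun x => |d x|) * E p (fun x => |d x| * h x ^ 2) := by
    have := E_mul_sq_le h0 h1 (fun x => Real.sqrt |d x|) (fun x => Real.sqrt |d x| * |h x|)
    have e1 : ∀ x, Real.sqrt |d x| * (Real.sqrt |d x| * |h x|) = |d x * h x| := by
      intro x
      rw [← mul_assoc, Real.mul_self_sqrt (abs_nonneg _), abs_mul]
    have e2 : ∀ x, Real.sqrt |d x| ^ 2 = |d x| := fun x => Real.sq_sqrt (abs_nonneg _)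
    have e3 : ∀ x, (Real.sqrt |d x| * |h x|) ^ 2 = |d x| * h x ^ 2 := by
      intro x
      rw [mul_pow, Real.sq_sqrt (abs_nonneg _), sq_abs]
    simp only [e1, e2, e3] at this
    exact this
  have B : (E p (fun x => |d x| * h x ^ 2)) ^ 2 ≤ E p (fun x => d x ^ 2) * E p (fun x => h x ^ 4) := by
    have := E_mul_sq_le h0 h1 (fun x => |d x|) (fun x => h x ^ 2)
    have e2 : ∀ x, |d x| ^ 2 = d x ^ 2 := fun x => sq_abs _
    have e3 : ∀ x, (h x ^ 2) ^ 2 = h x ^ 4 := fun x => by ring
    simp only [e2, e3] at this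
    exact this
  calc (E p (fun x => |d x * h x|)) ^ 4 = ((E p (fun x => |d x * h x|)) ^ 2) ^ 2 := by ring
    _ ≤ (E p (fun x => |d x|) * E p (fun x => |d x| * h x ^ 2)) ^ 2 :=
        pow_le_pow_left₀ (sq_nonneg _) A 2
    _ = (E p (fun x => |d x|)) ^ 2 * (E p (fun x => |d x| * h x ^ 2)) ^ 2 := by ring
    _ ≤ (E p (fun x => |d x|)) ^ 2 * (E p (fun x => d x ^ 2) * E p (fun x => h x ^ 4)) :=
        mul_le_mul_of_nonneg_left B (sq_nonneg _)
    _ = _ := by ring

/-- The same without absolute value on the left. -/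
lemma E_holder_244' {p : ℝ} (h0 : 0 ≤ p) (h1 : p ≤ 1) (d h : (ι → Bool) → ℝ) :
    (E p (fun x => d x * h x)) ^ 4 ≤
      (E p (fun x => |d x|)) ^ 2 * E p (fun x => d x ^ 2) * E p (fun x => h x ^ 4) := by
  refine le_trans ?_ (E_holder_244 h0 h1 d h)
  have h2 := abs_E_le h0 h1 (fun x => d x * h x)
  calc (E p (fun x => d x * h x)) ^ 4 = |E p (fun x => d x * h x)| ^ 4 := by
        rw [← abs_pow, abs_of_nonneg (by positivity)]
    _ ≤ _ := pow_le_pow_left₀ (abs_nonneg _) h2 4

/-! ### indicators and derivatives -/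

lemma ind_mem (f : (ι → Bool) → Bool) (x : ι → Bool) : ind f x = 0 ∨ ind f x = 1 := by
  unfold ind; split_ifs <;> simp

lemma ind_sq (f : (ι → Bool) → Bool) (x : ι → Bool) : ind f x ^ 2 = ind f x := by
  rcases ind_mem f x with h | h <;> simp [h]

lemma ind_nonneg (f : (ι → Bool) → Bool) (x : ι → Bool) : 0 ≤ ind f x := by
  rcases ind_mem f x with h | h <;> simp [h]

lemma ind_le_one (f : (ι → Bool) → Bool) (x : ι → Bool) : ind f x ≤ 1 := by
  rcases ind_mem f x with h | h <;> simp [h]

lemma D_ind_abs (f : (ι → Bool) → Bool) (a : ι) (x : ι → Bool) :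
    |D a (ind f) x| =
      if f (Function.update x a true) ≠ f (Function.update x a false) then 1 else 0 := by
  unfold D ind
  cases h1 : f (Function.update x a true) <;> cases h2 : f (Function.update x a false) <;> simp

lemma D_ind_sq (f : (ι → Bool) → Bool) (a : ι) (x : ι → Bool) :
    D a (ind f) x ^ 2 = |D a (ind f) x| := by
  rw [← sq_abs, D_ind_abs]
  split_ifs <;> simp

lemma infl_eq_E_abs (p : ℝ) (f : (ι → Bool) → Bool) (a : ι) :
    infl p f a = E p (fun x => |D a (ind f) x|) := by
  rw [infl_eq_E]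
  exact E_congr fun x => (D_ind_abs f a x).symm

lemma infl_eq_E_sq (p : ℝ) (f : (ι → Bool) → Bool) (a : ι) :
    infl p f a = E p (fun x => D a (ind f) x ^ 2) := by
  rw [infl_eq_E_abs]
  exact E_congr fun x => (D_ind_sq f a x).symm

lemma infl_nonneg {p : ℝ} (h0 : 0 ≤ p) (h1 : p ≤ 1) (f : (ι → Bool) → Bool) (a : ι) :
    0 ≤ infl p f a := by
  rw [infl_eq_E_abs]; exact E_nonneg h0 h1 fun x => abs_nonneg _

lemma totInfl_nonneg {p : ℝ} (h0 : 0 ≤ p) (h1 : p ≤ 1) (f : (ι → Bool) → Bool) :
    0 ≤ totInfl p f := Finset.sum_nonneg fun a _ => infl_nonneg h0 h1 f a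

/-- the variance of the indicator. -/
lemma var_ind (p : ℝ) (f : (ι → Bool) → Bool) :
    E p (fun x => ind f x ^ 2) - (E p (ind f)) ^ 2 = prT p f * (1 - prT p f) := by
  rw [prT_eq_E, E_congr (ind_sq f)]; ring

/-! ### `mix` calculus -/

lemma mix_empty (x z : ι → Bool) : mix (∅ : Finset ι) x z = x := by
  funext i; simp [mix]

lemma mix_univ (x z : ι → Bool) : mix (Finset.univ : Finset ι) x z = z := by
  funext i; simp [mix]

lemma mix_apply_mem {J : Finset ι} {i : ι} (hi : i ∈ J) (x z : ι → Bool) : mix J x z i = z i := by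
  simp [mix, hi]

lemma mix_apply_not_mem {J : Finset ι} {i : ι} (hi : i ∉ J) (x z : ι → Bool) :
    mix J x z i = x i := by
  simp [mix, hi]

lemma mix_self (J : Finset ι) (x : ι → Bool) : mix J x x = x := by
  funext i; simp [mix]

lemma mix_compl (J : Finset ι) (x z : ι → Bool) : mix Jᶜ x z = mix J z x := by
  funext i
  by_cases hi : i ∈ J <;> simp [mix, hi]

lemma mix_insert (J : Finset ι) (a : ι) (x z : ι → Bool) :
    mix (insert a J) x z = Function.update (mix J x z) a (z a) := by
  funext i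
  by_cases hia : i = a
  · subst hia; simp [mix]
  · simp [mix, hia]

lemma mix_update_right_not_mem {J : Finset ι} {a : ι} (ha : a ∉ J) (x z : ι → Bool) (b : Bool) :
    mix J x (Function.update z a b) = mix J x z := by
  funext i
  by_cases hi : i ∈ J
  · have : i ≠ a := fun h => ha (h ▸ hi)
    simp [mix, hi, Function.update_of_ne this]
  · simp [mix, hi]

lemma mix_update_left_mem {J : Finset ι} {a : ι} (ha : a ∈ J) (x z : ι → Bool) (b : Bool) :
    mix J (Function.update x a b) z = mix J x z := by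
  funext i
  by_cases hi : i ∈ J
  · simp [mix, hi]
  · have : i ≠ a := fun h => hi (h ▸ ha)
    simp [mix, hi, Function.update_of_ne this]

lemma mix_update_right_mem {J : Finset ι} {a : ι} (ha : a ∈ J) (x z : ι → Bool) (b : Bool) :
    mix J x (Function.update z a b) = Function.update (mix J x z) a b := by
  funext i
  by_cases hia : i = a
  · subst hia; simp [mix, ha]
  · simp [mix, Function.update_of_ne hia]

lemma mix_update_left_not_mem {J : Finset ι} {a : ι} (ha : a ∉ J) (x z : ι → Bool) (b : Bool) :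
    mix J (Function.update x a b) z = Function.update (mix J x z) a b := by
  funext i
  by_cases hia : i = a
  · subst hia; simp [mix, ha]
  · simp [mix, Function.update_of_ne hia]

/-- Fubini for two independent copies. -/
lemma E_E_comm (p : ℝ) (F : (ι → Bool) → (ι → Bool) → ℝ) :
    E p (fun x => E p (fun z => F x z)) = E p (fun z => E p (fun x => F x z)) := by
  unfold E
  simp only [Finset.mul_sum]
  rw [Finset.sum_comm]
  refine Finset.sum_congr rfl fun z _ => Finset.sum_congr rfl fun x _ => by ring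

/-- The mixing lemma with the roles of the two copies exchanged. -/
lemma E_mix' (p : ℝ) (J : Finset ι) (F : (ι → Bool) → ℝ) :
    E p (fun z => E p (fun x => F (mix J x z))) = E p F := by
  rw [E_E_comm]; exact E_mix p J F

/-- Independence of functions of disjoint sets of coordinates. -/
lemma E_mul_of_disjoint (p : ℝ) {A B : Finset ι} (hAB : Disjoint A B) {F G : (ι → Bool) → ℝ}
    (hF : ∀ x y : ι → Bool, (∀ i ∈ A, x i = y i) → F x = F y)
    (hG : ∀ x y : ι → Bool, (∀ i ∈ B, x i = y i) → G x = G y) :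
    E p (fun x => F x * G x) = E p F * E p G := by
  refine E_mul_of_indep p B F G (fun x z => ?_) (fun x z => ?_)
  · exact hF _ _ fun i hi => mix_apply_not_mem (Finset.disjoint_left.mp hAB hi) x z
  · exact hG _ _ fun i hi => mix_apply_mem hi x z

/-! ### change of the index type -/

lemma bernoulliWeight_comp_equiv {κ : Type*} [Fintype κ] (p : ℝ) (e : ι ≃ κ) (y : κ → Bool) :
    bernoulliWeight p (fun i => y (e i)) = bernoulliWeight p y := by
  unfold bernoulliWeight
  exact Fintype.prod_equiv e _ _ fun i => rfl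

/-- Transport of the expectation along a bijection of the index types. -/
lemma E_comp_equiv {κ : Type*} [Fintype κ] [DecidableEq κ] (p : ℝ) (e : ι ≃ κ)
    (F : (ι → Bool) → ℝ) :
    E p (fun y : κ → Bool => F (fun i => y (e i))) = E p F := by
  unfold E
  refine Fintype.sum_equiv (Equiv.arrowCongr e.symm (Equiv.refl Bool)) _ _ fun y => ?_
  have : (Equiv.arrowCongr e.symm (Equiv.refl Bool)) y = fun i => y (e i) := by
    funext i; simp [Equiv.arrowCongr]
  rw [this, bernoulliWeight_comp_equiv]

/-- Invariance of the expectation under a permutation of the coordinates. -/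
lemma E_comp_perm (p : ℝ) (e : Equiv.Perm ι) (F : (ι → Bool) → ℝ) :
    E p (fun y : ι → Bool => F (fun i => y (e i))) = E p F := E_comp_equiv p e F

end Crest.Agent.BK.G1x
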