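import Mathlib
import Crest.Agent.S0078_Defs

/-!
# ROW56: p-biased Walsh analysis on the names of `S0078_Defs` (self-contained)
-/

set_option autoImplicit false
set_option linter.unusedSectionVars false
set_option linter.unusedVariables false

namespace Crest.Agent.BK.Walsh

open Crest.FinProb Crest.Agent.BK Finset

variable {ι : Type*} [Fintype ι] [DecidableEq ι]

/-! ## Basic facts on `E` -/

theorem E_def (p : ℝ) (F : (ι → Bool) → ℝ) :
    E p F = ∑ x : ι → Bool, bernoulliWeight p x * F x := rfl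

theorem E_add (p : ℝ) (F G : (ι → Bool) → ℝ) :
    E p (fun x => F x + G x) = E p F + E p G := by
  simp only [E, mul_add, Finset.sum_add_distrib]

theorem E_sub (p : ℝ) (F G : (ι → Bool) → ℝ) :
    E p (fun x => F x - G x) = E p F - E p G := by
  simp only [E, mul_sub, Finset.sum_sub_distrib]

theorem E_const_mul (p c : ℝ) (F : (ι → Bool) → ℝ) :
    E p (fun x => c * F x) = c * E p F := by
  simp only [E, Finset.mul_sum]
  exact Finset.sum_congr rfl fun x _ => by ring

theorem E_mul_const (p c : ℝ) (F : (ι → Bool) → ℝ) :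
    E p (fun x => F x * c) = E p F * c := by
  simp only [E, Finset.sum_mul]
  exact Finset.sum_congr rfl fun x _ => by ring

theorem E_sum {κ : Type*} (p : ℝ) (s : Finset κ) (F : κ → (ι → Bool) → ℝ) :
    E p (fun x => ∑ k ∈ s, F k x) = ∑ k ∈ s, E p (F k) := by
  simp only [E, Finset.mul_sum]
  exact Finset.sum_comm

theorem E_congr (p : ℝ) {F G : (ι → Bool) → ℝ} (h : ∀ x, F x = G x) : E p F = E p G := by
  have : F = G := funext h
  rw [this]

/-- The product formula. -/
theorem E_prod (p : ℝ) (g : ι → Bool → ℝ) :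
    E p (fun x => ∏ i, g i (x i)) = ∏ i, (p * g i true + (1 - p) * g i false) := by
  have h1 : ∀ i : ι, p * g i true + (1 - p) * g i false
      = ∑ b : Bool, (if b then p else 1 - p) * g i b := by
    intro i
    rw [Fintype.sum_bool]
    simp
  simp only [h1]
  rw [Finset.prod_univ_sum]
  simp only [E, bernoulliWeight, Fintype.piFinset_univ, ← Finset.prod_mul_distrib]

theorem weight_nonneg {p : ℝ} (hp0 : 0 ≤ p) (hp1 : p ≤ 1) (x : ι → Bool) :
    0 ≤ bernoulliWeight p x := by
  unfold bernoulliWeight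
  refine Finset.prod_nonneg fun i _ => ?_
  split_ifs
  · exact hp0
  · linarith

theorem weight_pos {p : ℝ} (hp0 : 0 < p) (hp1 : p < 1) (x : ι → Bool) :
    0 < bernoulliWeight p x := by
  unfold bernoulliWeight
  refine Finset.prod_pos fun i _ => ?_
  split_ifs
  · exact hp0
  · linarith

theorem E_const (p c : ℝ) : E p (fun _ : ι → Bool => c) = c := by
  have h := E_prod (ι := ι) p (fun _ _ => 1)
  simp only [Finset.prod_const_one, mul_one] at h
  have h2 : (∏ i : ι, (p + (1 - p))) = 1 := by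
    simp
  rw [h2] at h
  have := E_mul_const (ι := ι) p c (fun _ => 1)
  simp only [one_mul] at this
  rw [this, h, one_mul]

theorem E_nonneg {p : ℝ} (hp0 : 0 ≤ p) (hp1 : p ≤ 1) {F : (ι → Bool) → ℝ} (h : ∀ x, 0 ≤ F x) :
    0 ≤ E p F :=
  Finset.sum_nonneg fun x _ => mul_nonneg (weight_nonneg hp0 hp1 x) (h x)

theorem E_mono {p : ℝ} (hp0 : 0 ≤ p) (hp1 : p ≤ 1) {F G : (ι → Bool) → ℝ} (h : ∀ x, F x ≤ G x) :
    E p F ≤ E p G :=
  Finset.sum_le_sum fun x _ => mul_le_mul_of_nonneg_left (h x) (weight_nonneg hp0 hp1 x)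

/-! ## One coin -/

theorem sg_pos {p : ℝ} (hp0 : 0 < p) (hp1 : p < 1) : 0 < sg p :=
  Real.sqrt_pos.mpr (mul_pos hp0 (by linarith))

theorem sg_sq {p : ℝ} (hp0 : 0 < p) (hp1 : p < 1) : sg p ^ 2 = p * (1 - p) :=
  Real.sq_sqrt (mul_pos hp0 (by linarith)).le

theorem chi1_mean {p : ℝ} (hp0 : 0 < p) (hp1 : p < 1) :
    p * chi1 p true + (1 - p) * chi1 p false = 0 := by
  simp only [chi1, if_true, Bool.false_eq_true, if_false]
  ring

theorem chi1_sq_mean {p : ℝ} (hp0 : 0 < p) (hp1 : p < 1) :
    p * (chi1 p true * chi1 p true) + (1 - p) * (chi1 p false * chi1 p false) = 1 := by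
  have hs := sg_pos hp0 hp1
  have h2 := sg_sq hp0 hp1
  simp only [chi1, if_true, Bool.false_eq_true, if_false]
  field_simp
  rw [h2]
  ring

theorem chi1_diff {p : ℝ} (hp0 : 0 < p) (hp1 : p < 1) :
    chi1 p true - chi1 p false = 1 / sg p := by
  simp only [chi1, if_true, Bool.false_eq_true, if_false]
  ring

/-- `chi` as a product over all coordinates. -/
theorem chi_eq_prod_univ (p : ℝ) (S : Finset ι) (x : ι → Bool) :
    chi p S x = ∏ i, (if i ∈ S then chi1 p (x i) else 1) := by
  unfold chi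
  rw [Finset.prod_ite_mem, Finset.univ_inter]

theorem chi_empty (p : ℝ) (x : ι → Bool) : chi p (∅ : Finset ι) x = 1 := by
  simp [chi]

/-! ## Orthonormality -/

theorem E_chi_mul_chi {p : ℝ} (hp0 : 0 < p) (hp1 : p < 1) (S T : Finset ι) :
    E p (fun x => chi p S x * chi p T x) = if S = T then 1 else 0 := by
  let g : ι → Bool → ℝ := fun i b =>
    (if i ∈ S then chi1 p b else 1) * (if i ∈ T then chi1 p b else 1)
  have h : ∀ x : ι → Bool, chi p S x * chi p T x = ∏ i, g i (x i) := by
    intro x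
    rw [chi_eq_prod_univ, chi_eq_prod_univ, ← Finset.prod_mul_distrib]
  rw [E_congr p h, E_prod p g]
  simp only [g]
  split_ifs with hST
  · subst hST
    refine Finset.prod_eq_one fun i _ => ?_
    by_cases hi : i ∈ S
    · simp only [hi, if_true]
      exact chi1_sq_mean hp0 hp1
    · simp only [hi, if_false]
      ring
  · have : ∃ i, ¬ (i ∈ S ↔ i ∈ T) := by
      by_contra hcon
      push Not at hcon
      exact hST (Finset.ext hcon)
    obtain ⟨i, hi⟩ := this
    refine Finset.prod_eq_zero (Finset.mem_univ i) ?_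
    by_cases hiS : i ∈ S
    · have hiT : i ∉ T := fun h => hi ⟨fun _ => h, fun _ => hiS⟩
      simp only [hiS, hiT, if_true, if_false, mul_one]
      exact chi1_mean hp0 hp1
    · have hiT : i ∈ T := by
        by_contra h
        exact hi ⟨fun h' => absurd h' hiS, fun h' => absurd h' h⟩
      simp only [hiS, hiT, if_true, if_false, one_mul]
      exact chi1_mean hp0 hp1

theorem E_chi {p : ℝ} (hp0 : 0 < p) (hp1 : p < 1) (S : Finset ι) :
    E p (chi p S) = if S = ∅ then 1 else 0 := by
  have h := E_chi_mul_chi hp0 hp1 S (∅ : Finset ι)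
  simp only [chi_empty, mul_one] at h
  exact h

theorem fh_empty (p : ℝ) (F : (ι → Bool) → ℝ) : fh p F ∅ = E p F := by
  simp only [fh, chi_empty, mul_one]

/-- Fourier coefficients of a Walsh polynomial. -/
theorem fh_poly {p : ℝ} (hp0 : 0 < p) (hp1 : p < 1) (c : Finset ι → ℝ) (T : Finset ι) :
    fh p (fun x => ∑ S, c S * chi p S x) T = c T := by
  unfold fh
  have h : ∀ x : ι → Bool, (∑ S, c S * chi p S x) * chi p T x
      = ∑ S, c S * (chi p S x * chi p T x) := by
    intro x
    rw [Finset.sum_mul]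
    exact Finset.sum_congr rfl fun S _ => by ring
  rw [E_congr p h, E_sum]
  simp only [E_const_mul, E_chi_mul_chi hp0 hp1]
  simp

/-- Version with a sum over a finset of sets. -/
theorem fh_poly_on {p : ℝ} (hp0 : 0 < p) (hp1 : p < 1) (fam : Finset (Finset ι))
    (c : Finset ι → ℝ) (T : Finset ι) :
    fh p (fun x => ∑ S ∈ fam, c S * chi p S x) T = if T ∈ fam then c T else 0 := by
  have h : ∀ x : ι → Bool, (∑ S ∈ fam, c S * chi p S x)
      = ∑ S, (if S ∈ fam then c S else 0) * chi p S x := by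
    intro x
    rw [← Finset.sum_filter_add_sum_filter_not Finset.univ (fun S => S ∈ fam)]
    have h1 : ∑ S ∈ Finset.univ.filter (fun S => ¬ S ∈ fam),
        (if S ∈ fam then c S else 0) * chi p S x = 0 := by
      refine Finset.sum_eq_zero fun S hS => ?_
      rw [if_neg (Finset.mem_filter.mp hS).2, zero_mul]
    rw [h1, add_zero]
    have h2 : Finset.univ.filter (fun S => S ∈ fam) = fam := by
      ext S; simp
    rw [h2]
    exact Finset.sum_congr rfl fun S hS => by rw [if_pos hS]
  have h' : (fun x : ι → Bool => ∑ S ∈ fam, c S * chi p S x)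
      = fun x => ∑ S, (if S ∈ fam then c S else 0) * chi p S x := funext h
  rw [h', fh_poly hp0 hp1]

/-! ## Completeness -/

theorem kernel_one {p : ℝ} (hp0 : 0 < p) (hp1 : p < 1) (b b0 : Bool) :
    (if b then p else 1 - p) * (1 + chi1 p b * chi1 p b0) = if b = b0 then 1 else 0 := by
  have hs := sg_pos hp0 hp1
  have h2 := sg_sq hp0 hp1
  have h1p : (0 : ℝ) < 1 - p := by linarith
  cases b <;> cases b0 <;>
    simp only [chi1, if_true, Bool.false_eq_true, if_false, Bool.true_eq_false] <;>
    field_simp <;> rw [h2] <;> ring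

theorem kernel {p : ℝ} (hp0 : 0 < p) (hp1 : p < 1) (x x0 : ι → Bool) :
    bernoulliWeight p x * ∑ S : Finset ι, chi p S x * chi p S x0 = if x = x0 then 1 else 0 := by
  have h1 : ∑ S : Finset ι, chi p S x * chi p S x0 = ∏ i, (1 + chi1 p (x i) * chi1 p (x0 i)) := by
    rw [Finset.prod_one_add, Finset.powerset_univ]
    refine Finset.sum_congr rfl fun S _ => ?_
    simp only [chi, Finset.prod_mul_distrib]
  rw [h1]
  unfold bernoulliWeight
  rw [← Finset.prod_mul_distrib]
  simp only [kernel_one hp0 hp1]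
  split_ifs with h
  · subst h
    simp
  · have : ∃ i, x i ≠ x0 i := by
      by_contra hcon
      push Not at hcon
      exact h (funext hcon)
    obtain ⟨i, hi⟩ := this
    exact Finset.prod_eq_zero (Finset.mem_univ i) (if_neg hi)

/-- The Walsh expansion. -/
theorem expansion {p : ℝ} (hp0 : 0 < p) (hp1 : p < 1) (F : (ι → Bool) → ℝ) (x0 : ι → Bool) :
    F x0 = ∑ S, fh p F S * chi p S x0 := by
  have h1 : ∑ S, fh p F S * chi p S x0
      = ∑ x : ι → Bool, F x * (bernoulliWeight p x * ∑ S : Finset ι, chi p S x * chi p S x0) := by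
    simp only [fh, E, Finset.sum_mul, Finset.mul_sum]
    rw [Finset.sum_comm]
    refine Finset.sum_congr rfl fun x _ => Finset.sum_congr rfl fun S _ => by ring
  rw [h1]
  simp only [kernel hp0 hp1]
  simp

theorem parseval2 {p : ℝ} (hp0 : 0 < p) (hp1 : p < 1) (F G : (ι → Bool) → ℝ) :
    E p (fun x => F x * G x) = ∑ S, fh p F S * fh p G S := by
  have h : ∀ x : ι → Bool, F x * G x = ∑ S, fh p F S * (G x * chi p S x) := by
    intro x
    conv_lhs => rw [expansion hp0 hp1 F x]
    rw [Finset.sum_mul]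
    exact Finset.sum_congr rfl fun S _ => by ring
  rw [E_congr p h, E_sum]
  simp only [E_const_mul]
  rfl

theorem parseval {p : ℝ} (hp0 : 0 < p) (hp1 : p < 1) (F : (ι → Bool) → ℝ) :
    E p (fun x => F x ^ 2) = ∑ S, fh p F S ^ 2 := by
  have := parseval2 hp0 hp1 F F
  simp only [← pow_two] at this
  exact this

/-- Bessel inequality on any family of sets. -/
theorem bessel {p : ℝ} (hp0 : 0 < p) (hp1 : p < 1) (F : (ι → Bool) → ℝ)
    (fam : Finset (Finset ι)) : ∑ S ∈ fam, fh p F S ^ 2 ≤ E p (fun x => F x ^ 2) := by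
  rw [parseval hp0 hp1]
  exact Finset.sum_le_sum_of_subset_of_nonneg (Finset.subset_univ _) fun S _ _ => sq_nonneg _

/-! ## Probabilities as expectations -/

theorem prob_eq_E (p : ℝ) (A : Set (ι → Bool)) [DecidablePred (· ∈ A)] :
    bernoulliProb p A = E p (fun x => if x ∈ A then 1 else 0) := by
  unfold bernoulliProb E
  rw [Finset.sum_filter]
  refine Finset.sum_congr rfl fun x _ => ?_
  by_cases h : x ∈ A <;> simp [h]

theorem prT_eq_E (p : ℝ) (f : (ι → Bool) → Bool) : prT p f = E p (ind f) := by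
  unfold prT
  rw [prob_eq_E]
  refine E_congr p fun x => ?_
  simp only [Set.mem_ofPred_eq, ind]

theorem ind_sq (f : (ι → Bool) → Bool) (x : ι → Bool) : ind f x ^ 2 = ind f x := by
  unfold ind
  split_ifs <;> simp

theorem var_eq {p : ℝ} (hp0 : 0 < p) (hp1 : p < 1) (f : (ι → Bool) → Bool) :
    prT p f * (1 - prT p f)
      = ∑ S ∈ Finset.univ.filter (fun S : Finset ι => S.Nonempty), fh p (ind f) S ^ 2 := by
  have h1 : E p (fun x => ind f x ^ 2) = prT p f := by
    rw [prT_eq_E]
    exact E_congr p (ind_sq f)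
  rw [parseval hp0 hp1] at h1
  rw [← Finset.sum_filter_add_sum_filter_not Finset.univ (fun S : Finset ι => S.Nonempty)] at h1
  have h2 : Finset.univ.filter (fun S : Finset ι => ¬ S.Nonempty) = {∅} := by
    ext S
    simp [Finset.not_nonempty_iff_eq_empty]
  rw [h2, Finset.sum_singleton, fh_empty, ← prT_eq_E] at h1
  nlinarith [h1]

/-! ## Discrete derivatives -/

theorem chi_update_mem (p : ℝ) {S : Finset ι} {a : ι} (ha : a ∈ S) (x : ι → Bool) (b : Bool) :
    chi p S (Function.update x a b) = chi1 p b * chi p (S.erase a) x := by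
  unfold chi
  rw [← Finset.mul_prod_erase S _ ha, Function.update_self]
  congr 1
  refine Finset.prod_congr rfl fun i hi => ?_
  rw [Function.update_of_ne (Finset.ne_of_mem_erase hi)]

theorem chi_update_notMem (p : ℝ) {S : Finset ι} {a : ι} (ha : a ∉ S) (x : ι → Bool) (b : Bool) :
    chi p S (Function.update x a b) = chi p S x := by
  unfold chi
  refine Finset.prod_congr rfl fun i hi => ?_
  have hne : i ≠ a := fun h => ha (h ▸ hi)
  rw [Function.update_of_ne hne]

theorem D_chi {p : ℝ} (hp0 : 0 < p) (hp1 : p < 1) (a : ι) (S : Finset ι) (x : ι → Bool) :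
    D a (chi p S) x = if a ∈ S then (1 / sg p) * chi p (S.erase a) x else 0 := by
  unfold D
  split_ifs with ha
  · rw [chi_update_mem p ha, chi_update_mem p ha, ← sub_mul, chi1_diff hp0 hp1]
  · rw [chi_update_notMem p ha, chi_update_notMem p ha, sub_self]

/-- Walsh expansion of the discrete derivative. -/
theorem D_expansion {p : ℝ} (hp0 : 0 < p) (hp1 : p < 1) (a : ι) (F : (ι → Bool) → ℝ)
    (x : ι → Bool) :
    D a F x = ∑ T : Finset ι, (if a ∈ T then 0 else (1 / sg p) * fh p F (insert a T)) * chi p T x := by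
  have h1 : D a F x = ∑ S, fh p F S * D a (chi p S) x := by
    unfold D
    rw [expansion hp0 hp1 F (Function.update x a true),
      expansion hp0 hp1 F (Function.update x a false), ← Finset.sum_sub_distrib]
    exact Finset.sum_congr rfl fun S _ => by ring
  rw [h1]
  simp only [D_chi hp0 hp1]
  rw [← Finset.sum_filter_add_sum_filter_not Finset.univ (fun S : Finset ι => a ∈ S)]
  have hz : ∑ S ∈ Finset.univ.filter (fun S : Finset ι => ¬ a ∈ S),
      fh p F S * (if a ∈ S then (1 / sg p) * chi p (S.erase a) x else 0) = 0 := by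
    refine Finset.sum_eq_zero fun S hS => ?_
    rw [if_neg (Finset.mem_filter.mp hS).2, mul_zero]
  rw [hz, add_zero]
  rw [← Finset.sum_filter_add_sum_filter_not Finset.univ (fun S : Finset ι => a ∈ S)
    (fun T => (if a ∈ T then 0 else (1 / sg p) * fh p F (insert a T)) * chi p T x)]
  have hz2 : ∑ T ∈ Finset.univ.filter (fun S : Finset ι => a ∈ S),
      (if a ∈ T then 0 else (1 / sg p) * fh p F (insert a T)) * chi p T x = 0 := by
    refine Finset.sum_eq_zero fun S hS => ?_
    rw [if_pos (Finset.mem_filter.mp hS).2, zero_mul]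
  rw [hz2, zero_add]
  refine Finset.sum_bij' (fun S _ => S.erase a) (fun T _ => insert a T) ?_ ?_ ?_ ?_ ?_
  · intro S hS
    simp
  · intro T hT
    simp
  · intro S hS
    exact Finset.insert_erase (Finset.mem_filter.mp hS).2
  · intro T hT
    exact Finset.erase_insert (Finset.mem_filter.mp hT).2
  · intro S hS
    have haS := (Finset.mem_filter.mp hS).2
    rw [if_pos haS, if_neg (Finset.notMem_erase a S), Finset.insert_erase haS]
    ring

theorem fh_D {p : ℝ} (hp0 : 0 < p) (hp1 : p < 1) (a : ι) (F : (ι → Bool) → ℝ) (A : Finset ι) :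
    fh p (D a F) A = if a ∈ A then 0 else (1 / sg p) * fh p F (insert a A) := by
  have h : D a F = fun x => ∑ T : Finset ι,
      (if a ∈ T then 0 else (1 / sg p) * fh p F (insert a T)) * chi p T x :=
    funext (D_expansion hp0 hp1 a F)
  rw [h, fh_poly hp0 hp1]

theorem fh_D_notMem {p : ℝ} (hp0 : 0 < p) (hp1 : p < 1) {a : ι} (F : (ι → Bool) → ℝ)
    {A : Finset ι} (ha : a ∉ A) : fh p (D a F) A = (1 / sg p) * fh p F (insert a A) := by
  rw [fh_D hp0 hp1, if_neg ha]

theorem fh_D_mem {p : ℝ} (hp0 : 0 < p) (hp1 : p < 1) {a : ι} (F : (ι → Bool) → ℝ)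
    {A : Finset ι} (ha : a ∈ A) : fh p (D a F) A = 0 := by
  rw [fh_D hp0 hp1, if_pos ha]

theorem sum_fh_sq_mem {p : ℝ} (hp0 : 0 < p) (hp1 : p < 1) (a : ι) (F : (ι → Bool) → ℝ) :
    ∑ S ∈ Finset.univ.filter (fun S : Finset ι => a ∈ S), fh p F S ^ 2
      = sg p ^ 2 * E p (fun x => D a F x ^ 2) := by
  have hs := sg_pos hp0 hp1
  rw [parseval hp0 hp1, Finset.mul_sum]
  rw [← Finset.sum_filter_add_sum_filter_not Finset.univ (fun S : Finset ι => a ∈ S)
    (fun T => sg p ^ 2 * fh p (D a F) T ^ 2)]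
  have hz2 : ∑ T ∈ Finset.univ.filter (fun S : Finset ι => a ∈ S),
      sg p ^ 2 * fh p (D a F) T ^ 2 = 0 := by
    refine Finset.sum_eq_zero fun S hS => ?_
    rw [fh_D_mem hp0 hp1 F (Finset.mem_filter.mp hS).2]
    ring
  rw [hz2, zero_add]
  refine Finset.sum_bij' (fun S _ => S.erase a) (fun T _ => insert a T) ?_ ?_ ?_ ?_ ?_
  · intro S hS
    simp
  · intro T hT
    simp
  · intro S hS
    exact Finset.insert_erase (Finset.mem_filter.mp hS).2
  · intro T hT
    exact Finset.erase_insert (Finset.mem_filter.mp hT).2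
  · intro S hS
    have haS := (Finset.mem_filter.mp hS).2
    rw [fh_D_notMem hp0 hp1 F (Finset.notMem_erase a S), Finset.insert_erase haS]
    field_simp

theorem D_ind_sq (f : (ι → Bool) → Bool) (a : ι) (x : ι → Bool) :
    D a (ind f) x ^ 2
      = if f (Function.update x a true) ≠ f (Function.update x a false) then 1 else 0 := by
  unfold D ind
  cases f (Function.update x a true) <;> cases f (Function.update x a false) <;> simp

theorem D_ind_abs (f : (ι → Bool) → Bool) (a : ι) (x : ι → Bool) :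
    |D a (ind f) x|
      = if f (Function.update x a true) ≠ f (Function.update x a false) then 1 else 0 := by
  unfold D ind
  cases f (Function.update x a true) <;> cases f (Function.update x a false) <;> simp

theorem infl_eq_E_sq (p : ℝ) (f : (ι → Bool) → Bool) (a : ι) :
    infl p f a = E p (fun x => D a (ind f) x ^ 2) := by
  unfold infl
  rw [prob_eq_E]
  refine E_congr p fun x => ?_
  rw [D_ind_sq]
  rfl

theorem infl_eq_E_abs (p : ℝ) (f : (ι → Bool) → Bool) (a : ι) :
    infl p f a = E p (fun x => |D a (ind f) x|) := by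
  unfold infl
  rw [prob_eq_E]
  refine E_congr p fun x => ?_
  rw [D_ind_abs]
  rfl

theorem sum_fh_sq_mem_ind {p : ℝ} (hp0 : 0 < p) (hp1 : p < 1) (a : ι) (f : (ι → Bool) → Bool) :
    ∑ S ∈ Finset.univ.filter (fun S : Finset ι => a ∈ S), fh p (ind f) S ^ 2
      = sg p ^ 2 * infl p f a := by
  rw [sum_fh_sq_mem hp0 hp1, infl_eq_E_sq]

theorem sum_card_mul (c : Finset ι → ℝ) :
    ∑ S : Finset ι, (S.card : ℝ) * c S
      = ∑ a : ι, ∑ S ∈ Finset.univ.filter (fun S : Finset ι => a ∈ S), c S := by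
  have h1 : ∀ S : Finset ι, (S.card : ℝ) * c S = ∑ a : ι, if a ∈ S then c S else 0 := by
    intro S
    rw [Finset.sum_ite_mem, Finset.univ_inter, Finset.sum_const, nsmul_eq_mul]
  simp only [h1]
  rw [Finset.sum_comm]
  refine Finset.sum_congr rfl fun a _ => ?_
  rw [Finset.sum_filter]

theorem sum_card_fh_sq {p : ℝ} (hp0 : 0 < p) (hp1 : p < 1) (f : (ι → Bool) → Bool) :
    ∑ S : Finset ι, (S.card : ℝ) * fh p (ind f) S ^ 2 = sg p ^ 2 * totInfl p f := by
  rw [sum_card_mul]
  simp only [sum_fh_sq_mem_ind hp0 hp1]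
  rw [← Finset.mul_sum]
  rfl

theorem poincare {p : ℝ} (hp0 : 0 < p) (hp1 : p < 1) (f : (ι → Bool) → Bool) :
    prT p f * (1 - prT p f) ≤ sg p ^ 2 * totInfl p f := by
  rw [var_eq hp0 hp1, ← sum_card_fh_sq hp0 hp1]
  calc ∑ S ∈ Finset.univ.filter (fun S : Finset ι => S.Nonempty), fh p (ind f) S ^ 2
      ≤ ∑ S ∈ Finset.univ.filter (fun S : Finset ι => S.Nonempty),
          (S.card : ℝ) * fh p (ind f) S ^ 2 := by
        refine Finset.sum_le_sum fun S hS => ?_
        have h1 : (1 : ℝ) ≤ S.card := by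
          exact_mod_cast Finset.card_pos.mpr (Finset.mem_filter.mp hS).2
        nlinarith [sq_nonneg (fh p (ind f) S)]
    _ ≤ ∑ S : Finset ι, (S.card : ℝ) * fh p (ind f) S ^ 2 :=
        Finset.sum_le_sum_of_subset_of_nonneg (Finset.subset_univ _)
          fun S _ _ => mul_nonneg (Nat.cast_nonneg _) (sq_nonneg _)

end Crest.Agent.BK.Walsh
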