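import Mathlib
import Crest.Agent.S0078_Defs
import Crest.Agent.S0078_Walsh
import Crest.Agent.S0078_G1x
import Crest.Agent.S0078_Bonami
import Crest.Agent.S0078_AvgBlock

/-!
# ROW56: the Block lemma (helper22's version, per-coordinate form)
-/

namespace Crest.Agent.BK
namespace Block22

open Crest.FinProb

set_option linter.unusedSectionVars false

variable {ι : Type*} [Fintype ι] [DecidableEq ι]

/-- The projection of `F` on the coordinates in `B`, as a Walsh polynomial. -/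
noncomputable def proj (p : ℝ) (B : Finset ι) (F : (ι → Bool) → ℝ) (x : ι → Bool) : ℝ :=
  ∑ T ∈ B.powerset, fh p F T * chi p T x

lemma proj_eq_condE {p : ℝ} (hp0 : 0 < p) (hp1 : p < 1) (B : Finset ι) (F : (ι → Bool) → ℝ)
    (x : ι → Bool) : proj p B F x = E p (fun z => F (mix Bᶜ x z)) := by
  have h1 : (fun z => F (mix Bᶜ x z))
      = fun z => ∑ T : Finset ι, (fh p F T * chi p (T \ Bᶜ) x) * chi p (T ∩ Bᶜ) z := by
    funext z
    rw [Walsh.expansion hp0 hp1 F (mix Bᶜ x z)]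
    apply Finset.sum_congr rfl
    intro T _
    rw [AvgBlock.chi_split p T Bᶜ (mix Bᶜ x z), AvgBlock.chi_mix_in p Finset.inter_subset_right,
      AvgBlock.chi_mix_out p Finset.sdiff_disjoint]
    ring
  rw [h1, AvgBlock.E_sum]
  simp_rw [AvgBlock.E_const_mul, Walsh.E_chi hp0 hp1]
  unfold proj
  rw [← Finset.sum_subset (Finset.subset_univ B.powerset)]
  · apply Finset.sum_congr rfl
    intro T hT
    rw [Finset.mem_powerset] at hT
    have h2 : T ∩ Bᶜ = ∅ := by
      ext i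
      simp only [Finset.mem_inter, Finset.mem_compl, Finset.notMem_empty, iff_false, not_and,
        not_not]
      exact fun hi => hT hi
    have h3 : T \ Bᶜ = T := by
      ext i
      simp only [Finset.mem_sdiff, Finset.mem_compl, not_not]
      exact ⟨fun h => h.1, fun h => ⟨h, hT h⟩⟩
    rw [h2, h3]
    simp
  · intro T _ hT
    rw [Finset.mem_powerset] at hT
    have h2 : T ∩ Bᶜ ≠ ∅ := by
      intro h
      apply hT
      intro i hi
      by_contra hiB
      have : i ∈ T ∩ Bᶜ := Finset.mem_inter.mpr ⟨hi, Finset.mem_compl.mpr hiB⟩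
      rw [h] at this
      simp at this
    simp [h2]

lemma E_abs_proj_le {p : ℝ} (hp0 : 0 < p) (hp1 : p < 1) (B : Finset ι) (F : (ι → Bool) → ℝ) :
    E p (fun x => |proj p B F x|) ≤ E p (fun x => |F x|) := by
  rw [← AvgBlock.E_mix p Bᶜ (fun x => |F x|)]
  apply AvgBlock.E_mono hp0.le hp1.le
  intro x
  rw [proj_eq_condE hp0 hp1]
  exact G1x.abs_E_le hp0.le hp1.le _

lemma poly_mul {p : ℝ} (hp0 : 0 < p) (hp1 : p < 1) (fam fam' : Finset (Finset ι))
    (hsub : fam' ⊆ fam) (c : Finset ι → ℝ) :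
    E p (fun x => (∑ S ∈ fam, c S * chi p S x) * (∑ S ∈ fam', c S * chi p S x))
      = ∑ S ∈ fam', c S ^ 2 := by
  rw [Walsh.parseval2 hp0 hp1]
  simp_rw [Walsh.fh_poly_on hp0 hp1]
  rw [← Finset.sum_subset (Finset.subset_univ fam')]
  · apply Finset.sum_congr rfl
    intro S hS
    simp only [hS, hsub hS, if_true]
    ring
  · intro S _ hS
    simp [hS]

/-- The heart of the Block lemma, for one function `F` (to be `D a (ind g)`). -/
lemma per_coord {p : ℝ} (hp0 : 0 < p) (hp1 : p < 1) (F : (ι → Bool) → ℝ) (B : Finset ι) (k : ℕ) :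
    ∑ T ∈ B.powerset.filter (fun T => T.card ≤ k), fh p F T ^ 2
      ≤ E p (fun x => |F x|) * Real.sqrt (∑ T ∈ B.powerset, fh p F T ^ 2) * (2 / sg p) ^ k := by
  set q := ∑ T ∈ B.powerset.filter (fun T => T.card ≤ k), fh p F T ^ 2 with hq
  set Q := ∑ T ∈ B.powerset, fh p F T ^ 2 with hQ
  have hs := AvgBlock.sg_pos hp0 hp1
  have hq0 : 0 ≤ q := Finset.sum_nonneg (fun _ _ => sq_nonneg _)
  have hQ0 : 0 ≤ Q := Finset.sum_nonneg (fun _ _ => sq_nonneg _)
  have hF0 : 0 ≤ E p (fun x => |F x|) := AvgBlock.E_nonneg hp0.le hp1.le (fun _ => abs_nonneg _)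
  have hd0 : 0 ≤ E p (fun x => |proj p B F x|) :=
    AvgBlock.E_nonneg hp0.le hp1.le (fun _ => abs_nonneg _)
  have hH := G1x.E_holder_244' hp0.le hp1.le (proj p B F)
    (fun x => ∑ T ∈ B.powerset.filter (fun T => T.card ≤ k), fh p F T * chi p T x)
  have e1 : E p (fun x => proj p B F x *
      ∑ T ∈ B.powerset.filter (fun T => T.card ≤ k), fh p F T * chi p T x) = q :=
    poly_mul hp0 hp1 _ _ (Finset.filter_subset _ _) _
  have e2 : E p (fun x => proj p B F x ^ 2) = Q := by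
    have := poly_mul hp0 hp1 B.powerset B.powerset (Finset.Subset.refl _) (fh p F)
    rw [hQ, ← this]
    congr 1
    funext x
    unfold proj
    ring
  have e3 : E p (fun x => (∑ T ∈ B.powerset.filter (fun T => T.card ≤ k),
      fh p F T * chi p T x) ^ 4) ≤ (2 / sg p) ^ (2 * k) * q ^ 2 :=
    bonami_24_finset hp0 hp1 k _ (fun S hS => (Finset.mem_filter.mp hS).2) _
  rw [e1, e2] at hH
  have hR0 : 0 ≤ E p (fun x => |F x|) * Real.sqrt Q * (2 / sg p) ^ k := by positivity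
  rcases hq0.eq_or_lt with h0 | hpos
  · rw [← h0]; exact hR0
  · have h4 : q ^ 4 ≤ (E p (fun x => |F x|)) ^ 2 * Q * ((2 / sg p) ^ (2 * k) * q ^ 2) := by
      calc q ^ 4 ≤ _ := hH
        _ ≤ (E p (fun x => |F x|)) ^ 2 * Q * ((2 / sg p) ^ (2 * k) * q ^ 2) := by
          apply mul_le_mul _ e3 (AvgBlock.E_nonneg hp0.le hp1.le (fun _ => by positivity))
            (by positivity)
          apply mul_le_mul_of_nonneg_right _ hQ0
          exact pow_le_pow_left₀ hd0 (E_abs_proj_le hp0 hp1 B F) 2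
    have h5 : q ^ 2 ≤ (E p (fun x => |F x|) * Real.sqrt Q * (2 / sg p) ^ k) ^ 2 := by
      have hq2 : 0 < q ^ 2 := by positivity
      have : q ^ 2 * q ^ 2 ≤ ((E p (fun x => |F x|)) ^ 2 * Q * (2 / sg p) ^ (2 * k)) * q ^ 2 := by
        calc q ^ 2 * q ^ 2 = q ^ 4 := by ring
          _ ≤ _ := h4
          _ = _ := by ring
      have h6 := le_of_mul_le_mul_right this hq2
      calc q ^ 2 ≤ _ := h6
        _ = _ := by
          rw [mul_pow, mul_pow, Real.sq_sqrt hQ0, ← pow_mul, mul_comm k 2]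
    exact (pow_le_pow_iff_left₀ hq0 hR0 (by norm_num)).mp h5

/-- Reindexing `T ↦ insert a T`. -/
lemma sum_fhD {p : ℝ} (hp0 : 0 < p) (hp1 : p < 1) (F : (ι → Bool) → ℝ) (B : Finset ι) {a : ι}
    (ha : a ∈ B) (P : ℕ → Prop) [DecidablePred P] :
    ∑ T ∈ B.powerset.filter (fun T => P (T.card + 1)), fh p (D a F) T ^ 2
      = (1 / sg p) ^ 2 * ∑ A ∈ B.powerset.filter (fun A => a ∈ A ∧ P A.card), fh p F A ^ 2 := by
  have h1 : ∑ T ∈ B.powerset.filter (fun T => P (T.card + 1)), fh p (D a F) T ^ 2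
      = ∑ T ∈ (B.powerset.filter (fun T => P (T.card + 1))).filter (fun T => a ∉ T),
          (1 / sg p) ^ 2 * fh p F (insert a T) ^ 2 := by
    rw [Finset.sum_filter (s := B.powerset.filter (fun T => P (T.card + 1))) (p := fun T => a ∉ T)]
    apply Finset.sum_congr rfl
    intro T _
    rw [Walsh.fh_D hp0 hp1]
    by_cases h : a ∈ T
    · simp [h]
    · simp only [h, if_false, not_false_eq_true, if_true]
      ring
  rw [h1, Finset.mul_sum]
  apply Finset.sum_nbij' (fun T => insert a T) (fun A => A.erase a)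
  · intro T hT
    simp only [Finset.mem_filter, Finset.mem_powerset] at hT ⊢
    refine ⟨Finset.insert_subset ha hT.1.1, Finset.mem_insert_self a T, ?_⟩
    rw [Finset.card_insert_of_notMem hT.2]
    exact hT.1.2
  · intro A hA
    simp only [Finset.mem_filter, Finset.mem_powerset] at hA ⊢
    refine ⟨⟨(Finset.erase_subset a A).trans hA.1, ?_⟩, Finset.notMem_erase a A⟩
    rw [Finset.card_erase_add_one hA.2.1]
    exact hA.2.2
  · intro T hT
    simp only [Finset.mem_filter] at hT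
    exact Finset.erase_insert hT.2
  · intro A hA
    simp only [Finset.mem_filter] at hA
    exact Finset.insert_erase hA.2.1
  · intro T _
    rfl

/-- Double counting. -/
lemma double_count (B : Finset ι) (Dg : ℕ) (ψ : Finset ι → ℝ) :
    ∑ A ∈ B.powerset.filter (fun A => 1 ≤ A.card ∧ A.card ≤ Dg), (A.card : ℝ) * ψ A
      = ∑ a ∈ B, ∑ A ∈ B.powerset.filter (fun A => a ∈ A ∧ A.card ≤ Dg), ψ A := by
  have h1 : ∀ a ∈ B, ∑ A ∈ B.powerset.filter (fun A => a ∈ A ∧ A.card ≤ Dg), ψ A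
      = ∑ A ∈ B.powerset.filter (fun A => 1 ≤ A.card ∧ A.card ≤ Dg), if a ∈ A then ψ A else 0 := by
    intro a _
    rw [← Finset.sum_filter, Finset.filter_filter]
    apply Finset.sum_congr _ (fun _ _ => rfl)
    ext A
    simp only [Finset.mem_filter, Finset.mem_powerset]
    constructor
    · rintro ⟨h1, h2, h3⟩
      exact ⟨h1, ⟨Finset.card_pos.mpr ⟨a, h2⟩, h3⟩, h2⟩
    · rintro ⟨h1, ⟨_, h3⟩, h2⟩
      exact ⟨h1, h2, h3⟩
  rw [Finset.sum_congr rfl h1, Finset.sum_comm]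
  apply Finset.sum_congr rfl
  intro A hA
  simp only [Finset.mem_filter, Finset.mem_powerset] at hA
  rw [← Finset.sum_filter, Finset.sum_const, nsmul_eq_mul]
  congr 2
  congr 1
  ext i
  simp only [Finset.mem_filter]
  exact ⟨fun h => ⟨hA.1 h, h⟩, fun h => h.2⟩

/-- **The Block lemma.** -/
theorem block_lemma (p : ℝ) (hp0 : 0 < p) (hp1 : p < 1) (g : (ι → Bool) → Bool) (B : Finset ι)
    (y : ℕ) (hy : 1 ≤ y)
    (hw : (y : ℝ) * ∑ A ∈ B.powerset.filter (fun A => A.Nonempty), fh p (ind g) A ^ 2 ≤ 1)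
    (Dg : ℕ) (hD : 1 ≤ Dg) :
    ∑ A ∈ B.powerset.filter (fun A => 1 ≤ A.card ∧ A.card ≤ Dg), (A.card : ℝ) * fh p (ind g) A ^ 2
      ≤ sg p * (2 / sg p) ^ (Dg - 1) / Real.sqrt y * ∑ a ∈ B, infl p g a := by
  have hs := AvgBlock.sg_pos hp0 hp1
  have hyR : (0 : ℝ) < y := by exact_mod_cast hy
  have hsy : 0 < Real.sqrt y := Real.sqrt_pos.mpr hyR
  rw [double_count, Finset.mul_sum]
  apply Finset.sum_le_sum
  intro a ha
  -- the low-degree part
  have e1 := sum_fhD hp0 hp1 (ind g) B ha (fun k => k ≤ Dg)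
  have e1' : ∑ T ∈ B.powerset.filter (fun T => T.card ≤ Dg - 1), fh p (D a (ind g)) T ^ 2
      = (1 / sg p) ^ 2 * ∑ A ∈ B.powerset.filter (fun A => a ∈ A ∧ A.card ≤ Dg),
          fh p (ind g) A ^ 2 := by
    rw [← e1]
    apply Finset.sum_congr _ (fun _ _ => rfl)
    ext T
    simp only [Finset.mem_filter]
    constructor
    · rintro ⟨h1, h2⟩
      exact ⟨h1, by omega⟩
    · rintro ⟨h1, h2⟩
      exact ⟨h1, by omega⟩
  -- the full block
  have e2 := sum_fhD hp0 hp1 (ind g) B ha (fun _ => True)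
  have e2' : ∑ T ∈ B.powerset, fh p (D a (ind g)) T ^ 2 ≤ (1 / sg p) ^ 2 * (1 / y) := by
    have : ∑ T ∈ B.powerset, fh p (D a (ind g)) T ^ 2
        = ∑ T ∈ B.powerset.filter (fun _ => True), fh p (D a (ind g)) T ^ 2 := by
      rw [Finset.filter_true_of_mem (fun _ _ => trivial)]
    rw [this, e2]
    apply mul_le_mul_of_nonneg_left _ (by positivity)
    rw [le_div_iff₀ hyR, mul_comm]
    refine le_trans ?_ hw
    apply mul_le_mul_of_nonneg_left _ hyR.le
    apply Finset.sum_le_sum_of_subset_of_nonneg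
    · intro A hA
      simp only [Finset.mem_filter, Finset.mem_powerset] at hA ⊢
      exact ⟨hA.1, ⟨a, hA.2.1⟩⟩
    · intro _ _ _
      exact sq_nonneg _
  have hpc := per_coord hp0 hp1 (D a (ind g)) B (Dg - 1)
  rw [e1', ← G1x.infl_eq_E_abs] at hpc
  have hI : 0 ≤ infl p g a := G1x.infl_nonneg hp0.le hp1.le g a
  have hsq : Real.sqrt (∑ T ∈ B.powerset, fh p (D a (ind g)) T ^ 2) ≤ 1 / (sg p * Real.sqrt y) := by
    calc _ ≤ Real.sqrt ((1 / sg p) ^ 2 * (1 / y)) := Real.sqrt_le_sqrt e2'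
      _ = 1 / (sg p * Real.sqrt y) := by
        rw [Real.sqrt_mul (by positivity), Real.sqrt_sq (by positivity), Real.sqrt_div (by norm_num),
          Real.sqrt_one]
        field_simp
  have hfin : (1 / sg p) ^ 2 * ∑ A ∈ B.powerset.filter (fun A => a ∈ A ∧ A.card ≤ Dg),
      fh p (ind g) A ^ 2 ≤ infl p g a * (1 / (sg p * Real.sqrt y)) * (2 / sg p) ^ (Dg - 1) := by
    refine hpc.trans ?_
    apply mul_le_mul_of_nonneg_right _ (by positivity)
    exact mul_le_mul_of_nonneg_left hsq hI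
  have hs2 : 0 < sg p ^ 2 := by positivity
  calc ∑ A ∈ B.powerset.filter (fun A => a ∈ A ∧ A.card ≤ Dg), fh p (ind g) A ^ 2
      = sg p ^ 2 * ((1 / sg p) ^ 2 * ∑ A ∈ B.powerset.filter (fun A => a ∈ A ∧ A.card ≤ Dg),
          fh p (ind g) A ^ 2) := by
        field_simp
    _ ≤ sg p ^ 2 * (infl p g a * (1 / (sg p * Real.sqrt y)) * (2 / sg p) ^ (Dg - 1)) :=
        mul_le_mul_of_nonneg_left hfin hs2.le
    _ = sg p * (2 / sg p) ^ (Dg - 1) / Real.sqrt y * infl p g a := by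
        field_simp

end Block22
end Crest.Agent.BK
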