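import Mathlib

/-!
# ROW56 (S0077 + S0078): the choice of parameters (pure real analysis)

From the Poincaré inequality `V ≤ s² I` and the family of bounds
`V ≤ (r s²/(D+1)^α + 4 r (D+1)² s (2/s)^(D-1)/√n) I` (`D ≥ 1`), deduce
`V ≤ r 2^15 / (log n)^α · I`.
-/

namespace Crest.Agent.BK

theorem params_core (r α L s V I : ℝ) (hr : 1 ≤ r) (hα0 : 0 ≤ α) (hα2 : α ≤ 2) (hL : 0 < L)
    (hs0 : 0 < s) (hs : s ≤ 1 / 2) (hI : 0 ≤ I) (hpoin : V ≤ s ^ 2 * I)
    (hmain : ∀ D : ℕ, 1 ≤ D →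
      V ≤ (r * s ^ 2 / ((D : ℝ) + 1) ^ α
            + 4 * r * ((D : ℝ) + 1) ^ 2 * s * (2 / s) ^ (D - 1) / Real.exp (L / 2)) * I) :
    V ≤ r * 2 ^ 15 / L ^ α * I := by
  have hLα : 0 < L ^ α := Real.rpow_pos_of_pos hL α
  by_cases hA : s ^ 2 * L ^ α ≤ r * 2 ^ 15
  · -- Poincaré regime
    have h1 : s ^ 2 ≤ r * 2 ^ 15 / L ^ α := by
      rw [le_div_iff₀ hLα]; exact hA
    exact hpoin.trans (mul_le_mul_of_nonneg_right h1 hI)
  · rw [not_le] at hA
    have hs2 : s ^ 2 ≤ 1 / 4 := by nlinarith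
    -- `L > 1`
    have hLα1 : 1 < L ^ α := by nlinarith
    have hL1 : 1 < L := by
      by_contra hcon
      rw [not_lt] at hcon
      have := Real.rpow_le_one hL.le hcon hα0
      linarith
    have hLα2 : L ^ α ≤ L ^ 2 := by
      have := Real.rpow_le_rpow_of_exponent_le hL1.le hα2
      simpa using this
    -- `t = s L / 128 > 1`
    set t : ℝ := s * L / 128 with ht
    have hsL : (128 : ℝ) < s * L := by
      have h1 : (2 : ℝ) ^ 15 < (s * L) ^ 2 := by
        have : s ^ 2 * L ^ α ≤ s ^ 2 * L ^ 2 := mul_le_mul_of_nonneg_left hLα2 (sq_nonneg s)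
        nlinarith
      have h2 : 0 < s * L := mul_pos hs0 hL
      nlinarith
    have ht1 : 1 < t := by rw [ht]; linarith
    have ht0 : 0 < t := by linarith
    obtain ⟨D', hD'⟩ : ∃ D' : ℕ, D' = ⌈t⌉₊ := ⟨_, rfl⟩
    have hD'lo : t ≤ (D' : ℝ) := by rw [hD']; exact Nat.le_ceil t
    have hD'hi : (D' : ℝ) < t + 1 := by rw [hD']; exact Nat.ceil_lt_add_one ht0.le
    have hD'2 : 2 ≤ D' := by
      have : (1 : ℝ) < (D' : ℝ) := lt_of_lt_of_le ht1 hD'lo
      have : 1 < D' := by exact_mod_cast this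
      omega
    obtain ⟨k, rfl⟩ : ∃ k, D' = k + 2 := ⟨D' - 2, by omega⟩
    have hm := hmain (k + 1) (by omega)
    have hcast : (((k + 1 : ℕ) : ℝ) + 1) = ((k + 2 : ℕ) : ℝ) := by push_cast; ring
    rw [hcast] at hm
    have hk1 : k + 1 - 1 = k := by omega
    rw [hk1] at hm
    set d : ℝ := ((k + 2 : ℕ) : ℝ) with hd
    have hd0 : 0 < d := by linarith
    -- first term
    have hT1 : r * s ^ 2 / d ^ α ≤ r * 2 ^ 14 / L ^ α := by
      have hdα : 0 < d ^ α := Real.rpow_pos_of_pos hd0 α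
      have htα : t ^ α ≤ d ^ α := Real.rpow_le_rpow ht0.le hD'lo hα0
      have hLt : L = (128 / s) * t := by rw [ht]; field_simp
      have h128 : (1 : ℝ) ≤ 128 / s := by
        rw [le_div_iff₀ hs0]; linarith
      have h3 : L ^ α = (128 / s) ^ α * t ^ α := by
        conv_lhs => rw [hLt]
        rw [Real.mul_rpow (by positivity) ht0.le]
      have h4 : (128 / s) ^ α ≤ (128 / s) ^ 2 := by
        have := Real.rpow_le_rpow_of_exponent_le h128 hα2
        simpa using this
      have h5 : s ^ 2 * L ^ α ≤ 2 ^ 14 * d ^ α := by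
        rw [h3]
        have h6 : s ^ 2 * (128 / s) ^ 2 = 2 ^ 14 := by field_simp; norm_num
        have htα0 : 0 ≤ t ^ α := (Real.rpow_pos_of_pos ht0 α).le
        calc s ^ 2 * ((128 / s) ^ α * t ^ α) ≤ s ^ 2 * ((128 / s) ^ 2 * t ^ α) := by
              apply mul_le_mul_of_nonneg_left _ (sq_nonneg s)
              exact mul_le_mul_of_nonneg_right h4 htα0
          _ = 2 ^ 14 * t ^ α := by rw [← mul_assoc, h6]
          _ ≤ 2 ^ 14 * d ^ α := by
              apply mul_le_mul_of_nonneg_left htα (by positivity)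
      rw [div_le_div_iff₀ hdα hLα]
      have hr0 : 0 ≤ r := by linarith
      nlinarith [mul_le_mul_of_nonneg_left h5 hr0]
    -- second term
    have hpow : (2 / s) ^ k ≤ Real.exp (L / 64) := by
      have h1 : 2 / s ≤ Real.exp (2 / s) := by
        have := Real.add_one_le_exp (2 / s); linarith
      have h2 : (2 / s) ^ k ≤ Real.exp (2 / s) ^ k :=
        pow_le_pow_left₀ (by positivity) h1 k
      have h3 : Real.exp (2 / s) ^ k = Real.exp ((k : ℝ) * (2 / s)) := by
        rw [← Real.exp_nat_mul]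
      have hkt : (k : ℝ) ≤ t := by
        have : d = (k : ℝ) + 2 := by rw [hd]; push_cast; ring
        linarith
      have h4 : (k : ℝ) * (2 / s) ≤ L / 64 := by
        have h5 : t * (2 / s) = L / 64 := by rw [ht]; field_simp; norm_num
        rw [← h5]
        exact mul_le_mul_of_nonneg_right hkt (by positivity)
      calc (2 / s) ^ k ≤ Real.exp (2 / s) ^ k := h2
        _ = Real.exp ((k : ℝ) * (2 / s)) := h3
        _ ≤ Real.exp (L / 64) := Real.exp_le_exp.mpr h4
    have hdL : d ≤ L / 128 := by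
      have : d ≤ 2 * t := by linarith
      have h2 : 2 * t = s * L / 64 := by rw [ht]; ring
      have h3 : s * L ≤ 1 / 2 * L := mul_le_mul_of_nonneg_right hs hL.le
      linarith
    have hexp4 : L ^ 4 ≤ 2 ^ 13 * Real.exp (31 * L / 64) := by
      have h := Real.pow_div_factorial_le_exp (31 * L / 64) (by positivity) 4
      have hf : ((4 : ℕ).factorial : ℝ) = 24 := by norm_num [Nat.factorial]
      rw [hf] at h
      have h2 : (31 * L / 64) ^ 4 / 24 = L ^ 4 * (31 ^ 4 / (64 ^ 4 * 24)) := by ring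
      rw [h2] at h
      have hL4 : 0 ≤ L ^ 4 := by positivity
      nlinarith
    have hT2 : 4 * r * d ^ 2 * s * (2 / s) ^ k / Real.exp (L / 2) ≤ r * 2 ^ 14 / L ^ α := by
      have he2 : 0 < Real.exp (L / 2) := Real.exp_pos _
      rw [div_le_div_iff₀ he2 hLα]
      have hr0 : 0 ≤ r := by linarith
      have hd2 : d ^ 2 ≤ (L / 128) ^ 2 := pow_le_pow_left₀ hd0.le hdL 2
      have hsplit : Real.exp (L / 2) = Real.exp (L / 64) * Real.exp (31 * L / 64) := by
        rw [← Real.exp_add]; congr 1; ring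
      have he64 : 0 < Real.exp (L / 64) := Real.exp_pos _
      have he31 : 0 < Real.exp (31 * L / 64) := Real.exp_pos _
      calc 4 * r * d ^ 2 * s * (2 / s) ^ k * L ^ α
          ≤ 4 * r * (L / 128) ^ 2 * (1 / 2) * Real.exp (L / 64) * L ^ 2 := by
            gcongr
        _ = r * Real.exp (L / 64) * (L ^ 4 / 2 ^ 13) := by ring
        _ ≤ r * Real.exp (L / 64) * Real.exp (31 * L / 64) := by
            apply mul_le_mul_of_nonneg_left _ (by positivity)
            rw [div_le_iff₀ (by positivity)]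
            linarith
        _ ≤ r * 2 ^ 14 * Real.exp (L / 2) := by
            rw [hsplit]
            have : 0 ≤ r * (Real.exp (L / 64) * Real.exp (31 * L / 64)) := by positivity
            nlinarith
    calc V ≤ (r * s ^ 2 / d ^ α + 4 * r * d ^ 2 * s * (2 / s) ^ k / Real.exp (L / 2)) * I := hm
      _ ≤ (r * 2 ^ 14 / L ^ α + r * 2 ^ 14 / L ^ α) * I :=
          mul_le_mul_of_nonneg_right (add_le_add hT1 hT2) hI
      _ = r * 2 ^ 15 / L ^ α * I := by ring

/-- `√n = exp (log n / 2)`. -/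
theorem sqrt_nat_eq_exp (n : ℕ) (hn : 1 ≤ n) :
    Real.sqrt (n : ℝ) = Real.exp (Real.log n / 2) := by
  have hn0 : (0 : ℝ) < n := by exact_mod_cast hn
  rw [Real.exp_half, Real.exp_log hn0]

/-- Parameters for graphs (`r = 2`), with the constant `2^17` needed for S0077
(in fact `2^16`). -/
theorem params_two (n : ℕ) (hn : 2 ≤ n) (s V I : ℝ)
    (hs0 : 0 < s) (hs : s ≤ 1 / 2) (hI : 0 ≤ I) (hpoin : V ≤ s ^ 2 * I)
    (hmain : ∀ D : ℕ, 1 ≤ D →
      V ≤ (2 * s ^ 2 / ((D : ℝ) + 1) ^ 2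
            + 4 * 2 * ((D : ℝ) + 1) ^ 2 * s * (2 / s) ^ (D - 1) / Real.sqrt n) * I) :
    V ≤ 2 ^ 17 / Real.log n ^ 2 * I := by
  have hL : 0 < Real.log n := Real.log_pos (by exact_mod_cast (by omega : 1 < n))
  have h := params_core 2 2 (Real.log n) s V I (by norm_num) (by norm_num) le_rfl hL hs0 hs hI
    hpoin (by
      intro D hD
      have := hmain D hD
      rw [sqrt_nat_eq_exp n (by omega)] at this
      simpa using this)
  have h2 : (2 : ℝ) * 2 ^ 15 / Real.log n ^ (2 : ℝ) * I ≤ 2 ^ 17 / Real.log n ^ 2 * I := by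
    rw [Real.rpow_two]
    apply mul_le_mul_of_nonneg_right _ hI
    apply div_le_div_of_nonneg_right (by norm_num) (by positivity)
  exact h.trans h2

/-- Parameters for `r`-uniform hypergraphs; the right-hand side has exactly the shape of S0078. -/
theorem params_gen (r : ℕ) (hr : 2 ≤ r) (n : ℕ) (hn : 2 ≤ n) (s V I : ℝ)
    (hs0 : 0 < s) (hs : s ≤ 1 / 2) (hI : 0 ≤ I) (hpoin : V ≤ s ^ 2 * I)
    (hmain : ∀ D : ℕ, 1 ≤ D →
      V ≤ ((r : ℝ) * s ^ 2 / ((D : ℝ) + 1) ^ ((r : ℝ) / ((r : ℝ) - 1))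
            + 4 * (r : ℝ) * ((D : ℝ) + 1) ^ 2 * s * (2 / s) ^ (D - 1) / Real.sqrt n) * I) :
    V ≤ ((r : ℝ) * 2 ^ 15) / Real.log n ^ ((r : ℝ) / ((r : ℝ) - 1)) * I := by
  have hL : 0 < Real.log n := Real.log_pos (by exact_mod_cast (by omega : 1 < n))
  have hr2 : (2 : ℝ) ≤ r := by exact_mod_cast hr
  have hr1 : (0 : ℝ) < (r : ℝ) - 1 := by linarith
  refine params_core r ((r : ℝ) / ((r : ℝ) - 1)) (Real.log n) s V I (by linarith)
    (by positivity) ?_ hL hs0 hs hI hpoin ?_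
  · rw [div_le_iff₀ hr1]; linarith
  · intro D hD
    have := hmain D hD
    rw [sqrt_nat_eq_exp n (by omega)] at this
    exact this

end Crest.Agent.BK
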