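import Crest.Agent.S0078_Defs
import Crest.Agent.Row56.Walsh

/-!
ROW56: translation of helper64's `Row56/Walsh.lean` to the names of `S0078_Defs`
(sub-namespace `Crest.Agent.BK.WB`, no clash with other files).
-/

namespace Crest.Agent.BK.WB

open Crest.FinProb

variable {ι : Type*} [Fintype ι] [DecidableEq ι]

theorem E_eq (p : ℝ) (F : (ι → Bool) → ℝ) : E p F = Crest.Agent.Row56.E p F := rfl

theorem sg_eq (p : ℝ) : sg p = Crest.Agent.Row56.sg p := rfl

theorem chi1_eq (p : ℝ) (b : Bool) : chi1 p b = Crest.Agent.Row56.chi p b := by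
  cases b
  · simp [chi1, Crest.Agent.Row56.chi, sg_eq, neg_div]
  · simp [chi1, Crest.Agent.Row56.chi, sg_eq]

theorem chi_eq (p : ℝ) (S : Finset ι) (x : ι → Bool) : chi p S x = Crest.Agent.Row56.chiS p S x := by
  unfold chi Crest.Agent.Row56.chiS
  exact Finset.prod_congr rfl fun i _ => chi1_eq p (x i)

theorem fh_eq (p : ℝ) (F : (ι → Bool) → ℝ) (S : Finset ι) :
    fh p F S = Crest.Agent.Row56.fh p F S := by
  unfold fh Crest.Agent.Row56.fh
  rw [E_eq]
  congr 1
  funext x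
  rw [chi_eq]

theorem ind_eq (f : (ι → Bool) → Bool) : ind f = Crest.Agent.Row56.ind f := rfl

theorem D_eq (a : ι) (F : (ι → Bool) → ℝ) : D a F = Crest.Agent.Row56.Dd a F := rfl

theorem var_eq_sum_fh (p : ℝ) (hp0 : 0 < p) (hp1 : p < 1) (f : (ι → Bool) → Bool) :
    prT p f * (1 - prT p f)
      = ∑ S ∈ Finset.univ.filter (fun S : Finset ι => S ≠ ∅), fh p (ind f) S ^ 2 := by
  have h := Crest.Agent.Row56.var_ind hp0 hp1 f
  unfold prT
  rw [h]
  have e : (Finset.univ : Finset (Finset ι)).erase ∅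
      = Finset.univ.filter (fun S : Finset ι => S ≠ ∅) := by
    ext S; simp
  rw [e]
  exact Finset.sum_congr rfl fun S _ => by rw [fh_eq, ind_eq]

theorem sum_card_fh (p : ℝ) (hp0 : 0 < p) (hp1 : p < 1) (f : (ι → Bool) → Bool) :
    ∑ S : Finset ι, (S.card : ℝ) * fh p (ind f) S ^ 2 = sg p ^ 2 * totInfl p f := by
  have h := Crest.Agent.Row56.sum_card_mul_fh_sq_ind hp0 hp1 f
  unfold totInfl infl
  rw [sg_eq, ← h]
  exact Finset.sum_congr rfl fun S _ => by rw [fh_eq, ind_eq]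

end Crest.Agent.BK.WB
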