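import Crest.Agent.S0078_Defs
import Crest.Agent.S0078_WalshBK
import Crest.Agent.S0078_Comb
import Crest.Agent.S0078_Params
import Crest.Agent.S0078_G1x

/-!
ROW56: the top of the proof.  From Lemma A (summed form, hypothesis `LemmaA n r`) to the
variance-influence inequality on `HyperedgeSlot n r`.
All names live in `Crest.Agent.BK.Core`.
-/

namespace Crest.Agent.BK.Core

open Crest.FinProb Crest.CombinatoricsR.HypergraphCube

theorem sg_pos (p : ℝ) (hp0 : 0 < p) (hp1 : p < 1) : 0 < sg p := by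
  unfold sg
  apply Real.sqrt_pos.mpr
  nlinarith

theorem sg_le_half (p : ℝ) : sg p ≤ 1 / 2 := by
  unfold sg
  rw [show (1 / 2 : ℝ) = Real.sqrt (1 / 4) by
    rw [show (1 / 4 : ℝ) = (1 / 2) ^ 2 by norm_num]
    rw [Real.sqrt_sq (by norm_num)]]
  apply Real.sqrt_le_sqrt
  nlinarith [sq_nonneg (p - 1 / 2)]

/-- Poincare inequality. -/
theorem poincare {ι : Type*} [Fintype ι] [DecidableEq ι] (p : ℝ) (hp0 : 0 < p) (hp1 : p < 1)
    (f : (ι → Bool) → Bool) :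
    prT p f * (1 - prT p f) ≤ sg p ^ 2 * totInfl p f := by
  rw [WB.var_eq_sum_fh p hp0 hp1, ← WB.sum_card_fh p hp0 hp1, Finset.sum_filter]
  apply Finset.sum_le_sum
  intro S _
  split_ifs with h
  · have : (1 : ℝ) ≤ S.card := by
      exact_mod_cast Finset.card_pos.mpr (Finset.nonempty_iff_ne_empty.mpr h)
    nlinarith [sq_nonneg (fh p (ind f) S)]
  · positivity

/-- The statement of Lemma A of the proof, summed over the vertices of `Y`. -/
def LemmaA (n r : ℕ) : Prop :=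
  ∀ (p : ℝ), 0 < p → p < 1 → ∀ f : (HyperedgeSlot n r → Bool) → Bool, IsSymmetric f →
    ∀ D : ℕ, 1 ≤ D → ∀ Y : Finset (Fin n),
      ∑ v ∈ Y, ∑ S ∈ Scal (fun e : HyperedgeSlot n r => e.1) Y v D, fh p (ind f) S ^ 2
        ≤ sg p * (2 / sg p) ^ (D - 1) * (r : ℝ) / Real.sqrt n * totInfl p f

/-- the TOTAL inequality. -/
theorem core (n r : ℕ) (hr : 2 ≤ r) (hA : LemmaA n r) (p : ℝ) (hp0 : 0 < p) (hp1 : p < 1)
    (f : (HyperedgeSlot n r → Bool) → Bool) (hf : IsSymmetric f) (D : ℕ) (hD : 1 ≤ D) :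
    prT p f * (1 - prT p f)
      ≤ ((r : ℝ) * sg p ^ 2 / ((D : ℝ) + 1) ^ ((r : ℝ) / ((r : ℝ) - 1))
          + 4 * r * ((D : ℝ) + 1) ^ 2 * sg p * (2 / sg p) ^ (D - 1) / Real.sqrt n) * totInfl p f := by
  have h1 := total_of_lemmaA (fun e : HyperedgeSlot n r => e.1) Subtype.val_injective r hr
    (fun e => e.2) (fun S => fh p (ind f) S ^ 2) (fun S => sq_nonneg _) D hD
    (sg p * (2 / sg p) ^ (D - 1) * (r : ℝ) / Real.sqrt n * totInfl p f)
    (fun Y => hA p hp0 hp1 f hf D hD Y)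
  rw [WB.var_eq_sum_fh p hp0 hp1]
  refine h1.trans (le_of_eq ?_)
  rw [WB.sum_card_fh p hp0 hp1]
  ring

/-- graphs: `Var ≤ 2^17 / log² n * I`. -/
theorem core_two (n : ℕ) (hn : 2 ≤ n) (hA : LemmaA n 2) (p : ℝ) (hp0 : 0 < p) (hp1 : p < 1)
    (f : (HyperedgeSlot n 2 → Bool) → Bool) (hf : IsSymmetric f) :
    prT p f * (1 - prT p f) ≤ 2 ^ 17 / Real.log n ^ 2 * totInfl p f := by
  apply params_two n hn (sg p) _ _ (sg_pos p hp0 hp1) (sg_le_half p)
    (G1x.totInfl_nonneg hp0.le hp1.le f) (poincare p hp0 hp1 f)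
  intro D hD
  have := core n 2 le_rfl hA p hp0 hp1 f hf D hD
  have e : ((2 : ℕ) : ℝ) / (((2 : ℕ) : ℝ) - 1) = ((2 : ℕ) : ℝ) := by norm_num
  rw [e, Real.rpow_natCast] at this
  exact_mod_cast this

/-- hypergraphs: `Var ≤ r 2^15 / (log n)^(r/(r-1)) * I`. -/
theorem core_gen (n r : ℕ) (hr : 2 ≤ r) (hn : r ≤ n) (hA : LemmaA n r) (p : ℝ) (hp0 : 0 < p)
    (hp1 : p < 1) (f : (HyperedgeSlot n r → Bool) → Bool) (hf : IsSymmetric f) :
    prT p f * (1 - prT p f)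
      ≤ ((r : ℝ) * 2 ^ 15) / Real.log n ^ ((r : ℝ) / ((r : ℝ) - 1)) * totInfl p f :=
  params_gen r hr n (by omega) (sg p) _ _ (sg_pos p hp0 hp1) (sg_le_half p)
    (G1x.totInfl_nonneg hp0.le hp1.le f) (poincare p hp0 hp1 f)
    (fun D hD => core n r hr hA p hp0 hp1 f hf D hD)

end Crest.Agent.BK.Core
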