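import Crest.Agent.S0078_Defs

/-!
ROW56 (S0077/S0078), packages G2+G3 on the names of `S0078_Defs`: the `p`-biased Walsh basis.
Helper lemmas live in `Crest.Agent.BK.Fourier`; the interface theorems at the end in `Crest.Agent.BK`.
-/

set_option autoImplicit false
set_option linter.unusedSectionVars false
set_option linter.unusedSimpArgs false

namespace Crest.Agent.BK.Fourier

open Crest.FinProb Finset Crest.Agent.BK

variable {ι : Type*} [Fintype ι] [DecidableEq ι]

/-! ### basic facts on `E` -/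

lemma E_add (p : ℝ) (F G : (ι → Bool) → ℝ) :
    E p (fun x => F x + G x) = E p F + E p G := by
  simp only [E, mul_add, sum_add_distrib]

lemma E_sub (p : ℝ) (F G : (ι → Bool) → ℝ) :
    E p (fun x => F x - G x) = E p F - E p G := by
  simp only [E, mul_sub, sum_sub_distrib]

lemma E_const_mul (p c : ℝ) (F : (ι → Bool) → ℝ) :
    E p (fun x => c * F x) = c * E p F := by
  simp only [E, mul_sum]
  exact sum_congr rfl fun x _ => by ring

lemma E_mul_const (p c : ℝ) (F : (ι → Bool) → ℝ) :
    E p (fun x => F x * c) = E p F * c := by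
  simp only [E, sum_mul]
  exact sum_congr rfl fun x _ => by ring

lemma E_sum {κ : Type*} (p : ℝ) (s : Finset κ) (F : κ → (ι → Bool) → ℝ) :
    E p (fun x => ∑ k ∈ s, F k x) = ∑ k ∈ s, E p (F k) := by
  simp only [E, mul_sum]
  exact sum_comm

lemma bernoulliWeight_nonneg {p : ℝ} (h0 : 0 ≤ p) (h1 : p ≤ 1) (x : ι → Bool) :
    0 ≤ bernoulliWeight p x := by
  unfold bernoulliWeight
  refine prod_nonneg fun i _ => ?_
  split_ifs
  · exact h0
  · linarith

lemma bernoulliWeight_pos {p : ℝ} (h0 : 0 < p) (h1 : p < 1) (x : ι → Bool) :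
    0 < bernoulliWeight p x := by
  unfold bernoulliWeight
  refine prod_pos fun i _ => ?_
  split_ifs
  · exact h0
  · linarith

lemma E_mono {p : ℝ} (h0 : 0 ≤ p) (h1 : p ≤ 1) {F G : (ι → Bool) → ℝ} (h : ∀ x, F x ≤ G x) :
    E p F ≤ E p G :=
  sum_le_sum fun x _ => mul_le_mul_of_nonneg_left (h x) (bernoulliWeight_nonneg h0 h1 x)

lemma E_nonneg {p : ℝ} (h0 : 0 ≤ p) (h1 : p ≤ 1) {F : (ι → Bool) → ℝ} (h : ∀ x, 0 ≤ F x) :
    0 ≤ E p F :=
  sum_nonneg fun x _ => mul_nonneg (bernoulliWeight_nonneg h0 h1 x) (h x)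

/-- Expectation of a product function. -/
lemma E_prod (p : ℝ) (g : ι → Bool → ℝ) :
    E p (fun x => ∏ i, g i (x i)) = ∏ i, (p * g i true + (1 - p) * g i false) := by
  have h : ∀ i, (p * g i true + (1 - p) * g i false)
      = ∑ b : Bool, (if b then p else 1 - p) * g i b := by
    intro i; simp [add_comm]
  simp only [h, E, bernoulliWeight]
  rw [Finset.prod_univ_sum]
  simp only [Fintype.piFinset_univ, prod_mul_distrib]

lemma E_one (p : ℝ) : E p (fun _ : ι → Bool => (1 : ℝ)) = 1 := by
  have := E_prod (ι := ι) p (fun _ _ => 1)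
  simpa using this

lemma E_const (p c : ℝ) : E p (fun _ : ι → Bool => c) = c := by
  have := E_const_mul (ι := ι) p c (fun _ => 1)
  simpa [E_one] using this


/-! ### one coin -/

lemma sg_pos {p : ℝ} (h0 : 0 < p) (h1 : p < 1) : 0 < sg p :=
  Real.sqrt_pos.2 (mul_pos h0 (by linarith))

lemma sg_sq {p : ℝ} (h0 : 0 < p) (h1 : p < 1) : sg p ^ 2 = p * (1 - p) :=
  Real.sq_sqrt (mul_pos h0 (by linarith)).le

lemma sg_mul_self {p : ℝ} (h0 : 0 < p) (h1 : p < 1) : sg p * sg p = p * (1 - p) := by
  rw [← sq, sg_sq h0 h1]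

lemma chi_true (p : ℝ) : chi1 p true = (1 - p) / sg p := by simp [chi1]

lemma chi_false (p : ℝ) : chi1 p false = -p / sg p := by simp [chi1, neg_div]

lemma chi_true_sub_false {p : ℝ} : chi1 p true - chi1 p false = 1 / sg p := by
  rw [chi_true, chi_false]; ring

/-- mean zero. -/
lemma coin_chi (p : ℝ) : p * chi1 p true + (1 - p) * chi1 p false = 0 := by
  rw [chi_true, chi_false]; ring

/-- variance one. -/
lemma coin_chi_sq {p : ℝ} (h0 : 0 < p) (h1 : p < 1) :
    p * (chi1 p true * chi1 p true) + (1 - p) * (chi1 p false * chi1 p false) = 1 := by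
  have hs := sg_pos h0 h1
  have h2 := sg_mul_self h0 h1
  rw [chi_true, chi_false]
  field_simp
  nlinarith [h2]

/-- reproducing kernel of one coin. -/
lemma one_add_chi_mul {p : ℝ} (h0 : 0 < p) (h1 : p < 1) (a b : Bool) :
    1 + chi1 p a * chi1 p b = if a = b then 1 / (if a then p else 1 - p) else 0 := by
  have hs := sg_pos h0 h1
  have h2 := sg_mul_self h0 h1
  have h1p : 0 < 1 - p := by linarith
  cases a <;> cases b <;> simp only [chi_true, chi_false] <;> simp <;> field_simp <;>
    nlinarith [h2]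


/-! ### characters -/

lemma chiS_empty (p : ℝ) (x : ι → Bool) : chi p (∅ : Finset ι) x = 1 := by simp [chi]

lemma chiS_eq_prod_univ (p : ℝ) (S : Finset ι) (x : ι → Bool) :
    chi p S x = ∏ i, (if i ∈ S then chi1 p (x i) else 1) := by
  simp [chi, prod_ite_mem]

/-- orthonormality of the characters. -/
lemma E_chiS_mul_chiS {p : ℝ} (h0 : 0 < p) (h1 : p < 1) (S T : Finset ι) :
    E p (fun x => chi p S x * chi p T x) = if S = T then 1 else 0 := by
  have h : (fun x : ι → Bool => chi p S x * chi p T x)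
      = fun x => ∏ i, ((fun (i : ι) (b : Bool) => (if i ∈ S then chi1 p b else 1) *
          (if i ∈ T then chi1 p b else 1)) i (x i)) := by
    funext x
    rw [chiS_eq_prod_univ, chiS_eq_prod_univ, ← prod_mul_distrib]
  rw [h, E_prod p (fun (i : ι) (b : Bool) => (if i ∈ S then chi1 p b else 1) *
          (if i ∈ T then chi1 p b else 1))]
  split_ifs with hST
  · subst hST
    refine prod_eq_one fun i _ => ?_
    by_cases hi : i ∈ S
    · simp only [hi, if_true]; exact coin_chi_sq h0 h1
    · simp only [hi, if_false]; ring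
  · obtain ⟨i, hi⟩ : ∃ i, ¬ (i ∈ S ↔ i ∈ T) := by
      by_contra hcon
      push Not at hcon
      exact hST (Finset.ext hcon)
    refine prod_eq_zero (mem_univ i) ?_
    by_cases hS : i ∈ S
    · have hT : i ∉ T := fun hT => hi ⟨fun _ => hT, fun _ => hS⟩
      simp only [hS, hT, if_true, if_false, mul_one]; exact coin_chi p
    · have hT : i ∈ T := by
        by_contra hT
        exact hi ⟨fun h => absurd h hS, fun h => absurd h hT⟩
      simp only [hS, hT, if_true, if_false, one_mul]; exact coin_chi p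

lemma E_chiS {p : ℝ} (h0 : 0 < p) (h1 : p < 1) (S : Finset ι) :
    E p (chi p S) = if S = ∅ then 1 else 0 := by
  have := E_chiS_mul_chiS h0 h1 S (∅ : Finset ι)
  simpa [chiS_empty] using this

/-- reproducing kernel: completeness of the characters. -/
lemma sum_chiS_mul_chiS {p : ℝ} (h0 : 0 < p) (h1 : p < 1) (x y : ι → Bool) :
    ∑ S : Finset ι, chi p S x * chi p S y = if x = y then 1 / bernoulliWeight p x else 0 := by
  have h : ∑ S : Finset ι, chi p S x * chi p S y = ∏ i, (1 + chi1 p (x i) * chi1 p (y i)) := by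
    rw [Finset.prod_one_add]
    simp only [chi, prod_mul_distrib, powerset_univ]
  rw [h]
  simp only [one_add_chi_mul h0 h1]
  split_ifs with hxy
  · subst hxy
    simp only [if_true, bernoulliWeight, prod_div_distrib, prod_const_one]
  · obtain ⟨i, hi⟩ : ∃ i, x i ≠ y i := by
      by_contra hcon
      push Not at hcon
      exact hxy (funext hcon)
    exact prod_eq_zero (mem_univ i) (by simp [hi])

/-- Walsh expansion. -/
lemma walsh_expansion {p : ℝ} (h0 : 0 < p) (h1 : p < 1) (f : (ι → Bool) → ℝ) (x : ι → Bool) :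
    f x = ∑ S : Finset ι, fh p f S * chi p S x := by
  have h : ∑ S : Finset ι, fh p f S * chi p S x
      = ∑ y : ι → Bool, bernoulliWeight p y * f y * ∑ S : Finset ι, chi p S y * chi p S x := by
    simp only [fh, E, sum_mul, mul_sum]
    rw [sum_comm]
    exact sum_congr rfl fun y _ => sum_congr rfl fun S _ => by ring
  rw [h]
  simp only [sum_chiS_mul_chiS h0 h1]
  rw [sum_eq_single x]
  · have := (bernoulliWeight_pos h0 h1 x).ne'
    simp only [if_true]
    field_simp
  · intro y _ hy
    simp [hy]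
  · intro hx; exact absurd (mem_univ x) hx

/-- coefficients of an explicit expansion. -/
lemma fh_of_expansion {p : ℝ} (h0 : 0 < p) (h1 : p < 1) (c : Finset ι → ℝ) (T : Finset ι) :
    fh p (fun x => ∑ S : Finset ι, c S * chi p S x) T = c T := by
  have h : (fun x : ι → Bool => (∑ S : Finset ι, c S * chi p S x) * chi p T x)
      = fun x => ∑ S : Finset ι, c S * (chi p S x * chi p T x) := by
    funext x; rw [sum_mul]; exact sum_congr rfl fun S _ => by ring
  unfold fh
  rw [h, E_sum]
  simp only [E_const_mul, E_chiS_mul_chiS h0 h1]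
  simp

/-- Plancherel. -/
lemma plancherel {p : ℝ} (h0 : 0 < p) (h1 : p < 1) (f g : (ι → Bool) → ℝ) :
    E p (fun x => f x * g x) = ∑ S : Finset ι, fh p f S * fh p g S := by
  have h : (fun x : ι → Bool => f x * g x)
      = fun x => ∑ S : Finset ι, fh p g S * (f x * chi p S x) := by
    funext x
    conv_lhs => rw [walsh_expansion h0 h1 g x]
    rw [mul_sum]; exact sum_congr rfl fun S _ => by ring
  rw [h, E_sum]
  simp only [E_const_mul]
  exact sum_congr rfl fun S _ => by simp only [fh]; ring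

/-- Parseval. -/
lemma parseval {p : ℝ} (h0 : 0 < p) (h1 : p < 1) (f : (ι → Bool) → ℝ) :
    E p (fun x => f x ^ 2) = ∑ S : Finset ι, fh p f S ^ 2 := by
  simp only [sq]; exact plancherel h0 h1 f f

lemma fh_empty (p : ℝ) (f : (ι → Bool) → ℝ) : fh p f ∅ = E p f := by
  simp [fh, chiS_empty]

/-- variance as the sum of the squared non-trivial coefficients. -/
lemma variance_eq {p : ℝ} (h0 : 0 < p) (h1 : p < 1) (f : (ι → Bool) → ℝ) :
    E p (fun x => f x ^ 2) - E p f ^ 2
      = ∑ S ∈ (univ : Finset (Finset ι)).erase ∅, fh p f S ^ 2 := by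
  rw [parseval h0 h1, ← add_sum_erase univ _ (mem_univ (∅ : Finset ι)), fh_empty]
  ring


/-! ### G3: discrete derivatives -/

lemma chiS_update_of_mem (p : ℝ) {S : Finset ι} {a : ι} (ha : a ∈ S) (x : ι → Bool) (b : Bool) :
    chi p S (Function.update x a b) = chi1 p b * chi p (S.erase a) x := by
  unfold chi
  rw [← mul_prod_erase S _ ha]
  congr 1
  · simp
  · refine prod_congr rfl fun i hi => ?_
    rw [Function.update_of_ne (ne_of_mem_erase hi)]

lemma chiS_update_of_notMem (p : ℝ) {S : Finset ι} {a : ι} (ha : a ∉ S) (x : ι → Bool)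
    (b : Bool) : chi p S (Function.update x a b) = chi p S x := by
  unfold chi
  refine prod_congr rfl fun i hi => ?_
  have hia : i ≠ a := fun h => ha (h ▸ hi)
  rw [Function.update_of_ne hia]

lemma Dd_chiS (p : ℝ) (S : Finset ι) (a : ι) (x : ι → Bool) :
    D a (chi p S) x = if a ∈ S then chi p (S.erase a) x / sg p else 0 := by
  unfold D
  split_ifs with ha
  · rw [chiS_update_of_mem p ha, chiS_update_of_mem p ha, ← sub_mul, chi_true_sub_false]; ring
  · rw [chiS_update_of_notMem p ha, chiS_update_of_notMem p ha, sub_self]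

/-- expansion of the derivative, indexed by the sets not containing `a`. -/
lemma Dd_expansion {p : ℝ} (h0 : 0 < p) (h1 : p < 1) (f : (ι → Bool) → ℝ) (a : ι)
    (x : ι → Bool) :
    D a f x = ∑ T : Finset ι, (if a ∈ T then 0 else fh p f (insert a T) / sg p) * chi p T x := by
  have h : D a f x = ∑ S : Finset ι, fh p f S * D a (chi p S) x := by
    unfold D
    rw [walsh_expansion h0 h1 f (Function.update x a true),
      walsh_expansion h0 h1 f (Function.update x a false), ← sum_sub_distrib]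
    exact sum_congr rfl fun S _ => by ring
  rw [h]
  simp only [Dd_chiS, mul_ite, mul_zero, ite_mul, zero_mul]
  rw [← sum_filter]
  have h2 : ∀ T : Finset ι, (if a ∈ T then (0 : ℝ) else fh p f (insert a T) / sg p * chi p T x)
      = if a ∉ T then fh p f (insert a T) / sg p * chi p T x else 0 := by
    intro T; by_cases hT : a ∈ T <;> simp [hT]
  simp only [h2]
  rw [← sum_filter]
  refine sum_nbij' (fun S => S.erase a) (fun T => insert a T) ?_ ?_ ?_ ?_ ?_
  · intro S _; simp
  · intro T _; simp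
  · intro S hS; exact insert_erase (by simpa using hS)
  · intro T hT; exact erase_insert (by simpa using hT)
  · intro S hS
    rw [insert_erase (by simpa using hS)]; ring

lemma fh_Dd {p : ℝ} (h0 : 0 < p) (h1 : p < 1) (f : (ι → Bool) → ℝ) (a : ι) (T : Finset ι) :
    fh p (D a f) T = if a ∈ T then 0 else fh p f (insert a T) / sg p := by
  have h : D a f = fun x => ∑ T : Finset ι,
      (if a ∈ T then 0 else fh p f (insert a T) / sg p) * chi p T x := by
    funext x; exact Dd_expansion h0 h1 f a x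
  rw [h, fh_of_expansion h0 h1]

/-- `∑_{S ∋ a} f̂(S)² = s² E (D_a f)²`. -/
lemma sum_fh_sq_of_mem {p : ℝ} (h0 : 0 < p) (h1 : p < 1) (f : (ι → Bool) → ℝ) (a : ι) :
    ∑ S ∈ (univ : Finset (Finset ι)).filter (fun S => a ∈ S), fh p f S ^ 2
      = sg p ^ 2 * E p (fun x => D a f x ^ 2) := by
  have hs := (sg_pos h0 h1).ne'
  rw [parseval h0 h1, mul_sum]
  simp only [fh_Dd h0 h1]
  have : ∀ T : Finset ι, sg p ^ 2 * (if a ∈ T then (0 : ℝ) else fh p f (insert a T) / sg p) ^ 2
      = if a ∉ T then fh p f (insert a T) ^ 2 else 0 := by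
    intro T
    by_cases hT : a ∈ T
    · simp [hT]
    · simp only [hT, if_false, not_false_eq_true, if_true]
      field_simp
  simp only [this]
  rw [← sum_filter]
  refine sum_nbij' (fun S => S.erase a) (fun T => insert a T) ?_ ?_ ?_ ?_ ?_
  · intro S _; simp
  · intro T _; simp
  · intro S hS; exact insert_erase (by simpa using hS)
  · intro T hT; exact erase_insert (by simpa using hT)
  · intro S hS
    rw [insert_erase (by simpa using hS)]

/-- `∑_S |S| f̂(S)² = s² ∑_a E (D_a f)²`. -/
lemma sum_card_mul_fh_sq {p : ℝ} (h0 : 0 < p) (h1 : p < 1) (f : (ι → Bool) → ℝ) :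
    ∑ S : Finset ι, (S.card : ℝ) * fh p f S ^ 2
      = sg p ^ 2 * ∑ a, E p (fun x => D a f x ^ 2) := by
  rw [mul_sum]
  simp only [← sum_fh_sq_of_mem h0 h1, sum_filter]
  rw [sum_comm]
  refine sum_congr rfl fun S _ => ?_
  rw [← sum_filter, sum_const, nsmul_eq_mul]
  congr 2
  simp

/-! ### Boolean functions and `bernoulliProb` -/

lemma bernoulliProb_eq_E (p : ℝ) (A : Set (ι → Bool)) :
    bernoulliProb p A = E p (A.indicator (fun _ => 1)) := by
  classical
  unfold bernoulliProb E
  rw [sum_filter]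
  refine sum_congr rfl fun x _ => ?_
  by_cases hx : x ∈ A <;> simp [hx]

lemma E_ind (p : ℝ) (f : (ι → Bool) → Bool) :
    E p (ind f) = bernoulliProb p {x | f x = true} := by
  rw [bernoulliProb_eq_E]
  congr 1
  funext x
  by_cases hx : f x = true <;> simp [ind, hx, Set.indicator]

lemma ind_sq (f : (ι → Bool) → Bool) (x : ι → Bool) : ind f x ^ 2 = ind f x := by
  unfold ind; split_ifs <;> simp

lemma ind_nonneg (f : (ι → Bool) → Bool) (x : ι → Bool) : 0 ≤ ind f x := by
  unfold ind; split_ifs <;> simp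

lemma ind_le_one (f : (ι → Bool) → Bool) (x : ι → Bool) : ind f x ≤ 1 := by
  unfold ind; split_ifs <;> simp

lemma Dd_ind_sq (f : (ι → Bool) → Bool) (a : ι) (x : ι → Bool) :
    D a (ind f) x ^ 2
      = Set.indicator {x | f (Function.update x a true) ≠ f (Function.update x a false)}
          (fun _ => (1 : ℝ)) x := by
  unfold D ind
  cases h1 : f (Function.update x a true) <;> cases h2 : f (Function.update x a false) <;>
    simp [Set.indicator, h1, h2]

lemma abs_Dd_ind (f : (ι → Bool) → Bool) (a : ι) (x : ι → Bool) :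
    |D a (ind f) x| = D a (ind f) x ^ 2 := by
  unfold D ind
  cases h1 : f (Function.update x a true) <;> cases h2 : f (Function.update x a false) <;>
    simp

/-- `E (D_a f)² = P(a pivotal)` for Boolean `f`. -/
lemma E_Dd_ind_sq (p : ℝ) (f : (ι → Bool) → Bool) (a : ι) :
    E p (fun x => D a (ind f) x ^ 2)
      = bernoulliProb p {x | f (Function.update x a true) ≠ f (Function.update x a false)} := by
  rw [bernoulliProb_eq_E]
  congr 1
  funext x
  exact Dd_ind_sq f a x

/-- `E |D_a f| = P(a pivotal)` for Boolean `f`. -/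
lemma E_abs_Dd_ind (p : ℝ) (f : (ι → Bool) → Bool) (a : ι) :
    E p (fun x => |D a (ind f) x|)
      = bernoulliProb p {x | f (Function.update x a true) ≠ f (Function.update x a false)} := by
  simp only [abs_Dd_ind]; exact E_Dd_ind_sq p f a

/-- `μ(1-μ) = ∑_{S ≠ ∅} f̂(S)²` for Boolean `f`. -/
lemma var_ind {p : ℝ} (h0 : 0 < p) (h1 : p < 1) (f : (ι → Bool) → Bool) :
    bernoulliProb p {x | f x = true} * (1 - bernoulliProb p {x | f x = true})
      = ∑ S ∈ (univ : Finset (Finset ι)).erase ∅, fh p (ind f) S ^ 2 := by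
  rw [← variance_eq h0 h1]
  simp only [ind_sq]
  rw [show (fun x => ind f x) = ind f from rfl, E_ind]
  ring

/-- `∑_S |S| f̂(S)² = s² I(f)` for Boolean `f`. -/
lemma sum_card_mul_fh_sq_ind {p : ℝ} (h0 : 0 < p) (h1 : p < 1) (f : (ι → Bool) → Bool) :
    ∑ S : Finset ι, (S.card : ℝ) * fh p (ind f) S ^ 2
      = sg p ^ 2 * ∑ a, bernoulliProb p
          {x | f (Function.update x a true) ≠ f (Function.update x a false)} := by
  rw [sum_card_mul_fh_sq h0 h1]
  simp only [E_Dd_ind_sq]

end Crest.Agent.BK.Fourier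

namespace Crest.Agent.BK

open Crest.FinProb Finset

variable {ι : Type*} [Fintype ι] [DecidableEq ι]

/-- interface (G2): `μ(1-μ) = ∑_{S ≠ ∅} f̂(S)²`. -/
theorem var_eq_sum_fh (p : ℝ) (hp0 : 0 < p) (hp1 : p < 1) (f : (ι → Bool) → Bool) :
    prT p f * (1 - prT p f)
      = ∑ S ∈ Finset.univ.filter (fun S : Finset ι => S ≠ ∅), fh p (ind f) S ^ 2 := by
  have h := Fourier.var_ind hp0 hp1 f
  unfold prT
  rw [h]
  refine sum_congr ?_ fun _ _ => rfl
  ext S; simp

/-- interface (G3): `∑_S |S| f̂(S)² = s² I(f)`. -/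
theorem sum_card_fh (p : ℝ) (hp0 : 0 < p) (hp1 : p < 1) (f : (ι → Bool) → Bool) :
    ∑ S : Finset ι, (S.card : ℝ) * fh p (ind f) S ^ 2 = sg p ^ 2 * totInfl p f :=
  Fourier.sum_card_mul_fh_sq_ind hp0 hp1 f

theorem Fourier.infl_eq_E_sq (p : ℝ) (f : (ι → Bool) → Bool) (a : ι) :
    infl p f a = E p (fun x => D a (ind f) x ^ 2) :=
  (Fourier.E_Dd_ind_sq p f a).symm

theorem Fourier.infl_eq_E_abs (p : ℝ) (f : (ι → Bool) → Bool) (a : ι) :
    infl p f a = E p (fun x => |D a (ind f) x|) :=
  (Fourier.E_abs_Dd_ind p f a).symm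

theorem Fourier.infl_nonneg (p : ℝ) (hp0 : 0 < p) (hp1 : p < 1) (f : (ι → Bool) → Bool) (a : ι) :
    0 ≤ infl p f a := by
  rw [Fourier.infl_eq_E_sq]
  exact Fourier.E_nonneg hp0.le hp1.le fun x => sq_nonneg _

theorem totInfl_nonneg (p : ℝ) (hp0 : 0 < p) (hp1 : p < 1) (f : (ι → Bool) → Bool) :
    0 ≤ totInfl p f :=
  sum_nonneg fun a _ => Fourier.infl_nonneg p hp0 hp1 f a

/-- Poincaré inequality `μ(1-μ) ≤ s² I(f)`. -/
theorem poincare (p : ℝ) (hp0 : 0 < p) (hp1 : p < 1) (f : (ι → Bool) → Bool) :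
    prT p f * (1 - prT p f) ≤ sg p ^ 2 * totInfl p f := by
  rw [var_eq_sum_fh p hp0 hp1, ← sum_card_fh p hp0 hp1, sum_filter]
  refine sum_le_sum fun S _ => ?_
  split_ifs with hS
  · have : (1 : ℝ) ≤ S.card := by
      exact_mod_cast Finset.card_pos.2 (Finset.nonempty_iff_ne_empty.2 hS)
    nlinarith [sq_nonneg (fh p (ind f) S)]
  · positivity

end Crest.Agent.BK
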