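import Crest.Agent.S0078_Defs

/-!
# ROW56 package G1 (helper95)

Basic calculus of the p-biased expectation `BK.E`: linearity, monotonicity, product formula,
one-coordinate marginal and averaging, the mixing lemma, independence, probabilities as
expectations of indicators.
-/

set_option linter.unusedSectionVars false

namespace Crest.Agent.BK

open Crest.FinProb

variable {ι : Type*} [Fintype ι] [DecidableEq ι]

/-! ## G1: elementary properties of `E` -/

theorem bernoulliWeight_nonneg {p : ℝ} (h0 : 0 ≤ p) (h1 : p ≤ 1) (x : ι → Bool) :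
    0 ≤ bernoulliWeight p x := by
  unfold bernoulliWeight
  refine Finset.prod_nonneg fun i _ => ?_
  split_ifs
  · exact h0
  · linarith

theorem E_add (p : ℝ) (F G : (ι → Bool) → ℝ) :
    E p (fun x => F x + G x) = E p F + E p G := by
  simp only [E, mul_add, Finset.sum_add_distrib]

theorem E_sub (p : ℝ) (F G : (ι → Bool) → ℝ) :
    E p (fun x => F x - G x) = E p F - E p G := by
  simp only [E, mul_sub, Finset.sum_sub_distrib]

theorem E_neg (p : ℝ) (F : (ι → Bool) → ℝ) : E p (fun x => - F x) = - E p F := by
  simp only [E, mul_neg, Finset.sum_neg_distrib]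

theorem E_const_mul (p c : ℝ) (F : (ι → Bool) → ℝ) :
    E p (fun x => c * F x) = c * E p F := by
  simp only [E, Finset.mul_sum]
  exact Finset.sum_congr rfl fun x _ => by ring

theorem E_mul_const (p c : ℝ) (F : (ι → Bool) → ℝ) :
    E p (fun x => F x * c) = E p F * c := by
  simp only [E, Finset.sum_mul]
  exact Finset.sum_congr rfl fun x _ => by ring

theorem E_sum {κ : Type*} (p : ℝ) (s : Finset κ) (F : κ → (ι → Bool) → ℝ) :
    E p (fun x => ∑ k ∈ s, F k x) = ∑ k ∈ s, E p (F k) := by
  simp only [E, Finset.mul_sum]
  exact Finset.sum_comm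

theorem E_congr {p : ℝ} {F G : (ι → Bool) → ℝ} (h : ∀ x, F x = G x) : E p F = E p G := by
  have : F = G := funext h
  rw [this]

theorem E_nonneg {p : ℝ} (h0 : 0 ≤ p) (h1 : p ≤ 1) {F : (ι → Bool) → ℝ} (hF : ∀ x, 0 ≤ F x) :
    0 ≤ E p F :=
  Finset.sum_nonneg fun x _ => mul_nonneg (bernoulliWeight_nonneg h0 h1 x) (hF x)

theorem E_mono {p : ℝ} (h0 : 0 ≤ p) (h1 : p ≤ 1) {F G : (ι → Bool) → ℝ} (h : ∀ x, F x ≤ G x) :
    E p F ≤ E p G :=
  Finset.sum_le_sum fun x _ => mul_le_mul_of_nonneg_left (h x) (bernoulliWeight_nonneg h0 h1 x)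

/-- Expectation of a function of product form. -/
theorem E_prod (p : ℝ) (g : ι → Bool → ℝ) :
    E p (fun x => ∏ i, g i (x i)) = ∏ i, (p * g i true + (1 - p) * g i false) := by
  have h1 : ∀ i : ι, p * g i true + (1 - p) * g i false
      = ∑ b : Bool, (if b then p else 1 - p) * g i b := by
    intro i
    rw [Fintype.sum_bool]
    simp
  simp only [h1]
  rw [Finset.prod_univ_sum, Fintype.piFinset_univ]
  unfold E bernoulliWeight
  exact Finset.sum_congr rfl fun x _ => by rw [Finset.prod_mul_distrib]

theorem sum_bernoulliWeight (p : ℝ) : ∑ x : ι → Bool, bernoulliWeight p x = 1 := by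
  have h := E_prod (ι := ι) p (fun _ _ => 1)
  simp only [E, Finset.prod_const_one, mul_one] at h
  rw [h]
  simp

theorem E_const (p c : ℝ) : E (ι := ι) p (fun _ => c) = c := by
  simp only [E, ← Finset.sum_mul, sum_bernoulliWeight, one_mul]

/-- Marginal of one coordinate. -/
theorem E_coord (p : ℝ) (a : ι) (G : Bool → ℝ) :
    E p (fun z : ι → Bool => G (z a)) = p * G true + (1 - p) * G false := by
  have h := E_prod (ι := ι) p (fun i b => if i = a then G b else 1)
  have h2 : ∀ x : ι → Bool, ∏ i, (if i = a then G (x i) else 1) = G (x a) := by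
    intro x
    rw [Finset.prod_ite_eq' Finset.univ a (fun i => G (x i))]
    simp
  simp only [h2] at h
  rw [h]
  have h3 : ∀ i : ι, (p * (if i = a then G true else 1) + (1 - p) * (if i = a then G false else 1))
      = if i = a then (p * G true + (1 - p) * G false) else 1 := by
    intro i
    split_ifs
    · rfl
    · ring
  simp only [h3]
  rw [Finset.prod_ite_eq' Finset.univ a (fun _ => p * G true + (1 - p) * G false)]
  simp

theorem mix_mix_left (J : Finset ι) (x z : ι → Bool) :
    mix J (mix J x z) (mix J z x) = x := by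
  funext i
  by_cases h : i ∈ J <;> simp [mix, h]

theorem mix_mix_right (J : Finset ι) (x z : ι → Bool) :
    mix J (mix J z x) (mix J x z) = z := by
  funext i
  by_cases h : i ∈ J <;> simp [mix, h]

theorem bernoulliWeight_mix (p : ℝ) (J : Finset ι) (x z : ι → Bool) :
    bernoulliWeight p (mix J x z) * bernoulliWeight p (mix J z x)
      = bernoulliWeight p x * bernoulliWeight p z := by
  unfold bernoulliWeight
  rw [← Finset.prod_mul_distrib, ← Finset.prod_mul_distrib]
  refine Finset.prod_congr rfl fun i _ => ?_
  by_cases h : i ∈ J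
  · simp only [mix, h, if_true]; ring
  · simp only [mix, h, if_false]

/-- The swap of the `J`-coordinates of a pair of configurations. -/
def mixEquiv (J : Finset ι) : ((ι → Bool) × (ι → Bool)) ≃ ((ι → Bool) × (ι → Bool)) where
  toFun q := (mix J q.1 q.2, mix J q.2 q.1)
  invFun q := (mix J q.1 q.2, mix J q.2 q.1)
  left_inv q := by
    ext1
    · exact mix_mix_left J q.1 q.2
    · exact mix_mix_right J q.1 q.2
  right_inv q := by
    ext1
    · exact mix_mix_left J q.1 q.2
    · exact mix_mix_right J q.1 q.2

/-- The mixing lemma: resampling the coordinates in `J` does not change the law. -/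
theorem E_mix (p : ℝ) (J : Finset ι) (F : (ι → Bool) → ℝ) :
    E p (fun x => E p (fun z => F (mix J x z))) = E p F := by
  have h1 : E p (fun x => E p (fun z => F (mix J x z)))
      = ∑ q : (ι → Bool) × (ι → Bool),
          bernoulliWeight p q.1 * bernoulliWeight p q.2 * F (mix J q.1 q.2) := by
    rw [Fintype.sum_prod_type]
    unfold E
    refine Finset.sum_congr rfl fun x _ => ?_
    rw [Finset.mul_sum]
    exact Finset.sum_congr rfl fun z _ => by ring
  have h2 : ∑ q : (ι → Bool) × (ι → Bool),
          bernoulliWeight p q.1 * bernoulliWeight p q.2 * F (mix J q.1 q.2)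
      = ∑ q : (ι → Bool) × (ι → Bool),
          bernoulliWeight p q.1 * bernoulliWeight p q.2 * F q.1 := by
    refine Fintype.sum_equiv (mixEquiv J) _ _ fun q => ?_
    simp only [mixEquiv, Equiv.coe_fn_mk]
    rw [bernoulliWeight_mix]
  rw [h1, h2, Fintype.sum_prod_type]
  unfold E
  refine Finset.sum_congr rfl fun x _ => ?_
  have : ∀ z : ι → Bool, bernoulliWeight p x * bernoulliWeight p z * F x
      = bernoulliWeight p z * (bernoulliWeight p x * F x) := fun z => by ring
  simp only [this, ← Finset.sum_mul, sum_bernoulliWeight, one_mul]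

theorem mix_singleton (a : ι) (x z : ι → Bool) : mix {a} x z = Function.update x a (z a) := by
  funext i
  by_cases h : i = a
  · subst h; simp [mix]
  · simp [mix, h]

/-- One-coordinate averaging. -/
theorem E_update (p : ℝ) (a : ι) (F : (ι → Bool) → ℝ) :
    E p F = E p (fun x => p * F (Function.update x a true)
      + (1 - p) * F (Function.update x a false)) := by
  rw [← E_mix p {a} F]
  refine E_congr fun x => ?_
  simp only [mix_singleton]
  exact E_coord p a (fun b => F (Function.update x a b))

/-- Independence of functions of disjoint sets of coordinates. -/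
theorem E_mul_of_indep (p : ℝ) (J : Finset ι) (F G : (ι → Bool) → ℝ)
    (hF : ∀ x z, F (mix J x z) = F x) (hG : ∀ x z, G (mix J x z) = G z) :
    E p (fun x => F x * G x) = E p F * E p G := by
  rw [← E_mix p J (fun x => F x * G x)]
  simp only [hF, hG, E_const_mul, E_mul_const]

/-- Probabilities are expectations of indicators. -/
theorem bernoulliProb_eq_E (p : ℝ) (A : Set (ι → Bool)) [DecidablePred (· ∈ A)] :
    bernoulliProb p A = E p (fun x => if x ∈ A then 1 else 0) := by
  unfold bernoulliProb E
  rw [Finset.sum_filter]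
  refine Finset.sum_congr rfl fun x _ => ?_
  by_cases h : x ∈ A <;> simp [h]

theorem prT_eq_E (p : ℝ) (f : (ι → Bool) → Bool) : prT p f = E p (ind f) := by
  unfold prT
  rw [bernoulliProb_eq_E]
  rfl

theorem infl_eq_E (p : ℝ) (f : (ι → Bool) → Bool) (a : ι) :
    infl p f a = E p (fun x =>
      if f (Function.update x a true) ≠ f (Function.update x a false) then 1 else 0) := by
  unfold infl
  rw [bernoulliProb_eq_E]
  rfl

end Crest.Agent.BK
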