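import Crest.Agent.S0078_Defs

/-!
# ROW56: definitions for the hypergraph part
-/

namespace Crest.Agent.BK

open Crest.FinProb Crest.CombinatoricsR.HypergraphCube

variable {n r : ℕ}

/-- The permutation of the slots induced by a permutation of the vertices. -/
def slotPerm (σ : Equiv.Perm (Fin n)) : Equiv.Perm (HyperedgeSlot n r) where
  toFun := relabelSlot σ
  invFun := relabelSlot σ⁻¹
  left_inv := by
    intro e
    apply Subtype.ext
    simp [relabelSlot, Finset.map_map]
  right_inv := by
    intro e
    apply Subtype.ext
    simp [relabelSlot, Finset.map_map]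

/-- Degree of the vertex `u` in the set of slots `S`. -/
def deg (S : Finset (HyperedgeSlot n r)) (u : Fin n) : ℕ := (S.filter (fun e => u ∈ e.1)).card

/-- Vertex support of a set of slots. -/
def verts (S : Finset (HyperedgeSlot n r)) : Finset (Fin n) := S.biUnion (fun e => e.1)

/-- Slots that meet `Y` (the hidden slots). -/
def hid (Y : Finset (Fin n)) : Finset (HyperedgeSlot n r) :=
  Finset.univ.filter (fun e => ¬ Disjoint e.1 Y)

/-- The block of `v`: slots meeting `Y` exactly in `v`. -/
def blk (Y : Finset (Fin n)) (v : Fin n) : Finset (HyperedgeSlot n r) :=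
  Finset.univ.filter (fun e => e.1 ∩ Y = {v})

/-- The family of Lemma A: sets of slots whose vertex support meets `Y` exactly in `v`,
with `deg v ≤ Dg`. -/
def Scal (Y : Finset (Fin n)) (v : Fin n) (Dg : ℕ) : Finset (Finset (HyperedgeSlot n r)) :=
  Finset.univ.filter (fun S => verts S ∩ Y = {v} ∧ deg S v ≤ Dg)

/-- The subset of `Fin n` coded by a Boolean vector. -/
def setOf' (y : Fin n → Bool) : Finset (Fin n) := Finset.univ.filter (fun w => y w = true)

end Crest.Agent.BK
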