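import Mathlib
import Crest.Agent.S0078_Block22
import Crest.Agent.S0078_LemmaA22

/-!
# ROW56: Lemma A, summed form (the interface statement), unconditional
-/

namespace Crest.Agent.BK
namespace LemA22

open Crest.FinProb Crest.CombinatoricsR.HypergraphCube

/-- **Lemma A**, summed form: the interface statement `lemmaA_sum` of `notes/ROW56_Iface`. -/
theorem lemmaA_sum (n r : ℕ) (hr : 2 ≤ r) (hn : r ≤ n) (p : ℝ) (hp0 : 0 < p) (hp1 : p < 1)
    (f : (HyperedgeSlot n r → Bool) → Bool) (hf : IsSymmetric f) (D : ℕ) (hD : 1 ≤ D)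
    (Y : Finset (Fin n)) :
    ∑ v ∈ Y, ∑ S ∈ Scal (fun e : HyperedgeSlot n r => e.1) Y v D, fh p (ind f) S ^ 2
      ≤ sg p * (2 / sg p) ^ (D - 1) * (r : ℝ) / Real.sqrt n * totInfl p f :=
  lemmaA_sum_of_block n r hr hn p hp0 hp1
    (fun g B y hy hw D hD => Block22.block_lemma p hp0 hp1 g B y hy hw D hD) f hf D hD Y

end LemA22
end Crest.Agent.BK
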