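import Mathlib
import Crest.Agent.S0078_Walsh

/-!
# ROW56: `mix`, conditional expectations, restrictions, Hölder (on `S0078_Defs` names)
-/

set_option autoImplicit false
set_option linter.unusedSectionVars false
set_option linter.unusedVariables false

namespace Crest.Agent.BK.Walsh

open Crest.FinProb Crest.Agent.BK Finset

variable {ι : Type*} [Fintype ι] [DecidableEq ι]

/-! ## Characters of mixed points -/

theorem chi_mix (p : ℝ) (S H : Finset ι) (w z : ι → Bool) :
    chi p S (mix H w z) = chi p (S \ H) w * chi p (S ∩ H) z := by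
  unfold chi mix
  rw [← Finset.prod_filter_mul_prod_filter_not S (fun i => i ∈ H), mul_comm]
  congr 1
  · rw [Finset.sdiff_eq_filter]
    refine Finset.prod_congr rfl fun i hi => ?_
    rw [if_neg (Finset.mem_filter.mp hi).2]
  · rw [Finset.filter_mem_eq_inter]
    refine Finset.prod_congr rfl fun i hi => ?_
    rw [if_pos (Finset.mem_inter.mp hi).2]

theorem E_chi_mix {p : ℝ} (hp0 : 0 < p) (hp1 : p < 1) (T J : Finset ι) (x : ι → Bool) :
    E p (fun z => chi p T (mix J x z)) = if Disjoint T J then chi p T x else 0 := by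
  simp only [chi_mix]
  rw [E_const_mul, E_chi hp0 hp1]
  split_ifs with h1 h2 h2
  · rw [mul_one, Finset.sdiff_eq_self_of_disjoint h2]
  · exact absurd (Finset.disjoint_iff_inter_eq_empty.mpr h1) h2
  · exact absurd (Finset.disjoint_iff_inter_eq_empty.mp h2) h1
  · rw [mul_zero]

/-- Walsh expansion of the conditional expectation (coordinates in `J` are averaged out). -/
theorem condE_expansion {p : ℝ} (hp0 : 0 < p) (hp1 : p < 1) (F : (ι → Bool) → ℝ) (J : Finset ι)
    (x : ι → Bool) :
    E p (fun z => F (mix J x z)) = ∑ S, (if Disjoint S J then fh p F S else 0) * chi p S x := by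
  have h : ∀ z : ι → Bool, F (mix J x z) = ∑ S, fh p F S * chi p S (mix J x z) :=
    fun z => expansion hp0 hp1 F _
  rw [E_congr p h, E_sum]
  refine Finset.sum_congr rfl fun S _ => ?_
  rw [E_const_mul, E_chi_mix hp0 hp1]
  split_ifs <;> ring

theorem fh_condE {p : ℝ} (hp0 : 0 < p) (hp1 : p < 1) (F : (ι → Bool) → ℝ) (J A : Finset ι) :
    fh p (fun x => E p (fun z => F (mix J x z))) A = if Disjoint A J then fh p F A else 0 := by
  have h : (fun x => E p (fun z => F (mix J x z)))
      = fun x => ∑ S, (if Disjoint S J then fh p F S else 0) * chi p S x :=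
    funext (condE_expansion hp0 hp1 F J)
  rw [h, fh_poly hp0 hp1]

/-- The mix lemma. -/
theorem E_mix {p : ℝ} (hp0 : 0 < p) (hp1 : p < 1) (F : (ι → Bool) → ℝ) (J : Finset ι) :
    E p (fun x => E p (fun z => F (mix J x z))) = E p F := by
  have h := fh_condE hp0 hp1 F J ∅
  rw [fh_empty, fh_empty, if_pos (Finset.disjoint_empty_left J)] at h
  exact h

/-! ## Restrictions -/

/-- Fourier coefficient of the restriction, as a Walsh polynomial in the frozen coordinates. -/
theorem fh_restr_expansion {p : ℝ} (hp0 : 0 < p) (hp1 : p < 1) (F : (ι → Bool) → ℝ)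
    {H A : Finset ι} (hA : A ⊆ H) (w : ι → Bool) :
    fh p (fun z => F (mix H w z)) A
      = ∑ T, (if Disjoint T H then fh p F (T ∪ A) else 0) * chi p T w := by
  unfold fh
  have h : ∀ z : ι → Bool, F (mix H w z) * chi p A z
      = ∑ S, (fh p F S * chi p (S \ H) w) * (chi p (S ∩ H) z * chi p A z) := by
    intro z
    rw [expansion hp0 hp1 F (mix H w z), Finset.sum_mul]
    refine Finset.sum_congr rfl fun S _ => ?_
    rw [chi_mix]
    ring
  rw [E_congr p h, E_sum]
  simp only [E_const_mul, E_chi_mul_chi hp0 hp1]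
  -- now a sum over `S` with `S ∩ H = A`
  have e1 : ∑ S : Finset ι, fh p F S * chi p (S \ H) w * (if S ∩ H = A then 1 else 0)
      = ∑ S ∈ Finset.univ.filter (fun S : Finset ι => S ∩ H = A), fh p F S * chi p (S \ H) w := by
    rw [Finset.sum_filter]
    refine Finset.sum_congr rfl fun S _ => ?_
    split_ifs <;> ring
  have e2 : ∑ T : Finset ι, (if Disjoint T H then E p (fun x => F x * chi p (T ∪ A) x) else 0)
        * chi p T w
      = ∑ T ∈ Finset.univ.filter (fun T : Finset ι => Disjoint T H),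
          fh p F (T ∪ A) * chi p T w := by
    rw [Finset.sum_filter]
    refine Finset.sum_congr rfl fun S _ => ?_
    split_ifs
    · rfl
    · ring
  rw [e1, e2]
  refine Finset.sum_bij' (fun S _ => S \ H) (fun T _ => T ∪ A) ?_ ?_ ?_ ?_ ?_
  · intro S hS
    simp only [Finset.mem_filter, Finset.mem_univ, true_and]
    exact Finset.sdiff_disjoint
  · intro T hT
    have hT' : Disjoint T H := (Finset.mem_filter.mp hT).2
    simp only [Finset.mem_filter, Finset.mem_univ, true_and]
    rw [Finset.union_inter_distrib_right, Finset.disjoint_iff_inter_eq_empty.mp hT',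
      Finset.empty_union, Finset.inter_eq_left.mpr hA]
  · intro S hS
    have hS' : S ∩ H = A := (Finset.mem_filter.mp hS).2
    rw [← hS']
    exact Finset.sdiff_union_inter S H
  · intro T hT
    have hT' : Disjoint T H := (Finset.mem_filter.mp hT).2
    rw [Finset.union_sdiff_distrib, Finset.sdiff_eq_self_of_disjoint hT',
      Finset.sdiff_eq_empty_iff_subset.mpr hA, Finset.union_empty]
  · intro S hS
    have hS' : S ∩ H = A := (Finset.mem_filter.mp hS).2
    rw [← hS', Finset.sdiff_union_inter S H]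

theorem fh_fh_restr {p : ℝ} (hp0 : 0 < p) (hp1 : p < 1) (F : (ι → Bool) → ℝ)
    {H A : Finset ι} (hA : A ⊆ H) (T : Finset ι) :
    fh p (fun w => fh p (fun z => F (mix H w z)) A) T
      = if Disjoint T H then fh p F (T ∪ A) else 0 := by
  have h : (fun w => fh p (fun z => F (mix H w z)) A)
      = fun w => ∑ T, (if Disjoint T H then fh p F (T ∪ A) else 0) * chi p T w :=
    funext (fh_restr_expansion hp0 hp1 F hA)
  rw [h, fh_poly hp0 hp1]

/-- Parseval in the frozen coordinates. -/
theorem E_fh_restr_sq {p : ℝ} (hp0 : 0 < p) (hp1 : p < 1) (F : (ι → Bool) → ℝ)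
    {H A : Finset ι} (hA : A ⊆ H) :
    E p (fun w => fh p (fun z => F (mix H w z)) A ^ 2)
      = ∑ T ∈ Finset.univ.filter (fun T : Finset ι => Disjoint T H), fh p F (T ∪ A) ^ 2 := by
  rw [parseval hp0 hp1, Finset.sum_filter]
  refine Finset.sum_congr rfl fun T _ => ?_
  rw [fh_fh_restr hp0 hp1 F hA]
  split_ifs <;> simp

/-- Parseval in the frozen coordinates, second form. -/
theorem E_fh_restr_sq' {p : ℝ} (hp0 : 0 < p) (hp1 : p < 1) (F : (ι → Bool) → ℝ)
    {H A : Finset ι} (hA : A ⊆ H) :
    E p (fun w => fh p (fun z => F (mix H w z)) A ^ 2)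
      = ∑ S ∈ Finset.univ.filter (fun S : Finset ι => S ∩ H = A), fh p F S ^ 2 := by
  rw [E_fh_restr_sq hp0 hp1 F hA]
  symm
  refine Finset.sum_bij' (fun S _ => S \ H) (fun T _ => T ∪ A) ?_ ?_ ?_ ?_ ?_
  · intro S hS
    simp only [Finset.mem_filter, Finset.mem_univ, true_and]
    exact Finset.sdiff_disjoint
  · intro T hT
    have hT' : Disjoint T H := (Finset.mem_filter.mp hT).2
    simp only [Finset.mem_filter, Finset.mem_univ, true_and]
    rw [Finset.union_inter_distrib_right, Finset.disjoint_iff_inter_eq_empty.mp hT',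
      Finset.empty_union, Finset.inter_eq_left.mpr hA]
  · intro S hS
    have hS' : S ∩ H = A := (Finset.mem_filter.mp hS).2
    rw [← hS']
    exact Finset.sdiff_union_inter S H
  · intro T hT
    have hT' : Disjoint T H := (Finset.mem_filter.mp hT).2
    rw [Finset.union_sdiff_distrib, Finset.sdiff_eq_self_of_disjoint hT',
      Finset.sdiff_eq_empty_iff_subset.mpr hA, Finset.union_empty]
  · intro S hS
    have hS' : S ∩ H = A := (Finset.mem_filter.mp hS).2
    rw [← hS', Finset.sdiff_union_inter S H]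

theorem ind_restr (H : Finset ι) (f : (ι → Bool) → Bool) (w z : ι → Bool) :
    ind (restr H f w) z = ind f (mix H w z) := rfl

theorem mix_update {H : Finset ι} {a : ι} (ha : a ∈ H) (w z : ι → Bool) (b : Bool) :
    mix H w (Function.update z a b) = Function.update (mix H w z) a b := by
  funext i
  unfold mix
  by_cases hia : i = a
  · subst hia
    simp [ha]
  · simp [Function.update_of_ne hia]

theorem D_ind_restr {H : Finset ι} {a : ι} (ha : a ∈ H) (f : (ι → Bool) → Bool)
    (w z : ι → Bool) : D a (ind (restr H f w)) z = D a (ind f) (mix H w z) := by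
  unfold D
  rw [ind_restr, ind_restr, mix_update ha, mix_update ha]

/-- Averaging the influences of the restrictions. -/
theorem E_infl_restr {p : ℝ} (hp0 : 0 < p) (hp1 : p < 1) {H : Finset ι} {a : ι} (ha : a ∈ H)
    (f : (ι → Bool) → Bool) :
    E p (fun w => infl p (restr H f w) a) = infl p f a := by
  simp only [infl_eq_E_sq, D_ind_restr ha]
  exact E_mix hp0 hp1 (fun x => D a (ind f) x ^ 2) H

/-! ## Inequalities -/

theorem abs_E_le {p : ℝ} (hp0 : 0 ≤ p) (hp1 : p ≤ 1) (F : (ι → Bool) → ℝ) :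
    |E p F| ≤ E p (fun x => |F x|) := by
  unfold E
  refine (Finset.abs_sum_le_sum_abs _ _).trans (le_of_eq ?_)
  refine Finset.sum_congr rfl fun x _ => ?_
  rw [abs_mul, abs_of_nonneg (weight_nonneg hp0 hp1 x)]

theorem cauchy_schwarz {p : ℝ} (hp0 : 0 ≤ p) (hp1 : p ≤ 1) (F G : (ι → Bool) → ℝ) :
    E p (fun x => F x * G x) ^ 2 ≤ E p (fun x => F x ^ 2) * E p (fun x => G x ^ 2) := by
  unfold E
  refine Finset.sum_sq_le_sum_mul_sum_of_sq_le_mul _ ?_ ?_ ?_
  · exact fun x _ => mul_nonneg (weight_nonneg hp0 hp1 x) (sq_nonneg _)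
  · exact fun x _ => mul_nonneg (weight_nonneg hp0 hp1 x) (sq_nonneg _)
  · intro x _
    apply le_of_eq
    ring

/-- Hölder with exponents `(2,4,4)` applied to `|d|^{1/2} · |d|^{1/2} · |h|`. -/
theorem holder244 {p : ℝ} (hp0 : 0 ≤ p) (hp1 : p ≤ 1) (d h : (ι → Bool) → ℝ) :
    E p (fun x => |d x * h x|) ^ 4
      ≤ E p (fun x => |d x|) ^ 2 * (E p (fun x => d x ^ 2) * E p (fun x => h x ^ 4)) := by
  have h1 : E p (fun x => |d x * h x|) ^ 2
      ≤ E p (fun x => |d x|) * E p (fun x => |d x| * h x ^ 2) := by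
    unfold E
    refine Finset.sum_sq_le_sum_mul_sum_of_sq_le_mul _ ?_ ?_ ?_
    · exact fun x _ => mul_nonneg (weight_nonneg hp0 hp1 x) (abs_nonneg _)
    · exact fun x _ => mul_nonneg (weight_nonneg hp0 hp1 x)
        (mul_nonneg (abs_nonneg _) (sq_nonneg _))
    · intro x _
      apply le_of_eq
      show (bernoulliWeight p x * |d x * h x|) ^ 2
        = bernoulliWeight p x * |d x| * (bernoulliWeight p x * (|d x| * h x ^ 2))
      rw [abs_mul, mul_pow, mul_pow, sq_abs (h x)]
      ring
  have h2 : E p (fun x => |d x| * h x ^ 2) ^ 2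
      ≤ E p (fun x => d x ^ 2) * E p (fun x => h x ^ 4) := by
    have := cauchy_schwarz hp0 hp1 (fun x => |d x|) (fun x => h x ^ 2)
    simp only [sq_abs] at this
    refine this.trans (le_of_eq ?_)
    congr 1
    refine E_congr p fun x => ?_
    ring
  have n0 : 0 ≤ E p (fun x => |d x * h x|) := E_nonneg hp0 hp1 fun x => abs_nonneg _
  have n1 : 0 ≤ E p (fun x => |d x|) := E_nonneg hp0 hp1 fun x => abs_nonneg _
  have n2 : 0 ≤ E p (fun x => |d x| * h x ^ 2) :=
    E_nonneg hp0 hp1 fun x => mul_nonneg (abs_nonneg _) (sq_nonneg _)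
  calc E p (fun x => |d x * h x|) ^ 4 = (E p (fun x => |d x * h x|) ^ 2) ^ 2 := by ring
    _ ≤ (E p (fun x => |d x|) * E p (fun x => |d x| * h x ^ 2)) ^ 2 :=
        pow_le_pow_left₀ (sq_nonneg _) h1 2
    _ = E p (fun x => |d x|) ^ 2 * E p (fun x => |d x| * h x ^ 2) ^ 2 := by ring
    _ ≤ _ := mul_le_mul_of_nonneg_left h2 (sq_nonneg _)

end Crest.Agent.BK.Walsh
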