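import Crest.Agent.S0078_G1

/-!
# ROW56 package RESTR (helper95)

Orthonormality of the p-biased characters, Bessel's inequality, and the facts on the restrictions
`restr H f ω` (coordinates outside `H` frozen to `ω`) that Lemma A needs:
Fourier coefficients of restrictions, "Parseval in ω" (Bessel direction) and the average of the
influences of the restrictions.
-/

set_option linter.unusedSectionVars false

namespace Crest.Agent.BK

open Crest.FinProb

variable {ι : Type*} [Fintype ι] [DecidableEq ι]

/-! Helper lemmas live in the sub-namespace `Crest.Agent.BK.Restr` (to avoid name clashes with the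
other ROW56 files); the interface theorems at the end have bare `BK` names. -/
namespace Restr

/-! ## one coin -/

theorem sg_sq {p : ℝ} (hp0 : 0 < p) (hp1 : p < 1) : sg p ^ 2 = p * (1 - p) := by
  unfold sg
  exact Real.sq_sqrt (mul_nonneg hp0.le (by linarith))

theorem sg_pos {p : ℝ} (hp0 : 0 < p) (hp1 : p < 1) : 0 < sg p := by
  unfold sg
  exact Real.sqrt_pos.mpr (mul_pos hp0 (by linarith))

theorem chi1_mean (p : ℝ) : p * chi1 p true + (1 - p) * chi1 p false = 0 := by
  simp only [chi1, if_true, Bool.false_eq_true, if_false]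
  ring

theorem chi1_sq_mean {p : ℝ} (hp0 : 0 < p) (hp1 : p < 1) :
    p * (chi1 p true * chi1 p true) + (1 - p) * (chi1 p false * chi1 p false) = 1 := by
  have hs := sg_sq hp0 hp1
  have hpos := sg_pos hp0 hp1
  simp only [chi1, if_true, Bool.false_eq_true, if_false]
  field_simp
  nlinarith [hs]

/-! ## characters -/

theorem chi_eq_prod_univ (p : ℝ) (S : Finset ι) (x : ι → Bool) :
    chi p S x = ∏ i, (if i ∈ S then chi1 p (x i) else 1) := by
  unfold chi
  rw [Finset.prod_ite_mem, Finset.univ_inter]

theorem chi_empty (p : ℝ) (x : ι → Bool) : chi p (∅ : Finset ι) x = 1 := by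
  simp [chi]

theorem chi_union (p : ℝ) {S T : Finset ι} (h : Disjoint S T) (x : ι → Bool) :
    chi p (S ∪ T) x = chi p S x * chi p T x := by
  unfold chi
  exact Finset.prod_union h

theorem chi_mix_of_subset (p : ℝ) {H A : Finset ι} (hA : A ⊆ H) (w z : ι → Bool) :
    chi p A (mix H w z) = chi p A z := by
  unfold chi
  refine Finset.prod_congr rfl fun i hi => ?_
  simp [mix, hA hi]

theorem chi_mix_of_disjoint (p : ℝ) {H S : Finset ι} (hS : Disjoint S H) (w z : ι → Bool) :
    chi p S (mix H w z) = chi p S w := by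
  unfold chi
  refine Finset.prod_congr rfl fun i hi => ?_
  have : i ∉ H := Finset.disjoint_left.mp hS hi
  simp [mix, this]

/-- Orthonormality of the characters. -/
theorem E_chi_mul_chi {p : ℝ} (hp0 : 0 < p) (hp1 : p < 1) (S T : Finset ι) :
    E p (fun x => chi p S x * chi p T x) = if S = T then 1 else 0 := by
  have h1 : ∀ x : ι → Bool, chi p S x * chi p T x
      = ∏ i, ((if i ∈ S then chi1 p (x i) else 1) * (if i ∈ T then chi1 p (x i) else 1)) := by
    intro x
    rw [chi_eq_prod_univ, chi_eq_prod_univ, Finset.prod_mul_distrib]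
  simp only [h1]
  rw [E_prod p (fun i b => (if i ∈ S then chi1 p b else 1) * (if i ∈ T then chi1 p b else 1))]
  split_ifs with hST
  · subst hST
    refine Finset.prod_eq_one fun i _ => ?_
    by_cases hi : i ∈ S
    · simp only [hi, if_true]
      exact chi1_sq_mean hp0 hp1
    · simp only [hi, if_false]
      ring
  · have : ∃ i, ¬ (i ∈ S ↔ i ∈ T) := by
      by_contra hcon
      exact hST (Finset.ext fun i => by
        by_contra hi
        exact hcon ⟨i, hi⟩)
    obtain ⟨i, hi⟩ := this
    refine Finset.prod_eq_zero (Finset.mem_univ i) ?_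
    by_cases hiS : i ∈ S
    · have hiT : i ∉ T := fun h => hi ⟨fun _ => h, fun _ => hiS⟩
      simp only [hiS, hiT, if_true, if_false, mul_one]
      exact chi1_mean p
    · have hiT : i ∈ T := by
        by_contra h
        exact hi ⟨fun h' => absurd h' hiS, fun h' => absurd h' h⟩
      simp only [hiS, hiT, if_true, if_false, one_mul]
      exact chi1_mean p

/-- Bessel's inequality for any family of characters. -/
theorem bessel {p : ℝ} (hp0 : 0 < p) (hp1 : p < 1) (φ : (ι → Bool) → ℝ)
    (fam : Finset (Finset ι)) :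
    ∑ S ∈ fam, fh p φ S ^ 2 ≤ E p (fun x => φ x ^ 2) := by
  set ψ : (ι → Bool) → ℝ := fun x => ∑ S ∈ fam, fh p φ S * chi p S x with hψ
  have h1 : E p (fun x => φ x * ψ x) = ∑ S ∈ fam, fh p φ S ^ 2 := by
    have : ∀ x, φ x * ψ x = ∑ S ∈ fam, fh p φ S * (φ x * chi p S x) := by
      intro x
      simp only [hψ, Finset.mul_sum]
      exact Finset.sum_congr rfl fun S _ => by ring
    simp only [this]
    rw [E_sum]
    refine Finset.sum_congr rfl fun S _ => ?_
    rw [E_const_mul]
    simp only [fh, sq]
  have h2 : E p (fun x => ψ x * ψ x) = ∑ S ∈ fam, fh p φ S ^ 2 := by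
    have : ∀ x, ψ x * ψ x
        = ∑ S ∈ fam, ∑ T ∈ fam, (fh p φ S * fh p φ T) * (chi p S x * chi p T x) := by
      intro x
      simp only [hψ, Finset.sum_mul_sum]
      exact Finset.sum_congr rfl fun S _ => Finset.sum_congr rfl fun T _ => by ring
    simp only [this]
    rw [E_sum]
    refine Finset.sum_congr rfl fun S hS => ?_
    rw [E_sum]
    simp only [E_const_mul, E_chi_mul_chi hp0 hp1]
    rw [Finset.sum_eq_single S]
    · simp [sq]
    · intro T _ hT
      simp [Ne.symm hT]
    · intro h
      exact absurd hS h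
  have h3 : 0 ≤ E p (fun x => (φ x - ψ x) ^ 2) :=
    E_nonneg hp0.le hp1.le fun x => sq_nonneg _
  have h4 : E p (fun x => (φ x - ψ x) ^ 2)
      = E p (fun x => φ x ^ 2) - 2 * E p (fun x => φ x * ψ x) + E p (fun x => ψ x * ψ x) := by
    rw [← E_const_mul, ← E_sub, ← E_add]
    exact E_congr fun x => by ring
  rw [h4, h1, h2] at h3
  linarith

end Restr

open Restr

/-! ## restrictions -/

/-- (b) Fourier coefficients (in `ω`) of the Fourier coefficients of the restriction. -/
theorem fh_fh_mix (p : ℝ) {H A S0 : Finset ι} (hA : A ⊆ H) (hS0 : Disjoint S0 H)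
    (F : (ι → Bool) → ℝ) :
    fh p (fun w => fh p (fun z => F (mix H w z)) A) S0 = fh p F (S0 ∪ A) := by
  have hd : Disjoint S0 A := Finset.disjoint_of_subset_right hA hS0
  unfold fh
  rw [← E_mix p H (fun x => F x * chi p (S0 ∪ A) x)]
  refine E_congr fun w => ?_
  rw [← E_mul_const]
  refine E_congr fun z => ?_
  rw [chi_union p hd, chi_mix_of_subset p hA, chi_mix_of_disjoint p hS0]
  ring

/-- (c) "Parseval in ω", Bessel direction. -/
theorem sum_fh_sq_le_E_mix {p : ℝ} (hp0 : 0 < p) (hp1 : p < 1) {H A : Finset ι} (hA : A ⊆ H)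
    (fam : Finset (Finset ι)) (hfam : ∀ S0 ∈ fam, Disjoint S0 H) (F : (ι → Bool) → ℝ) :
    ∑ S0 ∈ fam, fh p F (S0 ∪ A) ^ 2 ≤ E p (fun w => fh p (fun z => F (mix H w z)) A ^ 2) := by
  have h := bessel hp0 hp1 (fun w => fh p (fun z => F (mix H w z)) A) fam
  refine le_trans (le_of_eq ?_) h
  refine Finset.sum_congr rfl fun S0 hS => ?_
  rw [fh_fh_mix p hA (hfam S0 hS)]

theorem ind_restr (H : Finset ι) (f : (ι → Bool) → Bool) (w : ι → Bool) :
    ind (restr H f w) = fun z => ind f (mix H w z) := rfl

/-- (c') the same for Boolean functions, in terms of `restr`. -/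
theorem sum_fh_sq_le_E_restr {p : ℝ} (hp0 : 0 < p) (hp1 : p < 1) {H A : Finset ι} (hA : A ⊆ H)
    (fam : Finset (Finset ι)) (hfam : ∀ S0 ∈ fam, Disjoint S0 H) (f : (ι → Bool) → Bool) :
    ∑ S0 ∈ fam, fh p (ind f) (S0 ∪ A) ^ 2 ≤ E p (fun w => fh p (ind (restr H f w)) A ^ 2) :=
  sum_fh_sq_le_E_mix hp0 hp1 hA fam hfam (ind f)

theorem mix_update_of_mem {H : Finset ι} {a : ι} (ha : a ∈ H) (w z : ι → Bool) (b : Bool) :
    mix H w (Function.update z a b) = Function.update (mix H w z) a b := by
  funext i
  by_cases hi : i = a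
  · subst hi; simp [mix, ha]
  · simp [mix, hi]

/-- (d) the influences of the restrictions average to the influence. -/
theorem E_infl_restr (p : ℝ) {H : Finset ι} {a : ι} (ha : a ∈ H) (f : (ι → Bool) → Bool) :
    E p (fun w => infl p (restr H f w) a) = infl p f a := by
  have h := E_mix p H
    (fun x => if f (Function.update x a true) ≠ f (Function.update x a false) then (1 : ℝ) else 0)
  rw [infl_eq_E p f a]
  refine Eq.trans ?_ h
  refine E_congr fun w => ?_
  rw [infl_eq_E]
  refine E_congr fun z => ?_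
  simp only [restr, mix_update_of_mem ha]

theorem E_sum_infl_restr (p : ℝ) {H B : Finset ι} (hB : B ⊆ H) (f : (ι → Bool) → Bool) :
    E p (fun w => ∑ a ∈ B, infl p (restr H f w) a) = ∑ a ∈ B, infl p f a := by
  rw [E_sum]
  exact Finset.sum_congr rfl fun a ha => E_infl_restr p (hB ha) f

/-- the probabilities of the restrictions average to the probability. -/
theorem E_prT_restr (p : ℝ) (H : Finset ι) (f : (ι → Bool) → Bool) :
    E p (fun w => prT p (restr H f w)) = prT p f := by
  have h := E_mix p H (ind f)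
  rw [prT_eq_E p f]
  refine Eq.trans ?_ h
  refine E_congr fun w => ?_
  rw [prT_eq_E]
  rfl

end Crest.Agent.BK
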