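import Crest.Agent.S0078_G1

/-!
# ROW56 package SYM (helper4): symmetry parts of Lemma A
-/

set_option linter.unusedSectionVars false

namespace Crest.Agent.BK.SymD

open Crest.FinProb Crest.CombinatoricsR.HypergraphCube Crest.Agent.BK

section abstract_perm

variable {ι : Type*} [Fintype ι] [DecidableEq ι]

theorem bernoulliWeight_comp_perm (p : ℝ) (π : Equiv.Perm ι) (x : ι → Bool) :
    bernoulliWeight p (x ∘ π) = bernoulliWeight p x := by
  unfold bernoulliWeight
  exact Fintype.prod_equiv π _ _ fun i => rfl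

/-- precomposition with a coordinate permutation, as a permutation of the cube -/
def cubePerm (π : Equiv.Perm ι) : Equiv.Perm (ι → Bool) where
  toFun x := x ∘ π
  invFun x := x ∘ π.symm
  left_inv x := by funext i; simp
  right_inv x := by funext i; simp

theorem E_comp_perm (p : ℝ) (π : Equiv.Perm ι) (F : (ι → Bool) → ℝ) :
    E p (fun x => F (x ∘ π)) = E p F := by
  unfold E
  refine Fintype.sum_equiv (cubePerm π) _ _ fun x => ?_
  simp only [cubePerm, Equiv.coe_fn_mk]
  rw [bernoulliWeight_comp_perm]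

theorem chi_comp_perm (p : ℝ) (π : Equiv.Perm ι) (S : Finset ι) (x : ι → Bool) :
    chi p S (x ∘ π) = chi p (S.map π.toEmbedding) x := by
  unfold chi
  rw [Finset.prod_map]
  rfl

theorem fh_map_of_inv (p : ℝ) (π : Equiv.Perm ι) (F : (ι → Bool) → ℝ)
    (hF : ∀ x, F (x ∘ π) = F x) (S : Finset ι) :
    fh p F (S.map π.toEmbedding) = fh p F S := by
  unfold fh
  rw [← E_comp_perm p π (fun x => F x * chi p S x)]
  refine E_congr fun x => ?_
  rw [hF, chi_comp_perm]

theorem update_comp_perm (π : Equiv.Perm ι) (x : ι → Bool) (a : ι) (b : Bool) :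
    Function.update x (π a) b ∘ π = Function.update (x ∘ π) a b := by
  funext i
  by_cases h : i = a
  · subst h; simp
  · have : π i ≠ π a := fun h' => h (π.injective h')
    simp [Function.update_of_ne, h, this]

theorem infl_perm_of_inv (p : ℝ) (π : Equiv.Perm ι) (f : (ι → Bool) → Bool)
    (hf : ∀ x, f (x ∘ π) = f x) (a : ι) : infl p f (π a) = infl p f a := by
  rw [infl_eq_E, infl_eq_E]
  rw [← E_comp_perm p π (fun x =>
      if f (Function.update x a true) ≠ f (Function.update x a false) then (1:ℝ) else 0)]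
  refine E_congr fun x => ?_
  rw [← update_comp_perm, ← update_comp_perm, hf, hf]

theorem mix_comp_perm (H : Finset ι) (π : Equiv.Perm ι) (hfix : ∀ i, i ∉ H → π i = i)
    (x z : ι → Bool) : mix H x (z ∘ π) = mix H x z ∘ π := by
  have hmem : ∀ i, π i ∈ H ↔ i ∈ H := by
    intro i
    constructor
    · intro h
      by_contra hi
      rw [hfix i hi] at h
      exact hi h
    · intro h
      by_contra hi
      have h2 := hfix _ hi
      have h3 : π i = i := π.injective h2
      rw [h3] at hi
      exact hi h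
  funext i
  by_cases h : i ∈ H
  · simp [mix, h, hmem]
  · simp [mix, h, hfix i h]

theorem restr_inv (H : Finset ι) (π : Equiv.Perm ι) (f : (ι → Bool) → Bool)
    (hf : ∀ x, f (x ∘ π) = f x) (hfix : ∀ i, i ∉ H → π i = i) (x z : ι → Bool) :
    restr H f x (z ∘ π) = restr H f x z := by
  unfold restr
  rw [mix_comp_perm H π hfix, hf]

theorem ind_inv (π : Equiv.Perm ι) (g : (ι → Bool) → Bool) (hg : ∀ x, g (x ∘ π) = g x)
    (x : ι → Bool) : ind g (x ∘ π) = ind g x := by
  unfold ind; rw [hg]

theorem weight_map_of_inv (p : ℝ) (π : Equiv.Perm ι) (g : (ι → Bool) → Bool)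
    (hg : ∀ x, g (x ∘ π) = g x) (B : Finset ι) :
    ∑ A ∈ (B.map π.toEmbedding).powerset.filter (fun A => A.Nonempty), fh p (ind g) A ^ 2
      = ∑ A ∈ B.powerset.filter (fun A => A.Nonempty), fh p (ind g) A ^ 2 := by
  symm
  refine Finset.sum_bij (fun A _ => A.map π.toEmbedding) ?_ ?_ ?_ ?_
  · intro A hA
    simp only [Finset.mem_filter, Finset.mem_powerset] at hA ⊢
    exact ⟨Finset.map_subset_map.2 hA.1, by simpa using hA.2⟩
  · intro A _ A' _ h
    exact Finset.map_injective _ h
  · intro A' hA'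
    simp only [Finset.mem_filter, Finset.mem_powerset] at hA'
    refine ⟨A'.map π.symm.toEmbedding, ?_, ?_⟩
    · simp only [Finset.mem_filter, Finset.mem_powerset]
      refine ⟨?_, by simpa using hA'.2⟩
      intro i hi
      simp only [Finset.mem_map, Equiv.coe_toEmbedding] at hi
      obtain ⟨j, hj, rfl⟩ := hi
      have := hA'.1 hj
      simp only [Finset.mem_map, Equiv.coe_toEmbedding] at this
      obtain ⟨k, hk, rfl⟩ := this
      simpa using hk
    · ext i
      simp [Finset.mem_map]
  · intro A _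
    rw [fh_map_of_inv p π (ind g) (ind_inv π g hg)]

end abstract_perm

section hyper

variable {n r : ℕ}

theorem relabelSlot_relabelSlot_symm (σ : Equiv.Perm (Fin n)) (e : HyperedgeSlot n r) :
    relabelSlot σ (relabelSlot σ.symm e) = e := by
  apply Subtype.ext
  ext i
  simp [relabelSlot, Finset.mem_map]

theorem relabelSlot_symm_relabelSlot (σ : Equiv.Perm (Fin n)) (e : HyperedgeSlot n r) :
    relabelSlot σ.symm (relabelSlot σ e) = e := by
  apply Subtype.ext
  ext i
  simp [relabelSlot, Finset.mem_map]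

/-- the action of a vertex permutation on the slots -/
def slotPerm (σ : Equiv.Perm (Fin n)) : Equiv.Perm (HyperedgeSlot n r) where
  toFun := relabelSlot σ
  invFun := relabelSlot σ.symm
  left_inv := relabelSlot_symm_relabelSlot σ
  right_inv := relabelSlot_relabelSlot_symm σ

theorem slotPerm_apply (σ : Equiv.Perm (Fin n)) (e : HyperedgeSlot n r) :
    slotPerm σ e = relabelSlot σ e := rfl

theorem relabel_eq (σ : Equiv.Perm (Fin n)) (x : HyperedgeSlot n r → Bool) :
    relabel σ x = x ∘ slotPerm σ := rfl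

theorem mem_slotPerm (σ : Equiv.Perm (Fin n)) (e : HyperedgeSlot n r) (i : Fin n) :
    i ∈ (slotPerm σ e).1 ↔ σ.symm i ∈ e.1 := by
  simp only [slotPerm_apply, relabelSlot, Finset.mem_map, Equiv.coe_toEmbedding]
  constructor
  · rintro ⟨j, hj, rfl⟩; simpa using hj
  · intro h; exact ⟨_, h, by simp⟩

theorem symm_inv {f : (HyperedgeSlot n r → Bool) → Bool} (hf : IsSymmetric f)
    (σ : Equiv.Perm (Fin n)) (x : HyperedgeSlot n r → Bool) : f (x ∘ slotPerm σ) = f x :=
  hf σ x

/-- the slots meeting `Y` -/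
def free (Y : Finset (Fin n)) : Finset (HyperedgeSlot n r) :=
  Finset.univ.filter (fun e => ¬ Disjoint e.1 Y)

/-- the slots meeting `Y` exactly in `u` -/
def blk (Y : Finset (Fin n)) (u : Fin n) : Finset (HyperedgeSlot n r) :=
  Finset.univ.filter (fun e => e.1 ∩ Y = {u})

theorem mem_free {Y : Finset (Fin n)} {e : HyperedgeSlot n r} :
    e ∈ free Y ↔ ¬ Disjoint e.1 Y := by simp [free]

theorem mem_blk {Y : Finset (Fin n)} {u : Fin n} {e : HyperedgeSlot n r} :
    e ∈ blk Y u ↔ e.1 ∩ Y = {u} := by simp [blk]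

theorem blk_subset_free (Y : Finset (Fin n)) (u : Fin n) :
    (blk Y u : Finset (HyperedgeSlot n r)) ⊆ free Y := by
  intro e he
  rw [mem_blk] at he
  rw [mem_free, Finset.disjoint_iff_inter_eq_empty, he]
  simp

theorem blk_disjoint (Y : Finset (Fin n)) {u v : Fin n} (huv : u ≠ v) :
    Disjoint (blk Y u : Finset (HyperedgeSlot n r)) (blk Y v) := by
  rw [Finset.disjoint_left]
  intro e he he'
  rw [mem_blk] at he he'
  rw [he] at he'
  exact huv (Finset.singleton_injective he')

theorem exists_perm_slot (a b : HyperedgeSlot n r) : ∃ σ : Equiv.Perm (Fin n), relabelSlot σ a = b := by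
  classical
  have hcard : Fintype.card {x // x ∈ a.1} = Fintype.card {x // x ∈ b.1} := by
    simp [a.2, b.2]
  let e : {x // x ∈ a.1} ≃ {x // x ∈ b.1} := Fintype.equivOfCardEq hcard
  refine ⟨e.extendSubtype, ?_⟩
  apply Subtype.ext
  refine Finset.eq_of_subset_of_card_le ?_ ?_
  · intro i hi
    simp only [relabelSlot, Finset.mem_map, Equiv.coe_toEmbedding] at hi
    obtain ⟨j, hj, rfl⟩ := hi
    exact e.extendSubtype_mem j hj
  · simp [relabelSlot, a.2, b.2]

theorem infl_eq_of_symm (p : ℝ) {f : (HyperedgeSlot n r → Bool) → Bool} (hf : IsSymmetric f)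
    (a b : HyperedgeSlot n r) : infl p f a = infl p f b := by
  obtain ⟨σ, rfl⟩ := exists_perm_slot a b
  exact (infl_perm_of_inv p (slotPerm σ) f (symm_inv hf σ) a).symm

theorem infl_nonneg' {ι : Type*} [Fintype ι] [DecidableEq ι] {p : ℝ} (h0 : 0 ≤ p) (h1 : p ≤ 1)
    (f : (ι → Bool) → Bool) (a : ι) : 0 ≤ infl p f a := by
  rw [infl_eq_E]
  refine E_nonneg h0 h1 fun x => ?_
  split_ifs <;> norm_num

/-- star sums of the influences are all equal -/
theorem star_sum_eq (p : ℝ) {f : (HyperedgeSlot n r → Bool) → Bool} (hf : IsSymmetric f)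
    (u v : Fin n) :
    ∑ a ∈ Finset.univ.filter (fun a : HyperedgeSlot n r => u ∈ a.1), infl p f a
      = ∑ a ∈ Finset.univ.filter (fun a : HyperedgeSlot n r => v ∈ a.1), infl p f a := by
  refine Finset.sum_equiv (slotPerm (Equiv.swap u v)) ?_ ?_
  · intro a
    simp only [Finset.mem_filter, Finset.mem_univ, true_and, mem_slotPerm, Equiv.symm_swap,
      Equiv.swap_apply_right]
  · intro a _
    exact (infl_perm_of_inv p (slotPerm (Equiv.swap u v)) f (symm_inv hf _) a).symm

theorem sum_star_sum (p : ℝ) (f : (HyperedgeSlot n r → Bool) → Bool) :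
    ∑ v : Fin n, ∑ a ∈ Finset.univ.filter (fun a : HyperedgeSlot n r => v ∈ a.1), infl p f a
      = r * totInfl p f := by
  simp only [Finset.sum_filter]
  rw [Finset.sum_comm]
  unfold totInfl
  rw [Finset.mul_sum]
  refine Finset.sum_congr rfl fun a _ => ?_
  rw [← Finset.sum_filter]
  simp only [Finset.filter_mem_eq_inter, Finset.univ_inter, Finset.sum_const, a.2, nsmul_eq_mul]

theorem star_sum (p : ℝ) {f : (HyperedgeSlot n r → Bool) → Bool} (hf : IsSymmetric f)
    (v : Fin n) :
    (n : ℝ) * ∑ a ∈ Finset.univ.filter (fun a : HyperedgeSlot n r => v ∈ a.1), infl p f a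
      = r * totInfl p f := by
  rw [← sum_star_sum p f, Finset.sum_congr rfl (fun u _ => star_sum_eq p hf u v)]
  simp

theorem sum_infl_blk_le {p : ℝ} (h0 : 0 ≤ p) (h1 : p ≤ 1)
    {f : (HyperedgeSlot n r → Bool) → Bool} (hf : IsSymmetric f)
    (Y : Finset (Fin n)) (v : Fin n) :
    ∑ a ∈ blk Y v, infl p f a ≤ (r : ℝ) / n * totInfl p f := by
  have hn : 0 < n := Fin.pos_iff_nonempty.2 ⟨v⟩
  have hn' : (0 : ℝ) < n := by exact_mod_cast hn
  have h := star_sum p hf v
  have hsub : (blk Y v : Finset (HyperedgeSlot n r))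
      ⊆ Finset.univ.filter (fun a : HyperedgeSlot n r => v ∈ a.1) := by
    intro e he
    rw [mem_blk] at he
    have : v ∈ e.1 ∩ Y := by rw [he]; simp
    simp only [Finset.mem_filter, Finset.mem_univ, true_and]
    exact (Finset.mem_inter.1 this).1
  have h2 := Finset.sum_le_sum_of_subset_of_nonneg hsub
    (fun a _ _ => infl_nonneg' h0 h1 f a)
  calc ∑ a ∈ blk Y v, infl p f a
      ≤ ∑ a ∈ Finset.univ.filter (fun a : HyperedgeSlot n r => v ∈ a.1), infl p f a := h2
    _ = (r : ℝ) / n * totInfl p f := by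
        field_simp
        linarith

theorem slotPerm_swap_fix (Y : Finset (Fin n)) {u v : Fin n} (hu : u ∈ Y) (hv : v ∈ Y)
    (e : HyperedgeSlot n r) (he : e ∉ free Y) : slotPerm (Equiv.swap u v) e = e := by
  rw [mem_free, not_not, Finset.disjoint_left] at he
  apply Subtype.ext
  ext i
  rw [mem_slotPerm, Equiv.symm_swap]
  by_cases hiu : i = u
  · subst hiu
    rw [Equiv.swap_apply_left]
    constructor
    · intro h; exact absurd hv (he h)
    · intro h; exact absurd hu (he h)
  · by_cases hiv : i = v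
    · subst hiv
      rw [Equiv.swap_apply_right]
      constructor
      · intro h; exact absurd hu (he h)
      · intro h; exact absurd hv (he h)
    · rw [Equiv.swap_apply_of_ne_of_ne hiu hiv]

theorem blk_map_swap (Y : Finset (Fin n)) {u v : Fin n} (hu : u ∈ Y) (hv : v ∈ Y) :
    (blk Y u : Finset (HyperedgeSlot n r)).map (slotPerm (Equiv.swap u v)).toEmbedding
      = blk Y v := by
  have key : ∀ (u v : Fin n), u ∈ Y → v ∈ Y → ∀ e : HyperedgeSlot n r, e ∈ blk Y u →
      slotPerm (Equiv.swap u v) e ∈ blk Y v := by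
    intro u v hu hv e he
    rw [mem_blk] at he ⊢
    ext i
    have hi := Finset.ext_iff.1 he
    simp only [Finset.mem_inter, Finset.mem_singleton, mem_slotPerm, Equiv.symm_swap] at hi ⊢
    by_cases hiv : i = v
    · subst hiv
      rw [Equiv.swap_apply_right]
      simp only [hv, and_true, iff_true]
      exact ((hi u).2 rfl).1
    · simp only [hiv, iff_false, not_and]
      by_cases hiu : i = u
      · subst hiu
        rw [Equiv.swap_apply_left]
        intro h _
        exact hiv ((hi v).1 ⟨h, hv⟩).symm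
      · rw [Equiv.swap_apply_of_ne_of_ne hiu hiv]
        intro h h'
        exact hiu ((hi i).1 ⟨h, h'⟩)
  ext e
  simp only [Finset.mem_map, Equiv.coe_toEmbedding]
  constructor
  · rintro ⟨e', he', rfl⟩
    exact key u v hu hv e' he'
  · intro he
    refine ⟨slotPerm (Equiv.swap v u) e, key v u hv hu e he, ?_⟩
    apply Subtype.ext
    ext i
    simp [mem_slotPerm, Equiv.swap_comm v u]

theorem weight_blk_eq (p : ℝ) {f : (HyperedgeSlot n r → Bool) → Bool} (hf : IsSymmetric f)
    (Y : Finset (Fin n)) {u v : Fin n} (hu : u ∈ Y) (hv : v ∈ Y) (x : HyperedgeSlot n r → Bool) :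
    ∑ A ∈ (blk Y u).powerset.filter (fun A => A.Nonempty), fh p (ind (restr (free Y) f x)) A ^ 2
      = ∑ A ∈ (blk Y v).powerset.filter (fun A => A.Nonempty),
          fh p (ind (restr (free Y) f x)) A ^ 2 := by
  rw [← blk_map_swap Y hu hv]
  exact (weight_map_of_inv p (slotPerm (Equiv.swap u v)) (restr (free Y) f x)
    (restr_inv (free Y) _ f (symm_inv hf _) (slotPerm_swap_fix Y hu hv) x) (blk Y u)).symm

/-- the hypothesis `hw` of the Block lemma; `hbes` is Bessel/Parseval for Boolean functions. -/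
theorem weight_blk_le_of_bessel (p : ℝ) {f : (HyperedgeSlot n r → Bool) → Bool}
    (hf : IsSymmetric f)
    (hbes : ∀ g : (HyperedgeSlot n r → Bool) → Bool,
      ∑ A : Finset (HyperedgeSlot n r), fh p (ind g) A ^ 2 ≤ 1)
    (Y : Finset (Fin n)) {v : Fin n} (hv : v ∈ Y) (x : HyperedgeSlot n r → Bool) :
    (Y.card : ℝ) * ∑ A ∈ (blk Y v).powerset.filter (fun A => A.Nonempty),
      fh p (ind (restr (free Y) f x)) A ^ 2 ≤ 1 := by
  set g := restr (free Y) f x with hg
  have h1 : (Y.card : ℝ) * ∑ A ∈ (blk Y v).powerset.filter (fun A => A.Nonempty),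
      fh p (ind g) A ^ 2
      = ∑ u ∈ Y, ∑ A ∈ (blk Y u).powerset.filter (fun A => A.Nonempty), fh p (ind g) A ^ 2 := by
    rw [Finset.sum_congr rfl (fun u hu => weight_blk_eq p hf Y hu hv x)]
    rw [Finset.sum_const, nsmul_eq_mul]
  rw [h1, ← Finset.sum_biUnion]
  · refine le_trans ?_ (hbes g)
    exact Finset.sum_le_sum_of_subset_of_nonneg (Finset.subset_univ _)
      (fun A _ _ => sq_nonneg _)
  · intro u _ u' _ huu'
    simp only [Function.onFun]
    rw [Finset.disjoint_left]
    intro A hA hA'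
    simp only [Finset.mem_filter, Finset.mem_powerset] at hA hA'
    obtain ⟨e, he⟩ := hA.2
    exact Finset.disjoint_left.1 (blk_disjoint Y huu') (hA.1 he) (hA'.1 he)

end hyper

end Crest.Agent.BK.SymD
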