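import Mathlib
import Crest.Prelude.Def_QuadraticTransport

set_option autoImplicit false
open MeasureTheory Set
open scoped ENNReal NNReal InnerProductSpace
open Crest.AnalysisR.OT

namespace Crest.Agent.S0109GN

variable {d : ℕ}

/-- the shrunk body `x0 + (1-l)(K - x0)` -/
noncomputable def shrink (K : Set (EuclideanSpace ℝ (Fin d))) (x0 : EuclideanSpace ℝ (Fin d))
    (l : ℝ) : Set (EuclideanSpace ℝ (Fin d)) :=
  AffineMap.homothety x0 (1 - l) '' K

lemma shrink_add_mem {K : Set (EuclideanSpace ℝ (Fin d))} (hKv : Convex ℝ K)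
    {x0 : EuclideanSpace ℝ (Fin d)} {r0 : ℝ} (hball : Metric.closedBall x0 r0 ⊆ K)
    {r : ℝ} (hr : 0 < r) (hrr : r ≤ r0) {y v : EuclideanSpace ℝ (Fin d)}
    (hy : y ∈ shrink K x0 (r / r0)) (hv : ‖v‖ ≤ r) : y + v ∈ K := by
  obtain ⟨x, hx, rfl⟩ := hy
  have hr0 : 0 < r0 := lt_of_lt_of_le hr hrr
  have hz : x0 + (r0 / r) • v ∈ K := by
    apply hball
    rw [Metric.mem_closedBall, dist_eq_norm, add_sub_cancel_left, norm_smul, Real.norm_eq_abs,
      abs_of_pos (div_pos hr0 hr), div_mul_eq_mul_div, div_le_iff₀ hr]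
    exact mul_le_mul_of_nonneg_left hv hr0.le
  have hl0 : 0 ≤ r / r0 := (div_pos hr hr0).le
  have hl1 : r / r0 ≤ 1 := (div_le_one hr0).2 hrr
  have := hKv hx hz (sub_nonneg.2 hl1) hl0 (by ring)
  convert this using 1
  rw [AffineMap.homothety_apply, vsub_eq_sub, vadd_eq_add, smul_add, smul_smul, smul_sub]
  have : r / r0 * (r0 / r) = 1 := by field_simp
  rw [this, one_smul, sub_smul, sub_smul, one_smul, one_smul]
  abel

lemma volume_shrink (K : Set (EuclideanSpace ℝ (Fin d))) (x0 : EuclideanSpace ℝ (Fin d))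
    {l : ℝ} (hl1 : l ≤ 1) :
    volume (shrink K x0 l) = ENNReal.ofReal ((1 - l) ^ d) * volume K := by
  unfold shrink
  rw [Measure.addHaar_image_homothety, finrank_euclideanSpace_fin,
    abs_of_nonneg (pow_nonneg (sub_nonneg.2 hl1) d)]

lemma volume_diff_le {K S : Set (EuclideanSpace ℝ (Fin d))} (hSK : S ⊆ K) (hS : MeasurableSet S)
    (hK : volume K ≠ ∞) {l : ℝ} (hl0 : 0 ≤ l) (hl1 : l ≤ 1)
    (hvol : volume S = ENNReal.ofReal ((1 - l) ^ d) * volume K) :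
    volume (K \ S) ≤ ENNReal.ofReal (d * l) * volume K := by
  rw [measure_sdiff hSK hS.nullMeasurableSet (ne_top_of_le_ne_top hK (measure_mono hSK)),
    tsub_le_iff_left, hvol, ← add_mul]
  have hB : 1 ≤ (1 - l) ^ d + d * l := by
    have := one_add_mul_le_pow (a := -l) (by linarith) d
    have h2 : (1 + -l) = 1 - l := by ring
    rw [h2] at this
    linarith
  have : (1 : ℝ≥0∞) ≤ ENNReal.ofReal ((1 - l) ^ d) + ENNReal.ofReal (d * l) := by
    rw [← ENNReal.ofReal_add (pow_nonneg (sub_nonneg.2 hl1) d) (by positivity)]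
    rw [← ENNReal.ofReal_one]
    exact ENNReal.ofReal_le_ofReal hB
  calc volume K = 1 * volume K := (one_mul _).symm
    _ ≤ _ := by gcongr

lemma setLIntegral_shift_le {K S : Set (EuclideanSpace ℝ (Fin d))}
    (v : EuclideanSpace ℝ (Fin d)) (hS : ∀ y ∈ S, y + v ∈ K)
    (f : EuclideanSpace ℝ (Fin d) → ℝ≥0∞) :
    ∫⁻ x in S, f (x + v) ≤ ∫⁻ x in K, f x := by
  rw [(measurePreserving_add_right volume v).setLIntegral_comp_emb
    (measurableEmbedding_addRight v) f S]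
  apply lintegral_mono_set
  rintro _ ⟨y, hy, rfl⟩
  exact hS y hy

lemma volume_image_add_right (S : Set (EuclideanSpace ℝ (Fin d)))
    (v : EuclideanSpace ℝ (Fin d)) : volume ((fun x => x + v) '' S) = volume S := by
  rw [image_add_right, measure_preimage_add_right]
lemma pointwise_ineq {r R a1 t tp tm u0 up um : ℝ} (hr : 0 < r)
    (h1 : r * (a1 - tp) ≤ up - u0) (h2 : -(r * (a1 - tm)) ≤ um - u0)
    (h3 : tm ≤ t) (h4 : t ≤ tp) (hb : tp - tm ≤ 2 * R) :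
    (a1 - t) ^ 2 ≤ 4 / r ^ 2 * up ^ 2 + 4 / r ^ 2 * um ^ 2 + 8 / r ^ 2 * u0 ^ 2
      + 4 * R * (tp - tm) := by
  have hm0 : 0 ≤ tp - tm := by linarith
  have hX1 : r * (a1 - t) ≤ (up - u0) + r * (tp - tm) := by nlinarith
  have hX2 : -(r * (a1 - t)) ≤ (um - u0) + r * (tp - tm) := by nlinarith
  have hsq : (r * (a1 - t)) ^ 2 ≤ 2 * (up - u0) ^ 2 + 2 * (um - u0) ^ 2 + 2 * (r * (tp - tm)) ^ 2 := by
    rcases le_total 0 (r * (a1 - t)) with h | h
    · have : (r * (a1 - t)) ^ 2 ≤ ((up - u0) + r * (tp - tm)) ^ 2 := by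
        apply pow_le_pow_left₀ h hX1
      nlinarith [sq_nonneg ((up - u0) - r * (tp - tm)), sq_nonneg (um - u0)]
    · have : (-(r * (a1 - t))) ^ 2 ≤ ((um - u0) + r * (tp - tm)) ^ 2 := by
        apply pow_le_pow_left₀ (by linarith) hX2
      nlinarith [sq_nonneg ((um - u0) - r * (tp - tm)), sq_nonneg (up - u0)]
  have hm2 : (tp - tm) ^ 2 ≤ 2 * R * (tp - tm) := by nlinarith
  have hr2 : 0 < r ^ 2 := by positivity
  have key : r ^ 2 * (a1 - t) ^ 2 ≤ 4 * up ^ 2 + 4 * um ^ 2 + 8 * u0 ^ 2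
      + r ^ 2 * (4 * R * (tp - tm)) := by
    nlinarith [sq_nonneg (up + u0), sq_nonneg (um + u0)]
  have : 4 / r ^ 2 * up ^ 2 + 4 / r ^ 2 * um ^ 2 + 8 / r ^ 2 * u0 ^ 2 + 4 * R * (tp - tm)
      = (4 * up ^ 2 + 4 * um ^ 2 + 8 * u0 ^ 2 + r ^ 2 * (4 * R * (tp - tm))) / r ^ 2 := by
    field_simp
  rw [this, le_div_iff₀ hr2]
  linarith

lemma abs_inner_le_of {w e : EuclideanSpace ℝ (Fin d)} {R : ℝ} (hw : ‖w‖ ≤ R) (he : ‖e‖ ≤ 1) :
    |⟪w, e⟫_ℝ| ≤ R := by
  have hR : 0 ≤ R := le_trans (norm_nonneg _) hw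
  calc |⟪w, e⟫_ℝ| ≤ ‖w‖ * ‖e‖ := abs_real_inner_le_norm w e
    _ ≤ R * 1 := mul_le_mul hw he (norm_nonneg _) hR
    _ = R := mul_one R

lemma dir_bound (K : Set (EuclideanSpace ℝ (Fin d))) (hKc : IsCompact K) (hKv : Convex ℝ K)
    (x0 : EuclideanSpace ℝ (Fin d)) (r0 : ℝ) (hball : Metric.closedBall x0 r0 ⊆ K)
    (R : ℝ) (hR : 0 ≤ R)
    (φ0 φ1 : EuclideanSpace ℝ (Fin d) → ℝ) (hφ0 : Measurable φ0) (hφ1 : Measurable φ1)
    (T0 T1 : EuclideanSpace ℝ (Fin d) → EuclideanSpace ℝ (Fin d))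
    (hT0 : Measurable T0)
    (h0 : ∀ᵐ x ∂(volume : Measure (EuclideanSpace ℝ (Fin d))), x ∈ K →
      ‖T0 x‖ ≤ R ∧ ∀ z ∈ K, φ0 x + ⟪T0 x, z - x⟫_ℝ ≤ φ0 z)
    (h1 : ∀ᵐ x ∂(volume : Measure (EuclideanSpace ℝ (Fin d))), x ∈ K →
      ‖T1 x‖ ≤ R ∧ ∀ z ∈ K, φ1 x + ⟪T1 x, z - x⟫_ℝ ≤ φ1 z)
    (c : ℝ) (e : EuclideanSpace ℝ (Fin d)) (he : ‖e‖ ≤ 1) (r : ℝ) (hr : 0 < r) (hrr : r ≤ r0) :
    ∫⁻ x in K, ENNReal.ofReal (⟪T1 x - T0 x, e⟫_ℝ ^ 2) ≤
      ENNReal.ofReal (16 / r ^ 2) * (∫⁻ x in K, ENNReal.ofReal ((φ1 x - φ0 x - c) ^ 2))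
      + ENNReal.ofReal (12 * R ^ 2 * d * (r / r0)) * volume K := by
  have hr0 : 0 < r0 := lt_of_lt_of_le hr hrr
  set l := r / r0 with hl
  have hl0 : 0 ≤ l := (div_pos hr hr0).le
  have hl1 : l ≤ 1 := (div_le_one hr0).2 hrr
  set v : EuclideanSpace ℝ (Fin d) := r • e with hv
  have hvn : ‖v‖ ≤ r := by
    rw [hv, norm_smul, Real.norm_eq_abs, abs_of_pos hr]; nlinarith
  have hvn' : ‖-v‖ ≤ r := by rwa [norm_neg]
  set Kl := shrink K x0 l with hKl
  have hKlm : MeasurableSet Kl :=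
    (hKc.image (AffineMap.homothety_continuous x0 (1 - l))).measurableSet
  have hp : ∀ y ∈ Kl, y + v ∈ K := fun y hy => shrink_add_mem hKv hball hr hrr hy hvn
  have hm : ∀ y ∈ Kl, y + -v ∈ K := fun y hy => shrink_add_mem hKv hball hr hrr hy hvn'
  have hz : Kl ⊆ K := fun y hy => by
    simpa using shrink_add_mem hKv hball hr hrr hy (v := 0) (by simpa using hr.le)
  have hKfin : volume K ≠ ∞ := hKc.measure_lt_top.ne
  set U : EuclideanSpace ℝ (Fin d) → ℝ≥0∞ :=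
    fun x => ENNReal.ofReal ((φ1 x - φ0 x - c) ^ 2) with hU
  set τ : EuclideanSpace ℝ (Fin d) → ℝ := fun x => ⟪T0 x, e⟫_ℝ with hτ
  set G : EuclideanSpace ℝ (Fin d) → ℝ≥0∞ := fun x => ENNReal.ofReal (τ x + R) with hG
  set M : EuclideanSpace ℝ (Fin d) → ℝ≥0∞ :=
    fun x => ENNReal.ofReal (τ (x + v) - τ (x + -v)) with hM
  set F : EuclideanSpace ℝ (Fin d) → ℝ≥0∞ :=
    fun x => ENNReal.ofReal (⟪T1 x - T0 x, e⟫_ℝ ^ 2) with hF
  have hUm : Measurable U := by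
    apply ENNReal.measurable_ofReal.comp
    exact ((hφ1.sub hφ0).sub_const c).pow_const 2
  have hτm : Measurable τ := hT0.inner_const
  have hMm : Measurable M := by
    apply ENNReal.measurable_ofReal.comp
    exact (hτm.comp (measurable_add_const v)).sub (hτm.comp (measurable_add_const (-v)))
  have h0p := (measurePreserving_add_right volume v).quasiMeasurePreserving.ae h0
  have h0m := (measurePreserving_add_right volume (-v)).quasiMeasurePreserving.ae h0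
  -- pointwise estimates on `Kl`
  have hpt : ∀ᵐ x ∂(volume : Measure (EuclideanSpace ℝ (Fin d))), x ∈ Kl →
      (F x ≤ ENNReal.ofReal (4 / r ^ 2) * U (x + v) + ENNReal.ofReal (4 / r ^ 2) * U (x + -v)
        + ENNReal.ofReal (8 / r ^ 2) * U x + ENNReal.ofReal (4 * R) * M x) ∧
      M x + G (x + -v) = G (x + v) := by
    filter_upwards [h0, h1, h0p, h0m] with x g0 g1 g0p g0m hx
    obtain ⟨b0, s0⟩ := g0 (hz hx)
    obtain ⟨b1, s1⟩ := g1 (hz hx)
    obtain ⟨b0p, s0p⟩ := g0p (hp x hx)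
    obtain ⟨b0m, s0m⟩ := g0m (hm x hx)
    have e1 := s1 (x + v) (hp x hx)
    have e2 := s0p x (hz hx)
    have e3 := s1 (x + -v) (hm x hx)
    have e4 := s0m x (hz hx)
    have e5 := s0 (x + v) (hp x hx)
    have e6 := s0 (x + -v) (hm x hx)
    simp only [add_sub_cancel_left, sub_add_cancel_left, neg_neg, inner_neg_right, hv,
      real_inner_smul_right] at e1 e2 e3 e4 e5 e6
    rw [← hv] at e1 e2 e3 e4 e5 e6
    have t3 : τ (x + -v) ≤ τ x := by
      have : r * τ (x + -v) ≤ r * τ x := by simp only [hτ]; linarith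
      exact le_of_mul_le_mul_left this hr
    have t4 : τ x ≤ τ (x + v) := by
      have : r * τ x ≤ r * τ (x + v) := by simp only [hτ]; linarith
      exact le_of_mul_le_mul_left this hr
    have bp : |τ (x + v)| ≤ R := abs_inner_le_of b0p he
    have bm : |τ (x + -v)| ≤ R := abs_inner_le_of b0m he
    have hb : τ (x + v) - τ (x + -v) ≤ 2 * R := by
      have := (abs_le.1 bp).2; have := (abs_le.1 bm).1; linarith
    have key := pointwise_ineq (r := r) (R := R) (a1 := ⟪T1 x, e⟫_ℝ) (t := τ x) (tp := τ (x + v))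
      (tm := τ (x + -v)) (u0 := φ1 x - φ0 x - c) (up := φ1 (x + v) - φ0 (x + v) - c)
      (um := φ1 (x + -v) - φ0 (x + -v) - c) hr
      (by simp only [hτ]; linarith) (by simp only [hτ]; linarith) t3 t4 hb
    have hpos : (0:ℝ) ≤ 4 / r ^ 2 := by positivity
    have hpos8 : (0:ℝ) ≤ 8 / r ^ 2 := by positivity
    have hmm : 0 ≤ τ (x + v) - τ (x + -v) := by linarith
    constructor
    · simp only [hF, hU, hM]
      rw [← ENNReal.ofReal_mul hpos, ← ENNReal.ofReal_mul hpos, ← ENNReal.ofReal_mul hpos8,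
        ← ENNReal.ofReal_mul (by positivity), ← ENNReal.ofReal_add (by positivity) (by positivity),
        ← ENNReal.ofReal_add (by positivity) (by positivity),
        ← ENNReal.ofReal_add (by positivity) (by positivity)]
      apply ENNReal.ofReal_le_ofReal
      rw [inner_sub_left]
      exact key
    · simp only [hM, hG]
      rw [← ENNReal.ofReal_add hmm (by have := (abs_le.1 bm).1; linarith)]
      congr 1
      ring
  have hGle : ∀ᵐ x ∂(volume : Measure (EuclideanSpace ℝ (Fin d))), x ∈ K →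
      G x ≤ ENNReal.ofReal (2 * R) := by
    filter_upwards [h0] with x g0 hx
    have := (abs_le.1 (abs_inner_le_of (g0 hx).1 he)).2
    apply ENNReal.ofReal_le_ofReal
    simp only [hτ]; linarith
  have hFle : ∀ᵐ x ∂(volume : Measure (EuclideanSpace ℝ (Fin d))), x ∈ K →
      F x ≤ ENNReal.ofReal (4 * R ^ 2) := by
    filter_upwards [h0, h1] with x g0 g1 hx
    have a0 := abs_le.1 (abs_inner_le_of (g0 hx).1 he)
    have a1 := abs_le.1 (abs_inner_le_of (g1 hx).1 he)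
    apply ENNReal.ofReal_le_ofReal
    rw [inner_sub_left]
    have : |⟪T1 x, e⟫_ℝ - ⟪T0 x, e⟫_ℝ| ≤ 2 * R := by
      rw [abs_le]; constructor <;> linarith [a0.1, a0.2, a1.1, a1.2]
    calc (⟪T1 x, e⟫_ℝ - ⟪T0 x, e⟫_ℝ) ^ 2 = |⟪T1 x, e⟫_ℝ - ⟪T0 x, e⟫_ℝ| ^ 2 := (sq_abs _).symm
      _ ≤ (2 * R) ^ 2 := pow_le_pow_left₀ (abs_nonneg _) this 2
      _ = 4 * R ^ 2 := by ring
  have hKm : MeasurableSet K := hKc.measurableSet
  -- the `M` integral
  have J4 : ∫⁻ x in Kl, M x ≤ ENNReal.ofReal (2 * R) * (ENNReal.ofReal (d * l) * volume K) := by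
    set Sm := (fun x => x + -v) '' Kl with hSm
    have hSmK : Sm ⊆ K := by
      rintro _ ⟨y, hy, rfl⟩; exact hm y hy
    have hSmm : MeasurableSet Sm := (measurableEmbedding_addRight (-v)).measurableSet_image.2 hKlm
    have a1 : (∫⁻ x in Kl, M x) + (∫⁻ x in Kl, G (x + -v)) = ∫⁻ x in Kl, G (x + v) := by
      rw [← lintegral_add_left hMm]
      apply lintegral_congr_ae
      exact (ae_restrict_iff' hKlm).2 (hpt.mono fun x hx hxK => (hx hxK).2)
    have a2 : ∫⁻ x in Kl, G (x + v) ≤ ∫⁻ x in K, G x := setLIntegral_shift_le v hp G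
    have a3 : ∫⁻ x in Kl, G (x + -v) = ∫⁻ x in Sm, G x :=
      (measurePreserving_add_right volume (-v)).setLIntegral_comp_emb
        (measurableEmbedding_addRight (-v)) G Kl
    have a4 : ∫⁻ x in K, G x = (∫⁻ x in Sm, G x) + ∫⁻ x in K \ Sm, G x := by
      rw [← lintegral_inter_add_sdiff G K hSmm, inter_eq_right.2 hSmK]
    have a5 : ∫⁻ x in K \ Sm, G x ≤ ENNReal.ofReal (2 * R) * volume (K \ Sm) := by
      calc ∫⁻ x in K \ Sm, G x ≤ ∫⁻ _ in K \ Sm, ENNReal.ofReal (2 * R) := by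
            apply lintegral_mono_ae
            exact (ae_restrict_iff' (hKm.diff hSmm)).2 (hGle.mono fun x hx hxK => hx hxK.1)
        _ = _ := by rw [setLIntegral_const]
    have a6 : volume (K \ Sm) ≤ ENNReal.ofReal (d * l) * volume K :=
      volume_diff_le hSmK hSmm hKfin hl0 hl1
        (by rw [hSm, volume_image_add_right, volume_shrink _ _ hl1])
    have a7 : ∫⁻ x in Sm, G x ≠ ∞ := by
      apply ne_top_of_le_ne_top (b := ENNReal.ofReal (2 * R) * volume Sm)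
      · exact ENNReal.mul_ne_top ENNReal.ofReal_ne_top
          (ne_top_of_le_ne_top hKfin (measure_mono hSmK))
      · calc ∫⁻ x in Sm, G x ≤ ∫⁻ _ in Sm, ENNReal.ofReal (2 * R) := by
              apply lintegral_mono_ae
              exact (ae_restrict_iff' hSmm).2 (hGle.mono fun x hx hxK => hx (hSmK hxK))
          _ = _ := by rw [setLIntegral_const]
    have a8 : (∫⁻ x in Kl, M x) + (∫⁻ x in Sm, G x) ≤
        ENNReal.ofReal (2 * R) * (ENNReal.ofReal (d * l) * volume K) + ∫⁻ x in Sm, G x := by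
      rw [← a3, a1]
      refine a2.trans ?_
      rw [a4, a3, add_comm]
      gcongr
      exact a5.trans (by gcongr)
    exact (ENNReal.add_le_add_iff_right a7).1 a8
  have J1 : ∫⁻ x in Kl, U (x + v) ≤ ∫⁻ x in K, U x := setLIntegral_shift_le v hp U
  have J2 : ∫⁻ x in Kl, U (x + -v) ≤ ∫⁻ x in K, U x := setLIntegral_shift_le (-v) hm U
  have J3 : ∫⁻ x in Kl, U x ≤ ∫⁻ x in K, U x := lintegral_mono_set hz
  have I1 : ∫⁻ x in Kl, F x ≤ ENNReal.ofReal (4 / r ^ 2) * (∫⁻ x in Kl, U (x + v))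
      + ENNReal.ofReal (4 / r ^ 2) * (∫⁻ x in Kl, U (x + -v))
      + ENNReal.ofReal (8 / r ^ 2) * (∫⁻ x in Kl, U x)
      + ENNReal.ofReal (4 * R) * (∫⁻ x in Kl, M x) := by
    have hUp : Measurable fun x => U (x + v) := hUm.comp (measurable_add_const v)
    have hUmm : Measurable fun x => U (x + -v) := hUm.comp (measurable_add_const (-v))
    calc ∫⁻ x in Kl, F x ≤ ∫⁻ x in Kl, (ENNReal.ofReal (4 / r ^ 2) * U (x + v)
          + ENNReal.ofReal (4 / r ^ 2) * U (x + -v)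
          + ENNReal.ofReal (8 / r ^ 2) * U x + ENNReal.ofReal (4 * R) * M x) := by
          apply lintegral_mono_ae
          exact (ae_restrict_iff' hKlm).2 (hpt.mono fun x hx hxK => (hx hxK).1)
      _ = _ := by
          rw [lintegral_add_right _ (hMm.const_mul _), lintegral_add_right _ (hUm.const_mul _),
            lintegral_add_right _ (hUmm.const_mul _), lintegral_const_mul _ hMm,
            lintegral_const_mul _ hUm, lintegral_const_mul _ hUmm, lintegral_const_mul _ hUp]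
  have I2 : ∫⁻ x in K \ Kl, F x ≤ ENNReal.ofReal (4 * R ^ 2) * (ENNReal.ofReal (d * l) * volume K) := by
    calc ∫⁻ x in K \ Kl, F x ≤ ∫⁻ _ in K \ Kl, ENNReal.ofReal (4 * R ^ 2) := by
          apply lintegral_mono_ae
          exact (ae_restrict_iff' (hKm.diff hKlm)).2 (hFle.mono fun x hx hxK => hx hxK.1)
      _ = ENNReal.ofReal (4 * R ^ 2) * volume (K \ Kl) := by rw [setLIntegral_const]
      _ ≤ _ := by
          gcongr
          exact volume_diff_le hz hKlm hKfin hl0 hl1 (volume_shrink _ _ hl1)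
  rw [← lintegral_inter_add_sdiff F K hKlm, inter_eq_right.2 hz]
  set IU := ∫⁻ x in K, U x with hIU
  calc (∫⁻ x in Kl, F x) + (∫⁻ x in K \ Kl, F x)
      ≤ (ENNReal.ofReal (4 / r ^ 2) * IU + ENNReal.ofReal (4 / r ^ 2) * IU
        + ENNReal.ofReal (8 / r ^ 2) * IU
        + ENNReal.ofReal (4 * R) * (ENNReal.ofReal (2 * R) * (ENNReal.ofReal (d * l) * volume K)))
        + ENNReal.ofReal (4 * R ^ 2) * (ENNReal.ofReal (d * l) * volume K) := by
        refine add_le_add (I1.trans ?_) I2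
        gcongr
    _ = ENNReal.ofReal (16 / r ^ 2) * IU + ENNReal.ofReal (12 * R ^ 2 * d * l) * volume K := by
        have hpos : (0:ℝ) ≤ 4 / r ^ 2 := by positivity
        have hpos8 : (0:ℝ) ≤ 8 / r ^ 2 := by positivity
        have c1 : ENNReal.ofReal (16 / r ^ 2) = ENNReal.ofReal (4 / r ^ 2) + ENNReal.ofReal (4 / r ^ 2)
            + ENNReal.ofReal (8 / r ^ 2) := by
          rw [← ENNReal.ofReal_add hpos hpos, ← ENNReal.ofReal_add (by positivity) hpos8]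
          congr 1; ring
        have c2 : ENNReal.ofReal (12 * R ^ 2 * d * l) =
            ENNReal.ofReal (4 * R) * (ENNReal.ofReal (2 * R) * ENNReal.ofReal (d * l))
            + ENNReal.ofReal (4 * R ^ 2) * ENNReal.ofReal (d * l) := by
          rw [← ENNReal.ofReal_mul (by positivity), ← ENNReal.ofReal_mul (by positivity),
            ← ENNReal.ofReal_mul (by positivity), ← ENNReal.ofReal_add (by positivity) (by positivity)]
          congr 1; ring
        rw [c1, c2]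
        ring

lemma enorm_sq_eq_sum (w : EuclideanSpace ℝ (Fin d)) :
    ‖w‖ₑ ^ 2 = ∑ j : Fin d, ENNReal.ofReal (⟪w, EuclideanSpace.single j (1:ℝ)⟫_ℝ ^ 2) := by
  rw [← ENNReal.ofReal_sum_of_nonneg (fun j _ => sq_nonneg _), ← ofReal_norm,
    ← ENNReal.ofReal_pow (norm_nonneg _), EuclideanSpace.norm_sq_eq]
  congr 1
  apply Finset.sum_congr rfl
  intro j _
  simp [EuclideanSpace.inner_single_right]

lemma total_bound (K : Set (EuclideanSpace ℝ (Fin d))) (hKc : IsCompact K) (hKv : Convex ℝ K)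
    (x0 : EuclideanSpace ℝ (Fin d)) (r0 : ℝ) (hball : Metric.closedBall x0 r0 ⊆ K)
    (R : ℝ) (hR : 0 ≤ R)
    (φ0 φ1 : EuclideanSpace ℝ (Fin d) → ℝ) (hφ0 : Measurable φ0) (hφ1 : Measurable φ1)
    (T0 T1 : EuclideanSpace ℝ (Fin d) → EuclideanSpace ℝ (Fin d))
    (hT0 : Measurable T0) (hT1 : Measurable T1)
    (h0 : ∀ᵐ x ∂(volume : Measure (EuclideanSpace ℝ (Fin d))), x ∈ K →
      ‖T0 x‖ ≤ R ∧ ∀ z ∈ K, φ0 x + ⟪T0 x, z - x⟫_ℝ ≤ φ0 z)
    (h1 : ∀ᵐ x ∂(volume : Measure (EuclideanSpace ℝ (Fin d))), x ∈ K →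
      ‖T1 x‖ ≤ R ∧ ∀ z ∈ K, φ1 x + ⟪T1 x, z - x⟫_ℝ ≤ φ1 z)
    (c : ℝ) (r : ℝ) (hr : 0 < r) (hrr : r ≤ r0) :
    ∫⁻ x in K, ‖T1 x - T0 x‖ₑ ^ 2 ≤
      (d : ℝ≥0∞) * (ENNReal.ofReal (16 / r ^ 2) * (∫⁻ x in K, ‖φ1 x - φ0 x - c‖ₑ ^ 2)
      + ENNReal.ofReal (12 * R ^ 2 * d * (r / r0)) * volume K) := by
  have hU : ∀ x, ‖φ1 x - φ0 x - c‖ₑ ^ 2 = ENNReal.ofReal ((φ1 x - φ0 x - c) ^ 2) := by
    intro x
    rw [← ofReal_norm, ← ENNReal.ofReal_pow (norm_nonneg _), Real.norm_eq_abs, sq_abs]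
  simp_rw [hU, enorm_sq_eq_sum]
  rw [lintegral_finsetSum]
  · calc ∑ j : Fin d, ∫⁻ x in K, ENNReal.ofReal (⟪T1 x - T0 x, EuclideanSpace.single j (1:ℝ)⟫_ℝ ^ 2)
        ≤ ∑ _j : Fin d, (ENNReal.ofReal (16 / r ^ 2) *
            (∫⁻ x in K, ENNReal.ofReal ((φ1 x - φ0 x - c) ^ 2))
            + ENNReal.ofReal (12 * R ^ 2 * d * (r / r0)) * volume K) := by
          apply Finset.sum_le_sum
          intro j _
          exact dir_bound K hKc hKv x0 r0 hball R hR φ0 φ1 hφ0 hφ1 T0 T1 hT0 h0 h1 c _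
            (by simp) r hr hrr
      _ = _ := by simp [mul_add]
  · intro j _
    apply ENNReal.measurable_ofReal.comp
    exact ((hT1.sub hT0).inner_const).pow_const 2

lemma le_zero_of_forall_le_mul {a C : ℝ} (hC : 0 ≤ C)
    (h : ∀ q : ℝ, 0 < q → q ≤ 1 → a ≤ C * q) : a ≤ 0 := by
  by_contra ha
  rw [not_le] at ha
  have hq : 0 < min 1 (a / (2 * (C + 1))) := lt_min one_pos (by positivity)
  have h1 := h _ hq (min_le_left _ _)
  have h2 : C * min 1 (a / (2 * (C + 1))) ≤ C * (a / (2 * (C + 1))) :=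
    mul_le_mul_of_nonneg_left (min_le_right _ _) hC
  have h3 : C * (a / (2 * (C + 1))) ≤ a / 2 := by
    rw [mul_div_assoc', div_le_div_iff₀ (by positivity) (by positivity)]
    nlinarith
  linarith

lemma trivial_bound (K : Set (EuclideanSpace ℝ (Fin d))) (hKm : MeasurableSet K)
    (R : ℝ) (T0 T1 : EuclideanSpace ℝ (Fin d) → EuclideanSpace ℝ (Fin d))
    (h0 : ∀ᵐ x ∂(volume : Measure (EuclideanSpace ℝ (Fin d))), x ∈ K → ‖T0 x‖ ≤ R)
    (h1 : ∀ᵐ x ∂(volume : Measure (EuclideanSpace ℝ (Fin d))), x ∈ K → ‖T1 x‖ ≤ R) :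
    ∫⁻ x in K, ‖T1 x - T0 x‖ₑ ^ 2 ≤ ENNReal.ofReal (4 * R ^ 2) * volume K := by
  calc ∫⁻ x in K, ‖T1 x - T0 x‖ₑ ^ 2 ≤ ∫⁻ _ in K, ENNReal.ofReal (4 * R ^ 2) := by
        apply lintegral_mono_ae
        refine (ae_restrict_iff' hKm).2 ?_
        filter_upwards [h0, h1] with x g0 g1 hx
        rw [← ofReal_norm, ← ENNReal.ofReal_pow (norm_nonneg _)]
        apply ENNReal.ofReal_le_ofReal
        have : ‖T1 x - T0 x‖ ≤ 2 * R := by
          calc ‖T1 x - T0 x‖ ≤ ‖T1 x‖ + ‖T0 x‖ := norm_sub_le _ _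
            _ ≤ 2 * R := by linarith [g0 hx, g1 hx]
        calc ‖T1 x - T0 x‖ ^ 2 ≤ (2 * R) ^ 2 := pow_le_pow_left₀ (norm_nonneg _) this 2
          _ = 4 * R ^ 2 := by ring
    _ = _ := by rw [setLIntegral_const]

/-- **L7, Gagliardo–Nirenberg type inequality.** -/
theorem gn_inequality (K : Set (EuclideanSpace ℝ (Fin d))) (hKc : IsCompact K) (hKv : Convex ℝ K)
    (x0 : EuclideanSpace ℝ (Fin d)) (r0 : ℝ) (hr0 : 0 < r0) (hball : Metric.closedBall x0 r0 ⊆ K)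
    (R : ℝ) (hR : 0 ≤ R)
    (φ0 φ1 : EuclideanSpace ℝ (Fin d) → ℝ) (hφ0 : Measurable φ0) (hφ1 : Measurable φ1)
    (T0 T1 : EuclideanSpace ℝ (Fin d) → EuclideanSpace ℝ (Fin d))
    (hT0 : Measurable T0) (hT1 : Measurable T1)
    (h0 : ∀ᵐ x ∂(volume : Measure (EuclideanSpace ℝ (Fin d))), x ∈ K →
      ‖T0 x‖ ≤ R ∧ ∀ z ∈ K, φ0 x + ⟪T0 x, z - x⟫_ℝ ≤ φ0 z)
    (h1 : ∀ᵐ x ∂(volume : Measure (EuclideanSpace ℝ (Fin d))), x ∈ K →
      ‖T1 x‖ ≤ R ∧ ∀ z ∈ K, φ1 x + ⟪T1 x, z - x⟫_ℝ ≤ φ1 z)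
    (c : ℝ) :
    ∫⁻ x, ‖T1 x - T0 x‖ₑ ^ 2 ∂(uniformProbOn K) ≤
      ENNReal.ofReal (4 * R ^ 2 + 16 * d / r0 ^ 2 + 12 * R ^ 2 * d ^ 2) *
        (∫⁻ x, ‖φ1 x - φ0 x - c‖ₑ ^ 2 ∂(uniformProbOn K)) ^ (1 / 3 : ℝ) := by
  have hKfin : volume K ≠ ∞ := hKc.measure_lt_top.ne
  have hKpos : volume K ≠ 0 := by
    have : 0 < volume (Metric.closedBall x0 r0) := Metric.measure_closedBall_pos volume x0 hr0
    exact (lt_of_lt_of_le this (measure_mono hball)).ne'
  unfold uniformProbOn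
  rw [lintegral_smul_measure, lintegral_smul_measure, smul_eq_mul, smul_eq_mul]
  set A := (volume K)⁻¹ * ∫⁻ x in K, ‖T1 x - T0 x‖ₑ ^ 2 with hA
  set V := (volume K)⁻¹ * ∫⁻ x in K, ‖φ1 x - φ0 x - c‖ₑ ^ 2 with hV
  have hinv : (volume K)⁻¹ * volume K = 1 := ENNReal.inv_mul_cancel hKpos hKfin
  -- trivial bound
  have hA1 : A ≤ ENNReal.ofReal (4 * R ^ 2) := by
    have := trivial_bound K hKc.measurableSet R T0 T1 (h0.mono fun x hx hxK => (hx hxK).1)
      (h1.mono fun x hx hxK => (hx hxK).1)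
    calc A ≤ (volume K)⁻¹ * (ENNReal.ofReal (4 * R ^ 2) * volume K) := by rw [hA]; gcongr
      _ = ENNReal.ofReal (4 * R ^ 2) := by
          rw [mul_comm (ENNReal.ofReal _), ← mul_assoc, hinv, one_mul]
  -- main bound
  have hA2 : ∀ r : ℝ, 0 < r → r ≤ r0 → A ≤ (d : ℝ≥0∞) * (ENNReal.ofReal (16 / r ^ 2) * V
      + ENNReal.ofReal (12 * R ^ 2 * d * (r / r0))) := by
    intro r hr hrr
    have := total_bound K hKc hKv x0 r0 hball R hR φ0 φ1 hφ0 hφ1 T0 T1 hT0 hT1 h0 h1 c r hr hrr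
    calc A ≤ (volume K)⁻¹ * ((d : ℝ≥0∞) * (ENNReal.ofReal (16 / r ^ 2) *
          (∫⁻ x in K, ‖φ1 x - φ0 x - c‖ₑ ^ 2)
          + ENNReal.ofReal (12 * R ^ 2 * d * (r / r0)) * volume K)) := by rw [hA]; gcongr
      _ = (d : ℝ≥0∞) * (ENNReal.ofReal (16 / r ^ 2) * V
          + ENNReal.ofReal (12 * R ^ 2 * d * (r / r0)) * ((volume K)⁻¹ * volume K)) := by
          rw [hV]; ring
      _ = _ := by rw [hinv, mul_one]
  set C' : ℝ := 16 * d / r0 ^ 2 + 12 * R ^ 2 * d ^ 2 with hC'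
  have hC'0 : 0 ≤ C' := by positivity
  -- consequence: for `q ∈ (0,1]` with `V ≤ q^3`
  have hA3 : ∀ q : ℝ, 0 < q → q ≤ 1 → V ≤ ENNReal.ofReal (q ^ 3) → A ≤ ENNReal.ofReal (C' * q) := by
    intro q hq hq1 hVq
    have hr : 0 < r0 * q := by positivity
    have hrr : r0 * q ≤ r0 := by nlinarith
    refine (hA2 (r0 * q) hr hrr).trans ?_
    calc (d : ℝ≥0∞) * (ENNReal.ofReal (16 / (r0 * q) ^ 2) * V
          + ENNReal.ofReal (12 * R ^ 2 * d * (r0 * q / r0)))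
        ≤ (d : ℝ≥0∞) * (ENNReal.ofReal (16 / (r0 * q) ^ 2) * ENNReal.ofReal (q ^ 3)
          + ENNReal.ofReal (12 * R ^ 2 * d * (r0 * q / r0))) := by gcongr
      _ = ENNReal.ofReal (C' * q) := by
          rw [← ENNReal.ofReal_mul (by positivity), ← ENNReal.ofReal_add (by positivity)
            (by positivity), ← ENNReal.ofReal_natCast, ← ENNReal.ofReal_mul (by positivity)]
          congr 1
          rw [hC']
          field_simp
  have hCC : 4 * R ^ 2 + 16 * d / r0 ^ 2 + 12 * R ^ 2 * d ^ 2 = 4 * R ^ 2 + C' := by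
    rw [hC']; ring
  rw [hCC]
  rcases le_or_gt 1 V with hV1 | hV1
  · -- large `V`
    have : (1 : ℝ≥0∞) ≤ V ^ (1 / 3 : ℝ) := ENNReal.one_le_rpow hV1 (by norm_num)
    calc A ≤ ENNReal.ofReal (4 * R ^ 2) := hA1
      _ ≤ ENNReal.ofReal (4 * R ^ 2 + C') * 1 := by
          rw [mul_one]; exact ENNReal.ofReal_le_ofReal (by linarith)
      _ ≤ _ := by gcongr
  · have hVfin : V ≠ ∞ := (lt_trans hV1 ENNReal.one_lt_top).ne
    set s := V.toReal with hs
    have hVs : V = ENNReal.ofReal s := (ENNReal.ofReal_toReal hVfin).symm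
    have hs0 : 0 ≤ s := ENNReal.toReal_nonneg
    have hs1 : s < 1 := by
      have := (ENNReal.toReal_lt_toReal hVfin ENNReal.one_ne_top).2 hV1
      simpa using this
    rcases hs0.eq_or_lt with hs00 | hspos
    · -- `V = 0`
      have hV0 : V = 0 := by rw [hVs, ← hs00]; simp
      have hAfin : A ≠ ∞ := ne_top_of_le_ne_top ENNReal.ofReal_ne_top hA1
      have : A.toReal ≤ 0 := by
        apply le_zero_of_forall_le_mul hC'0
        intro q hq hq1
        have := hA3 q hq hq1 (by rw [hV0]; exact zero_le)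
        exact ENNReal.toReal_le_of_le_ofReal (by positivity) this
      have hA0 : A = 0 := by
        have h' : A.toReal = 0 := le_antisymm this ENNReal.toReal_nonneg
        rcases (ENNReal.toReal_eq_zero_iff A).1 h' with h | h
        · exact h
        · exact absurd h hAfin
      rw [hA0]; exact zero_le
    · set q := s ^ (1 / 3 : ℝ) with hq
      have hqpos : 0 < q := Real.rpow_pos_of_pos hspos _
      have hq1 : q ≤ 1 := Real.rpow_le_one hs0 hs1.le (by norm_num)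
      have hq3 : q ^ 3 = s := by
        rw [hq, ← Real.rpow_natCast, ← Real.rpow_mul hs0]; norm_num
      have hVq : V ^ (1 / 3 : ℝ) = ENNReal.ofReal q := by
        rw [hVs, ENNReal.ofReal_rpow_of_pos hspos]
      calc A ≤ ENNReal.ofReal (C' * q) := hA3 q hqpos hq1 (by rw [hq3, hVs])
        _ ≤ ENNReal.ofReal ((4 * R ^ 2 + C') * q) := by
            apply ENNReal.ofReal_le_ofReal
            have : 0 ≤ 4 * R ^ 2 * q := by positivity
            nlinarith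
        _ = _ := by rw [hVq, ENNReal.ofReal_mul (by positivity)]

end Crest.Agent.S0109GN
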