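import Mathlib
import Crest.Prelude.Def_QuadraticTransport

/-!
# ROW 82 / S0109, package L8, part a: Brenier pairs and a.e. uniqueness of Monge-optimal maps
-/

set_option autoImplicit false
open MeasureTheory Filter Topology Set
open scoped ENNReal NNReal InnerProductSpace
open Crest.AnalysisR.OT

namespace Crest.Agent.S0109L8

variable {d : ℕ}

/-- `(φ, S)` is a Brenier pair for the target `μ` (source: uniform measure on `K`). -/
structure IsBrenierPair (K : Set (EuclideanSpace ℝ (Fin d))) (μ : Measure (EuclideanSpace ℝ (Fin d)))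
    (L : ℝ≥0) (φ : EuclideanSpace ℝ (Fin d) → ℝ)
    (S : EuclideanSpace ℝ (Fin d) → EuclideanSpace ℝ (Fin d)) : Prop where
  lip : LipschitzWith L φ
  meas : Measurable S
  map : (uniformProbOn K).map S = μ
  subgrad : ∀ᵐ x ∂(uniformProbOn K), ∀ z ∈ K, φ x + ⟪S x, z - x⟫_ℝ ≤ φ z

section basics

variable {K : Set (EuclideanSpace ℝ (Fin d))}

lemma volume_pos_of_interior (hKi : (interior K).Nonempty) : 0 < volume K :=
  lt_of_lt_of_le (isOpen_interior.measure_pos volume hKi) (measure_mono interior_subset)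

lemma isProb_uniform (hKc : IsCompact K) (hKi : (interior K).Nonempty) :
    IsProbabilityMeasure (uniformProbOn K) := by
  constructor
  unfold uniformProbOn
  simp only [Measure.smul_apply, Measure.restrict_apply MeasurableSet.univ, univ_inter, smul_eq_mul]
  exact ENNReal.inv_mul_cancel (volume_pos_of_interior hKi).ne' hKc.measure_lt_top.ne

lemma uniform_absolutelyContinuous : uniformProbOn K ≪ (volume : Measure (EuclideanSpace ℝ (Fin d))) := by
  unfold uniformProbOn
  exact (Measure.AbsolutelyContinuous.smul_left Measure.restrict_le_self.absolutelyContinuous _)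

lemma ae_uniform_of_ae_volume {p : EuclideanSpace ℝ (Fin d) → Prop} (h : ∀ᵐ x, p x) :
    ∀ᵐ x ∂(uniformProbOn K), p x :=
  uniform_absolutelyContinuous.ae_le h

lemma ae_mem_uniform (hKc : IsCompact K) : ∀ᵐ x ∂(uniformProbOn K), x ∈ K := by
  unfold uniformProbOn
  apply Measure.ae_smul_measure
  exact ae_restrict_mem hKc.measurableSet

lemma ae_mem_interior_uniform (hKc : IsCompact K) (hKv : Convex ℝ K) :
    ∀ᵐ x ∂(uniformProbOn K), x ∈ interior K := by
  have h1 : ∀ᵐ x ∂(uniformProbOn K), x ∉ frontier K := by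
    apply ae_uniform_of_ae_volume
    rw [ae_iff]
    simpa using hKv.addHaar_frontier volume
  filter_upwards [h1, ae_mem_uniform hKc] with x hx1 hx2
  by_contra hx3
  exact hx1 ⟨subset_closure hx2, hx3⟩

end basics

/-- At an interior differentiability point, a subgradient (over `K`) represents the derivative. -/
lemma fderiv_eq_of_subgrad {K : Set (EuclideanSpace ℝ (Fin d))} {φ : EuclideanSpace ℝ (Fin d) → ℝ}
    {x τ : EuclideanSpace ℝ (Fin d)} (hx : x ∈ interior K) (hφ : DifferentiableAt ℝ φ x)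
    (hτ : ∀ z ∈ K, φ x + ⟪τ, z - x⟫_ℝ ≤ φ z) : fderiv ℝ φ x = innerSL ℝ τ := by
  have hmin : IsLocalMin (fun z => φ z - innerSL ℝ τ (z - x)) x := by
    have hK : K ∈ 𝓝 x := mem_interior_iff_mem_nhds.mp hx
    filter_upwards [hK] with z hz
    have := hτ z hz
    simp only [innerSL_apply_apply, sub_self, inner_zero_right, sub_zero]
    linarith
  have hd : HasFDerivAt (fun z => φ z - innerSL ℝ τ (z - x)) (fderiv ℝ φ x - innerSL ℝ τ) x := by
    apply hφ.hasFDerivAt.sub
    exact ((innerSL ℝ τ).hasFDerivAt).comp x ((hasFDerivAt_id x).sub_const x)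
  have := hmin.hasFDerivAt_eq_zero hd
  exact sub_eq_zero.mp this

/-- At an interior differentiability point, a subgradient (over `K`) is the gradient. -/
lemma subgrad_eq_gradient {K : Set (EuclideanSpace ℝ (Fin d))} {φ : EuclideanSpace ℝ (Fin d) → ℝ}
    {x τ : EuclideanSpace ℝ (Fin d)} (hx : x ∈ interior K) (hφ : DifferentiableAt ℝ φ x)
    (hτ : ∀ z ∈ K, φ x + ⟪τ, z - x⟫_ℝ ≤ φ z) :
    τ = (InnerProductSpace.toDual ℝ (EuclideanSpace ℝ (Fin d))).symm (fderiv ℝ φ x) := by
  apply ext_inner_right ℝ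
  intro v
  rw [InnerProductSpace.toDual_symm_apply, fderiv_eq_of_subgrad hx hφ hτ]
  simp

/-- At an interior differentiability point, subgradients (over `K`) are unique. -/
lemma subgrad_unique {K : Set (EuclideanSpace ℝ (Fin d))} {φ : EuclideanSpace ℝ (Fin d) → ℝ}
    {x τ₁ τ₂ : EuclideanSpace ℝ (Fin d)} (hx : x ∈ interior K) (hφ : DifferentiableAt ℝ φ x)
    (h₁ : ∀ z ∈ K, φ x + ⟪τ₁, z - x⟫_ℝ ≤ φ z) (h₂ : ∀ z ∈ K, φ x + ⟪τ₂, z - x⟫_ℝ ≤ φ z) :
    τ₁ = τ₂ :=
  (subgrad_eq_gradient hx hφ h₁).trans (subgrad_eq_gradient hx hφ h₂).symm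

lemma integrable_of_continuous_of_ae_mem {α : Type*} [TopologicalSpace α] [MeasurableSpace α]
    [OpensMeasurableSpace α] {μ : Measure α} [IsFiniteMeasure μ] {g : α → ℝ} (hg : Continuous g)
    {Kc : Set α} (hK : IsCompact Kc) (h : ∀ᵐ x ∂μ, x ∈ Kc) : Integrable g μ := by
  obtain ⟨C, hC⟩ := hK.exists_bound_of_continuousOn hg.continuousOn
  exact Integrable.of_bound hg.aestronglyMeasurable C (h.mono fun x hx => hC x hx)

lemma lintegral_enorm_sq_eq {α : Type*} [MeasurableSpace α] {μ : Measure α}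
    {f : α → EuclideanSpace ℝ (Fin d)} (hf : Integrable (fun x => ‖f x‖ ^ 2) μ) :
    ∫⁻ x, ‖f x‖ₑ ^ 2 ∂μ = ENNReal.ofReal (∫ x, ‖f x‖ ^ 2 ∂μ) := by
  rw [ofReal_integral_eq_lintegral_ofReal hf (Eventually.of_forall fun x => by positivity)]
  congr 1
  ext x
  rw [ENNReal.ofReal_pow (norm_nonneg _), ofReal_norm]

/-- If `μ` is carried by a ball, every map pushing `ρ` to `μ` takes values in the ball a.e. -/
lemma ae_mem_of_map {α : Type*} [MeasurableSpace α] {ρ : Measure α}
    {μ : Measure (EuclideanSpace ℝ (Fin d))} {Y : Set (EuclideanSpace ℝ (Fin d))}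
    (hμ : μ Yᶜ = 0) {T : α → EuclideanSpace ℝ (Fin d)} (hT : Measurable T) (hmap : ρ.map T = μ) :
    ∀ᵐ x ∂ρ, T x ∈ Y := by
  have : ∀ᵐ y ∂(ρ.map T), y ∈ Y := by
    rw [hmap, ae_iff]
    exact hμ
  exact ae_of_ae_map hT.aemeasurable this

/-- **Uniqueness**: a Monge-optimal map coincides a.e. with the map of any Brenier pair. -/
theorem optimal_ae_eq {K : Set (EuclideanSpace ℝ (Fin d))} (hKc : IsCompact K) (hKv : Convex ℝ K)
    (hKi : (interior K).Nonempty) {μ : Measure (EuclideanSpace ℝ (Fin d))} {R : ℝ}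
    (hμ : μ (Metric.closedBall 0 R)ᶜ = 0) {L : ℝ≥0} {φ : EuclideanSpace ℝ (Fin d) → ℝ}
    {S T : EuclideanSpace ℝ (Fin d) → EuclideanSpace ℝ (Fin d)} (hS : IsBrenierPair K μ L φ S)
    (hT : IsOptimalMap (uniformProbOn K) μ T) : T =ᵐ[uniformProbOn K] S := by
  have := isProb_uniform hKc hKi
  obtain ⟨hTm, hTmap, hTopt⟩ := hT
  have hcost := hTopt S hS.meas hS.map
  have : IsProbabilityMeasure μ := hTmap ▸ Measure.isProbabilityMeasure_map hTm.aemeasurable
  -- the conjugate potential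
  let ψ : EuclideanSpace ℝ (Fin d) → ℝ := fun y => sSup ((fun x => ⟪x, y⟫_ℝ - φ x) '' K)
  have hψc : Continuous ψ := by
    apply hKc.continuous_sSup (f := fun y x => ⟪x, y⟫_ℝ - φ x)
    have : Continuous fun p : EuclideanSpace ℝ (Fin d) × EuclideanSpace ℝ (Fin d) =>
        ⟪p.2, p.1⟫_ℝ - φ p.2 :=
      (continuous_snd.inner continuous_fst).sub (hS.lip.continuous.comp continuous_snd)
    exact this
  have hFY : ∀ x ∈ K, ∀ y, ⟪x, y⟫_ℝ - φ x ≤ ψ y := by
    intro x hx y
    apply le_csSup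
    · apply hKc.bddAbove_image
      exact ((continuous_id.inner continuous_const).sub hS.lip.continuous).continuousOn
    · exact ⟨x, hx, rfl⟩
  let h : EuclideanSpace ℝ (Fin d) → ℝ := fun y => ψ y - ‖y‖ ^ 2 / 2
  let k : EuclideanSpace ℝ (Fin d) → ℝ := fun x => φ x - ‖x‖ ^ 2 / 2
  have hhc : Continuous h := hψc.sub ((continuous_norm.pow 2).div_const 2)
  have hkc : Continuous k := hS.lip.continuous.sub ((continuous_norm.pow 2).div_const 2)
  have hid : ∀ x y : EuclideanSpace ℝ (Fin d),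
      k x + h y + ‖x - y‖ ^ 2 / 2 = φ x + ψ y - ⟪x, y⟫_ℝ := by
    intro x y
    simp only [h, k]
    rw [norm_sub_sq_real]
    ring
  have hμae : ∀ᵐ y ∂μ, y ∈ Metric.closedBall (0 : EuclideanSpace ℝ (Fin d)) R := by
    rw [ae_iff]; exact hμ
  have hhi : Integrable h μ :=
    integrable_of_continuous_of_ae_mem hhc (isCompact_closedBall _ _) hμae
  have hki : Integrable k (uniformProbOn K) :=
    integrable_of_continuous_of_ae_mem hkc hKc (ae_mem_uniform hKc)
  obtain ⟨D, hD⟩ := hKc.isBounded.subset_closedBall (0 : EuclideanSpace ℝ (Fin d))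
  -- facts valid for every transport map
  have gen : ∀ T' : EuclideanSpace ℝ (Fin d) → EuclideanSpace ℝ (Fin d), Measurable T' →
      (uniformProbOn K).map T' = μ →
      Integrable (fun x => h (T' x)) (uniformProbOn K) ∧
      ∫ x, h (T' x) ∂(uniformProbOn K) = ∫ y, h y ∂μ ∧
      Integrable (fun x => ‖x - T' x‖ ^ 2) (uniformProbOn K) := by
    intro T' hm hmap
    refine ⟨?_, ?_, ?_⟩
    · have := hhi
      rw [← hmap] at this
      exact (integrable_map_measure hhc.aestronglyMeasurable hm.aemeasurable).mp this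
    · rw [← hmap, integral_map hm.aemeasurable hhc.aestronglyMeasurable]
    · apply Integrable.of_bound
        ((measurable_id.sub hm).norm.pow_const 2).aestronglyMeasurable ((D + R) ^ 2)
      filter_upwards [ae_mem_uniform hKc, ae_mem_of_map hμ hm hmap] with x hx1 hx2
      have h1 : ‖x‖ ≤ D := by simpa using hD hx1
      have h2 : ‖T' x‖ ≤ R := by simpa using hx2
      have h3 : ‖x - T' x‖ ≤ D + R := (norm_sub_le _ _).trans (add_le_add h1 h2)
      rw [Real.norm_of_nonneg (by positivity)]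
      exact pow_le_pow_left₀ (norm_nonneg _) h3 2
  obtain ⟨hT1, hT2, hT3⟩ := gen T hTm hTmap
  obtain ⟨hS1, hS2, hS3⟩ := gen S hS.meas hS.map
  have hcost' : ∫ x, ‖x - T x‖ ^ 2 ∂(uniformProbOn K) ≤ ∫ x, ‖x - S x‖ ^ 2 ∂(uniformProbOn K) := by
    rw [lintegral_enorm_sq_eq hT3, lintegral_enorm_sq_eq hS3] at hcost
    exact (ENNReal.ofReal_le_ofReal_iff (integral_nonneg fun x => by positivity)).mp hcost
  -- the Fenchel-Young gaps
  let a : EuclideanSpace ℝ (Fin d) → ℝ := fun x => k x + h (T x) + ‖x - T x‖ ^ 2 / 2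
  let b : EuclideanSpace ℝ (Fin d) → ℝ := fun x => k x + h (S x) + ‖x - S x‖ ^ 2 / 2
  have hai : Integrable a (uniformProbOn K) := (hki.add hT1).add (hT3.div_const 2)
  have hbi : Integrable b (uniformProbOn K) := (hki.add hS1).add (hS3.div_const 2)
  have ha0 : 0 ≤ᵐ[uniformProbOn K] a := by
    filter_upwards [ae_mem_uniform hKc] with x hx
    have := hFY x hx (T x)
    simp only [a, Pi.zero_apply]
    rw [hid]
    linarith
  have hb0 : b =ᵐ[uniformProbOn K] 0 := by
    filter_upwards [ae_mem_uniform hKc, hS.subgrad] with x hx hsub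
    simp only [b, Pi.zero_apply]
    rw [hid]
    have h1 := hFY x hx (S x)
    have h2 : ψ (S x) ≤ ⟪x, S x⟫_ℝ - φ x := by
      apply csSup_le (Set.Nonempty.image _ ⟨x, hx⟩)
      rintro _ ⟨z, hz, rfl⟩
      have := hsub z hz
      rw [inner_sub_right, real_inner_comm z, real_inner_comm x] at this
      simp only
      linarith
    linarith
  have hIa : ∫ x, a x ∂(uniformProbOn K) ≤ ∫ x, b x ∂(uniformProbOn K) := by
    have split : ∀ T' : EuclideanSpace ℝ (Fin d) → EuclideanSpace ℝ (Fin d),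
        Integrable (fun x => h (T' x)) (uniformProbOn K) →
        Integrable (fun x => ‖x - T' x‖ ^ 2) (uniformProbOn K) →
        ∫ x, (k x + h (T' x) + ‖x - T' x‖ ^ 2 / 2) ∂(uniformProbOn K) =
          ∫ x, k x ∂(uniformProbOn K) + ∫ x, h (T' x) ∂(uniformProbOn K) +
            (∫ x, ‖x - T' x‖ ^ 2 ∂(uniformProbOn K)) / 2 := by
      intro T' h1 h3
      have e1 : ∫ x, (k x + h (T' x) + ‖x - T' x‖ ^ 2 / 2) ∂(uniformProbOn K) =
          ∫ x, (k x + h (T' x)) ∂(uniformProbOn K) +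
            ∫ x, ‖x - T' x‖ ^ 2 / 2 ∂(uniformProbOn K) :=
        integral_add (hki.add h1) (h3.div_const 2)
      rw [e1, integral_add hki h1, integral_div]
    simp only [a, b]
    rw [split T hT1 hT3, split S hS1 hS3, hT2, hS2]
    linarith
  have hIb : ∫ x, b x ∂(uniformProbOn K) = 0 := by
    rw [integral_congr_ae hb0]; simp
  have ha : a =ᵐ[uniformProbOn K] 0 := by
    rw [← integral_eq_zero_iff_of_nonneg_ae ha0 hai]
    exact le_antisymm (hIa.trans hIb.le) (integral_nonneg_of_ae ha0)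
  have hdiff : ∀ᵐ x ∂(uniformProbOn K), DifferentiableAt ℝ φ x :=
    ae_uniform_of_ae_volume hS.lip.ae_differentiableAt
  filter_upwards [ha, hdiff, ae_mem_interior_uniform hKc hKv, hS.subgrad] with x hax hdx hxi hsub
  apply subgrad_unique hxi hdx _ hsub
  intro z hz
  have h1 := hFY z hz (T x)
  simp only [a, Pi.zero_apply] at hax
  rw [hid] at hax
  rw [inner_sub_right, real_inner_comm z, real_inner_comm x]
  linarith

end Crest.Agent.S0109L8
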