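import Mathlib
import Crest.Prelude.Def_QuadraticTransport
import Crest.Agent.S0109_L8a

/-!
# ROW 82 / S0109, package L8, part b: limits of Brenier pairs
-/

set_option autoImplicit false
open MeasureTheory Filter Topology Set
open scoped ENNReal NNReal InnerProductSpace BoundedContinuousFunction
open Crest.AnalysisR.OT

namespace Crest.Agent.S0109L8

/-- Arzelà–Ascoli for normalised uniformly Lipschitz functions, pointwise form. -/
lemma exists_subseq_lipschitz {X : Type*} [PseudoMetricSpace X] {K : Set X} (hKc : IsCompact K)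
    {x0 : X} (hx0 : x0 ∈ K) {L : ℝ≥0} {φs : ℕ → X → ℝ} (hφ : ∀ n, LipschitzWith L (φs n)) :
    ∃ k : ℕ → ℕ, StrictMono k ∧ ∃ φ : X → ℝ, LipschitzWith L φ ∧
      ∀ x ∈ K, Tendsto (fun n => φs (k n) x - φs (k n) x0) atTop (𝓝 (φ x)) := by
  classical
  have : CompactSpace K := isCompact_iff_compactSpace.mp hKc
  let F : ℕ → (K →ᵇ ℝ) := fun n => BoundedContinuousFunction.mkOfCompact
    ⟨fun x : K => φs n x - φs n x0,
      ((hφ n).continuous.comp continuous_subtype_val).sub continuous_const⟩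
  let A : Set (K →ᵇ ℝ) := {f | LipschitzWith L f ∧ f ⟨x0, hx0⟩ = 0}
  have hFA : ∀ n, F n ∈ A := by
    intro n
    refine ⟨?_, ?_⟩
    · apply LipschitzWith.of_dist_le_mul
      intro x y
      have := (hφ n).dist_le_mul x y
      rw [Subtype.dist_eq]
      simpa [F, Real.dist_eq] using this
    · simp [F]
  obtain ⟨D, hD⟩ := hKc.isBounded.subset_closedBall x0
  have hcomp : IsCompact (closure A) := by
    apply BoundedContinuousFunction.arzela_ascoli (Icc (-(L * D)) (L * D)) isCompact_Icc A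
    · intro f x hf
      have h1 := hf.1.dist_le_mul x ⟨x0, hx0⟩
      rw [hf.2, Real.dist_eq, sub_zero] at h1
      have h2 : dist x (⟨x0, hx0⟩ : K) ≤ D := hD x.2
      rw [mem_Icc, ← abs_le]
      exact h1.trans (mul_le_mul_of_nonneg_left h2 L.coe_nonneg)
    · apply UniformEquicontinuous.equicontinuous
      apply LipschitzWith.uniformEquicontinuous _ L
      intro f
      exact f.2.1
  obtain ⟨f, -, k, hk, hlim⟩ := hcomp.tendsto_subseq (fun n => subset_closure (hFA n))
  have hpt : ∀ x : K, Tendsto (fun n => F (k n) x) atTop (𝓝 (f x)) := fun x =>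
    ((BoundedContinuousFunction.lipschitz_eval_const x).continuous.tendsto f).comp hlim
  have hfl : LipschitzWith L f := by
    apply LipschitzWith.of_dist_le_mul
    intro x y
    have := (hpt x).dist (hpt y)
    exact le_of_tendsto this (Eventually.of_forall fun n => (hFA (k n)).1.dist_le_mul x y)
  let g0 : X → ℝ := fun x => if h : x ∈ K then f ⟨x, h⟩ else 0
  have hg0 : LipschitzOnWith L g0 K := by
    apply LipschitzOnWith.of_dist_le_mul
    intro x hx y hy
    simp only [g0, dif_pos hx, dif_pos hy]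
    exact hfl.dist_le_mul ⟨x, hx⟩ ⟨y, hy⟩
  obtain ⟨φ, hφl, hφe⟩ := hg0.extend_real
  refine ⟨k, hk, φ, hφl, fun x hx => ?_⟩
  rw [← hφe hx]
  simp only [g0, dif_pos hx]
  exact hpt ⟨x, hx⟩

variable {d : ℕ}

/-- **Limits of Brenier pairs.** -/
theorem exists_limit_pair {K : Set (EuclideanSpace ℝ (Fin d))} (hKc : IsCompact K)
    (hKv : Convex ℝ K) (hKi : (interior K).Nonempty)
    {Y : Set (EuclideanSpace ℝ (Fin d))} (hYc : IsCompact Y) {L : ℝ≥0}
    {μs : ℕ → Measure (EuclideanSpace ℝ (Fin d))} {μ : Measure (EuclideanSpace ℝ (Fin d))}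
    [IsFiniteMeasure μ] (hμs : ∀ n, μs n Yᶜ = 0)
    (hw : ∀ g : EuclideanSpace ℝ (Fin d) →ᵇ ℝ,
      Tendsto (fun n => ∫ y, g y ∂(μs n)) atTop (𝓝 (∫ y, g y ∂μ)))
    {φs : ℕ → EuclideanSpace ℝ (Fin d) → ℝ}
    {Ss : ℕ → EuclideanSpace ℝ (Fin d) → EuclideanSpace ℝ (Fin d)}
    (hP : ∀ n, IsBrenierPair K (μs n) L (φs n) (Ss n)) :
    ∃ k : ℕ → ℕ, StrictMono k ∧ ∃ φ S, IsBrenierPair K μ L φ S ∧
      ∀ᵐ x ∂(uniformProbOn K), Tendsto (fun n => Ss (k n) x) atTop (𝓝 (S x)) := by
  have := isProb_uniform hKc hKi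
  obtain ⟨x0, hx0i⟩ := hKi
  have hx0 : x0 ∈ K := interior_subset hx0i
  obtain ⟨k, hk, φ, hφl, hφlim⟩ := exists_subseq_lipschitz hKc hx0 (fun n => (hP n).lip)
  let S : EuclideanSpace ℝ (Fin d) → EuclideanSpace ℝ (Fin d) := fun x =>
    (InnerProductSpace.toDual ℝ (EuclideanSpace ℝ (Fin d))).symm (fderiv ℝ φ x)
  have hSm : Measurable S :=
    (InnerProductSpace.toDual ℝ (EuclideanSpace ℝ (Fin d))).symm.continuous.measurable.comp
      (measurable_fderiv ℝ φ)
  -- cluster points are subgradients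
  have hclus : ∀ x ∈ K, (∀ n, ∀ z ∈ K, φs n x + ⟪Ss n x, z - x⟫_ℝ ≤ φs n z) →
      ∀ (j : ℕ → ℕ), Tendsto j atTop atTop → ∀ τ, Tendsto (fun m => Ss (k (j m)) x) atTop (𝓝 τ) →
      ∀ z ∈ K, φ x + ⟪τ, z - x⟫_ℝ ≤ φ z := by
    intro x hx hsub j hj τ hτ z hz
    have h1 : Tendsto (fun m => (φs (k (j m)) x - φs (k (j m)) x0) + ⟪Ss (k (j m)) x, z - x⟫_ℝ)
        atTop (𝓝 (φ x + ⟪τ, z - x⟫_ℝ)) :=
      ((hφlim x hx).comp hj).add (hτ.inner tendsto_const_nhds)
    have h2 : Tendsto (fun m => (φs (k (j m)) z - φs (k (j m)) x0)) atTop (𝓝 (φ z)) :=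
      (hφlim z hz).comp hj
    apply le_of_tendsto_of_tendsto' h1 h2
    intro m
    have := hsub (k (j m)) z hz
    linarith
  have hall : ∀ᵐ x ∂(uniformProbOn K), ∀ n, ∀ z ∈ K, φs n x + ⟪Ss n x, z - x⟫_ℝ ≤ φs n z :=
    ae_all_iff.mpr (fun n => (hP n).subgrad)
  have hallY : ∀ᵐ x ∂(uniformProbOn K), ∀ n, Ss n x ∈ Y :=
    ae_all_iff.mpr (fun n => ae_mem_of_map (hμs n) (hP n).meas (hP n).map)
  have hdiff : ∀ᵐ x ∂(uniformProbOn K), DifferentiableAt ℝ φ x :=
    ae_uniform_of_ae_volume hφl.ae_differentiableAt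
  have hconv : ∀ᵐ x ∂(uniformProbOn K), Tendsto (fun n => Ss (k n) x) atTop (𝓝 (S x)) := by
    filter_upwards [hall, hallY, hdiff, ae_mem_interior_uniform hKc hKv] with x h1 h2 h3 h4
    apply tendsto_of_subseq_tendsto
    intro ns hns
    obtain ⟨τ, -, ms, hms, hτ⟩ :=
      hYc.tendsto_subseq (x := fun m => Ss (k (ns m)) x) (fun m => h2 _)
    refine ⟨ms, ?_⟩
    have hsubτ := hclus x (interior_subset h4) h1 (ns ∘ ms) (hns.comp hms.tendsto_atTop) τ hτ
    have : τ = S x := subgrad_eq_gradient h4 h3 hsubτ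
    rw [← this]
    exact hτ
  refine ⟨k, hk, φ, S, ⟨hφl, hSm, ?_, ?_⟩, hconv⟩
  · -- the push-forward
    have : IsProbabilityMeasure ((uniformProbOn K).map S) :=
      Measure.isProbabilityMeasure_map hSm.aemeasurable
    apply ext_of_forall_integral_eq_of_IsFiniteMeasure
    intro g
    rw [integral_map hSm.aemeasurable g.continuous.aestronglyMeasurable]
    have t1 : Tendsto (fun n => ∫ x, g (Ss (k n) x) ∂(uniformProbOn K)) atTop
        (𝓝 (∫ x, g (S x) ∂(uniformProbOn K))) := by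
      apply tendsto_integral_of_dominated_convergence (fun _ => ‖g‖)
      · intro n
        exact (g.continuous.measurable.comp (hP (k n)).meas).aestronglyMeasurable
      · exact integrable_const _
      · intro n
        exact Eventually.of_forall fun x => g.norm_coe_le_norm _
      · filter_upwards [hconv] with x hx
        exact (g.continuous.tendsto _).comp hx
    have t2 : Tendsto (fun n => ∫ x, g (Ss (k n) x) ∂(uniformProbOn K)) atTop
        (𝓝 (∫ y, g y ∂μ)) := by
      have : ∀ n, ∫ x, g (Ss (k n) x) ∂(uniformProbOn K) = ∫ y, g y ∂(μs (k n)) := by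
        intro n
        rw [← (hP (k n)).map,
          integral_map (hP (k n)).meas.aemeasurable g.continuous.aestronglyMeasurable]
      simp_rw [this]
      exact (hw g).comp hk.tendsto_atTop
    exact tendsto_nhds_unique t1 t2
  · filter_upwards [hall, hconv, ae_mem_uniform hKc] with x h1 h2 h3
    exact hclus x h3 h1 id tendsto_id (S x) h2

end Crest.Agent.S0109L8
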