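import Mathlib
import Crest.Prelude.Def_QuadraticTransport
import Crest.Agent.S0109_L8a
import Crest.Agent.S0109_L8b

/-!
# ROW 82 / S0109, package L8, part c: discretisation and final assembly
-/

set_option autoImplicit false
open MeasureTheory Filter Topology Set
open scoped ENNReal NNReal InnerProductSpace BoundedContinuousFunction
open Crest.AnalysisR.OT

namespace Crest.Agent.S0109L8

variable {d : ℕ}

/-- The discrete theorem (output of L1–L7): finitely many labels `l` with weights `w l`,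
endpoints `p0 l`, `p1 l`. -/
def DiscreteThm (K : Set (EuclideanSpace ℝ (Fin d))) (R C : ℝ≥0) : Prop :=
  ∀ (Λ : Type) [Fintype Λ] (w : Λ → ℝ) (p0 p1 : Λ → EuclideanSpace ℝ (Fin d)),
    (∀ l, 0 < w l) → ∑ l, w l = 1 → (∀ l, ‖p0 l‖ ≤ R) → (∀ l, ‖p1 l‖ ≤ R) →
    ∃ (φ0 : EuclideanSpace ℝ (Fin d) → ℝ) (S0 : EuclideanSpace ℝ (Fin d) → EuclideanSpace ℝ (Fin d))
      (φ1 : EuclideanSpace ℝ (Fin d) → ℝ) (S1 : EuclideanSpace ℝ (Fin d) → EuclideanSpace ℝ (Fin d)),
      IsBrenierPair K (∑ l, ENNReal.ofReal (w l) • Measure.dirac (p0 l)) R φ0 S0 ∧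
      IsBrenierPair K (∑ l, ENNReal.ofReal (w l) • Measure.dirac (p1 l)) R φ1 S1 ∧
      ∫⁻ x, ‖S0 x - S1 x‖ₑ ^ 2 ∂(uniformProbOn K) ≤
        C * (ENNReal.ofReal (∑ l, w l * ‖p0 l - p1 l‖ ^ 2)) ^ (1 / 3 : ℝ)

section simple

variable {α β : Type*} [MeasurableSpace α]

open Classical in
/-- the finite set of values of positive mass -/
noncomputable def posRange (π : Measure α) (Q : SimpleFunc α β) : Finset β :=
  Q.range.filter (fun b => 0 < π (Q ⁻¹' {b}))

/-- master formula -/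
lemma lintegral_comp_simple (π : Measure α) [IsFiniteMeasure π] (Q : SimpleFunc α β)
    (g : β → ℝ≥0∞) :
    ∫⁻ a, g (Q a) ∂π = ∑ l : posRange π Q, g l * ENNReal.ofReal (π (Q ⁻¹' {(l : β)})).toReal := by
  classical
  have h1 : ∫⁻ a, g (Q a) ∂π = (Q.map g).lintegral π := by
    rw [← SimpleFunc.lintegral_eq_lintegral]
    rfl
  rw [h1, SimpleFunc.map_lintegral,
    Finset.sum_coe_sort (posRange π Q) (fun l => g l * ENNReal.ofReal (π (Q ⁻¹' {l})).toReal)]
  unfold posRange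
  rw [Finset.sum_filter_of_ne]
  · apply Finset.sum_congr rfl
    intro b _
    rw [ENNReal.ofReal_toReal (measure_ne_top _ _)]
  · intro b _ hb
    rw [ENNReal.ofReal_toReal (measure_ne_top _ _)] at hb
    exact pos_iff_ne_zero.mpr (right_ne_zero_of_mul hb)

lemma map_comp_simple (π : Measure α) [IsFiniteMeasure π] (Q : SimpleFunc α β)
    {γ : Type*} [MeasurableSpace γ] (r : β → γ) :
    π.map (fun a => r (Q a)) =
      ∑ l : posRange π Q, ENNReal.ofReal (π (Q ⁻¹' {(l : β)})).toReal • Measure.dirac (r l) := by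
  ext s hs
  have hm : Measurable (fun a => r (Q a)) := (Q.map r).measurable
  rw [Measure.map_apply hm hs]
  have h2 : π ((fun a => r (Q a)) ⁻¹' s) =
      ∫⁻ a, (fun b => s.indicator (1 : γ → ℝ≥0∞) (r b)) (Q a) ∂π := by
    rw [← lintegral_indicator_one (hm hs)]
    rfl
  rw [h2, lintegral_comp_simple π Q (fun b => s.indicator (1 : γ → ℝ≥0∞) (r b)),
    Measure.finsetSum_apply]
  apply Finset.sum_congr rfl
  intro l _
  rw [Measure.smul_apply, Measure.dirac_apply' _ hs, smul_eq_mul, mul_comm]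

end simple

lemma discrete_step {K : Set (EuclideanSpace ℝ (Fin d))} {R C : ℝ≥0} (hD : DiscreteThm K R C)
    {μ ν : Measure (EuclideanSpace ℝ (Fin d))}
    {π : Measure (EuclideanSpace ℝ (Fin d) × EuclideanSpace ℝ (Fin d))} [IsProbabilityMeasure π]
    (hπ : IsPairCoupling μ ν π)
    (q : SimpleFunc (EuclideanSpace ℝ (Fin d)) (EuclideanSpace ℝ (Fin d))) (hq : ∀ y, ‖q y‖ ≤ R) :
    ∃ (φ0 : EuclideanSpace ℝ (Fin d) → ℝ) (S0 : EuclideanSpace ℝ (Fin d) → EuclideanSpace ℝ (Fin d))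
      (φ1 : EuclideanSpace ℝ (Fin d) → ℝ) (S1 : EuclideanSpace ℝ (Fin d) → EuclideanSpace ℝ (Fin d)),
      IsBrenierPair K (μ.map q) R φ0 S0 ∧ IsBrenierPair K (ν.map q) R φ1 S1 ∧
      ∫⁻ x, ‖S0 x - S1 x‖ₑ ^ 2 ∂(uniformProbOn K) ≤
        C * (∫⁻ p, ‖q p.1 - q p.2‖ₑ ^ 2 ∂π) ^ (1 / 3 : ℝ) := by
  classical
  let Q : SimpleFunc (EuclideanSpace ℝ (Fin d) × EuclideanSpace ℝ (Fin d))
      (EuclideanSpace ℝ (Fin d) × EuclideanSpace ℝ (Fin d)) :=
    (q.comp Prod.fst measurable_fst).pair (q.comp Prod.snd measurable_snd)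
  have hQ : ∀ a, Q a = (q a.1, q a.2) := fun a => rfl
  let w : posRange π Q → ℝ := fun l => (π (Q ⁻¹' {l.1})).toReal
  have hw0 : ∀ l, 0 < w l := by
    intro l
    have := (Finset.mem_filter.mp l.2).2
    exact ENNReal.toReal_pos this.ne' (measure_ne_top _ _)
  have hw1 : ∑ l, w l = 1 := by
    have h := lintegral_comp_simple π Q (fun _ => 1)
    simp only [lintegral_const, measure_univ, one_mul] at h
    rw [← ENNReal.ofReal_sum_of_nonneg (fun l _ => ENNReal.toReal_nonneg)] at h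
    exact ENNReal.ofReal_eq_one.mp h.symm
  have hrange : ∀ l : posRange π Q,
      ∃ a : EuclideanSpace ℝ (Fin d) × EuclideanSpace ℝ (Fin d), l.1 = (q a.1, q a.2) := by
    intro l
    obtain ⟨a, ha⟩ := SimpleFunc.mem_range.mp (Finset.mem_filter.mp l.2).1
    exact ⟨a, by rw [← ha, hQ]⟩
  have hp0 : ∀ l : posRange π Q, ‖l.1.1‖ ≤ R := by
    intro l
    obtain ⟨a, ha⟩ := hrange l
    rw [ha]; exact hq _
  have hp1 : ∀ l : posRange π Q, ‖l.1.2‖ ≤ R := by
    intro l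
    obtain ⟨a, ha⟩ := hrange l
    rw [ha]; exact hq _
  obtain ⟨φ0, S0, φ1, S1, h0, h1, hc⟩ :=
    hD (posRange π Q) w (fun l => l.1.1) (fun l => l.1.2) hw0 hw1 hp0 hp1
  have e0 : μ.map q = ∑ l : posRange π Q, ENNReal.ofReal (w l) • Measure.dirac l.1.1 := by
    rw [← hπ.1, Measure.map_map q.measurable measurable_fst]
    exact map_comp_simple π Q Prod.fst
  have e1 : ν.map q = ∑ l : posRange π Q, ENNReal.ofReal (w l) • Measure.dirac l.1.2 := by
    rw [← hπ.2, Measure.map_map q.measurable measurable_snd]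
    exact map_comp_simple π Q Prod.snd
  have ec : ∫⁻ p, ‖q p.1 - q p.2‖ₑ ^ 2 ∂π =
      ENNReal.ofReal (∑ l : posRange π Q, w l * ‖l.1.1 - l.1.2‖ ^ 2) := by
    have h := lintegral_comp_simple π Q (fun b => ‖b.1 - b.2‖ₑ ^ 2)
    simp only [hQ] at h
    rw [h, ENNReal.ofReal_sum_of_nonneg (fun l _ => mul_nonneg (hw0 l).le (by positivity))]
    apply Finset.sum_congr rfl
    intro l _
    rw [ENNReal.ofReal_mul (hw0 l).le, ENNReal.ofReal_pow (norm_nonneg _), ofReal_norm, mul_comm]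
  refine ⟨φ0, S0, φ1, S1, ?_, ?_, ?_⟩
  · rw [e0]; exact h0
  · rw [e1]; exact h1
  · rw [ec]; exact hc

/-- **Final assembly**: the discrete theorem implies the inequality of S0109 for all measures. -/
theorem final_ineq {K : Set (EuclideanSpace ℝ (Fin d))} (hKc : IsCompact K) (hKv : Convex ℝ K)
    (hKi : (interior K).Nonempty) {Y : Set (EuclideanSpace ℝ (Fin d))} (hYc : IsCompact Y)
    (hYn : Y.Nonempty) {R C : ℝ≥0} (hYR : ∀ y ∈ Y, ‖y‖ ≤ R) (hD : DiscreteThm K R C)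
    (μ ν : Measure (EuclideanSpace ℝ (Fin d))) (hμ : IsProbabilityOn Y μ)
    (hν : IsProbabilityOn Y ν)
    (Tμ Tν : EuclideanSpace ℝ (Fin d) → EuclideanSpace ℝ (Fin d))
    (hTμ : IsOptimalMap (uniformProbOn K) μ Tμ) (hTν : IsOptimalMap (uniformProbOn K) ν Tν)
    (π : Measure (EuclideanSpace ℝ (Fin d) × EuclideanSpace ℝ (Fin d)))
    (hπ : IsPairCoupling μ ν π) :
    ∫⁻ x, ‖Tμ x - Tν x‖ₑ ^ 2 ∂(uniformProbOn K) ≤ C * quadCost π ^ (1 / 3 : ℝ) := by
  obtain ⟨y₀, hy₀⟩ := hYn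
  have hμp := hμ.1
  have hνp := hν.1
  have hπp : IsProbabilityMeasure π := by
    constructor
    have : π.map Prod.fst univ = 1 := by rw [hπ.1]; exact measure_univ
    rwa [Measure.map_apply measurable_fst MeasurableSet.univ, preimage_univ] at this
  let q : ℕ → SimpleFunc (EuclideanSpace ℝ (Fin d)) (EuclideanSpace ℝ (Fin d)) :=
    fun n => SimpleFunc.approxOn id measurable_id Y y₀ hy₀ n
  have hqY : ∀ n y, q n y ∈ Y := fun n y => SimpleFunc.approxOn_mem measurable_id hy₀ n y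
  have hqlim : ∀ y ∈ Y, Tendsto (fun n => q n y) atTop (𝓝 y) :=
    fun y hy => SimpleFunc.tendsto_approxOn measurable_id hy₀ (subset_closure hy)
  choose φ0 S0 φ1 S1 h0 h1 hc using
    fun n => discrete_step hD hπ (q n) (fun y => hYR _ (hqY n y))
  -- weak convergence of the discretised measures
  have weak : ∀ (m : Measure (EuclideanSpace ℝ (Fin d))) [IsProbabilityMeasure m], m Yᶜ = 0 →
      ∀ g : EuclideanSpace ℝ (Fin d) →ᵇ ℝ,
        Tendsto (fun n => ∫ y, g y ∂(m.map (q n))) atTop (𝓝 (∫ y, g y ∂m)) := by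
    intro m _ hm g
    have : ∀ n, ∫ y, g y ∂(m.map (q n)) = ∫ y, g (q n y) ∂m := fun n =>
      integral_map (q n).measurable.aemeasurable g.continuous.aestronglyMeasurable
    simp_rw [this]
    apply tendsto_integral_of_dominated_convergence (fun _ => ‖g‖)
    · intro n
      exact (g.continuous.measurable.comp (q n).measurable).aestronglyMeasurable
    · exact integrable_const _
    · intro n
      exact Eventually.of_forall fun x => g.norm_coe_le_norm _
    · have : ∀ᵐ y ∂m, y ∈ Y := by rw [ae_iff]; exact hm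
      filter_upwards [this] with y hy
      exact (g.continuous.tendsto _).comp (hqlim y hy)
  have supp : ∀ (m : Measure (EuclideanSpace ℝ (Fin d))) n, (m.map (q n)) Yᶜ = 0 := by
    intro m n
    rw [Measure.map_apply (q n).measurable hYc.measurableSet.compl]
    have : (q n) ⁻¹' Yᶜ = ∅ := by
      ext y
      simp [hqY n y]
    rw [this]
    simp
  have hball : ∀ m : Measure (EuclideanSpace ℝ (Fin d)), m Yᶜ = 0 →
      m (Metric.closedBall 0 (R : ℝ))ᶜ = 0 := by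
    intro m hm
    apply measure_mono_null _ hm
    intro y hy hyY
    exact hy (by simpa using hYR y hyY)
  obtain ⟨k1, hk1, φ, S, hP, hconv1⟩ :=
    exists_limit_pair hKc hKv hKi hYc (supp μ) (weak μ hμ.2) h0
  have e1 := optimal_ae_eq hKc hKv hKi (hball μ hμ.2) hP hTμ
  obtain ⟨k2, hk2, φ', S', hP', hconv2⟩ :=
    exists_limit_pair hKc hKv hKi hYc (fun n => supp ν (k1 n))
      (fun g => (weak ν hν.2 g).comp hk1.tendsto_atTop) (fun n => h1 (k1 n))
  have e2 := optimal_ae_eq hKc hKv hKi (hball ν hν.2) hP' hTν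
  let j : ℕ → ℕ := fun n => k1 (k2 n)
  have hj : Tendsto j atTop atTop := hk1.tendsto_atTop.comp hk2.tendsto_atTop
  have hlim : ∀ᵐ x ∂(uniformProbOn K),
      Tendsto (fun n => ‖S0 (j n) x - S1 (j n) x‖ₑ ^ 2) atTop (𝓝 (‖Tμ x - Tν x‖ₑ ^ 2)) := by
    filter_upwards [hconv1, hconv2, e1, e2] with x c1 c2 e1 e2
    rw [e1, e2]
    have := ((c1.comp hk2.tendsto_atTop).sub c2).enorm
    exact ((ENNReal.continuous_pow 2).tendsto _).comp this
  have hcost : Tendsto (fun n => ∫⁻ p, ‖q n p.1 - q n p.2‖ₑ ^ 2 ∂π) atTop (𝓝 (quadCost π)) := by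
    unfold quadCost
    apply tendsto_lintegral_of_dominated_convergence (fun _ => ((R : ℝ≥0∞) + R) ^ 2)
    · intro n
      exact (((q n).measurable.comp measurable_fst).sub
        ((q n).measurable.comp measurable_snd)).enorm.pow_const 2
    · intro n
      apply Eventually.of_forall
      intro p
      have hb : ∀ y, ‖q n y‖ₑ ≤ (R : ℝ≥0∞) := by
        intro y
        rw [← ofReal_norm, ← ENNReal.ofReal_coe_nnreal]
        exact ENNReal.ofReal_le_ofReal (hYR _ (hqY n y))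
      exact pow_le_pow_left' ((enorm_sub_le).trans (add_le_add (hb _) (hb _))) 2
    · simp only [lintegral_const, measure_univ, mul_one]
      exact ENNReal.pow_ne_top (ENNReal.add_ne_top.mpr ⟨ENNReal.coe_ne_top, ENNReal.coe_ne_top⟩)
    · have a1 : ∀ᵐ p ∂π, p.1 ∈ Y := ae_mem_of_map hμ.2 measurable_fst hπ.1
      have a2 : ∀ᵐ p ∂π, p.2 ∈ Y := ae_mem_of_map hν.2 measurable_snd hπ.2
      filter_upwards [a1, a2] with p h1 h2
      have := ((hqlim _ h1).sub (hqlim _ h2)).enorm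
      exact ((ENNReal.continuous_pow 2).tendsto _).comp this
  have hrhs : Tendsto (fun n => (C : ℝ≥0∞) * (∫⁻ p, ‖q (j n) p.1 - q (j n) p.2‖ₑ ^ 2 ∂π) ^ (1 / 3 : ℝ))
      atTop (𝓝 (C * quadCost π ^ (1 / 3 : ℝ))) := by
    apply ENNReal.Tendsto.const_mul _ (Or.inr ENNReal.coe_ne_top)
    exact ((ENNReal.continuous_rpow_const).tendsto _).comp (hcost.comp hj)
  calc ∫⁻ x, ‖Tμ x - Tν x‖ₑ ^ 2 ∂(uniformProbOn K)
      = ∫⁻ x, liminf (fun n => ‖S0 (j n) x - S1 (j n) x‖ₑ ^ 2) atTop ∂(uniformProbOn K) :=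
        lintegral_congr_ae (hlim.mono fun x hx => hx.liminf_eq.symm)
    _ ≤ liminf (fun n => ∫⁻ x, ‖S0 (j n) x - S1 (j n) x‖ₑ ^ 2 ∂(uniformProbOn K)) atTop :=
        lintegral_liminf_le (fun n => (((h0 (j n)).meas.sub (h1 (j n)).meas).enorm.pow_const 2))
    _ ≤ liminf (fun n => (C : ℝ≥0∞) * (∫⁻ p, ‖q (j n) p.1 - q (j n) p.2‖ₑ ^ 2 ∂π) ^ (1 / 3 : ℝ))
          atTop := liminf_le_liminf (Eventually.of_forall fun n => hc (j n))
    _ = C * quadCost π ^ (1 / 3 : ℝ) := hrhs.liminf_eq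

/-- S0109 from the discrete theorem. -/
theorem final (K : Set (EuclideanSpace ℝ (Fin d))) (hKc : IsCompact K) (hKv : Convex ℝ K)
    (hKi : (interior K).Nonempty) (Y : Set (EuclideanSpace ℝ (Fin d))) (hYc : IsCompact Y)
    (hYn : Y.Nonempty)
    (hD : ∀ R : ℝ≥0, ∃ C : ℝ≥0, DiscreteThm K R C) :
    ∃ C : ℝ≥0, ∀ μ ν : Measure (EuclideanSpace ℝ (Fin d)), IsProbabilityOn Y μ →
      IsProbabilityOn Y ν →
      ∀ Tμ Tν : EuclideanSpace ℝ (Fin d) → EuclideanSpace ℝ (Fin d),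
        IsOptimalMap (uniformProbOn K) μ Tμ → IsOptimalMap (uniformProbOn K) ν Tν →
        ∀ π : Measure (EuclideanSpace ℝ (Fin d) × EuclideanSpace ℝ (Fin d)),
          IsPairCoupling μ ν π →
          ∫⁻ x, ‖Tμ x - Tν x‖ₑ ^ 2 ∂(uniformProbOn K) ≤ C * quadCost π ^ (1 / 3 : ℝ) := by
  obtain ⟨R, hR⟩ := hYc.isBounded.subset_closedBall (0 : EuclideanSpace ℝ (Fin d))
  have hYR : ∀ y ∈ Y, ‖y‖ ≤ (R.toNNReal : ℝ) := by
    intro y hy
    have : ‖y‖ ≤ R := by simpa using hR hy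
    exact this.trans (Real.le_coe_toNNReal R)
  obtain ⟨C, hC⟩ := hD R.toNNReal
  exact ⟨C, fun μ ν hμ hν Tμ Tν hTμ hTν π hπ =>
    final_ineq hKc hKv hKi hYc hYn hYR hC μ ν hμ hν Tμ Tν hTμ hTν π hπ⟩

end Crest.Agent.S0109L8
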