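import Crest.Agent.S0109_FY

/-!
ROW 82 (S0109), L8 helper: the variance of a bounded pointwise convergent sequence converges,
and conversion between the Bochner and the `lintegral`/`enorm` forms of `∫ g²`.
-/

set_option autoImplicit false
open MeasureTheory Filter Topology
open scoped ENNReal NNReal InnerProductSpace
open Crest.AnalysisR.OT

namespace Crest.Agent.S0109FY

variable {d : ℕ}

/-- dominated convergence for the mean. -/
theorem mean_limit {K : Set (EuclideanSpace ℝ (Fin d))} (hKc : IsCompact K) (hvol : volume K ≠ 0)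
    (un : ℕ → EuclideanSpace ℝ (Fin d) → ℝ) (u : EuclideanSpace ℝ (Fin d) → ℝ) (B : ℝ)
    (hmeas : ∀ n, AEStronglyMeasurable (un n) (uniformProbOn K))
    (hb : ∀ n, ∀ x ∈ K, |un n x| ≤ B)
    (hconv : ∀ x ∈ K, Tendsto (fun n => un n x) atTop (𝓝 (u x))) :
    Tendsto (fun n => ∫ x, un n x ∂(uniformProbOn K)) atTop
      (𝓝 (∫ x, u x ∂(uniformProbOn K))) := by
  have := isProbabilityMeasure_uniformProbOn hKc hvol
  have hmemK : ∀ᵐ x ∂(uniformProbOn K), x ∈ K := ae_uniform_mem hKc.measurableSet
  apply tendsto_integral_of_dominated_convergence (fun _ => B) hmeas (integrable_const B)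
  · intro n
    filter_upwards [hmemK] with x hx
    rw [Real.norm_eq_abs]
    exact hb n x hx
  · filter_upwards [hmemK] with x hx using hconv x hx

/-- dominated convergence for the variance. -/
theorem var_limit {K : Set (EuclideanSpace ℝ (Fin d))} (hKc : IsCompact K) (hvol : volume K ≠ 0)
    (un : ℕ → EuclideanSpace ℝ (Fin d) → ℝ) (u : EuclideanSpace ℝ (Fin d) → ℝ) (B : ℝ)
    (hmeas : ∀ n, AEStronglyMeasurable (un n) (uniformProbOn K))
    (hb : ∀ n, ∀ x ∈ K, |un n x| ≤ B)
    (hconv : ∀ x ∈ K, Tendsto (fun n => un n x) atTop (𝓝 (u x))) :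
    Tendsto (fun n => ∫ x, (un n x - ∫ z, un n z ∂(uniformProbOn K)) ^ 2 ∂(uniformProbOn K)) atTop
      (𝓝 (∫ x, (u x - ∫ z, u z ∂(uniformProbOn K)) ^ 2 ∂(uniformProbOn K))) := by
  have := isProbabilityMeasure_uniformProbOn hKc hvol
  have hmemK : ∀ᵐ x ∂(uniformProbOn K), x ∈ K := ae_uniform_mem hKc.measurableSet
  have hmean := mean_limit hKc hvol un u B hmeas hb hconv
  have hmb : ∀ n, |∫ z, un n z ∂(uniformProbOn K)| ≤ B := by
    intro n
    have h1 : ‖∫ z, un n z ∂(uniformProbOn K)‖ ≤ B * (uniformProbOn K).real Set.univ := by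
      apply norm_integral_le_of_norm_le_const
      filter_upwards [hmemK] with x hx
      rw [Real.norm_eq_abs]
      exact hb n x hx
    simpa using h1
  apply tendsto_integral_of_dominated_convergence (fun _ => (2 * B) ^ 2) _
    (integrable_const _)
  · intro n
    filter_upwards [hmemK] with x hx
    rw [Real.norm_of_nonneg (by positivity), ← sq_abs]
    apply pow_le_pow_left₀ (abs_nonneg _)
    have h1 := abs_sub (un n x) (∫ z, un n z ∂(uniformProbOn K))
    have h2 := hb n x hx
    have h3 := hmb n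
    linarith
  · filter_upwards [hmemK] with x hx
    exact ((hconv x hx).sub hmean).pow 2
  · intro n
    exact ((hmeas n).sub aestronglyMeasurable_const).pow 2

/-- conversion of `∫ g²` into the `lintegral` form (bounded `g`). -/
theorem lintegral_enorm_sq_eq {K : Set (EuclideanSpace ℝ (Fin d))} (hKc : IsCompact K)
    (hvol : volume K ≠ 0) (g : EuclideanSpace ℝ (Fin d) → ℝ) (B : ℝ)
    (hmeas : AEStronglyMeasurable g (uniformProbOn K)) (hb : ∀ x ∈ K, |g x| ≤ B) :
    ∫⁻ x, ‖g x‖ₑ ^ 2 ∂(uniformProbOn K) = ENNReal.ofReal (∫ x, g x ^ 2 ∂(uniformProbOn K)) := by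
  have := isProbabilityMeasure_uniformProbOn hKc hvol
  have hmemK : ∀ᵐ x ∂(uniformProbOn K), x ∈ K := ae_uniform_mem hKc.measurableSet
  have hint : Integrable (fun x => g x ^ 2) (uniformProbOn K) := by
    have hm2 : AEStronglyMeasurable (fun x => g x ^ 2) (uniformProbOn K) := hmeas.pow 2
    apply Integrable.of_bound hm2 (B ^ 2)
    filter_upwards [hmemK] with x hx
    rw [Real.norm_of_nonneg (by positivity), ← sq_abs]
    exact pow_le_pow_left₀ (abs_nonneg _) (hb x hx) 2
  rw [ofReal_integral_eq_lintegral_ofReal hint (Eventually.of_forall fun x => by positivity)]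
  apply lintegral_congr
  intro x
  rw [← ofReal_norm, ← ENNReal.ofReal_pow (norm_nonneg _), Real.norm_eq_abs, sq_abs]

end Crest.Agent.S0109FY
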