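import Crest.Agent.S0109_Disc
import Crest.Agent.S0109_GN
import Crest.Agent.S0109_VarLim
import Crest.Agent.S0109_L8c

/-! # Row 82: the discrete theorem (L6 + L7) in the shape consumed by `S0109L8.final` -/

set_option autoImplicit false
open MeasureTheory
open scoped ENNReal NNReal RealInnerProductSpace
open Crest.AnalysisR.OT

namespace Crest.Agent.S0109D

variable {d : ℕ} [NeZero d] {K : Set (E d)}

omit [NeZero d] in
lemma Body.ae_vol_of_ae_rho (hK : Body K) {P : E d → Prop} (h : ∀ᵐ x ∂(uniformProbOn K), P x) :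
    ∀ᵐ x ∂(volume : Measure (E d)), x ∈ K → P x := by
  unfold uniformProbOn at h
  rw [Measure.ae_ennreal_smul_measure_iff (by simp [hK.vol_lt_top.ne])] at h
  exact (ae_restrict_iff' hK.measurableSet).mp h

theorem discreteThm (hK : Body K) (R : ℝ≥0) : ∃ C : ℝ≥0, S0109L8.DiscreteThm K R C := by
  obtain ⟨x₀, r₀, hr₀, hball⟩ := hK.exists_ball
  set Cg : ℝ := 4 * (R : ℝ) ^ 2 + 16 * d / r₀ ^ 2 + 12 * (R : ℝ) ^ 2 * d ^ 2 with hCg
  set Cv : ℝ := C₁ * (Metric.diam K) ^ 2 with hCv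
  have hCg0 : 0 ≤ Cg := by positivity
  have hCv0 : 0 ≤ Cv := by rw [hCv]; unfold C₁; positivity
  refine ⟨(Cg * Cv ^ (1 / 3 : ℝ)).toNNReal, ?_⟩
  intro Λ _ w p0 p1 hw hw1 hp0 hp1
  have hne : Nonempty Λ := by
    by_contra hcon
    rw [not_nonempty_iff] at hcon
    simp at hw1
  obtain ⟨φ₀, φ₁, T₀, T₁, hL₀, hL₁, hT₀, hT₁, hb₀, hb₁, hs₀, hs₁, hm₀, hm₁, hvar⟩ :=
    disc hK R w hw hw1 p0 p1 hp0 hp1
  refine ⟨φ₀, T₀, φ₁, T₁, ⟨hL₀, hT₀, hm₀, hs₀⟩, ⟨hL₁, hT₁, hm₁, hs₁⟩, ?_⟩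
  set c : ℝ := ∫ z, (φ₁ z - φ₀ z) ∂(uniformProbOn K) with hc
  have hgn := S0109GN.gn_inequality K hK.cpt hK.cvx x₀ r₀ hr₀ hball R R.2 φ₀ φ₁
    hL₀.continuous.measurable hL₁.continuous.measurable T₀ T₁ hT₀ hT₁
    (hK.ae_vol_of_ae_rho (hs₀.mono fun x hx => ⟨hb₀ x, hx⟩))
    (hK.ae_vol_of_ae_rho (hs₁.mono fun x hx => ⟨hb₁ x, hx⟩)) c
  have hcont : Continuous fun x => φ₁ x - φ₀ x - c :=
    (hL₁.continuous.sub hL₀.continuous).sub continuous_const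
  obtain ⟨B, hB⟩ := hK.cpt.exists_bound_of_continuousOn hcont.continuousOn
  have hconv := S0109FY.lintegral_enorm_sq_eq hK.cpt hK.vol_pos.ne' (fun x => φ₁ x - φ₀ x - c) B
    hcont.aestronglyMeasurable (fun x hx => hB x hx)
  rw [hconv] at hgn
  set s : ℝ := ∑ l, w l * ‖p0 l - p1 l‖ ^ 2 with hs
  have hs0 : 0 ≤ s := Finset.sum_nonneg fun l _ => mul_nonneg (hw l).le (by positivity)
  have hvar' : ∫ x, (φ₁ x - φ₀ x - c) ^ 2 ∂(uniformProbOn K) ≤ Cv * s := by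
    refine hvar.trans (le_of_eq ?_)
    simp only [hs, hCv]
    congr 1
    apply Finset.sum_congr rfl
    intro l _
    rw [norm_sub_rev]
  calc ∫⁻ x, ‖T₀ x - T₁ x‖ₑ ^ 2 ∂(uniformProbOn K)
      = ∫⁻ x, ‖T₁ x - T₀ x‖ₑ ^ 2 ∂(uniformProbOn K) := by
        apply lintegral_congr; intro x; rw [enorm_sub_rev]
    _ ≤ ENNReal.ofReal Cg * (ENNReal.ofReal (Cv * s)) ^ (1 / 3 : ℝ) := by
        refine hgn.trans ?_
        gcongr
    _ = ((Cg * Cv ^ (1 / 3 : ℝ)).toNNReal : ℝ≥0∞) * (ENNReal.ofReal s) ^ (1 / 3 : ℝ) := by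
        rw [ENNReal.ofReal_mul hCv0, ENNReal.mul_rpow_of_nonneg _ _ (by norm_num : (0:ℝ) ≤ 1 / 3),
          ENNReal.ofReal_rpow_of_nonneg hCv0 (by norm_num), ← mul_assoc,
          ← ENNReal.ofReal_mul hCg0]
        rfl

end Crest.Agent.S0109D
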