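import Mathlib
import Crest.Prelude.Def_QuadraticTransport

/-! ROW82 / S0109, package L8 (helper16), part A: basic facts on the uniform measure,
uniqueness of subgradients at differentiability points, Arzela-Ascoli extraction. -/

set_option autoImplicit false
open MeasureTheory Filter Topology
open scoped ENNReal NNReal BoundedContinuousFunction
open Crest.AnalysisR.OT

namespace Crest.Agent.S0109A

variable {d : ℕ}

local notation "E" => EuclideanSpace ℝ (Fin d)

/-! ### the uniform measure -/

lemma volume_pos_of_interior {K : Set E} (hKi : (interior K).Nonempty) : 0 < volume K :=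
  lt_of_lt_of_le (isOpen_interior.measure_pos volume hKi) (measure_mono interior_subset)

lemma isProbabilityMeasure_uniform {K : Set E} (hKc : IsCompact K) (hKi : (interior K).Nonempty) :
    IsProbabilityMeasure (uniformProbOn K) := by
  constructor
  simp only [uniformProbOn, Measure.smul_apply, Measure.restrict_apply MeasurableSet.univ,
    Set.univ_inter, smul_eq_mul]
  exact ENNReal.inv_mul_cancel (volume_pos_of_interior hKi).ne' hKc.measure_lt_top.ne

lemma uniform_absolutelyContinuous (K : Set E) : uniformProbOn K ≪ volume.restrict K :=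
  Measure.smul_absolutelyContinuous

lemma ae_uniform_of_ae_volume {K : Set E} {p : E → Prop} (h : ∀ᵐ x ∂(volume : Measure E), p x) :
    ∀ᵐ x ∂(uniformProbOn K), p x :=
  (uniform_absolutelyContinuous K).ae_le (ae_restrict_of_ae h)

lemma ae_uniform_mem {K : Set E} (hKc : IsCompact K) : ∀ᵐ x ∂(uniformProbOn K), x ∈ K :=
  (uniform_absolutelyContinuous K).ae_le (ae_restrict_mem hKc.measurableSet)

lemma ae_uniform_mem_interior {K : Set E} (hKc : IsCompact K) (hKv : Convex ℝ K) :
    ∀ᵐ x ∂(uniformProbOn K), x ∈ interior K := by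
  have h1 : ∀ᵐ x ∂(volume : Measure E), x ∉ frontier K := by
    rw [ae_iff]; simpa using hKv.addHaar_frontier volume
  filter_upwards [ae_uniform_mem hKc, ae_uniform_of_ae_volume (K := K) h1] with x hx hx'
  by_contra hcon
  exact hx' ⟨subset_closure hx, hcon⟩

/-! ### subgradients -/

/-- `p` is a subgradient of `g` at `x` relative to `K`. -/
def IsSubgrad (K : Set E) (g : E → ℝ) (x p : E) : Prop :=
  ∀ z ∈ K, g x + inner ℝ p (z - x) ≤ g z

lemma IsSubgrad.fderiv_eq {K : Set E} {g : E → ℝ} {x p : E} (hx : x ∈ interior K)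
    (hg : DifferentiableAt ℝ g x) (hp : IsSubgrad K g x p) :
    fderiv ℝ g x = innerSL ℝ p := by
  have hmin : IsLocalMin (fun z => g z - (innerSL ℝ p z - innerSL ℝ p x)) x := by
    refine Filter.eventually_of_mem (mem_interior_iff_mem_nhds.1 hx) (fun z hz => ?_)
    have := hp z hz
    simp only [innerSL_apply_apply, sub_self, sub_zero]
    rw [inner_sub_right] at this
    linarith
  have hd : HasFDerivAt (fun z => g z - (innerSL ℝ p z - innerSL ℝ p x))
      (fderiv ℝ g x - innerSL ℝ p) x :=
    hg.hasFDerivAt.sub ((innerSL ℝ p).hasFDerivAt.sub_const _)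
  have := hmin.hasFDerivAt_eq_zero hd
  exact sub_eq_zero.1 this

lemma IsSubgrad.unique {K : Set E} {g : E → ℝ} {x p p' : E} (hx : x ∈ interior K)
    (hg : DifferentiableAt ℝ g x) (hp : IsSubgrad K g x p) (hp' : IsSubgrad K g x p') :
    p = p' := by
  have h := (hp.fderiv_eq hx hg).symm.trans (hp'.fderiv_eq hx hg)
  have h2 : ∀ v, inner ℝ p v = inner ℝ p' v := fun v => by
    have := congrArg (fun L : E →L[ℝ] ℝ => L v) h
    simpa using this
  exact ext_inner_right ℝ h2

/-! ### Arzela-Ascoli extraction -/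

lemma exists_subseq_limit {K : Set E} (hKc : IsCompact K) {x0 : E} (hx0 : x0 ∈ K) (R' : ℝ≥0)
    (φ : ℕ → E → ℝ) (hφ : ∀ k, LipschitzWith R' (φ k)) :
    ∃ (ψ : ℕ → ℕ) (g : E → ℝ), StrictMono ψ ∧ LipschitzWith R' g ∧
      ∀ x ∈ K, Tendsto (fun k => φ (ψ k) x - φ (ψ k) x0) atTop (𝓝 (g x)) := by
  have : CompactSpace K := isCompact_iff_compactSpace.1 hKc
  let F : ℕ → (K →ᵇ ℝ) := fun k =>
    BoundedContinuousFunction.mkOfCompact
      ⟨fun x : K => φ k x - φ k x0, ((hφ k).continuous.comp continuous_subtype_val).sub continuous_const⟩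
  let A : Set (K →ᵇ ℝ) := {f | LipschitzWith R' (f : K → ℝ) ∧ f ⟨x0, hx0⟩ = 0}
  have hclosed : IsClosed A := by
    have h1 : IsClosed {f : K →ᵇ ℝ | LipschitzWith R' (f : K → ℝ)} := by
      have : {f : K →ᵇ ℝ | LipschitzWith R' (f : K → ℝ)} =
          ⋂ (x : K) (y : K), {f : K →ᵇ ℝ | dist (f x) (f y) ≤ R' * dist x y} := by
        ext f
        simp only [Set.mem_ofPred_eq, Set.mem_iInter, lipschitzWith_iff_dist_le_mul]
      rw [this]
      refine isClosed_iInter (fun x => isClosed_iInter (fun y => ?_))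
      exact isClosed_le ((continuous_eval_const x).dist (continuous_eval_const y)) continuous_const
    have h2 : IsClosed {f : K →ᵇ ℝ | f ⟨x0, hx0⟩ = 0} :=
      isClosed_eq (continuous_eval_const _) continuous_const
    exact h1.inter h2
  have hbd : ∀ (f : K →ᵇ ℝ) (x : K), f ∈ A → f x ∈ Metric.closedBall (0 : ℝ) (R' * Metric.diam K) := by
    intro f x hf
    have h := hf.1.dist_le_mul x ⟨x0, hx0⟩
    rw [hf.2] at h
    rw [Metric.mem_closedBall]
    refine h.trans (mul_le_mul_of_nonneg_left ?_ R'.coe_nonneg)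
    exact Metric.dist_le_diam_of_mem hKc.isBounded x.2 hx0
  have hequi : Equicontinuous ((↑) : A → K → ℝ) :=
    (LipschitzWith.uniformEquicontinuous _ R' (fun f : A => f.2.1)).equicontinuous
  have hcomp : IsCompact A :=
    BoundedContinuousFunction.arzela_ascoli₂ _ (isCompact_closedBall _ _) A hclosed hbd hequi
  have hFA : ∀ k, F k ∈ A := by
    intro k
    refine ⟨?_, ?_⟩
    · refine LipschitzWith.of_dist_le_mul (fun x y => ?_)
      have := (hφ k).dist_le_mul (x : E) (y : E)
      simpa [F, Real.dist_eq, Subtype.dist_eq] using this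
    · simp [F]
  obtain ⟨a, haA, ψ, hψ, hlim⟩ := hcomp.tendsto_subseq hFA
  classical
  have hLip : LipschitzOnWith R' (fun x : E => if h : x ∈ K then a ⟨x, h⟩ else 0) K := by
    refine LipschitzOnWith.of_dist_le_mul (fun x hx y hy => ?_)
    simp only [hx, hy, dite_true]
    exact haA.1.dist_le_mul ⟨x, hx⟩ ⟨y, hy⟩
  obtain ⟨g, hg, hgeq⟩ := hLip.extend_real
  refine ⟨ψ, g, hψ, hg, fun x hx => ?_⟩
  have h1 : Tendsto (fun k => (F (ψ k)) ⟨x, hx⟩) atTop (𝓝 (a ⟨x, hx⟩)) :=
    ((continuous_eval_const (F := K →ᵇ ℝ) (⟨x, hx⟩ : K)).tendsto a).comp hlim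
  have h2 : g x = a ⟨x, hx⟩ := by
    have := hgeq hx
    simp only [hx, dite_true] at this
    exact this.symm
  rw [h2]
  exact h1

end Crest.Agent.S0109A
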