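import Mathlib
import Crest.Prelude.Def_QuadraticTransport
import Crest.Agent.S0109_ApproxA

/-! ROW82 / S0109, package L8 (helper16), part B: limits of approximate Brenier pairs. -/

set_option autoImplicit false
open MeasureTheory Filter Topology
open scoped ENNReal NNReal BoundedContinuousFunction
open Crest.AnalysisR.OT

namespace Crest.Agent.S0109A

variable {d : ℕ}

local notation "E" => EuclideanSpace ℝ (Fin d)

/-- `(φ, T)` is a Brenier pair for the target `m`: `φ` Lipschitz, `T` an a.e. subgradient of `φ`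
relative to `K`, bounded, pushing the uniform measure of `K` to `m`. -/
structure Pot (K : Set E) (R' : ℝ≥0) (m : Measure E) (φ : E → ℝ) (T : E → E) : Prop where
  lip : LipschitzWith R' φ
  meas : Measurable T
  sub : ∀ᵐ x ∂(uniformProbOn K), IsSubgrad K φ x (T x)
  bdd : ∀ᵐ x ∂(uniformProbOn K), ‖T x‖ ≤ R'
  map : (uniformProbOn K).map T = m

/-- limits of subgradients are subgradients of the limit -/
lemma isSubgrad_of_tendsto {K : Set E} {x0 x p : E} (hx : x ∈ K) {g : E → ℝ} {φ : ℕ → E → ℝ}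
    {S : ℕ → E}
    (hlim : ∀ z ∈ K, Tendsto (fun k => φ k z - φ k x0) atTop (𝓝 (g z)))
    (hsub : ∀ k, IsSubgrad K (φ k) x (S k)) (hS : Tendsto S atTop (𝓝 p)) :
    IsSubgrad K g x p := by
  intro z hz
  have h1 : Tendsto (fun k => (φ k x - φ k x0) + inner ℝ (S k) (z - x)) atTop
      (𝓝 (g x + inner ℝ p (z - x))) :=
    (hlim x hx).add (hS.inner tendsto_const_nhds)
  refine le_of_tendsto_of_tendsto' h1 (hlim z hz) (fun k => ?_)
  have := hsub k z hz
  linarith

/-- pointwise convergence of the subgradients at a differentiability point -/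
lemma exists_tendsto_subgrad {K : Set E} {x0 x : E} (hx : x ∈ interior K) {g : E → ℝ}
    (hg : DifferentiableAt ℝ g x) {φ : ℕ → E → ℝ} {S : ℕ → E} {R' : ℝ}
    (hlim : ∀ z ∈ K, Tendsto (fun k => φ k z - φ k x0) atTop (𝓝 (g z)))
    (hsub : ∀ k, IsSubgrad K (φ k) x (S k)) (hbd : ∀ k, ‖S k‖ ≤ R') :
    ∃ p, IsSubgrad K g x p ∧ ‖p‖ ≤ R' ∧ Tendsto S atTop (𝓝 p) := by
  have hxK : x ∈ K := interior_subset hx
  have hcomp : IsCompact (Metric.closedBall (0 : E) R') := isCompact_closedBall _ _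
  have hmem : ∀ k, S k ∈ Metric.closedBall (0 : E) R' := fun k => by simpa using hbd k
  have key : ∀ ns : ℕ → ℕ, Tendsto ns atTop atTop →
      ∃ p ∈ Metric.closedBall (0 : E) R', ∃ ms : ℕ → ℕ, IsSubgrad K g x p ∧
        Tendsto (fun n => S (ns (ms n))) atTop (𝓝 p) := by
    intro ns hns
    obtain ⟨p, hp, ms, hms, hlimp⟩ := hcomp.tendsto_subseq (fun n => hmem (ns n))
    refine ⟨p, hp, ms, ?_, hlimp⟩
    have hcomp' : Tendsto (fun n => ns (ms n)) atTop atTop := hns.comp hms.tendsto_atTop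
    exact isSubgrad_of_tendsto (φ := fun n => φ (ns (ms n))) (S := fun n => S (ns (ms n))) hxK
      (fun z hz => (hlim z hz).comp hcomp') (fun n => hsub _) hlimp
  obtain ⟨p, hp, -, hpsub, -⟩ := key id tendsto_id
  refine ⟨p, hpsub, by simpa using hp, ?_⟩
  refine tendsto_of_subseq_tendsto (fun ns hns => ?_)
  obtain ⟨p', -, ms, hp'sub, hlim'⟩ := key ns hns
  have : p' = p := hp'sub.unique hx hg hpsub
  exact ⟨ms, this ▸ hlim'⟩

/-! ### the conjugate function -/

/-- Legendre conjugate relative to `K`. -/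
noncomputable def conj (K : Set E) (g : E → ℝ) (y : E) : ℝ :=
  sSup ((fun x => inner ℝ x y - g x) '' K)

lemma bddAbove_conj {K : Set E} (hKc : IsCompact K) {g : E → ℝ} (hg : Continuous g) (y : E) :
    BddAbove ((fun x => inner ℝ x y - g x) '' K) :=
  hKc.bddAbove_image ((continuous_id.inner continuous_const).sub hg).continuousOn

lemma le_conj {K : Set E} (hKc : IsCompact K) {g : E → ℝ} (hg : Continuous g) {x : E}
    (hx : x ∈ K) (y : E) : inner ℝ x y - g x ≤ conj K g y :=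
  le_csSup (bddAbove_conj hKc hg y) ⟨x, hx, rfl⟩

lemma conj_eq_of_isSubgrad {K : Set E} (hKc : IsCompact K) {g : E → ℝ} (hg : Continuous g)
    {x p : E} (hx : x ∈ K) (hp : IsSubgrad K g x p) : conj K g p = inner ℝ x p - g x := by
  apply le_antisymm
  · apply csSup_le (Set.Nonempty.image _ ⟨x, hx⟩)
    rintro _ ⟨z, hz, rfl⟩
    have := hp z hz
    rw [inner_sub_right, real_inner_comm z p, real_inner_comm x p] at this
    simp only
    linarith
  · exact le_conj hKc hg hx p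

lemma isSubgrad_of_conj_eq {K : Set E} (hKc : IsCompact K) {g : E → ℝ} (hg : Continuous g)
    {x p : E} (h : g x + conj K g p = inner ℝ x p) : IsSubgrad K g x p := by
  intro z hz
  have := le_conj hKc hg hz p
  rw [inner_sub_right, real_inner_comm z p, real_inner_comm x p]
  linarith

lemma lipschitz_conj {K : Set E} (hKc : IsCompact K) (hKne : K.Nonempty) {g : E → ℝ}
    (hg : Continuous g) {M : ℝ≥0} (hM : ∀ x ∈ K, ‖x‖ ≤ M) : LipschitzWith M (conj K g) := by
  refine LipschitzWith.of_le_add_mul M (fun y y' => ?_)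
  obtain ⟨x1, hx1⟩ := hKne
  apply csSup_le (Set.Nonempty.image _ ⟨x1, hx1⟩)
  rintro _ ⟨x, hx, rfl⟩
  have h1 := le_conj hKc hg hx y'
  have h2 : inner ℝ x (y - y') ≤ M * dist y y' := by
    calc inner ℝ x (y - y') ≤ ‖x‖ * ‖y - y'‖ := real_inner_le_norm _ _
      _ ≤ M * dist y y' := by
        rw [dist_eq_norm]; exact mul_le_mul_of_nonneg_right (hM x hx) (norm_nonneg _)
  rw [inner_sub_right] at h2
  simp only
  linarith

/-! ### Fenchel-Young uniqueness -/

lemma lintegral_enorm_sq {ρ : Measure E} {v : E → E} (hint : Integrable (fun x => ‖v x‖ ^ 2) ρ) :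
    ∫⁻ x, ‖v x‖ₑ ^ 2 ∂ρ = ENNReal.ofReal (∫ x, ‖v x‖ ^ 2 ∂ρ) := by
  rw [ofReal_integral_eq_lintegral_ofReal hint (ae_of_all _ (fun x => by positivity))]
  congr with x
  rw [ENNReal.ofReal_pow (norm_nonneg _), ofReal_norm]

lemma ae_norm_le_of_map {ρ μ : Measure E} {Y : Set E} {R' : ℝ} (hYR : ∀ y ∈ Y, ‖y‖ ≤ R')
    (hμ : μ Yᶜ = 0) {T : E → E} (hT : Measurable T) (hmap : ρ.map T = μ) :
    ∀ᵐ x ∂ρ, ‖T x‖ ≤ R' := by
  have h1 : ∀ᵐ y ∂(ρ.map T), y ∈ Y := by
    rw [hmap, ae_iff]; exact hμ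
  filter_upwards [ae_of_ae_map hT.aemeasurable h1] with x hx using hYR _ hx

theorem optimal_isSubgrad {K : Set E} (hKc : IsCompact K) (hKi : (interior K).Nonempty)
    {Y : Set E} {R' : ℝ≥0} (hYR : ∀ y ∈ Y, ‖y‖ ≤ R') {μ : Measure E} (hμ : IsProbabilityOn Y μ)
    {T : E → E} (hT : IsOptimalMap (uniformProbOn K) μ T) {g : E → ℝ} (hg : LipschitzWith R' g)
    {G : E → E} (hGm : Measurable G) (hGsub : ∀ᵐ x ∂(uniformProbOn K), IsSubgrad K g x (G x))
    (hGmap : (uniformProbOn K).map G = μ) :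
    ∀ᵐ x ∂(uniformProbOn K), IsSubgrad K g x (T x) := by
  set ρ := uniformProbOn K with hρ
  have hprob : IsProbabilityMeasure ρ := isProbabilityMeasure_uniform hKc hKi
  obtain ⟨hTm, hTmap, hTopt⟩ := hT
  obtain ⟨M0, hM0⟩ := hKc.isBounded.exists_norm_le
  set M : ℝ≥0 := Real.toNNReal M0 with hMdef
  have hM : ∀ x ∈ K, ‖x‖ ≤ M := fun x hx => (hM0 x hx).trans (Real.le_coe_toNNReal M0)
  have hKne : K.Nonempty := hKi.mono interior_subset
  have hgc : Continuous g := hg.continuous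
  set c := conj K g with hc
  have hcl : LipschitzWith M c := lipschitz_conj hKc hKne hgc hM
  have hcc : Continuous c := hcl.continuous
  have hK : ∀ᵐ x ∂ρ, x ∈ K := ae_uniform_mem hKc
  have hTb : ∀ᵐ x ∂ρ, ‖T x‖ ≤ R' := ae_norm_le_of_map hYR hμ.2 hTm hTmap
  have hGb : ∀ᵐ x ∂ρ, ‖G x‖ ≤ R' := ae_norm_le_of_map hYR hμ.2 hGm hGmap
  -- integrability facts, for a general bounded measurable map
  have hInt : ∀ S : E → E, Measurable S → (∀ᵐ x ∂ρ, ‖S x‖ ≤ R') →
      Integrable (fun x => inner ℝ x (S x)) ρ ∧ Integrable (fun x => ‖S x‖ ^ 2) ρ ∧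
      Integrable (fun x => c (S x)) ρ ∧ Integrable (fun x => ‖x - S x‖ ^ 2) ρ := by
    intro S hSm hSb
    refine ⟨?_, ?_, ?_, ?_⟩
    · refine Integrable.of_bound (measurable_id.inner hSm).aestronglyMeasurable (M * R') ?_
      filter_upwards [hK, hSb] with x hx hx'
      calc ‖inner ℝ x (S x)‖ ≤ ‖x‖ * ‖S x‖ := norm_inner_le_norm _ _
        _ ≤ M * R' := mul_le_mul (hM x hx) hx' (norm_nonneg _) M.coe_nonneg
    · refine Integrable.of_bound (hSm.norm.pow_const 2).aestronglyMeasurable ((R' : ℝ) ^ 2) ?_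
      filter_upwards [hSb] with x hx'
      rw [Real.norm_of_nonneg (by positivity)]
      exact pow_le_pow_left₀ (norm_nonneg _) hx' 2
    · refine Integrable.of_bound (hcc.measurable.comp hSm).aestronglyMeasurable
        (‖c 0‖ + M * R') ?_
      filter_upwards [hSb] with x hx'
      have h1 := hcl.dist_le_mul (S x) 0
      rw [dist_zero_right, Real.dist_eq] at h1
      have h2 : ‖c (S x)‖ ≤ ‖c 0‖ + |c (S x) - c 0| := by
        rw [Real.norm_eq_abs, Real.norm_eq_abs]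
        have := abs_add_le (c 0) (c (S x) - c 0)
        simpa using this
      have h3 : (M : ℝ) * ‖S x‖ ≤ M * R' := mul_le_mul_of_nonneg_left hx' M.coe_nonneg
      linarith
    · refine Integrable.of_bound ((measurable_id.sub hSm).norm.pow_const 2).aestronglyMeasurable
        (((M : ℝ) + R') ^ 2) ?_
      filter_upwards [hK, hSb] with x hx hx'
      rw [Real.norm_of_nonneg (by positivity)]
      refine pow_le_pow_left₀ (norm_nonneg _) ?_ 2
      exact (norm_sub_le _ _).trans (add_le_add (hM x hx) hx')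
  obtain ⟨iaT, ibT, icT, idT⟩ := hInt T hTm hTb
  obtain ⟨iaG, ibG, icG, idG⟩ := hInt G hGm hGb
  have ig : Integrable g ρ := by
    refine Integrable.of_bound hgc.measurable.aestronglyMeasurable (‖g 0‖ + R' * M) ?_
    filter_upwards [hK] with x hx
    have h1 := hg.dist_le_mul x 0
    rw [dist_zero_right, Real.dist_eq] at h1
    have h2 : ‖g x‖ ≤ ‖g 0‖ + |g x - g 0| := by
      rw [Real.norm_eq_abs, Real.norm_eq_abs]
      have := abs_add_le (g 0) (g x - g 0)
      simpa using this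
    have h3 : (R' : ℝ) * ‖x‖ ≤ R' * M := mul_le_mul_of_nonneg_left (hM x hx) R'.coe_nonneg
    linarith
  -- equal integrals of functions of the image
  have hpush : ∀ f : E → ℝ, Continuous f → ∫ x, f (T x) ∂ρ = ∫ x, f (G x) ∂ρ := by
    intro f hf
    rw [← integral_map hTm.aemeasurable hf.measurable.aestronglyMeasurable,
      ← integral_map hGm.aemeasurable hf.measurable.aestronglyMeasurable, hTmap, hGmap]
  have hb : ∫ x, ‖T x‖ ^ 2 ∂ρ = ∫ x, ‖G x‖ ^ 2 ∂ρ := hpush (fun y => ‖y‖ ^ 2) (by fun_prop)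
  have hcTG : ∫ x, c (T x) ∂ρ = ∫ x, c (G x) ∂ρ := hpush c hcc
  -- the cost inequality
  have hcost : ∫ x, ‖x - T x‖ ^ 2 ∂ρ ≤ ∫ x, ‖x - G x‖ ^ 2 ∂ρ := by
    have h := hTopt G hGm hGmap
    rw [lintegral_enorm_sq (v := fun x => x - T x) idT,
      lintegral_enorm_sq (v := fun x => x - G x) idG] at h
    exact (ENNReal.ofReal_le_ofReal_iff (integral_nonneg (fun x => by positivity))).1 h
  have hexp : ∀ S : E → E, Integrable (fun x => inner ℝ x (S x)) ρ →
      Integrable (fun x => ‖S x‖ ^ 2) ρ → Integrable (fun x => ‖x - S x‖ ^ 2) ρ →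
      ∫ x, ‖x - S x‖ ^ 2 ∂ρ - ∫ x, ‖S x‖ ^ 2 ∂ρ + 2 * ∫ x, inner ℝ x (S x) ∂ρ
        = ∫ x, ‖x‖ ^ 2 ∂ρ := by
    intro S h1 h2 h3
    have h4 : Integrable (fun x => ‖x - S x‖ ^ 2 - ‖S x‖ ^ 2) ρ := h3.sub h2
    rw [← integral_sub h3 h2, ← integral_const_mul, ← integral_add h4 (h1.const_mul 2)]
    congr with x
    rw [norm_sub_sq_real]
    ring
  have haTG : ∫ x, inner ℝ x (G x) ∂ρ ≤ ∫ x, inner ℝ x (T x) ∂ρ := by
    have h1 := hexp T iaT ibT idT
    have h2 := hexp G iaG ibG idG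
    linarith
  -- the Fenchel-Young gap
  have hgapG : ∫ x, (g x + c (G x) - inner ℝ x (G x)) ∂ρ = 0 := by
    refine integral_eq_zero_of_ae ?_
    filter_upwards [hK, hGsub] with x hx hsub
    have := conj_eq_of_isSubgrad hKc hgc hx hsub
    simp only [Pi.zero_apply]
    rw [← hc] at this
    linarith
  have hgapT_nonneg : 0 ≤ᵐ[ρ] fun x => g x + c (T x) - inner ℝ x (T x) := by
    filter_upwards [hK] with x hx
    have := le_conj hKc hgc hx (T x)
    simp only [Pi.zero_apply]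
    rw [← hc] at this
    linarith
  have iT : Integrable (fun x => g x + c (T x) - inner ℝ x (T x)) ρ := (ig.add icT).sub iaT
  have hgapT : ∫ x, (g x + c (T x) - inner ℝ x (T x)) ∂ρ ≤ 0 := by
    have e1 : ∫ x, (g x + c (T x) - inner ℝ x (T x)) ∂ρ
        = ∫ x, g x ∂ρ + ∫ x, c (T x) ∂ρ - ∫ x, inner ℝ x (T x) ∂ρ := by
      have h4 : Integrable (fun x => g x + c (T x)) ρ := ig.add icT
      rw [integral_sub h4 iaT, integral_add ig icT]
    have e2 : ∫ x, (g x + c (G x) - inner ℝ x (G x)) ∂ρ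
        = ∫ x, g x ∂ρ + ∫ x, c (G x) ∂ρ - ∫ x, inner ℝ x (G x) ∂ρ := by
      have h4 : Integrable (fun x => g x + c (G x)) ρ := ig.add icG
      rw [integral_sub h4 iaG, integral_add ig icG]
    linarith
  have hzero : (fun x => g x + c (T x) - inner ℝ x (T x)) =ᵐ[ρ] 0 :=
    (integral_eq_zero_iff_of_nonneg_ae hgapT_nonneg iT).1
      (le_antisymm hgapT (integral_nonneg_of_ae hgapT_nonneg))
  filter_upwards [hzero] with x hx
  refine isSubgrad_of_conj_eq hKc hgc ?_
  simp only [Pi.zero_apply] at hx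
  rw [← hc]
  linarith

/-! ### the main limit theorem -/

theorem exists_subseq_tendsto_optimalMap {K : Set E} (hKc : IsCompact K) (hKv : Convex ℝ K)
    (hKi : (interior K).Nonempty) {Y : Set E} {R' : ℝ≥0} (hYR : ∀ y ∈ Y, ‖y‖ ≤ R')
    {μ : Measure E} (hμ : IsProbabilityOn Y μ) {T : E → E}
    (hT : IsOptimalMap (uniformProbOn K) μ T)
    (m : ℕ → Measure E) (φ : ℕ → E → ℝ) (S : ℕ → E → E) (h : ∀ k, Pot K R' (m k) (φ k) (S k))
    (hw : ∀ f : E →ᵇ ℝ, Tendsto (fun k => ∫ y, f y ∂(m k)) atTop (𝓝 (∫ y, f y ∂μ))) :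
    ∃ ψ : ℕ → ℕ, StrictMono ψ ∧
      ∀ᵐ x ∂(uniformProbOn K), Tendsto (fun k => S (ψ k) x) atTop (𝓝 (T x)) := by
  set ρ := uniformProbOn K with hρ
  have hprob : IsProbabilityMeasure ρ := isProbabilityMeasure_uniform hKc hKi
  obtain ⟨x0, hx0⟩ := hKi
  have hx0K : x0 ∈ K := interior_subset hx0
  obtain ⟨ψ, g, hψ, hg, hlim⟩ := exists_subseq_limit hKc hx0K R' φ (fun k => (h k).lip)
  have hdiff : ∀ᵐ x ∂ρ, DifferentiableAt ℝ g x :=
    ae_uniform_of_ae_volume hg.ae_differentiableAt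
  have hint : ∀ᵐ x ∂ρ, x ∈ interior K := ae_uniform_mem_interior hKc hKv
  have hsub : ∀ᵐ x ∂ρ, ∀ k, IsSubgrad K (φ k) x (S k x) := ae_all_iff.2 (fun k => (h k).sub)
  have hbd : ∀ᵐ x ∂ρ, ∀ k, ‖S k x‖ ≤ R' := ae_all_iff.2 (fun k => (h k).bdd)
  have hex : ∀ᵐ x ∂ρ, ∃ p, IsSubgrad K g x p ∧ ‖p‖ ≤ R' ∧
      Tendsto (fun k => S (ψ k) x) atTop (𝓝 p) := by
    filter_upwards [hint, hdiff, hsub, hbd] with x h1 h2 h3 h4
    exact exists_tendsto_subgrad (φ := fun k => φ (ψ k)) (S := fun k => S (ψ k) x) h1 h2 hlim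
      (fun k => h3 _) (fun k => h4 _)
  obtain ⟨G, hGm, hGlim⟩ := measurable_limit_of_tendsto_metrizable_ae
    (fun k => ((h (ψ k)).meas).aemeasurable) (hex.mono (fun x ⟨p, _, _, hp⟩ => ⟨p, hp⟩))
  have hGsub : ∀ᵐ x ∂ρ, IsSubgrad K g x (G x) := by
    filter_upwards [hex, hGlim] with x ⟨p, hp, _, hpl⟩ hG
    rwa [tendsto_nhds_unique hG hpl]
  have hGmap : ρ.map G = μ := by
    have : IsProbabilityMeasure μ := hμ.1
    have : IsProbabilityMeasure (ρ.map G) := Measure.isProbabilityMeasure_map hGm.aemeasurable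
    refine ext_of_forall_integral_eq_of_IsFiniteMeasure (fun f => ?_)
    have h1 : Tendsto (fun k => ∫ x, f (S (ψ k) x) ∂ρ) atTop (𝓝 (∫ x, f (G x) ∂ρ)) := by
      refine tendsto_integral_of_dominated_convergence (fun _ => ‖f‖)
        (fun k => (f.continuous.measurable.comp (h (ψ k)).meas).aestronglyMeasurable)
        (integrable_const _) (fun k => ae_of_all _ (fun x => f.norm_coe_le_norm _)) ?_
      exact hGlim.mono (fun x hx => (f.continuous.tendsto _).comp hx)
    have h2 : ∀ k, ∫ x, f (S (ψ k) x) ∂ρ = ∫ y, f y ∂(m (ψ k)) := fun k => by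
      rw [← (h (ψ k)).map, integral_map (h (ψ k)).meas.aemeasurable
        f.continuous.measurable.aestronglyMeasurable]
    have h3 := (hw f).comp hψ.tendsto_atTop
    rw [integral_map hGm.aemeasurable f.continuous.measurable.aestronglyMeasurable]
    refine tendsto_nhds_unique h1 ?_
    simp only [h2]
    exact h3
  have hTsub := optimal_isSubgrad hKc ⟨x0, hx0⟩ hYR hμ hT hg hGm hGsub hGmap
  refine ⟨ψ, hψ, ?_⟩
  filter_upwards [hint, hdiff, hGsub, hTsub, hGlim] with x h1 h2 h3 h4 h5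
  rw [h4.unique h1 h2 h3]
  exact h5

end Crest.Agent.S0109A
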