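import Mathlib
import Crest.Prelude.Def_QuadraticTransport

/-!
# Row 82 (S0109), package L8-B4: quantisation of a coupling

* `exists_quantiser`: a compact set `Y` has, for every `ε > 0`, a simple function `q` with values
  in `Y` and `‖q y - y‖ ≤ ε` on `Y`.
* `discretise`: the image of a coupling under `q × q` is a finite sum of weighted Dirac masses.
* `quantise`: the two together with the estimate of the discrete cost.
-/

set_option autoImplicit false
open MeasureTheory Set
open scoped ENNReal NNReal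
open Crest.AnalysisR.OT

namespace Crest.Agent.S0109Q

section general

variable {α β : Type*} [MeasurableSpace α]

/-- integral of a function of a simple function -/
lemma lintegral_comp_simple (Q : SimpleFunc α β) (g : β → ℝ≥0∞) (π : Measure α) :
    ∫⁻ x, g (Q x) ∂π = ∑ z ∈ Q.range, g z * π (Q ⁻¹' {z}) := by
  rw [← SimpleFunc.map_lintegral, ← SimpleFunc.lintegral_eq_lintegral]
  rfl

/-- labelled form of the previous lemma -/
lemma exists_labels (Q : SimpleFunc α β) (π : Measure α) [IsProbabilityMeasure π] :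
    ∃ (N : ℕ) (w : Fin N → ℝ) (z : Fin N → β), (∀ l, 0 < w l) ∧ (∀ l, z l ∈ Set.range Q) ∧
      ∀ g : β → ℝ≥0∞, ∫⁻ x, g (Q x) ∂π = ∑ l, ENNReal.ofReal (w l) * g (z l) := by
  classical
  set S : Finset β := Q.range.filter (fun z => π (Q ⁻¹' {z}) ≠ 0) with hS
  refine ⟨S.card, fun l => (π (Q ⁻¹' {((S.equivFin.symm l : S) : β)})).toReal,
    fun l => ((S.equivFin.symm l : S) : β), ?_, ?_, ?_⟩
  · intro l
    have hl : ((S.equivFin.symm l : S) : β) ∈ S := (S.equivFin.symm l).2
    have hl' := (Finset.mem_filter.1 hl)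
    exact ENNReal.toReal_pos hl'.2 (measure_ne_top _ _)
  · intro l
    have hl : ((S.equivFin.symm l : S) : β) ∈ S := (S.equivFin.symm l).2
    have hl' := (Finset.mem_filter.1 hl)
    exact SimpleFunc.mem_range.1 hl'.1
  · intro g
    rw [lintegral_comp_simple]
    have h1 : ∑ z ∈ Q.range, g z * π (Q ⁻¹' {z}) = ∑ z ∈ S, g z * π (Q ⁻¹' {z}) := by
      rw [hS, Finset.sum_filter_of_ne]
      intro z _ hz h0
      exact hz (by rw [h0, mul_zero])
    rw [h1, ← Finset.sum_coe_sort S, ← Equiv.sum_comp S.equivFin.symm]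
    refine Finset.sum_congr rfl fun l _ => ?_
    rw [ENNReal.ofReal_toReal (measure_ne_top _ _), mul_comm]

end general

variable {d : ℕ}

local notation "E" => EuclideanSpace ℝ (Fin d)

/-- uniform quantiser of a compact set -/
theorem exists_quantiser {Y : Set E} (hYc : IsCompact Y) (hYn : Y.Nonempty) {ε : ℝ} (hε : 0 < ε) :
    ∃ q : SimpleFunc E E, (∀ y, q y ∈ Y) ∧ ∀ y ∈ Y, ‖q y - y‖ ≤ ε := by
  classical
  obtain ⟨y0, hy0⟩ := hYn
  obtain ⟨t, htY, htf, hcov⟩ := hYc.finite_cover_balls hε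
  have hsf : (insert y0 t).Finite := htf.insert y0
  obtain ⟨e, he⟩ := hsf.countable.exists_eq_range (insert_nonempty y0 t)
  have heY : ∀ k, e k ∈ Y := by
    intro k
    have : e k ∈ insert y0 t := by rw [he]; exact mem_range_self k
    rcases this with h | h
    · rw [h]; exact hy0
    · exact htY h
  have hidx : ∀ x ∈ insert y0 t, ∃ k, e k = x := by
    intro x hx
    rw [he] at hx
    exact hx
  choose! g hg using hidx
  set N := hsf.toFinset.sup g with hN
  refine ⟨SimpleFunc.nearestPt e N, ?_, ?_⟩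
  · intro y
    have : SimpleFunc.nearestPt e N y = e (SimpleFunc.nearestPtInd e N y) := rfl
    rw [this]
    exact heY _
  · intro y hy
    have := hcov hy
    simp only [mem_iUnion, Metric.mem_ball, exists_prop] at this
    obtain ⟨x, hxt, hx⟩ := this
    have hxs : x ∈ insert y0 t := mem_insert_of_mem _ hxt
    have hk : g x ≤ N := Finset.le_sup (f := g) (hsf.mem_toFinset.2 hxs)
    have h1 := SimpleFunc.edist_nearestPt_le e y hk
    rw [hg x hxs, edist_dist, edist_dist, ENNReal.ofReal_le_ofReal_iff dist_nonneg] at h1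
    rw [← dist_eq_norm]
    rw [dist_comm x y] at h1
    exact h1.trans hx.le

/-- the image of a coupling under `q × q` is a finite sum of weighted Dirac masses -/
theorem discretise {μ ν : Measure E} {π : Measure (E × E)} (hμ : IsProbabilityMeasure μ)
    (hπ : IsPairCoupling μ ν π) (q : SimpleFunc E E) :
    ∃ (N : ℕ) (w : Fin N → ℝ) (p0 p1 : Fin N → E),
      (∀ l, 0 < w l) ∧ ∑ l, w l = 1 ∧ (∀ l, p0 l ∈ Set.range q) ∧ (∀ l, p1 l ∈ Set.range q) ∧
      μ.map q = ∑ l, ENNReal.ofReal (w l) • Measure.dirac (p0 l) ∧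
      ν.map q = ∑ l, ENNReal.ofReal (w l) • Measure.dirac (p1 l) ∧
      ENNReal.ofReal (∑ l, w l * ‖p0 l - p1 l‖ ^ 2) = ∫⁻ p, ‖q p.1 - q p.2‖ₑ ^ 2 ∂π := by
  classical
  obtain ⟨h1, h2⟩ := hπ
  have hπp : IsProbabilityMeasure π := by
    constructor
    have : μ univ = 1 := hμ.measure_univ
    rw [← h1, Measure.map_apply measurable_fst MeasurableSet.univ] at this
    simpa using this
  set Q : SimpleFunc (E × E) (E × E) :=
    SimpleFunc.pair (q.comp Prod.fst measurable_fst) (q.comp Prod.snd measurable_snd) with hQ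
  have hQa : ∀ p : E × E, Q p = (q p.1, q p.2) := fun p => rfl
  obtain ⟨N, w, z, hw, hz, hint⟩ := exists_labels Q π
  refine ⟨N, w, fun l => (z l).1, fun l => (z l).2, hw, ?_, ?_, ?_, ?_, ?_, ?_⟩
  · have := hint (fun _ => 1)
    simp only [lintegral_const, measure_univ, mul_one] at this
    rw [← ENNReal.ofReal_sum_of_nonneg (fun l _ => (hw l).le)] at this
    have h3 := congrArg ENNReal.toReal this
    rw [ENNReal.toReal_ofReal (Finset.sum_nonneg fun l _ => (hw l).le)] at h3
    simpa using h3.symm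
  · intro l
    obtain ⟨p, hp⟩ := hz l
    exact ⟨p.1, by show q p.1 = (z l).1; rw [← hp, hQa]⟩
  · intro l
    obtain ⟨p, hp⟩ := hz l
    exact ⟨p.2, by show q p.2 = (z l).2; rw [← hp, hQa]⟩
  · ext s hs
    rw [Measure.map_apply q.measurable hs, ← h1,
      Measure.map_apply measurable_fst (q.measurable hs)]
    have := hint (fun p => s.indicator (fun _ => (1 : ℝ≥0∞)) p.1)
    have h3 : ∫⁻ x, s.indicator (fun _ => (1 : ℝ≥0∞)) (Q x).1 ∂π
        = π (Prod.fst ⁻¹' (q ⁻¹' s)) := by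
      rw [← lintegral_indicator_one ((q.measurable hs).preimage measurable_fst)]
      rfl
    rw [← h3, this]
    simp only [Measure.coe_finsetSum, Finset.sum_apply, Measure.smul_apply, smul_eq_mul,
      Measure.dirac_apply' _ hs]
    rfl
  · ext s hs
    rw [Measure.map_apply q.measurable hs, ← h2,
      Measure.map_apply measurable_snd (q.measurable hs)]
    have := hint (fun p => s.indicator (fun _ => (1 : ℝ≥0∞)) p.2)
    have h3 : ∫⁻ x, s.indicator (fun _ => (1 : ℝ≥0∞)) (Q x).2 ∂π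
        = π (Prod.snd ⁻¹' (q ⁻¹' s)) := by
      rw [← lintegral_indicator_one ((q.measurable hs).preimage measurable_snd)]
      rfl
    rw [← h3, this]
    simp only [Measure.coe_finsetSum, Finset.sum_apply, Measure.smul_apply, smul_eq_mul,
      Measure.dirac_apply' _ hs]
    rfl
  · have := hint (fun p => ‖p.1 - p.2‖ₑ ^ 2)
    simp only [hQa] at this
    rw [this, ENNReal.ofReal_sum_of_nonneg (fun l _ => by have := (hw l).le; positivity)]
    refine Finset.sum_congr rfl fun l _ => ?_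
    rw [ENNReal.ofReal_mul (hw l).le, ENNReal.ofReal_pow (norm_nonneg _), ofReal_norm]

/-- a coupling of probability measures is a probability measure -/
lemma coupling_isProbability {μ ν : Measure E} {π : Measure (E × E)} (hμ : IsProbabilityMeasure μ)
    (hπ : IsPairCoupling μ ν π) : IsProbabilityMeasure π := by
  constructor
  have : μ univ = 1 := hμ.measure_univ
  rw [← hπ.1, Measure.map_apply measurable_fst MeasurableSet.univ] at this
  simpa using this

/-- a coupling of measures carried by `Y` is carried by `Y × Y` -/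
lemma coupling_ae_mem {Y : Set E} (hYc : IsCompact Y) {μ ν : Measure E} {π : Measure (E × E)}
    (hμ : IsProbabilityOn Y μ) (hν : IsProbabilityOn Y ν) (hπ : IsPairCoupling μ ν π) :
    ∀ᵐ p ∂π, p.1 ∈ Y ∧ p.2 ∈ Y := by
  have hYm : MeasurableSet Y := hYc.isClosed.measurableSet
  have h1 : π (Prod.fst ⁻¹' Yᶜ) = 0 := by
    rw [← Measure.map_apply measurable_fst hYm.compl, hπ.1]; exact hμ.2
  have h2 : π (Prod.snd ⁻¹' Yᶜ) = 0 := by
    rw [← Measure.map_apply measurable_snd hYm.compl, hπ.2]; exact hν.2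
  have a1 : ∀ᵐ p ∂π, p.1 ∈ Y := by
    rw [ae_iff]; exact h1
  have a2 : ∀ᵐ p ∂π, p.2 ∈ Y := by
    rw [ae_iff]; exact h2
  filter_upwards [a1, a2] with p u v using ⟨u, v⟩

/-- the cost of a coupling of measures carried by a bounded set is bounded -/
theorem quadCost_le {Y : Set E} (hYc : IsCompact Y) {R : ℝ} (hR : ∀ y ∈ Y, ‖y‖ ≤ R)
    {μ ν : Measure E} {π : Measure (E × E)}
    (hμ : IsProbabilityOn Y μ) (hν : IsProbabilityOn Y ν) (hπ : IsPairCoupling μ ν π) :
    quadCost π ≤ ENNReal.ofReal ((2 * R) ^ 2) := by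
  haveI := coupling_isProbability hμ.1 hπ
  have hae := coupling_ae_mem hYc hμ hν hπ
  unfold quadCost
  calc ∫⁻ p, ‖p.1 - p.2‖ₑ ^ 2 ∂π ≤ ∫⁻ _p, ENNReal.ofReal ((2 * R) ^ 2) ∂π := by
        apply lintegral_mono_ae
        filter_upwards [hae] with p hp
        rw [← ofReal_norm, ← ENNReal.ofReal_pow (norm_nonneg _)]
        apply ENNReal.ofReal_le_ofReal
        apply pow_le_pow_left₀ (norm_nonneg _)
        calc ‖p.1 - p.2‖ ≤ ‖p.1‖ + ‖p.2‖ := norm_sub_le _ _
          _ ≤ 2 * R := by linarith [hR _ hp.1, hR _ hp.2]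
    _ = ENNReal.ofReal ((2 * R) ^ 2) := by simp

theorem quadCost_ne_top {Y : Set E} (hYc : IsCompact Y) {μ ν : Measure E} {π : Measure (E × E)}
    (hμ : IsProbabilityOn Y μ) (hν : IsProbabilityOn Y ν) (hπ : IsPairCoupling μ ν π) :
    quadCost π ≠ ∞ := by
  obtain ⟨R, hR⟩ := hYc.isBounded.exists_norm_le
  exact ne_top_of_le_ne_top ENNReal.ofReal_ne_top (quadCost_le hYc hR hμ hν hπ)

/-- quantisation of a coupling, with the estimate of the discrete cost -/
theorem quantise {Y : Set E} (hYc : IsCompact Y) {R : ℝ} (hR : ∀ y ∈ Y, ‖y‖ ≤ R)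
    {μ ν : Measure E} {π : Measure (E × E)}
    (hμ : IsProbabilityOn Y μ) (hν : IsProbabilityOn Y ν) (hπ : IsPairCoupling μ ν π)
    {ε : ℝ} (hε : 0 < ε) (hε1 : ε ≤ 1) (q : SimpleFunc E E) (hqY : ∀ y, q y ∈ Y)
    (hq : ∀ y ∈ Y, ‖q y - y‖ ≤ ε) :
    ∃ (N : ℕ) (w : Fin N → ℝ) (p0 p1 : Fin N → E),
      (∀ l, 0 < w l) ∧ ∑ l, w l = 1 ∧ (∀ l, p0 l ∈ Y) ∧ (∀ l, p1 l ∈ Y) ∧
      μ.map q = ∑ l, ENNReal.ofReal (w l) • Measure.dirac (p0 l) ∧
      ν.map q = ∑ l, ENNReal.ofReal (w l) • Measure.dirac (p1 l) ∧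
      ∑ l, w l * ‖p0 l - p1 l‖ ^ 2 ≤ (quadCost π).toReal + (8 * R + 4) * ε := by
  haveI := coupling_isProbability hμ.1 hπ
  have hae := coupling_ae_mem hYc hμ hν hπ
  have hR0 : 0 ≤ R := (norm_nonneg _).trans (hR _ (hqY 0))
  obtain ⟨N, w, p0, p1, hw, hsum, hp0, hp1, hm0, hm1, hcost⟩ := discretise hμ.1 hπ q
  refine ⟨N, w, p0, p1, hw, hsum, ?_, ?_, hm0, hm1, ?_⟩
  · intro l
    obtain ⟨y, hy⟩ := hp0 l
    rw [← hy]; exact hqY y
  · intro l
    obtain ⟨y, hy⟩ := hp1 l
    rw [← hy]; exact hqY y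
  · have hc0 : 0 ≤ (8 * R + 4) * ε := by positivity
    have hle : ∫⁻ p, ‖q p.1 - q p.2‖ₑ ^ 2 ∂π ≤ quadCost π + ENNReal.ofReal ((8 * R + 4) * ε) := by
      unfold quadCost
      calc ∫⁻ p, ‖q p.1 - q p.2‖ₑ ^ 2 ∂π
          ≤ ∫⁻ p, (‖p.1 - p.2‖ₑ ^ 2 + ENNReal.ofReal ((8 * R + 4) * ε)) ∂π := by
            apply lintegral_mono_ae
            filter_upwards [hae] with p hp
            rw [← ofReal_norm, ← ofReal_norm, ← ENNReal.ofReal_pow (norm_nonneg _),
              ← ENNReal.ofReal_pow (norm_nonneg _), ← ENNReal.ofReal_add (by positivity) hc0]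
            apply ENNReal.ofReal_le_ofReal
            have e1 := hq _ hp.1
            have e2 := hq _ hp.2
            have e3 : ‖p.1 - p.2‖ ≤ 2 * R := by
              calc ‖p.1 - p.2‖ ≤ ‖p.1‖ + ‖p.2‖ := norm_sub_le _ _
                _ ≤ 2 * R := by linarith [hR _ hp.1, hR _ hp.2]
            have e4 : ‖q p.1 - q p.2‖ ≤ ‖p.1 - p.2‖ + 2 * ε := by
              have : q p.1 - q p.2 = (q p.1 - p.1) + (p.1 - p.2) - (q p.2 - p.2) := by abel
              rw [this]
              calc ‖(q p.1 - p.1) + (p.1 - p.2) - (q p.2 - p.2)‖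
                  ≤ ‖(q p.1 - p.1) + (p.1 - p.2)‖ + ‖q p.2 - p.2‖ := norm_sub_le _ _
                _ ≤ ‖q p.1 - p.1‖ + ‖p.1 - p.2‖ + ‖q p.2 - p.2‖ := by
                    gcongr; exact norm_add_le _ _
                _ ≤ ‖p.1 - p.2‖ + 2 * ε := by linarith
            have e5 : ‖q p.1 - q p.2‖ ^ 2 ≤ (‖p.1 - p.2‖ + 2 * ε) ^ 2 :=
              pow_le_pow_left₀ (norm_nonneg _) e4 2
            have e6 : ε ^ 2 ≤ ε := by nlinarith
            have e7 : ε * ‖p.1 - p.2‖ ≤ ε * (2 * R) := mul_le_mul_of_nonneg_left e3 hε.le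
            nlinarith
        _ = ∫⁻ p, ‖p.1 - p.2‖ₑ ^ 2 ∂π + ENNReal.ofReal ((8 * R + 4) * ε) := by
            rw [lintegral_add_right _ measurable_const]
            simp
    rw [← hcost] at hle
    have hne := quadCost_ne_top hYc hμ hν hπ
    have h3 := ENNReal.toReal_mono (ENNReal.add_ne_top.2 ⟨hne, ENNReal.ofReal_ne_top⟩) hle
    rw [ENNReal.toReal_ofReal (Finset.sum_nonneg fun l _ => by have := (hw l).le; positivity),
      ENNReal.toReal_add hne ENNReal.ofReal_ne_top, ENNReal.toReal_ofReal hc0] at h3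
    exact h3

end Crest.Agent.S0109Q
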