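import Mathlib
import Crest.Prelude.Def_QuadraticTransport
import Crest.Agent.S0109_ApproxB
import Crest.Agent.S0109_Quant

/-! ROW82 / S0109, package L8 (helper16), part C: from the discrete theorem to general measures. -/

set_option autoImplicit false
open MeasureTheory Filter Topology
open scoped ENNReal NNReal BoundedContinuousFunction
open Crest.AnalysisR.OT

namespace Crest.Agent.S0109A

variable {d : ℕ}

local notation "E" => EuclideanSpace ℝ (Fin d)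

/-- the discrete theorem, in the form consumed by the approximation argument -/
def Disc (K : Set E) (R : ℝ≥0) (A : ℝ≥0) : Prop :=
  ∀ (N : ℕ) (w : Fin N → ℝ) (p0 p1 : Fin N → E), (∀ l, 0 < w l) → ∑ l, w l = 1 →
    (∀ l, ‖p0 l‖ ≤ R) → (∀ l, ‖p1 l‖ ≤ R) →
    ∃ (φ0 φ1 : E → ℝ) (T0 T1 : E → E),
      Pot K R (∑ l, ENNReal.ofReal (w l) • Measure.dirac (p0 l)) φ0 T0 ∧
      Pot K R (∑ l, ENNReal.ofReal (w l) • Measure.dirac (p1 l)) φ1 T1 ∧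
      ∫⁻ x, ‖T0 x - T1 x‖ₑ ^ 2 ∂(uniformProbOn K) ≤
        A * (ENNReal.ofReal (∑ l, w l * ‖p0 l - p1 l‖ ^ 2)) ^ (1 / 3 : ℝ)

lemma tendsto_integral_map_approx {Y : Set E} {μ : Measure E} (hμ : IsProbabilityOn Y μ)
    (q : ℕ → SimpleFunc E E) (hq : ∀ y ∈ Y, Tendsto (fun k => q k y) atTop (𝓝 y)) (f : E →ᵇ ℝ) :
    Tendsto (fun k => ∫ y, f y ∂(μ.map (q k))) atTop (𝓝 (∫ y, f y ∂μ)) := by
  have : IsProbabilityMeasure μ := hμ.1
  have hY : ∀ᵐ y ∂μ, y ∈ Y := by rw [ae_iff]; exact hμ.2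
  have h1 : ∀ k, ∫ y, f y ∂(μ.map (q k)) = ∫ y, f (q k y) ∂μ := fun k =>
    integral_map (q k).measurable.aemeasurable f.continuous.measurable.aestronglyMeasurable
  simp only [h1]
  refine tendsto_integral_of_dominated_convergence (fun _ => ‖f‖)
    (fun k => (f.continuous.measurable.comp (q k).measurable).aestronglyMeasurable)
    (integrable_const _) (fun k => ae_of_all _ (fun x => f.norm_coe_le_norm _)) ?_
  exact hY.mono (fun y hy => (f.continuous.tendsto _).comp (hq y hy))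

lemma tendsto_cost_approx {Y : Set E} {R : ℝ≥0} (hYR : ∀ y ∈ Y, ‖y‖ ≤ R) {μ ν : Measure E}
    (hμ : IsProbabilityOn Y μ) (hν : IsProbabilityOn Y ν) (hYm : MeasurableSet Y)
    {π : Measure (E × E)} (hπ : IsPairCoupling μ ν π)
    (q : ℕ → SimpleFunc E E) (hqY : ∀ k y, q k y ∈ Y)
    (hq : ∀ y ∈ Y, Tendsto (fun k => q k y) atTop (𝓝 y)) :
    Tendsto (fun k => ∫⁻ p, ‖q k p.1 - q k p.2‖ₑ ^ 2 ∂π) atTop (𝓝 (quadCost π)) := by
  have hπ1 : π Set.univ = 1 := by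
    have h := hμ.1.measure_univ
    rw [← hπ.1, Measure.map_apply measurable_fst MeasurableSet.univ] at h
    simpa using h
  have hY1 : ∀ᵐ p ∂π, p.1 ∈ Y := by
    have h := hμ.2
    rw [← hπ.1, Measure.map_apply measurable_fst hYm.compl] at h
    rw [ae_iff]; exact h
  have hY2 : ∀ᵐ p ∂π, p.2 ∈ Y := by
    have h := hν.2
    rw [← hπ.2, Measure.map_apply measurable_snd hYm.compl] at h
    rw [ae_iff]; exact h
  refine tendsto_lintegral_of_dominated_convergence (fun _ => ((2 * R : ℝ≥0) : ℝ≥0∞) ^ 2)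
    (fun k => ?_) (fun k => ?_) ?_ ?_
  · exact ((((q k).measurable.comp measurable_fst).sub
      ((q k).measurable.comp measurable_snd)).enorm).pow_const 2
  · refine ae_of_all _ (fun p => ?_)
    refine pow_le_pow_left₀ zero_le ?_ 2
    rw [enorm_le_coe]
    have h1 : ‖q k p.1 - q k p.2‖ ≤ R + R :=
      (norm_sub_le _ _).trans (add_le_add (hYR _ (hqY k _)) (hYR _ (hqY k _)))
    rw [← NNReal.coe_le_coe]
    simpa [two_mul] using h1
  · rw [lintegral_const, hπ1, mul_one]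
    exact ENNReal.pow_ne_top ENNReal.coe_ne_top
  · filter_upwards [hY1, hY2] with p h1 h2
    have h3 : Tendsto (fun k => q k p.1 - q k p.2) atTop (𝓝 (p.1 - p.2)) :=
      (hq _ h1).sub (hq _ h2)
    exact ((ENNReal.continuous_pow 2).tendsto _).comp ((continuous_enorm.tendsto _).comp h3)

theorem stability_of_disc {K : Set E} (hKc : IsCompact K) (hKv : Convex ℝ K)
    (hKi : (interior K).Nonempty) {Y : Set E} (hYc : IsCompact Y) (hYn : Y.Nonempty)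
    {R A : ℝ≥0} (hYR : ∀ y ∈ Y, ‖y‖ ≤ R) (hD : Disc K R A)
    {μ ν : Measure E} (hμ : IsProbabilityOn Y μ) (hν : IsProbabilityOn Y ν) {Tμ Tν : E → E}
    (hTμ : IsOptimalMap (uniformProbOn K) μ Tμ) (hTν : IsOptimalMap (uniformProbOn K) ν Tν)
    {π : Measure (E × E)} (hπ : IsPairCoupling μ ν π) :
    ∫⁻ x, ‖Tμ x - Tν x‖ₑ ^ 2 ∂(uniformProbOn K) ≤ A * quadCost π ^ (1 / 3 : ℝ) := by
  obtain ⟨y0, hy0⟩ := hYn
  let q : ℕ → SimpleFunc E E := fun k => SimpleFunc.approxOn id measurable_id Y y0 hy0 k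
  have hqY : ∀ k y, q k y ∈ Y := fun k y => SimpleFunc.approxOn_mem measurable_id hy0 k y
  have hq : ∀ y ∈ Y, Tendsto (fun k => q k y) atTop (𝓝 y) := fun y hy =>
    SimpleFunc.tendsto_approxOn measurable_id hy0 (subset_closure hy)
  have hdata : ∀ k, ∃ (φ0 φ1 : E → ℝ) (T0 T1 : E → E),
      Pot K R (μ.map (q k)) φ0 T0 ∧ Pot K R (ν.map (q k)) φ1 T1 ∧
      ∫⁻ x, ‖T0 x - T1 x‖ₑ ^ 2 ∂(uniformProbOn K) ≤
        A * (∫⁻ p, ‖q k p.1 - q k p.2‖ₑ ^ 2 ∂π) ^ (1 / 3 : ℝ) := by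
    intro k
    obtain ⟨N, w, p0, p1, hw, hw1, hp0, hp1, hm0, hm1, hc⟩ := Crest.Agent.S0109Q.discretise hμ.1 hπ (q k)
    have hb0 : ∀ l, ‖p0 l‖ ≤ R := fun l => by
      obtain ⟨y, hy⟩ := hp0 l
      rw [← hy]; exact hYR _ (hqY k y)
    have hb1 : ∀ l, ‖p1 l‖ ≤ R := fun l => by
      obtain ⟨y, hy⟩ := hp1 l
      rw [← hy]; exact hYR _ (hqY k y)
    obtain ⟨φ0, φ1, T0, T1, h0, h1, h2⟩ := hD N w p0 p1 hw hw1 hb0 hb1
    refine ⟨φ0, φ1, T0, T1, ?_, ?_, ?_⟩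
    · rw [hm0]; exact h0
    · rw [hm1]; exact h1
    · rw [← hc]; exact h2
  choose φ0 φ1 T0 T1 hP0 hP1 hest using hdata
  obtain ⟨ψ1, hψ1, hlim1⟩ := exists_subseq_tendsto_optimalMap hKc hKv hKi hYR hμ hTμ
    (fun k => μ.map (q k)) φ0 T0 hP0 (tendsto_integral_map_approx hμ q hq)
  obtain ⟨ψ2, hψ2, hlim2⟩ := exists_subseq_tendsto_optimalMap hKc hKv hKi hYR hν hTν
    (fun k => ν.map (q (ψ1 k))) (fun k => φ1 (ψ1 k)) (fun k => T1 (ψ1 k)) (fun k => hP1 (ψ1 k))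
    (fun f => (tendsto_integral_map_approx hν q hq f).comp hψ1.tendsto_atTop)
  set χ : ℕ → ℕ := fun k => ψ1 (ψ2 k) with hχ
  have hχt : Tendsto χ atTop atTop := hψ1.tendsto_atTop.comp hψ2.tendsto_atTop
  have hae : ∀ᵐ x ∂(uniformProbOn K), Tendsto (fun k => ‖T0 (χ k) x - T1 (χ k) x‖ₑ ^ 2) atTop
      (𝓝 (‖Tμ x - Tν x‖ₑ ^ 2)) := by
    filter_upwards [hlim1, hlim2] with x h1 h2
    have h3 : Tendsto (fun k => T0 (χ k) x - T1 (χ k) x) atTop (𝓝 (Tμ x - Tν x)) :=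
      (h1.comp hψ2.tendsto_atTop).sub h2
    exact ((ENNReal.continuous_pow 2).tendsto _).comp ((continuous_enorm.tendsto _).comp h3)
  have hfatou : ∫⁻ x, ‖Tμ x - Tν x‖ₑ ^ 2 ∂(uniformProbOn K) ≤
      liminf (fun k => ∫⁻ x, ‖T0 (χ k) x - T1 (χ k) x‖ₑ ^ 2 ∂(uniformProbOn K)) atTop := by
    have h1 : ∫⁻ x, ‖Tμ x - Tν x‖ₑ ^ 2 ∂(uniformProbOn K) =
        ∫⁻ x, liminf (fun k => ‖T0 (χ k) x - T1 (χ k) x‖ₑ ^ 2) atTop ∂(uniformProbOn K) :=
      lintegral_congr_ae (hae.mono (fun x hx => hx.liminf_eq.symm))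
    rw [h1]
    exact lintegral_liminf_le (fun k => (((hP0 (χ k)).meas.sub (hP1 (χ k)).meas).enorm).pow_const 2)
  have hcost : Tendsto (fun k => (A : ℝ≥0∞) * (∫⁻ p, ‖q (χ k) p.1 - q (χ k) p.2‖ₑ ^ 2 ∂π) ^ (1 / 3 : ℝ))
      atTop (𝓝 (A * quadCost π ^ (1 / 3 : ℝ))) := by
    have h1 := (tendsto_cost_approx hYR hμ hν hYc.measurableSet hπ q hqY hq).comp hχt
    have h2 := ((ENNReal.continuous_rpow_const (y := (1 / 3 : ℝ))).tendsto _).comp h1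
    exact ENNReal.Tendsto.const_mul h2 (Or.inr ENNReal.coe_ne_top)
  calc ∫⁻ x, ‖Tμ x - Tν x‖ₑ ^ 2 ∂(uniformProbOn K)
      ≤ liminf (fun k => ∫⁻ x, ‖T0 (χ k) x - T1 (χ k) x‖ₑ ^ 2 ∂(uniformProbOn K)) atTop := hfatou
    _ ≤ liminf (fun k => (A : ℝ≥0∞) * (∫⁻ p, ‖q (χ k) p.1 - q (χ k) p.2‖ₑ ^ 2 ∂π) ^ (1 / 3 : ℝ))
          atTop := liminf_le_liminf (Eventually.of_forall (fun k => hest (χ k)))
    _ = A * quadCost π ^ (1 / 3 : ℝ) := hcost.liminf_eq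

end Crest.Agent.S0109A
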