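import Crest.Agent.S0109_Cells1

/-! # Row 82: Laguerre cells and the Laguerre map (package CELLS-2) -/

set_option autoImplicit false
open MeasureTheory
open scoped ENNReal NNReal RealInnerProductSpace
open Crest.AnalysisR.OT

namespace Crest.Agent.S0109D

variable {d : ℕ} {ι : Type*} [Fintype ι] {K : Set (E d)}

/-! ## cells -/

lemma cell_subset (y : ι → E d) (c : ι → ℝ) (i : ι) : cell K y c i ⊆ K := fun _ hx => hx.1

lemma Body.isClosed_cell (hK : Body K) (y : ι → E d) (c : ι → ℝ) (i : ι) :
    IsClosed (cell K y c i) := by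
  have : cell K y c i = K ∩ ⋂ j, {x | ⟪x, y j⟫ - c j ≤ ⟪x, y i⟫ - c i} := by
    ext x; simp [cell]
  rw [this]
  exact hK.cpt.isClosed.inter
    (isClosed_iInter fun j => isClosed_le (by fun_prop) (by fun_prop))

lemma Body.measurableSet_cell (hK : Body K) (y : ι → E d) (c : ι → ℝ) (i : ι) :
    MeasurableSet (cell K y c i) := (hK.isClosed_cell y c i).measurableSet

lemma iUnion_cell [Nonempty ι] (y : ι → E d) (c : ι → ℝ) : ⋃ i, cell K y c i = K := by
  ext x
  simp only [Set.mem_iUnion]
  constructor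
  · rintro ⟨i, hi⟩; exact hi.1
  · intro hx
    obtain ⟨i, hi⟩ := exists_pot_eq y c x
    exact ⟨i, mem_cell_iff.2 ⟨hx, hi⟩⟩

/-- an affine hyperplane is Lebesgue null -/
lemma volume_hyperplane (v : E d) (hv : v ≠ 0) (a : ℝ) : volume {x : E d | ⟪x, v⟫ = a} = 0 := by
  rcases Set.eq_empty_or_nonempty {x : E d | ⟪x, v⟫ = a} with h | ⟨x₀, hx₀⟩
  · rw [h]; simp
  have hx₀' : ⟪x₀, v⟫ = a := hx₀
  set S : Submodule ℝ (E d) := (ℝ ∙ v)ᗮ with hS
  have hne : S ≠ ⊤ := by
    intro htop
    have hvS : v ∈ S := by rw [htop]; trivial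
    rw [hS, Submodule.mem_orthogonal_singleton_iff_inner_right] at hvS
    exact hv (inner_self_eq_zero.1 hvS)
  have hset : {x : E d | ⟪x, v⟫ = a} = (fun x => x + (-x₀)) ⁻¹' (S : Set (E d)) := by
    ext x
    simp only [Set.mem_ofPred_eq, Set.mem_preimage, SetLike.mem_coe, hS,
      Submodule.mem_orthogonal_singleton_iff_inner_left, inner_add_left, inner_neg_left, hx₀']
    constructor
    · intro h; rw [h]; ring
    · intro h; linarith
  rw [hset, measure_preimage_add_right]
  exact Measure.addHaar_submodule volume S hne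

lemma cell_inter_null {y : ι → E d} (hy : Function.Injective y) (c : ι → ℝ) {i j : ι}
    (hij : i ≠ j) : volume (cell K y c i ∩ cell K y c j) = 0 := by
  have hv : y i - y j ≠ 0 := sub_ne_zero.2 (fun h => hij (hy h))
  refine measure_mono_null ?_ (volume_hyperplane (y i - y j) hv (c i - c j))
  rintro x ⟨hi, hj⟩
  have h1 := hi.2 j
  have h2 := hj.2 i
  show ⟪x, y i - y j⟫ = c i - c j
  rw [inner_sub_right]
  linarith

lemma cell_inter_null' {y : ι → E d} (hy : Function.Injective y) (c : ι → ℝ) {i j : ι}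
    (hij : i ≠ j) : uniformProbOn K (cell K y c i ∩ cell K y c j) = 0 :=
  rho_ac K (cell_inter_null hy c hij)

lemma Body.midpoint_mem_cell (hK : Body K) {y : ι → E d} {c₁ c₂ : ι → ℝ} {i : ι} {x z : E d}
    (hx : x ∈ cell K y c₁ i) (hz : z ∈ cell K y c₂ i) :
    (1 / 2 : ℝ) • (x + z) ∈ cell K y (fun j => (c₁ j + c₂ j) / 2) i := by
  refine ⟨?_, fun j => ?_⟩
  · rw [smul_add]
    exact hK.cvx hx.1 hz.1 (by norm_num) (by norm_num) (by norm_num)
  · have h1 := hx.2 j
    have h2 := hz.2 j
    simp only [inner_smul_left, inner_add_left]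
    simp only [one_div, map_inv₀, RCLike.conj_to_real]
    linarith

lemma scell_subset_cell (y : ι → E d) (c : ι → ℝ) (i : ι) : scell K y c i ⊆ cell K y c i := by
  intro x hx
  refine ⟨hx.1, fun j => ?_⟩
  by_cases hj : j = i
  · rw [hj]
  · exact (hx.2 j hj).le

lemma Body.measurableSet_scell (hK : Body K) (y : ι → E d) (c : ι → ℝ) (i : ι) :
    MeasurableSet (scell K y c i) := by
  have : scell K y c i = K ∩ ⋂ j, {x | j ≠ i → ⟪x, y j⟫ - c j < ⟪x, y i⟫ - c i} := by
    ext x; simp [scell]
  rw [this]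
  refine hK.measurableSet.inter (MeasurableSet.iInter fun j => ?_)
  by_cases hj : j = i
  · simp [hj]
  · simp only [ne_eq, hj, not_false_eq_true, forall_const]
    exact (isOpen_lt (by fun_prop) (by fun_prop)).measurableSet

lemma scell_disjoint (y : ι → E d) (c : ι → ℝ) {i j : ι} (hij : i ≠ j) :
    Disjoint (scell K y c i) (scell K y c j) := by
  rw [Set.disjoint_left]
  intro x hi hj
  exact absurd (hi.2 j hij.symm) (not_lt.2 (hj.2 i hij).le)

lemma cell_diff_scell_subset (y : ι → E d) (c : ι → ℝ) (i : ι) :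
    cell K y c i \ scell K y c i ⊆ ⋃ j, ⋃ (_ : j ≠ i), cell K y c i ∩ cell K y c j := by
  rintro x ⟨hx, hnx⟩
  have : ∃ j, j ≠ i ∧ ¬ (⟪x, y j⟫ - c j < ⟪x, y i⟫ - c i) := by
    by_contra hcon
    apply hnx
    refine ⟨hx.1, fun j hj => ?_⟩
    by_contra h
    exact hcon ⟨j, hj, h⟩
  obtain ⟨j, hj, hlt⟩ := this
  simp only [Set.mem_iUnion]
  refine ⟨j, hj, hx, hx.1, fun k => ?_⟩
  exact (hx.2 k).trans (not_lt.1 hlt)

lemma cell_diff_scell_null {y : ι → E d} (hy : Function.Injective y) (c : ι → ℝ) (i : ι) :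
    volume (cell K y c i \ scell K y c i) = 0 := by
  refine measure_mono_null (cell_diff_scell_subset y c i) ?_
  refine measure_iUnion_null fun j => measure_iUnion_null fun hj => ?_
  exact cell_inter_null hy c hj.symm

lemma Body.ae_exists_mem_scell [Nonempty ι] (hK : Body K) {y : ι → E d}
    (hy : Function.Injective y) (c : ι → ℝ) :
    ∀ᵐ x ∂(uniformProbOn K), ∃ i, x ∈ scell K y c i := by
  have hnull : uniformProbOn K (⋃ i, cell K y c i \ scell K y c i) = 0 :=
    rho_ac K (measure_iUnion_null fun i => cell_diff_scell_null hy c i)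
  have h2 : ∀ᵐ x ∂(uniformProbOn K), x ∉ ⋃ i, cell K y c i \ scell K y c i :=
    measure_eq_zero_iff_ae_notMem.1 hnull
  filter_upwards [hK.ae_mem, h2] with x hx hx2
  rw [← iUnion_cell (K := K) y c] at hx
  obtain ⟨i, hi⟩ := Set.mem_iUnion.1 hx
  refine ⟨i, ?_⟩
  by_contra hn
  exact hx2 (Set.mem_iUnion.2 ⟨i, hi, hn⟩)

/-- decomposition of an integral over the cells -/
lemma Body.integral_eq_sum_cells [Nonempty ι] (hK : Body K) {y : ι → E d}
    (hy : Function.Injective y) (c : ι → ℝ)
    {F : Type*} [NormedAddCommGroup F] [NormedSpace ℝ F] {g : E d → F}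
    (hg : Integrable g (uniformProbOn K)) :
    ∫ x, g x ∂(uniformProbOn K) = ∑ i, ∫ x in cell K y c i, g x ∂(uniformProbOn K) := by
  have h1 : ∫ x in ⋃ i, cell K y c i, g x ∂(uniformProbOn K)
      = ∑' i, ∫ x in cell K y c i, g x ∂(uniformProbOn K) := by
    apply integral_iUnion_ae
    · exact fun i => (hK.measurableSet_cell y c i).nullMeasurableSet
    · intro i j hij
      exact cell_inter_null' hy c hij
    · exact hg.integrableOn
  rw [tsum_fintype, iUnion_cell, Measure.restrict_eq_self_of_ae_mem hK.ae_mem] at h1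
  exact h1

/-! ## the Laguerre map -/

lemma lag_eq_of_mem_scell {y : ι → E d} {c : ι → ℝ} {x : E d} {i : ι} (h : x ∈ scell K y c i) :
    lag K y c x = y i := by
  unfold lag
  rw [Finset.sum_eq_single i]
  · exact Set.indicator_of_mem h _
  · intro j _ hj
    exact Set.indicator_of_notMem (Set.disjoint_left.1 (scell_disjoint y c hj.symm) h) _
  · intro hi
    exact absurd (Finset.mem_univ i) hi

lemma lag_eq_zero_of_forall_notMem {y : ι → E d} {c : ι → ℝ} {x : E d}
    (h : ∀ i, x ∉ scell K y c i) : lag K y c x = 0 := by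
  unfold lag
  exact Finset.sum_eq_zero fun i _ => Set.indicator_of_notMem (h i) _

lemma Body.measurable_lag (hK : Body K) (y : ι → E d) (c : ι → ℝ) : Measurable (lag K y c) := by
  unfold lag
  exact Finset.measurable_sum _ fun i _ =>
    measurable_const.indicator (hK.measurableSet_scell y c i)

lemma lag_norm_le (y : ι → E d) (c : ι → ℝ) (R : ℝ) (hR : 0 ≤ R) (hy : ∀ i, ‖y i‖ ≤ R) (x : E d) :
    ‖lag K y c x‖ ≤ R := by
  by_cases h : ∃ i, x ∈ scell K y c i
  · obtain ⟨i, hi⟩ := h
    rw [lag_eq_of_mem_scell hi]; exact hy i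
  · rw [lag_eq_zero_of_forall_notMem (fun i hi => h ⟨i, hi⟩)]
    simpa using hR

lemma Body.lag_subgrad [Nonempty ι] (hK : Body K) {y : ι → E d} (hy : Function.Injective y)
    (c : ι → ℝ) :
    ∀ᵐ x ∂(uniformProbOn K), SubgradOn K (pot y c) x (lag K y c x) := by
  filter_upwards [hK.ae_exists_mem_scell hy c] with x ⟨i, hi⟩
  intro z _
  rw [lag_eq_of_mem_scell hi]
  exact subgrad_of_mem_cell (scell_subset_cell y c i hi) z

lemma Body.rho_scell_eq (hK : Body K) {y : ι → E d} (hy : Function.Injective y) (c : ι → ℝ) (i : ι) :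
    uniformProbOn K (scell K y c i) = uniformProbOn K (cell K y c i) := by
  apply le_antisymm (measure_mono (scell_subset_cell y c i))
  have h0 : uniformProbOn K (cell K y c i \ scell K y c i) = 0 :=
    rho_ac K (cell_diff_scell_null hy c i)
  calc uniformProbOn K (cell K y c i)
      ≤ uniformProbOn K (scell K y c i ∪ (cell K y c i \ scell K y c i)) := by
        apply measure_mono
        intro x hx
        by_cases h : x ∈ scell K y c i
        · exact Or.inl h
        · exact Or.inr ⟨hx, h⟩
    _ ≤ uniformProbOn K (scell K y c i) + uniformProbOn K (cell K y c i \ scell K y c i) :=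
        measure_union_le _ _
    _ = uniformProbOn K (scell K y c i) := by rw [h0, add_zero]

lemma Body.map_lag [Nonempty ι] (hK : Body K) {y : ι → E d} (hy : Function.Injective y)
    {c : ι → ℝ} {m : ι → ℝ} (h : Solves K (fun _ => 1) y m c) :
    (uniformProbOn K).map (lag K y c) = ∑ i, ENNReal.ofReal (m i) • Measure.dirac (y i) := by
  haveI := hK.prob
  have hm : ∀ i, uniformProbOn K (scell K y c i) = ENNReal.ofReal (m i) := by
    intro i
    rw [hK.rho_scell_eq hy c i]
    have := h i
    simp only [integral_const, smul_eq_mul, mul_one] at this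
    rw [← this]
    simp [Measure.real]
  ext s hs
  rw [Measure.map_apply (hK.measurable_lag y c) hs]
  simp only [Measure.coe_finset_sum, Measure.coe_smul, Finset.sum_apply, Pi.smul_apply,
    Measure.dirac_apply' _ hs, smul_eq_mul]
  have hcov : uniformProbOn K (lag K y c ⁻¹' s)
      = uniformProbOn K (⋃ i, (lag K y c ⁻¹' s) ∩ scell K y c i) := by
    apply measure_congr
    filter_upwards [hK.ae_exists_mem_scell hy c] with x ⟨i, hi⟩
    apply propext
    constructor
    · intro hx
      exact Set.mem_iUnion.2 ⟨i, hx, hi⟩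
    · intro hx
      obtain ⟨j, hj, _⟩ := Set.mem_iUnion.1 hx
      exact hj
  rw [hcov, measure_iUnion]
  · rw [tsum_fintype]
    refine Finset.sum_congr rfl fun i _ => ?_
    by_cases hi : y i ∈ s
    · have : lag K y c ⁻¹' s ∩ scell K y c i = scell K y c i := by
        ext x
        constructor
        · exact fun hx => hx.2
        · intro hx
          refine ⟨?_, hx⟩
          show lag K y c x ∈ s
          rw [lag_eq_of_mem_scell hx]; exact hi
      rw [this, hm i]
      simp [hi]
    · have : lag K y c ⁻¹' s ∩ scell K y c i = ∅ := by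
        ext x
        simp only [Set.mem_inter_iff, Set.mem_preimage, Set.mem_empty_iff_false, iff_false, not_and]
        intro hx hx2
        rw [lag_eq_of_mem_scell hx2] at hx
        exact hi hx
      rw [this]
      simp [hi]
  · intro i j hij
    exact (scell_disjoint y c hij).mono Set.inter_subset_right Set.inter_subset_right
  · intro i
    exact ((hK.measurable_lag y c) hs).inter (hK.measurableSet_scell y c i)

end Crest.Agent.S0109D
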