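import Crest.Agent.S0109_Defs

/-! # Row 82: basic lemmas on the uniform measure and the potentials (package CELLS-1) -/

set_option autoImplicit false
open MeasureTheory
open scoped ENNReal NNReal RealInnerProductSpace
open Crest.AnalysisR.OT

namespace Crest.Agent.S0109D

variable {d : ℕ} {ι : Type*} [Fintype ι] {K : Set (E d)}

/-! ## the uniform probability measure -/

lemma Body.measurableSet (hK : Body K) : MeasurableSet K := hK.cpt.measurableSet

lemma Body.vol_pos (hK : Body K) : 0 < volume K :=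
  lt_of_lt_of_le (isOpen_interior.measure_pos volume hK.int_ne) (measure_mono interior_subset)

lemma Body.vol_lt_top (hK : Body K) : volume K < ⊤ := hK.cpt.measure_lt_top

lemma Body.prob (hK : Body K) : IsProbabilityMeasure (uniformProbOn K) := by
  constructor
  simp only [uniformProbOn, Measure.smul_apply, Measure.restrict_apply MeasurableSet.univ,
    Set.univ_inter, smul_eq_mul]
  exact ENNReal.inv_mul_cancel hK.vol_pos.ne' hK.vol_lt_top.ne

lemma rho_ac (K : Set (E d)) : uniformProbOn K ≪ volume := by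
  unfold uniformProbOn
  exact (Measure.smul_absolutelyContinuous).trans Measure.restrict_le_self.absolutelyContinuous

lemma Body.ae_mem (hK : Body K) : ∀ᵐ x ∂(uniformProbOn K), x ∈ K := by
  unfold uniformProbOn
  exact Measure.smul_absolutelyContinuous.ae_le (ae_restrict_mem hK.measurableSet)

lemma Body.ae_mem_interior (hK : Body K) : ∀ᵐ x ∂(uniformProbOn K), x ∈ interior K := by
  have h0 : volume (frontier K) = 0 := hK.cvx.addHaar_frontier volume
  have h1 : ∀ᵐ x ∂(uniformProbOn K), x ∉ frontier K :=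
    (rho_ac K).ae_le (measure_eq_zero_iff_ae_notMem.mp h0)
  filter_upwards [hK.ae_mem, h1] with x hx hx'
  by_contra hcon
  exact hx' ⟨subset_closure hx, hcon⟩

lemma Body.rho_apply (hK : Body K) (s : Set (E d)) :
    uniformProbOn K s = (volume K)⁻¹ * volume (s ∩ K) := by
  simp only [uniformProbOn, Measure.smul_apply, smul_eq_mul,
    Measure.restrict_apply' hK.measurableSet]

lemma Body.integral_rho (_hK : Body K) {F : Type*} [NormedAddCommGroup F] [NormedSpace ℝ F]
    (g : E d → F) : ∫ x, g x ∂(uniformProbOn K) = (volume K).toReal⁻¹ • ∫ x in K, g x := by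
  unfold uniformProbOn
  rw [integral_smul_measure, ENNReal.toReal_inv]

lemma Body.lintegral_rho (_hK : Body K) (g : E d → ℝ≥0∞) :
    ∫⁻ x, g x ∂(uniformProbOn K) = (volume K)⁻¹ * ∫⁻ x in K, g x := by
  unfold uniformProbOn
  rw [lintegral_smul_measure, smul_eq_mul]

lemma Body.dist_le_diam (hK : Body K) {x z : E d} (hx : x ∈ K) (hz : z ∈ K) :
    ‖x - z‖ ≤ Metric.diam K := by
  rw [← dist_eq_norm]
  exact Metric.dist_le_diam_of_mem hK.cpt.isBounded hx hz

lemma Body.exists_ball (hK : Body K) :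
    ∃ x₀ : E d, ∃ r₀ : ℝ, 0 < r₀ ∧ Metric.closedBall x₀ r₀ ⊆ K := by
  obtain ⟨x₀, hx₀⟩ := hK.int_ne
  obtain ⟨r, hr, hball⟩ := Metric.isOpen_iff.mp isOpen_interior x₀ hx₀
  exact ⟨x₀, r / 2, by positivity,
    (Metric.closedBall_subset_ball (by linarith)).trans (hball.trans interior_subset)⟩

/-- NB: false for `d = 0`, hence the `NeZero` assumption. -/
lemma Body.diam_pos [NeZero d] (hK : Body K) : 0 < Metric.diam K := by
  obtain ⟨x₀, r₀, hr₀, hball⟩ := hK.exists_ball
  set e : E d := EuclideanSpace.single (0 : Fin d) (1 : ℝ) with he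
  have hne : ‖e‖ = 1 := by simp [he]
  have h1 : x₀ ∈ K := hball (Metric.mem_closedBall_self hr₀.le)
  have h2 : x₀ + r₀ • e ∈ K := by
    apply hball
    rw [Metric.mem_closedBall, dist_eq_norm, add_sub_cancel_left, norm_smul, hne]
    simp [abs_of_pos hr₀]
  have h3 := hK.dist_le_diam h2 h1
  rw [add_sub_cancel_left, norm_smul, hne, mul_one, Real.norm_eq_abs, abs_of_pos hr₀] at h3
  linarith

lemma Body.exists_norm_le (hK : Body K) : ∃ M : ℝ, 0 ≤ M ∧ ∀ x ∈ K, ‖x‖ ≤ M := by
  obtain ⟨M, hM⟩ := hK.cpt.isBounded.exists_norm_le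
  exact ⟨max M 0, le_max_right _ _, fun x hx => (hM x hx).trans (le_max_left _ _)⟩

/-- bounded (on `K`) measurable functions are integrable -/
lemma Body.integrable_of_bound (hK : Body K) {F : Type*} [NormedAddCommGroup F]
    {g : E d → F} (hg : AEStronglyMeasurable g (uniformProbOn K)) (M : ℝ) (hM : ∀ x ∈ K, ‖g x‖ ≤ M) :
    Integrable g (uniformProbOn K) := by
  have := hK.prob
  exact Integrable.of_bound hg M (hK.ae_mem.mono fun x hx => hM x hx)

/-! ## the potential -/

lemma bddAbove_aff (y : ι → E d) (c : ι → ℝ) (x : E d) :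
    BddAbove (Set.range fun i => ⟪x, y i⟫ - c i) := (Set.finite_range _).bddAbove

lemma le_pot (y : ι → E d) (c : ι → ℝ) (x : E d) (i : ι) : ⟪x, y i⟫ - c i ≤ pot y c x :=
  le_ciSup (bddAbove_aff y c x) i

lemma exists_pot_eq [Nonempty ι] (y : ι → E d) (c : ι → ℝ) (x : E d) :
    ∃ i, pot y c x = ⟪x, y i⟫ - c i := by
  obtain ⟨i, hi⟩ := exists_eq_ciSup_of_finite (f := fun i => ⟪x, y i⟫ - c i)
  exact ⟨i, hi.symm⟩

omit [Fintype ι] in
lemma pot_le [Nonempty ι] {y : ι → E d} {c : ι → ℝ} {x : E d} {a : ℝ}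
    (h : ∀ i, ⟪x, y i⟫ - c i ≤ a) : pot y c x ≤ a := ciSup_le h

lemma mem_cell_iff {y : ι → E d} {c : ι → ℝ} {x : E d} {i : ι} :
    x ∈ cell K y c i ↔ x ∈ K ∧ pot y c x = ⟪x, y i⟫ - c i := by
  have : Nonempty ι := ⟨i⟩
  constructor
  · rintro ⟨hx, h⟩
    exact ⟨hx, le_antisymm (pot_le h) (le_pot y c x i)⟩
  · rintro ⟨hx, h⟩
    exact ⟨hx, fun j => h ▸ le_pot y c x j⟩

lemma pot_eq_of_mem_cell {y : ι → E d} {c : ι → ℝ} {x : E d} {i : ι} (h : x ∈ cell K y c i) :
    pot y c x = ⟪x, y i⟫ - c i := (mem_cell_iff.mp h).2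

lemma pot_lipschitz [Nonempty ι] (y : ι → E d) (c : ι → ℝ) (R : ℝ≥0) (hy : ∀ i, ‖y i‖ ≤ R) :
    LipschitzWith R (pot y c) := by
  apply LipschitzWith.of_le_add_mul
  intro x z
  obtain ⟨i, hi⟩ := exists_pot_eq y c x
  have h1 : ⟪x, y i⟫ = ⟪z, y i⟫ + ⟪x - z, y i⟫ := by rw [inner_sub_left]; ring
  have h2 : ⟪x - z, y i⟫ ≤ ‖x - z‖ * ‖y i‖ := real_inner_le_norm _ _
  have h3 : ‖x - z‖ * ‖y i‖ ≤ ‖x - z‖ * R := mul_le_mul_of_nonneg_left (hy i) (norm_nonneg _)
  have h4 := le_pot y c z i
  rw [hi, dist_eq_norm]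
  linarith

lemma pot_continuous (y : ι → E d) (c : ι → ℝ) : Continuous (pot y c) := by
  rcases isEmpty_or_nonempty ι with h | h
  · have : pot y c = fun _ => sSup ∅ := by
      funext x
      simp [pot, iSup, Set.range_eq_empty]
    rw [this]
    exact continuous_const
  · obtain ⟨R, hR⟩ : ∃ R : ℝ≥0, ∀ i, ‖y i‖ ≤ R := by
      refine ⟨∑ i, ‖y i‖₊, fun i => ?_⟩
      have := Finset.single_le_sum (f := fun i => ‖y i‖₊) (fun i _ => zero_le) (Finset.mem_univ i)
      exact_mod_cast this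
    exact (pot_lipschitz y c R hR).continuous

lemma pot_measurable (y : ι → E d) (c : ι → ℝ) : Measurable (pot y c) :=
  (pot_continuous y c).measurable

lemma pot_add_const [Nonempty ι] (y : ι → E d) (c : ι → ℝ) (a : ℝ) (x : E d) :
    pot y (fun i => c i + a) x = pot y c x - a := by
  apply le_antisymm
  · apply pot_le
    intro i
    have := le_pot y c x i
    linarith
  · have : pot y c x ≤ pot y (fun i => c i + a) x + a := by
      apply pot_le
      intro i
      have := le_pot y (fun i => c i + a) x i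
      linarith
    linarith

lemma abs_pot_sub_le [Nonempty ι] (y : ι → E d) (c c' : ι → ℝ) (δ : ℝ)
    (h : ∀ i, |c i - c' i| ≤ δ) (x : E d) :
    |pot y c x - pot y c' x| ≤ δ := by
  rw [abs_le]
  constructor
  · have : pot y c' x ≤ pot y c x + δ := by
      apply pot_le
      intro i
      have h1 := le_pot y c x i
      have h2 := (abs_le.mp (h i)).2
      linarith
    linarith
  · have : pot y c x ≤ pot y c' x + δ := by
      apply pot_le
      intro i
      have h1 := le_pot y c' x i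
      have h2 := (abs_le.mp (h i)).1
      linarith
    linarith

lemma subgrad_of_mem_cell {y : ι → E d} {c : ι → ℝ} {x : E d} {i : ι} (h : x ∈ cell K y c i)
    (z : E d) : pot y c x + ⟪y i, z - x⟫ ≤ pot y c z := by
  rw [pot_eq_of_mem_cell h]
  have h1 := le_pot y c z i
  have h2 : ⟪y i, z - x⟫ = ⟪z, y i⟫ - ⟪x, y i⟫ := by
    rw [inner_sub_right, real_inner_comm, real_inner_comm x]
  linarith

end Crest.Agent.S0109D
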