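import Mathlib

/-!
# Row 82 (S0109), package L6 ("Claim A"), abstract form

`X` is a probability space, `P c : X → ℝ` a family of "potentials" indexed by weight vectors
`c : ι → ℝ` (in the application `P c = pot y c`), `KPhi ρ P m f c = ∫ P c · f dρ + ∑ m i * c i`
the Kantorovich functional.  From

* existence of minimisers for the perturbed sources `1 + k`,
* uniqueness (modulo constants) of the minimiser for the source `1` at the end `0`,
* the path inequality (L5),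

we deduce `Var_ρ (P₁ b₁ - P₀ b₀) ≤ M ^ 2`.
-/

set_option autoImplicit false
open MeasureTheory Set Filter Topology
open scoped BigOperators

namespace Crest.Agent.S0109C

variable {X : Type*} [MeasurableSpace X]

/-- abstract Kantorovich functional -/
noncomputable def KPhi {ι : Type*} [Fintype ι] (ρ : Measure X) (P : (ι → ℝ) → X → ℝ) (m : ι → ℝ)
    (f : X → ℝ) (c : ι → ℝ) : ℝ :=
  ∫ x, P c x * f x ∂ρ + ∑ i, m i * c i

/-- `c` is a global minimiser of the Kantorovich functional -/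
def IsMinim {ι : Type*} [Fintype ι] (ρ : Measure X) (P : (ι → ℝ) → X → ℝ) (m : ι → ℝ)
    (f : X → ℝ) (c : ι → ℝ) : Prop :=
  ∀ c', KPhi ρ P m f c ≤ KPhi ρ P m f c'

/-- the structural properties of the family of potentials which are used -/
structure PotFamily {ι : Type*} [Fintype ι] (ρ : Measure X) (P : (ι → ℝ) → X → ℝ) (M0 : ℝ) :
    Prop where
  meas : ∀ c, Measurable (P c)
  lip : ∀ c c' x, |P c x - P c' x| ≤ ‖c - c'‖
  shift : ∀ c (l : ℝ) x, P (fun i => c i + l) x = P c x - l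
  lower : ∀ c i, ∀ᵐ x ∂ρ, -M0 - c i ≤ P c x
  upper0 : ∀ᵐ x ∂ρ, P 0 x ≤ M0

/-- admissible perturbations of the source -/
structure Adm (ρ : Measure X) (k : X → ℝ) : Prop where
  meas : Measurable k
  bd : ∀ x, |k x| ≤ 1 / 2
  int0 : ∫ x, k x ∂ρ = 0

section basic

variable {ι : Type*} [Fintype ι] [Nonempty ι] {ρ : Measure X} [IsProbabilityMeasure ρ]
  {P : (ι → ℝ) → X → ℝ} {M0 : ℝ} {m : ι → ℝ}

omit [IsProbabilityMeasure ρ] in
lemma PotFamily.ae_abs_le (hP : PotFamily ρ P M0) (c : ι → ℝ) :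
    ∀ᵐ x ∂ρ, |P c x| ≤ M0 + ‖c‖ := by
  obtain ⟨i⟩ := ‹Nonempty ι›
  filter_upwards [hP.lower 0 i, hP.upper0] with x h1 h2
  have h3 := hP.lip c 0 x
  simp only [sub_zero, Pi.zero_apply] at h1 h3
  rw [abs_le] at h3 ⊢
  constructor <;> linarith [h3.1, h3.2]

lemma PotFamily.M0_nonneg (hP : PotFamily ρ P M0) : 0 ≤ M0 := by
  have h := hP.ae_abs_le (0 : ι → ℝ)
  obtain ⟨x, hx⟩ := h.exists
  simp only [norm_zero, add_zero] at hx
  exact (abs_nonneg _).trans hx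

lemma PotFamily.integrable_mul (hP : PotFamily ρ P M0) (c : ι → ℝ) {g : X → ℝ}
    (hg : Measurable g) {B : ℝ} (hB : ∀ x, |g x| ≤ B) :
    Integrable (fun x => P c x * g x) ρ := by
  refine Integrable.of_bound ((hP.meas c).mul hg).aestronglyMeasurable ((M0 + ‖c‖) * B) ?_
  filter_upwards [hP.ae_abs_le c] with x hx
  rw [Real.norm_eq_abs, abs_mul]
  exact mul_le_mul hx (hB x) (abs_nonneg _) ((abs_nonneg _).trans hx)

lemma PotFamily.integrable (hP : PotFamily ρ P M0) (c : ι → ℝ) :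
    Integrable (fun x => P c x) ρ := by
  refine Integrable.of_bound (hP.meas c).aestronglyMeasurable (M0 + ‖c‖) ?_
  filter_upwards [hP.ae_abs_le c] with x hx
  rwa [Real.norm_eq_abs]

lemma integrable_of_bdd {g : X → ℝ} (hg : Measurable g) {B : ℝ} (hB : ∀ x, |g x| ≤ B) :
    Integrable g ρ :=
  Integrable.of_bound hg.aestronglyMeasurable B (Eventually.of_forall fun x => by
    rw [Real.norm_eq_abs]; exact hB x)

/-- the functional is affine in the source -/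
lemma KPhi_perturb (hP : PotFamily ρ P M0) (c : ι → ℝ) {h : X → ℝ}
    (hh : Measurable h) {B : ℝ} (hB : ∀ x, |h x| ≤ B) (s : ℝ) :
    KPhi ρ P m (fun x => 1 + (-s * h x)) c
      = KPhi ρ P m (fun _ => 1) c - s * ∫ x, P c x * h x ∂ρ := by
  unfold KPhi
  have h1 : ∀ x, P c x * (1 + (-s * h x)) = P c x * 1 - s * (P c x * h x) := fun x => by ring
  simp_rw [h1]
  rw [integral_sub (by simpa using hP.integrable c) ((hP.integrable_mul c hh hB).const_mul s),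
    integral_const_mul]
  ring

/-- `c ↦ ∫ P c · h` is Lipschitz -/
lemma J_lip (hP : PotFamily ρ P M0) {h : X → ℝ}
    (hh : Measurable h) {B : ℝ} (hB : ∀ x, |h x| ≤ B) (c c' : ι → ℝ) :
    |(∫ x, P c x * h x ∂ρ) - ∫ x, P c' x * h x ∂ρ| ≤ B * ‖c - c'‖ := by
  rw [← integral_sub (hP.integrable_mul c hh hB) (hP.integrable_mul c' hh hB)]
  have h1 : ∀ x, ‖P c x * h x - P c' x * h x‖ ≤ B * ‖c - c'‖ := fun x => by
    rw [← sub_mul, Real.norm_eq_abs, abs_mul, mul_comm]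
    exact mul_le_mul (hB x) (hP.lip c c' x) (abs_nonneg _) ((abs_nonneg _).trans (hB x))
  have h2 := norm_integral_le_of_norm_le_const (μ := ρ) (Eventually.of_forall h1)
  simpa using h2

lemma J_continuous (hP : PotFamily ρ P M0) {h : X → ℝ}
    (hh : Measurable h) {B : ℝ} (hB : ∀ x, |h x| ≤ B) :
    Continuous (fun c : ι → ℝ => ∫ x, P c x * h x ∂ρ) := by
  have hB0 : 0 ≤ B := by
    obtain ⟨x, -⟩ := (hP.ae_abs_le (0 : ι → ℝ)).exists
    exact (abs_nonneg _).trans (hB x)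
  refine (LipschitzWith.of_dist_le_mul (K := ⟨B, hB0⟩) fun c c' => ?_).continuous
  rw [Real.dist_eq, dist_eq_norm]
  exact J_lip hP hh hB c c'

lemma J_shift (hP : PotFamily ρ P M0) {h : X → ℝ}
    (hh : Measurable h) {B : ℝ} (hB : ∀ x, |h x| ≤ B) (c : ι → ℝ) (l : ℝ) :
    ∫ x, P (fun i => c i + l) x * h x ∂ρ = (∫ x, P c x * h x ∂ρ) - l * ∫ x, h x ∂ρ := by
  have h1 : ∀ x, P (fun i => c i + l) x * h x = P c x * h x - l * h x := fun x => by
    rw [hP.shift]; ring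
  simp_rw [h1]
  rw [integral_sub (hP.integrable_mul c hh hB) ((integrable_of_bdd hh hB).const_mul l),
    integral_const_mul]

lemma KPhi_continuous (hP : PotFamily ρ P M0) {f : X → ℝ}
    (hf : Measurable f) {B : ℝ} (hB : ∀ x, |f x| ≤ B) :
    Continuous (fun c : ι → ℝ => KPhi ρ P m f c) := by
  unfold KPhi
  refine (J_continuous hP hf hB).add ?_
  fun_prop

lemma KPhi_shift (hP : PotFamily ρ P M0) (hm : ∑ i, m i = 1) {f : X → ℝ}
    (hf : Measurable f) {B : ℝ} (hB : ∀ x, |f x| ≤ B) (hf1 : ∫ x, f x ∂ρ = 1)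
    (c : ι → ℝ) (l : ℝ) :
    KPhi ρ P m f (fun i => c i + l) = KPhi ρ P m f c := by
  unfold KPhi
  rw [J_shift hP hf hB, hf1]
  simp only [mul_add, Finset.sum_add_distrib, ← Finset.sum_mul, hm]
  ring

lemma IsMinim.shift (hP : PotFamily ρ P M0) (hm : ∑ i, m i = 1) {f : X → ℝ}
    (hf : Measurable f) {B : ℝ} (hB : ∀ x, |f x| ≤ B) (hf1 : ∫ x, f x ∂ρ = 1)
    {c : ι → ℝ} (hc : IsMinim ρ P m f c) (l : ℝ) : IsMinim ρ P m f (fun i => c i + l) := by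
  intro c'
  rw [KPhi_shift hP hm hf hB hf1]
  exact hc c'

/-- a priori bound on the oscillation of a minimiser -/
lemma IsMinim.osc_le (hP : PotFamily ρ P M0) (hm0 : ∀ i, 0 < m i) (hm : ∑ i, m i = 1) {f : X → ℝ}
    (hf : Measurable f) {B : ℝ} (hB : ∀ x, |f x| ≤ B) (hf0 : ∀ x, 0 ≤ f x)
    (hf1 : ∫ x, f x ∂ρ = 1)
    {c : ι → ℝ} (hc : IsMinim ρ P m f c) (i j : ι) : m i * (c i - c j) ≤ 2 * M0 := by
  classical
  obtain ⟨j0, -, hj0⟩ := Finset.exists_min_image Finset.univ c Finset.univ_nonempty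
  have hj0' : ∀ i, c j0 ≤ c i := fun i => hj0 i (Finset.mem_univ i)
  -- upper bound
  have hup : KPhi ρ P m f c ≤ M0 := by
    refine (hc 0).trans ?_
    unfold KPhi
    simp only [Pi.zero_apply, mul_zero, Finset.sum_const_zero, add_zero]
    calc ∫ x, P 0 x * f x ∂ρ ≤ ∫ x, M0 * f x ∂ρ := by
          refine integral_mono_ae (hP.integrable_mul 0 hf hB)
            ((integrable_of_bdd hf hB).const_mul M0) ?_
          filter_upwards [hP.upper0] with x hx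
          exact mul_le_mul_of_nonneg_right hx (hf0 x)
      _ = M0 := by rw [integral_const_mul, hf1, mul_one]
  -- lower bound
  have hlow : -M0 + m i * (c i - c j0) ≤ KPhi ρ P m f c := by
    unfold KPhi
    have h1 : (-M0 - c j0) ≤ ∫ x, P c x * f x ∂ρ := by
      calc (-M0 - c j0) = ∫ x, (-M0 - c j0) * f x ∂ρ := by
            rw [integral_const_mul, hf1, mul_one]
        _ ≤ ∫ x, P c x * f x ∂ρ := by
          refine integral_mono_ae ((integrable_of_bdd hf hB).const_mul _)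
            (hP.integrable_mul c hf hB) ?_
          filter_upwards [hP.lower c j0] with x hx
          exact mul_le_mul_of_nonneg_right hx (hf0 x)
    have h2 : ∑ i, m i * c i = c j0 + ∑ i, m i * (c i - c j0) := by
      simp only [mul_sub, Finset.sum_sub_distrib, ← Finset.sum_mul, hm]
      ring
    have h3 : m i * (c i - c j0) ≤ ∑ i, m i * (c i - c j0) :=
      Finset.single_le_sum (f := fun i => m i * (c i - c j0))
        (fun i _ => mul_nonneg (hm0 i).le (sub_nonneg.2 (hj0' i))) (Finset.mem_univ i)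
    rw [h2]
    linarith
  have h4 : m i * (c i - c j) ≤ m i * (c i - c j0) :=
    mul_le_mul_of_nonneg_left (by linarith [hj0' j]) (hm0 i).le
  linarith

end basic

section main

variable {ι₀ ι₁ : Type*} [Fintype ι₀] [Fintype ι₁] [Nonempty ι₀] [Nonempty ι₁]
  {ρ : Measure X} [IsProbabilityMeasure ρ]
  {P₀ : (ι₀ → ℝ) → X → ℝ} {P₁ : (ι₁ → ℝ) → X → ℝ} {m₀ : ι₀ → ℝ} {m₁ : ι₁ → ℝ} {M0 M1 M : ℝ}

omit [IsProbabilityMeasure ρ] in
lemma adm_smul {h : X → ℝ} (hh : Measurable h) {B : ℝ} (hB : ∀ x, |h x| ≤ B)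
    (hh0 : ∫ x, h x ∂ρ = 0) {s : ℝ} (hs0 : 0 ≤ s) (hs : s * B ≤ 1 / 2) :
    Adm ρ (fun x => -s * h x) where
  meas := hh.const_mul _
  bd := fun x => by
    rw [abs_mul, abs_neg, abs_of_nonneg hs0]
    exact (mul_le_mul_of_nonneg_left (hB x) hs0).trans hs
  int0 := by rw [integral_const_mul, hh0, mul_zero]

omit [IsProbabilityMeasure ρ] in
lemma Adm.source_meas {k : X → ℝ} (hk : Adm ρ k) : Measurable (fun x => 1 + k x) :=
  measurable_const.add hk.meas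

omit [IsProbabilityMeasure ρ] in
lemma Adm.source_bd {k : X → ℝ} (hk : Adm ρ k) (x : X) : |1 + k x| ≤ 3 / 2 := by
  have := abs_le.1 (hk.bd x)
  rw [abs_le]; constructor <;> linarith [this.1, this.2]

omit [IsProbabilityMeasure ρ] in
lemma Adm.source_nonneg {k : X → ℝ} (hk : Adm ρ k) (x : X) : 0 ≤ 1 + k x := by
  have := abs_le.1 (hk.bd x)
  linarith [this.1]

lemma Adm.source_int {k : X → ℝ} (hk : Adm ρ k) : ∫ x, (1 + k x) ∂ρ = 1 := by
  rw [integral_add (integrable_const _) (integrable_of_bdd hk.meas hk.bd), hk.int0]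
  simp

/-- the inequality for a fixed small `s > 0` -/
lemma step_ineq (hP₀ : PotFamily ρ P₀ M0) (hP₁ : PotFamily ρ P₁ M1)
    {b₁ : ι₁ → ℝ} {b₀ : ι₀ → ℝ}
    (hb₀ : IsMinim ρ P₀ m₀ (fun _ => 1) b₀)
    (hpath : ∀ k, Adm ρ k → ∀ a₁ a₀, IsMinim ρ P₁ m₁ (fun x => 1 + k x) a₁ →
      IsMinim ρ P₀ m₀ (fun x => 1 + k x) a₀ →
      -(M * Real.sqrt (∫ x, k x ^ 2 ∂ρ)) ≤
        (KPhi ρ P₁ m₁ (fun x => 1 + k x) a₁ - KPhi ρ P₀ m₀ (fun x => 1 + k x) a₀)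
          - (KPhi ρ P₁ m₁ (fun _ => 1) b₁ - KPhi ρ P₀ m₀ (fun _ => 1) b₀))
    {h : X → ℝ} (hh : Measurable h) {B : ℝ} (hB : ∀ x, |h x| ≤ B)
    (hh0 : ∫ x, h x ∂ρ = 0) {s : ℝ} (hs0 : 0 < s) (hs : s * B ≤ 1 / 2)
    {a₁ : ι₁ → ℝ} {a₀ : ι₀ → ℝ}
    (ha₁ : IsMinim ρ P₁ m₁ (fun x => 1 + (-s * h x)) a₁)
    (ha₀ : IsMinim ρ P₀ m₀ (fun x => 1 + (-s * h x)) a₀) :
    (∫ x, P₁ b₁ x * h x ∂ρ) - ∫ x, P₀ a₀ x * h x ∂ρ ≤ M * Real.sqrt (∫ x, h x ^ 2 ∂ρ) := by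
  have hk := adm_smul (ρ := ρ) hh hB hh0 hs0.le hs
  have h1 := hpath _ hk a₁ a₀ ha₁ ha₀
  have h2 := ha₁ b₁
  have h3 := hb₀ a₀
  rw [KPhi_perturb hP₁ b₁ hh hB] at h2
  rw [KPhi_perturb hP₀ a₀ hh hB] at h1
  have h4 : Real.sqrt (∫ x, (-s * h x) ^ 2 ∂ρ) = s * Real.sqrt (∫ x, h x ^ 2 ∂ρ) := by
    have : ∀ x, (-s * h x) ^ 2 = s ^ 2 * h x ^ 2 := fun x => by ring
    simp_rw [this]
    rw [integral_const_mul, Real.sqrt_mul (sq_nonneg s), Real.sqrt_sq hs0.le]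
  rw [h4] at h1
  have h5 : s * ((∫ x, P₁ b₁ x * h x ∂ρ) - ∫ x, P₀ a₀ x * h x ∂ρ)
      ≤ s * (M * Real.sqrt (∫ x, h x ^ 2 ∂ρ)) := by
    nlinarith
  exact le_of_mul_le_mul_left h5 hs0

/-- **Lemma A**: testing `P₁ b₁ - P₀ b₀` against a bounded mean-zero function. -/
lemma test_ineq (hP₀ : PotFamily ρ P₀ M0) (hP₁ : PotFamily ρ P₁ M1)
    (hm₀ : ∀ i, 0 < m₀ i) (hs₀ : ∑ i, m₀ i = 1)
    (hex₀ : ∀ k, Adm ρ k → ∃ a, IsMinim ρ P₀ m₀ (fun x => 1 + k x) a)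
    (hex₁ : ∀ k, Adm ρ k → ∃ a, IsMinim ρ P₁ m₁ (fun x => 1 + k x) a)
    (huniq : ∀ a b, IsMinim ρ P₀ m₀ (fun _ => 1) a → IsMinim ρ P₀ m₀ (fun _ => 1) b →
      ∃ l : ℝ, ∀ i, b i = a i + l)
    {b₁ : ι₁ → ℝ} {b₀ : ι₀ → ℝ}
    (hb₀ : IsMinim ρ P₀ m₀ (fun _ => 1) b₀)
    (hpath : ∀ k, Adm ρ k → ∀ a₁ a₀, IsMinim ρ P₁ m₁ (fun x => 1 + k x) a₁ →
      IsMinim ρ P₀ m₀ (fun x => 1 + k x) a₀ →
      -(M * Real.sqrt (∫ x, k x ^ 2 ∂ρ)) ≤
        (KPhi ρ P₁ m₁ (fun x => 1 + k x) a₁ - KPhi ρ P₀ m₀ (fun x => 1 + k x) a₀)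
          - (KPhi ρ P₁ m₁ (fun _ => 1) b₁ - KPhi ρ P₀ m₀ (fun _ => 1) b₀))
    {h : X → ℝ} (hh : Measurable h) {B : ℝ} (hB : ∀ x, |h x| ≤ B)
    (hh0 : ∫ x, h x ∂ρ = 0) :
    (∫ x, P₁ b₁ x * h x ∂ρ) - ∫ x, P₀ b₀ x * h x ∂ρ ≤ M * Real.sqrt (∫ x, h x ^ 2 ∂ρ) := by
  classical
  have hB0 : 0 ≤ B := by
    obtain ⟨x, -⟩ := (hP₀.ae_abs_le (0 : ι₀ → ℝ)).exists
    exact (abs_nonneg _).trans (hB x)
  obtain ⟨i0⟩ := ‹Nonempty ι₀›
  -- the sequence of parameters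
  set s : ℕ → ℝ := fun n => 1 / (2 * (B + 1) * (n + 1)) with hs_def
  have hspos : ∀ n, 0 < s n := fun n => by
    simp only [hs_def]; positivity
  have hsB : ∀ n, s n * B ≤ 1 / 2 := fun n => by
    simp only [hs_def]
    rw [div_mul_eq_mul_div, one_mul, div_le_iff₀ (by positivity)]
    have : (0 : ℝ) ≤ n := Nat.cast_nonneg n
    nlinarith
  have hslim : Tendsto s atTop (𝓝 0) := by
    have h1 : Tendsto (fun n : ℕ => (1 / (2 * (B + 1))) * (1 / ((n : ℝ) + 1))) atTop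
        (𝓝 ((1 / (2 * (B + 1))) * 0)) :=
      tendsto_one_div_add_atTop_nhds_zero_nat.const_mul _
    rw [mul_zero] at h1
    refine h1.congr fun n => ?_
    simp only [hs_def]
    rw [div_mul_div_comm, one_mul]
  have hadm : ∀ n, Adm ρ (fun x => -s n * h x) := fun n =>
    adm_smul hh hB hh0 (hspos n).le (hsB n)
  choose a₀' ha₀' using fun n => hex₀ _ (hadm n)
  choose a₁ ha₁ using fun n => hex₁ _ (hadm n)
  -- normalise
  set a₀ : ℕ → ι₀ → ℝ := fun n i => a₀' n i + (-(a₀' n i0)) with ha₀_def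
  have ha₀ : ∀ n, IsMinim ρ P₀ m₀ (fun x => 1 + (-s n * h x)) (a₀ n) := fun n =>
    (ha₀' n).shift hP₀ hs₀ (hadm n).source_meas (hadm n).source_bd (hadm n).source_int _
  -- bounded
  set L : ℝ := 2 * M0 * ∑ i, (m₀ i)⁻¹ with hL_def
  have hM0 := hP₀.M0_nonneg
  have hbd : ∀ n, a₀ n ∈ Metric.closedBall (0 : ι₀ → ℝ) L := fun n => by
    have hL0 : 0 ≤ L := by
      simp only [hL_def]
      exact mul_nonneg (by linarith) (Finset.sum_nonneg fun i _ => (inv_pos.2 (hm₀ i)).le)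
    rw [mem_closedBall_zero_iff, pi_norm_le_iff_of_nonneg hL0]
    intro i
    have hosc := fun i j => (ha₀ n).osc_le hP₀ hm₀ hs₀ (hadm n).source_meas (hadm n).source_bd
      (hadm n).source_nonneg (hadm n).source_int i j
    have hz : a₀ n i0 = 0 := by simp [ha₀_def]
    have hsingle : ∀ j, 2 * M0 * (m₀ j)⁻¹ ≤ L := fun j => by
      simp only [hL_def]
      refine mul_le_mul_of_nonneg_left ?_ (by linarith)
      exact Finset.single_le_sum (f := fun i => (m₀ i)⁻¹)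
        (fun i _ => (inv_pos.2 (hm₀ i)).le) (Finset.mem_univ j)
    have h1 : a₀ n i ≤ L := by
      have := hosc i i0
      rw [hz, sub_zero] at this
      refine le_trans ?_ (hsingle i)
      rw [← div_eq_mul_inv, le_div_iff₀ (hm₀ i)]
      linarith
    have h2 : -L ≤ a₀ n i := by
      have := hosc i0 i
      rw [hz, zero_sub] at this
      have h3 : -(a₀ n i) ≤ 2 * M0 * (m₀ i0)⁻¹ := by
        rw [← div_eq_mul_inv, le_div_iff₀ (hm₀ i0)]
        linarith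
      linarith [hsingle i0]
    rw [Real.norm_eq_abs, abs_le]
    exact ⟨h2, h1⟩
  obtain ⟨a, -, φ, hφ, hlim⟩ := (isCompact_closedBall (0 : ι₀ → ℝ) L).tendsto_subseq hbd
  -- continuity
  have hJc := J_continuous hP₀ hh hB
  have hGc : Continuous (fun c : ι₀ → ℝ => KPhi ρ P₀ m₀ (fun _ => 1) c) :=
    KPhi_continuous hP₀ measurable_const (B := 1) (fun _ => by simp)
  have hJlim : Tendsto (fun n => ∫ x, P₀ (a₀ (φ n)) x * h x ∂ρ) atTop
      (𝓝 (∫ x, P₀ a x * h x ∂ρ)) := (hJc.tendsto a).comp hlim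
  have hGlim : Tendsto (fun n => KPhi ρ P₀ m₀ (fun _ => 1) (a₀ (φ n))) atTop
      (𝓝 (KPhi ρ P₀ m₀ (fun _ => 1) a)) := (hGc.tendsto a).comp hlim
  have hsφ : Tendsto (fun n => s (φ n)) atTop (𝓝 0) := hslim.comp hφ.tendsto_atTop
  -- the limit is a minimiser
  have hamin : IsMinim ρ P₀ m₀ (fun _ => 1) a := by
    intro c'
    have h1 : ∀ n, KPhi ρ P₀ m₀ (fun _ => 1) (a₀ (φ n))
        - s (φ n) * ∫ x, P₀ (a₀ (φ n)) x * h x ∂ρ
        ≤ KPhi ρ P₀ m₀ (fun _ => 1) c' - s (φ n) * ∫ x, P₀ c' x * h x ∂ρ := fun n => by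
      have := ha₀ (φ n) c'
      rwa [KPhi_perturb hP₀ _ hh hB, KPhi_perturb hP₀ _ hh hB] at this
    have h2 := hGlim.sub (hsφ.mul hJlim)
    have h3 : Tendsto (fun n => KPhi ρ P₀ m₀ (fun _ => 1) c'
        - s (φ n) * ∫ x, P₀ c' x * h x ∂ρ) atTop
        (𝓝 (KPhi ρ P₀ m₀ (fun _ => 1) c' - 0 * ∫ x, P₀ c' x * h x ∂ρ)) :=
      tendsto_const_nhds.sub (hsφ.mul_const _)
    have h4 := le_of_tendsto_of_tendsto' h2 h3 h1
    simpa using h4
  obtain ⟨l, hl⟩ := huniq b₀ a hb₀ hamin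
  have hJa : ∫ x, P₀ a x * h x ∂ρ = ∫ x, P₀ b₀ x * h x ∂ρ := by
    have : a = fun i => b₀ i + l := funext hl
    rw [this, J_shift hP₀ hh hB, hh0, mul_zero, sub_zero]
  rw [← hJa]
  refine le_of_tendsto' (tendsto_const_nhds.sub hJlim) fun n => ?_
  exact step_ineq hP₀ hP₁ hb₀ hpath hh hB hh0 (hspos _) (hsB _) (ha₁ (φ n)) (ha₀ (φ n))

/-- **Claim A** (abstract form): `Var_ρ (P₁ b₁ - P₀ b₀) ≤ M ^ 2`. -/
theorem claimA_abstract (hP₀ : PotFamily ρ P₀ M0) (hP₁ : PotFamily ρ P₁ M1) (hM : 0 ≤ M)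
    (hm₀ : ∀ i, 0 < m₀ i) (hs₀ : ∑ i, m₀ i = 1)
    (hex₀ : ∀ k, Adm ρ k → ∃ a, IsMinim ρ P₀ m₀ (fun x => 1 + k x) a)
    (hex₁ : ∀ k, Adm ρ k → ∃ a, IsMinim ρ P₁ m₁ (fun x => 1 + k x) a)
    (huniq : ∀ a b, IsMinim ρ P₀ m₀ (fun _ => 1) a → IsMinim ρ P₀ m₀ (fun _ => 1) b →
      ∃ l : ℝ, ∀ i, b i = a i + l)
    {b₁ : ι₁ → ℝ} {b₀ : ι₀ → ℝ}
    (hb₀ : IsMinim ρ P₀ m₀ (fun _ => 1) b₀)
    (hpath : ∀ k, Adm ρ k → ∀ a₁ a₀, IsMinim ρ P₁ m₁ (fun x => 1 + k x) a₁ →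
      IsMinim ρ P₀ m₀ (fun x => 1 + k x) a₀ →
      -(M * Real.sqrt (∫ x, k x ^ 2 ∂ρ)) ≤
        (KPhi ρ P₁ m₁ (fun x => 1 + k x) a₁ - KPhi ρ P₀ m₀ (fun x => 1 + k x) a₀)
          - (KPhi ρ P₁ m₁ (fun _ => 1) b₁ - KPhi ρ P₀ m₀ (fun _ => 1) b₀)) :
    ∫ x, ((P₁ b₁ x - P₀ b₀ x) - ∫ z, (P₁ b₁ z - P₀ b₀ z) ∂ρ) ^ 2 ∂ρ ≤ M ^ 2 := by
  set u : X → ℝ := fun x => P₁ b₁ x - P₀ b₀ x with hu_def
  set ub : ℝ := ∫ z, u z ∂ρ with hub_def
  have hu_meas : Measurable u := (hP₁.meas b₁).sub (hP₀.meas b₀)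
  have hu_int : Integrable u ρ := (hP₁.integrable b₁).sub (hP₀.integrable b₀)
  set B : ℝ := (M1 + ‖b₁‖) + (M0 + ‖b₀‖) + |ub| with hB_def
  have hu_bd : ∀ᵐ x ∂ρ, |u x - ub| ≤ B := by
    filter_upwards [hP₁.ae_abs_le b₁, hP₀.ae_abs_le b₀] with x h1 h2
    have h3 : |u x - ub| ≤ |P₁ b₁ x| + |P₀ b₀ x| + |ub| := by
      simp only [hu_def]
      calc |P₁ b₁ x - P₀ b₀ x - ub| ≤ |P₁ b₁ x - P₀ b₀ x| + |ub| := abs_sub _ _
        _ ≤ |P₁ b₁ x| + |P₀ b₀ x| + |ub| := by gcongr; exact abs_sub _ _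
    simp only [hB_def]
    linarith
  have hB0 : 0 ≤ B := by
    obtain ⟨x, hx⟩ := hu_bd.exists
    exact (abs_nonneg _).trans hx
  -- the clamped test function
  set h : X → ℝ := fun x => max (-B) (min B (u x - ub)) with hh_def
  have hh : Measurable h := measurable_const.max (measurable_const.min (hu_meas.sub_const ub))
  have hB : ∀ x, |h x| ≤ B := fun x => by
    rw [abs_le]
    exact ⟨le_max_left _ _, max_le (by linarith) (min_le_left _ _)⟩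
  have hae : ∀ᵐ x ∂ρ, h x = u x - ub := by
    filter_upwards [hu_bd] with x hx
    rw [abs_le] at hx
    simp only [hh_def]
    rw [min_eq_right hx.2, max_eq_right hx.1]
  have hh0 : ∫ x, h x ∂ρ = 0 := by
    rw [integral_congr_ae hae, integral_sub hu_int (integrable_const _)]
    simp [hub_def]
  have hkey := test_ineq hP₀ hP₁ hm₀ hs₀ hex₀ hex₁ huniq hb₀ hpath hh hB hh0
  have hhint : Integrable h ρ := integrable_of_bdd hh hB
  -- the left-hand side is `∫ h ^ 2`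
  have hlhs : (∫ x, P₁ b₁ x * h x ∂ρ) - ∫ x, P₀ b₀ x * h x ∂ρ = ∫ x, h x ^ 2 ∂ρ := by
    rw [← integral_sub (hP₁.integrable_mul b₁ hh hB) (hP₀.integrable_mul b₀ hh hB)]
    have h1 : ∫ x, h x ^ 2 ∂ρ = ∫ x, ((P₁ b₁ x * h x - P₀ b₀ x * h x) - ub * h x) ∂ρ := by
      refine integral_congr_ae ?_
      filter_upwards [hae] with x hx
      have : h x ^ 2 = (u x - ub) * h x := by rw [← hx]; ring
      rw [this]; simp only [hu_def]; ring
    have h2 : Integrable (fun x => P₁ b₁ x * h x - P₀ b₀ x * h x) ρ :=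
      (hP₁.integrable_mul b₁ hh hB).sub (hP₀.integrable_mul b₀ hh hB)
    rw [h1, integral_sub h2 (hhint.const_mul ub), integral_const_mul, hh0, mul_zero, sub_zero]
  rw [hlhs] at hkey
  have hfin : ∫ x, (u x - ub) ^ 2 ∂ρ = ∫ x, h x ^ 2 ∂ρ := by
    refine integral_congr_ae ?_
    filter_upwards [hae] with x hx
    rw [hx]
  rw [hfin]
  set I : ℝ := ∫ x, h x ^ 2 ∂ρ with hI_def
  have hI0 : 0 ≤ I := integral_nonneg fun x => sq_nonneg _
  have hsq : Real.sqrt I ^ 2 = I := Real.sq_sqrt hI0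
  have hs0 : 0 ≤ Real.sqrt I := Real.sqrt_nonneg I
  have : Real.sqrt I ≤ M := by
    by_contra hcon
    push Not at hcon
    have hpos : 0 < Real.sqrt I := lt_of_le_of_lt hM hcon
    nlinarith
  calc I = Real.sqrt I ^ 2 := hsq.symm
    _ ≤ M ^ 2 := by gcongr

end main

end Crest.Agent.S0109C
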