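import Crest.Agent.S0109_Path
import Crest.Agent.S0109_ClaimA0

/-! # Row 82, L6: the potentials are Lipschitz in W₂ -/

set_option autoImplicit false
open MeasureTheory
open scoped ENNReal NNReal RealInnerProductSpace
open Crest.AnalysisR.OT

namespace Crest.Agent.S0109C

open Crest.Agent.S0109D

variable {d : ℕ} {K : Set (E d)}

/-- the potentials `pot y c` form a `PotFamily` -/
lemma potFamily_pot (hK : Body K) {ι : Type*} [Fintype ι] [Nonempty ι] (y : ι → E d) :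
    ∃ M0 : ℝ, PotFamily (uniformProbOn K) (fun c => pot y c) M0 := by
  obtain ⟨MK, hMK0, hMK⟩ := hK.exists_norm_le
  have hin : ∀ x ∈ K, ∀ i, |⟪x, y i⟫| ≤ MK * ∑ j, ‖y j‖ := fun x hx i => by
    calc |⟪x, y i⟫| ≤ ‖x‖ * ‖y i‖ := abs_real_inner_le_norm _ _
      _ ≤ MK * ∑ j, ‖y j‖ := by
        refine mul_le_mul (hMK x hx) ?_ (norm_nonneg _) hMK0
        exact Finset.single_le_sum (f := fun j => ‖y j‖) (fun j _ => norm_nonneg _)
          (Finset.mem_univ i)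
  refine ⟨MK * ∑ j, ‖y j‖, ?_⟩
  refine ⟨fun c => pot_measurable y c, fun c c' x => ?_, fun c l x => pot_add_const y c l x,
    fun c i => ?_, ?_⟩
  · refine abs_pot_sub_le y c c' _ (fun i => ?_) x
    have := norm_le_pi_norm (c - c') i
    simpa [Real.norm_eq_abs] using this
  · filter_upwards [hK.ae_mem] with x hx
    have h1 := le_pot y c x i
    have h2 := (abs_le.1 (hin x hx i)).1
    linarith
  · filter_upwards [hK.ae_mem] with x hx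
    refine pot_le fun i => ?_
    have h2 := (abs_le.1 (hin x hx i)).2
    simpa using h2

lemma isSource_of_adm (hK : Body K) {k : E d → ℝ} (hk : Adm (uniformProbOn K) k) :
    IsSource K (fun x => 1 + k x) := by
  have := hK.prob
  refine ⟨hk.source_meas, fun x => ?_, fun x => ?_, hk.source_int⟩
  · have := (abs_le.1 (hk.bd x)).1
    linarith
  · have := (abs_le.1 (hk.bd x)).2
    linarith

lemma isSource_one (hK : Body K) : IsSource K (fun _ => (1 : ℝ)) := by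
  have := hK.prob
  refine ⟨measurable_const, fun x => by norm_num, fun x => by norm_num, by simp⟩

lemma gmass_pos' {Λ ι : Type*} [Fintype Λ] [Fintype ι] [DecidableEq ι] {π : Λ → ℝ}
    (hπ : ∀ l, 0 < π l) {κ : Λ → ι} (hκ : Function.Surjective κ) (i : ι) : 0 < gmass π κ i := by
  obtain ⟨l, hl⟩ := hκ i
  unfold gmass
  refine Finset.sum_pos' (fun l _ => ?_) ⟨l, Finset.mem_univ l, ?_⟩
  · split_ifs
    · exact (hπ l).le
    · exact le_rfl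
  · rw [if_pos hl]; exact hπ l

lemma sum_gmass' {Λ ι : Type*} [Fintype Λ] [Fintype ι] [DecidableEq ι] (π : Λ → ℝ)
    (κ : Λ → ι) : ∑ i, gmass π κ i = ∑ l, π l := by
  unfold gmass
  rw [Finset.sum_comm]
  refine Finset.sum_congr rfl fun l _ => ?_
  simp

end Crest.Agent.S0109C

namespace Crest.Agent.S0109D

open Crest.Agent.S0109C

variable {d : ℕ} [NeZero d] {K : Set (E d)}

theorem potential_stability (hK : Body K)
    {Λ : Type*} [Fintype Λ] [Nonempty Λ] (π : Λ → ℝ) (hπ : ∀ l, 0 < π l) (hπ1 : ∑ l, π l = 1)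
    (p₀ p₁ : Λ → E d)
    {ι₀ ι₁ : Type*} [Fintype ι₀] [DecidableEq ι₀] [Nonempty ι₀] [Fintype ι₁] [DecidableEq ι₁] [Nonempty ι₁]
    {κ₀ : Λ → ι₀} {y₀ : ι₀ → E d} (hκ₀ : Function.Surjective κ₀) (hy₀ : Function.Injective y₀)
    (hp₀ : ∀ l, y₀ (κ₀ l) = p₀ l)
    {κ₁ : Λ → ι₁} {y₁ : ι₁ → E d} (hκ₁ : Function.Surjective κ₁) (hy₁ : Function.Injective y₁)
    (hp₁ : ∀ l, y₁ (κ₁ l) = p₁ l)
    {a₀ : ι₀ → ℝ} {a₁ : ι₁ → ℝ}
    (ha₀ : Solves K (fun _ => 1) y₀ (gmass π κ₀) a₀) (ha₁ : Solves K (fun _ => 1) y₁ (gmass π κ₁) a₁) :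
    ∫ x, ((pot y₁ a₁ x - pot y₀ a₀ x)
        - ∫ z, (pot y₁ a₁ z - pot y₀ a₀ z) ∂(uniformProbOn K)) ^ 2 ∂(uniformProbOn K)
      ≤ C₁ * (Metric.diam K) ^ 2 * ∑ l, π l * ‖p₁ l - p₀ l‖ ^ 2 := by
  have hprob := hK.prob
  obtain ⟨M0, hP₀⟩ := potFamily_pot hK y₀
  obtain ⟨M1, hP₁⟩ := potFamily_pot hK y₁
  have hm₀ := gmass_pos' hπ hκ₀
  have hm₁ := gmass_pos' hπ hκ₁
  have hs₀ : ∑ i, gmass π κ₀ i = 1 := (sum_gmass' π κ₀).trans hπ1
  have hs₁ : ∑ i, gmass π κ₁ i = 1 := (sum_gmass' π κ₁).trans hπ1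
  have h1 := isSource_one hK
  have hS0 : 0 ≤ ∑ l, π l * ‖p₁ l - p₀ l‖ ^ 2 :=
    Finset.sum_nonneg fun l _ => mul_nonneg (hπ l).le (sq_nonneg _)
  have hC : (0 : ℝ) ≤ C₁ := by unfold C₁; norm_num
  set M : ℝ := Real.sqrt C₁ * Metric.diam K * Real.sqrt (∑ l, π l * ‖p₁ l - p₀ l‖ ^ 2) with hM_def
  have hM : 0 ≤ M := by
    simp only [hM_def]
    exact mul_nonneg (mul_nonneg (Real.sqrt_nonneg _) Metric.diam_nonneg) (Real.sqrt_nonneg _)
  have hM2 : M ^ 2 = C₁ * (Metric.diam K) ^ 2 * ∑ l, π l * ‖p₁ l - p₀ l‖ ^ 2 := by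
    simp only [hM_def]
    rw [mul_pow, mul_pow, Real.sq_sqrt hC, Real.sq_sqrt hS0]
  rw [← hM2]
  refine claimA_abstract (ρ := uniformProbOn K) (P₀ := fun c => pot y₀ c) (P₁ := fun c => pot y₁ c)
    (m₀ := gmass π κ₀) (m₁ := gmass π κ₁) hP₀ hP₁ hM hm₀ hs₀ ?_ ?_ ?_ (b₁ := a₁) (b₀ := a₀) ?_ ?_
  · intro k hk
    exact exists_min_Phi hK (isSource_of_adm hK hk) y₀ _ hm₀ hs₀
  · intro k hk
    exact exists_min_Phi hK (isSource_of_adm hK hk) y₁ _ hm₁ hs₁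
  · intro a b ha hb
    exact solves_unique hK h1 hy₀ hm₀ (solves_of_min hK h1 hy₀ _ hs₀ a ha)
      (solves_of_min hK h1 hy₀ _ hs₀ b hb)
  · exact fun c' => min_of_solves hK h1 hy₀ ha₀ c'
  · intro k hk b₁ b₀ hb₁ hb₀
    have hf := isSource_of_adm hK hk
    have hb₁' := solves_of_min hK hf hy₁ _ hs₁ b₁ hb₁
    have hb₀' := solves_of_min hK hf hy₀ _ hs₀ b₀ hb₀
    have hp := path_ineq hK hk.meas hk.bd hk.int0 π hπ hπ1 p₀ p₁ hκ₀ hy₀ hp₀ hκ₁ hy₁ hp₁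
      ha₀ hb₀' ha₁ hb₁'
    rw [val_eq_Phi hK hf hy₁ hb₁', val_eq_Phi hK hf hy₀ hb₀', val_eq_Phi hK h1 hy₁ ha₁,
      val_eq_Phi hK h1 hy₀ ha₀] at hp
    have hre : M * Real.sqrt (∫ x, k x ^ 2 ∂(uniformProbOn K))
        = Real.sqrt C₁ * Metric.diam K * Real.sqrt (∫ x, k x ^ 2 ∂(uniformProbOn K))
        * Real.sqrt (∑ l, π l * ‖p₁ l - p₀ l‖ ^ 2) := by
      simp only [hM_def]; ring
    rw [hre]
    exact hp

end Crest.Agent.S0109D
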