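import Mathlib
import Crest.Prelude.Def_QuadraticTransport

/-!
# Row 82 (S0109/S0110): common definitions (semi-discrete optimal transport)

See `notes/ROW82_proof.md` for the paper proof.  No proofs here, only definitions.
-/

set_option autoImplicit false
open MeasureTheory
open scoped ENNReal NNReal RealInnerProductSpace
open Crest.AnalysisR.OT

namespace Crest.Agent.S0109D

/-- the ambient Euclidean space -/
abbrev E (d : ℕ) := EuclideanSpace ℝ (Fin d)

variable {d : ℕ} {ι : Type*} [Fintype ι]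

/-- hypotheses on the source body -/
structure Body (K : Set (E d)) : Prop where
  cpt : IsCompact K
  cvx : Convex ℝ K
  int_ne : (interior K).Nonempty

/-- the source density `f` (w.r.t. the uniform probability on `K`) -/
structure IsSource (K : Set (E d)) (f : E d → ℝ) : Prop where
  meas : Measurable f
  lo : ∀ x, 1 / 2 ≤ f x
  hi : ∀ x, f x ≤ 3 / 2
  int : ∫ x, f x ∂(uniformProbOn K) = 1

/-- the convex potential `max_i ⟪x, y i⟫ - c i` -/
noncomputable def pot (y : ι → E d) (c : ι → ℝ) (x : E d) : ℝ := ⨆ i, (⟪x, y i⟫ - c i)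

/-- closed Laguerre cell -/
def cell (K : Set (E d)) (y : ι → E d) (c : ι → ℝ) (i : ι) : Set (E d) :=
  {x | x ∈ K ∧ ∀ j, ⟪x, y j⟫ - c j ≤ ⟪x, y i⟫ - c i}

/-- strict Laguerre cell -/
def scell (K : Set (E d)) (y : ι → E d) (c : ι → ℝ) (i : ι) : Set (E d) :=
  {x | x ∈ K ∧ ∀ j, j ≠ i → ⟪x, y j⟫ - c j < ⟪x, y i⟫ - c i}

/-- the Laguerre map: `y i` on the strict cell `i` (and `0` on the remaining null set / outside `K`) -/
noncomputable def lag (K : Set (E d)) (y : ι → E d) (c : ι → ℝ) (x : E d) : E d :=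
  ∑ i, (scell K y c i).indicator (fun _ => y i) x

/-- `c` solves the semi-discrete problem with source density `f`, sites `y`, masses `m` -/
def Solves (K : Set (E d)) (f : E d → ℝ) (y : ι → E d) (m : ι → ℝ) (c : ι → ℝ) : Prop :=
  ∀ i, ∫ x in cell K y c i, f x ∂(uniformProbOn K) = m i

/-- first moment of cell `i` -/
noncomputable def mom (K : Set (E d)) (f : E d → ℝ) (y : ι → E d) (c : ι → ℝ) (i : ι) : E d :=
  ∫ x in cell K y c i, f x • x ∂(uniformProbOn K)

/-- the correlation value `∫ ⟪x, T x⟫ f dρ` of the Laguerre map -/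
noncomputable def val (K : Set (E d)) (f : E d → ℝ) (y : ι → E d) (c : ι → ℝ) : ℝ :=
  ∑ i, ⟪mom K f y c i, y i⟫

/-- Kantorovich dual functional -/
noncomputable def Phi (K : Set (E d)) (f : E d → ℝ) (y : ι → E d) (m : ι → ℝ) (c : ι → ℝ) : ℝ :=
  ∫ x, pot y c x * f x ∂(uniformProbOn K) + ∑ i, m i * c i

/-- grouped masses: labels `l : Λ` with mass `π l` are sent to the site `κ l` -/
noncomputable def gmass {Λ : Type*} [Fintype Λ] [DecidableEq ι] (π : Λ → ℝ) (κ : Λ → ι) (i : ι) : ℝ :=
  ∑ l, if κ l = i then π l else 0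

/-- `T x` is a subgradient on `K` of `φ` at `x` -/
def SubgradOn (K : Set (E d)) (φ : E d → ℝ) (x p : E d) : Prop :=
  ∀ z ∈ K, φ x + ⟪p, z - x⟫ ≤ φ z

/-- the absolute constant of the key lemma -/
def C₁ : ℝ := 20000

end Crest.Agent.S0109D
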