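import Crest.Agent.S0109_ClaimA

/-! # Row 82: the discrete output consumed by L8 -/

set_option autoImplicit false
open MeasureTheory
open scoped ENNReal NNReal RealInnerProductSpace
open Crest.AnalysisR.OT

namespace Crest.Agent.S0109D

variable {d : ℕ} [NeZero d] {K : Set (E d)}

lemma sum_gmass_dirac {Λ ι : Type*} [Fintype Λ] [Fintype ι] [DecidableEq ι] {π : Λ → ℝ}
    (hπ : ∀ l, 0 < π l) (κ : Λ → ι) (y : ι → E d) :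
    ∑ i, ENNReal.ofReal (gmass π κ i) • Measure.dirac (y i)
      = ∑ l, ENNReal.ofReal (π l) • Measure.dirac (y (κ l)) := by
  have h1 : ∀ i, ENNReal.ofReal (gmass π κ i) = ∑ l, if κ l = i then ENNReal.ofReal (π l) else 0 := by
    intro i
    unfold gmass
    rw [ENNReal.ofReal_sum_of_nonneg]
    · apply Finset.sum_congr rfl
      intro l _
      split_ifs <;> simp
    · intro l _
      split_ifs
      · exact (hπ l).le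
      · exact le_rfl
  simp_rw [h1, Finset.sum_smul]
  rw [Finset.sum_comm]
  apply Finset.sum_congr rfl
  intro l _
  rw [Finset.sum_eq_single (κ l)]
  · simp
  · intro i _ hi
    simp [Ne.symm hi]
  · simp

lemma isSource_one (hK : Body K) : IsSource K (fun _ => (1 : ℝ)) := by
  have := hK.prob
  refine ⟨measurable_const, fun _ => by norm_num, fun _ => by norm_num, by simp⟩

/-- DISC (potential version): everything L8 needs to know about finitely supported targets. -/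
theorem disc (hK : Body K) (R : ℝ≥0)
    {Λ : Type*} [Fintype Λ] [Nonempty Λ] (π : Λ → ℝ) (hπ : ∀ l, 0 < π l) (hπ1 : ∑ l, π l = 1)
    (p₀ p₁ : Λ → E d) (hR₀ : ∀ l, ‖p₀ l‖ ≤ R) (hR₁ : ∀ l, ‖p₁ l‖ ≤ R) :
    ∃ (φ₀ φ₁ : E d → ℝ) (T₀ T₁ : E d → E d),
      LipschitzWith R φ₀ ∧ LipschitzWith R φ₁ ∧ Measurable T₀ ∧ Measurable T₁ ∧
      (∀ x, ‖T₀ x‖ ≤ R) ∧ (∀ x, ‖T₁ x‖ ≤ R) ∧
      (∀ᵐ x ∂(uniformProbOn K), SubgradOn K φ₀ x (T₀ x)) ∧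
      (∀ᵐ x ∂(uniformProbOn K), SubgradOn K φ₁ x (T₁ x)) ∧
      (uniformProbOn K).map T₀ = ∑ l, ENNReal.ofReal (π l) • Measure.dirac (p₀ l) ∧
      (uniformProbOn K).map T₁ = ∑ l, ENNReal.ofReal (π l) • Measure.dirac (p₁ l) ∧
      ∫ x, ((φ₁ x - φ₀ x) - ∫ z, (φ₁ z - φ₀ z) ∂(uniformProbOn K)) ^ 2 ∂(uniformProbOn K)
        ≤ C₁ * (Metric.diam K) ^ 2 * ∑ l, π l * ‖p₁ l - p₀ l‖ ^ 2 := by
  obtain ⟨n₀, hn₀, κ₀, y₀, hκ₀, hy₀, hp₀⟩ := exists_grouping p₀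
  obtain ⟨n₁, hn₁, κ₁, y₁, hκ₁, hy₁, hp₁⟩ := exists_grouping p₁
  obtain ⟨a₀, ha₀⟩ := exists_solves hK (isSource_one hK) hy₀ (gmass π κ₀) (gmass_pos hπ hκ₀)
    (by rw [sum_gmass, hπ1])
  obtain ⟨a₁, ha₁⟩ := exists_solves hK (isSource_one hK) hy₁ (gmass π κ₁) (gmass_pos hπ hκ₁)
    (by rw [sum_gmass, hπ1])
  have hy₀R : ∀ i, ‖y₀ i‖ ≤ R := by
    intro i
    obtain ⟨l, rfl⟩ := hκ₀ i
    rw [hp₀]; exact hR₀ l
  have hy₁R : ∀ i, ‖y₁ i‖ ≤ R := by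
    intro i
    obtain ⟨l, rfl⟩ := hκ₁ i
    rw [hp₁]; exact hR₁ l
  refine ⟨pot y₀ a₀, pot y₁ a₁, lag K y₀ a₀, lag K y₁ a₁, pot_lipschitz y₀ a₀ R hy₀R,
    pot_lipschitz y₁ a₁ R hy₁R, hK.measurable_lag y₀ a₀, hK.measurable_lag y₁ a₁,
    lag_norm_le y₀ a₀ R R.2 hy₀R, lag_norm_le y₁ a₁ R R.2 hy₁R,
    hK.lag_subgrad hy₀ a₀, hK.lag_subgrad hy₁ a₁, ?_, ?_, ?_⟩
  · rw [hK.map_lag hy₀ ha₀, sum_gmass_dirac hπ]
    simp_rw [hp₀]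
  · rw [hK.map_lag hy₁ ha₁, sum_gmass_dirac hπ]
    simp_rw [hp₁]
  · exact potential_stability hK π hπ hπ1 p₀ p₁ hκ₀ hy₀ hp₀ hκ₁ hy₁ hp₁ ha₀ ha₁

end Crest.Agent.S0109D
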