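import Mathlib
import Crest.Prelude.Def_QuadraticTransport

/-!
ROW 82 (S0109), package L8-i: Fenchel–Young uniqueness of Monge-optimal maps and the
Rademacher limit of subgradient maps.
-/

set_option autoImplicit false
open MeasureTheory Filter Topology
open scoped ENNReal NNReal InnerProductSpace
open Crest.AnalysisR.OT

namespace Crest.Agent.S0109FY

variable {d : ℕ}

/-- `p` is a subgradient on `K` of `φ` at `x`. -/
def SubgradOn (K : Set (EuclideanSpace ℝ (Fin d))) (φ : EuclideanSpace ℝ (Fin d) → ℝ)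
    (x p : EuclideanSpace ℝ (Fin d)) : Prop :=
  ∀ z ∈ K, φ x + ⟪p, z - x⟫_ℝ ≤ φ z

/-- the uniform measure is absolutely continuous w.r.t. the restricted volume. -/
lemma uniformProbOn_ac (K : Set (EuclideanSpace ℝ (Fin d))) :
    uniformProbOn K ≪ (volume.restrict K) := by
  unfold uniformProbOn
  exact Measure.smul_absolutelyContinuous

lemma ae_uniform_of_ae_restrict {K : Set (EuclideanSpace ℝ (Fin d))}
    {p : EuclideanSpace ℝ (Fin d) → Prop} (h : ∀ᵐ x ∂(volume.restrict K), p x) :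
    ∀ᵐ x ∂(uniformProbOn K), p x :=
  (uniformProbOn_ac K).ae_le h

lemma ae_uniform_of_ae {K : Set (EuclideanSpace ℝ (Fin d))}
    {p : EuclideanSpace ℝ (Fin d) → Prop} (h : ∀ᵐ x, p x) :
    ∀ᵐ x ∂(uniformProbOn K), p x :=
  ae_uniform_of_ae_restrict (ae_restrict_of_ae h)

lemma ae_uniform_mem {K : Set (EuclideanSpace ℝ (Fin d))} (hK : MeasurableSet K) :
    ∀ᵐ x ∂(uniformProbOn K), x ∈ K :=
  ae_uniform_of_ae_restrict (ae_restrict_mem hK)

lemma ae_uniform_mem_interior {K : Set (EuclideanSpace ℝ (Fin d))} (hKc : IsCompact K)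
    (hKv : Convex ℝ K) : ∀ᵐ x ∂(uniformProbOn K), x ∈ interior K := by
  have h1 : ∀ᵐ x ∂(uniformProbOn K), x ∈ K := ae_uniform_mem hKc.measurableSet
  have h2 : ∀ᵐ x ∂(uniformProbOn K), x ∉ frontier K := by
    apply ae_uniform_of_ae
    rw [ae_iff]
    simpa using hKv.addHaar_frontier volume
  filter_upwards [h1, h2] with x hx1 hx2
  by_contra hx
  apply hx2
  rw [frontier, hKc.isClosed.closure_eq]
  exact ⟨hx1, hx⟩

/-- At an interior differentiability point the only subgradient is the gradient. -/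
lemma subgrad_eq_gradient {K : Set (EuclideanSpace ℝ (Fin d))}
    {φ : EuclideanSpace ℝ (Fin d) → ℝ} {x p : EuclideanSpace ℝ (Fin d)}
    (hx : x ∈ interior K) (hd : DifferentiableAt ℝ φ x) (hp : SubgradOn K φ x p) :
    p = gradient φ x := by
  set g : EuclideanSpace ℝ (Fin d) → ℝ := fun z => φ z - ⟪p, z - x⟫_ℝ with hg
  have hmin : IsLocalMin g x := by
    have : K ∈ 𝓝 x := mem_interior_iff_mem_nhds.1 hx
    filter_upwards [this] with z hz
    have := hp z hz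
    simp only [hg, sub_self, inner_zero_right, sub_zero]
    linarith
  have h0 := hmin.fderiv_eq_zero
  have hlin : HasFDerivAt (fun z : EuclideanSpace ℝ (Fin d) => ⟪p, z - x⟫_ℝ)
      (innerSL ℝ p) x := by
    have h1 : HasFDerivAt (fun z : EuclideanSpace ℝ (Fin d) => z - x)
        (ContinuousLinearMap.id ℝ _) x := (hasFDerivAt_id x).sub_const x
    have h2 := (innerSL ℝ p).hasFDerivAt.comp x h1
    simp only [ContinuousLinearMap.comp_id] at h2
    exact h2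
  have hgd : HasFDerivAt g (fderiv ℝ φ x - innerSL ℝ p) x := hd.hasFDerivAt.sub hlin
  rw [hgd.fderiv] at h0
  have h1 : fderiv ℝ φ x = innerSL ℝ p := sub_eq_zero.1 h0
  unfold gradient
  rw [h1]
  have : (InnerProductSpace.toDual ℝ (EuclideanSpace ℝ (Fin d))) p = innerSL ℝ p := by
    ext v
    simp
  rw [← this]
  simp

/-- subgradients pass to the limit (pointwise convergence of the potentials on `K`). -/
lemma subgrad_of_tendsto {K : Set (EuclideanSpace ℝ (Fin d))}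
    {φn : ℕ → EuclideanSpace ℝ (Fin d) → ℝ} {φ : EuclideanSpace ℝ (Fin d) → ℝ}
    (hconv : ∀ x ∈ K, Tendsto (fun n => φn n x) atTop (𝓝 (φ x)))
    {x p : EuclideanSpace ℝ (Fin d)} (hx : x ∈ K) {u : ℕ → EuclideanSpace ℝ (Fin d)}
    (hsub : ∀ n, SubgradOn K (φn n) x (u n)) (hp : MapClusterPt p atTop u) :
    SubgradOn K φ x p := by
  obtain ⟨ψ, hψ, hlim⟩ := hp.tendsto_subseq
  intro z hz
  have h1 : Tendsto (fun n => φn (ψ n) x + ⟪u (ψ n), z - x⟫_ℝ) atTop
      (𝓝 (φ x + ⟪p, z - x⟫_ℝ)) := by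
    apply Tendsto.add
    · exact (hconv x hx).comp hψ.tendsto_atTop
    · exact (hlim.inner tendsto_const_nhds)
  have h2 : Tendsto (fun n => φn (ψ n) z) atTop (𝓝 (φ z)) :=
    (hconv z hz).comp hψ.tendsto_atTop
  exact le_of_tendsto_of_tendsto' h1 h2 (fun n => hsub (ψ n) z hz)

/-- **Rademacher limit.**  If `φn → φ` pointwise on `K`, `φ` Lipschitz, `Tn n x` is a subgradient
of `φn n` on `K` for a.e. `x` and `‖Tn n x‖ ≤ R`, then `Tn n → ∇φ` a.e. on `K`, and `∇φ` is the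
unique subgradient of `φ` a.e. -/
theorem rademacher_limit {K : Set (EuclideanSpace ℝ (Fin d))} (hKc : IsCompact K)
    (hKv : Convex ℝ K) (R : ℝ≥0)
    (φn : ℕ → EuclideanSpace ℝ (Fin d) → ℝ) (φ : EuclideanSpace ℝ (Fin d) → ℝ)
    (hφ : LipschitzWith R φ)
    (hconv : ∀ x ∈ K, Tendsto (fun n => φn n x) atTop (𝓝 (φ x)))
    (Tn : ℕ → EuclideanSpace ℝ (Fin d) → EuclideanSpace ℝ (Fin d))
    (hsub : ∀ n, ∀ᵐ x ∂(uniformProbOn K), SubgradOn K (φn n) x (Tn n x))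
    (hb : ∀ n, ∀ᵐ x ∂(uniformProbOn K), ‖Tn n x‖ ≤ R) :
    ∃ S : EuclideanSpace ℝ (Fin d) → EuclideanSpace ℝ (Fin d), Measurable S ∧
      (∀ x, ‖S x‖ ≤ R) ∧
      (∀ᵐ x ∂(uniformProbOn K), SubgradOn K φ x (S x)) ∧
      (∀ᵐ x ∂(uniformProbOn K), Tendsto (fun n => Tn n x) atTop (𝓝 (S x))) ∧
      (∀ᵐ x ∂(uniformProbOn K), ∀ p, SubgradOn K φ x p → p = S x) := by
  refine ⟨gradient φ, ?_, ?_, ?_⟩
  · unfold gradient
    exact (InnerProductSpace.toDual ℝ (EuclideanSpace ℝ (Fin d))).symm.continuous.measurable.comp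
      (measurable_fderiv ℝ φ)
  · intro x
    unfold gradient
    rw [LinearIsometryEquiv.norm_map]
    exact norm_fderiv_le_of_lipschitz ℝ hφ
  have hint := ae_uniform_mem_interior hKc hKv
  have hdiff : ∀ᵐ x ∂(uniformProbOn K), DifferentiableAt ℝ φ x :=
    ae_uniform_of_ae hφ.ae_differentiableAt
  have hsub' := ae_all_iff.2 hsub
  have hb' := ae_all_iff.2 hb
  have key : ∀ᵐ x ∂(uniformProbOn K), SubgradOn K φ x (gradient φ x) ∧
      Tendsto (fun n => Tn n x) atTop (𝓝 (gradient φ x)) ∧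
      ∀ p, SubgradOn K φ x p → p = gradient φ x := by
    filter_upwards [hint, hdiff, hsub', hb'] with x hx hd hs hbx
    have hxK : x ∈ K := interior_subset hx
    have huniq : ∀ p, SubgradOn K φ x p → p = gradient φ x :=
      fun p hp => subgrad_eq_gradient hx hd hp
    have hcpt : IsCompact (Metric.closedBall (0 : EuclideanSpace ℝ (Fin d)) R) :=
      isCompact_closedBall _ _
    have hmem : ∀ n, Tn n x ∈ Metric.closedBall (0 : EuclideanSpace ℝ (Fin d)) R := by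
      intro n
      simpa using hbx n
    have hcl : ∀ p, MapClusterPt p atTop (fun n => Tn n x) → p = gradient φ x :=
      fun p hp => huniq p (subgrad_of_tendsto hconv hxK hs hp)
    have hlim : Tendsto (fun n => Tn n x) atTop (𝓝 (gradient φ x)) :=
      hcpt.tendsto_nhds_of_unique_mapClusterPt (Eventually.of_forall hmem)
        (fun p _ hp => hcl p hp)
    refine ⟨?_, hlim, huniq⟩
    exact subgrad_of_tendsto hconv hxK hs hlim.mapClusterPt
  refine ⟨?_, ?_, ?_⟩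
  · filter_upwards [key] with x hx using hx.1
  · filter_upwards [key] with x hx using hx.2.1
  · filter_upwards [key] with x hx using hx.2.2

/-! ### Fenchel–Young uniqueness -/

/-- Legendre transform of `φ` on `K`. -/
noncomputable def conj (K : Set (EuclideanSpace ℝ (Fin d))) (φ : EuclideanSpace ℝ (Fin d) → ℝ)
    (y : EuclideanSpace ℝ (Fin d)) : ℝ :=
  sSup ((fun x => ⟪x, y⟫_ℝ - φ x) '' K)

lemma conj_bdd {K : Set (EuclideanSpace ℝ (Fin d))} {φ : EuclideanSpace ℝ (Fin d) → ℝ}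
    (hKc : IsCompact K) (hφ : ContinuousOn φ K) (y : EuclideanSpace ℝ (Fin d)) :
    BddAbove ((fun x => ⟪x, y⟫_ℝ - φ x) '' K) := by
  apply (hKc.image_of_continuousOn _).bddAbove
  apply ContinuousOn.sub _ hφ
  exact (continuous_id.inner continuous_const).continuousOn

lemma fy_le {K : Set (EuclideanSpace ℝ (Fin d))} {φ : EuclideanSpace ℝ (Fin d) → ℝ}
    (hKc : IsCompact K) (hφ : ContinuousOn φ K) {x : EuclideanSpace ℝ (Fin d)} (hx : x ∈ K)
    (y : EuclideanSpace ℝ (Fin d)) : ⟪x, y⟫_ℝ ≤ φ x + conj K φ y := by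
  have := le_csSup (conj_bdd hKc hφ y) (Set.mem_image_of_mem _ hx)
  unfold conj
  linarith

lemma subgrad_of_fy_le {K : Set (EuclideanSpace ℝ (Fin d))} {φ : EuclideanSpace ℝ (Fin d) → ℝ}
    (hKc : IsCompact K) (hφ : ContinuousOn φ K) {x y : EuclideanSpace ℝ (Fin d)}
    (h : φ x + conj K φ y ≤ ⟪x, y⟫_ℝ) : SubgradOn K φ x y := by
  intro z hz
  have h1 := fy_le hKc hφ hz y
  rw [inner_sub_right, real_inner_comm z y, real_inner_comm x y]
  linarith

lemma fy_eq_of_subgrad {K : Set (EuclideanSpace ℝ (Fin d))} {φ : EuclideanSpace ℝ (Fin d) → ℝ}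
    (hKc : IsCompact K) (hφ : ContinuousOn φ K) {x y : EuclideanSpace ℝ (Fin d)} (hx : x ∈ K)
    (h : SubgradOn K φ x y) : φ x + conj K φ y = ⟪x, y⟫_ℝ := by
  apply le_antisymm _ (fy_le hKc hφ hx y)
  have : conj K φ y ≤ ⟪x, y⟫_ℝ - φ x := by
    apply csSup_le ⟨_, Set.mem_image_of_mem _ hx⟩
    rintro _ ⟨z, hz, rfl⟩
    have h1 := h z hz
    rw [inner_sub_right, real_inner_comm z y, real_inner_comm x y] at h1
    simp only
    linarith
  linarith

lemma conj_lipschitz {K : Set (EuclideanSpace ℝ (Fin d))} {φ : EuclideanSpace ℝ (Fin d) → ℝ}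
    (hKc : IsCompact K) (hKn : K.Nonempty) (hφ : ContinuousOn φ K) (M : ℝ≥0)
    (hM : ∀ x ∈ K, ‖x‖ ≤ M) : LipschitzWith M (conj K φ) := by
  apply LipschitzWith.of_le_add_mul
  intro y y'
  obtain ⟨x0, hx0⟩ := hKn
  apply csSup_le ⟨_, Set.mem_image_of_mem _ hx0⟩
  rintro _ ⟨x, hx, rfl⟩
  have h1 := fy_le hKc hφ hx y'
  have h2 : ⟪x, y⟫_ℝ = ⟪x, y'⟫_ℝ + ⟪x, y - y'⟫_ℝ := by
    rw [inner_sub_right]; ring
  have h3 : ⟪x, y - y'⟫_ℝ ≤ M * dist y y' := by
    calc ⟪x, y - y'⟫_ℝ ≤ ‖x‖ * ‖y - y'‖ := real_inner_le_norm _ _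
      _ ≤ M * dist y y' := by
        rw [dist_eq_norm]
        exact mul_le_mul_of_nonneg_right (hM x hx) (norm_nonneg _)
  simp only
  linarith

lemma isProbabilityMeasure_uniformProbOn {K : Set (EuclideanSpace ℝ (Fin d))} (hKc : IsCompact K)
    (hvol : volume K ≠ 0) : IsProbabilityMeasure (uniformProbOn K) := by
  constructor
  simp [uniformProbOn, ENNReal.inv_mul_cancel hvol hKc.measure_lt_top.ne]

/-- **Fenchel–Young uniqueness.**  If some measurable `S` pushes `ρ` to `μ` and is a.e. a bounded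
subgradient on `K` of a continuous `φ`, then every Monge-optimal map `T` from `ρ` to `μ` is a.e. a
subgradient of `φ` on `K`. -/
theorem fy_unique {K : Set (EuclideanSpace ℝ (Fin d))} (hKc : IsCompact K) (hvol : volume K ≠ 0)
    (R : ℝ) (μ : Measure (EuclideanSpace ℝ (Fin d))) (φ : EuclideanSpace ℝ (Fin d) → ℝ)
    (hφ : ContinuousOn φ K) (S T : EuclideanSpace ℝ (Fin d) → EuclideanSpace ℝ (Fin d))
    (hS : Measurable S) (hSmap : (uniformProbOn K).map S = μ)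
    (hSsub : ∀ᵐ x ∂(uniformProbOn K), SubgradOn K φ x (S x))
    (hSb : ∀ᵐ x ∂(uniformProbOn K), ‖S x‖ ≤ R)
    (hT : IsOptimalMap (uniformProbOn K) μ T) :
    ∀ᵐ x ∂(uniformProbOn K), SubgradOn K φ x (T x) := by
  have := isProbabilityMeasure_uniformProbOn hKc hvol
  set ρ := uniformProbOn K with hρ
  obtain ⟨hTm, hTmap, hTopt⟩ := hT
  have hKn : K.Nonempty := by
    rcases K.eq_empty_or_nonempty with h | h
    · exact absurd (by simp [h]) hvol
    · exact h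
  obtain ⟨M0, hM0⟩ := hKc.isBounded.exists_norm_le
  set M : ℝ≥0 := Real.toNNReal M0 with hMdef
  have hM : ∀ x ∈ K, ‖x‖ ≤ M := fun x hx => (hM0 x hx).trans (Real.le_coe_toNNReal M0)
  have hmemK : ∀ᵐ x ∂ρ, x ∈ K := ae_uniform_mem hKc.measurableSet
  have hψL := conj_lipschitz hKc hKn hφ M hM
  set ψ := conj K φ with hψ
  have hψc : Continuous ψ := hψL.continuous
  -- `T` is bounded a.e.
  have hTb : ∀ᵐ x ∂ρ, ‖T x‖ ≤ R := by
    have hms : MeasurableSet {y : EuclideanSpace ℝ (Fin d) | ‖y‖ ≤ R} :=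
      measurableSet_le measurable_norm measurable_const
    have hμ : ∀ᵐ y ∂μ, ‖y‖ ≤ R := by
      rw [← hSmap]
      exact (ae_map_iff hS.aemeasurable hms).2 hSb
    rw [← hTmap] at hμ
    exact (ae_map_iff hTm.aemeasurable hms).1 hμ
  -- transfer of integrals
  have htr : ∀ g : EuclideanSpace ℝ (Fin d) → ℝ, Continuous g →
      ∫ x, g (T x) ∂ρ = ∫ x, g (S x) ∂ρ := by
    intro g hg
    rw [← integral_map hTm.aemeasurable hg.aestronglyMeasurable,
      ← integral_map hS.aemeasurable hg.aestronglyMeasurable, hTmap, hSmap]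
  -- integrability facts, for a generic bounded measurable map `V`
  have hR0 : ∀ V : EuclideanSpace ℝ (Fin d) → EuclideanSpace ℝ (Fin d), Measurable V →
      (∀ᵐ x ∂ρ, ‖V x‖ ≤ R) →
      Integrable (fun x => ‖V x‖ ^ 2) ρ ∧ Integrable (fun x => ⟪x, V x⟫_ℝ) ρ ∧
      Integrable (fun x => ψ (V x)) ρ := by
    intro V hV hVb
    refine ⟨?_, ?_, ?_⟩
    · apply Integrable.of_bound (hV.norm.pow_const 2).aestronglyMeasurable (R ^ 2)
      filter_upwards [hVb] with x hx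
      rw [Real.norm_of_nonneg (by positivity)]
      exact pow_le_pow_left₀ (norm_nonneg _) hx 2
    · apply Integrable.of_bound (measurable_id.inner hV).aestronglyMeasurable (M * R)
      filter_upwards [hVb, hmemK] with x hx hxK
      calc ‖⟪x, V x⟫_ℝ‖ ≤ ‖x‖ * ‖V x‖ := norm_inner_le_norm _ _
        _ ≤ M * R := mul_le_mul (hM x hxK) hx (norm_nonneg _) M.2
    · apply Integrable.of_bound (hψc.measurable.comp hV).aestronglyMeasurable (|ψ 0| + M * R)
      filter_upwards [hVb] with x hx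
      have h1 := hψL.dist_le_mul (V x) 0
      rw [Real.dist_eq, dist_zero_right] at h1
      have h2 : |ψ (V x)| ≤ |ψ 0| + |ψ (V x) - ψ 0| := by
        have := abs_add_le (ψ 0) (ψ (V x) - ψ 0)
        simpa using this
      have h3 : (M : ℝ) * ‖V x‖ ≤ M * R := mul_le_mul_of_nonneg_left hx M.2
      rw [Real.norm_eq_abs]
      simp only [Function.comp_apply]
      linarith
  obtain ⟨hT2, hTi, hTψ⟩ := hR0 T hTm hTb
  obtain ⟨hS2, hSi, hSψ⟩ := hR0 S hS hSb
  have hx2 : Integrable (fun x : EuclideanSpace ℝ (Fin d) => ‖x‖ ^ 2) ρ := by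
    apply Integrable.of_bound (measurable_norm.pow_const 2).aestronglyMeasurable ((M : ℝ) ^ 2)
    filter_upwards [hmemK] with x hx
    rw [Real.norm_of_nonneg (by positivity)]
    exact pow_le_pow_left₀ (norm_nonneg _) (hM x hx) 2
  have hφi : Integrable φ ρ := by
    have h1 : IntegrableOn φ K volume := hφ.integrableOn_compact hKc
    rw [hρ]
    unfold uniformProbOn
    exact h1.smul_measure (ENNReal.inv_ne_top.2 hvol)
  -- the cost as a real integral
  have hcost : ∀ V : EuclideanSpace ℝ (Fin d) → EuclideanSpace ℝ (Fin d),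
      Integrable (fun x => ‖V x‖ ^ 2) ρ → Integrable (fun x => ⟪x, V x⟫_ℝ) ρ →
      ∫⁻ x, ‖x - V x‖ₑ ^ 2 ∂ρ =
        ENNReal.ofReal (∫ x, ‖x‖ ^ 2 ∂ρ - 2 * ∫ x, ⟪x, V x⟫_ℝ ∂ρ + ∫ x, ‖V x‖ ^ 2 ∂ρ) := by
    intro V hV2 hVi
    have he : ∀ x, ‖x - V x‖ ^ 2 = ‖x‖ ^ 2 - 2 * ⟪x, V x⟫_ℝ + ‖V x‖ ^ 2 :=
      fun x => norm_sub_sq_real _ _
    have hint : Integrable (fun x => ‖x - V x‖ ^ 2) ρ := by
      simp_rw [he]
      exact (hx2.sub (hVi.const_mul 2)).add hV2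
    have h1 : ∫ x, ‖x - V x‖ ^ 2 ∂ρ =
        ∫ x, ‖x‖ ^ 2 ∂ρ - 2 * ∫ x, ⟪x, V x⟫_ℝ ∂ρ + ∫ x, ‖V x‖ ^ 2 ∂ρ := by
      simp_rw [he]
      have hA : Integrable (fun x => ‖x‖ ^ 2 - 2 * ⟪x, V x⟫_ℝ) ρ := hx2.sub (hVi.const_mul 2)
      rw [integral_add hA hV2, integral_sub hx2 (hVi.const_mul 2), integral_const_mul]
    rw [← h1, ofReal_integral_eq_lintegral_ofReal hint
      (Eventually.of_forall fun x => by positivity)]
    apply lintegral_congr
    intro x
    rw [ENNReal.ofReal_pow (norm_nonneg _), ofReal_norm]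
  have hopt := hTopt S hS hSmap
  rw [hcost T hT2 hTi, hcost S hS2 hSi] at hopt
  have hSnn : 0 ≤ ∫ x, ‖x‖ ^ 2 ∂ρ - 2 * ∫ x, ⟪x, S x⟫_ℝ ∂ρ + ∫ x, ‖S x‖ ^ 2 ∂ρ := by
    have he : ∀ x, ‖x - S x‖ ^ 2 = ‖x‖ ^ 2 - 2 * ⟪x, S x⟫_ℝ + ‖S x‖ ^ 2 :=
      fun x => norm_sub_sq_real _ _
    have h1 : ∫ x, ‖x - S x‖ ^ 2 ∂ρ =
        ∫ x, ‖x‖ ^ 2 ∂ρ - 2 * ∫ x, ⟪x, S x⟫_ℝ ∂ρ + ∫ x, ‖S x‖ ^ 2 ∂ρ := by
      simp_rw [he]
      have hA : Integrable (fun x => ‖x‖ ^ 2 - 2 * ⟪x, S x⟫_ℝ) ρ := hx2.sub (hSi.const_mul 2)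
      rw [integral_add hA hS2, integral_sub hx2 (hSi.const_mul 2), integral_const_mul]
    rw [← h1]
    exact integral_nonneg fun x => by positivity
  rw [ENNReal.ofReal_le_ofReal_iff hSnn] at hopt
  have hn2 : ∫ x, ‖T x‖ ^ 2 ∂ρ = ∫ x, ‖S x‖ ^ 2 ∂ρ :=
    htr (fun y => ‖y‖ ^ 2) (continuous_norm.pow 2)
  have hψeq : ∫ x, ψ (T x) ∂ρ = ∫ x, ψ (S x) ∂ρ := htr ψ hψc
  have hinner : ∫ x, ⟪x, S x⟫_ℝ ∂ρ ≤ ∫ x, ⟪x, T x⟫_ℝ ∂ρ := by linarith
  -- the FY gap of `S` vanishes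
  have hSgap : ∫ x, ⟪x, S x⟫_ℝ ∂ρ = ∫ x, φ x ∂ρ + ∫ x, ψ (S x) ∂ρ := by
    rw [← integral_add hφi hSψ]
    apply integral_congr_ae
    filter_upwards [hSsub, hmemK] with x hx hxK
    exact (fy_eq_of_subgrad hKc hφ hxK hx).symm
  -- the FY gap of `T`
  have hgi : Integrable (fun x => φ x + ψ (T x) - ⟪x, T x⟫_ℝ) ρ := (hφi.add hTψ).sub hTi
  have hgnn : 0 ≤ᵐ[ρ] fun x => φ x + ψ (T x) - ⟪x, T x⟫_ℝ := by
    filter_upwards [hmemK] with x hxK
    have := fy_le hKc hφ hxK (T x)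
    simp only [Pi.zero_apply]
    linarith
  have hg0 : ∫ x, (φ x + ψ (T x) - ⟪x, T x⟫_ℝ) ∂ρ = 0 := by
    apply le_antisymm _ (integral_nonneg_of_ae hgnn)
    have hA : Integrable (fun x => φ x + ψ (T x)) ρ := hφi.add hTψ
    rw [integral_sub hA hTi, integral_add hφi hTψ]
    linarith
  have hz := (integral_eq_zero_iff_of_nonneg_ae hgnn hgi).1 hg0
  filter_upwards [hz] with x hx
  apply subgrad_of_fy_le hKc hφ
  simp only [Pi.zero_apply] at hx
  linarith

end Crest.Agent.S0109FY
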