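import Mathlib
import Crest.Prelude.Def_QuadraticTransport

set_option autoImplicit false

namespace Crest.Agent.S0109GNdir
open MeasureTheory Crest.AnalysisR.OT
open scoped ENNReal NNReal RealInnerProductSpace

variable {d : ℕ}

/-- `p` is a subgradient at `x` of `φ` on `K`. -/
def IsSubgradOn (K : Set (EuclideanSpace ℝ (Fin d))) (φ : EuclideanSpace ℝ (Fin d) → ℝ)
    (p x : EuclideanSpace ℝ (Fin d)) : Prop :=
  ∀ z ∈ K, φ x + ⟪p, z - x⟫ ≤ φ z

theorem real_key (w a b M : ℝ) (hU : w ≤ a + M) (hL : -(b + M) ≤ w) :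
    w ^ 2 ≤ 2 * a ^ 2 + 2 * b ^ 2 + 2 * M ^ 2 := by
  rcases le_total 0 w with h | h
  · have h1 : w ^ 2 ≤ (a + M) ^ 2 := pow_le_pow_left₀ h hU 2
    nlinarith [sq_nonneg (a - M), sq_nonneg b]
  · have h1 : (-w) ^ 2 ≤ (b + M) ^ 2 := pow_le_pow_left₀ (by linarith) (by linarith) 2
    nlinarith [sq_nonneg (b - M), sq_nonneg a]

theorem real_key2 (w up um u r R mm : ℝ) (hmm0 : 0 ≤ mm) (hmmR : mm ≤ 2 * R)
    (hU : w ≤ (up - u) + r * mm) (hL : -((um - u) + r * mm) ≤ w) :
    w ^ 2 ≤ 4 * up ^ 2 + 4 * um ^ 2 + 8 * u ^ 2 + r ^ 2 * (4 * R * mm) := by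
  have h := real_key w (up - u) (um - u) (r * mm) hU hL
  have hmm2 : mm ^ 2 ≤ 2 * R * mm := by nlinarith
  have hM : (r * mm) ^ 2 ≤ r ^ 2 * (2 * R * mm) := by
    rw [mul_pow]; exact mul_le_mul_of_nonneg_left hmm2 (by positivity)
  nlinarith [sq_nonneg (up + u), sq_nonneg (um + u)]

/-- pointwise inequality -/
theorem pointwise {K : Set (EuclideanSpace ℝ (Fin d))}
    {φ0 φ1 : EuclideanSpace ℝ (Fin d) → ℝ}
    {T0 T1 : EuclideanSpace ℝ (Fin d) → EuclideanSpace ℝ (Fin d)} {R r c : ℝ} (hr : 0 < r)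
    {e x : EuclideanSpace ℝ (Fin d)} (he : ‖e‖ = 1)
    (hx : x ∈ K) (hxp : x + r • e ∈ K) (hxm : x - r • e ∈ K)
    (h1 : IsSubgradOn K φ1 (T1 x) x) (h0 : IsSubgradOn K φ0 (T0 x) x)
    (h0p : IsSubgradOn K φ0 (T0 (x + r • e)) (x + r • e))
    (h0m : IsSubgradOn K φ0 (T0 (x - r • e)) (x - r • e))
    (hRp : ‖T0 (x + r • e)‖ ≤ R) (hRm : ‖T0 (x - r • e)‖ ≤ R) :
    ⟪T1 x - T0 x, e⟫ ^ 2 ≤
      (4 * (φ1 (x + r • e) - φ0 (x + r • e) - c) ^ 2 + 4 * (φ1 (x - r • e) - φ0 (x - r • e) - c) ^ 2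
        + 8 * (φ1 x - φ0 x - c) ^ 2) / r ^ 2
      + 4 * R * (⟪T0 (x + r • e), e⟫ - ⟪T0 (x - r • e), e⟫) := by
  have a1 := h1 _ hxp
  have a2 := h1 _ hxm
  have a3 := h0 _ hxp
  have a4 := h0 _ hxm
  have a5 := h0p _ hx
  have a6 := h0m _ hx
  have e1 : x + r • e - x = r • e := by abel
  have e2 : x - r • e - x = -(r • e) := by abel
  have e3 : x - (x + r • e) = -(r • e) := by abel
  have e4 : x - (x - r • e) = r • e := by abel
  rw [e1, inner_smul_right] at a1 a3
  rw [e2, inner_neg_right, inner_smul_right] at a2 a4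
  rw [e3, inner_neg_right, inner_smul_right] at a5
  rw [e4, inner_smul_right] at a6
  have b1 : |⟪T0 (x + r • e), e⟫| ≤ R := by
    calc _ ≤ ‖T0 (x + r • e)‖ * ‖e‖ := abs_real_inner_le_norm _ _
      _ ≤ R := by rw [he, mul_one]; exact hRp
  have b2 : |⟪T0 (x - r • e), e⟫| ≤ R := by
    calc _ ≤ ‖T0 (x - r • e)‖ * ‖e‖ := abs_real_inner_le_norm _ _
      _ ≤ R := by rw [he, mul_one]; exact hRm
  rw [inner_sub_left]
  set t1 := ⟪T1 x, e⟫
  set t0 := ⟪T0 x, e⟫
  set tp := ⟪T0 (x + r • e), e⟫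
  set tm := ⟪T0 (x - r • e), e⟫
  set up := φ1 (x + r • e) - φ0 (x + r • e) - c with hup
  set um := φ1 (x - r • e) - φ0 (x - r • e) - c with hum
  set u := φ1 x - φ0 x - c with hu
  have hb1 := abs_le.mp b1
  have hb2 := abs_le.mp b2
  -- monotonicity
  have m1 : t0 ≤ tp := by
    have : r * t0 ≤ r * tp := by linarith
    exact le_of_mul_le_mul_left this hr
  have m2 : tm ≤ t0 := by
    have : r * tm ≤ r * t0 := by linarith
    exact le_of_mul_le_mul_left this hr
  -- upper and lower bounds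
  have U : r * (t1 - t0) ≤ (up - u) + r * (tp - tm) := by
    have : r * (t1 - tp) ≤ up - u := by rw [hup, hu]; linarith
    nlinarith
  have Lw : -((um - u) + r * (tp - tm)) ≤ r * (t1 - t0) := by
    have : -(um - u) ≤ r * (t1 - tm) := by rw [hum, hu]; linarith
    nlinarith
  set mm := tp - tm with hmm
  have hmm0 : 0 ≤ mm := by linarith
  have hmmR : mm ≤ 2 * R := by linarith
  have key : (r * (t1 - t0)) ^ 2 ≤ 4 * up ^ 2 + 4 * um ^ 2 + 8 * u ^ 2 + r ^ 2 * (4 * R * mm) :=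
    real_key2 _ up um u r R mm hmm0 hmmR U Lw
  have hr2 : 0 < r ^ 2 := by positivity
  rw [div_add' _ _ _ hr2.ne', le_div_iff₀ hr2]
  calc (t1 - t0) ^ 2 * r ^ 2 = (r * (t1 - t0)) ^ 2 := by ring
    _ ≤ _ := key
    _ = _ := by ring

/-- the shrunk body -/
def Kl (K : Set (EuclideanSpace ℝ (Fin d))) (x0 : EuclideanSpace ℝ (Fin d)) (l : ℝ) :
    Set (EuclideanSpace ℝ (Fin d)) :=
  AffineMap.homothety x0 (1 - l) '' K

theorem Kl_add_mem {K : Set (EuclideanSpace ℝ (Fin d))} (hKv : Convex ℝ K)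
    {x0 : EuclideanSpace ℝ (Fin d)} {r0 : ℝ} (hball : Metric.closedBall x0 r0 ⊆ K)
    {l : ℝ} (hl0 : 0 < l) (hl1 : l ≤ 1) {x v : EuclideanSpace ℝ (Fin d)} (hx : x ∈ Kl K x0 l)
    (hv : ‖v‖ ≤ l * r0) : x + v ∈ K := by
  obtain ⟨k, hk, rfl⟩ := hx
  have hb : x0 + l⁻¹ • v ∈ K := by
    apply hball
    rw [Metric.mem_closedBall, dist_eq_norm, add_sub_cancel_left, norm_smul, norm_inv,
      Real.norm_of_nonneg hl0.le, inv_mul_le_iff₀ hl0]
    exact hv
  have := hKv hk hb (a := 1 - l) (b := l) (by linarith) hl0.le (by ring)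
  convert this using 1
  rw [AffineMap.homothety_apply, vsub_eq_sub, vadd_eq_add, smul_add, smul_smul,
    mul_inv_cancel₀ hl0.ne', one_smul, smul_sub, sub_smul, sub_smul, one_smul, one_smul]
  abel

theorem Kl_subset {K : Set (EuclideanSpace ℝ (Fin d))} (hKv : Convex ℝ K)
    {x0 : EuclideanSpace ℝ (Fin d)} {r0 : ℝ} (hr0 : 0 < r0) (hball : Metric.closedBall x0 r0 ⊆ K)
    {l : ℝ} (hl0 : 0 < l) (hl1 : l ≤ 1) : Kl K x0 l ⊆ K := by
  intro x hx
  have := Kl_add_mem hKv hball hl0 hl1 hx (v := 0) (by simpa using (by positivity : 0 ≤ l * r0))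
  simpa using this

theorem Kl_compact {K : Set (EuclideanSpace ℝ (Fin d))} (hKc : IsCompact K)
    (x0 : EuclideanSpace ℝ (Fin d)) (l : ℝ) : IsCompact (Kl K x0 l) :=
  hKc.image (AffineMap.homothety_continuous x0 (1 - l))

theorem Kl_volume (K : Set (EuclideanSpace ℝ (Fin d)))
    (x0 : EuclideanSpace ℝ (Fin d)) {l : ℝ} (hl1 : l ≤ 1) :
    volume (Kl K x0 l) = ENNReal.ofReal ((1 - l) ^ d) * volume K := by
  rw [Kl, Measure.addHaar_image_homothety, finrank_euclideanSpace_fin,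
    abs_of_nonneg (pow_nonneg (by linarith) d)]

theorem setIntegral_translate (S : Set (EuclideanSpace ℝ (Fin d)))
    (g : EuclideanSpace ℝ (Fin d) → ℝ) (v : EuclideanSpace ℝ (Fin d)) :
    ∫ x in S, g (x + v) = ∫ y in (fun y => y + (-v)) ⁻¹' S, g y := by
  have := (measurePreserving_add_right (volume : Measure (EuclideanSpace ℝ (Fin d))) v).setIntegral_preimage_emb
    (measurableEmbedding_addRight v) g ((fun y => y + (-v)) ⁻¹' S)
  rw [← this]
  congr 2
  ext x
  simp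


theorem ae_translate {p : EuclideanSpace ℝ (Fin d) → Prop}
    (h : ∀ᵐ x ∂(volume : Measure (EuclideanSpace ℝ (Fin d))), p x) (v : EuclideanSpace ℝ (Fin d)) :
    ∀ᵐ x ∂(volume : Measure (EuclideanSpace ℝ (Fin d))), p (x + v) :=
  (measurePreserving_add_right (volume : Measure (EuclideanSpace ℝ (Fin d))) v).quasiMeasurePreserving.ae h

theorem abs_setIntegral_le {A : Set (EuclideanSpace ℝ (Fin d))} (hA : MeasurableSet A)
    (hAfin : volume A ≠ ⊤) {τ : EuclideanSpace ℝ (Fin d) → ℝ} {R : ℝ}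
    (hb : ∀ᵐ x ∂(volume : Measure (EuclideanSpace ℝ (Fin d))), x ∈ A → |τ x| ≤ R) :
    |∫ x in A, τ x| ≤ R * volume.real A := by
  have := norm_setIntegral_le_of_norm_le_const_ae (μ := volume) (s := A) (f := τ) (C := R)
    (lt_top_iff_ne_top.mpr hAfin) (by
      rw [ae_restrict_iff' hA]; simpa using hb)
  simpa using this

theorem vol_diff_le {K : Set (EuclideanSpace ℝ (Fin d))} (hKc : IsCompact K)
    {A : Set (EuclideanSpace ℝ (Fin d))} (hA : MeasurableSet A) (hAK : A ⊆ K) {l : ℝ}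
    (hl0 : 0 ≤ l) (hl1 : l ≤ 1)
    (hvol : volume A = ENNReal.ofReal ((1 - l) ^ d) * volume K) :
    volume.real (K \ A) ≤ d * l * volume.real K := by
  have hKfin : volume K ≠ ⊤ := hKc.measure_lt_top.ne
  have hAfin : volume A ≠ ⊤ := (measure_mono hAK).trans_lt hKc.measure_lt_top |>.ne
  have h1 : volume.real (K \ A) = volume.real K - volume.real A := by
    rw [measureReal_sdiff hAK hA]
  have h2 : volume.real A = (1 - l) ^ d * volume.real K := by
    simp only [Measure.real, hvol, ENNReal.toReal_mul]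
    rw [ENNReal.toReal_ofReal (pow_nonneg (by linarith) d)]
  have h3 : 1 + (d : ℝ) * (-l) ≤ (1 + (-l)) ^ d := one_add_mul_le_pow (by linarith) d
  have h4 : 0 ≤ volume.real K := measureReal_nonneg
  rw [h1, h2]
  have : (1 - l) ^ d = (1 + (-l)) ^ d := by ring
  nlinarith


theorem dir_est {K : Set (EuclideanSpace ℝ (Fin d))} (hKc : IsCompact K) (hKv : Convex ℝ K)
    {x0 : EuclideanSpace ℝ (Fin d)} {r0 : ℝ} (hr0 : 0 < r0) (hball : Metric.closedBall x0 r0 ⊆ K)
    {R : ℝ} (hR : 0 ≤ R)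
    {φ0 φ1 : EuclideanSpace ℝ (Fin d) → ℝ} (hφ0 : Continuous φ0) (hφ1 : Continuous φ1)
    {T0 T1 : EuclideanSpace ℝ (Fin d) → EuclideanSpace ℝ (Fin d)}
    (hT0 : Measurable T0) (hT1 : Measurable T1)
    (h0 : ∀ᵐ x ∂(volume : Measure (EuclideanSpace ℝ (Fin d))), x ∈ K →
      IsSubgradOn K φ0 (T0 x) x ∧ ‖T0 x‖ ≤ R)
    (h1 : ∀ᵐ x ∂(volume : Measure (EuclideanSpace ℝ (Fin d))), x ∈ K →
      IsSubgradOn K φ1 (T1 x) x ∧ ‖T1 x‖ ≤ R)
    {e : EuclideanSpace ℝ (Fin d)} (he : ‖e‖ = 1) {r : ℝ} (hr : 0 < r) (hrr0 : r ≤ r0) (c : ℝ) :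
    ∫ x in K, ⟪T1 x - T0 x, e⟫ ^ 2 ≤
      16 / r ^ 2 * (∫ x in K, (φ1 x - φ0 x - c) ^ 2)
        + 12 * R ^ 2 * d * (r / r0) * volume.real K := by
  set l : ℝ := r / r0 with hl
  have hl0 : 0 < l := by positivity
  have hl1 : l ≤ 1 := by rw [hl, div_le_one hr0]; exact hrr0
  have hlr : l * r0 = r := by rw [hl]; field_simp
  set S := Kl K x0 l with hS
  set v : EuclideanSpace ℝ (Fin d) := r • e with hv
  have hvn : ‖v‖ ≤ l * r0 := by
    rw [hv, norm_smul, he, mul_one, Real.norm_of_nonneg hr.le, hlr]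
  have hvn' : ‖-v‖ ≤ l * r0 := by rw [norm_neg]; exact hvn
  have hSK : S ⊆ K := Kl_subset hKv hr0 hball hl0 hl1
  have hSc : IsCompact S := Kl_compact hKc x0 l
  have hSm : MeasurableSet S := hSc.measurableSet
  have hKm : MeasurableSet K := hKc.measurableSet
  have hKfin : volume K ≠ ⊤ := hKc.measure_lt_top.ne
  have hSvol : volume S = ENNReal.ofReal ((1 - l) ^ d) * volume K := Kl_volume K x0 hl1
  set u : EuclideanSpace ℝ (Fin d) → ℝ := fun x => φ1 x - φ0 x - c with hu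
  have hucont : Continuous u := (hφ1.sub hφ0).sub continuous_const
  set τ : EuclideanSpace ℝ (Fin d) → ℝ := fun x => ⟪T0 x, e⟫ with hτ
  have hτm : Measurable τ := hT0.inner_const
  set F : EuclideanSpace ℝ (Fin d) → ℝ := fun x => ⟪T1 x - T0 x, e⟫ ^ 2 with hF
  have hFm : Measurable F := ((hT1.sub hT0).inner_const).pow_const 2
  -- bounds
  have hτb : ∀ᵐ x ∂(volume : Measure (EuclideanSpace ℝ (Fin d))), x ∈ K → |τ x| ≤ R := by
    filter_upwards [h0] with x hx hxK
    calc |τ x| ≤ ‖T0 x‖ * ‖e‖ := abs_real_inner_le_norm _ _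
      _ ≤ R := by rw [he, mul_one]; exact (hx hxK).2
  have hFb : ∀ᵐ x ∂(volume : Measure (EuclideanSpace ℝ (Fin d))), x ∈ K → F x ≤ 4 * R ^ 2 := by
    filter_upwards [h0, h1] with x hx0 hx1 hxK
    have : |⟪T1 x - T0 x, e⟫| ≤ 2 * R := by
      calc |⟪T1 x - T0 x, e⟫| ≤ ‖T1 x - T0 x‖ * ‖e‖ := abs_real_inner_le_norm _ _
        _ ≤ (‖T1 x‖ + ‖T0 x‖) * 1 := by rw [he]; gcongr; exact norm_sub_le _ _
        _ ≤ 2 * R := by linarith [(hx0 hxK).2, (hx1 hxK).2]
    have h2 := sq_le_sq' (by linarith [abs_le.mp this |>.1]) (abs_le.mp this).2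
    calc F x ≤ (2 * R) ^ 2 := h2
      _ = 4 * R ^ 2 := by ring
  have hFint : IntegrableOn F K := by
    apply Measure.integrableOn_of_bounded hKfin hFm.aestronglyMeasurable (M := 4 * R ^ 2)
    rw [ae_restrict_iff' hKm]
    filter_upwards [hFb] with x hx hxK
    rw [Real.norm_of_nonneg (sq_nonneg _)]
    exact hx hxK
  have hτint : IntegrableOn τ K := by
    apply Measure.integrableOn_of_bounded hKfin hτm.aestronglyMeasurable (M := R)
    rw [ae_restrict_iff' hKm]
    filter_upwards [hτb] with x hx hxK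
    exact hx hxK
  -- translated sets
  set Sp : Set (EuclideanSpace ℝ (Fin d)) := (fun y => y + (-v)) ⁻¹' S with hSp
  set Sm : Set (EuclideanSpace ℝ (Fin d)) := (fun y => y + (-(-v))) ⁻¹' S with hSm'
  have hSpm : MeasurableSet Sp := (measurable_add_const (-v)) hSm
  have hSmm : MeasurableSet Sm := (measurable_add_const (-(-v))) hSm
  have hSpK : Sp ⊆ K := by
    intro y hy
    have := Kl_add_mem hKv hball hl0 hl1 hy hvn
    simpa using this
  have hSmK : Sm ⊆ K := by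
    intro y hy
    have := Kl_add_mem hKv hball hl0 hl1 hy hvn'
    simpa using this
  have hSpvol : volume Sp = ENNReal.ofReal ((1 - l) ^ d) * volume K := by
    rw [hSp, measure_preimage_add_right, hSvol]
  have hSmvol : volume Sm = ENNReal.ofReal ((1 - l) ^ d) * volume K := by
    rw [hSm', measure_preimage_add_right, hSvol]
  have hxp : ∀ x ∈ S, x + v ∈ K := fun x hx => Kl_add_mem hKv hball hl0 hl1 hx hvn
  have hxm : ∀ x ∈ S, x + (-v) ∈ K := fun x hx => Kl_add_mem hKv hball hl0 hl1 hx hvn'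
  -- the pieces
  set a : EuclideanSpace ℝ (Fin d) → ℝ := fun x => u (x + v) ^ 2 with ha
  set b : EuclideanSpace ℝ (Fin d) → ℝ := fun x => u (x + (-v)) ^ 2 with hb
  set c' : EuclideanSpace ℝ (Fin d) → ℝ := fun x => u x ^ 2 with hc'
  set tp : EuclideanSpace ℝ (Fin d) → ℝ := fun x => τ (x + v) with htp
  set tm : EuclideanSpace ℝ (Fin d) → ℝ := fun x => τ (x + (-v)) with htm
  have hc'K : IntegrableOn c' K := ((hucont.pow 2).continuousOn).integrableOn_compact hKc
  have haS : IntegrableOn a S :=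
    (((hucont.comp (continuous_add_const v)).pow 2).continuousOn).integrableOn_compact hSc
  have hbS : IntegrableOn b S :=
    (((hucont.comp (continuous_add_const (-v))).pow 2).continuousOn).integrableOn_compact hSc
  have hc'S : IntegrableOn c' S := hc'K.mono_set hSK
  have hSfin : volume S ≠ ⊤ := hSc.measure_lt_top.ne
  have htpS : IntegrableOn tp S := by
    apply Measure.integrableOn_of_bounded hSfin
      (hτm.comp (measurable_add_const v)).aestronglyMeasurable (M := R)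
    rw [ae_restrict_iff' hSm]
    filter_upwards [ae_translate hτb v] with x hx hxS
    exact hx (hxp x hxS)
  have htmS : IntegrableOn tm S := by
    apply Measure.integrableOn_of_bounded hSfin
      (hτm.comp (measurable_add_const (-v))).aestronglyMeasurable (M := R)
    rw [ae_restrict_iff' hSm]
    filter_upwards [ae_translate hτb (-v)] with x hx hxS
    exact hx (hxm x hxS)
  -- pointwise bound on S
  have hpt : ∀ᵐ x ∂(volume : Measure (EuclideanSpace ℝ (Fin d))), x ∈ S →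
      F x ≤ 4 / r ^ 2 * a x + 4 / r ^ 2 * b x + 8 / r ^ 2 * c' x + 4 * R * (tp x - tm x) := by
    filter_upwards [h0, h1, ae_translate h0 v, ae_translate h0 (-v)] with x hx0 hx1 hxp0 hxm0 hxS
    have hxK := hSK hxS
    have hp := hxp x hxS
    have hm := hxm x hxS
    have hm' : x - r • e ∈ K := by rw [sub_eq_add_neg]; exact hm
    have q0m := hxm0 hm
    rw [← sub_eq_add_neg] at q0m
    have := pointwise (c := c) hr he hxK hp hm' (hx1 hxK).1 (hx0 hxK).1 (hxp0 hp).1 q0m.1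
      (hxp0 hp).2 q0m.2
    simp only [hF, ha, hb, hc', htp, htm, hu, hτ, ← sub_eq_add_neg]
    calc _ ≤ _ := this
      _ = _ := by ring
  have hS1 : ∫ x in S, F x ≤ 4 / r ^ 2 * (∫ x in S, a x) + 4 / r ^ 2 * (∫ x in S, b x)
      + 8 / r ^ 2 * (∫ x in S, c' x) + 4 * R * ((∫ x in S, tp x) - ∫ x in S, tm x) := by
    have i1 : Integrable (fun x => 4 / r ^ 2 * a x) (volume.restrict S) := haS.const_mul (4 / r ^ 2)
    have i2 : Integrable (fun x => 4 / r ^ 2 * b x) (volume.restrict S) := hbS.const_mul (4 / r ^ 2)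
    have i3 : Integrable (fun x => 8 / r ^ 2 * c' x) (volume.restrict S) := hc'S.const_mul (8 / r ^ 2)
    have i5 : Integrable (fun x => tp x - tm x) (volume.restrict S) := htpS.sub htmS
    have i4 : Integrable (fun x => 4 * R * (tp x - tm x)) (volume.restrict S) := i5.const_mul (4 * R)
    have i12 : Integrable (fun x => 4 / r ^ 2 * a x + 4 / r ^ 2 * b x) (volume.restrict S) :=
      i1.add i2
    have i123 : Integrable (fun x => 4 / r ^ 2 * a x + 4 / r ^ 2 * b x + 8 / r ^ 2 * c' x)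
        (volume.restrict S) := i12.add i3
    have iall : Integrable (fun x => 4 / r ^ 2 * a x + 4 / r ^ 2 * b x + 8 / r ^ 2 * c' x
        + 4 * R * (tp x - tm x)) (volume.restrict S) := i123.add i4
    calc ∫ x in S, F x ≤ ∫ x in S, (4 / r ^ 2 * a x + 4 / r ^ 2 * b x + 8 / r ^ 2 * c' x
          + 4 * R * (tp x - tm x)) :=
          setIntegral_mono_on_ae (hFint.mono_set hSK) iall hSm hpt
      _ = _ := by
          rw [integral_add i123 i4, integral_add i12 i3,
            integral_add i1 i2, integral_const_mul, integral_const_mul, integral_const_mul,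
            integral_const_mul, integral_sub htpS htmS]
  -- the u-terms
  have hc'0 : ∀ x, 0 ≤ c' x := fun x => sq_nonneg _
  have hI : ∀ A : Set (EuclideanSpace ℝ (Fin d)), A ⊆ K → ∫ x in A, c' x ≤ ∫ x in K, c' x := by
    intro A hA
    exact setIntegral_mono_set hc'K (Filter.Eventually.of_forall hc'0) (HasSubset.Subset.eventuallyLE hA)
  have ha1 : ∫ x in S, a x ≤ ∫ x in K, c' x := by
    have : ∫ x in S, a x = ∫ y in Sp, c' y := setIntegral_translate S c' v
    rw [this]; exact hI Sp hSpK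
  have hb1 : ∫ x in S, b x ≤ ∫ x in K, c' x := by
    have : ∫ x in S, b x = ∫ y in Sm, c' y := setIntegral_translate S c' (-v)
    rw [this]; exact hI Sm hSmK
  have hc1 : ∫ x in S, c' x ≤ ∫ x in K, c' x := hI S hSK
  -- the tau terms
  have ht1 : (∫ x in S, tp x) - ∫ x in S, tm x ≤ 2 * R * (d * l * volume.real K) := by
    have e1 : ∫ x in S, tp x = ∫ y in Sp, τ y := setIntegral_translate S τ v
    have e2 : ∫ x in S, tm x = ∫ y in Sm, τ y := setIntegral_translate S τ (-v)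
    have d1 := setIntegral_sdiff hSpm hτint hSpK
    have d2 := setIntegral_sdiff hSmm hτint hSmK
    have fin1 : volume (K \ Sp) ≠ ⊤ := ((measure_mono Set.sdiff_subset).trans_lt hKc.measure_lt_top).ne
    have fin2 : volume (K \ Sm) ≠ ⊤ := ((measure_mono Set.sdiff_subset).trans_lt hKc.measure_lt_top).ne
    have b1 := abs_setIntegral_le (hKm.diff hSpm) fin1 (τ := τ) (R := R) (by
      filter_upwards [hτb] with x hx hxA using hx hxA.1)
    have b2 := abs_setIntegral_le (hKm.diff hSmm) fin2 (τ := τ) (R := R) (by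
      filter_upwards [hτb] with x hx hxA using hx hxA.1)
    have v1 := vol_diff_le hKc hSpm hSpK hl0.le hl1 hSpvol
    have v2 := vol_diff_le hKc hSmm hSmK hl0.le hl1 hSmvol
    rw [e1, e2]
    have b1' := (abs_le.mp b1).1
    have b2' := (abs_le.mp b2).2
    have w1 : R * volume.real (K \ Sp) ≤ R * (d * l * volume.real K) :=
      mul_le_mul_of_nonneg_left v1 hR
    have w2 : R * volume.real (K \ Sm) ≤ R * (d * l * volume.real K) :=
      mul_le_mul_of_nonneg_left v2 hR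
    linarith
  -- the complement
  have hC : ∫ x in K \ S, F x ≤ 4 * R ^ 2 * (d * l * volume.real K) := by
    have fin1 : volume (K \ S) ≠ ⊤ := ((measure_mono Set.sdiff_subset).trans_lt hKc.measure_lt_top).ne
    have b1 := abs_setIntegral_le (hKm.diff hSm) fin1 (τ := F) (R := 4 * R ^ 2) (by
      filter_upwards [hFb] with x hx hxA
      rw [abs_of_nonneg (sq_nonneg _)]
      exact hx hxA.1)
    have v1 := vol_diff_le hKc hSm hSK hl0.le hl1 hSvol
    have w1 : 4 * R ^ 2 * volume.real (K \ S) ≤ 4 * R ^ 2 * (d * l * volume.real K) :=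
      mul_le_mul_of_nonneg_left v1 (by positivity)
    linarith [(abs_le.mp b1).2]
  have hsplit := setIntegral_sdiff hSm hFint hSK
  have hr2 : 0 < 4 / r ^ 2 := by positivity
  have hr3 : 0 < 8 / r ^ 2 := by positivity
  have z1 := mul_le_mul_of_nonneg_left ha1 hr2.le
  have z2 := mul_le_mul_of_nonneg_left hb1 hr2.le
  have z3 := mul_le_mul_of_nonneg_left hc1 hr3.le
  have z4 := mul_le_mul_of_nonneg_left ht1 (by positivity : 0 ≤ 4 * R)
  have fin : 16 / r ^ 2 * ∫ x in K, c' x = 4 / r ^ 2 * (∫ x in K, c' x) + 4 / r ^ 2 * (∫ x in K, c' x)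
      + 8 / r ^ 2 * (∫ x in K, c' x) := by ring
  have goal' : ∫ x in K, F x ≤ 16 / r ^ 2 * (∫ x in K, c' x) + 12 * R ^ 2 * d * l * volume.real K := by
    rw [fin]
    nlinarith [hsplit, hS1, hC, z1, z2, z3, z4]
  exact goal'

end Crest.Agent.S0109GNdir
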