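import Mathlib

/-!
# ROW 82 / S0109, package L4 (part 2): the real-number algebra of (P2)-(P4)
-/

namespace Crest.Agent.S0109K

/-- (P3), one cell. -/
theorem p3_cell {a a' m rB kB k2 Δ c1 : ℝ} (ha : 0 < a) (ha' : 0 < a') (hm : 0 < m)
    (ham : a ≤ m) (hma : m ≤ c1 * a) (hc1 : c1 ≤ 1.01)
    (hrB : rB + kB = m) (hrB2 : rB ≤ 2 * m) (ha'r : a' ≤ rB) (hra' : rB ≤ c1 * a')
    (hk : kB ^ 2 ≤ rB * k2) (hk2 : 0 ≤ k2)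
    (hΔ : Δ = rB / a' - m / a) :
    (Real.sqrt a - Real.sqrt a') ^ 2 ≤ 2.86 * (Real.sqrt (a * a') * Δ ^ 2) + 2.02 * k2 := by
  obtain ⟨α, hα, rfl⟩ : ∃ α : ℝ, 0 < α ∧ a = α ^ 2 :=
    ⟨Real.sqrt a, Real.sqrt_pos.2 ha, (Real.sq_sqrt ha.le).symm⟩
  obtain ⟨β, hβ, rfl⟩ : ∃ β : ℝ, 0 < β ∧ a' = β ^ 2 :=
    ⟨Real.sqrt a', Real.sqrt_pos.2 ha', (Real.sq_sqrt ha'.le).symm⟩
  rw [Real.sqrt_sq hα.le, Real.sqrt_sq hβ.le, ← mul_pow, Real.sqrt_sq (by positivity)]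
  -- key identity
  have h1 : (α ^ 2 - β ^ 2) * m = α ^ 2 * (β ^ 2 * Δ + kB) := by
    rw [hΔ]; field_simp; nlinarith [hrB]
  have h2 : (α ^ 2 - β ^ 2) ^ 2 ≤ (β ^ 2 * Δ + kB) ^ 2 := by
    have e : ((α ^ 2 - β ^ 2) * m) ^ 2 = (α ^ 2) ^ 2 * (β ^ 2 * Δ + kB) ^ 2 := by
      rw [h1]; ring
    have e2 : ((α ^ 2 - β ^ 2) * (α ^ 2)) ^ 2 ≤ ((α ^ 2 - β ^ 2) * m) ^ 2 := by
      rw [mul_pow, mul_pow]
      apply mul_le_mul_of_nonneg_left _ (sq_nonneg _)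
      exact pow_le_pow_left₀ (by positivity) ham 2
    rw [e, mul_pow] at e2
    have hp : 0 < (α ^ 2) ^ 2 := by positivity
    nlinarith [e2, hp]
  have h3 : (α - β) ^ 2 * β ^ 2 ≤ (β ^ 2 * Δ + kB) ^ 2 := by
    have : (α - β) ^ 2 * β ^ 2 ≤ (α - β) ^ 2 * (α + β) ^ 2 := by
      apply mul_le_mul_of_nonneg_left _ (sq_nonneg _)
      exact pow_le_pow_left₀ hβ.le (by linarith) 2
    calc (α - β) ^ 2 * β ^ 2 ≤ (α - β) ^ 2 * (α + β) ^ 2 := this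
      _ = (α ^ 2 - β ^ 2) ^ 2 := by ring
      _ ≤ _ := h2
  have h4 : (β ^ 2 * Δ + kB) ^ 2 ≤ 2 * (β ^ 2 * Δ) ^ 2 + 2 * kB ^ 2 := by
    nlinarith [sq_nonneg (β ^ 2 * Δ - kB)]
  have h5 : β ≤ 1.43 * α := by
    have : β ^ 2 ≤ (1.43 * α) ^ 2 := by nlinarith
    exact (pow_le_pow_iff_left₀ hβ.le (by positivity) two_ne_zero).1 this
  have h6 : kB ^ 2 ≤ 1.01 * β ^ 2 * k2 := by
    calc kB ^ 2 ≤ rB * k2 := hk
      _ ≤ (c1 * β ^ 2) * k2 := mul_le_mul_of_nonneg_right hra' hk2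
      _ ≤ (1.01 * β ^ 2) * k2 := by
        apply mul_le_mul_of_nonneg_right _ hk2
        exact mul_le_mul_of_nonneg_right hc1 (by positivity)
  -- divide by β^2
  have hβ2 : 0 < β ^ 2 := by positivity
  have h7 : (α - β) ^ 2 * β ^ 2 ≤ (2.86 * (α * β * Δ ^ 2) + 2.02 * k2) * β ^ 2 := by
    have h8 : β ^ 2 * Δ ^ 2 * β ≤ β ^ 2 * Δ ^ 2 * (1.43 * α) :=
      mul_le_mul_of_nonneg_left h5 (by positivity)
    nlinarith [h3, h4, h6, h8]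
  exact le_of_mul_le_mul_right h7 hβ2

/-- (P4), one cell. -/
theorem p4_cell {a a' m rB k2 Δ αg kx M D N c1 : ℝ} (ha : 0 < a) (ha' : 0 < a') (hm : 0 < m)
    (ham : a ≤ m) (hma : m ≤ c1 * a) (hc1 : c1 ≤ 1.01)
    (hrB2 : rB ≤ 2 * m) (ha'r : a' ≤ rB) (hk2 : 0 ≤ k2)
    (hαg : |αg| ≤ M) (hkx : kx ^ 2 ≤ D ^ 2 * (rB * k2))
    (hN : N = a' * Δ + (a' - a) * αg + kx) :
    N ^ 2 / m ≤ 3 * (2.86 * (Real.sqrt (a * a') * Δ ^ 2)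
      + 6 * M ^ 2 * (Real.sqrt a - Real.sqrt a') ^ 2 + 2 * D ^ 2 * k2) := by
  obtain ⟨α, hα, rfl⟩ : ∃ α : ℝ, 0 < α ∧ a = α ^ 2 :=
    ⟨Real.sqrt a, Real.sqrt_pos.2 ha, (Real.sq_sqrt ha.le).symm⟩
  obtain ⟨β, hβ, rfl⟩ : ∃ β : ℝ, 0 < β ∧ a' = β ^ 2 :=
    ⟨Real.sqrt a', Real.sqrt_pos.2 ha', (Real.sq_sqrt ha'.le).symm⟩
  rw [Real.sqrt_sq hα.le, Real.sqrt_sq hβ.le, ← mul_pow, Real.sqrt_sq (by positivity)]
  rw [div_le_iff₀ hm]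
  have h5 : β ≤ 1.43 * α := by
    have : β ^ 2 ≤ (1.43 * α) ^ 2 := by nlinarith
    exact (pow_le_pow_iff_left₀ hβ.le (by positivity) two_ne_zero).1 this
  have h1 : N ^ 2 ≤ 3 * ((β ^ 2 * Δ) ^ 2 + ((β ^ 2 - α ^ 2) * αg) ^ 2 + kx ^ 2) := by
    rw [hN]
    nlinarith [sq_nonneg (β ^ 2 * Δ - (β ^ 2 - α ^ 2) * αg), sq_nonneg (β ^ 2 * Δ - kx),
      sq_nonneg ((β ^ 2 - α ^ 2) * αg - kx)]
  have hb2m : β ^ 2 ≤ 2 * m := le_trans ha'r hrB2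
  have t1 : (β ^ 2 * Δ) ^ 2 ≤ 2.86 * (α * β * Δ ^ 2) * m := by
    have e1 : (β ^ 2 * Δ) ^ 2 = (β * Δ ^ 2) * β * β ^ 2 := by ring
    have e2 : (β * Δ ^ 2) * β * β ^ 2 ≤ (β * Δ ^ 2) * (1.43 * α) * (2 * m) := by
      apply mul_le_mul (mul_le_mul_of_nonneg_left h5 (by positivity)) hb2m (by positivity)
        (by positivity)
    rw [e1]; refine le_trans e2 (le_of_eq ?_); ring
  have t2 : ((β ^ 2 - α ^ 2) * αg) ^ 2 ≤ 6 * M ^ 2 * (α - β) ^ 2 * m := by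
    have hM : αg ^ 2 ≤ M ^ 2 := by
      rw [← sq_abs αg]; exact pow_le_pow_left₀ (abs_nonneg _) hαg 2
    have e1 : ((β ^ 2 - α ^ 2) * αg) ^ 2 = (α - β) ^ 2 * ((α + β) ^ 2 * αg ^ 2) := by ring
    have e2 : (α + β) ^ 2 ≤ 6 * m := by nlinarith [sq_nonneg (α - β)]
    have e3 : (α + β) ^ 2 * αg ^ 2 ≤ 6 * m * M ^ 2 :=
      mul_le_mul e2 hM (sq_nonneg _) (by positivity)
    rw [e1]
    calc (α - β) ^ 2 * ((α + β) ^ 2 * αg ^ 2) ≤ (α - β) ^ 2 * (6 * m * M ^ 2) :=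
          mul_le_mul_of_nonneg_left e3 (sq_nonneg _)
      _ = _ := by ring
  have t3 : kx ^ 2 ≤ 2 * D ^ 2 * k2 * m := by
    calc kx ^ 2 ≤ D ^ 2 * (rB * k2) := hkx
      _ ≤ D ^ 2 * ((2 * m) * k2) := by
        apply mul_le_mul_of_nonneg_left _ (sq_nonneg _)
        exact mul_le_mul_of_nonneg_right hrB2 hk2
      _ = _ := by ring
  nlinarith [h1, t1, t2, t3]


/-- summing (P1) over the cells. -/
theorem sum_cell {ι : Type*} [Fintype ι] {q u Δ : ι → ℝ} {Ω κ L : ℝ} (hκ : 0 < κ) (hL : 0 < L)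
    (hc : ∀ i, q i * (1 + κ * Δ i ^ 2 / (8 * L ^ 2)) ≤ u i) (hu : ∑ i, u i ≤ Ω) :
    ∑ i, q i * Δ i ^ 2 ≤ (4 * L ^ 2 / κ) * (2 * Ω - 2 * ∑ i, q i) := by
  have h1 : ∀ i, q i * Δ i ^ 2 ≤ (8 * L ^ 2 / κ) * (u i - q i) := by
    intro i
    have := hc i
    have e : q i * (1 + κ * Δ i ^ 2 / (8 * L ^ 2)) = q i + (q i * Δ i ^ 2) * (κ / (8 * L ^ 2)) := by
      field_simp
    rw [e] at this
    have hpos : 0 < κ / (8 * L ^ 2) := by positivity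
    have h2 : (q i * Δ i ^ 2) * (κ / (8 * L ^ 2)) ≤ u i - q i := by linarith
    have h3 : q i * Δ i ^ 2 = ((q i * Δ i ^ 2) * (κ / (8 * L ^ 2))) * (8 * L ^ 2 / κ) := by
      field_simp
    rw [h3, mul_comm (8 * L ^ 2 / κ)]
    exact mul_le_mul_of_nonneg_right h2 (by positivity)
  calc ∑ i, q i * Δ i ^ 2 ≤ ∑ i, (8 * L ^ 2 / κ) * (u i - q i) := Finset.sum_le_sum (fun i _ => h1 i)
    _ = (8 * L ^ 2 / κ) * (∑ i, u i - ∑ i, q i) := by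
        rw [← Finset.mul_sum, Finset.sum_sub_distrib]
    _ ≤ (8 * L ^ 2 / κ) * (Ω - ∑ i, q i) := by
        apply mul_le_mul_of_nonneg_left _ (by positivity); linarith
    _ = _ := by ring

/-- the final summation: (P1)+(P3)+(P4). -/
theorem sum_bound {ι : Type*} [Fintype ι] {a a' u m k2 Δγ Δg N : ι → ℝ}
    {Ω D κ Lγ Lg M k2tot : ℝ} (hκ : 0 < κ) (hLγ : 0 < Lγ) (hLg : 0 < Lg)
    (ha : ∀ i, 0 < a i) (ha' : ∀ i, 0 < a' i)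
    (hcγ : ∀ i, Real.sqrt (a i * a' i) * (1 + κ * Δγ i ^ 2 / (8 * Lγ ^ 2)) ≤ u i)
    (hcg : ∀ i, Real.sqrt (a i * a' i) * (1 + κ * Δg i ^ 2 / (8 * Lg ^ 2)) ≤ u i)
    (hu : ∑ i, u i ≤ Ω) (hsa : ∑ i, a i = Ω) (hsa' : ∑ i, a' i = Ω)
    (hk2 : ∑ i, k2 i ≤ k2tot)
    (h3 : ∀ i, (Real.sqrt (a i) - Real.sqrt (a' i)) ^ 2
      ≤ 2.86 * (Real.sqrt (a i * a' i) * Δγ i ^ 2) + 2.02 * k2 i)
    (h4 : ∀ i, N i ^ 2 / m i ≤ 3 * (2.86 * (Real.sqrt (a i * a' i) * Δg i ^ 2)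
      + 6 * M ^ 2 * (Real.sqrt (a i) - Real.sqrt (a' i)) ^ 2 + 2 * D ^ 2 * k2 i))
    (hγ : 4 * Lγ ^ 2 / κ ≤ 0.0638) (hg : 4 * Lg ^ 2 / κ ≤ 271 * D ^ 2) (hM : M ^ 2 ≤ 1.0201 * D ^ 2) :
    ∑ i, N i ^ 2 / m i ≤ 20000 * D ^ 2 * k2tot := by
  set q : ι → ℝ := fun i => Real.sqrt (a i * a' i) with hq
  set HH : ℝ := ∑ i, (Real.sqrt (a i) - Real.sqrt (a' i)) ^ 2 with hHH
  have hHH0 : 0 ≤ HH := Finset.sum_nonneg (fun i _ => sq_nonneg _)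
  have eHH : HH = 2 * Ω - 2 * ∑ i, q i := by
    have : ∀ i, (Real.sqrt (a i) - Real.sqrt (a' i)) ^ 2 = a i + a' i - 2 * q i := by
      intro i
      have e1 := Real.sq_sqrt (ha i).le
      have e2 := Real.sq_sqrt (ha' i).le
      have e3 : q i = Real.sqrt (a i) * Real.sqrt (a' i) := Real.sqrt_mul (ha i).le _
      rw [e3]; nlinarith
    rw [hHH, Finset.sum_congr rfl (fun i _ => this i), Finset.sum_sub_distrib,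
      Finset.sum_add_distrib, hsa, hsa', ← Finset.mul_sum]
    ring
  have S1 := sum_cell hκ hLγ hcγ hu
  have S2 := sum_cell hκ hLg hcg hu
  rw [← eHH] at S1 S2
  have S1' : ∑ i, q i * Δγ i ^ 2 ≤ 0.0638 * HH :=
    le_trans S1 (mul_le_mul_of_nonneg_right hγ hHH0)
  have S2' : ∑ i, q i * Δg i ^ 2 ≤ 271 * D ^ 2 * HH :=
    le_trans S2 (mul_le_mul_of_nonneg_right hg hHH0)
  have H1 : HH ≤ 2.86 * (∑ i, q i * Δγ i ^ 2) + 2.02 * ∑ i, k2 i := by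
    rw [Finset.mul_sum, Finset.mul_sum, ← Finset.sum_add_distrib]
    exact Finset.sum_le_sum (fun i _ => h3 i)
  have H2 : HH ≤ 2.48 * k2tot := by nlinarith
  have H3 : ∑ i, N i ^ 2 / m i ≤ 3 * (2.86 * (∑ i, q i * Δg i ^ 2) + 6 * M ^ 2 * HH
      + 2 * D ^ 2 * ∑ i, k2 i) := by
    rw [hHH, Finset.mul_sum, Finset.mul_sum, Finset.mul_sum, ← Finset.sum_add_distrib,
      ← Finset.sum_add_distrib, Finset.mul_sum]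
    exact Finset.sum_le_sum (fun i _ => h4 i)
  have hD : 0 ≤ D ^ 2 := sq_nonneg D
  have H4 : 6 * M ^ 2 * HH ≤ 6 * (1.0201 * D ^ 2) * HH := by
    apply mul_le_mul_of_nonneg_right _ hHH0; linarith
  have H5 : D ^ 2 * ∑ i, k2 i ≤ D ^ 2 * k2tot := mul_le_mul_of_nonneg_left hk2 hD
  have H6 : D ^ 2 * HH ≤ D ^ 2 * (2.48 * k2tot) := mul_le_mul_of_nonneg_left H2 hD
  have hk0 : 0 ≤ D ^ 2 * k2tot := by
    have : 0 ≤ D ^ 2 * (2.48 * k2tot) := le_trans (mul_nonneg hD hHH0) H6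
    nlinarith
  nlinarith

end Crest.Agent.S0109K
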