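import Crest.Agent.S0109_KeyCell
import Crest.Agent.S0109_KeyAlg

/-!
# ROW 82 / S0109, package L4 (part 3): the abstract key lemma
-/

open MeasureTheory
open scoped ENNReal RealInnerProductSpace

namespace Crest.Agent.S0109K

set_option linter.unusedSectionVars false

variable {E : Type*} [NormedAddCommGroup E] [InnerProductSpace ℝ E] [MeasurableSpace E]
  [BorelSpace E]

/-! ### elementary facts -/

theorem exp_sub_exp_le {p q c : ℝ} (hp : p ≤ c) (hq : q ≤ c) :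
    |Real.exp p - Real.exp q| ≤ Real.exp c * |p - q| := by
  wlog h : q ≤ p generalizing p q
  · have := this hq hp (le_of_not_ge h)
    rwa [abs_sub_comm, abs_sub_comm q p] at this
  have h1 : 0 ≤ Real.exp p - Real.exp q := sub_nonneg.2 (Real.exp_le_exp.2 h)
  rw [abs_of_nonneg h1, abs_of_nonneg (sub_nonneg.2 h)]
  have h2 := Real.add_one_le_exp (q - p)
  have h3 : Real.exp q = Real.exp p * Real.exp (q - p) := by
    rw [← Real.exp_add]; congr 1; ring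
  have h4 : Real.exp p - Real.exp q ≤ Real.exp p * (p - q) := by
    rw [h3]; nlinarith [Real.exp_pos p]
  exact le_trans h4 (mul_le_mul_of_nonneg_right (Real.exp_le_exp.2 hp) (sub_nonneg.2 h))

theorem e1_le : Real.exp (1 / 128) ≤ 1.01 := by
  have := Real.exp_bound_div_one_sub_of_interval (x := 1 / 128) (by norm_num) (by norm_num)
  refine le_trans this ?_
  norm_num

theorem one_le_e1 : 1 ≤ Real.exp (1 / 128) := Real.one_le_exp (by norm_num)

/-- Cauchy–Schwarz for set integrals of real functions. -/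
theorem cs_set {ρ : Measure E} {S : Set E} {f g : E → ℝ}
    (hff : IntegrableOn (fun x => f x ^ 2) S ρ) (hgg : IntegrableOn (fun x => g x ^ 2) S ρ)
    (hfg : IntegrableOn (fun x => f x * g x) S ρ) :
    (∫ x in S, f x * g x ∂ρ) ^ 2 ≤ (∫ x in S, f x ^ 2 ∂ρ) * ∫ x in S, g x ^ 2 ∂ρ := by
  have h : ∀ t : ℝ, 0 ≤ (∫ x in S, g x ^ 2 ∂ρ) * (t * t) + (2 * ∫ x in S, f x * g x ∂ρ) * t
      + ∫ x in S, f x ^ 2 ∂ρ := by
    intro t
    have e : ∫ x in S, (f x + t * g x) ^ 2 ∂ρ = (∫ x in S, g x ^ 2 ∂ρ) * (t * t)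
        + (2 * ∫ x in S, f x * g x ∂ρ) * t + ∫ x in S, f x ^ 2 ∂ρ := by
      have e1 : (fun x => (f x + t * g x) ^ 2)
          = fun x => (t * t) * g x ^ 2 + (2 * t) * (f x * g x) + f x ^ 2 := by
        funext x; ring
      have hA : Integrable (fun x => (t * t) * g x ^ 2) (ρ.restrict S) := hgg.const_mul _
      have hB : Integrable (fun x => (2 * t) * (f x * g x)) (ρ.restrict S) := hfg.const_mul _
      have hAB : Integrable (fun x => (t * t) * g x ^ 2 + (2 * t) * (f x * g x)) (ρ.restrict S) :=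
        hA.add hB
      rw [e1, integral_add hAB hff, integral_add hA hB, integral_const_mul, integral_const_mul]
      ring
    rw [← e]
    exact integral_nonneg (fun x => sq_nonneg _)
  have := discrim_le_zero h
  rw [discrim] at this
  nlinarith


/-! ### the functions `1/θ` and `⟪x - x0, e⟫/θ` -/

/-- `1/θ`. -/
noncomputable def gam (κ : ℝ) (x0 x : E) : ℝ := Real.exp ((κ / 2) * ‖x - x0‖ ^ 2)

/-- `⟪x - x0, e⟫/θ`. -/
noncomputable def gfun (κ : ℝ) (x0 e x : E) : ℝ := ⟪x - x0, e⟫ * gam κ x0 x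

theorem gam_continuous (κ : ℝ) (x0 : E) : Continuous (gam κ x0) := by
  unfold gam; fun_prop

theorem gfun_continuous (κ : ℝ) (x0 e : E) : Continuous (gfun κ x0 e) := by
  unfold gfun
  exact ((continuous_id.sub continuous_const).inner continuous_const).mul (gam_continuous κ x0)

theorem gam_pos (κ : ℝ) (x0 x : E) : 0 < gam κ x0 x := Real.exp_pos _

theorem gam_mul_theta (κ : ℝ) (x0 x : E) : gam κ x0 x * theta κ x0 x = 1 := by
  unfold gam theta
  rw [← Real.exp_add]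
  simp

theorem gfun_mul_theta (κ : ℝ) (x0 e x : E) : gfun κ x0 e x * theta κ x0 x = ⟪x - x0, e⟫ := by
  unfold gfun
  rw [mul_assoc, gam_mul_theta, mul_one]

section bounds
variable {κ D : ℝ} {x0 : E} (hκ : 0 < κ) (hD : 0 < D) (hκD : κ * D ^ 2 = 1 / 64)
include hκ hD hκD

theorem expo_le {x : E} (hx : ‖x - x0‖ ≤ D) : (κ / 2) * ‖x - x0‖ ^ 2 ≤ 1 / 128 := by
  have : ‖x - x0‖ ^ 2 ≤ D ^ 2 := pow_le_pow_left₀ (norm_nonneg _) hx 2
  nlinarith

theorem gam_le {x : E} (hx : ‖x - x0‖ ≤ D) : gam κ x0 x ≤ Real.exp (1 / 128) :=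
  Real.exp_le_exp.2 (expo_le hκ hD hκD hx)

theorem one_le_e1_mul_theta {x : E} (hx : ‖x - x0‖ ≤ D) :
    1 ≤ Real.exp (1 / 128) * theta κ x0 x := by
  calc (1 : ℝ) = gam κ x0 x * theta κ x0 x := (gam_mul_theta κ x0 x).symm
    _ ≤ _ := mul_le_mul_of_nonneg_right (gam_le hκ hD hκD hx) (theta_pos κ x0 x).le

theorem gam_lip {x y : E} (hx : ‖x - x0‖ ≤ D) (hy : ‖y - x0‖ ≤ D) :
    |gam κ x0 x - gam κ x0 y| ≤ (κ * D * Real.exp (1 / 128)) * ‖x - y‖ := by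
  have h1 := exp_sub_exp_le (expo_le hκ hD hκD hx) (expo_le hκ hD hκD hy)
  have h2 : |κ / 2 * ‖x - x0‖ ^ 2 - κ / 2 * ‖y - x0‖ ^ 2| ≤ κ * D * ‖x - y‖ := by
    have e : κ / 2 * ‖x - x0‖ ^ 2 - κ / 2 * ‖y - x0‖ ^ 2
        = (κ / 2) * ((‖x - x0‖ - ‖y - x0‖) * (‖x - x0‖ + ‖y - x0‖)) := by ring
    rw [e, abs_mul, abs_mul, abs_of_pos (by positivity : 0 < κ / 2)]
    have h3 : |‖x - x0‖ - ‖y - x0‖| ≤ ‖x - y‖ := by
      have := abs_norm_sub_norm_le (x - x0) (y - x0)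
      simpa using this
    have h4 : |‖x - x0‖ + ‖y - x0‖| ≤ 2 * D := by
      rw [abs_of_nonneg (by positivity)]; linarith
    calc κ / 2 * (|‖x - x0‖ - ‖y - x0‖| * |‖x - x0‖ + ‖y - x0‖|)
        ≤ κ / 2 * (‖x - y‖ * (2 * D)) := by
          apply mul_le_mul_of_nonneg_left _ (by positivity)
          exact mul_le_mul h3 h4 (abs_nonneg _) (norm_nonneg _)
      _ = κ * D * ‖x - y‖ := by ring
  unfold gam
  calc _ ≤ Real.exp (1 / 128) * |κ / 2 * ‖x - x0‖ ^ 2 - κ / 2 * ‖y - x0‖ ^ 2| := h1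
    _ ≤ Real.exp (1 / 128) * (κ * D * ‖x - y‖) :=
        mul_le_mul_of_nonneg_left h2 (Real.exp_pos _).le
    _ = _ := by ring

theorem gfun_abs_le {e x : E} (he : ‖e‖ ≤ 1) (hx : ‖x - x0‖ ≤ D) :
    |gfun κ x0 e x| ≤ D * Real.exp (1 / 128) := by
  unfold gfun
  rw [abs_mul, abs_of_pos (gam_pos κ x0 x)]
  have h1 : |⟪x - x0, e⟫| ≤ D := by
    calc |⟪x - x0, e⟫| ≤ ‖x - x0‖ * ‖e‖ := abs_real_inner_le_norm _ _
      _ ≤ D * 1 := mul_le_mul hx he (norm_nonneg _) hD.le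
      _ = D := mul_one D
  exact mul_le_mul h1 (gam_le hκ hD hκD hx) (gam_pos κ x0 x).le hD.le

theorem gfun_lip {e x y : E} (he : ‖e‖ ≤ 1) (hx : ‖x - x0‖ ≤ D) (hy : ‖y - x0‖ ≤ D) :
    |gfun κ x0 e x - gfun κ x0 e y| ≤ (65 / 64 * Real.exp (1 / 128)) * ‖x - y‖ := by
  unfold gfun
  have e1 : ⟪x - x0, e⟫ * gam κ x0 x - ⟪y - x0, e⟫ * gam κ x0 y
      = ⟪x - y, e⟫ * gam κ x0 x + ⟪y - x0, e⟫ * (gam κ x0 x - gam κ x0 y) := by
    have : x - x0 = (x - y) + (y - x0) := by abel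
    rw [this, inner_add_left]; ring
  rw [e1]
  have h1 : |⟪x - y, e⟫ * gam κ x0 x| ≤ ‖x - y‖ * Real.exp (1 / 128) := by
    rw [abs_mul, abs_of_pos (gam_pos κ x0 x)]
    have : |⟪x - y, e⟫| ≤ ‖x - y‖ := by
      calc |⟪x - y, e⟫| ≤ ‖x - y‖ * ‖e‖ := abs_real_inner_le_norm _ _
        _ ≤ ‖x - y‖ * 1 := mul_le_mul_of_nonneg_left he (norm_nonneg _)
        _ = ‖x - y‖ := mul_one _
    exact mul_le_mul this (gam_le hκ hD hκD hx) (gam_pos κ x0 x).le (norm_nonneg _)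
  have h2 : |⟪y - x0, e⟫ * (gam κ x0 x - gam κ x0 y)|
      ≤ D * ((κ * D * Real.exp (1 / 128)) * ‖x - y‖) := by
    rw [abs_mul]
    have : |⟪y - x0, e⟫| ≤ D := by
      calc |⟪y - x0, e⟫| ≤ ‖y - x0‖ * ‖e‖ := abs_real_inner_le_norm _ _
        _ ≤ D * 1 := mul_le_mul hy he (norm_nonneg _) hD.le
        _ = D := mul_one D
    exact mul_le_mul this (gam_lip hκ hD hκD hx hy) (abs_nonneg _) hD.le
  have h3 : D * ((κ * D * Real.exp (1 / 128)) * ‖x - y‖)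
      = (1 / 64) * Real.exp (1 / 128) * ‖x - y‖ := by
    rw [← hκD]; ring
  calc _ ≤ |⟪x - y, e⟫ * gam κ x0 x| + |⟪y - x0, e⟫ * (gam κ x0 x - gam κ x0 y)| := abs_add_le _ _
    _ ≤ ‖x - y‖ * Real.exp (1 / 128) + (1 / 64) * Real.exp (1 / 128) * ‖x - y‖ := by
        rw [← h3]; exact add_le_add h1 h2
    _ = _ := by ring

end bounds


/-! ### integrals over one cell -/

theorem intOn_bdd {ρ : Measure E} [IsFiniteMeasure ρ] {f : E → ℝ} (hf : Measurable f) {S : Set E}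
    (hS : MeasurableSet S) {C : ℝ} (hb : ∀ x ∈ S, |f x| ≤ C) : IntegrableOn f S ρ :=
  Measure.integrableOn_of_bounded (measure_ne_top _ _) hf.aestronglyMeasurable
    ((ae_restrict_iff' hS).2 (Filter.Eventually.of_forall hb))

section cell
variable {ρ : Measure E} [IsFiniteMeasure ρ] {κ D : ℝ} {x0 : E} (hκ : 0 < κ) (hD : 0 < D)
  (hκD : κ * D ^ 2 = 1 / 64) {K : Set E} (hKD : ∀ x ∈ K, ‖x - x0‖ ≤ D)
include hκ hD hκD hKD

theorem theta_mass {S : Set E} (hS : MeasurableSet S) (hSK : S ⊆ K) :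
    (∫ x in S, theta κ x0 x ∂ρ) ≤ (∫ _ in S, (1 : ℝ) ∂ρ) ∧
    (∫ _ in S, (1 : ℝ) ∂ρ) ≤ Real.exp (1 / 128) * ∫ x in S, theta κ x0 x ∂ρ := by
  have hθi : IntegrableOn (theta κ x0) S ρ :=
    intOn_bdd (theta_continuous κ x0).measurable hS (C := 1) (fun x _ => by
      rw [abs_of_pos (theta_pos κ x0 x)]; exact theta_le_one hκ.le x0 x)
  have h1i : IntegrableOn (fun _ : E => (1 : ℝ)) S ρ := integrableOn_const (by simp) (by simp)
  constructor
  · exact setIntegral_mono hθi h1i (fun x => theta_le_one hκ.le x0 x)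
  · rw [← integral_const_mul]
    exact setIntegral_mono_on h1i (hθi.const_mul _) hS
      (fun x hx => one_le_e1_mul_theta hκ hD hκD (hKD x (hSK hx)))

/-- (P2) and the basic relations for one pair of cells. -/
theorem cell_basic {A B : Set E} (hA : MeasurableSet A) (hB : MeasurableSet B) (hAK : A ⊆ K)
    (hBK : B ⊆ K) {k : E → ℝ} (hk : Measurable k) (hk1 : ∀ x, |k x| ≤ 1 / 2) {m : ℝ} (hm : 0 < m)
    (h1 : ∫ _ in A, (1 : ℝ) ∂ρ = m) (h2 : ∫ x in B, (1 + k x) ∂ρ = m) :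
    0 < (∫ x in A, theta κ x0 x ∂ρ) ∧ 0 < (∫ x in B, theta κ x0 x ∂ρ) ∧
    (∫ x in A, theta κ x0 x ∂ρ) ≤ m ∧ m ≤ Real.exp (1 / 128) * (∫ x in A, theta κ x0 x ∂ρ) ∧
    (∫ _ in B, (1 : ℝ) ∂ρ) + (∫ x in B, k x ∂ρ) = m ∧ (∫ _ in B, (1 : ℝ) ∂ρ) ≤ 2 * m ∧
    (∫ x in B, theta κ x0 x ∂ρ) ≤ (∫ _ in B, (1 : ℝ) ∂ρ) ∧
    (∫ _ in B, (1 : ℝ) ∂ρ) ≤ Real.exp (1 / 128) * (∫ x in B, theta κ x0 x ∂ρ) ∧
    0 ≤ (∫ x in B, k x ^ 2 ∂ρ) := by
  obtain ⟨a1, a2⟩ := theta_mass (ρ := ρ) hκ hD hκD hKD hA hAK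
  obtain ⟨b1, b2⟩ := theta_mass (ρ := ρ) hκ hD hκD hKD hB hBK
  rw [h1] at a1 a2
  have h1i : IntegrableOn (fun _ : E => (1 : ℝ)) B ρ := integrableOn_const (by simp) (by simp)
  have hki : IntegrableOn k B ρ := intOn_bdd hk hB (fun x _ => hk1 x)
  have e1 : (∫ _ in B, (1 : ℝ) ∂ρ) + (∫ x in B, k x ∂ρ) = m := by
    rw [← integral_add h1i hki]; exact h2
  have e2 : -((1 / 2) * ∫ _ in B, (1 : ℝ) ∂ρ) ≤ ∫ x in B, k x ∂ρ := by
    rw [← integral_const_mul, ← integral_neg]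
    exact setIntegral_mono (h1i.const_mul _).neg hki
      (fun x => by have := (abs_le.1 (hk1 x)).1; simpa using this)
  have e3 : (∫ x in B, k x ∂ρ) ≤ (1 / 2) * ∫ _ in B, (1 : ℝ) ∂ρ := by
    rw [← integral_const_mul]
    exact setIntegral_mono hki (h1i.const_mul _)
      (fun x => by have := (abs_le.1 (hk1 x)).2; simpa using this)
  have hE := Real.exp_pos (1 / 128 : ℝ)
  refine ⟨?_, ?_, a1, a2, e1, by linarith, b1, b2, integral_nonneg (fun x => sq_nonneg _)⟩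
  · by_contra hcon
    rw [not_lt] at hcon
    nlinarith
  · by_contra hcon
    rw [not_lt] at hcon
    have : (∫ _ in B, (1 : ℝ) ∂ρ) ≤ 0 := by nlinarith
    linarith

/-- (P3) for one pair of cells. -/
theorem cell_p3 {A B : Set E} (hA : MeasurableSet A) (hB : MeasurableSet B) (hAK : A ⊆ K)
    (hBK : B ⊆ K) {k : E → ℝ} (hk : Measurable k) (hk1 : ∀ x, |k x| ≤ 1 / 2) {m : ℝ} (hm : 0 < m)
    (h1 : ∫ _ in A, (1 : ℝ) ∂ρ = m) (h2 : ∫ x in B, (1 + k x) ∂ρ = m) :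
    (Real.sqrt (∫ x in A, theta κ x0 x ∂ρ) - Real.sqrt (∫ x in B, theta κ x0 x ∂ρ)) ^ 2
      ≤ 2.86 * (Real.sqrt ((∫ x in A, theta κ x0 x ∂ρ) * (∫ x in B, theta κ x0 x ∂ρ)) *
        ((∫ x in B, gam κ x0 x * theta κ x0 x ∂ρ) / (∫ x in B, theta κ x0 x ∂ρ)
        - (∫ x in A, gam κ x0 x * theta κ x0 x ∂ρ) / (∫ x in A, theta κ x0 x ∂ρ)) ^ 2)
        + 2.02 * ∫ x in B, k x ^ 2 ∂ρ := by
  obtain ⟨ha, ha', c1, c2, c3, c4, c5, c6, c7⟩ :=
    cell_basic (ρ := ρ) hκ hD hκD hKD hA hB hAK hBK hk hk1 hm h1 h2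
  have h1i : IntegrableOn (fun _ : E => (1 : ℝ)) B ρ := integrableOn_const (by simp) (by simp)
  have hki : IntegrableOn k B ρ := intOn_bdd hk hB (fun x _ => hk1 x)
  have hk2i : IntegrableOn (fun x => k x ^ 2) B ρ :=
    intOn_bdd (hk.pow_const 2) hB (C := 1) (fun x _ => by
      rw [abs_pow]
      have := hk1 x
      nlinarith [abs_nonneg (k x)])
  have hcs := cs_set (ρ := ρ) (S := B) (f := k) (g := fun _ => (1 : ℝ)) hk2i (by simpa using h1i)
    (by simpa using hki)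
  simp only [mul_one, one_pow] at hcs
  simp only [gam_mul_theta]
  rw [h1]
  exact p3_cell ha ha' hm c1 c2 e1_le c3 c4 c5 c6 (by rw [mul_comm]; exact hcs) c7 rfl

/-- (P4) for one pair of cells. -/
theorem cell_p4 [CompleteSpace E] [SecondCountableTopology E]
    {A B : Set E} (hA : MeasurableSet A) (hB : MeasurableSet B) (hAK : A ⊆ K)
    (hBK : B ⊆ K) {k : E → ℝ} (hk : Measurable k) (hk1 : ∀ x, |k x| ≤ 1 / 2) {m : ℝ} (hm : 0 < m)
    (h1 : ∫ _ in A, (1 : ℝ) ∂ρ = m) (h2 : ∫ x in B, (1 + k x) ∂ρ = m) :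
    ∃ e : E, ‖e‖ ≤ 1 ∧
    ‖(∫ x in B, (1 + k x) • x ∂ρ) - ∫ x in A, (1 : ℝ) • x ∂ρ‖ ^ 2 / m
      ≤ 3 * (2.86 * (Real.sqrt ((∫ x in A, theta κ x0 x ∂ρ) * (∫ x in B, theta κ x0 x ∂ρ)) *
        ((∫ x in B, gfun κ x0 e x * theta κ x0 x ∂ρ) / (∫ x in B, theta κ x0 x ∂ρ)
        - (∫ x in A, gfun κ x0 e x * theta κ x0 x ∂ρ) / (∫ x in A, theta κ x0 x ∂ρ)) ^ 2)
        + 6 * (D * Real.exp (1 / 128)) ^ 2 *
          (Real.sqrt (∫ x in A, theta κ x0 x ∂ρ) - Real.sqrt (∫ x in B, theta κ x0 x ∂ρ)) ^ 2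
        + 2 * D ^ 2 * ∫ x in B, k x ^ 2 ∂ρ) := by
  obtain ⟨ha, ha', c1, c2, c3, c4, c5, c6, c7⟩ :=
    cell_basic (ρ := ρ) hκ hD hκD hKD hA hB hAK hBK hk hk1 hm h1 h2
  set v : E := (∫ x in B, (1 + k x) • x ∂ρ) - ∫ x in A, (1 : ℝ) • x ∂ρ with hv
  obtain ⟨e, he, hev⟩ : ∃ e : E, ‖e‖ ≤ 1 ∧ ⟪e, v⟫ = ‖v‖ := by
    by_cases h0 : v = 0
    · exact ⟨0, by simp, by simp [h0]⟩
    · refine ⟨(‖v‖⁻¹ : ℝ) • v, ?_, ?_⟩
      · rw [norm_smul, norm_inv, norm_norm, inv_mul_cancel₀ (norm_ne_zero_iff.2 h0)]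
      · rw [real_inner_smul_left, real_inner_self_eq_norm_sq]
        have := norm_ne_zero_iff.2 h0
        field_simp
  refine ⟨e, he, ?_⟩
  set l : E → ℝ := fun x => ⟪x - x0, e⟫ with hl
  have hlc : Continuous l := (continuous_id.sub continuous_const).inner continuous_const
  have hlb : ∀ x ∈ K, |l x| ≤ D := by
    intro x hx
    calc |⟪x - x0, e⟫| ≤ ‖x - x0‖ * ‖e‖ := abs_real_inner_le_norm _ _
      _ ≤ D * 1 := mul_le_mul (hKD x hx) he (norm_nonneg _) hD.le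
      _ = D := mul_one D
  have hnb : ∀ x ∈ K, ‖x‖ ≤ ‖x0‖ + D := by
    intro x hx
    calc ‖x‖ = ‖x0 + (x - x0)‖ := by congr 1; abel
      _ ≤ ‖x0‖ + ‖x - x0‖ := norm_add_le _ _
      _ ≤ ‖x0‖ + D := by linarith [hKD x hx]
  -- integrability
  have i1B : IntegrableOn (fun _ : E => (1 : ℝ)) B ρ := integrableOn_const (by simp) (by simp)
  have i1A : IntegrableOn (fun _ : E => (1 : ℝ)) A ρ := integrableOn_const (by simp) (by simp)
  have ikB : IntegrableOn k B ρ := intOn_bdd hk hB (fun x _ => hk1 x)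
  have ilB : IntegrableOn l B ρ := intOn_bdd hlc.measurable hB (fun x hx => hlb x (hBK hx))
  have ilA : IntegrableOn l A ρ := intOn_bdd hlc.measurable hA (fun x hx => hlb x (hAK hx))
  have iklB : IntegrableOn (fun x => k x * l x) B ρ :=
    intOn_bdd (f := fun x => k x * l x) (hk.mul hlc.measurable) hB (C := 1 / 2 * D) (fun x hx => by
      rw [abs_mul]
      exact mul_le_mul (hk1 x) (hlb x (hBK hx)) (abs_nonneg _) (by norm_num))
  have ik2B : IntegrableOn (fun x => k x ^ 2) B ρ :=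
    intOn_bdd (hk.pow_const 2) hB (C := 1) (fun x _ => by
      rw [abs_pow]
      have := hk1 x
      nlinarith [abs_nonneg (k x)])
  have il2B : IntegrableOn (fun x => l x ^ 2) B ρ :=
    intOn_bdd (hlc.measurable.pow_const 2) hB (C := D ^ 2) (fun x hx => by
      rw [abs_pow]
      exact pow_le_pow_left₀ (abs_nonneg _) (hlb x (hBK hx)) 2)
  have ivB : IntegrableOn (fun x => (1 + k x) • x) B ρ := by
    refine Measure.integrableOn_of_bounded (M := 3 / 2 * (‖x0‖ + D)) (measure_ne_top _ _)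
      (((measurable_const.add hk).smul measurable_id).aestronglyMeasurable)
      ((ae_restrict_iff' hB).2 (Filter.Eventually.of_forall (fun x hx => ?_)))
    rw [norm_smul]
    have h3 : ‖1 + k x‖ ≤ 3 / 2 := by
      rw [Real.norm_eq_abs]
      have := abs_le.1 (hk1 x)
      rw [abs_le]; constructor <;> linarith [this.1, this.2]
    exact mul_le_mul h3 (hnb x (hBK hx)) (norm_nonneg _) (by norm_num)
  have ivA : IntegrableOn (fun x => (1 : ℝ) • x) A ρ := by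
    refine Measure.integrableOn_of_bounded (M := (‖x0‖ + D)) (measure_ne_top _ _)
      ((measurable_const.smul measurable_id).aestronglyMeasurable)
      ((ae_restrict_iff' hA).2 (Filter.Eventually.of_forall (fun x hx => ?_)))
    rw [one_smul]; exact hnb x (hAK hx)
  -- the scalar identity
  set c0 : ℝ := ⟪x0, e⟫ with hc0
  have eB : ⟪e, ∫ x in B, (1 + k x) • x ∂ρ⟫
      = (∫ x in B, l x ∂ρ) + (∫ x in B, k x * l x ∂ρ) + c0 * m := by
    rw [← integral_inner ivB e]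
    have e1 : (fun x => ⟪e, (1 + k x) • x⟫) = fun x => (l x + k x * l x) + c0 * (1 + k x) := by
      funext x
      rw [real_inner_smul_right, real_inner_comm, hl, hc0]
      simp only [inner_sub_left]
      ring
    have i2 : IntegrableOn (fun x => l x + k x * l x) B ρ := ilB.add iklB
    have i3 : IntegrableOn (fun x => 1 + k x) B ρ := i1B.add ikB
    rw [e1, integral_add i2 (i3.const_mul _), integral_add ilB iklB, integral_const_mul, h2]
  have eA : ⟪e, ∫ x in A, (1 : ℝ) • x ∂ρ⟫ = (∫ x in A, l x ∂ρ) + c0 * m := by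
    rw [← integral_inner ivA e]
    have e1 : (fun x => ⟪e, (1 : ℝ) • x⟫) = fun x => l x + c0 * 1 := by
      funext x
      rw [one_smul, real_inner_comm, hl, hc0]
      simp only [inner_sub_left]
      ring
    rw [e1, integral_add ilA (i1A.const_mul _), integral_const_mul, h1]
  have hN : ‖v‖ = (∫ x in B, l x ∂ρ) - (∫ x in A, l x ∂ρ) + ∫ x in B, k x * l x ∂ρ := by
    rw [← hev, hv, inner_sub_right, eB, eA]; ring
  simp only [gfun_mul_theta]
  change _ ≤ 3 * (2.86 * (_ * ((∫ x in B, l x ∂ρ) / _ - (∫ x in A, l x ∂ρ) / _) ^ 2) + _ + _)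
  -- bound on αg
  have hθiA : IntegrableOn (theta κ x0) A ρ :=
    intOn_bdd (theta_continuous κ x0).measurable hA (C := 1) (fun x _ => by
      rw [abs_of_pos (theta_pos κ x0 x)]; exact theta_le_one hκ.le x0 x)
  have hpA : |∫ x in A, l x ∂ρ| ≤ (D * Real.exp (1 / 128)) * ∫ x in A, theta κ x0 x ∂ρ := by
    have hb : ∀ x ∈ A, |l x| ≤ (D * Real.exp (1 / 128)) * theta κ x0 x := by
      intro x hx
      have h5 := gfun_abs_le (e := e) hκ hD hκD he (hKD x (hAK hx))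
      have h6 : l x = gfun κ x0 e x * theta κ x0 x := (gfun_mul_theta κ x0 e x).symm
      rw [h6, abs_mul, abs_of_pos (theta_pos κ x0 x)]
      exact mul_le_mul_of_nonneg_right h5 (theta_pos κ x0 x).le
    rw [← integral_const_mul, abs_le]
    constructor
    · rw [← integral_neg]
      exact setIntegral_mono_on (hθiA.const_mul _).neg ilA hA
        (fun x hx => (abs_le.1 (hb x hx)).1)
    · exact setIntegral_mono_on ilA (hθiA.const_mul _) hA (fun x hx => (abs_le.1 (hb x hx)).2)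
  have hαg : |(∫ x in A, l x ∂ρ) / (∫ x in A, theta κ x0 x ∂ρ)| ≤ D * Real.exp (1 / 128) := by
    rw [abs_div, abs_of_pos ha, div_le_iff₀ ha]; exact hpA
  have hkx : (∫ x in B, k x * l x ∂ρ) ^ 2 ≤ D ^ 2 * ((∫ _ in B, (1 : ℝ) ∂ρ) * ∫ x in B, k x ^ 2 ∂ρ) := by
    have hcs := cs_set (ρ := ρ) (S := B) (f := k) (g := l) ik2B il2B iklB
    have h7 : (∫ x in B, l x ^ 2 ∂ρ) ≤ D ^ 2 * ∫ _ in B, (1 : ℝ) ∂ρ := by
      rw [← integral_const_mul]
      refine setIntegral_mono_on il2B (i1B.const_mul _) hB (fun x hx => ?_)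
      rw [mul_one, ← sq_abs]
      exact pow_le_pow_left₀ (abs_nonneg _) (hlb x (hBK hx)) 2
    calc _ ≤ (∫ x in B, k x ^ 2 ∂ρ) * ∫ x in B, l x ^ 2 ∂ρ := hcs
      _ ≤ (∫ x in B, k x ^ 2 ∂ρ) * (D ^ 2 * ∫ _ in B, (1 : ℝ) ∂ρ) :=
          mul_le_mul_of_nonneg_left h7 c7
      _ = _ := by ring
  refine p4_cell ha ha' hm c1 c2 e1_le c4 c5 c7 hαg hkx ?_
  rw [hN]
  field_simp
  ring

end cell

/-! ### sums over an a.e. partition -/

theorem sum_setIntegral_le {ρ : Measure E} {ι : Type*} [Fintype ι] {S : ι → Set E}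
    (hS : ∀ i, MeasurableSet (S i)) (hd : Pairwise (Function.onFun (AEDisjoint ρ) S))
    {f : E → ℝ} (hf : Integrable f ρ) (hf0 : ∀ x, 0 ≤ f x) :
    ∑ i, ∫ x in S i, f x ∂ρ ≤ ∫ x, f x ∂ρ := by
  have h := integral_iUnion_ae (fun i => (hS i).nullMeasurableSet) hd hf.integrableOn
  rw [tsum_fintype] at h
  rw [← h]
  exact setIntegral_le_integral hf (Filter.Eventually.of_forall hf0)

theorem sum_setIntegral_eq {ρ : Measure E} {ι : Type*} [Fintype ι] {S : ι → Set E}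
    (hS : ∀ i, MeasurableSet (S i)) (hd : Pairwise (Function.onFun (AEDisjoint ρ) S))
    (hc : ∀ᵐ x ∂ρ, x ∈ ⋃ i, S i) {f : E → ℝ} (hf : Integrable f ρ) :
    ∑ i, ∫ x in S i, f x ∂ρ = ∫ x, f x ∂ρ := by
  have h := integral_iUnion_ae (fun i => (hS i).nullMeasurableSet) hd hf.integrableOn
  rw [tsum_fintype] at h
  rw [← h, Measure.restrict_eq_self_of_ae_mem hc]

/-- **The abstract key lemma** (L4 of `notes/ROW82_proof.md`). -/
theorem key_abs [CompleteSpace E] [SecondCountableTopology E] {ρ : Measure E} [IsFiniteMeasure ρ]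
    (hPL : PLProp ρ) {K : Set E} (hK : IsCompact K) {x0 : E} {D : ℝ} (hD : 0 < D)
    (hKD : ∀ x ∈ K, ‖x - x0‖ ≤ D) {ι : Type*} [Fintype ι] {A B U : ι → Set E}
    (hA : ∀ i, MeasurableSet (A i)) (hB : ∀ i, MeasurableSet (B i)) (hU : ∀ i, MeasurableSet (U i))
    (hAK : ∀ i, A i ⊆ K) (hBK : ∀ i, B i ⊆ K) (hUK : ∀ i, U i ⊆ K)
    (hmid : ∀ i, ∀ x ∈ A i, ∀ y ∈ B i, (1 / 2 : ℝ) • (x + y) ∈ U i)
    (hAd : Pairwise (Function.onFun (AEDisjoint ρ) A))
    (hBd : Pairwise (Function.onFun (AEDisjoint ρ) B))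
    (hUd : Pairwise (Function.onFun (AEDisjoint ρ) U))
    (hAc : ∀ᵐ x ∂ρ, x ∈ ⋃ i, A i) (hBc : ∀ᵐ x ∂ρ, x ∈ ⋃ i, B i)
    {k : E → ℝ} (hk : Measurable k) (hk1 : ∀ x, |k x| ≤ 1 / 2) {m : ι → ℝ} (hm : ∀ i, 0 < m i)
    (h1 : ∀ i, ∫ _ in A i, (1 : ℝ) ∂ρ = m i) (h2 : ∀ i, ∫ x in B i, (1 + k x) ∂ρ = m i) :
    ∑ i, ‖(∫ x in B i, (1 + k x) • x ∂ρ) - ∫ x in A i, (1 : ℝ) • x ∂ρ‖ ^ 2 / m i
      ≤ 20000 * D ^ 2 * ∫ x, k x ^ 2 ∂ρ := by
  set κ : ℝ := 1 / (64 * D ^ 2) with hκdef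
  have hκ : 0 < κ := by positivity
  have hκD : κ * D ^ 2 = 1 / 64 := by rw [hκdef]; field_simp
  have hE := Real.exp_pos (1 / 128 : ℝ)
  have hE1 := e1_le
  have hE0 := one_le_e1
  have hE2 : Real.exp (1 / 128) ^ 2 ≤ 1.0201 := by nlinarith
  choose e he h4 using fun i =>
    cell_p4 (ρ := ρ) hκ hD hκD hKD (hA i) (hB i) (hAK i) (hBK i) hk hk1 (hm i) (h1 i) (h2 i)
  have hbasic := fun i =>
    cell_basic (ρ := ρ) hκ hD hκD hKD (hA i) (hB i) (hAK i) (hBK i) hk hk1 (hm i) (h1 i) (h2 i)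
  have hθi : Integrable (theta κ x0) ρ := by
    refine Integrable.of_bound (theta_continuous κ x0).measurable.aestronglyMeasurable 1
      (Filter.Eventually.of_forall (fun x => ?_))
    rw [Real.norm_eq_abs, abs_of_pos (theta_pos κ x0 x)]; exact theta_le_one hκ.le x0 x
  have hk2i : Integrable (fun x => k x ^ 2) ρ := by
    refine Integrable.of_bound (hk.pow_const 2).aestronglyMeasurable 1
      (Filter.Eventually.of_forall (fun x => ?_))
    rw [Real.norm_eq_abs, abs_pow]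
    have := hk1 x
    nlinarith [abs_nonneg (k x)]
  refine sum_bound (κ := κ) (Lγ := κ * D * Real.exp (1 / 128)) (Lg := 65 / 64 * Real.exp (1 / 128))
    (M := D * Real.exp (1 / 128)) (Ω := ∫ x, theta κ x0 x ∂ρ)
    (a := fun i => ∫ x in A i, theta κ x0 x ∂ρ) (a' := fun i => ∫ x in B i, theta κ x0 x ∂ρ)
    (u := fun i => ∫ x in U i, theta κ x0 x ∂ρ) (k2 := fun i => ∫ x in B i, k x ^ 2 ∂ρ)
    hκ (by positivity) (by positivity) (fun i => (hbasic i).1) (fun i => (hbasic i).2.1)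
    (fun i => cell_ineq hPL hK (hA i) (hB i) (hU i) (hAK i) (hBK i) (hUK i) (hmid i) hκ x0
      (gam_continuous κ x0) (by positivity)
      (fun x hx y hy => gam_lip hκ hD hκD (hKD x hx) (hKD y hy)) (hbasic i).1 (hbasic i).2.1)
    (fun i => cell_ineq hPL hK (hA i) (hB i) (hU i) (hAK i) (hBK i) (hUK i) (hmid i) hκ x0
      (gfun_continuous κ x0 (e i)) (by positivity)
      (fun x hx y hy => gfun_lip hκ hD hκD (he i) (hKD x hx) (hKD y hy)) (hbasic i).1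
      (hbasic i).2.1)
    (sum_setIntegral_le hU hUd hθi (fun x => (theta_pos κ x0 x).le))
    (sum_setIntegral_eq hA hAd hAc hθi) (sum_setIntegral_eq hB hBd hBc hθi)
    (sum_setIntegral_le hB hBd hk2i (fun x => sq_nonneg _))
    (fun i => cell_p3 (ρ := ρ) hκ hD hκD hKD (hA i) (hB i) (hAK i) (hBK i) hk hk1 (hm i) (h1 i)
      (h2 i))
    h4 ?_ ?_ ?_
  · have : 4 * (κ * D * Real.exp (1 / 128)) ^ 2 / κ = 4 * (κ * D ^ 2) * Real.exp (1 / 128) ^ 2 := by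
      field_simp
    rw [this, hκD]; nlinarith
  · have : 4 * (65 / 64 * Real.exp (1 / 128)) ^ 2 / κ
        = 256 * (65 / 64) ^ 2 * Real.exp (1 / 128) ^ 2 * D ^ 2 := by
      rw [hκdef]; field_simp; ring
    rw [this]
    have hD2 : 0 ≤ D ^ 2 := sq_nonneg D
    have : 256 * (65 / 64) ^ 2 * Real.exp (1 / 128) ^ 2 ≤ 271 := by nlinarith
    exact mul_le_mul_of_nonneg_right this hD2
  · rw [mul_pow]; nlinarith [sq_nonneg D]

end Crest.Agent.S0109K
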