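/-
ROW 82 (S0109), package PL: the Prékopa–Leindler inequality (midpoint form), not in Mathlib.
Main results:
* `bm1d`               : 1-D Brunn–Minkowski  `vol A + vol B ≤ vol (A + B)`
* `pl1d`               : Prékopa–Leindler on `ℝ`
* `pl_pi`              : Prékopa–Leindler on `Fin n → ℝ`
* `prekopa_leindler`   : Prékopa–Leindler on `EuclideanSpace ℝ (Fin n)` (`ℝ≥0∞`-valued functions)
* `prekopa_leindler_set`  : version with set integrals (hypotheses only on `A × B`)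
* `prekopa_leindler_real` : version with real-valued functions and Bochner set integrals
-/
import Mathlib

set_option autoImplicit false
open MeasureTheory Set
open scoped ENNReal NNReal Pointwise

namespace Crest.Agent.S0109PL


/-- 1-D Brunn–Minkowski for compact sets. -/
theorem bm1d_compact {A B : Set ℝ} (hA : IsCompact A) (hB : IsCompact B)
    (hAn : A.Nonempty) (hBn : B.Nonempty) :
    volume A + volume B ≤ volume (A + B) := by
  obtain ⟨a, haA, ha⟩ := hA.exists_isGreatest hAn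
  obtain ⟨b, hbB, hb⟩ := hB.exists_isLeast hBn
  -- A + b ⊆ Iic (a+b), a + B ⊆ Ici (a+b)
  have h1 : (fun x => x + b) '' A ⊆ (A + B) ∩ Iic (a + b) := by
    rintro _ ⟨x, hx, rfl⟩
    exact ⟨Set.add_mem_add hx hbB, by simpa using ha hx⟩
  have h2 : ((fun y => a + y) '' B) \ {a + b} ⊆ (A + B) \ Iic (a + b) := by
    rintro _ ⟨⟨y, hy, rfl⟩, hne⟩
    refine ⟨Set.add_mem_add haA hy, ?_⟩
    simp only [mem_Iic, not_le]
    have := hb hy
    rcases this.lt_or_eq with h | h
    · linarith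
    · exact absurd (by simp [h]) hne
  have e1 : volume ((fun x => x + b) '' A) = volume A := by
    simp
  have e2 : volume (((fun y => a + y) '' B) \ {a + b}) = volume B := by
    rw [measure_sdiff_null (by simp)]
    simp
  calc volume A + volume B
      = volume ((fun x => x + b) '' A) + volume (((fun y => a + y) '' B) \ {a + b}) := by
        rw [e1, e2]
    _ ≤ volume ((A + B) ∩ Iic (a + b)) + volume ((A + B) \ Iic (a + b)) :=
        add_le_add (measure_mono h1) (measure_mono h2)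
    _ = volume (A + B) := measure_inter_add_sdiff _ measurableSet_Iic

/-- 1-D Brunn–Minkowski for measurable sets (outer measure of the sumset). -/
theorem bm1d {A B : Set ℝ} (hA : MeasurableSet A) (hB : MeasurableSet B)
    (hAn : A.Nonempty) (hBn : B.Nonempty) :
    volume A + volume B ≤ volume (A + B) := by
  have hAeq : volume A = ⨆ K : {K : Set ℝ // K ⊆ A ∧ IsCompact K}, volume K.1 := by
    rw [hA.measure_eq_iSup_isCompact, iSup_subtype]; simp only [iSup_and]
  have hBeq : volume B = ⨆ K : {K : Set ℝ // K ⊆ B ∧ IsCompact K}, volume K.1 := by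
    rw [hB.measure_eq_iSup_isCompact, iSup_subtype]; simp only [iSup_and]
  obtain ⟨a0, ha0⟩ := hAn
  obtain ⟨b0, hb0⟩ := hBn
  have key : ∀ K ⊆ A, IsCompact K → ∀ L ⊆ B, IsCompact L → volume K + volume L ≤ volume (A + B) := by
    intro K hKA hK L hLB hL
    have hK' : IsCompact (insert a0 K) := hK.insert a0
    have hL' : IsCompact (insert b0 L) := hL.insert b0
    calc volume K + volume L ≤ volume (insert a0 K) + volume (insert b0 L) :=
          add_le_add (measure_mono (subset_insert _ _)) (measure_mono (subset_insert _ _))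
      _ ≤ volume (insert a0 K + insert b0 L) :=
          bm1d_compact hK' hL' (insert_nonempty _ _) (insert_nonempty _ _)
      _ ≤ volume (A + B) := measure_mono
          (Set.add_subset_add (insert_subset ha0 hKA) (insert_subset hb0 hLB))
  have : Nonempty {K : Set ℝ // K ⊆ A ∧ IsCompact K} := ⟨⟨∅, empty_subset _, isCompact_empty⟩⟩
  have : Nonempty {K : Set ℝ // K ⊆ B ∧ IsCompact K} := ⟨⟨∅, empty_subset _, isCompact_empty⟩⟩
  rw [hAeq, hBeq]
  exact ENNReal.iSup_add_iSup_le fun K L => key K.1 K.2.1 K.2.2 L.1 L.2.1 L.2.2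



theorem meas_lt_measurable (f : ℝ → ℝ) : Measurable fun t : ℝ => volume {x | t < f x} := by
  apply Antitone.measurable
  intro s t hst
  exact measure_mono fun x hx => lt_of_le_of_lt hst hx

theorem pl1d_norm {f g h : ℝ → ℝ} (hf : Measurable f) (hg : Measurable g) (hh : Measurable h)
    (f0 : ∀ x, 0 ≤ f x) (g0 : ∀ x, 0 ≤ g x) (h0 : ∀ x, 0 ≤ h x)
    (f1 : ∀ x, f x ≤ 1) (g1 : ∀ x, g x ≤ 1)
    (fs : ∀ t < 1, ∃ x, t < f x) (gs : ∀ t < 1, ∃ x, t < g x)
    (H : ∀ x y, f x * g y ≤ h ((x + y) / 2) ^ 2) :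
    (∫⁻ x, ENNReal.ofReal (f x)) + (∫⁻ x, ENNReal.ofReal (g x)) ≤
      2 * ∫⁻ x, ENNReal.ofReal (h x) := by
  rw [lintegral_eq_lintegral_meas_lt volume (ae_of_all _ f0) hf.aemeasurable,
    lintegral_eq_lintegral_meas_lt volume (ae_of_all _ g0) hg.aemeasurable,
    lintegral_eq_lintegral_meas_lt volume (ae_of_all _ h0) hh.aemeasurable,
    ← lintegral_add_left (meas_lt_measurable f), ← lintegral_const_mul _ (meas_lt_measurable h)]
  refine setLIntegral_mono' measurableSet_Ioi fun t ht => ?_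
  have ht0 : (0:ℝ) < t := ht
  by_cases ht1 : t < 1
  · have hsub : {x | t < f x} + {x | t < g x} ⊆ (2:ℝ) • {x | t < h x} := by
      rintro _ ⟨x, hx, y, hy, rfl⟩
      refine ⟨(x + y) / 2, ?_, by simp; ring⟩
      have hx' : t < f x := hx
      have hy' : t < g y := hy
      have h3 : t ^ 2 < h ((x + y) / 2) ^ 2 := by
        calc t ^ 2 = t * t := by ring
          _ < f x * g y := mul_lt_mul'' hx' hy' ht0.le ht0.le
          _ ≤ _ := H x y
      exact lt_of_pow_lt_pow_left₀ 2 (h0 _) h3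
    calc volume {x | t < f x} + volume {x | t < g x}
        ≤ volume ({x | t < f x} + {x | t < g x}) :=
          bm1d (measurableSet_lt measurable_const hf) (measurableSet_lt measurable_const hg)
            (fs t ht1) (gs t ht1)
      _ ≤ volume ((2:ℝ) • {x | t < h x}) := measure_mono hsub
      _ = 2 * volume {x | t < h x} := by
          rw [Measure.addHaar_smul]; simp
  · have e1 : {x | t < f x} = ∅ := by
      ext x; simp only [mem_ofPred_eq, mem_empty_iff_false, iff_false, not_lt]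
      linarith [f1 x]
    have e2 : {x | t < g x} = ∅ := by
      ext x; simp only [mem_ofPred_eq, mem_empty_iff_false, iff_false, not_lt]
      linarith [g1 x]
    rw [e1, e2]; simp

theorem ennreal_amgm {u v w α β γ : ℝ≥0∞} (hα0 : α ≠ 0) (hα : α ≠ ∞) (hβ0 : β ≠ 0) (hβ : β ≠ ∞)
    (hγ : γ ^ 2 = α * β) (h : u * α + v * β ≤ 2 * (w * γ)) : u * v ≤ w ^ 2 := by
  by_cases hw : w = ∞
  · simp [hw]
  have hγt : γ ≠ ∞ := by
    intro h'; rw [h'] at hγ
    exact (ENNReal.mul_ne_top hα hβ) (by rw [← hγ]; simp)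
  have hfin : 2 * (w * γ) ≠ ∞ := ENNReal.mul_ne_top (by simp) (ENNReal.mul_ne_top hw hγt)
  have hu : u ≠ ∞ := by
    intro h'; rw [h', ENNReal.top_mul hα0] at h
    exact hfin (top_le_iff.mp (by simpa using h))
  have hv : v ≠ ∞ := by
    intro h'; rw [h', ENNReal.top_mul hβ0] at h
    exact hfin (top_le_iff.mp (by simpa using h))
  lift u to ℝ≥0 using hu
  lift v to ℝ≥0 using hv
  lift w to ℝ≥0 using hw
  lift α to ℝ≥0 using hα
  lift β to ℝ≥0 using hβ
  lift γ to ℝ≥0 using hγt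
  norm_cast at *
  have hα' : 0 < (α:ℝ) := by positivity
  have hβ' : 0 < (β:ℝ) := by positivity
  have h1 : (u:ℝ) * α + v * β ≤ 2 * (w * γ) := by exact_mod_cast h
  have h2 : (γ:ℝ) ^ 2 = α * β := by exact_mod_cast hγ
  have h3 : (u:ℝ) * v ≤ w ^ 2 := by
    have hab : 0 < (α:ℝ) * β := mul_pos hα' hβ'
    have h4 : ((u:ℝ) * α + v * β) ^ 2 ≤ (2 * (w * γ)) ^ 2 :=
      pow_le_pow_left₀ (by positivity) h1 2
    have h5 : 4 * ((u:ℝ) * v) * (α * β) ≤ 4 * w ^ 2 * (α * β) := by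
      calc 4 * ((u:ℝ) * v) * (α * β) ≤ ((u:ℝ) * α + v * β) ^ 2 := by
            nlinarith [sq_nonneg ((u:ℝ) * α - v * β)]
        _ ≤ (2 * (w * γ)) ^ 2 := h4
        _ = 4 * w ^ 2 * (α * β) := by rw [← h2]; ring
    have := le_of_mul_le_mul_right h5 hab
    linarith
  exact_mod_cast h3



theorem pl1d_real {f g h : ℝ → ℝ} (hf : Measurable f) (hg : Measurable g) (hh : Measurable h)
    (f0 : ∀ x, 0 ≤ f x) (g0 : ∀ x, 0 ≤ g x) (h0 : ∀ x, 0 ≤ h x)
    {a b : ℝ} (ha : 0 < a) (hb : 0 < b)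
    (f1 : ∀ x, f x ≤ a) (g1 : ∀ x, g x ≤ b)
    (fs : ∀ t < a, ∃ x, t < f x) (gs : ∀ t < b, ∃ x, t < g x)
    (H : ∀ x y, f x * g y ≤ h ((x + y) / 2) ^ 2) :
    (∫⁻ x, ENNReal.ofReal (f x)) * (∫⁻ x, ENNReal.ofReal (g x)) ≤
      (∫⁻ x, ENNReal.ofReal (h x)) ^ 2 := by
  have hab : 0 < a * b := mul_pos ha hb
  have hs : 0 < Real.sqrt (a * b) := Real.sqrt_pos.mpr hab
  have key := pl1d_norm (f := fun x => f x * a⁻¹) (g := fun x => g x * b⁻¹)
    (h := fun x => h x * (Real.sqrt (a * b))⁻¹)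
    (hf.mul_const _) (hg.mul_const _) (hh.mul_const _)
    (fun x => mul_nonneg (f0 x) (inv_nonneg.mpr ha.le))
    (fun x => mul_nonneg (g0 x) (inv_nonneg.mpr hb.le))
    (fun x => mul_nonneg (h0 x) (inv_nonneg.mpr hs.le))
    (fun x => by rw [← div_eq_mul_inv, div_le_one ha]; exact f1 x)
    (fun x => by rw [← div_eq_mul_inv, div_le_one hb]; exact g1 x)
    (fun t ht => by
      obtain ⟨x, hx⟩ := fs (t * a) (by nlinarith)
      exact ⟨x, by rw [← div_eq_mul_inv, lt_div_iff₀ ha]; exact hx⟩)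
    (fun t ht => by
      obtain ⟨x, hx⟩ := gs (t * b) (by nlinarith)
      exact ⟨x, by rw [← div_eq_mul_inv, lt_div_iff₀ hb]; exact hx⟩)
    (fun x y => by
      have h1 := H x y
      have h2 : (h ((x + y) / 2) * (Real.sqrt (a * b))⁻¹) ^ 2
          = h ((x + y) / 2) ^ 2 * (a * b)⁻¹ := by
        rw [mul_pow, inv_pow, Real.sq_sqrt hab.le]
      rw [h2]
      calc f x * a⁻¹ * (g y * b⁻¹) = f x * g y * (a * b)⁻¹ := by
            rw [mul_inv]; ring
        _ ≤ _ := mul_le_mul_of_nonneg_right h1 (inv_nonneg.mpr hab.le))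
  have e : ∀ (φ : ℝ → ℝ) (c : ℝ), 0 ≤ c → Measurable φ →
      ∫⁻ x, ENNReal.ofReal (φ x * c) = (∫⁻ x, ENNReal.ofReal (φ x)) * ENNReal.ofReal c := by
    intro φ c hc hφ
    rw [← lintegral_mul_const _ hφ.ennreal_ofReal]
    congr 1; ext x
    rw [ENNReal.ofReal_mul' hc]
  rw [e f _ (inv_nonneg.mpr ha.le) hf, e g _ (inv_nonneg.mpr hb.le) hg,
    e h _ (inv_nonneg.mpr hs.le) hh] at key
  refine ennreal_amgm (α := ENNReal.ofReal a⁻¹) (β := ENNReal.ofReal b⁻¹)
    (γ := ENNReal.ofReal (Real.sqrt (a * b))⁻¹) ?_ ENNReal.ofReal_ne_top ?_ ENNReal.ofReal_ne_top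
    ?_ key
  · simpa using ha
  · simpa using hb
  · rw [← ENNReal.ofReal_pow (inv_nonneg.mpr hs.le), ← ENNReal.ofReal_mul (inv_nonneg.mpr ha.le),
      inv_pow, Real.sq_sqrt hab.le, mul_inv]

theorem sup_aux {f : ℝ → ℝ≥0∞} (hft : ∀ x, f x ≠ ∞) (hat : (⨆ x, f x) ≠ ∞) (t : ℝ)
    (ht : t < (⨆ x, f x).toReal) : ∃ x, t < (f x).toReal := by
  rcases lt_or_ge t 0 with h0 | h0
  · exact ⟨0, lt_of_lt_of_le h0 ENNReal.toReal_nonneg⟩
  have : ENNReal.ofReal t < ⨆ x, f x := (ENNReal.ofReal_lt_iff_lt_toReal h0 hat).mpr ht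
  obtain ⟨x, hx⟩ := lt_iSup_iff.mp this
  exact ⟨x, (ENNReal.ofReal_lt_iff_lt_toReal h0 (hft x)).mp hx⟩

/-- bounded version -/
theorem pl1d_bdd {f g h : ℝ → ℝ≥0∞} (hf : Measurable f) (hg : Measurable g) (hh : Measurable h)
    {N : ℝ≥0} (hfN : ∀ x, f x ≤ N) (hgN : ∀ x, g x ≤ N) (hhN : ∀ x, h x ≤ N)
    (H : ∀ x y, f x * g y ≤ h ((x + y) / 2) ^ 2) :
    (∫⁻ x, f x) * (∫⁻ x, g x) ≤ (∫⁻ x, h x) ^ 2 := by
  have hft : ∀ x, f x ≠ ∞ := fun x => ne_top_of_le_ne_top ENNReal.coe_ne_top (hfN x)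
  have hgt : ∀ x, g x ≠ ∞ := fun x => ne_top_of_le_ne_top ENNReal.coe_ne_top (hgN x)
  have hht : ∀ x, h x ≠ ∞ := fun x => ne_top_of_le_ne_top ENNReal.coe_ne_top (hhN x)
  set a := ⨆ x, f x with ha
  set b := ⨆ x, g x with hb
  have hat : a ≠ ∞ := ne_top_of_le_ne_top ENNReal.coe_ne_top (iSup_le hfN)
  have hbt : b ≠ ∞ := ne_top_of_le_ne_top ENNReal.coe_ne_top (iSup_le hgN)
  by_cases ha0 : a = 0
  · have : ∀ x, f x = 0 := fun x => le_antisymm (ha0 ▸ le_iSup f x) bot_le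
    simp [this]
  by_cases hb0 : b = 0
  · have : ∀ x, g x = 0 := fun x => le_antisymm (hb0 ▸ le_iSup g x) bot_le
    simp [this]
  have key := pl1d_real (f := fun x => (f x).toReal) (g := fun x => (g x).toReal)
    (h := fun x => (h x).toReal) hf.ennreal_toReal hg.ennreal_toReal hh.ennreal_toReal
    (fun _ => ENNReal.toReal_nonneg) (fun _ => ENNReal.toReal_nonneg)
    (fun _ => ENNReal.toReal_nonneg)
    (a := a.toReal) (b := b.toReal) (ENNReal.toReal_pos ha0 hat) (ENNReal.toReal_pos hb0 hbt)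
    (fun x => ENNReal.toReal_mono hat (le_iSup f x))
    (fun x => ENNReal.toReal_mono hbt (le_iSup g x))
    (fun t ht => sup_aux hft hat t ht)
    (fun t ht => sup_aux hgt hbt t ht)
    (fun x y => by
      rw [← ENNReal.toReal_mul, ← ENNReal.toReal_pow]
      exact ENNReal.toReal_mono (ENNReal.pow_ne_top (hht _)) (H x y))
  simpa [ENNReal.ofReal_toReal, hft, hgt, hht] using key



theorem lintegral_eq_iSup_min {α : Type*} [MeasurableSpace α] (μ : Measure α) {f : α → ℝ≥0∞}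
    (hf : Measurable f) : ∫⁻ x, f x ∂μ = ⨆ n : ℕ, ∫⁻ x, min (f x) (n : ℝ≥0∞) ∂μ := by
  rw [← lintegral_iSup (fun n => hf.min measurable_const)]
  · congr 1; ext x
    change f x = ⨆ n : ℕ, f x ⊓ (n : ℝ≥0∞)
    rw [← inf_iSup_eq, ENNReal.iSup_natCast, inf_top_eq]
  · intro m n hmn x
    exact min_le_min le_rfl (by exact_mod_cast hmn)

/-- Prékopa–Leindler on `ℝ`, midpoint form. -/
theorem pl1d {f g h : ℝ → ℝ≥0∞} (hf : Measurable f) (hg : Measurable g) (hh : Measurable h)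
    (H : ∀ x y, f x * g y ≤ h ((x + y) / 2) ^ 2) :
    (∫⁻ x, f x) * (∫⁻ x, g x) ≤ (∫⁻ x, h x) ^ 2 := by
  rw [lintegral_eq_iSup_min volume hf, lintegral_eq_iSup_min volume hg, ENNReal.iSup_mul]
  refine iSup_le fun m => ?_
  rw [ENNReal.mul_iSup]
  refine iSup_le fun n => ?_
  have hmN : (m : ℝ≥0∞) ≤ ((max m n : ℕ) : ℝ≥0∞) := by exact_mod_cast le_max_left m n
  have hnN : (n : ℝ≥0∞) ≤ ((max m n : ℕ) : ℝ≥0∞) := by exact_mod_cast le_max_right m n
  calc (∫⁻ x, min (f x) (m : ℝ≥0∞)) * (∫⁻ x, min (g x) (n : ℝ≥0∞))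
      ≤ (∫⁻ x, min (h x) ((max m n : ℕ) : ℝ≥0∞)) ^ 2 := by
        refine pl1d_bdd (N := ((max m n : ℕ) : ℝ≥0)) (hf.min measurable_const)
          (hg.min measurable_const) (hh.min measurable_const)
          (fun x => le_trans (min_le_right _ _) (by exact_mod_cast hmN))
          (fun x => le_trans (min_le_right _ _) (by exact_mod_cast hnN))
          (fun x => le_trans (min_le_right _ _) (by exact_mod_cast le_rfl)) ?_
        intro x y
        rcases le_total (h ((x + y) / 2)) ((max m n : ℕ) : ℝ≥0∞) with hle | hle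
        · rw [min_eq_left hle]
          exact le_trans (mul_le_mul' (min_le_left _ _) (min_le_left _ _)) (H x y)
        · rw [min_eq_right hle, sq]
          exact mul_le_mul' (le_trans (min_le_right _ _) hmN) (le_trans (min_le_right _ _) hnN)
    _ ≤ (∫⁻ x, h x) ^ 2 := by
        gcongr
        exact min_le_left _ _

/-- Prékopa–Leindler on `Fin n → ℝ`, midpoint form. -/
theorem pl_pi : ∀ (n : ℕ) {F G H : (Fin n → ℝ) → ℝ≥0∞} (_ : Measurable F) (_ : Measurable G)
    (_ : Measurable H) (_ : ∀ x y, F x * G y ≤ H ((2:ℝ)⁻¹ • (x + y)) ^ 2),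
    (∫⁻ x, F x) * (∫⁻ x, G x) ≤ (∫⁻ x, H x) ^ 2
  | 0, F, G, H, hF, hG, hH, h => by
    have hv : (volume : Measure (Fin 0 → ℝ)) univ = 1 := by
      rw [volume_pi, Measure.pi_univ]; simp
    rw [lintegral_unique, lintegral_unique, lintegral_unique, hv]
    simp only [mul_one]
    have := h default default
    rw [Subsingleton.elim ((2:ℝ)⁻¹ • ((default : Fin 0 → ℝ) + default)) default] at this
    convert this using 3
  | n + 1, F, G, H, hF, hG, hH, h => by
    have e : ∀ Φ : (Fin (n + 1) → ℝ) → ℝ≥0∞, Measurable Φ →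
        ∫⁻ x, Φ x = ∫⁻ s : ℝ, ∫⁻ z : Fin n → ℝ, Φ (Fin.insertNth 0 s z) := by
      intro Φ hΦ
      have mp := (volume_preserving_piFinSuccAbove (fun _ : Fin (n + 1) => ℝ) 0).symm
      rw [← mp.lintegral_comp hΦ, Measure.volume_eq_prod, lintegral_prod _ (by
        exact (hΦ.comp (MeasurableEquiv.measurable _)).aemeasurable)]
      rfl
    have mI : ∀ Φ : (Fin (n + 1) → ℝ) → ℝ≥0∞, Measurable Φ →
        Measurable fun p : ℝ × (Fin n → ℝ) => Φ (Fin.insertNth 0 p.1 p.2) := by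
      intro Φ hΦ
      exact hΦ.comp (MeasurableEquiv.piFinSuccAbove (fun _ : Fin (n + 1) => ℝ) 0).symm.measurable
    have m : ∀ Φ : (Fin (n + 1) → ℝ) → ℝ≥0∞, Measurable Φ →
        Measurable fun s : ℝ => ∫⁻ z : Fin n → ℝ, Φ (Fin.insertNth 0 s z) := by
      intro Φ hΦ
      exact (mI Φ hΦ).lintegral_prod_right'
    have m2 : ∀ Φ : (Fin (n + 1) → ℝ) → ℝ≥0∞, Measurable Φ → ∀ s : ℝ,
        Measurable fun z : Fin n → ℝ => Φ (Fin.insertNth 0 s z) := by
      intro Φ hΦ s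
      exact (mI Φ hΦ).comp (measurable_const.prodMk measurable_id)
    rw [e F hF, e G hG, e H hH]
    refine pl1d (m F hF) (m G hG) (m H hH) fun s t => ?_
    refine pl_pi n (m2 F hF s) (m2 G hG t) (m2 H hH _) fun x y => ?_
    have := h (Fin.insertNth 0 s x) (Fin.insertNth 0 t y)
    convert this using 3
    ext i
    refine Fin.cases ?_ (fun j => ?_) i
    · simp; ring
    · simp; ring

/-- **Prékopa–Leindler inequality** on `EuclideanSpace ℝ (Fin n)`, midpoint form. -/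
theorem prekopa_leindler (n : ℕ) {F G H : EuclideanSpace ℝ (Fin n) → ℝ≥0∞}
    (hF : Measurable F) (hG : Measurable G) (hH : Measurable H)
    (h : ∀ x y, F x * G y ≤ H ((2:ℝ)⁻¹ • (x + y)) ^ 2) :
    (∫⁻ x, F x) * (∫⁻ x, G x) ≤ (∫⁻ x, H x) ^ 2 := by
  have mp := PiLp.volume_preserving_toLp (Fin n)
  rw [← mp.lintegral_comp hF, ← mp.lintegral_comp hG, ← mp.lintegral_comp hH]
  exact pl_pi n (hF.comp mp.measurable) (hG.comp mp.measurable) (hH.comp mp.measurable)
    fun x y => h _ _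


/-- Prékopa–Leindler with set integrals: the hypotheses are only needed on `A × B`. -/
theorem prekopa_leindler_set (n : ℕ) {A B U : Set (EuclideanSpace ℝ (Fin n))}
    (hA : MeasurableSet A) (hB : MeasurableSet B) (hU : MeasurableSet U)
    {F G H : EuclideanSpace ℝ (Fin n) → ℝ≥0∞}
    (hF : Measurable F) (hG : Measurable G) (hH : Measurable H)
    (hmid : ∀ x ∈ A, ∀ y ∈ B, (2:ℝ)⁻¹ • (x + y) ∈ U)
    (h : ∀ x ∈ A, ∀ y ∈ B, F x * G y ≤ H ((2:ℝ)⁻¹ • (x + y)) ^ 2) :
    (∫⁻ x in A, F x) * (∫⁻ x in B, G x) ≤ (∫⁻ x in U, H x) ^ 2 := by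
  rw [← lintegral_indicator hA, ← lintegral_indicator hB, ← lintegral_indicator hU]
  refine prekopa_leindler n (hF.indicator hA) (hG.indicator hB) (hH.indicator hU) fun x y => ?_
  by_cases hx : x ∈ A
  · by_cases hy : y ∈ B
    · rw [indicator_of_mem hx, indicator_of_mem hy, indicator_of_mem (hmid x hx y hy)]
      exact h x hx y hy
    · rw [indicator_of_notMem hy]; simp
  · rw [indicator_of_notMem hx]; simp

/-- Prékopa–Leindler for real-valued functions and Bochner set integrals. -/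
theorem prekopa_leindler_real (n : ℕ) {A B U : Set (EuclideanSpace ℝ (Fin n))}
    (hA : MeasurableSet A) (hB : MeasurableSet B) (hU : MeasurableSet U)
    {F G H : EuclideanSpace ℝ (Fin n) → ℝ}
    (hF : Measurable F) (hG : Measurable G) (hH : Measurable H)
    (F0 : ∀ x ∈ A, 0 ≤ F x) (G0 : ∀ x ∈ B, 0 ≤ G x) (H0 : ∀ x ∈ U, 0 ≤ H x)
    (hHi : IntegrableOn H U)
    (hmid : ∀ x ∈ A, ∀ y ∈ B, (2:ℝ)⁻¹ • (x + y) ∈ U)
    (h : ∀ x ∈ A, ∀ y ∈ B, F x * G y ≤ H ((2:ℝ)⁻¹ • (x + y)) ^ 2) :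
    (∫ x in A, F x) * (∫ x in B, G x) ≤ (∫ x in U, H x) ^ 2 := by
  have key := prekopa_leindler_set n hA hB hU hF.ennreal_ofReal hG.ennreal_ofReal
    hH.ennreal_ofReal hmid (fun x hx y hy => by
      rw [← ENNReal.ofReal_mul (F0 x hx), ← ENNReal.ofReal_pow (H0 _ (hmid x hx y hy))]
      exact ENNReal.ofReal_le_ofReal (h x hx y hy))
  rw [integral_eq_lintegral_of_nonneg_ae ((ae_restrict_iff' hA).mpr (ae_of_all _ F0))
      hF.aestronglyMeasurable,
    integral_eq_lintegral_of_nonneg_ae ((ae_restrict_iff' hB).mpr (ae_of_all _ G0))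
      hG.aestronglyMeasurable,
    integral_eq_lintegral_of_nonneg_ae ((ae_restrict_iff' hU).mpr (ae_of_all _ H0))
      hH.aestronglyMeasurable, ← ENNReal.toReal_mul, ← ENNReal.toReal_pow]
  refine ENNReal.toReal_mono (ENNReal.pow_ne_top ?_) key
  have := hHi.2
  rw [hasFiniteIntegral_iff_ofReal ((ae_restrict_iff' hU).mpr (ae_of_all _ H0))] at this
  exact this.ne

end Crest.Agent.S0109PL
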