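import Crest.Agent.S0109_Cells
import Crest.Agent.S0109_PL
import Crest.Agent.S0109_KeyAbs

/-! # Row 82, L4: the key lemma in cell form -/

set_option autoImplicit false
open MeasureTheory
open scoped ENNReal NNReal RealInnerProductSpace
open Crest.AnalysisR.OT

namespace Crest.Agent.S0109D

variable {d : ℕ} [NeZero d] {ι : Type*} [Fintype ι] [Nonempty ι] {K : Set (E d)}

omit [NeZero d] in
/-- the uniform probability measure on a convex body satisfies Prékopa–Leindler. -/
theorem Body.plProp (hK : Body K) : Crest.Agent.S0109K.PLProp (uniformProbOn K) := by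
  intro F G H hF hG hH h
  rw [hK.lintegral_rho, hK.lintegral_rho, hK.lintegral_rho]
  have key := Crest.Agent.S0109PL.prekopa_leindler_set d hK.measurableSet hK.measurableSet
    hK.measurableSet hF hG hH
    (fun x hx y hy => by
      rw [smul_add]
      exact hK.cvx hx hy (by norm_num) (by norm_num) (by norm_num))
    (fun x _ y _ => by
      have := h x y
      rwa [one_div] at this)
  calc (volume K)⁻¹ * (∫⁻ x in K, F x) * ((volume K)⁻¹ * ∫⁻ x in K, G x)
      = (volume K)⁻¹ ^ 2 * ((∫⁻ x in K, F x) * ∫⁻ x in K, G x) := by ring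
    _ ≤ (volume K)⁻¹ ^ 2 * (∫⁻ x in K, H x) ^ 2 := by gcongr
    _ = _ := by ring

theorem key_lemma (hK : Body K) {k : E d → ℝ} (hk : Measurable k) (hk1 : ∀ x, |k x| ≤ 1 / 2)
    {y : ι → E d} (hy : Function.Injective y) {m : ι → ℝ} (hm : ∀ i, 0 < m i) {c₁ c₂ : ι → ℝ}
    (h₁ : Solves K (fun _ => 1) y m c₁) (h₂ : Solves K (fun x => 1 + k x) y m c₂) :
    ∑ i, ‖mom K (fun x => 1 + k x) y c₂ i - mom K (fun _ => 1) y c₁ i‖ ^ 2 / m i
      ≤ C₁ * (Metric.diam K) ^ 2 * ∫ x, k x ^ 2 ∂(uniformProbOn K) := by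
  haveI := hK.prob
  obtain ⟨x0, hx0⟩ : K.Nonempty := hK.int_ne.mono interior_subset
  have hcov : ∀ c : ι → ℝ, ∀ᵐ x ∂(uniformProbOn K), x ∈ ⋃ i, cell K y c i := by
    intro c
    rw [iUnion_cell]
    exact hK.ae_mem
  have hdis : ∀ c : ι → ℝ,
      Pairwise (Function.onFun (AEDisjoint (uniformProbOn K)) (fun i => cell K y c i)) := by
    intro c i j hij
    exact cell_inter_null' hy c hij
  exact Crest.Agent.S0109K.key_abs (ρ := uniformProbOn K) hK.plProp hK.cpt (x0 := x0)
    hK.diam_pos (fun x hx => hK.dist_le_diam hx hx0)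
    (A := fun i => cell K y c₁ i) (B := fun i => cell K y c₂ i)
    (U := fun i => cell K y (fun j => (c₁ j + c₂ j) / 2) i)
    (fun i => hK.measurableSet_cell y _ i) (fun i => hK.measurableSet_cell y _ i)
    (fun i => hK.measurableSet_cell y _ i) (fun i => cell_subset y _ i)
    (fun i => cell_subset y _ i) (fun i => cell_subset y _ i)
    (fun i x hx z hz => hK.midpoint_mem_cell hx hz) (hdis _) (hdis _) (hdis _) (hcov _) (hcov _)
    hk hk1 hm h₁ h₂

end Crest.Agent.S0109D
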