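import Mathlib

/-!
# ROW 82 / S0109, package L4 (part 1): the Prékopa–Leindler cell inequality

`PLProp ρ` : the measure `ρ` satisfies the midpoint Prékopa–Leindler inequality.
`cell_ineq` : for `A, B, U` with `(A+B)/2 ⊆ U`, Gaussian weight `θ`, and `g` Lipschitz on `K`:
  `√(a a') (1 + κ (β - α)² / (8 L²)) ≤ u`.
-/

open MeasureTheory
open scoped ENNReal RealInnerProductSpace

namespace Crest.Agent.S0109K

set_option linter.unusedSectionVars false

variable {E : Type*} [NormedAddCommGroup E] [InnerProductSpace ℝ E] [MeasurableSpace E]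
  [BorelSpace E]

/-- midpoint Prékopa–Leindler property of a measure. -/
def PLProp (ρ : Measure E) : Prop :=
  ∀ F G H : E → ℝ≥0∞, Measurable F → Measurable G → Measurable H →
    (∀ x y, F x * G y ≤ H ((1 / 2 : ℝ) • (x + y)) ^ 2) →
    (∫⁻ x, F x ∂ρ) * (∫⁻ x, G x ∂ρ) ≤ (∫⁻ x, H x ∂ρ) ^ 2

/-- real valued version of the PL property. -/
theorem PLProp.real {ρ : Measure E} (hPL : PLProp ρ) {F G H : E → ℝ}
    (hFm : Measurable F) (hGm : Measurable G) (hHm : Measurable H)
    (hF0 : ∀ x, 0 ≤ F x) (hG0 : ∀ x, 0 ≤ G x) (hH0 : ∀ x, 0 ≤ H x)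
    (hFi : Integrable F ρ) (hGi : Integrable G ρ) (hHi : Integrable H ρ)
    (h : ∀ x y, F x * G y ≤ H ((1 / 2 : ℝ) • (x + y)) ^ 2) :
    (∫ x, F x ∂ρ) * (∫ x, G x ∂ρ) ≤ (∫ x, H x ∂ρ) ^ 2 := by
  have key := hPL (fun x => ENNReal.ofReal (F x)) (fun x => ENNReal.ofReal (G x))
    (fun x => ENNReal.ofReal (H x)) hFm.ennreal_ofReal hGm.ennreal_ofReal hHm.ennreal_ofReal
    (by
      intro x y
      rw [← ENNReal.ofReal_mul (hF0 x), ← ENNReal.ofReal_pow (hH0 _)]
      exact ENNReal.ofReal_le_ofReal (h x y))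
  rw [← ofReal_integral_eq_lintegral_ofReal hFi (Filter.Eventually.of_forall hF0),
    ← ofReal_integral_eq_lintegral_ofReal hGi (Filter.Eventually.of_forall hG0),
    ← ofReal_integral_eq_lintegral_ofReal hHi (Filter.Eventually.of_forall hH0),
    ← ENNReal.ofReal_mul (integral_nonneg hF0), ← ENNReal.ofReal_pow (integral_nonneg hH0)] at key
  exact (ENNReal.ofReal_le_ofReal_iff (by positivity)).1 key

/-- the Gaussian weight. -/
noncomputable def theta (κ : ℝ) (x0 : E) (x : E) : ℝ := Real.exp (-(κ / 2) * ‖x - x0‖ ^ 2)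

theorem theta_pos (κ : ℝ) (x0 x : E) : 0 < theta κ x0 x := Real.exp_pos _

theorem theta_continuous (κ : ℝ) (x0 : E) : Continuous (theta κ x0) := by
  unfold theta; fun_prop

theorem theta_le_one {κ : ℝ} (hκ : 0 ≤ κ) (x0 x : E) : theta κ x0 x ≤ 1 := by
  unfold theta
  rw [Real.exp_le_one_iff]
  have : 0 ≤ (κ / 2) * ‖x - x0‖ ^ 2 := by positivity
  linarith

/-- (P0) parallelogram identity for the Gaussian weight. -/
theorem theta_mid (κ : ℝ) (x0 x y : E) :
    theta κ x0 ((1 / 2 : ℝ) • (x + y)) ^ 2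
      = theta κ x0 x * theta κ x0 y * Real.exp (κ / 4 * ‖x - y‖ ^ 2) := by
  unfold theta
  rw [← Real.exp_add, ← Real.exp_add, ← Real.exp_nat_mul]
  congr 1
  have h1 : ‖(x - x0) + (y - x0)‖ ^ 2 + ‖(x - x0) - (y - x0)‖ ^ 2
      = 2 * (‖x - x0‖ ^ 2 + ‖y - x0‖ ^ 2) := by
    have := parallelogram_law_with_norm ℝ (x - x0) (y - x0)
    nlinarith [this]
  have h2 : (1 / 2 : ℝ) • (x + y) - x0 = (1 / 2 : ℝ) • ((x - x0) + (y - x0)) := by
    rw [smul_add, smul_add, smul_sub, smul_sub]
    have : x0 = (1 / 2 : ℝ) • x0 + (1 / 2 : ℝ) • x0 := by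
      rw [← add_smul]; norm_num
    nth_rewrite 1 [this]
    abel
  have h3 : (x - x0) - (y - x0) = x - y := by abel
  rw [h3] at h1
  rw [h2, norm_smul]
  have h4 : ‖(1 / 2 : ℝ)‖ = 1 / 2 := by norm_num
  rw [h4]
  push_cast
  linear_combination (-(κ / 4)) * h1


/-- Jensen-type lower bound: `a * exp (s * (p / a)) ≤ ∫_A θ exp (s g)`. -/
theorem jensen_exp {ρ : Measure E} {A : Set E} {w g : E → ℝ}
    (hw0 : ∀ x, 0 ≤ w x) (hwi : IntegrableOn w A ρ) (hgi : IntegrableOn (fun x => g x * w x) A ρ)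
    (s : ℝ) (hei : IntegrableOn (fun x => w x * Real.exp (s * g x)) A ρ)
    (ha : 0 < ∫ x in A, w x ∂ρ) :
    (∫ x in A, w x ∂ρ) * Real.exp (s * ((∫ x in A, g x * w x ∂ρ) / ∫ x in A, w x ∂ρ))
      ≤ ∫ x in A, w x * Real.exp (s * g x) ∂ρ := by
  set a := ∫ x in A, w x ∂ρ with ha_def
  set p := ∫ x in A, g x * w x ∂ρ with hp_def
  set c := s * (p / a) with hc
  have h1 : ∀ x, w x * (Real.exp c * (1 + (s * g x - c))) ≤ w x * Real.exp (s * g x) := by
    intro x
    apply mul_le_mul_of_nonneg_left _ (hw0 x)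
    have := Real.add_one_le_exp (s * g x - c)
    have h2 : Real.exp (s * g x) = Real.exp c * Real.exp (s * g x - c) := by
      rw [← Real.exp_add]; congr 1; ring
    rw [h2]
    apply mul_le_mul_of_nonneg_left _ (Real.exp_pos c).le
    linarith
  have e1 : (fun x => w x * (Real.exp c * (1 + (s * g x - c))))
      = fun x => (Real.exp c * (1 - c)) * w x + (Real.exp c * s) * (g x * w x) := by
    funext x; ring
  have hint : IntegrableOn (fun x => w x * (Real.exp c * (1 + (s * g x - c)))) A ρ := by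
    rw [e1]; exact (hwi.const_mul _).add (hgi.const_mul _)
  have h3 : ∫ x in A, w x * (Real.exp c * (1 + (s * g x - c))) ∂ρ = a * Real.exp c := by
    rw [e1, integral_add (hwi.const_mul _) (hgi.const_mul _), integral_const_mul,
      integral_const_mul, ← ha_def, ← hp_def, hc]
    field_simp
    ring
  rw [← h3]
  exact setIntegral_mono hint hei h1


theorem amgm_aux {κ t L s : ℝ} (hκ : 0 < κ) : |t| * L * s ≤ κ / 4 * s ^ 2 + t ^ 2 * L ^ 2 / κ := by
  have h : 0 ≤ (κ * s / 2 - |t| * L) ^ 2 / κ := by positivity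
  have h2 : (κ * s / 2 - |t| * L) ^ 2 / κ = κ / 4 * s ^ 2 + t ^ 2 * L ^ 2 / κ - |t| * L * s := by
    have : |t| ^ 2 = t ^ 2 := sq_abs t
    field_simp
    nlinarith [this]
  linarith

/-- (P1), one cell. -/
theorem cell_ineq {ρ : Measure E} [IsFiniteMeasure ρ] (hPL : PLProp ρ) {K A B U : Set E}
    (hK : IsCompact K) (hA : MeasurableSet A) (hB : MeasurableSet B) (hU : MeasurableSet U)
    (hAK : A ⊆ K) (hBK : B ⊆ K) (hUK : U ⊆ K)
    (hmid : ∀ x ∈ A, ∀ y ∈ B, (1 / 2 : ℝ) • (x + y) ∈ U) {κ : ℝ} (hκ : 0 < κ) (x0 : E)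
    {g : E → ℝ} (hg : Continuous g) {L : ℝ} (hL : 0 < L)
    (hLip : ∀ x ∈ K, ∀ y ∈ K, |g x - g y| ≤ L * ‖x - y‖)
    (ha : 0 < ∫ x in A, theta κ x0 x ∂ρ) (ha' : 0 < ∫ x in B, theta κ x0 x ∂ρ) :
    Real.sqrt ((∫ x in A, theta κ x0 x ∂ρ) * (∫ x in B, theta κ x0 x ∂ρ)) *
      (1 + κ * ((∫ x in B, g x * theta κ x0 x ∂ρ) / (∫ x in B, theta κ x0 x ∂ρ)
        - (∫ x in A, g x * theta κ x0 x ∂ρ) / (∫ x in A, theta κ x0 x ∂ρ)) ^ 2 / (8 * L ^ 2))
      ≤ ∫ x in U, theta κ x0 x ∂ρ := by
  set θ := theta κ x0 with hθ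
  have hθc : Continuous θ := theta_continuous κ x0
  set a := ∫ x in A, θ x ∂ρ with ha_def
  set a' := ∫ x in B, θ x ∂ρ with ha'_def
  set u := ∫ x in U, θ x ∂ρ with hu_def
  set α := (∫ x in A, g x * θ x ∂ρ) / a with hα
  set β := (∫ x in B, g x * θ x ∂ρ) / a' with hβ
  set t := κ * (β - α) / (2 * L ^ 2) with ht
  have hint : ∀ {f : E → ℝ} {S : Set E}, Continuous f → S ⊆ K → IntegrableOn f S ρ := by
    intro f S hf hS
    exact (hf.continuousOn.integrableOn_compact hK).mono_set hS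
  set F : E → ℝ := A.indicator (fun x => θ x * Real.exp ((-t) * g x)) with hF
  set G : E → ℝ := B.indicator (fun x => Real.exp (-(t ^ 2 * L ^ 2 / κ)) * (θ x * Real.exp (t * g x)))
    with hG
  set H : E → ℝ := U.indicator θ with hH
  have hFc : Continuous (fun x => θ x * Real.exp ((-t) * g x)) := by fun_prop
  have hGc : Continuous (fun x => Real.exp (-(t ^ 2 * L ^ 2 / κ)) * (θ x * Real.exp (t * g x))) := by
    fun_prop
  have hGc' : Continuous (fun x => θ x * Real.exp (t * g x)) := by fun_prop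
  have hθ0 : ∀ x, 0 ≤ θ x := fun x => (theta_pos κ x0 x).le
  have key := hPL.real (F := F) (G := G) (H := H) (hFc.measurable.indicator hA)
    (hGc.measurable.indicator hB) (hθc.measurable.indicator hU)
    (fun x => Set.indicator_nonneg (fun y _ => mul_nonneg (hθ0 y) (Real.exp_pos _).le) x)
    (fun x => Set.indicator_nonneg (fun y _ => mul_nonneg (Real.exp_pos _).le
      (mul_nonneg (hθ0 y) (Real.exp_pos _).le)) x)
    (fun x => Set.indicator_nonneg (fun y _ => hθ0 y) x)
    ((integrable_indicator_iff hA).2 (hint hFc hAK))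
    ((integrable_indicator_iff hB).2 (hint hGc hBK))
    ((integrable_indicator_iff hU).2 (hint hθc hUK))
    (by
      intro x y
      by_cases hx : x ∈ A
      · by_cases hy : y ∈ B
        · have hm := hmid x hx y hy
          simp only [hF, hG, hH, Set.indicator_of_mem hx, Set.indicator_of_mem hy,
            Set.indicator_of_mem hm]
          rw [hθ, theta_mid]
          have e1 : theta κ x0 x * Real.exp (-t * g x) *
              (Real.exp (-(t ^ 2 * L ^ 2 / κ)) * (theta κ x0 y * Real.exp (t * g y)))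
              = theta κ x0 x * theta κ x0 y *
                Real.exp (t * (g y - g x) - t ^ 2 * L ^ 2 / κ) := by
            have : t * (g y - g x) - t ^ 2 * L ^ 2 / κ
                = (-t * g x) + (-(t ^ 2 * L ^ 2 / κ)) + t * g y := by ring
            rw [this, Real.exp_add, Real.exp_add]; ring
          rw [e1]
          apply mul_le_mul_of_nonneg_left _
            (mul_nonneg (theta_pos κ x0 x).le (theta_pos κ x0 y).le)
          rw [Real.exp_le_exp]
          have h1 : t * (g y - g x) ≤ |t| * L * ‖x - y‖ := by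
            calc t * (g y - g x) ≤ |t * (g y - g x)| := le_abs_self _
              _ = |t| * |g x - g y| := by rw [abs_mul, abs_sub_comm]
              _ ≤ |t| * (L * ‖x - y‖) :=
                  mul_le_mul_of_nonneg_left (hLip x (hAK hx) y (hBK hy)) (abs_nonneg t)
              _ = |t| * L * ‖x - y‖ := by ring
          have h2 := amgm_aux (t := t) (L := L) (s := ‖x - y‖) hκ
          linarith
        · simp only [hG, Set.indicator_of_notMem hy, mul_zero]; positivity
      · simp only [hF, Set.indicator_of_notMem hx, zero_mul]; positivity)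
  rw [hF, hG, hH, integral_indicator hA, integral_indicator hB, integral_indicator hU,
    integral_const_mul] at key
  have hgθ : Continuous (fun x => g x * θ x) := by fun_prop
  have j1 := jensen_exp (ρ := ρ) (A := A) (w := θ) (g := g) hθ0 (hint hθc hAK) (hint hgθ hAK) (-t)
    (hint hFc hAK) ha
  have j2 := jensen_exp (ρ := ρ) (A := B) (w := θ) (g := g) hθ0 (hint hθc hBK) (hint hgθ hBK) t
    (hint hGc' hBK) ha'
  rw [← ha_def, ← hα] at j1
  rw [← ha'_def, ← hβ] at j2
  rw [← hu_def] at key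
  set z := κ * (β - α) ^ 2 / (8 * L ^ 2) with hz
  have hu0 : 0 ≤ u := setIntegral_nonneg hU (fun x _ => hθ0 x)
  have h3 : a * a' * Real.exp (2 * z) ≤ u ^ 2 := by
    have e2 : a * a' * Real.exp (2 * z)
        = (a * Real.exp (-t * α)) * (Real.exp (-(t ^ 2 * L ^ 2 / κ)) * (a' * Real.exp (t * β))) := by
      have : 2 * z = (-t * α) + (-(t ^ 2 * L ^ 2 / κ)) + t * β := by
        rw [hz, ht]; field_simp; ring
      rw [this, Real.exp_add, Real.exp_add]; ring
    rw [e2]
    refine le_trans ?_ key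
    apply mul_le_mul j1 (mul_le_mul_of_nonneg_left j2 (Real.exp_pos _).le) (by positivity)
    exact le_trans (by positivity) j1
  have h4 : Real.sqrt (a * a') * Real.exp z ≤ u := by
    rw [← pow_le_pow_iff_left₀ (by positivity) hu0 (two_ne_zero)]
    rw [mul_pow, Real.sq_sqrt (by positivity), ← Real.exp_nat_mul]
    simpa using h3
  refine le_trans ?_ h4
  apply mul_le_mul_of_nonneg_left _ (Real.sqrt_nonneg _)
  have := Real.add_one_le_exp z
  linarith

end Crest.Agent.S0109K
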