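import Crest.Agent.S0109_Weights2

/-! # Row 82, L5 (S): grouping of labels and the one-step inequality -/

set_option autoImplicit false
open MeasureTheory
open scoped ENNReal NNReal RealInnerProductSpace
open Crest.AnalysisR.OT

namespace Crest.Agent.S0109D

variable {d : ℕ} {K : Set (E d)}

lemma gmass_pos {Λ ι : Type*} [Fintype Λ] [Fintype ι] [DecidableEq ι] {π : Λ → ℝ} (hπ : ∀ l, 0 < π l)
    {κ : Λ → ι} (hκ : Function.Surjective κ) (i : ι) : 0 < gmass π κ i := by
  obtain ⟨l, hl⟩ := hκ i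
  unfold gmass
  apply Finset.sum_pos'
  · intro l' _
    split_ifs
    · exact (hπ l').le
    · exact le_rfl
  · exact ⟨l, Finset.mem_univ _, by simp [hl, hπ l]⟩

lemma sum_gmass {Λ ι : Type*} [Fintype Λ] [Fintype ι] [DecidableEq ι] (π : Λ → ℝ) (κ : Λ → ι) :
    ∑ i, gmass π κ i = ∑ l, π l := by
  unfold gmass
  rw [Finset.sum_comm]
  simp

/-- `∑_i m_i F(i) = ∑_l π_l F(κ l)` -/
lemma sum_gmass_mul {Λ ι : Type*} [Fintype Λ] [Fintype ι] [DecidableEq ι] (π : Λ → ℝ) (κ : Λ → ι)
    (F : ι → ℝ) : ∑ i, gmass π κ i * F i = ∑ l, π l * F (κ l) := by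
  unfold gmass
  simp_rw [Finset.sum_mul]
  rw [Finset.sum_comm]
  apply Finset.sum_congr rfl
  intro l _
  rw [Finset.sum_eq_single (κ l)]
  · simp
  · intro i _ hi
    simp [Ne.symm hi]
  · simp

/-- grouping of coinciding labels -/
theorem exists_grouping {Λ : Type*} [Fintype Λ] [Nonempty Λ] (p : Λ → E d) :
    ∃ (n : ℕ) (_ : NeZero n) (κ : Λ → Fin n) (y : Fin n → E d),
      Function.Surjective κ ∧ Function.Injective y ∧ ∀ l, y (κ l) = p l := by
  classical
  let S : Finset (E d) := Finset.univ.image p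
  let e : S ≃ Fin S.card := S.equivFin
  have hS : S.Nonempty := ⟨p (Classical.arbitrary Λ), Finset.mem_image_of_mem _ (Finset.mem_univ _)⟩
  refine ⟨S.card, ⟨(Finset.card_pos.mpr hS).ne'⟩,
    fun l => e ⟨p l, Finset.mem_image_of_mem _ (Finset.mem_univ _)⟩, fun i => (e.symm i : E d), ?_, ?_, ?_⟩
  · intro i
    obtain ⟨l, _, hl⟩ := Finset.mem_image.mp (e.symm i).2
    refine ⟨l, ?_⟩
    have : (⟨p l, Finset.mem_image_of_mem _ (Finset.mem_univ _)⟩ : S) = e.symm i := Subtype.ext hl
    simp [this]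
  · intro i j hij
    exact e.symm.injective (Subtype.ext hij)
  · intro l
    simp


private lemma step_int_f (hK : Body K) {f : E d → ℝ} (hf : IsSource K f) :
    Integrable f (uniformProbOn K) :=
  hK.integrable_of_bound hf.meas.aestronglyMeasurable (3 / 2) (fun x _ => by
    rw [Real.norm_eq_abs, abs_le]
    exact ⟨by linarith [hf.lo x], hf.hi x⟩)

private lemma step_int_pot {ι : Type*} [Fintype ι] (hK : Body K) {f : E d → ℝ} (hf : IsSource K f)
    (y : ι → E d) (c : ι → ℝ) : Integrable (fun x => pot y c x * f x) (uniformProbOn K) := by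
  obtain ⟨M, hM⟩ := hK.cpt.exists_bound_of_continuousOn (pot_continuous y c).continuousOn
  refine hK.integrable_of_bound ((pot_measurable y c).mul hf.meas).aestronglyMeasurable (M * (3 / 2))
    (fun x hx => ?_)
  rw [norm_mul]
  have h1 : ‖f x‖ ≤ 3 / 2 := by
    rw [Real.norm_eq_abs, abs_le]
    exact ⟨by linarith [hf.lo x], hf.hi x⟩
  exact mul_le_mul (hM x hx) h1 (norm_nonneg _) ((norm_nonneg _).trans (hM x hx))

private lemma step_int_smul (hK : Body K) {f : E d → ℝ} (hf : IsSource K f) :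
    Integrable (fun x => f x • x) (uniformProbOn K) := by
  obtain ⟨M, hM0, hM⟩ := hK.exists_norm_le
  refine hK.integrable_of_bound (hf.meas.smul measurable_id).aestronglyMeasurable ((3 / 2) * M)
    (fun x hx => ?_)
  rw [norm_smul]
  have h1 : ‖f x‖ ≤ 3 / 2 := by
    rw [Real.norm_eq_abs, abs_le]
    exact ⟨by linarith [hf.lo x], hf.hi x⟩
  exact mul_le_mul h1 (hM x hx) (norm_nonneg _) (by norm_num)

private lemma step_inner_mom {ι : Type*} [Fintype ι] (hK : Body K) {f : E d → ℝ} (hf : IsSource K f)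
    (y : ι → E d) (c : ι → ℝ) (i : ι) (v : E d) :
    ⟪mom K f y c i, v⟫ = ∫ x in cell K y c i, f x * ⟪x, v⟫ ∂(uniformProbOn K) := by
  unfold mom
  rw [real_inner_comm, ← integral_inner (step_int_smul hK hf).integrableOn]
  apply integral_congr_ae
  filter_upwards with x
  rw [real_inner_smul_right, real_inner_comm]

/-- L5 (S): the one-step inequality (`val` is convex along straight-line motions of the atoms, with
subgradient given by the barycentres). -/
theorem step (hK : Body K) {f : E d → ℝ} (hf : IsSource K f)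
    {Λ ι ι' : Type*} [Fintype Λ] [Fintype ι] [DecidableEq ι] [Nonempty ι]
    [Fintype ι'] [DecidableEq ι'] [Nonempty ι'] (π : Λ → ℝ) (hπ : ∀ l, 0 < π l)
    {κ : Λ → ι} {y : ι → E d} (hκ : Function.Surjective κ) (hy : Function.Injective y)
    {κ' : Λ → ι'} {y' : ι' → E d} (hy' : Function.Injective y')
    {c : ι → ℝ} {c' : ι' → ℝ}
    (hc : Solves K f y (gmass π κ) c) (hc' : Solves K f y' (gmass π κ') c') :
    val K f y c + ∑ l, π l * ⟪(gmass π κ (κ l))⁻¹ • mom K f y c (κ l), y' (κ' l) - y (κ l)⟫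
      ≤ val K f y' c' := by
  have hm : ∀ i, 0 < gmass π κ i := gmass_pos hπ hκ
  set I : ι → ℝ := fun i => ∫ x in cell K y c i, pot y' c' x * f x ∂(uniformProbOn K) with hI
  -- the right-hand side
  have hR : val K f y' c' = ∑ l, π l * (I (κ l) / gmass π κ (κ l) + c' (κ' l)) := by
    rw [val_eq_Phi hK hf hy' hc']
    unfold Phi
    rw [hK.integral_eq_sum_cells hy c (step_int_pot hK hf y' c'), sum_gmass_mul π κ' c']
    have : ∑ i, I i = ∑ l, π l * (I (κ l) / gmass π κ (κ l)) := by
      rw [← sum_gmass_mul π κ (fun i => I i / gmass π κ i)]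
      apply Finset.sum_congr rfl
      intro i _
      field_simp [(hm i).ne']
    rw [show (∑ i, ∫ x in cell K y c i, pot y' c' x * f x ∂(uniformProbOn K)) = ∑ i, I i from rfl,
      this, ← Finset.sum_add_distrib]
    apply Finset.sum_congr rfl
    intro l _
    ring
  -- the left-hand side
  have hL : val K f y c = ∑ l, π l * ⟪(gmass π κ (κ l))⁻¹ • mom K f y c (κ l), y (κ l)⟫ := by
    rw [← sum_gmass_mul π κ (fun i => ⟪(gmass π κ i)⁻¹ • mom K f y c i, y i⟫)]
    unfold val
    apply Finset.sum_congr rfl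
    intro i _
    rw [real_inner_smul_left]
    field_simp [(hm i).ne']
  rw [hL, hR, ← Finset.sum_add_distrib]
  apply Finset.sum_le_sum
  intro l _
  rw [← mul_add, ← inner_add_right, add_sub_cancel]
  apply mul_le_mul_of_nonneg_left _ (hπ l).le
  rw [real_inner_smul_left, step_inner_mom hK hf]
  have hkey : ∫ x in cell K y c (κ l), f x * ⟪x, y' (κ' l)⟫ ∂(uniformProbOn K)
      ≤ I (κ l) + c' (κ' l) * gmass π κ (κ l) := by
    have h1 : I (κ l) + c' (κ' l) * gmass π κ (κ l)
        = ∫ x in cell K y c (κ l), (pot y' c' x * f x + c' (κ' l) * f x) ∂(uniformProbOn K) := by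
      rw [integral_add (step_int_pot hK hf y' c').integrableOn
        ((step_int_f hK hf).const_mul _).integrableOn, integral_const_mul, hc (κ l)]
    rw [h1]
    apply integral_mono
    · have h2 : Integrable (fun x => ⟪f x • x, y' (κ' l)⟫) (uniformProbOn K) :=
        (step_int_smul hK hf).inner_const _
      refine (h2.congr ?_).integrableOn
      filter_upwards with x
      rw [real_inner_smul_left]
    · exact ((step_int_pot hK hf y' c').add ((step_int_f hK hf).const_mul _)).integrableOn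
    · intro x
      have := le_pot y' c' x (κ' l)
      have hf0 : 0 ≤ f x := by linarith [hf.lo x]
      nlinarith
  calc (gmass π κ (κ l))⁻¹ * ∫ x in cell K y c (κ l), f x * ⟪x, y' (κ' l)⟫ ∂(uniformProbOn K)
      ≤ (gmass π κ (κ l))⁻¹ * (I (κ l) + c' (κ' l) * gmass π κ (κ l)) :=
        mul_le_mul_of_nonneg_left hkey (inv_nonneg.mpr (hm _).le)
    _ = I (κ l) / gmass π κ (κ l) + c' (κ' l) := by
        field_simp [(hm (κ l)).ne']

end Crest.Agent.S0109D
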