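import Crest.Agent.S0109_Cells

/-! # Row 82, L2 (c),(d): Fenchel–Young / weak duality / uniqueness of weights -/

set_option autoImplicit false
open MeasureTheory
open scoped ENNReal NNReal RealInnerProductSpace
open Crest.AnalysisR.OT

namespace Crest.Agent.S0109D

variable {d : ℕ} {ι : Type*} [Fintype ι] [Nonempty ι] {K : Set (E d)}

lemma IsSource.abs_le {f : E d → ℝ} (hf : IsSource K f) (x : E d) : ‖f x‖ ≤ 3 / 2 := by
  rw [Real.norm_eq_abs, _root_.abs_le]
  constructor <;> linarith [hf.lo x, hf.hi x]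

lemma IsSource.pos {f : E d → ℝ} (hf : IsSource K f) (x : E d) : 0 < f x := by
  linarith [hf.lo x]

lemma IsSource.integrable (hK : Body K) {f : E d → ℝ} (hf : IsSource K f) :
    Integrable f (uniformProbOn K) :=
  hK.integrable_of_bound hf.meas.aestronglyMeasurable (3 / 2) (fun x _ => hf.abs_le x)

/-- continuous times source density is integrable -/
lemma IsSource.integrable_mul (hK : Body K) {f : E d → ℝ} (hf : IsSource K f) {g : E d → ℝ}
    (hg : Continuous g) : Integrable (fun x => g x * f x) (uniformProbOn K) := by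
  obtain ⟨C, hC⟩ := hK.cpt.exists_bound_of_continuousOn hg.continuousOn
  refine hK.integrable_of_bound (hg.measurable.mul hf.meas).aestronglyMeasurable (C * (3 / 2))
    (fun x hx => ?_)
  rw [norm_mul]
  exact mul_le_mul (hC x hx) (hf.abs_le x) (norm_nonneg _) ((norm_nonneg _).trans (hC x hx))

lemma IsSource.integrable_smul (hK : Body K) {f : E d → ℝ} (hf : IsSource K f) :
    Integrable (fun x => f x • x) (uniformProbOn K) := by
  obtain ⟨M, hM0, hM⟩ := hK.exists_norm_le
  refine hK.integrable_of_bound (hf.meas.smul measurable_id).aestronglyMeasurable (3 / 2 * M)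
    (fun x hx => ?_)
  rw [norm_smul]
  exact mul_le_mul (hf.abs_le x) (hM x hx) (norm_nonneg _) (by norm_num)

omit [Nonempty ι] in
/-- `val` as a sum of integrals over the cells -/
lemma val_eq_sum (hK : Body K) {f : E d → ℝ} (hf : IsSource K f) (y : ι → E d) (c : ι → ℝ) :
    val K f y c = ∑ i, ∫ x in cell K y c i, ⟪x, y i⟫ * f x ∂(uniformProbOn K) := by
  unfold val mom
  refine Finset.sum_congr rfl (fun i _ => ?_)
  rw [real_inner_comm, ← integral_inner (hf.integrable_smul hK).integrableOn]
  refine integral_congr_ae (Filter.Eventually.of_forall (fun x => ?_))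
  simp only [inner_smul_right, real_inner_comm]
  ring

/-- `Phi` at an arbitrary `c'`, decomposed along the cells of a solution `c` -/
lemma Phi_eq_sum (hK : Body K) {f : E d → ℝ} (hf : IsSource K f) {y : ι → E d}
    (hy : Function.Injective y) {m : ι → ℝ} {c : ι → ℝ} (hc : Solves K f y m c) (c' : ι → ℝ) :
    Phi K f y m c' =
      ∑ i, ∫ x in cell K y c i, (pot y c' x + c' i) * f x ∂(uniformProbOn K) := by
  unfold Phi
  rw [hK.integral_eq_sum_cells hy c (hf.integrable_mul hK (pot_continuous y c')),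
    ← Finset.sum_add_distrib]
  refine Finset.sum_congr rfl (fun i _ => ?_)
  rw [← hc i, mul_comm, ← integral_const_mul, ← integral_add
    (hf.integrable_mul hK (pot_continuous y c')).integrableOn
    ((hf.integrable hK).integrableOn.const_mul _)]
  refine integral_congr_ae (Filter.Eventually.of_forall (fun x => ?_))
  simp only
  ring

/-- (c1) `val = Phi` at a solution -/
theorem val_eq_Phi (hK : Body K) {f : E d → ℝ} (hf : IsSource K f) {y : ι → E d}
    (hy : Function.Injective y) {m : ι → ℝ} {c : ι → ℝ} (hc : Solves K f y m c) :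
    val K f y c = Phi K f y m c := by
  rw [val_eq_sum hK hf, Phi_eq_sum hK hf hy hc c]
  refine Finset.sum_congr rfl (fun i _ => ?_)
  refine setIntegral_congr_fun (hK.measurableSet_cell y c i) (fun x hx => ?_)
  rw [pot_eq_of_mem_cell hx]
  ring

/-- (c2) weak duality: a solution minimises `Phi` -/
theorem min_of_solves (hK : Body K) {f : E d → ℝ} (hf : IsSource K f) {y : ι → E d}
    (hy : Function.Injective y) {m : ι → ℝ} {c : ι → ℝ} (hc : Solves K f y m c) (c' : ι → ℝ) :
    Phi K f y m c ≤ Phi K f y m c' := by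
  rw [← val_eq_Phi hK hf hy hc, val_eq_sum hK hf, Phi_eq_sum hK hf hy hc c']
  refine Finset.sum_le_sum (fun i _ => ?_)
  refine setIntegral_mono_on
    (hf.integrable_mul hK (continuous_id.inner continuous_const)).integrableOn
    (hf.integrable_mul hK ((pot_continuous y c').add continuous_const)).integrableOn
    (hK.measurableSet_cell y c i) (fun x _ => ?_)
  refine mul_le_mul_of_nonneg_right ?_ (hf.pos x).le
  linarith [le_pot y c' x i]

/-- equality case of weak duality: a.e. point of `cell_i(c)` lies in `cell_i(c')` -/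
lemma ae_eq_of_solves (hK : Body K) {f : E d → ℝ} (hf : IsSource K f) {y : ι → E d}
    (hy : Function.Injective y) {m : ι → ℝ} {c c' : ι → ℝ}
    (hc : Solves K f y m c) (hc' : Solves K f y m c') (i : ι) :
    ∀ᵐ x ∂(uniformProbOn K), x ∈ cell K y c i → pot y c' x + c' i = ⟪x, y i⟫ := by
  have heq : Phi K f y m c = Phi K f y m c' :=
    le_antisymm (min_of_solves hK hf hy hc c') (min_of_solves hK hf hy hc' c)
  rw [← val_eq_Phi hK hf hy hc, val_eq_sum hK hf, Phi_eq_sum hK hf hy hc c'] at heq
  have hi1 : ∀ j, IntegrableOn (fun x => ⟪x, y j⟫ * f x) (cell K y c j) (uniformProbOn K) :=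
    fun j => (hf.integrable_mul hK (continuous_id.inner continuous_const)).integrableOn
  have hi2 : ∀ j, IntegrableOn (fun x => (pot y c' x + c' j) * f x) (cell K y c j)
      (uniformProbOn K) :=
    fun j => (hf.integrable_mul hK ((pot_continuous y c').add continuous_const)).integrableOn
  have hpt : ∀ j x, ⟪x, y j⟫ * f x ≤ (pot y c' x + c' j) * f x := by
    intro j x
    refine mul_le_mul_of_nonneg_right ?_ (hf.pos x).le
    linarith [le_pot y c' x j]
  have hle : ∀ j ∈ Finset.univ, ∫ x in cell K y c j, ⟪x, y j⟫ * f x ∂(uniformProbOn K) ≤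
      ∫ x in cell K y c j, (pot y c' x + c' j) * f x ∂(uniformProbOn K) := fun j _ =>
    setIntegral_mono_on (hi1 j) (hi2 j) (hK.measurableSet_cell y c j) (fun x _ => hpt j x)
  have hii := (Finset.sum_eq_sum_iff_of_le hle).mp heq i (Finset.mem_univ i)
  have h0 : ∫ x in cell K y c i, ((pot y c' x + c' i) * f x - ⟪x, y i⟫ * f x)
      ∂(uniformProbOn K) = 0 := by
    rw [integral_sub (hi2 i) (hi1 i), hii, sub_self]
  have h1 := (setIntegral_eq_zero_iff_of_nonneg_ae
    (Filter.Eventually.of_forall (fun x => sub_nonneg.mpr (hpt i x)))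
    ((hi2 i).sub (hi1 i))).mp h0
  rw [Filter.EventuallyEq, ae_restrict_iff' (hK.measurableSet_cell y c i)] at h1
  filter_upwards [h1] with x hx hxi
  have h2 := hx hxi
  simp only [Pi.zero_apply] at h2
  have h3 : (pot y c' x + c' i - ⟪x, y i⟫) * f x = 0 := by linarith
  rcases mul_eq_zero.mp h3 with h4 | h4
  · linarith
  · exact absurd h4 (hf.pos x).ne'

/-- (d) uniqueness of the weights up to an additive constant -/
theorem solves_unique (hK : Body K) {f : E d → ℝ} (hf : IsSource K f) {y : ι → E d}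
    (hy : Function.Injective y) {m : ι → ℝ} (hm : ∀ i, 0 < m i) {c c' : ι → ℝ}
    (hc : Solves K f y m c) (hc' : Solves K f y m c') : ∃ a : ℝ, ∀ i, c' i = c i + a := by
  set g : E d → ℝ := fun x => pot y c x - pot y c' x with hg
  have hgc : Continuous g := (pot_continuous y c).sub (pot_continuous y c')
  have hcell : ∀ i, ∀ᵐ x ∂(uniformProbOn K), x ∈ cell K y c i → g x = c' i - c i := by
    intro i
    filter_upwards [ae_eq_of_solves hK hf hy hc hc' i] with x hx hxi
    have h1 := hx hxi
    have h2 := pot_eq_of_mem_cell hxi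
    simp only [hg]
    linarith
  set T : Set ℝ := Set.range (fun i => c' i - c i) with hT
  have hTfin : T.Finite := Set.finite_range _
  have hGcl : IsClosed (g ⁻¹' T) := hTfin.isClosed.preimage hgc
  have hae : ∀ᵐ x ∂(uniformProbOn K), x ∈ g ⁻¹' T := by
    filter_upwards [hK.ae_mem, ae_all_iff.mpr hcell] with x hxK hx
    have hxU : x ∈ ⋃ i, cell K y c i := by rw [iUnion_cell]; exact hxK
    obtain ⟨i, hi⟩ := Set.mem_iUnion.mp hxU
    exact ⟨i, (hx i hi).symm⟩
  have hint : interior K ⊆ g ⁻¹' T := by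
    by_contra hne
    obtain ⟨x, hxK, hxG⟩ := Set.not_subset.mp hne
    have hUo : IsOpen (interior K ∩ (g ⁻¹' T)ᶜ) := isOpen_interior.inter hGcl.isOpen_compl
    have hpos : 0 < volume (interior K ∩ (g ⁻¹' T)ᶜ) := hUo.measure_pos volume ⟨x, hxK, hxG⟩
    have h0 : uniformProbOn K (g ⁻¹' T)ᶜ = 0 := hae
    rw [hK.rho_apply] at h0
    have h1 : volume ((g ⁻¹' T)ᶜ ∩ K) = 0 := by
      rcases mul_eq_zero.mp h0 with h | h
      · exact absurd h (ENNReal.inv_ne_zero.mpr hK.vol_lt_top.ne)
      · exact h
    have h2 : volume (interior K ∩ (g ⁻¹' T)ᶜ) ≤ volume ((g ⁻¹' T)ᶜ ∩ K) :=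
      measure_mono (fun z hz => ⟨hz.2, interior_subset hz.1⟩)
    rw [h1] at h2
    exact absurd hpos (not_lt.mpr h2)
  have hconst : ∀ x ∈ interior K, ∀ z ∈ interior K, g x = g z := by
    intro x hx z hz
    have hpc : IsPreconnected (interior K) := hK.cvx.interior.isPreconnected
    exact hpc.constant_of_mapsTo hTfin.isDiscrete hgc.continuousOn hint hx hz
  have hpt : ∀ i, ∃ x ∈ interior K, g x = c' i - c i := by
    intro i
    by_contra hne
    push Not at hne
    have h1 : ∀ᵐ x ∂(uniformProbOn K), x ∉ cell K y c i := by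
      filter_upwards [hK.ae_mem_interior, hcell i] with x hx1 hx2 hx3
      exact hne x hx1 (hx2 hx3)
    have h0 : uniformProbOn K (cell K y c i) = 0 := measure_eq_zero_iff_ae_notMem.mpr h1
    have h2 := hc i
    rw [setIntegral_measure_zero _ h0] at h2
    linarith [hm i]
  obtain ⟨i0⟩ := ‹Nonempty ι›
  refine ⟨c' i0 - c i0, fun i => ?_⟩
  obtain ⟨x, hx, hxe⟩ := hpt i
  obtain ⟨z, hz, hze⟩ := hpt i0
  have := hconst x hx z hz
  linarith

end Crest.Agent.S0109D
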