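import Crest.Agent.S0109_Weights
import Crest.Agent.S0109_Weights2
import Crest.Agent.S0109_Key
import Crest.Agent.S0109_Step

/-! # Row 82, L5: the path inequality -/

set_option autoImplicit false
open MeasureTheory
open scoped ENNReal NNReal RealInnerProductSpace
open Crest.AnalysisR.OT

namespace Crest.Agent.S0109D

/-- abstract telescoping lemma (T) -/
lemma telescoping (v1 v2 g1 g2 : ℝ → ℝ) (B : ℝ)
    (h1 : ∀ t t', v1 t + (t' - t) * g1 t ≤ v1 t')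
    (h2 : ∀ t t', v2 t + (t' - t) * g2 t ≤ v2 t')
    (hB : ∀ t, |g2 t - g1 t| ≤ B) :
    -B ≤ (v2 1 - v2 0) - (v1 1 - v1 0) := by
  have step : ∀ n : ℕ, -B - (g1 1 - g1 0) * (1 / ((n : ℝ) + 1))
      ≤ (v2 1 - v2 0) - (v1 1 - v1 0) := by
    intro n
    set N : ℝ := (n : ℝ) + 1 with hN
    have hNpos : 0 < N := by positivity
    have e2 : v2 1 - v2 0 = ∑ j ∈ Finset.range (n + 1), (v2 (((j + 1 : ℕ) : ℝ) / N) - v2 ((j : ℝ) / N)) := by
      rw [Finset.sum_range_sub (fun j : ℕ => v2 ((j : ℝ) / N))]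
      have c1 : (((n + 1 : ℕ) : ℝ)) / N = 1 := by
        rw [hN]; push_cast; exact div_self hNpos.ne'
      rw [c1]; simp
    have e1 : v1 1 - v1 0 = ∑ j ∈ Finset.range (n + 1), (v1 (((j + 1 : ℕ) : ℝ) / N) - v1 ((j : ℝ) / N)) := by
      rw [Finset.sum_range_sub (fun j : ℕ => v1 ((j : ℝ) / N))]
      have c1 : (((n + 1 : ℕ) : ℝ)) / N = 1 := by
        rw [hN]; push_cast; exact div_self hNpos.ne'
      rw [c1]; simp
    have l2 : ∑ j ∈ Finset.range (n + 1), (1 / N) * g2 ((j : ℝ) / N) ≤ v2 1 - v2 0 := by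
      rw [e2]
      apply Finset.sum_le_sum
      intro j _
      have := h2 ((j : ℝ) / N) (((j + 1 : ℕ) : ℝ) / N)
      have e : ((j + 1 : ℕ) : ℝ) / N - (j : ℝ) / N = 1 / N := by push_cast; ring
      rw [e] at this
      linarith
    have l1 : v1 1 - v1 0 ≤ ∑ j ∈ Finset.range (n + 1), (1 / N) * g1 (((j + 1 : ℕ) : ℝ) / N) := by
      rw [e1]
      apply Finset.sum_le_sum
      intro j _
      have := h1 (((j + 1 : ℕ) : ℝ) / N) ((j : ℝ) / N)
      have e : (j : ℝ) / N - ((j + 1 : ℕ) : ℝ) / N = -(1 / N) := by push_cast; ring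
      rw [e] at this
      linarith
    have shift : ∑ j ∈ Finset.range (n + 1), (1 / N) * g1 (((j + 1 : ℕ) : ℝ) / N)
        = ∑ j ∈ Finset.range (n + 1), (1 / N) * g1 ((j : ℝ) / N) + (1 / N) * (g1 1 - g1 0) := by
      have a := Finset.sum_range_succ (fun j : ℕ => (1 / N) * g1 ((j : ℝ) / N)) (n + 1)
      have b := Finset.sum_range_succ' (fun j : ℕ => (1 / N) * g1 ((j : ℝ) / N)) (n + 1)
      have c1 : (((n + 1 : ℕ) : ℝ)) / N = 1 := by
        rw [hN]; push_cast; exact div_self hNpos.ne'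
      have c0 : (((0 : ℕ) : ℝ)) / N = 0 := by simp
      rw [c1] at a
      rw [c0] at b
      rw [a] at b
      linarith
    have l3 : -B ≤ ∑ j ∈ Finset.range (n + 1), ((1 / N) * g2 ((j : ℝ) / N) - (1 / N) * g1 ((j : ℝ) / N)) := by
      have : ∑ j ∈ Finset.range (n + 1), (-(B / N)) ≤
          ∑ j ∈ Finset.range (n + 1), ((1 / N) * g2 ((j : ℝ) / N) - (1 / N) * g1 ((j : ℝ) / N)) := by
        apply Finset.sum_le_sum
        intro j _
        have hb := (abs_le.1 (hB ((j : ℝ) / N))).1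
        have : (1 / N) * (-B) ≤ (1 / N) * (g2 ((j : ℝ) / N) - g1 ((j : ℝ) / N)) :=
          mul_le_mul_of_nonneg_left hb (by positivity)
        calc -(B / N) = (1 / N) * (-B) := by ring
          _ ≤ _ := this
          _ = _ := by ring
      refine le_trans (le_of_eq ?_) this
      rw [Finset.sum_const, Finset.card_range, nsmul_eq_mul]
      push_cast
      rw [← hN]
      field_simp
    rw [Finset.sum_sub_distrib] at l3
    rw [shift] at l1
    have : (g1 1 - g1 0) * (1 / N) = (1 / N) * (g1 1 - g1 0) := by ring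
    rw [this]
    linarith
  have lim : Filter.Tendsto (fun n : ℕ => -B - (g1 1 - g1 0) * (1 / ((n : ℝ) + 1)))
      Filter.atTop (nhds (-B - (g1 1 - g1 0) * 0)) :=
    tendsto_const_nhds.sub (tendsto_const_nhds.mul tendsto_one_div_add_atTop_nhds_zero_nat)
  rw [mul_zero, sub_zero] at lim
  exact le_of_tendsto' lim step


variable {d : ℕ} {K : Set (E d)}

lemma path_isSource_one (hK : Body K) : IsSource K (fun _ => (1 : ℝ)) := by
  have := hK.prob
  exact ⟨measurable_const, fun _ => by norm_num, fun _ => by norm_num, by simp⟩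

lemma path_isSource_one_add (hK : Body K) {k : E d → ℝ}
    (hk : Measurable k) (hk1 : ∀ x, |k x| ≤ 1 / 2) (hk0 : ∫ x, k x ∂(uniformProbOn K) = 0) :
    IsSource K (fun x => 1 + k x) := by
  have := hK.prob
  have hint : Integrable k (uniformProbOn K) :=
    hK.integrable_of_bound hk.aestronglyMeasurable (1 / 2)
      (fun x _ => by rw [Real.norm_eq_abs]; exact hk1 x)
  refine ⟨measurable_const.add hk, fun x => ?_, fun x => ?_, ?_⟩
  · have := (abs_le.1 (hk1 x)).1; linarith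
  · have := (abs_le.1 (hk1 x)).2; linarith
  · rw [integral_add (integrable_const _) hint, hk0]; simp

/-- the value does not depend on the grouping nor on the solution -/
lemma val_indep (hK : Body K) {f : E d → ℝ} (hf : IsSource K f)
    {Λ ι ι' : Type*} [Fintype Λ] [Fintype ι] [DecidableEq ι] [Nonempty ι]
    [Fintype ι'] [DecidableEq ι'] [Nonempty ι'] (π : Λ → ℝ) (hπ : ∀ l, 0 < π l)
    {κ : Λ → ι} {y : ι → E d} (hκ : Function.Surjective κ) (hy : Function.Injective y)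
    {κ' : Λ → ι'} {y' : ι' → E d} (hκ' : Function.Surjective κ') (hy' : Function.Injective y')
    (hyy : ∀ l, y' (κ' l) = y (κ l))
    {c : ι → ℝ} {c' : ι' → ℝ}
    (hc : Solves K f y (gmass π κ) c) (hc' : Solves K f y' (gmass π κ') c') :
    val K f y c = val K f y' c' := by
  have h1 := step hK hf π hπ hκ hy hy' hc hc'
  have h2 := step hK hf π hπ hκ' hy' hy hc' hc
  simp only [hyy, sub_self, inner_zero_right, mul_zero, Finset.sum_const_zero, add_zero] at h1 h2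
  exact le_antisymm h1 h2

/-- existence of a grouped solution for both sources -/
lemma exists_pkg (hK : Body K) {k : E d → ℝ} (hk : Measurable k) (hk1 : ∀ x, |k x| ≤ 1 / 2)
    (hk0 : ∫ x, k x ∂(uniformProbOn K) = 0)
    {Λ : Type*} [Fintype Λ] [Nonempty Λ] (π : Λ → ℝ) (hπ : ∀ l, 0 < π l) (hπ1 : ∑ l, π l = 1)
    (p : Λ → E d) :
    ∃ (n : ℕ) (_ : NeZero n) (κ : Λ → Fin n) (y : Fin n → E d) (a b : Fin n → ℝ),
      Function.Surjective κ ∧ Function.Injective y ∧ (∀ l, y (κ l) = p l) ∧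
      Solves K (fun _ => 1) y (gmass π κ) a ∧ Solves K (fun x => 1 + k x) y (gmass π κ) b := by
  obtain ⟨n, hn, κ, y, hκ, hy, hp⟩ := exists_grouping p
  have hm := gmass_pos hπ hκ
  have hs : ∑ i, gmass π κ i = 1 := by rw [sum_gmass, hπ1]
  obtain ⟨a, ha⟩ := exists_solves hK (path_isSource_one hK) hy (gmass π κ) hm hs
  obtain ⟨b, hb⟩ := exists_solves hK (path_isSource_one_add hK hk hk1 hk0) hy (gmass π κ) hm hs
  exact ⟨n, hn, κ, y, a, b, hκ, hy, hp, ha, hb⟩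

variable [NeZero d]

/-- fixed time bound (Cauchy–Schwarz + key lemma) -/
lemma path_fixed_time (hK : Body K) {k : E d → ℝ} (hk : Measurable k) (hk1 : ∀ x, |k x| ≤ 1 / 2)
    {Λ ι : Type*} [Fintype Λ] [Fintype ι] [DecidableEq ι] [Nonempty ι]
    (π : Λ → ℝ) (hπ : ∀ l, 0 < π l)
    {κ : Λ → ι} {y : ι → E d} (hκ : Function.Surjective κ) (hy : Function.Injective y)
    {a b : ι → ℝ} (ha : Solves K (fun _ => 1) y (gmass π κ) a)
    (hb : Solves K (fun x => 1 + k x) y (gmass π κ) b) (v : Λ → E d) :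
    |∑ l, π l * ⟪(gmass π κ (κ l))⁻¹ • mom K (fun x => 1 + k x) y b (κ l), v l⟫
      - ∑ l, π l * ⟪(gmass π κ (κ l))⁻¹ • mom K (fun _ => 1) y a (κ l), v l⟫|
      ≤ Real.sqrt C₁ * Metric.diam K * Real.sqrt (∫ x, k x ^ 2 ∂(uniformProbOn K))
        * Real.sqrt (∑ l, π l * ‖v l‖ ^ 2) := by
  have hm := gmass_pos hπ hκ
  set b2 : Λ → E d := fun l => (gmass π κ (κ l))⁻¹ • mom K (fun x => 1 + k x) y b (κ l) with hb2
  set b1 : Λ → E d := fun l => (gmass π κ (κ l))⁻¹ • mom K (fun _ => 1) y a (κ l) with hb1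
  have hkey : ∑ l, π l * ‖b2 l - b1 l‖ ^ 2
      ≤ C₁ * (Metric.diam K) ^ 2 * ∫ x, k x ^ 2 ∂(uniformProbOn K) := by
    refine le_trans (le_of_eq ?_) (key_lemma hK hk hk1 hy hm ha hb)
    rw [← sum_gmass_mul π κ (fun i => ‖(gmass π κ i)⁻¹ • mom K (fun x => 1 + k x) y b i
      - (gmass π κ i)⁻¹ • mom K (fun _ => 1) y a i‖ ^ 2)]
    apply Finset.sum_congr rfl
    intro i _
    rw [← smul_sub, norm_smul, mul_pow, Real.norm_eq_abs, sq_abs]
    have := (hm i).ne'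
    field_simp
  have hsq : Real.sqrt (C₁ * (Metric.diam K) ^ 2 * ∫ x, k x ^ 2 ∂(uniformProbOn K))
      = Real.sqrt C₁ * Metric.diam K * Real.sqrt (∫ x, k x ^ 2 ∂(uniformProbOn K)) := by
    have hC : (0 : ℝ) ≤ C₁ := by unfold C₁; norm_num
    rw [Real.sqrt_mul (mul_nonneg hC (sq_nonneg _)), Real.sqrt_mul hC,
      Real.sqrt_sq Metric.diam_nonneg]
  rw [← Finset.sum_sub_distrib, ← hsq]
  calc |∑ l, (π l * ⟪b2 l, v l⟫ - π l * ⟪b1 l, v l⟫)|
      ≤ ∑ l, |π l * ⟪b2 l, v l⟫ - π l * ⟪b1 l, v l⟫| := Finset.abs_sum_le_sum_abs _ _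
    _ ≤ ∑ l, Real.sqrt (π l * ‖b2 l - b1 l‖ ^ 2) * Real.sqrt (π l * ‖v l‖ ^ 2) := by
        apply Finset.sum_le_sum
        intro l _
        rw [← mul_sub, ← inner_sub_left, abs_mul, abs_of_pos (hπ l),
          Real.sqrt_mul (hπ l).le, Real.sqrt_mul (hπ l).le, Real.sqrt_sq (norm_nonneg _),
          Real.sqrt_sq (norm_nonneg _)]
        have h1 := abs_real_inner_le_norm (b2 l - b1 l) (v l)
        have h2 : Real.sqrt (π l) * Real.sqrt (π l) = π l := Real.mul_self_sqrt (hπ l).le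
        calc π l * |⟪b2 l - b1 l, v l⟫|
            ≤ π l * (‖b2 l - b1 l‖ * ‖v l‖) := mul_le_mul_of_nonneg_left h1 (hπ l).le
          _ = (Real.sqrt (π l) * Real.sqrt (π l)) * (‖b2 l - b1 l‖ * ‖v l‖) := by rw [h2]
          _ = _ := by ring
    _ ≤ Real.sqrt (∑ l, π l * ‖b2 l - b1 l‖ ^ 2) * Real.sqrt (∑ l, π l * ‖v l‖ ^ 2) :=
        Real.sum_sqrt_mul_sqrt_le _ (fun l => mul_nonneg (hπ l).le (sq_nonneg _))
          (fun l => mul_nonneg (hπ l).le (sq_nonneg _))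
    _ ≤ _ := mul_le_mul_of_nonneg_right (Real.sqrt_le_sqrt hkey) (Real.sqrt_nonneg _)

/-- L5.  `a` = weights for the source `ρ`, `b` = weights for the source `(1+k)ρ`. -/
theorem path_ineq (hK : Body K) {k : E d → ℝ} (hk : Measurable k) (hk1 : ∀ x, |k x| ≤ 1 / 2)
    (hk0 : ∫ x, k x ∂(uniformProbOn K) = 0)
    {Λ : Type*} [Fintype Λ] [Nonempty Λ] (π : Λ → ℝ) (hπ : ∀ l, 0 < π l) (hπ1 : ∑ l, π l = 1)
    (p₀ p₁ : Λ → E d)
    {ι₀ ι₁ : Type*} [Fintype ι₀] [DecidableEq ι₀] [Nonempty ι₀] [Fintype ι₁] [DecidableEq ι₁] [Nonempty ι₁]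
    {κ₀ : Λ → ι₀} {y₀ : ι₀ → E d} (hκ₀ : Function.Surjective κ₀) (hy₀ : Function.Injective y₀)
    (hp₀ : ∀ l, y₀ (κ₀ l) = p₀ l)
    {κ₁ : Λ → ι₁} {y₁ : ι₁ → E d} (hκ₁ : Function.Surjective κ₁) (hy₁ : Function.Injective y₁)
    (hp₁ : ∀ l, y₁ (κ₁ l) = p₁ l)
    {a₀ b₀ : ι₀ → ℝ} {a₁ b₁ : ι₁ → ℝ}
    (ha₀ : Solves K (fun _ => 1) y₀ (gmass π κ₀) a₀) (hb₀ : Solves K (fun x => 1 + k x) y₀ (gmass π κ₀) b₀)
    (ha₁ : Solves K (fun _ => 1) y₁ (gmass π κ₁) a₁) (hb₁ : Solves K (fun x => 1 + k x) y₁ (gmass π κ₁) b₁) :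
    - (Real.sqrt C₁ * Metric.diam K * Real.sqrt (∫ x, k x ^ 2 ∂(uniformProbOn K))
        * Real.sqrt (∑ l, π l * ‖p₁ l - p₀ l‖ ^ 2))
      ≤ (val K (fun x => 1 + k x) y₁ b₁ - val K (fun x => 1 + k x) y₀ b₀)
        - (val K (fun _ => 1) y₁ a₁ - val K (fun _ => 1) y₀ a₀) := by
  have hs1 := path_isSource_one hK
  have hs2 := path_isSource_one_add hK hk hk1 hk0
  let P : ℝ → Λ → E d := fun t l => p₀ l + t • (p₁ l - p₀ l)
  choose n hn κ y a b hκ hy hp ha hb using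
    fun t : ℝ => exists_pkg hK hk hk1 hk0 π hπ hπ1 (P t)
  have hP : ∀ t t' l, y t' (κ t' l) - y t (κ t l) = (t' - t) • (p₁ l - p₀ l) := by
    intro t t' l
    rw [hp, hp]
    simp only [P, sub_smul]
    abel
  have hstep : ∀ (t t' : ℝ) (B : Λ → E d), ∑ l, π l * ⟪B l, y t' (κ t' l) - y t (κ t l)⟫
      = (t' - t) * ∑ l, π l * ⟪B l, p₁ l - p₀ l⟫ := by
    intro t t' B
    rw [Finset.mul_sum]
    apply Finset.sum_congr rfl
    intro l _
    rw [hP t t' l, real_inner_smul_right]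
    ring
  have key := telescoping (fun t => val K (fun _ => 1) (y t) (a t))
    (fun t => val K (fun x => 1 + k x) (y t) (b t))
    (fun t => ∑ l, π l * ⟪(gmass π (κ t) (κ t l))⁻¹ • mom K (fun _ => 1) (y t) (a t) (κ t l),
      p₁ l - p₀ l⟫)
    (fun t => ∑ l, π l * ⟪(gmass π (κ t) (κ t l))⁻¹ • mom K (fun x => 1 + k x) (y t) (b t) (κ t l),
      p₁ l - p₀ l⟫)
    (Real.sqrt C₁ * Metric.diam K * Real.sqrt (∫ x, k x ^ 2 ∂(uniformProbOn K))
        * Real.sqrt (∑ l, π l * ‖p₁ l - p₀ l‖ ^ 2))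
    (fun t t' => by
      have := step hK hs1 π hπ (hκ t) (hy t) (hy t') (ha t) (ha t')
      rw [hstep] at this
      exact this)
    (fun t t' => by
      have := step hK hs2 π hπ (hκ t) (hy t) (hy t') (hb t) (hb t')
      rw [hstep] at this
      exact this)
    (fun t => path_fixed_time hK hk hk1 π hπ (hκ t) (hy t) (ha t) (hb t) _)
  have e1 : ∀ l, y₁ (κ₁ l) = y 1 (κ 1 l) := by intro l; rw [hp₁, hp]; simp [P]
  have e0 : ∀ l, y₀ (κ₀ l) = y 0 (κ 0 l) := by intro l; rw [hp₀, hp]; simp [P]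
  have va1 := val_indep hK hs1 π hπ (hκ 1) (hy 1) hκ₁ hy₁ e1 (ha 1) ha₁
  have va0 := val_indep hK hs1 π hπ (hκ 0) (hy 0) hκ₀ hy₀ e0 (ha 0) ha₀
  have vb1 := val_indep hK hs2 π hπ (hκ 1) (hy 1) hκ₁ hy₁ e1 (hb 1) hb₁
  have vb0 := val_indep hK hs2 π hπ (hκ 0) (hy 0) hκ₀ hy₀ e0 (hb 0) hb₀
  simp only [va1, va0, vb1, vb0] at key
  exact key

end Crest.Agent.S0109D
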