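import Crest.Agent.S0109_Cells

/-! # Row 82, L2 (a),(b): existence of weights -/

set_option autoImplicit false
open MeasureTheory
open scoped ENNReal NNReal RealInnerProductSpace
open Crest.AnalysisR.OT

namespace Crest.Agent.S0109D

variable {d : ℕ} {ι : Type*} [Fintype ι] [Nonempty ι] {K : Set (E d)}

/-! ## integrability -/

omit [Nonempty ι] in
lemma Body.integrable_pot_mul (hK : Body K) {f : E d → ℝ} (hf : IsSource K f) (y : ι → E d)
    (c : ι → ℝ) : Integrable (fun x => pot y c x * f x) (uniformProbOn K) := by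
  obtain ⟨C, hC⟩ := hK.cpt.exists_bound_of_continuousOn (pot_continuous y c).continuousOn
  refine hK.integrable_of_bound ((pot_measurable y c).mul hf.meas).aestronglyMeasurable
    (C * (3 / 2)) fun x hx => ?_
  rw [norm_mul]
  have h1 : ‖f x‖ ≤ 3 / 2 := by
    rw [Real.norm_eq_abs, abs_le]
    exact ⟨by linarith [hf.lo x], hf.hi x⟩
  exact mul_le_mul (hC x hx) h1 (norm_nonneg _) ((norm_nonneg _).trans (hC x hx))

lemma Body.integrable_source (hK : Body K) {f : E d → ℝ} (hf : IsSource K f) :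
    Integrable f (uniformProbOn K) := by
  refine hK.integrable_of_bound hf.meas.aestronglyMeasurable (3 / 2) fun x _ => ?_
  rw [Real.norm_eq_abs, abs_le]
  exact ⟨by linarith [hf.lo x], hf.hi x⟩

/-! ## elementary properties of `Phi` -/

lemma Phi_add_const (hK : Body K) {f : E d → ℝ} (hf : IsSource K f) (y : ι → E d)
    (m : ι → ℝ) (hsum : ∑ i, m i = 1) (c : ι → ℝ) (a : ℝ) :
    Phi K f y m (fun i => c i + a) = Phi K f y m c := by
  unfold Phi
  have h1 : ∫ x, pot y (fun i => c i + a) x * f x ∂(uniformProbOn K)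
      = ∫ x, pot y c x * f x ∂(uniformProbOn K) - a := by
    have : (fun x => pot y (fun i => c i + a) x * f x)
        = fun x => pot y c x * f x - a * f x := by
      funext x; rw [pot_add_const]; ring
    rw [this, integral_sub (hK.integrable_pot_mul hf y c) ((hK.integrable_source hf).const_mul a),
      integral_const_mul, hf.int, mul_one]
  have h2 : ∑ i, m i * (c i + a) = ∑ i, m i * c i + a := by
    simp only [mul_add, Finset.sum_add_distrib, ← Finset.sum_mul, hsum, one_mul]
  rw [h1, h2]; ring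

lemma Phi_le_add (hK : Body K) {f : E d → ℝ} (hf : IsSource K f) (y : ι → E d)
    (m : ι → ℝ) (hm : ∀ i, 0 ≤ m i) (hsum : ∑ i, m i = 1) (c c' : ι → ℝ) (δ : ℝ)
    (h : ∀ i, |c i - c' i| ≤ δ) : Phi K f y m c ≤ Phi K f y m c' + 2 * δ := by
  unfold Phi
  have h1 : ∫ x, pot y c x * f x ∂(uniformProbOn K)
      ≤ ∫ x, pot y c' x * f x ∂(uniformProbOn K) + δ := by
    have e : ∫ x, (pot y c' x * f x + δ * f x) ∂(uniformProbOn K)
        = ∫ x, pot y c' x * f x ∂(uniformProbOn K) + δ := by
      rw [integral_add (hK.integrable_pot_mul hf y c') ((hK.integrable_source hf).const_mul δ),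
        integral_const_mul, hf.int, mul_one]
    rw [← e]
    refine integral_mono (hK.integrable_pot_mul hf y c)
      ((hK.integrable_pot_mul hf y c').add ((hK.integrable_source hf).const_mul δ)) fun x => ?_
    have h3 := (abs_le.1 (abs_pot_sub_le y c c' δ h x)).2
    have h4 : 0 ≤ f x := by linarith [hf.lo x]
    have : pot y c x * f x ≤ (pot y c' x + δ) * f x :=
      mul_le_mul_of_nonneg_right (by linarith) h4
    simpa [add_mul] using this
  have h2 : ∑ i, m i * c i ≤ ∑ i, m i * c' i + δ := by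
    have : ∑ i, m i * c i ≤ ∑ i, m i * (c' i + δ) :=
      Finset.sum_le_sum fun i _ =>
        mul_le_mul_of_nonneg_left (by linarith [(abs_le.1 (h i)).2]) (hm i)
    have e : ∑ i, m i * (c' i + δ) = ∑ i, m i * c' i + δ := by
      simp only [mul_add, Finset.sum_add_distrib, ← Finset.sum_mul, hsum, one_mul]
    linarith
  linarith

lemma Phi_continuous (hK : Body K) {f : E d → ℝ} (hf : IsSource K f) (y : ι → E d)
    (m : ι → ℝ) (hm : ∀ i, 0 ≤ m i) (hsum : ∑ i, m i = 1) : Continuous (Phi K f y m) := by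
  have : LipschitzWith 2 (Phi K f y m) := by
    apply LipschitzWith.of_dist_le_mul
    intro c c'
    have h1 : ∀ i, |c i - c' i| ≤ dist c c' := fun i => by
      rw [← Real.dist_eq]; exact dist_le_pi_dist c c' i
    have h2 : ∀ i, |c' i - c i| ≤ dist c c' := fun i => by
      rw [abs_sub_comm]; exact h1 i
    rw [Real.dist_eq, abs_le]
    have a1 := Phi_le_add hK hf y m hm hsum c c' _ h1
    have a2 := Phi_le_add hK hf y m hm hsum c' c _ h2
    simp only [NNReal.coe_ofNat]
    constructor <;> linarith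
  exact this.continuous

omit [Nonempty ι] in
/-- lower bound of `Phi` -/
lemma Phi_lower (hK : Body K) {f : E d → ℝ} (hf : IsSource K f) (y : ι → E d)
    (m : ι → ℝ) (hm : ∀ i, 0 ≤ m i) (hsum : ∑ i, m i = 1) (M₀ : ℝ)
    (hM : ∀ x ∈ K, ∀ i, |⟪x, y i⟫| ≤ M₀) (c : ι → ℝ) (i₀ j₀ : ι) (hi₀ : ∀ i, c i₀ ≤ c i) :
    -M₀ + m j₀ * (c j₀ - c i₀) ≤ Phi K f y m c := by
  unfold Phi
  have h1 : -M₀ - c i₀ ≤ ∫ x, pot y c x * f x ∂(uniformProbOn K) := by
    have e : ∫ x, (-M₀ - c i₀) * f x ∂(uniformProbOn K) = -M₀ - c i₀ := by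
      rw [integral_const_mul, hf.int, mul_one]
    rw [← e]
    refine integral_mono_ae ((hK.integrable_source hf).const_mul _)
      (hK.integrable_pot_mul hf y c) ?_
    filter_upwards [hK.ae_mem] with x hx
    have h4 : 0 ≤ f x := by linarith [hf.lo x]
    refine mul_le_mul_of_nonneg_right ?_ h4
    have := le_pot y c x i₀
    have := (abs_le.1 (hM x hx i₀)).1
    linarith
  have h2 : c i₀ + m j₀ * (c j₀ - c i₀) ≤ ∑ i, m i * c i := by
    have e : ∑ i, m i * c i = c i₀ + ∑ i, m i * (c i - c i₀) := by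
      simp only [mul_sub, Finset.sum_sub_distrib, ← Finset.sum_mul, hsum, one_mul]; ring
    rw [e]
    have : m j₀ * (c j₀ - c i₀) ≤ ∑ i, m i * (c i - c i₀) :=
      Finset.single_le_sum (f := fun i => m i * (c i - c i₀))
        (fun i _ => mul_nonneg (hm i) (by linarith [hi₀ i])) (Finset.mem_univ j₀)
    linarith
  linarith

lemma Phi_zero_le (hK : Body K) {f : E d → ℝ} (hf : IsSource K f) (y : ι → E d)
    (m : ι → ℝ) (M₀ : ℝ) (hM : ∀ x ∈ K, ∀ i, |⟪x, y i⟫| ≤ M₀) :
    Phi K f y m 0 ≤ M₀ := by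
  unfold Phi
  have h1 : ∫ x, pot y 0 x * f x ∂(uniformProbOn K) ≤ M₀ := by
    have e : ∫ x, M₀ * f x ∂(uniformProbOn K) = M₀ := by
      rw [integral_const_mul, hf.int, mul_one]
    rw [← e]
    refine integral_mono_ae (hK.integrable_pot_mul hf y 0)
      ((hK.integrable_source hf).const_mul _) ?_
    filter_upwards [hK.ae_mem] with x hx
    have h4 : 0 ≤ f x := by linarith [hf.lo x]
    refine mul_le_mul_of_nonneg_right ?_ h4
    refine pot_le fun i => ?_
    have := (abs_le.1 (hM x hx i)).2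
    simpa using this
  simpa using h1

omit [Nonempty ι] in
lemma Body.exists_inner_bound (hK : Body K) (y : ι → E d) :
    ∃ M₀ : ℝ, 0 ≤ M₀ ∧ ∀ x ∈ K, ∀ i, |⟪x, y i⟫| ≤ M₀ := by
  obtain ⟨M, hM0, hM⟩ := hK.exists_norm_le
  refine ⟨M * ∑ i, ‖y i‖, mul_nonneg hM0 (Finset.sum_nonneg fun i _ => norm_nonneg _),
    fun x hx i => ?_⟩
  calc |⟪x, y i⟫| ≤ ‖x‖ * ‖y i‖ := abs_real_inner_le_norm _ _
    _ ≤ M * ∑ i, ‖y i‖ := by
        refine mul_le_mul (hM x hx) ?_ (norm_nonneg _) hM0
        exact Finset.single_le_sum (f := fun i => ‖y i‖) (fun i _ => norm_nonneg _)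
          (Finset.mem_univ i)

/-- (a) a global minimiser of the Kantorovich functional exists -/
theorem exists_min_Phi (hK : Body K) {f : E d → ℝ} (hf : IsSource K f) (y : ι → E d)
    (m : ι → ℝ) (hm : ∀ i, 0 < m i) (hsum : ∑ i, m i = 1) :
    ∃ c : ι → ℝ, ∀ c' : ι → ℝ, Phi K f y m c ≤ Phi K f y m c' := by
  have hm0 : ∀ i, 0 ≤ m i := fun i => (hm i).le
  obtain ⟨M₀, hM0, hM⟩ := hK.exists_inner_bound y
  set L : ℝ := ∑ i, 2 * M₀ / m i with hL
  have hLi : ∀ i, 2 * M₀ / m i ≤ L := fun i =>
    Finset.single_le_sum (f := fun i => 2 * M₀ / m i)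
      (fun i _ => div_nonneg (by linarith) (hm0 i)) (Finset.mem_univ i)
  have hL0 : 0 ≤ L := Finset.sum_nonneg fun i _ => div_nonneg (by linarith) (hm0 i)
  have hcpt : IsCompact (Set.Icc (0 : ι → ℝ) (fun _ => L)) := isCompact_Icc
  have hne : (Set.Icc (0 : ι → ℝ) (fun _ => L)).Nonempty :=
    ⟨0, le_refl _, fun _ => hL0⟩
  obtain ⟨c, hcB, hcmin⟩ := hcpt.exists_isMinOn hne (Phi_continuous hK hf y m hm0 hsum).continuousOn
  refine ⟨c, fun c' => ?_⟩
  obtain ⟨i₀, hi₀⟩ := Finite.exists_min c'
  have e : Phi K f y m (fun i => c' i + (-c' i₀)) = Phi K f y m c' :=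
    Phi_add_const hK hf y m hsum c' _
  by_cases hbox : ∀ j, c' j - c' i₀ ≤ L
  · rw [← e]
    apply hcmin
    constructor
    · intro i; simp only [Pi.zero_apply]; linarith [hi₀ i]
    · intro i; have := hbox i; simp only; linarith
  · push Not at hbox
    obtain ⟨j₀, hj₀⟩ := hbox
    have h1 := Phi_lower hK hf y m hm0 hsum M₀ hM c' i₀ j₀ hi₀
    have h2 : Phi K f y m c ≤ Phi K f y m 0 := hcmin ⟨le_refl _, fun _ => hL0⟩
    have h3 := Phi_zero_le hK hf y m M₀ hM
    have h4 : 2 * M₀ ≤ m j₀ * (c' j₀ - c' i₀) := by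
      have : 2 * M₀ / m j₀ ≤ c' j₀ - c' i₀ := (hLi j₀).trans hj₀.le
      rw [div_le_iff₀ (hm j₀)] at this
      linarith
    linarith

/-! ## (b) a minimiser solves -/

/-- raising the weight of `i` by `t` -/
lemma pot_update_le (y : ι → E d) (c : ι → ℝ) [DecidableEq ι] (i : ι) {t : ℝ} (ht : 0 ≤ t) (x : E d) :
    pot y (Function.update c i (c i + t)) x
      ≤ pot y c x - t * (cell K y (Function.update c i (c i + t)) i).indicator (fun _ => (1 : ℝ)) x := by
  by_cases hx : x ∈ cell K y (Function.update c i (c i + t)) i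
  · rw [Set.indicator_of_mem hx, pot_eq_of_mem_cell hx, Function.update_self]
    have := le_pot y c x i
    linarith
  · rw [Set.indicator_of_notMem hx, mul_zero, sub_zero]
    refine pot_le fun j => ?_
    have := le_pot y c x j
    by_cases hj : j = i
    · subst hj; rw [Function.update_self]; linarith
    · rw [Function.update_of_ne hj]; exact this

lemma cell_update_mass_le (hK : Body K) {f : E d → ℝ} (hf : IsSource K f) (y : ι → E d)
    (m : ι → ℝ) (c : ι → ℝ) (hc : ∀ c' : ι → ℝ, Phi K f y m c ≤ Phi K f y m c') [DecidableEq ι]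
    (i : ι) {t : ℝ} (ht : 0 < t) :
    ∫ x in cell K y (Function.update c i (c i + t)) i, f x ∂(uniformProbOn K) ≤ m i := by
  set c' := Function.update c i (c i + t) with hc'
  have hmeas : MeasurableSet (cell K y c' i) := hK.measurableSet_cell y c' i
  have h1 : ∫ x, pot y c' x * f x ∂(uniformProbOn K)
      ≤ ∫ x, pot y c x * f x ∂(uniformProbOn K)
        - t * ∫ x in cell K y c' i, f x ∂(uniformProbOn K) := by
    have e : ∫ x, (pot y c x * f x - t * (cell K y c' i).indicator f x) ∂(uniformProbOn K)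
        = ∫ x, pot y c x * f x ∂(uniformProbOn K)
          - t * ∫ x in cell K y c' i, f x ∂(uniformProbOn K) := by
      rw [integral_sub (hK.integrable_pot_mul hf y c)
        (((hK.integrable_source hf).indicator hmeas).const_mul t), integral_const_mul,
        integral_indicator hmeas]
    rw [← e]
    refine integral_mono (hK.integrable_pot_mul hf y c')
      ((hK.integrable_pot_mul hf y c).sub
        (((hK.integrable_source hf).indicator hmeas).const_mul t)) fun x => ?_
    have h4 : 0 ≤ f x := by linarith [hf.lo x]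
    have h5 := mul_le_mul_of_nonneg_right (pot_update_le (K := K) y c i ht.le x) h4
    have h6 : (cell K y c' i).indicator (fun _ => (1 : ℝ)) x * f x = (cell K y c' i).indicator f x := by
      by_cases hx : x ∈ cell K y c' i
      · rw [Set.indicator_of_mem hx, Set.indicator_of_mem hx, one_mul]
      · rw [Set.indicator_of_notMem hx, Set.indicator_of_notMem hx, zero_mul]
    calc pot y c' x * f x ≤ (pot y c x - t * (cell K y c' i).indicator (fun _ => (1 : ℝ)) x) * f x := h5
      _ = pot y c x * f x - t * ((cell K y c' i).indicator (fun _ => (1 : ℝ)) x * f x) := by ring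
      _ = pot y c x * f x - t * (cell K y c' i).indicator f x := by rw [h6]
  have h2 : ∑ j, m j * c' j = ∑ j, m j * c j + m i * t := by
    have : ∀ j, m j * c' j = m j * c j + (if j = i then m i * t else 0) := by
      intro j
      by_cases hj : j = i
      · subst hj; simp [hc', mul_add]
      · simp [hc', hj]
    simp only [this, Finset.sum_add_distrib, Finset.sum_ite_eq', Finset.mem_univ, if_true]
  have h3 := hc c'
  unfold Phi at h3
  have h4 : t * ∫ x in cell K y c' i, f x ∂(uniformProbOn K) ≤ t * m i := by linarith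
  exact le_of_mul_le_mul_left h4 ht

lemma cell_mass_le (hK : Body K) {f : E d → ℝ} (hf : IsSource K f) {y : ι → E d}
    (hy : Function.Injective y) (m : ι → ℝ) (c : ι → ℝ)
    (hc : ∀ c' : ι → ℝ, Phi K f y m c ≤ Phi K f y m c') (i : ι) :
    ∫ x in cell K y c i, f x ∂(uniformProbOn K) ≤ m i := by
  classical
  set s : ℕ → Set (E d) := fun n => cell K y (Function.update c i (c i + 1 / ((n : ℝ) + 1))) i with hs
  have hpos : ∀ n : ℕ, (0 : ℝ) < 1 / ((n : ℝ) + 1) := fun n => by positivity
  have hsm : ∀ n, MeasurableSet (s n) := fun n => hK.measurableSet_cell y _ i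
  have hmem : ∀ (t : ℝ) (x : E d), x ∈ cell K y (Function.update c i (c i + t)) i ↔
      x ∈ K ∧ ∀ j, j ≠ i → ⟪x, y j⟫ - c j ≤ ⟪x, y i⟫ - c i - t := by
    intro t x
    simp only [cell, Set.mem_ofPred_eq, Function.update_self]
    constructor
    · rintro ⟨h1, h2⟩
      refine ⟨h1, fun j hj => ?_⟩
      have := h2 j
      rw [Function.update_of_ne hj] at this
      linarith
    · rintro ⟨h1, h2⟩
      refine ⟨h1, fun j => ?_⟩
      by_cases hj : j = i
      · subst hj; rw [Function.update_self]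
      · rw [Function.update_of_ne hj]; have := h2 j hj; linarith
  have hmono : Monotone s := by
    intro a b hab x hx
    rw [hs] at hx ⊢
    simp only [hmem] at hx ⊢
    refine ⟨hx.1, fun j hj => (hx.2 j hj).trans ?_⟩
    have : 1 / ((b : ℝ) + 1) ≤ 1 / ((a : ℝ) + 1) := by
      apply one_div_le_one_div_of_le (by positivity)
      have : (a : ℝ) ≤ b := by exact_mod_cast hab
      linarith
    linarith
  have hfi : IntegrableOn f (⋃ n, s n) (uniformProbOn K) := (hK.integrable_source hf).integrableOn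
  have hlim := tendsto_setIntegral_of_monotone hsm hmono hfi
  have hle : ∫ x in ⋃ n, s n, f x ∂(uniformProbOn K) ≤ m i :=
    le_of_tendsto' hlim fun n => cell_update_mass_le hK hf y m c hc i (hpos n)
  have hsub : scell K y c i ⊆ ⋃ n, s n := by
    intro x hx
    -- the minimal gap
    have hgap : ∃ δ : ℝ, 0 < δ ∧ ∀ j, j ≠ i → ⟪x, y j⟫ - c j ≤ ⟪x, y i⟫ - c i - δ := by
      by_cases hne : (Finset.univ.erase i).Nonempty
      · obtain ⟨j₀, hj₀, hmax⟩ := Finset.exists_max_image (Finset.univ.erase i)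
          (fun j => ⟪x, y j⟫ - c j) hne
        refine ⟨(⟪x, y i⟫ - c i) - (⟪x, y j₀⟫ - c j₀), ?_, fun j hj => ?_⟩
        · have := hx.2 j₀ (Finset.ne_of_mem_erase hj₀); linarith
        · have := hmax j (Finset.mem_erase.2 ⟨hj, Finset.mem_univ j⟩); linarith
      · refine ⟨1, one_pos, fun j hj => ?_⟩
        exact absurd ⟨j, Finset.mem_erase.2 ⟨hj, Finset.mem_univ j⟩⟩ hne
    obtain ⟨δ, hδ, hgap⟩ := hgap
    obtain ⟨n, hn⟩ := exists_nat_one_div_lt hδ
    refine Set.mem_iUnion.2 ⟨n, ?_⟩
    rw [hs]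
    simp only [hmem]
    exact ⟨hx.1, fun j hj => by have := hgap j hj; linarith⟩
  have h1 : ∫ x in scell K y c i, f x ∂(uniformProbOn K) ≤ ∫ x in ⋃ n, s n, f x ∂(uniformProbOn K) := by
    refine setIntegral_mono_set hfi ?_ hsub.eventuallyLE
    exact Filter.Eventually.of_forall fun x => by
      have := hf.lo x
      simp only [Pi.zero_apply]; linarith
  have h2 : ∫ x in cell K y c i, f x ∂(uniformProbOn K) = ∫ x in scell K y c i, f x ∂(uniformProbOn K) := by
    apply setIntegral_congr_set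
    have hnull : uniformProbOn K (cell K y c i \ scell K y c i) = 0 :=
      rho_ac K (cell_diff_scell_null hy c i)
    refine ae_eq_set.2 ⟨hnull, ?_⟩
    rw [Set.sdiff_eq_empty.2 (scell_subset_cell y c i), measure_empty]
  linarith

/-- (b) a minimiser solves the mass constraints -/
theorem solves_of_min (hK : Body K) {f : E d → ℝ} (hf : IsSource K f) {y : ι → E d}
    (hy : Function.Injective y) (m : ι → ℝ) (hsum : ∑ i, m i = 1) (c : ι → ℝ)
    (hc : ∀ c' : ι → ℝ, Phi K f y m c ≤ Phi K f y m c') : Solves K f y m c := by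
  have hle := cell_mass_le hK hf hy m c hc
  have htot : ∑ i, ∫ x in cell K y c i, f x ∂(uniformProbOn K) = ∑ i, m i := by
    rw [← hK.integral_eq_sum_cells hy c (hK.integrable_source hf), hf.int, hsum]
  intro i
  exact (Finset.sum_eq_sum_iff_of_le fun i _ => hle i).1 htot i (Finset.mem_univ i)

/-- existence of weights -/
theorem exists_solves (hK : Body K) {f : E d → ℝ} (hf : IsSource K f) {y : ι → E d}
    (hy : Function.Injective y) (m : ι → ℝ) (hm : ∀ i, 0 < m i) (hsum : ∑ i, m i = 1) :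
    ∃ c : ι → ℝ, Solves K f y m c := by
  obtain ⟨c, hc⟩ := exists_min_Phi hK hf y m hm hsum
  exact ⟨c, solves_of_min hK hf hy m hsum c hc⟩

end Crest.Agent.S0109D
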