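import Mathlib
import Crest.Prelude.Def_QuadraticTransport

set_option autoImplicit false
open MeasureTheory
open scoped ENNReal NNReal RealInnerProductSpace
open Crest.AnalysisR.OT

namespace Crest.Agent.S0110Cube

variable {d : ℕ}

/-- the cube -/
def Q (d : ℕ) : Set (EuclideanSpace ℝ (Fin d)) := {x | ∀ i, |x i| ≤ 1}

/-- a closed box -/
def box (lo hi : Fin d → ℝ) : Set (EuclideanSpace ℝ (Fin d)) := {x | ∀ i, lo i ≤ x i ∧ x i ≤ hi i}

theorem box_eq_preimage (lo hi : Fin d → ℝ) :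
    box lo hi = (@WithLp.ofLp 2 (Fin d → ℝ)) ⁻¹' (Set.Icc lo hi) := by
  ext x
  simp only [box, Set.mem_setOf_eq, Set.mem_preimage, Set.mem_Icc, Pi.le_def]
  exact forall_and

theorem measurableSet_box (lo hi : Fin d → ℝ) : MeasurableSet (box lo hi) := by
  rw [box_eq_preimage]
  exact (PiLp.volume_preserving_ofLp (Fin d)).measurable measurableSet_Icc

theorem volume_box (lo hi : Fin d → ℝ) :
    volume (box lo hi) = ∏ i, ENNReal.ofReal (hi i - lo i) := by
  rw [box_eq_preimage, (PiLp.volume_preserving_ofLp (Fin d)).measure_preimage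
    measurableSet_Icc.nullMeasurableSet, Real.volume_Icc_pi]

theorem Q_eq_box : Q d = box (fun _ => -1) (fun _ => 1) := by
  ext x
  simp only [Q, box, Set.mem_setOf_eq, abs_le]

theorem measurableSet_Q : MeasurableSet (Q d) := by
  rw [Q_eq_box]; exact measurableSet_box _ _

theorem volume_Q : volume (Q d) = ENNReal.ofReal (2 ^ d) := by
  rw [Q_eq_box, volume_box]
  simp only [Finset.prod_const, Finset.card_univ, Fintype.card_fin]
  rw [ENNReal.ofReal_pow (by norm_num)]
  norm_num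

/-- the uniform probability measure on the cube -/
noncomputable abbrev rho (d : ℕ) : Measure (EuclideanSpace ℝ (Fin d)) := uniformProbOn (Q d)

theorem rho_apply {s : Set (EuclideanSpace ℝ (Fin d))} (hs : MeasurableSet s) :
    rho d s = (ENNReal.ofReal (2 ^ d))⁻¹ * volume (s ∩ Q d) := by
  simp only [rho, uniformProbOn, Measure.smul_apply, smul_eq_mul, Measure.restrict_apply hs, volume_Q]

instance : IsProbabilityMeasure (rho d) := by
  constructor
  rw [rho_apply MeasurableSet.univ, Set.univ_inter, volume_Q]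
  apply ENNReal.inv_mul_cancel
  · simp
  · exact ENNReal.ofReal_ne_top

theorem ae_mem_Q : ∀ᵐ x ∂(rho d), x ∈ Q d := by
  simp only [rho, uniformProbOn]
  apply Measure.ae_smul_measure
  exact ae_restrict_mem measurableSet_Q

theorem rho_box (lo hi : Fin d → ℝ) (h1 : ∀ i, -1 ≤ lo i) (h2 : ∀ i, lo i ≤ hi i) (h3 : ∀ i, hi i ≤ 1) :
    rho d (box lo hi) = ENNReal.ofReal (∏ i, (hi i - lo i) / 2) := by
  rw [rho_apply (measurableSet_box _ _)]
  have hsub : box lo hi ∩ Q d = box lo hi := by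
    apply Set.inter_eq_left.mpr
    intro x hx i
    rw [abs_le]
    exact ⟨(h1 i).trans (hx i).1, (hx i).2.trans (h3 i)⟩
  rw [hsub, volume_box, ← ENNReal.ofReal_prod_of_nonneg (fun i _ => by linarith [h2 i]),
    ← ENNReal.ofReal_inv_of_pos (by positivity), ← ENNReal.ofReal_mul (by positivity)]
  congr 1
  rw [Finset.prod_div_distrib]
  simp only [Finset.prod_const, Finset.card_univ, Fintype.card_fin]
  field_simp

/-- box constraining only two coordinates -/
def box2 (i0 i1 : Fin d) (a0 b0 a1 b1 : ℝ) : Set (EuclideanSpace ℝ (Fin d)) :=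
  {x | x ∈ Q d ∧ a0 ≤ x i0 ∧ x i0 ≤ b0 ∧ a1 ≤ x i1 ∧ x i1 ≤ b1}

theorem box2_eq (i0 i1 : Fin d) (hne : i0 ≠ i1) (a0 b0 a1 b1 : ℝ)
    (ha0 : -1 ≤ a0) (hb0 : b0 ≤ 1) (ha1 : -1 ≤ a1) (hb1 : b1 ≤ 1) :
    box2 i0 i1 a0 b0 a1 b1 = box (fun i => if i = i0 then a0 else if i = i1 then a1 else -1)
      (fun i => if i = i0 then b0 else if i = i1 then b1 else 1) := by
  ext x
  simp only [box2, box, Q, Set.mem_setOf_eq]
  constructor
  · rintro ⟨hQ, h1, h2, h3, h4⟩ i
    by_cases hi0 : i = i0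
    · subst hi0; simp [h1, h2]
    · by_cases hi1 : i = i1
      · subst hi1; simp [hi0, h3, h4]
      · simp only [hi0, hi1, if_false]
        exact abs_le.mp (hQ i)
  · intro h
    have h0 := h i0
    have h1 := h i1
    simp only [if_true, hne.symm, if_false] at h0 h1
    refine ⟨fun i => ?_, h0.1, h0.2, h1.1, h1.2⟩
    have hi := h i
    rw [abs_le]
    by_cases hi0 : i = i0
    · subst hi0; exact ⟨ha0.trans h0.1, h0.2.trans hb0⟩
    · by_cases hi1 : i = i1
      · subst hi1; exact ⟨ha1.trans h1.1, h1.2.trans hb1⟩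
      · simpa only [hi0, hi1, if_false] using hi

theorem measurableSet_box2 (i0 i1 : Fin d) (hne : i0 ≠ i1) (a0 b0 a1 b1 : ℝ)
    (ha0 : -1 ≤ a0) (hb0 : b0 ≤ 1) (ha1 : -1 ≤ a1) (hb1 : b1 ≤ 1) :
    MeasurableSet (box2 i0 i1 a0 b0 a1 b1) := by
  rw [box2_eq i0 i1 hne a0 b0 a1 b1 ha0 hb0 ha1 hb1]; exact measurableSet_box _ _

theorem rho_box2 (i0 i1 : Fin d) (hne : i0 ≠ i1) (a0 b0 a1 b1 : ℝ)
    (ha0 : -1 ≤ a0) (hab0 : a0 ≤ b0) (hb0 : b0 ≤ 1) (ha1 : -1 ≤ a1) (hab1 : a1 ≤ b1) (hb1 : b1 ≤ 1) :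
    rho d (box2 i0 i1 a0 b0 a1 b1) = ENNReal.ofReal ((b0 - a0) / 2 * ((b1 - a1) / 2)) := by
  rw [box2_eq i0 i1 hne a0 b0 a1 b1 ha0 hb0 ha1 hb1, rho_box]
  · congr 1
    rw [Finset.prod_eq_mul i0 i1 hne]
    · simp [hne.symm]
    · intro c _ hc
      simp only [hc.1, hc.2, if_false]; norm_num
    · intro h; exact absurd (Finset.mem_univ _) h
    · intro h; exact absurd (Finset.mem_univ _) h
  · intro i; split_ifs <;> linarith
  · intro i; split_ifs <;> linarith
  · intro i; split_ifs <;> linarith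

/-- reflection in coordinate `i1` -/
noncomputable def refl (i1 : Fin d) : EuclideanSpace ℝ (Fin d) ≃ₗᵢ[ℝ] EuclideanSpace ℝ (Fin d) :=
  LinearIsometryEquiv.piLpCongrRight 2
    (fun i => if i = i1 then LinearIsometryEquiv.neg ℝ else LinearIsometryEquiv.refl ℝ ℝ)

theorem refl_apply (i1 : Fin d) (x : EuclideanSpace ℝ (Fin d)) (i : Fin d) :
    refl i1 x i = if i = i1 then - x i else x i := by
  simp only [refl, LinearIsometryEquiv.piLpCongrRight_apply]
  split_ifs <;> simp

theorem refl_preimage_Q (i1 : Fin d) : (refl i1) ⁻¹' (Q d) = Q d := by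
  ext x
  simp only [Q, Set.mem_preimage, Set.mem_setOf_eq, refl_apply]
  refine forall_congr' fun i => ?_
  split_ifs <;> simp

theorem rho_map_refl (i1 : Fin d) : (rho d).map (refl i1) = rho d := by
  have h1 : MeasurePreserving (refl i1) (volume.restrict ((refl i1) ⁻¹' (Q d))) (volume.restrict (Q d)) :=
    (refl i1).measurePreserving.restrict_preimage measurableSet_Q
  rw [refl_preimage_Q] at h1
  simp only [rho, uniformProbOn]
  rw [Measure.map_smul, h1.map_eq]

end Crest.Agent.S0110Cube
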