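import Mathlib
import Crest.Prelude.Def_QuadraticTransport

set_option autoImplicit false
open MeasureTheory
open scoped ENNReal NNReal RealInnerProductSpace
open Crest.AnalysisR.OT

namespace Crest.Agent.S0110Pot

variable {E : Type*} [NormedAddCommGroup E] [InnerProductSpace ℝ E] [MeasurableSpace E] [BorelSpace E]
  [SecondCountableTopology E]

/-- Key identity: if `S` pushes `ρ` to the same measure as `T₀`, and `T₀` realises equality in the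
Fenchel-Young inequality `⟪x,z⟫ ≤ φ x + ψ z`, then
`∫ |x - S x|² = ∫ |x - T₀ x|² + ∫ 2 (φ x + ψ (S x) - ⟪x, S x⟫)`. -/
theorem cost_eq_add_gap
    (ρ : Measure E) [IsFiniteMeasure ρ] (T₀ : E → E) (hT₀ : Measurable T₀)
    (φ ψ : E → ℝ) (hφ : Measurable φ) (hψ : Measurable ψ) (Z₀ : Set E) (hZ₀ : MeasurableSet Z₀) (M : ℝ)
    (hxM : ∀ᵐ x ∂ρ, ‖x‖ ≤ M ∧ |φ x| ≤ M) (hzM : ∀ z ∈ Z₀, ‖z‖ ≤ M ∧ |ψ z| ≤ M)
    (hFY : ∀ᵐ x ∂ρ, ∀ z ∈ Z₀, ⟪x, z⟫ ≤ φ x + ψ z)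
    (hT₀Z : ∀ᵐ x ∂ρ, T₀ x ∈ Z₀) (hT₀eq : ∀ᵐ x ∂ρ, ⟪x, T₀ x⟫ = φ x + ψ (T₀ x))
    (S : E → E) (hS : Measurable S) (hSmap : ρ.map S = ρ.map T₀) :
    (∀ᵐ x ∂ρ, S x ∈ Z₀) ∧
    ∫⁻ x, ‖x - S x‖ₑ ^ 2 ∂ρ = ∫⁻ x, ‖x - T₀ x‖ₑ ^ 2 ∂ρ +
      ∫⁻ x, ENNReal.ofReal (2 * (φ x + ψ (S x) - ⟪x, S x⟫)) ∂ρ := by
  set N : ℝ := 2 * M + M ^ 2 with hN
  set β : E → ℝ := fun z => 2 * ψ z - ‖z‖ ^ 2 + N with hβ
  set a : E → ℝ := fun x => ‖x‖ ^ 2 - 2 * φ x + N with ha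
  have hβm : Measurable β := by
    have : Measurable fun z : E => ‖z‖ := measurable_norm
    exact ((hψ.const_mul 2).sub (this.pow_const 2)).add_const N
  have ham : Measurable a := by
    have : Measurable fun z : E => ‖z‖ := measurable_norm
    exact ((this.pow_const 2).sub (hφ.const_mul 2)).add_const N
  have hSZ : ∀ᵐ x ∂ρ, S x ∈ Z₀ := by
    have h1 : (ρ.map T₀) Z₀ᶜ = 0 := by
      rw [Measure.map_apply hT₀ hZ₀.compl]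
      exact hT₀Z
    rw [← hSmap, Measure.map_apply hS hZ₀.compl] at h1
    exact h1
  refine ⟨hSZ, ?_⟩
  have key : ∀ S' : E → E, Measurable S' → (∀ᵐ x ∂ρ, S' x ∈ Z₀) →
      ∫⁻ x, ‖x - S' x‖ₑ ^ 2 ∂ρ + ∫⁻ x, ENNReal.ofReal (β (S' x)) ∂ρ
        = ∫⁻ x, ENNReal.ofReal (a x) ∂ρ
          + ∫⁻ x, ENNReal.ofReal (2 * (φ x + ψ (S' x) - ⟪x, S' x⟫)) ∂ρ := by
    intro S' hS' hS'Z
    have hm1 : Measurable fun x => ENNReal.ofReal (β (S' x)) := (hβm.comp hS').ennreal_ofReal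
    rw [← lintegral_add_right _ hm1, ← lintegral_add_left ham.ennreal_ofReal]
    apply lintegral_congr_ae
    filter_upwards [hxM, hFY, hS'Z] with x hx hfy hz
    have hz' := hzM _ hz
    have h1 : ‖x - S' x‖ₑ ^ 2 = ENNReal.ofReal (‖x - S' x‖ ^ 2) := by
      rw [ENNReal.ofReal_pow (norm_nonneg _), ofReal_norm]
    have hβ0 : 0 ≤ β (S' x) := by
      have h2 := abs_le.mp hz'.2
      have h3 : ‖S' x‖ ^ 2 ≤ M ^ 2 := by
        have := norm_nonneg (S' x)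
        nlinarith [hz'.1]
      simp only [hβ, hN]; linarith [h2.1]
    have ha0 : 0 ≤ a x := by
      have h2 := abs_le.mp hx.2
      have : 0 ≤ ‖x‖ ^ 2 := by positivity
      have : 0 ≤ M ^ 2 := by positivity
      simp only [ha, hN]; linarith [h2.2]
    have hg0 : 0 ≤ 2 * (φ x + ψ (S' x) - ⟪x, S' x⟫) := by
      have := hfy _ hz; linarith
    rw [h1, ← ENNReal.ofReal_add (by positivity) hβ0, ← ENNReal.ofReal_add ha0 hg0]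
    congr 1
    rw [norm_sub_sq_real]
    simp only [hβ, ha]; ring
  have hB : ∫⁻ x, ENNReal.ofReal (β (S x)) ∂ρ = ∫⁻ x, ENNReal.ofReal (β (T₀ x)) ∂ρ := by
    rw [← lintegral_map (f := fun z => ENNReal.ofReal (β z)) hβm.ennreal_ofReal hS,
      ← lintegral_map (f := fun z => ENNReal.ofReal (β z)) hβm.ennreal_ofReal hT₀, hSmap]
  have hBfin : ∫⁻ x, ENNReal.ofReal (β (T₀ x)) ∂ρ ≠ ∞ := by
    have hle : ∫⁻ x, ENNReal.ofReal (β (T₀ x)) ∂ρ ≤ ∫⁻ _x, ENNReal.ofReal (2 * M + N) ∂ρ := by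
      apply lintegral_mono_ae
      filter_upwards [hT₀Z] with x hz
      have hz' := hzM _ hz
      apply ENNReal.ofReal_le_ofReal
      have h2 := abs_le.mp hz'.2
      have : 0 ≤ ‖T₀ x‖ ^ 2 := by positivity
      simp only [hβ]; linarith [h2.2]
    refine ne_top_of_le_ne_top ?_ hle
    rw [lintegral_const]
    exact ENNReal.mul_ne_top ENNReal.ofReal_ne_top (measure_ne_top _ _)
  have k1 := key S hS hSZ
  have k0 := key T₀ hT₀ hT₀Z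
  have hz0 : ∫⁻ x, ENNReal.ofReal (2 * (φ x + ψ (T₀ x) - ⟪x, T₀ x⟫)) ∂ρ = 0 := by
    rw [lintegral_eq_zero_iff']
    · filter_upwards [hT₀eq] with x hx
      simp [hx]
    · apply Measurable.aemeasurable
      apply Measurable.ennreal_ofReal
      apply Measurable.const_mul
      exact (hφ.add (hψ.comp hT₀)).sub (measurable_id.inner hT₀)
  rw [hz0, add_zero] at k0
  rw [hB, ← k0] at k1
  -- cancel
  have : ∫⁻ x, ‖x - S x‖ₑ ^ 2 ∂ρ + ∫⁻ x, ENNReal.ofReal (β (T₀ x)) ∂ρ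
      = (∫⁻ x, ‖x - T₀ x‖ₑ ^ 2 ∂ρ +
      ∫⁻ x, ENNReal.ofReal (2 * (φ x + ψ (S x) - ⟪x, S x⟫)) ∂ρ) + ∫⁻ x, ENNReal.ofReal (β (T₀ x)) ∂ρ := by
    rw [k1]; ring
  exact (ENNReal.add_left_inj hBfin).mp this

/-- A map realising Fenchel-Young equality is optimal, and every optimal map realises
Fenchel-Young equality almost everywhere. -/
theorem optimal_of_potential
    (ρ : Measure E) [IsFiniteMeasure ρ] (T₀ : E → E) (hT₀ : Measurable T₀)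
    (φ ψ : E → ℝ) (hφ : Measurable φ) (hψ : Measurable ψ) (Z₀ : Set E) (hZ₀ : MeasurableSet Z₀) (M : ℝ)
    (hxM : ∀ᵐ x ∂ρ, ‖x‖ ≤ M ∧ |φ x| ≤ M) (hzM : ∀ z ∈ Z₀, ‖z‖ ≤ M ∧ |ψ z| ≤ M)
    (hFY : ∀ᵐ x ∂ρ, ∀ z ∈ Z₀, ⟪x, z⟫ ≤ φ x + ψ z)
    (hT₀Z : ∀ᵐ x ∂ρ, T₀ x ∈ Z₀) (hT₀eq : ∀ᵐ x ∂ρ, ⟪x, T₀ x⟫ = φ x + ψ (T₀ x)) :
    IsOptimalMap ρ (ρ.map T₀) T₀ ∧
    ∀ T, IsOptimalMap ρ (ρ.map T₀) T → ∀ᵐ x ∂ρ, T x ∈ Z₀ ∧ ⟪x, T x⟫ = φ x + ψ (T x) := by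
  constructor
  · refine ⟨hT₀, rfl, fun S hS hSmap => ?_⟩
    rw [(cost_eq_add_gap ρ T₀ hT₀ φ ψ hφ hψ Z₀ hZ₀ M hxM hzM hFY hT₀Z hT₀eq S hS hSmap).2]
    exact le_self_add
  · rintro T ⟨hT, hTmap, hTopt⟩
    obtain ⟨hTZ, hcost⟩ := cost_eq_add_gap ρ T₀ hT₀ φ ψ hφ hψ Z₀ hZ₀ M hxM hzM hFY hT₀Z hT₀eq T hT hTmap
    have hle := hTopt T₀ hT₀ rfl
    have hfin : ∫⁻ x, ‖x - T₀ x‖ₑ ^ 2 ∂ρ ≠ ∞ := by
      have hle : ∫⁻ x, ‖x - T₀ x‖ₑ ^ 2 ∂ρ ≤ ∫⁻ _x, ENNReal.ofReal ((2 * M) ^ 2) ∂ρ := by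
        apply lintegral_mono_ae
        filter_upwards [hT₀Z, hxM] with x hz hx
        have hz' := hzM _ hz
        rw [← ofReal_norm, ← ENNReal.ofReal_pow (norm_nonneg _)]
        apply ENNReal.ofReal_le_ofReal
        have h1 : ‖x - T₀ x‖ ≤ 2 * M := by
          calc ‖x - T₀ x‖ ≤ ‖x‖ + ‖T₀ x‖ := norm_sub_le _ _
            _ ≤ 2 * M := by linarith [hx.1, hz'.1]
        exact pow_le_pow_left₀ (norm_nonneg _) h1 2
      refine ne_top_of_le_ne_top ?_ hle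
      rw [lintegral_const]
      exact ENNReal.mul_ne_top ENNReal.ofReal_ne_top (measure_ne_top _ _)
    have hzero : ∫⁻ x, ENNReal.ofReal (2 * (φ x + ψ (T x) - ⟪x, T x⟫)) ∂ρ = 0 := by
      rw [hcost] at hle
      by_contra hne
      have : ∫⁻ x, ‖x - T₀ x‖ₑ ^ 2 ∂ρ < ∫⁻ x, ‖x - T₀ x‖ₑ ^ 2 ∂ρ +
          ∫⁻ x, ENNReal.ofReal (2 * (φ x + ψ (T x) - ⟪x, T x⟫)) ∂ρ :=
        ENNReal.lt_add_right hfin hne
      exact absurd hle (not_le.mpr this)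
    rw [lintegral_eq_zero_iff'] at hzero
    · filter_upwards [hzero, hTZ, hFY] with x hx hz hfy
      refine ⟨hz, ?_⟩
      have h1 : φ x + ψ (T x) ≤ ⟪x, T x⟫ := by
        simpa using hx
      have h2 := hfy _ hz
      linarith
    · apply Measurable.aemeasurable
      apply Measurable.ennreal_ofReal
      apply Measurable.const_mul
      exact (hφ.add (hψ.comp hT)).sub (measurable_id.inner hT)

end Crest.Agent.S0110Pot
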