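import Mathlib
import Crest.Prelude.Def_QuadraticTransport
import Crest.Agent.S0110_Pot
import Crest.Agent.S0110_Cube

set_option autoImplicit false
open MeasureTheory
open scoped ENNReal NNReal RealInnerProductSpace
open Crest.AnalysisR.OT
open Crest.Agent.S0110Cube

namespace Crest.Agent.S0110Ex

/-- choice of the small parameter -/
theorem exists_w (α : ℝ) (hα : 1 / 3 < α) (C : ℝ) (hC : 0 ≤ C) :
    ∃ w : ℝ, 0 < w ∧ w ≤ 1 / 8 ∧ C * (8 * w ^ 3) ^ α < w / 16 := by
  set β : ℝ := 3 * α - 1 with hβ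
  have hβ0 : 0 < β := by simp only [hβ]; linarith
  have h8 : (0:ℝ) < 8 ^ α := Real.rpow_pos_of_pos (by norm_num) _
  set K : ℝ := 16 * C * 8 ^ α + 1 with hK
  have hK0 : 0 < K := by positivity
  set w : ℝ := min (1 / 8) ((K⁻¹) ^ (1 / β)) with hw
  have hw0 : 0 < w := lt_min (by norm_num) (Real.rpow_pos_of_pos (by positivity) _)
  refine ⟨w, hw0, min_le_left _ _, ?_⟩
  have hwβ : w ^ β ≤ K⁻¹ := by
    calc w ^ β ≤ ((K⁻¹) ^ (1 / β)) ^ β :=
          Real.rpow_le_rpow hw0.le (min_le_right _ _) hβ0.le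
      _ = K⁻¹ := by
          rw [← Real.rpow_mul (by positivity), one_div, inv_mul_cancel₀ hβ0.ne', Real.rpow_one]
  have h1 : (8 * w ^ 3) ^ α = 8 ^ α * (w ^ β * w) := by
    rw [Real.mul_rpow (by norm_num) (by positivity)]
    congr 1
    rw [← Real.rpow_natCast, ← Real.rpow_mul hw0.le]
    have : ((3:ℕ):ℝ) * α = β + 1 := by simp only [hβ]; push_cast; ring
    rw [this, Real.rpow_add hw0, Real.rpow_one]
  rw [h1]
  have h2 : 16 * C * 8 ^ α * w ^ β < 1 := by
    calc 16 * C * 8 ^ α * w ^ β ≤ 16 * C * 8 ^ α * K⁻¹ := by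
          apply mul_le_mul_of_nonneg_left hwβ (by positivity)
      _ = (K - 1) * K⁻¹ := by simp only [hK]; ring
      _ = 1 - K⁻¹ := by field_simp
      _ < 1 := by
          have : 0 < K⁻¹ := by positivity
          linarith
  nlinarith [h2, hw0]

/-- pushforward under a finitely valued map is a finite sum of Dirac masses -/
theorem map_eq_sum_dirac {X Z ι : Type*} [MeasurableSpace X] [MeasurableSpace Z]
    [MeasurableSingletonClass Z] [Fintype ι] (ρ : Measure X) (T : X → Z) (hT : Measurable T)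
    (y : ι → Z) (hy : Function.Injective y) (hTy : ∀ x, ∃ i, T x = y i) :
    ρ.map T = ∑ i, ρ (T ⁻¹' {y i}) • Measure.dirac (y i) := by
  classical
  ext s hs
  rw [Measure.map_apply hT hs, Measure.finsetSum_apply]
  simp only [Measure.smul_apply, Measure.dirac_apply' _ hs, smul_eq_mul]
  have h1 : T ⁻¹' s = ⋃ i ∈ Finset.univ.filter (fun i => y i ∈ s), T ⁻¹' {y i} := by
    ext x
    simp only [Set.mem_preimage, Finset.mem_filter, Finset.mem_univ, true_and, Set.mem_iUnion,
      Set.mem_singleton_iff, exists_prop]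
    constructor
    · intro hx
      obtain ⟨i, hi⟩ := hTy x
      exact ⟨i, hi ▸ hx, hi⟩
    · rintro ⟨i, hi, hxi⟩
      rw [hxi]; exact hi
  rw [h1, measure_biUnion_finset]
  · rw [Finset.sum_filter]
    apply Finset.sum_congr rfl
    intro i _
    by_cases hi : y i ∈ s <;> simp [hi]
  · intro i _ j _ hij
    apply Set.disjoint_left.mpr
    intro x hxi hxj
    simp only [Set.mem_preimage, Set.mem_singleton_iff] at hxi hxj
    exact hij (hy (hxi.symm.trans hxj))
  · intro i _
    exact hT (measurableSet_singleton _)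


section Example

variable {d : ℕ} (i0 i1 : Fin d)

/-- basis vector -/
noncomputable def e (i : Fin d) : EuclideanSpace ℝ (Fin d) := EuclideanSpace.single i (1:ℝ)

theorem e_apply (i j : Fin d) : e i j = if j = i then 1 else 0 := by
  simp [e]

theorem inner_e (x : EuclideanSpace ℝ (Fin d)) (i : Fin d) : ⟪x, e i⟫ = x i := by
  simp [e, EuclideanSpace.inner_single_right]

theorem norm_e (i : Fin d) : ‖e i‖ = 1 := by
  simp [e]

/-- the Laguerre map -/
noncomputable def T (s w : ℝ) (x : EuclideanSpace ℝ (Fin d)) : EuclideanSpace ℝ (Fin d) :=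
  if |x i0| ≤ w * (1 + s * x i1) then (s * w) • e i1 else if 0 < x i0 then e i0 else - e i0

/-- the potential -/
noncomputable def phi (s w : ℝ) (x : EuclideanSpace ℝ (Fin d)) : ℝ := max (|x i0| - w) (s * w * x i1)

open Classical in
/-- the dual potential -/
noncomputable def psi (s w : ℝ) (z : EuclideanSpace ℝ (Fin d)) : ℝ := if z = (s * w) • e i1 then 0 else w

/-- the sites -/
def Z0 (s w : ℝ) : Set (EuclideanSpace ℝ (Fin d)) := {- e i0, (s * w) • e i1, e i0}

theorem measurable_coord (i : Fin d) : Measurable fun x : EuclideanSpace ℝ (Fin d) => x i := by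
  fun_prop

theorem measurable_T (s w : ℝ) : Measurable (T i0 i1 s w) := by
  unfold T
  apply Measurable.ite
  · apply measurableSet_le
    · exact (measurable_coord i0).abs
    · exact (((measurable_coord i1).const_mul s).const_add 1).const_mul w
  · exact measurable_const
  · apply Measurable.ite
    · exact measurableSet_lt measurable_const (measurable_coord i0)
    · exact measurable_const
    · exact measurable_const

theorem measurable_phi (s w : ℝ) : Measurable (phi i0 i1 s w) := by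
  unfold phi
  exact ((measurable_coord i0).abs.sub_const w).max ((measurable_coord i1).const_mul (s * w))

theorem measurable_psi (s w : ℝ) : Measurable (psi i1 s w) := by
  unfold psi
  apply Measurable.ite
  · exact measurableSet_singleton _
  · exact measurable_const
  · exact measurable_const

theorem measurableSet_Z0 (s w : ℝ) : MeasurableSet (Z0 i0 i1 s w) := by
  unfold Z0
  exact (Set.toFinite _).measurableSet

variable {i0 i1}

theorem e_ne (hne : i0 ≠ i1) (c : ℝ) : e i0 ≠ c • e i1 := by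
  intro h
  have := congrArg (fun v : EuclideanSpace ℝ (Fin d) => v i0) h
  simp [e_apply, hne] at this

theorem neg_e_ne (hne : i0 ≠ i1) (c : ℝ) : - e i0 ≠ c • e i1 := by
  intro h
  have := congrArg (fun v : EuclideanSpace ℝ (Fin d) => v i0) h
  simp [e_apply, hne] at this

theorem psi_e (hne : i0 ≠ i1) (s w : ℝ) : psi i1 s w (e i0) = w := by
  simp [psi, e_ne hne]

theorem psi_neg_e (hne : i0 ≠ i1) (s w : ℝ) : psi i1 s w (- e i0) = w := by
  simp [psi, neg_e_ne hne]

theorem psi_mid (s w : ℝ) : psi i1 s w ((s * w) • e i1) = 0 := by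
  simp [psi]

theorem FY (hne : i0 ≠ i1) (s w : ℝ) (x z : EuclideanSpace ℝ (Fin d)) (hz : z ∈ Z0 i0 i1 s w) :
    ⟪x, z⟫ ≤ phi i0 i1 s w x + psi i1 s w z := by
  simp only [Z0, Set.mem_insert_iff, Set.mem_singleton_iff] at hz
  rcases hz with rfl | rfl | rfl
  · rw [psi_neg_e hne, inner_neg_right, inner_e]
    have h1 : |x i0| - w ≤ phi i0 i1 s w x := le_max_left _ _
    have h2 := neg_abs_le (x i0)
    linarith
  · rw [psi_mid, inner_smul_right, inner_e]
    have h1 : s * w * x i1 ≤ phi i0 i1 s w x := le_max_right _ _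
    linarith
  · rw [psi_e hne, inner_e]
    have h1 : |x i0| - w ≤ phi i0 i1 s w x := le_max_left _ _
    have h2 := le_abs_self (x i0)
    linarith

theorem T_mem (s w : ℝ) (x : EuclideanSpace ℝ (Fin d)) : T i0 i1 s w x ∈ Z0 i0 i1 s w := by
  unfold T Z0
  split_ifs <;> simp

theorem T_eq (hne : i0 ≠ i1) (s w : ℝ) (x : EuclideanSpace ℝ (Fin d)) :
    ⟪x, T i0 i1 s w x⟫ = phi i0 i1 s w x + psi i1 s w (T i0 i1 s w x) := by
  unfold T
  split_ifs with h1 h2
  · rw [psi_mid, inner_smul_right, inner_e, phi, max_eq_right (by linarith)]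
    ring
  · rw [psi_e hne, inner_e, phi, max_eq_left (by linarith), abs_of_pos h2]
    ring
  · rw [psi_neg_e hne, inner_neg_right, inner_e, phi, max_eq_left (by linarith),
      abs_of_nonpos (not_lt.mp h2)]
    ring

theorem norm_le_of_mem_Q {x : EuclideanSpace ℝ (Fin d)} (hx : x ∈ Q d) : ‖x‖ ≤ (d:ℝ) + 2 := by
  rw [EuclideanSpace.norm_eq, Real.sqrt_le_iff]
  refine ⟨by positivity, ?_⟩
  have h1 : ∑ i, ‖x i‖ ^ 2 ≤ ∑ _i : Fin d, (1:ℝ) := by
    apply Finset.sum_le_sum
    intro i _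
    have := hx i
    rw [Real.norm_eq_abs]
    have h0 := abs_nonneg (x i)
    nlinarith
  simp only [Finset.sum_const, Finset.card_univ, Fintype.card_fin, nsmul_eq_mul, mul_one] at h1
  have : (0:ℝ) ≤ d := by positivity
  nlinarith

theorem abs_phi_le {s w : ℝ} (hs : |s| ≤ 1) (hw0 : 0 ≤ w) (hw1 : w ≤ 1)
    {x : EuclideanSpace ℝ (Fin d)} (hx : x ∈ Q d) : |phi i0 i1 s w x| ≤ (d:ℝ) + 2 := by
  have hd : (0:ℝ) ≤ d := by positivity
  have h0 := hx i0
  have h1 := hx i1
  have h00 := abs_nonneg (x i0)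
  have h2 : |s * w * x i1| ≤ 1 := by
    rw [abs_mul, abs_mul, abs_of_nonneg hw0]
    have : |s| * w ≤ 1 := by nlinarith [abs_nonneg s]
    have h3 : 0 ≤ |s| * w := by positivity
    nlinarith [abs_nonneg (x i1)]
  have h3 := abs_le.mp h2
  rw [abs_le, phi]
  constructor
  · exact le_trans (by linarith) (le_max_left _ _)
  · exact max_le (by linarith) (by linarith)

theorem Z0_bound (hne : i0 ≠ i1) {s w : ℝ} (hs : |s| ≤ 1) (hw0 : 0 ≤ w) (hw1 : w ≤ 1)
    (z : EuclideanSpace ℝ (Fin d)) (hz : z ∈ Z0 i0 i1 s w) :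
    ‖z‖ ≤ (d:ℝ) + 2 ∧ |psi i1 s w z| ≤ (d:ℝ) + 2 := by
  have hd : (0:ℝ) ≤ d := by positivity
  simp only [Z0, Set.mem_insert_iff, Set.mem_singleton_iff] at hz
  rcases hz with rfl | rfl | rfl
  · rw [psi_neg_e hne, norm_neg, norm_e, abs_of_nonneg hw0]
    constructor <;> linarith
  · rw [psi_mid, norm_smul, norm_e, Real.norm_eq_abs, abs_mul, abs_of_nonneg hw0, abs_zero]
    have : |s| * w ≤ 1 := by nlinarith [abs_nonneg s]
    constructor <;> linarith
  · rw [psi_e hne, norm_e, abs_of_nonneg hw0]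
    constructor <;> linarith

theorem Z0_subset_Q {s w : ℝ} (hs : |s| ≤ 1) (hw0 : 0 ≤ w) (hw1 : w ≤ 1) :
    Z0 i0 i1 s w ⊆ Q d := by
  intro z hz i
  simp only [Z0, Set.mem_insert_iff, Set.mem_singleton_iff] at hz
  rcases hz with rfl | rfl | rfl
  · simp only [PiLp.neg_apply, e_apply, abs_neg]
    split_ifs <;> simp
  · simp only [PiLp.smul_apply, e_apply, smul_eq_mul]
    have : |s| * w ≤ 1 := by nlinarith [abs_nonneg s]
    split_ifs
    · rw [mul_one, abs_mul, abs_of_nonneg hw0]; exact this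
    · simp
  · simp only [e_apply]
    split_ifs <;> simp

/-- optimality and a.e. uniqueness for the example -/
theorem example_optimal (hne : i0 ≠ i1) {s w : ℝ} (hs : |s| ≤ 1) (hw0 : 0 ≤ w) (hw1 : w ≤ 1) :
    IsOptimalMap (rho d) ((rho d).map (T i0 i1 s w)) (T i0 i1 s w) ∧
    ∀ T', IsOptimalMap (rho d) ((rho d).map (T i0 i1 s w)) T' →
      ∀ᵐ x ∂(rho d), T' x ∈ Z0 i0 i1 s w ∧ ⟪x, T' x⟫ = phi i0 i1 s w x + psi i1 s w (T' x) := by
  apply S0110Pot.optimal_of_potential (rho d) (T i0 i1 s w) (measurable_T i0 i1 s w)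
    (phi i0 i1 s w) (psi i1 s w) (measurable_phi i0 i1 s w) (measurable_psi i1 s w)
    (Z0 i0 i1 s w) (measurableSet_Z0 i0 i1 s w) ((d:ℝ) + 2)
  · filter_upwards [ae_mem_Q] with x hx
    exact ⟨norm_le_of_mem_Q hx, abs_phi_le hs hw0 hw1 hx⟩
  · exact Z0_bound hne hs hw0 hw1
  · exact Filter.Eventually.of_forall fun x z hz => FY hne s w x z hz
  · exact Filter.Eventually.of_forall fun x => T_mem s w x
  · exact Filter.Eventually.of_forall fun x => T_eq hne s w x

theorem refl_e (hne : i0 ≠ i1) : refl i1 (e i0) = e i0 := by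
  ext j
  simp only [refl_apply, e_apply]
  split_ifs with h1 h2
  · exact absurd (h2.symm.trans h1) hne
  · simp
  · rfl
  · rfl

theorem refl_e_self (c : ℝ) : refl i1 (c • e i1) = (-c) • e i1 := by
  ext j
  simp only [refl_apply, PiLp.smul_apply, e_apply, smul_eq_mul]
  split_ifs <;> simp

theorem T_neg (hne : i0 ≠ i1) (w : ℝ) (x : EuclideanSpace ℝ (Fin d)) :
    T i0 i1 (-1) w x = refl i1 (T i0 i1 1 w (refl i1 x)) := by
  unfold T
  have h0 : refl i1 x i0 = x i0 := by simp [refl_apply, hne]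
  have h1 : refl i1 x i1 = - x i1 := by simp [refl_apply]
  rw [h0, h1]
  have hc : (|x i0| ≤ w * (1 + -1 * x i1)) ↔ (|x i0| ≤ w * (1 + 1 * - x i1)) := by
    constructor <;> intro h <;> linarith
  by_cases h : |x i0| ≤ w * (1 + -1 * x i1)
  · rw [if_pos h, if_pos (hc.mp h), refl_e_self]
    congr 1; ring
  · rw [if_neg h, if_neg (fun h' => h (hc.mpr h'))]
    split_ifs
    · rw [refl_e hne]
    · rw [map_neg, refl_e hne]

theorem map_T_neg (hne : i0 ≠ i1) (w : ℝ) :
    (rho d).map (T i0 i1 (-1) w) = ((rho d).map (T i0 i1 1 w)).map (refl i1) := by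
  have h1 : T i0 i1 (-1) w = (refl i1) ∘ (T i0 i1 1 w) ∘ (refl i1) := by
    funext x; exact T_neg hne w x
  have hR : Measurable (refl i1 : EuclideanSpace ℝ (Fin d) → EuclideanSpace ℝ (Fin d)) :=
    (refl i1).continuous.measurable
  rw [h1, ← Measure.map_map hR ((measurable_T i0 i1 1 w).comp hR),
    ← Measure.map_map (measurable_T i0 i1 1 w) hR, rho_map_refl]

/-- the three sites as a family -/
noncomputable def sites (i0 i1 : Fin d) (s w : ℝ) : Fin 3 → EuclideanSpace ℝ (Fin d) :=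
  ![- e i0, (s * w) • e i1, e i0]

theorem neg_e_ne_e (i : Fin d) : - e i ≠ e i := by
  intro h
  have := congrArg (fun v : EuclideanSpace ℝ (Fin d) => v i) h
  simp [e_apply] at this
  linarith

theorem sites_injective (hne : i0 ≠ i1) (s w : ℝ) : Function.Injective (sites i0 i1 s w) := by
  intro a b hab
  have h1 := neg_e_ne hne (s * w)
  have h2 := e_ne hne (s * w)
  have h3 := neg_e_ne_e i0
  fin_cases a <;> fin_cases b <;> simp [sites] at hab ⊢
  · exact h1 hab
  · exact h3 hab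
  · exact h1 hab.symm
  · exact h2 hab.symm
  · exact h3 hab.symm
  · exact h2 hab

theorem T_mem_sites (s w : ℝ) (x : EuclideanSpace ℝ (Fin d)) : ∃ i, T i0 i1 s w x = sites i0 i1 s w i := by
  unfold T
  split_ifs
  · exact ⟨1, rfl⟩
  · exact ⟨2, rfl⟩
  · exact ⟨0, rfl⟩

theorem abs_mul_le_one {s t : ℝ} (hs : |s| ≤ 1) (ht : |t| ≤ 1) : |s * t| ≤ 1 := by
  rw [abs_mul]; nlinarith [abs_nonneg s, abs_nonneg t]

theorem mass_pos (hne : i0 ≠ i1) {s w : ℝ} (hs : |s| ≤ 1) (hw0 : 0 < w) (hw1 : w ≤ 1 / 8) (i : Fin 3) :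
    0 < rho d (T i0 i1 s w ⁻¹' {sites i0 i1 s w i}) := by
  fin_cases i
  · -- left
    have hsub : box2 i0 i1 (-1) (-(1/2)) (-1) 1 ⊆ T i0 i1 s w ⁻¹' {sites i0 i1 s w 0} := by
      rintro x ⟨hQ, h1, h2, h3, h4⟩
      have h5 := abs_le.mp (abs_mul_le_one hs (hQ i1))
      have h6 : ¬ |x i0| ≤ w * (1 + s * x i1) := by
        rw [abs_of_nonpos (by linarith)]
        intro h; nlinarith
      simp only [Set.mem_preimage, Set.mem_singleton_iff, T, if_neg h6,
        if_neg (show ¬ 0 < x i0 by linarith)]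
      rfl
    refine lt_of_lt_of_le ?_ (measure_mono hsub)
    rw [rho_box2 i0 i1 hne _ _ _ _ (by norm_num) (by norm_num) (by norm_num) (by norm_num)
      (by norm_num) (by norm_num)]
    rw [ENNReal.ofReal_pos]; norm_num
  · -- middle
    have hsub : box2 i0 i1 (-(w/2)) (w/2) (-(1/2)) (1/2) ⊆ T i0 i1 s w ⁻¹' {sites i0 i1 s w 1} := by
      rintro x ⟨hQ, h1, h2, h3, h4⟩
      have h5 : |s * x i1| ≤ 1 / 2 := by
        rw [abs_mul]
        have : |x i1| ≤ 1 / 2 := abs_le.mpr ⟨h3, h4⟩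
        nlinarith [abs_nonneg s, abs_nonneg (x i1)]
      have h5' := abs_le.mp h5
      have h6 : |x i0| ≤ w * (1 + s * x i1) := by
        have : |x i0| ≤ w / 2 := abs_le.mpr ⟨h1, h2⟩
        nlinarith
      simp only [Set.mem_preimage, Set.mem_singleton_iff, T, if_pos h6]
      rfl
    refine lt_of_lt_of_le ?_ (measure_mono hsub)
    rw [rho_box2 i0 i1 hne _ _ _ _ (by linarith) (by linarith) (by linarith) (by norm_num)
      (by norm_num) (by norm_num)]
    rw [ENNReal.ofReal_pos]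
    have : (w / 2 - -(w / 2)) / 2 * ((1 / 2 - -(1 / 2)) / 2) = w / 4 := by ring
    rw [this]; linarith
  · -- right
    have hsub : box2 i0 i1 (1/2) 1 (-1) 1 ⊆ T i0 i1 s w ⁻¹' {sites i0 i1 s w 2} := by
      rintro x ⟨hQ, h1, h2, h3, h4⟩
      have h5 := abs_le.mp (abs_mul_le_one hs (hQ i1))
      have h6 : ¬ |x i0| ≤ w * (1 + s * x i1) := by
        rw [abs_of_nonneg (by linarith)]
        intro h; nlinarith
      simp only [Set.mem_preimage, Set.mem_singleton_iff, T, if_neg h6,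
        if_pos (show 0 < x i0 by linarith)]
      rfl
    refine lt_of_lt_of_le ?_ (measure_mono hsub)
    rw [rho_box2 i0 i1 hne _ _ _ _ (by norm_num) (by norm_num) (by norm_num) (by norm_num)
      (by norm_num) (by norm_num)]
    rw [ENNReal.ofReal_pos]; norm_num

theorem threeAtomic (hne : i0 ≠ i1) {s w : ℝ} (hs : |s| ≤ 1) (hw0 : 0 < w) (hw1 : w ≤ 1 / 8) :
    IsThreeAtomic ((rho d).map (T i0 i1 s w)) := by
  refine ⟨sites i0 i1 s w, sites_injective hne s w,
    fun i => (rho d (T i0 i1 s w ⁻¹' {sites i0 i1 s w i})).toReal, fun i => ?_, ?_⟩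
  · exact ENNReal.toReal_pos (mass_pos hne hs hw0 hw1 i).ne' (measure_ne_top _ _)
  · rw [map_eq_sum_dirac (rho d) (T i0 i1 s w) (measurable_T i0 i1 s w) (sites i0 i1 s w)
      (sites_injective hne s w) (T_mem_sites s w)]
    apply Finset.sum_congr rfl
    intro i _
    rw [ENNReal.ofReal_toReal (measure_ne_top _ _)]

theorem probOn {s w : ℝ} (hs : |s| ≤ 1) (hw0 : 0 ≤ w) (hw1 : w ≤ 1) :
    IsProbabilityOn (Q d) ((rho d).map (T i0 i1 s w)) := by
  refine ⟨Measure.isProbabilityMeasure_map (measurable_T i0 i1 s w).aemeasurable, ?_⟩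
  rw [Measure.map_apply (measurable_T i0 i1 s w) measurableSet_Q.compl]
  have : T i0 i1 s w ⁻¹' (Q d)ᶜ = ∅ := by
    ext x
    simp only [Set.mem_preimage, Set.mem_compl_iff, Set.mem_empty_iff_false, iff_false, not_not]
    exact Z0_subset_Q hs hw0 hw1 (T_mem s w x)
  rw [this, measure_empty]

theorem measurable_refl (i1 : Fin d) :
    Measurable (refl i1 : EuclideanSpace ℝ (Fin d) → EuclideanSpace ℝ (Fin d)) :=
  (refl i1).continuous.measurable

/-- the coupling -/
noncomputable def coupling (i0 i1 : Fin d) (w : ℝ) :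
    Measure (EuclideanSpace ℝ (Fin d) × EuclideanSpace ℝ (Fin d)) :=
  ((rho d).map (T i0 i1 1 w)).map (fun z => (z, refl i1 z))

theorem coupling_isPairCoupling (hne : i0 ≠ i1) (w : ℝ) :
    IsPairCoupling ((rho d).map (T i0 i1 1 w)) ((rho d).map (T i0 i1 (-1) w)) (coupling i0 i1 w) := by
  have hp : Measurable (fun z : EuclideanSpace ℝ (Fin d) => (z, refl i1 z)) :=
    measurable_id.prodMk (measurable_refl i1)
  constructor
  · rw [coupling, Measure.map_map measurable_fst hp]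
    exact Measure.map_id
  · rw [coupling, Measure.map_map measurable_snd hp, map_T_neg hne]
    rfl

theorem quadCost_le (hne : i0 ≠ i1) {w : ℝ} (hw0 : 0 < w) (hw1 : w ≤ 1 / 8) :
    quadCost (coupling i0 i1 w) ≤ ENNReal.ofReal (8 * w ^ 3) := by
  have hp : Measurable (fun z : EuclideanSpace ℝ (Fin d) => (z, refl i1 z)) :=
    measurable_id.prodMk (measurable_refl i1)
  have hc : Measurable (fun p : EuclideanSpace ℝ (Fin d) × EuclideanSpace ℝ (Fin d) =>
      ‖p.1 - p.2‖ₑ ^ 2) := (measurable_fst.sub measurable_snd).enorm.pow_const 2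
  unfold quadCost coupling
  have hc2 : Measurable (fun a : EuclideanSpace ℝ (Fin d) =>
      ‖(a, refl i1 a).1 - (a, refl i1 a).2‖ₑ ^ 2) := hc.comp hp
  rw [lintegral_map hc hp, lintegral_map hc2 (measurable_T i0 i1 1 w)]
  have hbm : MeasurableSet (box2 i0 i1 (-(2 * w)) (2 * w) (-1) 1) :=
    measurableSet_box2 i0 i1 hne _ _ _ _ (by linarith) (by linarith) (by norm_num) (by norm_num)
  calc ∫⁻ x, ‖T i0 i1 1 w x - refl i1 (T i0 i1 1 w x)‖ₑ ^ 2 ∂(rho d)
      ≤ ∫⁻ x, (box2 i0 i1 (-(2 * w)) (2 * w) (-1) 1).indicator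
          (fun _ => ENNReal.ofReal (4 * w ^ 2)) x ∂(rho d) := by
        apply lintegral_mono_ae
        filter_upwards [ae_mem_Q] with x hx
        by_cases h : |x i0| ≤ w * (1 + 1 * x i1)
        · have h1 := abs_le.mp (hx i1)
          have h2 : |x i0| ≤ 2 * w := by nlinarith
          have h3 := abs_le.mp h2
          have hmem : x ∈ box2 i0 i1 (-(2 * w)) (2 * w) (-1) 1 := ⟨hx, h3.1, h3.2, h1.1, h1.2⟩
          rw [Set.indicator_of_mem hmem]
          simp only [T, if_pos h, refl_e_self]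
          rw [← sub_smul, ← ofReal_norm, ← ENNReal.ofReal_pow (norm_nonneg _), norm_smul, norm_e]
          apply ENNReal.ofReal_le_ofReal
          rw [Real.norm_eq_abs, mul_one, sq_abs]
          apply le_of_eq; ring
        · have : T i0 i1 1 w x - refl i1 (T i0 i1 1 w x) = 0 := by
            simp only [T, if_neg h]
            split_ifs
            · rw [refl_e hne, sub_self]
            · rw [map_neg, refl_e hne, sub_self]
          rw [this]
          simp
    _ = ENNReal.ofReal (4 * w ^ 2) * rho d (box2 i0 i1 (-(2 * w)) (2 * w) (-1) 1) :=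
        lintegral_indicator_const hbm _
    _ = ENNReal.ofReal (8 * w ^ 3) := by
        rw [rho_box2 i0 i1 hne _ _ _ _ (by linarith) (by linarith) (by linarith) (by norm_num)
          (by norm_num) (by norm_num), ← ENNReal.ofReal_mul (by positivity)]
        congr 1; ring

theorem site_mu (hne : i0 ≠ i1) {w : ℝ} (hw0 : 0 < w) {x z : EuclideanSpace ℝ (Fin d)}
    (hx : x ∈ box2 i0 i1 (3 * w / 4) (5 * w / 4) (1 / 2) 1) (hz : z ∈ Z0 i0 i1 1 w)
    (h : ⟪x, z⟫ = phi i0 i1 1 w x + psi i1 1 w z) : z = (1 * w) • e i1 := by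
  obtain ⟨hQ, h1, h2, h3, h4⟩ := hx
  have hp1 : |x i0| - w ≤ phi i0 i1 1 w x := le_max_left _ _
  have hp2 : 1 * w * x i1 ≤ phi i0 i1 1 w x := le_max_right _ _
  have ha := le_abs_self (x i0)
  simp only [Z0, Set.mem_insert_iff, Set.mem_singleton_iff] at hz
  rcases hz with rfl | rfl | rfl
  · rw [psi_neg_e hne, inner_neg_right, inner_e] at h
    exfalso; linarith
  · rfl
  · rw [psi_e hne, inner_e] at h
    exfalso; nlinarith

theorem site_nu (hne : i0 ≠ i1) {w : ℝ} (hw0 : 0 < w) {x z : EuclideanSpace ℝ (Fin d)}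
    (hx : x ∈ box2 i0 i1 (3 * w / 4) (5 * w / 4) (1 / 2) 1) (hz : z ∈ Z0 i0 i1 (-1) w)
    (h : ⟪x, z⟫ = phi i0 i1 (-1) w x + psi i1 (-1) w z) : z = e i0 := by
  obtain ⟨hQ, h1, h2, h3, h4⟩ := hx
  have hp1 : |x i0| - w ≤ phi i0 i1 (-1) w x := le_max_left _ _
  have ha := le_abs_self (x i0)
  simp only [Z0, Set.mem_insert_iff, Set.mem_singleton_iff] at hz
  rcases hz with rfl | rfl | rfl
  · rw [psi_neg_e hne, inner_neg_right, inner_e] at h
    exfalso; linarith
  · rw [psi_mid, inner_smul_right, inner_e] at h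
    exfalso; nlinarith
  · rfl

theorem lower_bound (hne : i0 ≠ i1) {w : ℝ} (hw0 : 0 < w) (hw1 : w ≤ 1 / 8)
    (Tμ Tν : EuclideanSpace ℝ (Fin d) → EuclideanSpace ℝ (Fin d))
    (hμ : ∀ᵐ x ∂(rho d), Tμ x ∈ Z0 i0 i1 1 w ∧ ⟪x, Tμ x⟫ = phi i0 i1 1 w x + psi i1 1 w (Tμ x))
    (hν : ∀ᵐ x ∂(rho d), Tν x ∈ Z0 i0 i1 (-1) w ∧
      ⟪x, Tν x⟫ = phi i0 i1 (-1) w x + psi i1 (-1) w (Tν x)) :
    ENNReal.ofReal (w / 16) ≤ ∫⁻ x, ‖Tμ x - Tν x‖ₑ ^ 2 ∂(rho d) := by
  have hbm : MeasurableSet (box2 i0 i1 (3 * w / 4) (5 * w / 4) (1 / 2) 1) :=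
    measurableSet_box2 i0 i1 hne _ _ _ _ (by linarith) (by linarith) (by norm_num) (by norm_num)
  calc ENNReal.ofReal (w / 16) = 1 * rho d (box2 i0 i1 (3 * w / 4) (5 * w / 4) (1 / 2) 1) := by
        rw [rho_box2 i0 i1 hne _ _ _ _ (by linarith) (by linarith) (by linarith) (by norm_num)
          (by norm_num) (by norm_num), one_mul]
        congr 1; ring
    _ = ∫⁻ x, (box2 i0 i1 (3 * w / 4) (5 * w / 4) (1 / 2) 1).indicator (fun _ => (1:ℝ≥0∞)) x ∂(rho d) :=
        (lintegral_indicator_const hbm _).symm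
    _ ≤ ∫⁻ x, ‖Tμ x - Tν x‖ₑ ^ 2 ∂(rho d) := by
        apply lintegral_mono_ae
        filter_upwards [hμ, hν] with x h1 h2
        by_cases hx : x ∈ box2 i0 i1 (3 * w / 4) (5 * w / 4) (1 / 2) 1
        · rw [Set.indicator_of_mem hx, site_mu hne hw0 hx h1.1 h1.2, site_nu hne hw0 hx h2.1 h2.2]
          have h3 : (1:ℝ) ≤ ‖(1 * w) • e i1 - e i0‖ := by
            have := PiLp.norm_apply_le ((1 * w) • e i1 - e i0) i0
            simpa [e_apply, hne] using this
          rw [← ofReal_norm]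
          apply one_le_pow₀
          rw [← ENNReal.ofReal_one]
          exact ENNReal.ofReal_le_ofReal h3
        · rw [Set.indicator_of_notMem hx]
          exact zero_le

end Example

end Crest.Agent.S0110Ex
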