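import Crest.Statements.S0110
import Crest.Agent.S0110_Ex

set_option autoImplicit false
open MeasureTheory
open scoped ENNReal NNReal
open Crest.AnalysisR.OT
open Crest Crest.AnalysisR Crest.AnalysisR.OT

namespace Crest.Agent.S0110

/-- The exponent one third is optimal, even on the cube with three-atom targets: for d ≥ 2, ρ the uniform probability measure on the cube of points of ℝᵈ with all coordinates in [-1, 1], every α > 1/3 and every C ≥ 0, there are three-atomic probability measures μ, ν on that cube, each admitting a quadratic optimal transport map from ρ, such that for all such optimal maps Tμ, Tν some coupling π of μ, ν has C · (∫ ‖y - z‖² dπ)^α < ∫ ‖Tμ - Tν‖² dρ. Hence ‖Tμ - Tν‖_{L²(ρ)} > √C · W₂(μ, ν)^α. -/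
theorem result
    (d : ℕ) (hd : 2 ≤ d) (α : ℝ) (hα : 1 / 3 < α) (C : ℝ≥0) :
    ∃ μ ν : Measure (EuclideanSpace ℝ (Fin d)),
      IsProbabilityOn {x : EuclideanSpace ℝ (Fin d) | ∀ i, |x i| ≤ 1} μ ∧
      IsProbabilityOn {x : EuclideanSpace ℝ (Fin d) | ∀ i, |x i| ≤ 1} ν ∧
      IsThreeAtomic μ ∧ IsThreeAtomic ν ∧
      (∃ T, IsOptimalMap (uniformProbOn {x : EuclideanSpace ℝ (Fin d) | ∀ i, |x i| ≤ 1}) μ T) ∧
      (∃ T, IsOptimalMap (uniformProbOn {x : EuclideanSpace ℝ (Fin d) | ∀ i, |x i| ≤ 1}) ν T) ∧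
      ∀ Tμ Tν : EuclideanSpace ℝ (Fin d) → EuclideanSpace ℝ (Fin d),
        IsOptimalMap (uniformProbOn {x : EuclideanSpace ℝ (Fin d) | ∀ i, |x i| ≤ 1}) μ Tμ →
        IsOptimalMap (uniformProbOn {x : EuclideanSpace ℝ (Fin d) | ∀ i, |x i| ≤ 1}) ν Tν →
        ∃ π : Measure (EuclideanSpace ℝ (Fin d) × EuclideanSpace ℝ (Fin d)), IsPairCoupling μ ν π ∧
          (C : ℝ≥0∞) * quadCost π ^ α < ∫⁻ x, ‖Tμ x - Tν x‖ₑ ^ 2 ∂(uniformProbOn {x : EuclideanSpace ℝ (Fin d) | ∀ i, |x i| ≤ 1}) := by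
  have h0 : 0 < d := by omega
  have h1 : 1 < d := by omega
  set i0 : Fin d := ⟨0, h0⟩ with hi0
  set i1 : Fin d := ⟨1, h1⟩ with hi1
  have hne : i0 ≠ i1 := by
    intro h
    have := congrArg Fin.val h
    simp [hi0, hi1] at this
  obtain ⟨w, hw0, hw1, hw⟩ := S0110Ex.exists_w α hα C C.2
  have hs1 : |(1:ℝ)| ≤ 1 := by simp
  have hs2 : |(-1:ℝ)| ≤ 1 := by simp
  have hα0 : 0 < α := by linarith
  obtain ⟨ho1, hu1⟩ := S0110Ex.example_optimal (d := d) hne hs1 hw0.le (by linarith : w ≤ 1)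
  obtain ⟨ho2, hu2⟩ := S0110Ex.example_optimal (d := d) hne hs2 hw0.le (by linarith : w ≤ 1)
  refine ⟨(S0110Cube.rho d).map (S0110Ex.T i0 i1 1 w), (S0110Cube.rho d).map (S0110Ex.T i0 i1 (-1) w),
    S0110Ex.probOn hs1 hw0.le (by linarith), S0110Ex.probOn hs2 hw0.le (by linarith),
    S0110Ex.threeAtomic hne hs1 hw0 hw1, S0110Ex.threeAtomic hne hs2 hw0 hw1,
    ⟨_, ho1⟩, ⟨_, ho2⟩, ?_⟩
  intro Tμ Tν hTμ hTν
  refine ⟨S0110Ex.coupling i0 i1 w, S0110Ex.coupling_isPairCoupling hne w, ?_⟩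
  have hlow := S0110Ex.lower_bound hne hw0 hw1 Tμ Tν (hu1 Tμ hTμ) (hu2 Tν hTν)
  refine lt_of_lt_of_le ?_ hlow
  calc (C : ℝ≥0∞) * quadCost (S0110Ex.coupling i0 i1 w) ^ α
      ≤ (C : ℝ≥0∞) * (ENNReal.ofReal (8 * w ^ 3)) ^ α := by
        gcongr
        exact S0110Ex.quadCost_le hne hw0 hw1
    _ = ENNReal.ofReal (C * (8 * w ^ 3) ^ α) := by
        rw [ENNReal.ofReal_rpow_of_pos (by positivity),
          ENNReal.ofReal_mul (q := (8 * w ^ 3) ^ α) (NNReal.coe_nonneg C), ENNReal.ofReal_coe_nnreal]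
    _ < ENNReal.ofReal (w / 16) := by
        rw [ENNReal.ofReal_lt_ofReal_iff (by positivity)]
        exact hw

end Crest.Agent.S0110
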