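import Crest.Agent.S0110_Map

/-!
# S0110: the image measures are three-atomic probability measures on the cube (helper47)
-/

set_option autoImplicit false
open MeasureTheory
open scoped ENNReal NNReal
open Crest.AnalysisR.OT

namespace Crest.Agent.S0110

variable {d : ℕ}

theorem map_eq_sum_dirac {ρ : Measure (EuclideanSpace ℝ (Fin d))}
    {T : EuclideanSpace ℝ (Fin d) → EuclideanSpace ℝ (Fin d)} (hT : Measurable T)
    (y : Fin 3 → EuclideanSpace ℝ (Fin d)) (hy : Function.Injective y)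
    (hrange : ∀ x, ∃ i, T x = y i) :
    ρ.map T = ∑ i, ρ (T ⁻¹' {y i}) • Measure.dirac (y i) := by
  ext A hA
  rw [Measure.map_apply hT hA]
  simp only [Measure.finsetSum_apply, Measure.smul_apply, smul_eq_mul, Measure.dirac_apply' _ hA]
  have hU : T ⁻¹' A = ⋃ i ∈ (Finset.univ : Finset (Fin 3)), (T ⁻¹' {y i} ∩ T ⁻¹' A) := by
    ext x
    simp only [Set.mem_preimage, Finset.mem_univ, Set.iUnion_true, Set.mem_iUnion, Set.mem_inter_iff,
      Set.mem_singleton_iff]
    constructor
    · intro hx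
      obtain ⟨i, hi⟩ := hrange x
      exact ⟨i, hi, hx⟩
    · rintro ⟨i, _, hx⟩
      exact hx
  rw [hU, measure_biUnion_finset]
  · refine Finset.sum_congr rfl fun i _ => ?_
    by_cases hi : y i ∈ A
    · have : T ⁻¹' {y i} ∩ T ⁻¹' A = T ⁻¹' {y i} := by
        ext x
        simp only [Set.mem_inter_iff, Set.mem_preimage, Set.mem_singleton_iff]
        constructor
        · exact fun h => h.1
        · intro h; exact ⟨h, h ▸ hi⟩
      simp [this, hi]
    · have : T ⁻¹' {y i} ∩ T ⁻¹' A = ∅ := by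
        ext x
        simp only [Set.mem_inter_iff, Set.mem_preimage, Set.mem_singleton_iff,
          Set.mem_empty_iff_false, iff_false, not_and]
        intro h; exact h ▸ hi
      simp [this, hi]
  · intro i _ j _ hij
    refine Set.disjoint_left.2 ?_
    rintro x ⟨hx1, _⟩ ⟨hx2, _⟩
    simp only [Set.mem_preimage, Set.mem_singleton_iff] at hx1 hx2
    exact hij (hy (hx1.symm.trans hx2))
  · intro i _
    exact (hT (measurableSet_singleton _)).inter (hT hA)

/-- the sites as a family -/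
noncomputable def sites (i0 i1 : Fin d) (s : ℝ) : Fin 3 → EuclideanSpace ℝ (Fin d) :=
  ![sg i0 (-1), sg i1 s, sg i0 1]

theorem sites_injective {i0 i1 : Fin d} (h01 : i0 ≠ i1) (s : ℝ) :
    Function.Injective (sites i0 i1 s) := by
  have hA : sg i0 (-1) ≠ sg i1 s := by
    intro h
    have := congrArg (fun v : EuclideanSpace ℝ (Fin d) => v i0) h
    simp [sg, h01] at this
  have hB : sg i0 (-1) ≠ sg i0 (1 : ℝ) := by
    intro h
    have := congrArg (fun v : EuclideanSpace ℝ (Fin d) => v i0) h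
    simp [sg] at this
    norm_num at this
  have hC : sg i1 s ≠ sg i0 (1 : ℝ) := by
    intro h
    have := congrArg (fun v : EuclideanSpace ℝ (Fin d) => v i0) h
    simp [sg, h01] at this
  intro i j hij
  fin_cases i <;> fin_cases j <;> simp [sites] at hij ⊢ <;>
    first
      | exact absurd hij hA | exact absurd hij hB | exact absurd hij hC
      | exact absurd hij.symm hA | exact absurd hij.symm hB | exact absurd hij.symm hC

theorem Tmap_eq_mid {i0 i1 : Fin d} {w s : ℝ} {x : EuclideanSpace ℝ (Fin d)}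
    (hx : |x i0| ≤ w + s * x i1) : Tmap i0 i1 w s x = sg i1 s := by
  unfold Tmap; rw [if_pos hx]

theorem Tmap_eq_right {i0 i1 : Fin d} {w s : ℝ} {x : EuclideanSpace ℝ (Fin d)}
    (hx0 : 0 < x i0) (hx : w + s * x i1 < x i0) : Tmap i0 i1 w s x = sg i0 1 := by
  unfold Tmap
  rw [if_neg (by rw [abs_of_pos hx0]; exact not_le.2 hx), if_pos hx0]

theorem Tmap_eq_left {i0 i1 : Fin d} {w s : ℝ} {x : EuclideanSpace ℝ (Fin d)}
    (hx0 : x i0 < 0) (hx : w + s * x i1 < - x i0) : Tmap i0 i1 w s x = sg i0 (-1) := by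
  unfold Tmap
  rw [if_neg (by rw [abs_of_neg hx0]; exact not_le.2 hx), if_neg (not_lt.2 hx0.le)]

theorem mass_pos {i0 i1 : Fin d} (h01 : i0 ≠ i1) {w s : ℝ} (hw : 0 < w) (hw4 : w ≤ 1 / 4)
    (hs : |s| = w) (i : Fin 3) : 0 < rho d ((Tmap i0 i1 w s) ⁻¹' {sites i0 i1 s i}) := by
  have hs' := abs_le.1 hs.le
  fin_cases i
  · -- left
    have hsub : box2 i0 i1 (-1) (-(3 / 4)) (-1) 1 ⊆ (Tmap i0 i1 w s) ⁻¹' {sites i0 i1 s 0} := by
      intro x hx
      obtain ⟨⟨_, h2⟩, h3, h4⟩ := mem_box2 h01 hx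
      simp only [sites, Set.mem_preimage, Set.mem_singleton_iff, Matrix.cons_val_zero]
      refine Tmap_eq_left (by linarith) ?_
      nlinarith [hs'.1, hs'.2]
    refine lt_of_lt_of_le ?_ (measure_mono hsub)
    rw [rho_box2 h01 (by norm_num) (by norm_num) (by norm_num) (by norm_num) (by norm_num)
      (by norm_num)]
    exact ENNReal.ofReal_pos.2 (by norm_num)
  · -- middle
    have hsub : box2 i0 i1 (-(w / 2)) (w / 2) (-(1 / 2)) (1 / 2) ⊆
        (Tmap i0 i1 w s) ⁻¹' {sites i0 i1 s 1} := by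
      intro x hx
      obtain ⟨⟨h1, h2⟩, h3, h4⟩ := mem_box2 h01 hx
      simp only [sites, Set.mem_preimage, Set.mem_singleton_iff, Matrix.cons_val_one,
        Matrix.cons_val_zero]
      refine Tmap_eq_mid ?_
      rw [abs_le]
      constructor <;> nlinarith [hs'.1, hs'.2]
    refine lt_of_lt_of_le ?_ (measure_mono hsub)
    rw [rho_box2 h01 (by linarith) (by linarith) (by linarith) (by norm_num) (by norm_num)
      (by norm_num)]
    exact ENNReal.ofReal_pos.2 (by nlinarith)
  · -- right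
    have hsub : box2 i0 i1 (3 / 4) 1 (-1) 1 ⊆ (Tmap i0 i1 w s) ⁻¹' {sites i0 i1 s 2} := by
      intro x hx
      obtain ⟨⟨h1, _⟩, h3, h4⟩ := mem_box2 h01 hx
      simp only [sites, Set.mem_preimage, Set.mem_singleton_iff]
      refine Tmap_eq_right (by linarith) ?_
      nlinarith [hs'.1, hs'.2]
    refine lt_of_lt_of_le ?_ (measure_mono hsub)
    rw [rho_box2 h01 (by norm_num) (by norm_num) (by norm_num) (by norm_num) (by norm_num)
      (by norm_num)]
    exact ENNReal.ofReal_pos.2 (by norm_num)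

theorem Tmap_range (i0 i1 : Fin d) (w s : ℝ) (x : EuclideanSpace ℝ (Fin d)) :
    ∃ i, Tmap i0 i1 w s x = sites i0 i1 s i := by
  rcases Tmap_isSite i0 i1 w s x with h | h | h
  · exact ⟨0, h⟩
  · exact ⟨1, h⟩
  · exact ⟨2, h⟩

theorem threeAtomic {i0 i1 : Fin d} (h01 : i0 ≠ i1) {w s : ℝ} (hw : 0 < w) (hw4 : w ≤ 1 / 4)
    (hs : |s| = w) : IsThreeAtomic ((rho d).map (Tmap i0 i1 w s)) := by
  refine ⟨sites i0 i1 s, sites_injective h01 s,
    fun i => (rho d ((Tmap i0 i1 w s) ⁻¹' {sites i0 i1 s i})).toReal, fun i => ?_, ?_⟩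
  · exact ENNReal.toReal_pos (mass_pos h01 hw hw4 hs i).ne' (measure_ne_top _ _)
  · rw [map_eq_sum_dirac (measurable_Tmap i0 i1 w s) (sites i0 i1 s) (sites_injective h01 s)
      (Tmap_range i0 i1 w s)]
    refine Finset.sum_congr rfl fun i _ => ?_
    rw [ENNReal.ofReal_toReal (measure_ne_top _ _)]

theorem sg_mem_cube (i : Fin d) {a : ℝ} (ha : |a| ≤ 1) : sg i a ∈ cube d := by
  intro j
  by_cases h : j = i
  · subst h; simpa [sg] using ha
  · simp [sg, h]

theorem probOn {i0 i1 : Fin d} {w s : ℝ} (hs : |s| ≤ 1) :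
    IsProbabilityOn (cube d) ((rho d).map (Tmap i0 i1 w s)) := by
  refine ⟨Measure.isProbabilityMeasure_map (measurable_Tmap i0 i1 w s).aemeasurable, ?_⟩
  rw [Measure.map_apply (measurable_Tmap i0 i1 w s) (measurableSet_cube d).compl]
  have : (Tmap i0 i1 w s) ⁻¹' (cube d)ᶜ = ∅ := by
    ext x
    simp only [Set.mem_preimage, Set.mem_compl_iff, Set.mem_empty_iff_false, iff_false, not_not]
    rcases Tmap_isSite i0 i1 w s x with h | h | h <;> rw [h]
    · exact sg_mem_cube i0 (by norm_num)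
    · exact sg_mem_cube i1 hs
    · exact sg_mem_cube i0 (by norm_num)
  rw [this, measure_empty]

end Crest.Agent.S0110
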