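import Crest.Statements.S0110

/-!
# S0110: the uniform measure on the cube, boxes, reflection (helper47)
-/

set_option autoImplicit false
open MeasureTheory
open scoped ENNReal NNReal
open Crest.AnalysisR.OT

namespace Crest.Agent.S0110

/-- The cube `[-1,1]^d`. -/
abbrev cube (d : ℕ) : Set (EuclideanSpace ℝ (Fin d)) := {x | ∀ i, |x i| ≤ 1}

/-- A closed box. -/
def box {d : ℕ} (a b : Fin d → ℝ) : Set (EuclideanSpace ℝ (Fin d)) :=
  {x | ∀ i, a i ≤ x i ∧ x i ≤ b i}

theorem box_eq_preimage {d : ℕ} (a b : Fin d → ℝ) :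
    box a b = (@WithLp.ofLp 2 (Fin d → ℝ)) ⁻¹' (Set.Icc a b) := by
  ext x
  simp only [box, Set.mem_ofPred_eq, Set.mem_preimage, Set.mem_Icc, Pi.le_def]
  exact forall_and

theorem measurableSet_box {d : ℕ} (a b : Fin d → ℝ) : MeasurableSet (box a b) := by
  rw [box_eq_preimage]
  exact (PiLp.volume_preserving_ofLp (Fin d)).measurable measurableSet_Icc

theorem volume_box {d : ℕ} (a b : Fin d → ℝ) :
    volume (box a b) = ∏ i, ENNReal.ofReal (b i - a i) := by
  rw [box_eq_preimage, (PiLp.volume_preserving_ofLp (Fin d)).measure_preimage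
    measurableSet_Icc.nullMeasurableSet, Real.volume_Icc_pi]

theorem cube_eq_box (d : ℕ) : cube d = box (fun _ => (-1 : ℝ)) (fun _ => 1) := by
  ext x
  simp only [cube, box, Set.mem_ofPred_eq, abs_le]

theorem measurableSet_cube (d : ℕ) : MeasurableSet (cube d) := by
  rw [cube_eq_box]; exact measurableSet_box _ _

theorem volume_cube (d : ℕ) : volume (cube d) = ENNReal.ofReal (2 ^ d) := by
  rw [cube_eq_box, volume_box]
  simp only [sub_neg_eq_add, Finset.prod_const, Finset.card_univ, Fintype.card_fin]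
  rw [← ENNReal.ofReal_pow (by norm_num)]
  norm_num

/-- The uniform probability measure on the cube. -/
noncomputable abbrev rho (d : ℕ) : Measure (EuclideanSpace ℝ (Fin d)) := uniformProbOn (cube d)

theorem rho_apply_of_subset {d : ℕ} {s : Set (EuclideanSpace ℝ (Fin d))} (hs : MeasurableSet s)
    (hsub : s ⊆ cube d) : rho d s = (ENNReal.ofReal (2 ^ d))⁻¹ * volume s := by
  simp only [rho, uniformProbOn, Measure.smul_apply, smul_eq_mul, volume_cube]
  rw [Measure.restrict_apply hs, Set.inter_eq_left.2 hsub]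

instance rho_isProb (d : ℕ) : IsProbabilityMeasure (rho d) := by
  constructor
  have h : rho d Set.univ = rho d (cube d) := by
    simp only [rho, uniformProbOn, Measure.smul_apply, smul_eq_mul]
    rw [Measure.restrict_apply MeasurableSet.univ, Measure.restrict_apply (measurableSet_cube d)]
    simp
  rw [h, rho_apply_of_subset (measurableSet_cube d) subset_rfl, volume_cube]
  exact ENNReal.inv_mul_cancel (by simp) ENNReal.ofReal_ne_top

theorem rho_compl_cube (d : ℕ) : rho d (cube d)ᶜ = 0 := by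
  simp only [rho, uniformProbOn, Measure.smul_apply, smul_eq_mul]
  rw [Measure.restrict_apply (measurableSet_cube d).compl]
  simp

theorem ae_mem_cube (d : ℕ) : ∀ᵐ x ∂(rho d), x ∈ cube d := by
  rw [ae_iff]
  exact rho_compl_cube d

/-- Measure of a box inside the cube. -/
theorem rho_box {d : ℕ} (a b : Fin d → ℝ) (ha : ∀ i, -1 ≤ a i) (hab : ∀ i, a i ≤ b i)
    (hb : ∀ i, b i ≤ 1) : rho d (box a b) = ENNReal.ofReal (∏ i, ((b i - a i) / 2)) := by
  have hsub : box a b ⊆ cube d := by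
    intro x hx i
    rw [abs_le]
    exact ⟨(ha i).trans (hx i).1, (hx i).2.trans (hb i)⟩
  rw [rho_apply_of_subset (measurableSet_box a b) hsub, volume_box,
    ← ENNReal.ofReal_prod_of_nonneg (fun i _ => sub_nonneg.2 (hab i)),
    ← ENNReal.ofReal_inv_of_pos (by positivity),
    ← ENNReal.ofReal_mul (by positivity)]
  congr 1
  rw [Finset.prod_div_distrib]
  simp only [Finset.prod_const, Finset.card_univ, Fintype.card_fin]
  field_simp


/-- Lower corner of a box restricting only the coordinates `i0`, `i1`. -/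
def lo {d : ℕ} (i0 i1 : Fin d) (a0 a1 : ℝ) : Fin d → ℝ :=
  fun i => if i = i0 then a0 else if i = i1 then a1 else -1

/-- Upper corner. -/
def hi {d : ℕ} (i0 i1 : Fin d) (b0 b1 : ℝ) : Fin d → ℝ :=
  fun i => if i = i0 then b0 else if i = i1 then b1 else 1

/-- Box restricting only two coordinates. -/
def box2 {d : ℕ} (i0 i1 : Fin d) (a0 b0 a1 b1 : ℝ) : Set (EuclideanSpace ℝ (Fin d)) :=
  box (lo i0 i1 a0 a1) (hi i0 i1 b0 b1)

theorem mem_box2 {d : ℕ} {i0 i1 : Fin d} (h01 : i0 ≠ i1) {a0 b0 a1 b1 : ℝ}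
    {x : EuclideanSpace ℝ (Fin d)} (hx : x ∈ box2 i0 i1 a0 b0 a1 b1) :
    (a0 ≤ x i0 ∧ x i0 ≤ b0) ∧ (a1 ≤ x i1 ∧ x i1 ≤ b1) := by
  have h0 := hx i0
  have h1 := hx i1
  simp only [lo, hi, if_true] at h0
  simp only [lo, hi, if_neg h01.symm, if_true] at h1
  exact ⟨h0, h1⟩

theorem mem_box2_of {d : ℕ} {i0 i1 : Fin d} {a0 b0 a1 b1 : ℝ}
    {x : EuclideanSpace ℝ (Fin d)} (hx : x ∈ cube d) (h0 : a0 ≤ x i0 ∧ x i0 ≤ b0)
    (h1 : a1 ≤ x i1 ∧ x i1 ≤ b1) : x ∈ box2 i0 i1 a0 b0 a1 b1 := by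
  intro i
  simp only [lo, hi]
  by_cases hi0 : i = i0
  · subst hi0; simpa using h0
  · by_cases hi1 : i = i1
    · subst hi1; simpa [hi0] using h1
    · simpa [hi0, hi1] using abs_le.1 (hx i)

theorem measurableSet_box2 {d : ℕ} (i0 i1 : Fin d) (a0 b0 a1 b1 : ℝ) :
    MeasurableSet (box2 i0 i1 a0 b0 a1 b1) := measurableSet_box _ _

theorem rho_box2 {d : ℕ} {i0 i1 : Fin d} (h01 : i0 ≠ i1) {a0 b0 a1 b1 : ℝ}
    (ha0 : -1 ≤ a0) (hab0 : a0 ≤ b0) (hb0 : b0 ≤ 1) (ha1 : -1 ≤ a1) (hab1 : a1 ≤ b1)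
    (hb1 : b1 ≤ 1) :
    rho d (box2 i0 i1 a0 b0 a1 b1) = ENNReal.ofReal ((b0 - a0) * (b1 - a1) / 4) := by
  rw [box2, rho_box]
  · congr 1
    rw [Finset.prod_eq_mul i0 i1 h01]
    · simp only [lo, hi, if_true, if_neg h01.symm]
      ring
    · intro c _ hc
      simp only [lo, hi, if_neg hc.1, if_neg hc.2]
      norm_num
    · intro h; exact absurd (Finset.mem_univ _) h
    · intro h; exact absurd (Finset.mem_univ _) h
  · intro i; simp only [lo]; split_ifs <;> simp [*]
  · intro i; simp only [lo, hi]; split_ifs <;> simp [*]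
  · intro i; simp only [hi]; split_ifs <;> simp [*]

/-- Reflection in the coordinate `i1`. -/
noncomputable def refl1 {d : ℕ} (i1 : Fin d) :
    EuclideanSpace ℝ (Fin d) ≃ₗᵢ[ℝ] EuclideanSpace ℝ (Fin d) :=
  LinearIsometryEquiv.piLpCongrRight 2
    (fun i => if i = i1 then LinearIsometryEquiv.neg ℝ else LinearIsometryEquiv.refl ℝ ℝ)

theorem refl1_apply {d : ℕ} (i1 : Fin d) (x : EuclideanSpace ℝ (Fin d)) (i : Fin d) :
    refl1 i1 x i = if i = i1 then - x i else x i := by
  simp only [refl1, LinearIsometryEquiv.piLpCongrRight_apply]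
  split_ifs <;> simp

theorem refl1_preimage_cube {d : ℕ} (i1 : Fin d) : (refl1 i1) ⁻¹' (cube d) = cube d := by
  ext x
  simp only [cube, Set.mem_preimage, Set.mem_ofPred_eq, refl1_apply]
  refine forall_congr' fun i => ?_
  split_ifs <;> simp

theorem rho_map_refl1 {d : ℕ} (i1 : Fin d) : (rho d).map (refl1 i1) = rho d := by
  have h := ((refl1 i1).measurePreserving).restrict_preimage (measurableSet_cube d)
  rw [refl1_preimage_cube] at h
  simp only [rho, uniformProbOn]
  rw [Measure.map_smul, h.map_eq]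

end Crest.Agent.S0110
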