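import Crest.Statements.S0110

/-!
# S0110, abstract part: optimality and a.e.-rigidity from a dual certificate (helper47)
-/

set_option autoImplicit false
open MeasureTheory
open scoped ENNReal NNReal

namespace Crest.Agent.S0110

variable {E : Type*} [NormedAddCommGroup E] [MeasurableSpace E] [BorelSpace E]
  [SecondCountableTopology E]

theorem measurable_cost {T : E → E} (hT : Measurable T) :
    Measurable (fun x : E => ‖x - T x‖ₑ ^ 2) :=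
  ((measurable_id.sub hT).enorm).pow_const 2

theorem lintegral_beta_eq {ρ : Measure E} {T S : E → E} (hT : Measurable T) (hS : Measurable S)
    (hmap : ρ.map S = ρ.map T) {β : E → ℝ≥0∞} (hβ : Measurable β) :
    ∫⁻ x, β (S x) ∂ρ = ∫⁻ x, β (T x) ∂ρ := by
  rw [← lintegral_map hβ hS, ← lintegral_map hβ hT, hmap]

/-- Weak duality: a map which minimises `‖x - y‖² + β y` pointwise is cheaper. -/
theorem cost_le_of_dual {ρ : Measure E} {T S : E → E} (hT : Measurable T) (hS : Measurable S)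
    (hmap : ρ.map S = ρ.map T) {β : E → ℝ≥0∞} (hβ : Measurable β)
    (hfin : ∫⁻ x, β (T x) ∂ρ ≠ ⊤)
    (hle : ∀ᵐ x ∂ρ, ‖x - T x‖ₑ ^ 2 + β (T x) ≤ ‖x - S x‖ₑ ^ 2 + β (S x)) :
    ∫⁻ x, ‖x - T x‖ₑ ^ 2 ∂ρ ≤ ∫⁻ x, ‖x - S x‖ₑ ^ 2 ∂ρ := by
  have h1 := lintegral_mono_ae hle
  rw [lintegral_add_left (measurable_cost hT), lintegral_add_left (measurable_cost hS),
    lintegral_beta_eq hT hS hmap hβ] at h1
  exact (ENNReal.add_le_add_iff_right hfin).1 h1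

/-- Rigidity: a competitor which is as cheap also minimises `‖x - y‖² + β y` a.e. -/
theorem ae_eq_of_dual {ρ : Measure E} {T S : E → E} (hT : Measurable T) (hS : Measurable S)
    (hmap : ρ.map S = ρ.map T) {β : E → ℝ≥0∞} (hβ : Measurable β)
    (hfin : ∫⁻ x, β (T x) ∂ρ ≠ ⊤) (hfinT : ∫⁻ x, ‖x - T x‖ₑ ^ 2 ∂ρ ≠ ⊤)
    (hle : ∀ᵐ x ∂ρ, ‖x - T x‖ₑ ^ 2 + β (T x) ≤ ‖x - S x‖ₑ ^ 2 + β (S x))
    (hST : ∫⁻ x, ‖x - S x‖ₑ ^ 2 ∂ρ ≤ ∫⁻ x, ‖x - T x‖ₑ ^ 2 ∂ρ) :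
    ∀ᵐ x ∂ρ, ‖x - T x‖ₑ ^ 2 + β (T x) = ‖x - S x‖ₑ ^ 2 + β (S x) := by
  refine ae_eq_of_ae_le_of_lintegral_le hle ?_ ?_ ?_
  · rw [lintegral_add_left (measurable_cost hT)]
    exact ENNReal.add_ne_top.2 ⟨hfinT, hfin⟩
  · exact ((measurable_cost hS).add (hβ.comp hS)).aemeasurable
  · rw [lintegral_add_left (measurable_cost hT), lintegral_add_left (measurable_cost hS),
      lintegral_beta_eq hT hS hmap hβ]
    gcongr

end Crest.Agent.S0110
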