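import Crest.Agent.S0110_Box
import Crest.Agent.S0110_Dual

/-!
# S0110: the three-cell Laguerre maps (helper47)
-/

set_option autoImplicit false
open MeasureTheory
open scoped ENNReal NNReal
open Crest.AnalysisR.OT

namespace Crest.Agent.S0110

variable {d : ℕ}

local notation "𝔼" => EuclideanSpace ℝ (Fin d)

/-- shorthand for `EuclideanSpace.single`. -/
noncomputable abbrev sg (i : Fin d) (a : ℝ) : EuclideanSpace ℝ (Fin d) := EuclideanSpace.single i a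

/-- The Laguerre map with sites `-e₀`, `s e₁`, `e₀` and weights `w, 0, w`. -/
noncomputable def Tmap (i0 i1 : Fin d) (w s : ℝ) (x : EuclideanSpace ℝ (Fin d)) :
    EuclideanSpace ℝ (Fin d) :=
  if |x i0| ≤ w + s * x i1 then sg i1 s else if 0 < x i0 then sg i0 1 else sg i0 (-1)

/-- The dual weight. -/
noncomputable def beta (i0 : Fin d) (w : ℝ) (y : EuclideanSpace ℝ (Fin d)) : ℝ≥0∞ :=
  ENNReal.ofReal (1 - ‖y‖ ^ 2 + 2 * w * (y i0) ^ 2)

theorem measurable_coord (i : Fin d) : Measurable (fun x : EuclideanSpace ℝ (Fin d) => x i) :=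
  (EuclideanSpace.proj i : EuclideanSpace ℝ (Fin d) →L[ℝ] ℝ).continuous.measurable

theorem measurable_beta (i0 : Fin d) (w : ℝ) : Measurable (beta i0 w) := by
  unfold beta
  refine ENNReal.measurable_ofReal.comp ?_
  exact ((measurable_const.sub (measurable_norm.pow_const 2)).add
    (((measurable_coord i0).pow_const 2).const_mul (2 * w)))

theorem measurable_Tmap (i0 i1 : Fin d) (w s : ℝ) : Measurable (Tmap i0 i1 w s) := by
  unfold Tmap
  refine Measurable.ite ?_ measurable_const (Measurable.ite ?_ measurable_const measurable_const)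
  · exact measurableSet_le ((measurable_coord i0).abs)
      (measurable_const.add ((measurable_coord i1).const_mul s))
  · exact measurableSet_lt measurable_const (measurable_coord i0)

theorem norm_sub_sg_sq (x : EuclideanSpace ℝ (Fin d)) (i : Fin d) (a : ℝ) :
    ‖x - sg i a‖ ^ 2 = ‖x‖ ^ 2 - 2 * a * x i + a ^ 2 := by
  rw [norm_sub_sq_real, EuclideanSpace.inner_single_right]
  simp only [sg, PiLp.norm_single, Real.norm_eq_abs, sq_abs, conj_trivial]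
  ring

theorem enorm_sq_eq (z : EuclideanSpace ℝ (Fin d)) : ‖z‖ₑ ^ 2 = ENNReal.ofReal (‖z‖ ^ 2) := by
  rw [ENNReal.ofReal_pow (norm_nonneg z), ofReal_norm]

/-- value of the dual functional at the middle site -/
theorem G_mid {i0 i1 : Fin d} (h01 : i0 ≠ i1) (w s : ℝ) (hs : s ^ 2 ≤ 1)
    (x : EuclideanSpace ℝ (Fin d)) :
    ‖x - sg i1 s‖ₑ ^ 2 + beta i0 w (sg i1 s) = ENNReal.ofReal (‖x‖ ^ 2 + 1 - 2 * s * x i1) := by
  have hb : (1 : ℝ) - ‖sg i1 s‖ ^ 2 + 2 * w * ((sg i1 s) i0) ^ 2 = 1 - s ^ 2 := by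
    simp [sg, PiLp.norm_single, h01]
  rw [enorm_sq_eq, beta, hb, ← ENNReal.ofReal_add (by positivity) (by linarith), norm_sub_sg_sq]
  congr 1
  ring

/-- value of the dual functional at the outer sites -/
theorem G_out (i0 : Fin d) (w : ℝ) (hw : 0 ≤ w) (a : ℝ) (ha : a ^ 2 = 1)
    (x : EuclideanSpace ℝ (Fin d)) :
    ‖x - sg i0 a‖ₑ ^ 2 + beta i0 w (sg i0 a) =
      ENNReal.ofReal (‖x‖ ^ 2 + 1 - 2 * a * x i0 + 2 * w) := by
  have hb : (1 : ℝ) - ‖sg i0 a‖ ^ 2 + 2 * w * ((sg i0 a) i0) ^ 2 = 2 * w := by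
    simp [sg, PiLp.norm_single, ha]
  rw [enorm_sq_eq, beta, hb, ← ENNReal.ofReal_add (by positivity) (by linarith), norm_sub_sg_sq, ha]
  congr 1
  ring

theorem mid_nonneg (s : ℝ) (hs : s ^ 2 ≤ 1) (i1 : Fin d) (x : EuclideanSpace ℝ (Fin d)) :
    0 ≤ ‖x‖ ^ 2 + 1 - 2 * s * x i1 := by
  have h := norm_sub_sg_sq x i1 s
  have h2 : 0 ≤ ‖x - sg i1 s‖ ^ 2 := by positivity
  nlinarith

theorem out_nonneg (w : ℝ) (hw : 0 ≤ w) (a : ℝ) (ha : a ^ 2 = 1) (i0 : Fin d)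
    (x : EuclideanSpace ℝ (Fin d)) : 0 ≤ ‖x‖ ^ 2 + 1 - 2 * a * x i0 + 2 * w := by
  have h := norm_sub_sg_sq x i0 a
  have h2 : 0 ≤ ‖x - sg i0 a‖ ^ 2 := by positivity
  nlinarith

/-- The three sites. -/
def IsSite (i0 i1 : Fin d) (s : ℝ) (y : EuclideanSpace ℝ (Fin d)) : Prop :=
  y = sg i0 (-1) ∨ y = sg i1 s ∨ y = sg i0 1

theorem Tmap_isSite (i0 i1 : Fin d) (w s : ℝ) (x : EuclideanSpace ℝ (Fin d)) :
    IsSite i0 i1 s (Tmap i0 i1 w s x) := by
  unfold Tmap IsSite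
  split_ifs <;> simp

/-- Laguerre property. -/
theorem Tmap_min {i0 i1 : Fin d} (h01 : i0 ≠ i1) {w s : ℝ} (hw : 0 ≤ w) (hs : s ^ 2 ≤ 1)
    (x y : EuclideanSpace ℝ (Fin d)) (hy : IsSite i0 i1 s y) :
    ‖x - Tmap i0 i1 w s x‖ₑ ^ 2 + beta i0 w (Tmap i0 i1 w s x) ≤ ‖x - y‖ₑ ^ 2 + beta i0 w y := by
  have hL := G_out i0 w hw (-1) (by norm_num) x
  have hR := G_out i0 w hw 1 (by norm_num) x
  have hM := G_mid h01 w s hs x
  unfold Tmap
  rcases hy with rfl | rfl | rfl <;> split_ifs with h1 h2 <;>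
    simp only [hL, hR, hM] <;> apply ENNReal.ofReal_le_ofReal
  · have := (abs_le.1 h1).1; linarith
  · linarith
  · linarith
  · linarith
  · push Not at h1
    have h3 : |x i0| = x i0 := abs_of_pos h2
    linarith
  · have := neg_abs_le (x i0); push Not at h1 h2
    have h3 : |x i0| = - x i0 := abs_of_nonpos h2
    linarith
  · have := (abs_le.1 h1).2; linarith
  · linarith
  · push Not at h2; linarith

theorem measurableSet_sites (i0 i1 : Fin d) (s : ℝ) :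
    MeasurableSet {y : EuclideanSpace ℝ (Fin d) | IsSite i0 i1 s y} := by
  have : {y : EuclideanSpace ℝ (Fin d) | IsSite i0 i1 s y} = {sg i0 (-1), sg i1 s, sg i0 1} := by
    ext y; simp [IsSite]
  rw [this]
  exact (Set.toFinite _).measurableSet

theorem ae_isSite (i0 i1 : Fin d) (w s : ℝ) {ρ : Measure (EuclideanSpace ℝ (Fin d))}
    {S : EuclideanSpace ℝ (Fin d) → EuclideanSpace ℝ (Fin d)} (hS : Measurable S)
    (hmap : ρ.map S = ρ.map (Tmap i0 i1 w s)) : ∀ᵐ x ∂ρ, IsSite i0 i1 s (S x) := by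
  have h1 : (ρ.map S) {y | IsSite i0 i1 s y}ᶜ = 0 := by
    rw [hmap, Measure.map_apply (measurable_Tmap i0 i1 w s) (measurableSet_sites i0 i1 s).compl]
    have : (Tmap i0 i1 w s) ⁻¹' {y | IsSite i0 i1 s y}ᶜ = ∅ := by
      ext x
      simp [Tmap_isSite]
    rw [this, measure_empty]
  rw [Measure.map_apply hS (measurableSet_sites i0 i1 s).compl] at h1
  rw [ae_iff]
  exact h1

theorem norm_sq_le_of_mem_cube {x : EuclideanSpace ℝ (Fin d)} (hx : x ∈ cube d) :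
    ‖x‖ ^ 2 ≤ d := by
  rw [EuclideanSpace.norm_sq_eq]
  calc ∑ i, ‖x i‖ ^ 2 ≤ ∑ _i : Fin d, (1 : ℝ) := by
        refine Finset.sum_le_sum fun i _ => ?_
        have := hx i
        rw [Real.norm_eq_abs, sq_abs]
        exact (sq_le_one_iff_abs_le_one _).2 this
    _ = d := by simp

theorem lintegral_ne_top_of_ae_le {ρ : Measure (EuclideanSpace ℝ (Fin d))} [IsProbabilityMeasure ρ]
    {f : EuclideanSpace ℝ (Fin d) → ℝ≥0∞} {c : ℝ} (h : ∀ᵐ x ∂ρ, f x ≤ ENNReal.ofReal c) :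
    ∫⁻ x, f x ∂ρ ≠ ⊤ := by
  refine ((lintegral_mono_ae h).trans_lt ?_).ne
  simp

theorem G_Tmap_le {i0 i1 : Fin d} (h01 : i0 ≠ i1) {w s : ℝ} (hw : 0 ≤ w) (hs : s ^ 2 ≤ 1)
    {x : EuclideanSpace ℝ (Fin d)} (hx : x ∈ cube d) :
    ‖x - Tmap i0 i1 w s x‖ₑ ^ 2 + beta i0 w (Tmap i0 i1 w s x) ≤ ENNReal.ofReal (d + 3) := by
  refine (Tmap_min h01 hw hs x (sg i1 s) (Or.inr (Or.inl rfl))).trans ?_
  rw [G_mid h01 w s hs x]
  apply ENNReal.ofReal_le_ofReal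
  have h1 := norm_sq_le_of_mem_cube hx
  have h2 := abs_le.1 (hx i1)
  have h3 := abs_le.1 ((sq_le_one_iff_abs_le_one s).1 hs)
  nlinarith [h2.1, h2.2, h3.1, h3.2]

theorem beta_fin {i0 i1 : Fin d} (h01 : i0 ≠ i1) {w s : ℝ} (hw : 0 ≤ w) (hs : s ^ 2 ≤ 1) :
    ∫⁻ x, beta i0 w (Tmap i0 i1 w s x) ∂(rho d) ≠ ⊤ := by
  refine lintegral_ne_top_of_ae_le (c := d + 3) ?_
  filter_upwards [ae_mem_cube d] with x hx
  exact le_add_self.trans (G_Tmap_le h01 hw hs hx)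

theorem cost_fin {i0 i1 : Fin d} (h01 : i0 ≠ i1) {w s : ℝ} (hw : 0 ≤ w) (hs : s ^ 2 ≤ 1) :
    ∫⁻ x, ‖x - Tmap i0 i1 w s x‖ₑ ^ 2 ∂(rho d) ≠ ⊤ := by
  refine lintegral_ne_top_of_ae_le (c := d + 3) ?_
  filter_upwards [ae_mem_cube d] with x hx
  exact le_self_add.trans (G_Tmap_le h01 hw hs hx)

theorem Tmap_optimal {i0 i1 : Fin d} (h01 : i0 ≠ i1) {w s : ℝ} (hw : 0 ≤ w) (hs : s ^ 2 ≤ 1) :
    IsOptimalMap (rho d) ((rho d).map (Tmap i0 i1 w s)) (Tmap i0 i1 w s) := by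
  refine ⟨measurable_Tmap i0 i1 w s, rfl, fun S hS hmap => ?_⟩
  refine cost_le_of_dual (measurable_Tmap i0 i1 w s) hS hmap (measurable_beta i0 w)
    (beta_fin h01 hw hs) ?_
  filter_upwards [ae_isSite i0 i1 w s hS hmap] with x hx
  exact Tmap_min h01 hw hs x _ hx

theorem Tmap_rigid {i0 i1 : Fin d} (h01 : i0 ≠ i1) {w s : ℝ} (hw : 0 ≤ w) (hs : s ^ 2 ≤ 1)
    {S : EuclideanSpace ℝ (Fin d) → EuclideanSpace ℝ (Fin d)}
    (hS : IsOptimalMap (rho d) ((rho d).map (Tmap i0 i1 w s)) S) :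
    ∀ᵐ x ∂(rho d), IsSite i0 i1 s (S x) ∧
      ‖x - Tmap i0 i1 w s x‖ₑ ^ 2 + beta i0 w (Tmap i0 i1 w s x) =
        ‖x - S x‖ₑ ^ 2 + beta i0 w (S x) := by
  have hsite := ae_isSite i0 i1 w s hS.1 hS.2.1
  have h := ae_eq_of_dual (measurable_Tmap i0 i1 w s) hS.1 hS.2.1 (measurable_beta i0 w)
    (beta_fin h01 hw hs) (cost_fin h01 hw hs)
    (by filter_upwards [hsite] with x hx using Tmap_min h01 hw hs x _ hx)
    (hS.2.2 _ (measurable_Tmap i0 i1 w s) rfl)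
  filter_upwards [hsite, h] with x h1 h2 using ⟨h1, h2⟩

/-- strictly inside the middle cell the minimiser is unique -/
theorem eq_mid_of {i0 i1 : Fin d} (h01 : i0 ≠ i1) {w s : ℝ} (hw : 0 ≤ w) (hs : s ^ 2 ≤ 1)
    {x y : EuclideanSpace ℝ (Fin d)} (hx : |x i0| < w + s * x i1) (hy : IsSite i0 i1 s y)
    (h : ‖x - Tmap i0 i1 w s x‖ₑ ^ 2 + beta i0 w (Tmap i0 i1 w s x) =
      ‖x - y‖ₑ ^ 2 + beta i0 w y) : y = sg i1 s := by
  have hT : Tmap i0 i1 w s x = sg i1 s := by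
    unfold Tmap; rw [if_pos hx.le]
  rw [hT, G_mid h01 w s hs x] at h
  have hx' := abs_lt.1 hx
  rcases hy with rfl | rfl | rfl
  · rw [G_out i0 w hw (-1) (by norm_num) x, ENNReal.ofReal_eq_ofReal_iff (mid_nonneg s hs i1 x)
      (out_nonneg w hw (-1) (by norm_num) i0 x)] at h
    exfalso; linarith [hx'.1]
  · rfl
  · rw [G_out i0 w hw 1 (by norm_num) x, ENNReal.ofReal_eq_ofReal_iff (mid_nonneg s hs i1 x)
      (out_nonneg w hw 1 (by norm_num) i0 x)] at h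
    exfalso; linarith [hx'.2]

/-- strictly inside the right cell the minimiser is unique -/
theorem eq_right_of {i0 i1 : Fin d} (h01 : i0 ≠ i1) {w s : ℝ} (hw : 0 ≤ w) (hs : s ^ 2 ≤ 1)
    {x y : EuclideanSpace ℝ (Fin d)} (hx0 : 0 < x i0) (hx : w + s * x i1 < x i0)
    (hy : IsSite i0 i1 s y)
    (h : ‖x - Tmap i0 i1 w s x‖ₑ ^ 2 + beta i0 w (Tmap i0 i1 w s x) =
      ‖x - y‖ₑ ^ 2 + beta i0 w y) : y = sg i0 1 := by
  have hT : Tmap i0 i1 w s x = sg i0 1 := by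
    unfold Tmap
    rw [if_neg (by rw [abs_of_pos hx0]; exact not_le.2 hx), if_pos hx0]
  rw [hT, G_out i0 w hw 1 (by norm_num) x] at h
  rcases hy with rfl | rfl | rfl
  · rw [G_out i0 w hw (-1) (by norm_num) x, ENNReal.ofReal_eq_ofReal_iff
      (out_nonneg w hw 1 (by norm_num) i0 x) (out_nonneg w hw (-1) (by norm_num) i0 x)] at h
    exfalso; linarith
  · rw [G_mid h01 w s hs x, ENNReal.ofReal_eq_ofReal_iff
      (out_nonneg w hw 1 (by norm_num) i0 x) (mid_nonneg s hs i1 x)] at h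
    exfalso; linarith
  · rfl

end Crest.Agent.S0110
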