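import Crest.Agent.S0112_Main

set_option autoImplicit false
open Crest Crest.OpAlg
open Filter MeasureTheory
open scoped Topology InnerProductSpace

namespace Crest.Agent.S0112

variable {H : Type*} [NormedAddCommGroup H] [InnerProductSpace ℂ H] [CompleteSpace H]

local notation "BCF" => BoundedContinuousFunction ℝ ℂ

namespace Mod

variable (S : ModularDatum H)

theorem nice_norm_sq_wave (T : H →L[ℂ] H) (x : H) :
    Nice (fun r : ℝ => ‖T (S.D.wave r x)‖ ^ 2) := by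
  refine ⟨((T.continuous.comp (continuous_wave_apply S.D x)).norm).pow 2,
    (‖T‖ * ‖x‖) ^ 2, fun r => ?_⟩
  rw [Real.norm_eq_abs, abs_of_nonneg (sq_nonneg _)]
  apply pow_le_pow_left₀ (norm_nonneg _)
  refine (T.le_opNorm _).trans ?_
  rw [norm_wave_apply]

theorem norm_unitary_vac {U : H →L[ℂ] H} (hU : U ∈ unitary (H →L[ℂ] H)) : ‖U S.vac‖ = 1 := by
  rw [ContinuousLinearMap.norm_map_of_mem_unitary hU, S.norm_vac]

/-- the key estimate with an `ε` of room. -/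
theorem claim_eps (herg : S.Ergodic) (ω : Ultrafilter ℕ) (hω : (ω : Filter ℕ) ≤ atTop)
    (T : H →L[ℂ] H) (s δ : ℝ) (hδ1 : δ ≤ 1) (h : H) (hh : ‖h‖ = 1)
    (hband : S.D.SupportedIn (Set.Icc (s - δ) (s + δ)) h)
    {κ : ℝ → ℂ} (hκ : Integrable κ) (cc : ℝ) (χ : BCF) (hχn : ‖χ‖ ≤ 1)
    (hχ1 : ∀ u ∈ Set.Icc (s - δ) (s + δ), χ u = 1)
    (hχ0 : ∀ u, u ∉ Set.Icc (s - 4 * δ) (s + 4 * δ) → χ u = 0)
    (hχF : ∀ u : ℝ, χ u = ∫ τ, κ τ * Complex.exp (Complex.I * (((cc * τ) * u : ℝ) : ℂ)))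
    (N : ℝ)
    (hN : ∀ U ∈ unitary (H →L[ℂ] H), U ∈ S.M → ‖(T * S.D.apply χ) (U S.vac)‖ ≤ N)
    (hNsup : ∀ ε' : ℝ, 0 < ε' → ∃ U₀ ∈ unitary (H →L[ℂ] H), U₀ ∈ S.M ∧
      N ^ 2 - ε' ≤ ‖(T * S.D.apply χ) (U₀ S.vac)‖ ^ 2)
    (ε : ℝ) (hε : 0 < ε) :
    gMean ω (fun t : ℝ => ‖T (S.D.wave t h)‖ ^ 2)
      ≤ N ^ 2 * ((1 + Real.exp (s + 4)) * (1 + ε) ^ 2) + ‖T‖ ^ 2 * (ε * (2 + 3 * ε)) := by
  -- approximate `h` by `a₁ ξ`
  obtain ⟨_, ha₁, ⟨a₁, rfl⟩⟩ := Metric.dense_iff.mp S.cyclic h ε hε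
  rw [Metric.mem_ball, dist_eq_norm] at ha₁
  set a : H →L[ℂ] H := smooth S hκ cc (a₁ : H →L[ℂ] H) with ha
  have haM : a ∈ S.M := smooth_mem S hκ cc a₁.2
  have havac : a S.vac = S.D.apply χ ((a₁ : H →L[ℂ] H) S.vac) := smooth_vac S hκ cc χ hχF _
  have hχh : S.D.apply χ h = h := by
    have : S.D.apply χ h = S.D.apply 1 h :=
      SupportedIn.apply_congr hband (fun u hu => by rw [hχ1 u hu]; rfl)
    rw [this, map_one]; rfl
  have hcontr : ∀ x : H, ‖S.D.apply χ x‖ ≤ ‖x‖ := by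
    intro x
    refine (norm_apply_apply_le S.D χ x).trans ?_
    calc ‖χ‖ * ‖x‖ ≤ 1 * ‖x‖ := mul_le_mul_of_nonneg_right hχn (norm_nonneg _)
      _ = ‖x‖ := one_mul _
  have h1 : ‖a S.vac - h‖ ≤ ε := by
    rw [havac]
    conv_lhs => rw [← hχh]
    rw [← map_sub]
    exact (hcontr _).trans ha₁.le
  set h' : H := S.D.apply χ (a S.vac) with hh'
  have h2 : ‖h' - h‖ ≤ ε := by
    rw [hh']
    conv_lhs => rw [← hχh]
    rw [← map_sub]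
    exact (hcontr _).trans h1
  have hsupp : S.D.SupportedIn (Set.Icc (s - 4 * δ) (s + 4 * δ)) (a S.vac) := by
    rw [havac]
    exact supportedIn_apply χ hχ0 _
  have hkms := norm_star_vac_le S haM hsupp
  have hna : ‖a S.vac‖ ≤ 1 + ε := by
    calc ‖a S.vac‖ = ‖h + (a S.vac - h)‖ := by congr 1; abel
      _ ≤ ‖h‖ + ‖a S.vac - h‖ := norm_add_le _ _
      _ ≤ 1 + ε := by rw [hh]; linarith
  have hnh' : ‖h'‖ ≤ 1 + ε := by
    calc ‖h'‖ = ‖h + (h' - h)‖ := by congr 1; abel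
      _ ≤ ‖h‖ + ‖h' - h‖ := norm_add_le _ _
      _ ≤ 1 + ε := by rw [hh]; linarith
  have hmain := main_ineq S herg ω hω (T * S.D.apply χ) N hN hNsup haM
  have hfun : (fun r : ℝ => ‖(T * S.D.apply χ) (S.flow r a S.vac)‖ ^ 2)
      = fun r : ℝ => ‖T (S.D.wave r h')‖ ^ 2 := by
    ext r
    rw [flow_vac]
    change ‖T (S.D.apply χ (S.D.wave r (a S.vac)))‖ ^ 2 = _
    rw [apply_wave_comm]
  rw [hfun] at hmain
  -- bound of the right-hand side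
  have hsq : ‖a S.vac‖ ^ 2 + ‖star a S.vac‖ ^ 2 ≤ (1 + Real.exp (s + 4)) * (1 + ε) ^ 2 := by
    have e1 : ‖star a S.vac‖ ^ 2 ≤ Real.exp (s + 4) * ‖a S.vac‖ ^ 2 := by
      have := pow_le_pow_left₀ (norm_nonneg _) hkms 2
      refine this.trans ?_
      rw [mul_pow, ← Real.exp_nat_mul]
      apply mul_le_mul_of_nonneg_right _ (sq_nonneg _)
      apply Real.exp_le_exp.mpr
      push_cast
      linarith
    have e2 : ‖a S.vac‖ ^ 2 ≤ (1 + ε) ^ 2 := pow_le_pow_left₀ (norm_nonneg _) hna 2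
    have e3 := Real.exp_pos (s + 4)
    nlinarith
  -- comparison of the two means
  have hpt : ∀ r : ℝ, ‖T (S.D.wave r h)‖ ^ 2
      ≤ ‖T (S.D.wave r h')‖ ^ 2 + ‖T‖ ^ 2 * (ε * (2 + 3 * ε)) := by
    intro r
    have d1 : ‖T (S.D.wave r h)‖ ≤ ‖T (S.D.wave r h')‖ + ‖T‖ * ε := by
      have : T (S.D.wave r h) = T (S.D.wave r h') - T (S.D.wave r (h' - h)) := by
        rw [map_sub, map_sub]; abel
      rw [this]
      refine (norm_sub_le _ _).trans (add_le_add le_rfl ?_)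
      refine (T.le_opNorm _).trans ?_
      rw [norm_wave_apply]
      exact mul_le_mul_of_nonneg_left h2 (norm_nonneg _)
    have d2 : ‖T (S.D.wave r h')‖ ≤ ‖T‖ * (1 + ε) := by
      refine (T.le_opNorm _).trans ?_
      rw [norm_wave_apply]
      exact mul_le_mul_of_nonneg_left hnh' (norm_nonneg _)
    have d3 := pow_le_pow_left₀ (norm_nonneg _) d1 2
    have d4 : 0 ≤ ‖T‖ * ε := by positivity
    nlinarith [norm_nonneg (T (S.D.wave r h')), norm_nonneg T]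
  have hmono := gMean_mono ω (nice_norm_sq_wave S T h)
    ((nice_norm_sq_wave S T h').add (Nice.const _)) hpt
  rw [gMean_add ω (nice_norm_sq_wave S T h') (Nice.const _), gMean_const ω hω] at hmono
  refine hmono.trans (add_le_add ?_ le_rfl)
  refine hmain.trans ?_
  exact mul_le_mul_of_nonneg_left hsq (sq_nonneg _)


theorem step (herg : S.Ergodic) (ω : Ultrafilter ℕ) (hω : (ω : Filter ℕ) ≤ atTop)
    (T : H →L[ℂ] H) (s δ : ℝ) (hδ1 : δ ≤ 1) (h : H) (hh : ‖h‖ = 1)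
    (hband : S.D.SupportedIn (Set.Icc (s - δ) (s + δ)) h) (C₀ : ℝ)
    (hker : ∃ (κ : ℝ → ℂ) (c : ℝ) (χ : BoundedContinuousFunction ℝ ℂ), Integrable κ ∧
      (∫ τ, ‖κ τ‖) ≤ C₀ ∧
      ‖χ‖ ≤ 1 ∧ (∀ u ∈ Set.Icc (s - δ) (s + δ), χ u = 1) ∧
      (∀ u, u ∉ Set.Icc (s - 4 * δ) (s + 4 * δ) → χ u = 0) ∧
      ∀ u : ℝ, χ u = ∫ τ, κ τ * Complex.exp (Complex.I * (((c * τ) * u : ℝ) : ℂ)))
    (c : ℝ) (hc : c ≤ gMean ω (fun t : ℝ => ‖T (S.D.wave t h)‖ ^ 2))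
    (η : ℝ) (hη0 : 0 ≤ η) (hη : η ^ 2 * (1 + Real.exp (s + 4)) < c) :
    ∃ v : H →L[ℂ] H, v ∈ S.M ∧ ‖v‖ ≤ C₀ ∧ η ≤ ‖T (v S.vac)‖ ∧
      S.D.SupportedIn (Set.Icc (s - 4 * δ) (s + 4 * δ)) (v S.vac) := by
  obtain ⟨κ, cc, χ, hκ, hκC, hχn, hχ1, hχ0, hχF⟩ := hker
  set L : H →L[ℂ] H := T * S.D.apply χ with hL
  set 𝒮 : Set ℝ := {r | ∃ U ∈ unitary (H →L[ℂ] H), U ∈ S.M ∧ r = ‖L (U S.vac)‖} with h𝒮
  have hbdd : BddAbove 𝒮 := by
    refine ⟨‖L‖, ?_⟩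
    rintro r ⟨U, hU, _, rfl⟩
    refine (L.le_opNorm _).trans ?_
    rw [norm_unitary_vac S hU, mul_one]
  have hne : 𝒮.Nonempty := ⟨_, 1, one_mem _, one_mem _, rfl⟩
  set N : ℝ := sSup 𝒮 with hNdef
  have hN : ∀ U ∈ unitary (H →L[ℂ] H), U ∈ S.M → ‖L (U S.vac)‖ ≤ N :=
    fun U hU hUM => le_csSup hbdd ⟨U, hU, hUM, rfl⟩
  have hN0 : 0 ≤ N := (norm_nonneg _).trans (hN 1 (one_mem _) (one_mem _))
  have hNsup : ∀ ε' : ℝ, 0 < ε' → ∃ U₀ ∈ unitary (H →L[ℂ] H), U₀ ∈ S.M ∧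
      N ^ 2 - ε' ≤ ‖L (U₀ S.vac)‖ ^ 2 := by
    intro ε' hε'
    by_contra hcon
    push Not at hcon
    have hpos : 0 ≤ N ^ 2 - ε' := (sq_nonneg _).trans (hcon 1 (one_mem _) (one_mem _)).le
    have hle : N ≤ Real.sqrt (N ^ 2 - ε') := by
      apply csSup_le hne
      rintro r ⟨U, hU, hUM, rfl⟩
      exact Real.le_sqrt_of_sq_le (hcon U hU hUM).le
    have := pow_le_pow_left₀ hN0 hle 2
    rw [Real.sq_sqrt hpos] at this
    linarith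
  have hclaim : c ≤ N ^ 2 * (1 + Real.exp (s + 4)) := by
    have hev : ∀ᶠ ε in 𝓝[>] (0 : ℝ),
        c ≤ N ^ 2 * ((1 + Real.exp (s + 4)) * (1 + ε) ^ 2) + ‖T‖ ^ 2 * (ε * (2 + 3 * ε)) := by
      filter_upwards [self_mem_nhdsWithin] with ε hε
      exact hc.trans (claim_eps S herg ω hω T s δ hδ1 h hh hband hκ cc χ hχn hχ1 hχ0 hχF N hN
        hNsup ε hε)
    have hcont : Continuous fun ε : ℝ =>
        N ^ 2 * ((1 + Real.exp (s + 4)) * (1 + ε) ^ 2) + ‖T‖ ^ 2 * (ε * (2 + 3 * ε)) := by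
      fun_prop
    have htend := (hcont.tendsto 0).mono_left (nhdsWithin_le_nhds (s := Set.Ioi 0))
    have := ge_of_tendsto htend hev
    simpa using this
  have hlt : η < N := by
    have hpos : 0 < 1 + Real.exp (s + 4) := by positivity
    have h1 : η ^ 2 * (1 + Real.exp (s + 4)) < N ^ 2 * (1 + Real.exp (s + 4)) :=
      lt_of_lt_of_le hη hclaim
    have h2 : η ^ 2 < N ^ 2 := lt_of_mul_lt_mul_right h1 hpos.le
    exact lt_of_pow_lt_pow_left₀ 2 hN0 h2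
  obtain ⟨r, ⟨U, hU, hUM, rfl⟩, hr⟩ := exists_lt_of_lt_csSup hne hlt
  refine ⟨smooth S hκ cc U, smooth_mem S hκ cc hUM, ?_, ?_, ?_⟩
  · refine (norm_smooth_le S hκ cc U).trans ?_
    have hU1 : ‖U‖ ≤ 1 := by
      apply ContinuousLinearMap.opNorm_le_bound _ zero_le_one
      intro x
      rw [ContinuousLinearMap.norm_map_of_mem_unitary hU, one_mul]
    have hint : 0 ≤ ∫ τ, ‖κ τ‖ := integral_nonneg fun _ => norm_nonneg _
    calc (∫ τ, ‖κ τ‖) * ‖U‖ ≤ (∫ τ, ‖κ τ‖) * 1 := mul_le_mul_of_nonneg_left hU1 hint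
      _ ≤ C₀ := by rw [mul_one]; exact hκC
  · rw [smooth_vac S hκ cc χ hχF]
    exact hr.le
  · rw [smooth_vac S hκ cc χ hχF]
    exact supportedIn_apply χ hχ0 _

end Mod

end Crest.Agent.S0112
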