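import Crest.Statements.S0112

set_option autoImplicit false
open Crest Crest.OpAlg
open scoped InnerProductSpace

namespace Crest.Agent.S0112

variable {H : Type*} [NormedAddCommGroup H] [InnerProductSpace ℂ H] [CompleteSpace H]

local notation "BCF" => BoundedContinuousFunction ℝ ℂ

theorem norm_apply_le (D : LineCalculus H) (f : BCF) : ‖D.apply f‖ ≤ ‖f‖ :=
  NonUnitalStarAlgHom.norm_apply_le D.apply f

theorem norm_apply_apply_le (D : LineCalculus H) (f : BCF) (x : H) :
    ‖D.apply f x‖ ≤ ‖f‖ * ‖x‖ :=
  ((D.apply f).le_opNorm x).trans (mul_le_mul_of_nonneg_right (norm_apply_le D f) (norm_nonneg _))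

theorem apply_mul_apply (D : LineCalculus H) (f g : BCF) (x : H) :
    D.apply (f * g) x = D.apply f (D.apply g x) := by
  rw [map_mul]; rfl

theorem apply_comm (D : LineCalculus H) (f g : BCF) (x : H) :
    D.apply f (D.apply g x) = D.apply g (D.apply f x) := by
  rw [← apply_mul_apply, ← apply_mul_apply, mul_comm]

theorem character_apply (t u : ℝ) :
    LineCalculus.character t u = Complex.exp (Complex.I * ((t * u : ℝ) : ℂ)) := rfl

theorem character_add (t r : ℝ) :
    LineCalculus.character (t + r) = LineCalculus.character t * LineCalculus.character r := by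
  ext u
  simp only [character_apply, BoundedContinuousFunction.coe_mul, Pi.mul_apply, ← Complex.exp_add]
  congr 1
  push_cast
  ring

theorem character_zero : LineCalculus.character 0 = 1 := by
  ext u
  simp [character_apply]

theorem star_character (t : ℝ) :
    star (LineCalculus.character t) = LineCalculus.character (-t) := by
  ext u
  simp only [BoundedContinuousFunction.star_apply, character_apply]
  rw [Complex.star_def, ← Complex.exp_conj]
  congr 1
  simp

theorem norm_character_le (t : ℝ) : ‖LineCalculus.character t‖ ≤ 1 := by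
  rw [BoundedContinuousFunction.norm_le zero_le_one]
  intro u
  rw [character_apply, Complex.norm_exp]
  simp

theorem wave_add (D : LineCalculus H) (t r : ℝ) : D.wave (t + r) = D.wave t * D.wave r := by
  simp only [LineCalculus.wave, character_add, map_mul]

theorem wave_zero (D : LineCalculus H) : D.wave 0 = 1 := by
  simp only [LineCalculus.wave, character_zero, map_one]

theorem star_wave (D : LineCalculus H) (t : ℝ) : star (D.wave t) = D.wave (-t) := by
  simp only [LineCalculus.wave, ← map_star, star_character]

theorem wave_neg_mul (D : LineCalculus H) (t : ℝ) : D.wave (-t) * D.wave t = 1 := by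
  rw [← wave_add, neg_add_cancel, wave_zero]

theorem wave_mul_neg (D : LineCalculus H) (t : ℝ) : D.wave t * D.wave (-t) = 1 := by
  rw [← wave_add, add_neg_cancel, wave_zero]

theorem wave_neg_wave (D : LineCalculus H) (t : ℝ) (x : H) : D.wave (-t) (D.wave t x) = x := by
  have := congrArg (fun A : H →L[ℂ] H => A x) (wave_neg_mul D t)
  simpa using this

theorem wave_wave_neg (D : LineCalculus H) (t : ℝ) (x : H) : D.wave t (D.wave (-t) x) = x := by
  have := congrArg (fun A : H →L[ℂ] H => A x) (wave_mul_neg D t)
  simpa using this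

theorem wave_add_apply (D : LineCalculus H) (t r : ℝ) (x : H) :
    D.wave (t + r) x = D.wave t (D.wave r x) := by
  rw [wave_add]; rfl

theorem norm_wave_apply_le (D : LineCalculus H) (t : ℝ) (x : H) : ‖D.wave t x‖ ≤ ‖x‖ := by
  have := norm_apply_apply_le D (LineCalculus.character t) x
  refine this.trans ?_
  calc _ ≤ 1 * ‖x‖ := mul_le_mul_of_nonneg_right (norm_character_le t) (norm_nonneg _)
    _ = ‖x‖ := one_mul _

theorem norm_wave_apply (D : LineCalculus H) (t : ℝ) (x : H) : ‖D.wave t x‖ = ‖x‖ := by
  refine le_antisymm (norm_wave_apply_le D t x) ?_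
  calc ‖x‖ = ‖D.wave (-t) (D.wave t x)‖ := by rw [wave_neg_wave]
    _ ≤ ‖D.wave t x‖ := norm_wave_apply_le D _ _

theorem norm_wave_le (D : LineCalculus H) (t : ℝ) : ‖D.wave t‖ ≤ 1 :=
  (norm_apply_le D _).trans (norm_character_le t)

theorem inner_wave_left (D : LineCalculus H) (t : ℝ) (x y : H) :
    ⟪D.wave t x, y⟫_ℂ = ⟪x, D.wave (-t) y⟫_ℂ := by
  rw [← star_wave, ContinuousLinearMap.star_eq_adjoint, ContinuousLinearMap.adjoint_inner_right]

theorem inner_wave_right (D : LineCalculus H) (t : ℝ) (x y : H) :
    ⟪x, D.wave t y⟫_ℂ = ⟪D.wave (-t) x, y⟫_ℂ := by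
  rw [inner_wave_left, neg_neg]

theorem apply_wave_comm (D : LineCalculus H) (f : BCF) (t : ℝ) (x : H) :
    D.apply f (D.wave t x) = D.wave t (D.apply f x) :=
  apply_comm D _ _ _

/-- separation: a vector killed by all compactly supported functions of `D` is zero. -/
theorem eq_zero_of_forall_compact (D : LineCalculus H) (w : H)
    (h : ∀ f : BCF, HasCompactSupport (f : ℝ → ℂ) → D.apply f w = 0) : w = 0 := by
  by_contra hw
  have hpos : 0 < ‖w‖ := norm_pos_iff.mpr hw
  obtain ⟨f, hf, hlt⟩ := D.window w ‖w‖ hpos
  rw [h f hf, zero_sub, norm_neg] at hlt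
  exact lt_irrefl _ hlt

theorem eq_of_forall_compact (D : LineCalculus H) (w w' : H)
    (h : ∀ f : BCF, HasCompactSupport (f : ℝ → ℂ) → D.apply f w = D.apply f w') : w = w' := by
  rw [← sub_eq_zero]
  apply eq_zero_of_forall_compact D
  intro f hf
  rw [map_sub, h f hf, sub_self]

theorem SupportedIn.apply_congr {D : LineCalculus H} {K : Set ℝ} {x : H}
    (hx : D.SupportedIn K x) {f g : BCF} (hfg : ∀ u ∈ K, f u = g u) :
    D.apply f x = D.apply g x := by
  rw [← sub_eq_zero, ← sub_apply, ← map_sub]
  apply hx
  intro u hu
  simp [hfg u hu]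

theorem supportedIn_apply {D : LineCalculus H} {K : Set ℝ} (χ : BCF)
    (hχ : ∀ u, u ∉ K → χ u = 0) (x : H) : D.SupportedIn K (D.apply χ x) := by
  intro f hf
  rw [← apply_mul_apply]
  have : f * χ = 0 := by
    ext u
    by_cases hu : u ∈ K
    · simp [hf u hu]
    · simp [hχ u hu]
  rw [this, map_zero]; rfl

theorem SupportedIn.wave {D : LineCalculus H} {K : Set ℝ} {x : H}
    (hx : D.SupportedIn K x) (t : ℝ) : D.SupportedIn K (D.wave t x) := by
  intro f hf
  rw [apply_wave_comm, hx f hf, map_zero]


/-- `t ↦ e_t * f` is norm continuous when `f` has compact support. -/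
theorem continuous_character_mul (f : BCF) (hf : HasCompactSupport (f : ℝ → ℂ)) :
    Continuous fun t : ℝ => LineCalculus.character t * f := by
  obtain ⟨R, hR⟩ := hf.isCompact.isBounded.subset_closedBall (0 : ℝ)
  have key : ∀ t t' : ℝ, dist (LineCalculus.character t * f) (LineCalculus.character t' * f)
      ≤ (|R| * ‖f‖) * dist t t' := by
    intro t t'
    rw [BoundedContinuousFunction.dist_le (by positivity)]
    intro u
    simp only [BoundedContinuousFunction.coe_mul, Pi.mul_apply]
    by_cases hu : u ∈ tsupport (f : ℝ → ℂ)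
    · have hu' : |u| ≤ |R| := by
        have := hR hu
        rw [Metric.mem_closedBall, Real.dist_eq, sub_zero] at this
        exact this.trans (le_abs_self R)
      rw [dist_eq_norm, ← sub_mul, norm_mul]
      have h1 : ‖LineCalculus.character t u - LineCalculus.character t' u‖ ≤ |t - t'| * |u| := by
        have : LineCalculus.character t u - LineCalculus.character t' u
            = LineCalculus.character t' u *
              (Complex.exp (Complex.I * (((t - t') * u : ℝ) : ℂ)) - 1) := by
          rw [mul_sub, mul_one, character_apply, character_apply, ← Complex.exp_add]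
          congr 2
          push_cast
          ring
        rw [this, norm_mul]
        have h2 : ‖LineCalculus.character t' u‖ = 1 := by
          rw [character_apply, Complex.norm_exp]; simp
        rw [h2, one_mul]
        refine Real.norm_exp_I_mul_ofReal_sub_one_le.trans ?_
        rw [Real.norm_eq_abs, abs_mul]
      have h3 : ‖f u‖ ≤ ‖f‖ := f.norm_coe_le_norm u
      rw [Real.dist_eq]
      calc _ ≤ (|t - t'| * |u|) * ‖f‖ := mul_le_mul h1 h3 (norm_nonneg _) (by positivity)
        _ ≤ (|t - t'| * |R|) * ‖f‖ := by gcongr
        _ = _ := by ring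
    · rw [image_eq_zero_of_notMem_tsupport hu]
      simp only [mul_zero, dist_self]
      positivity
  have hl : LipschitzWith (Real.toNNReal (|R| * ‖f‖))
      (fun t : ℝ => LineCalculus.character t * f) := by
    apply LipschitzWith.of_dist_le_mul
    intro t t'
    rw [Real.coe_toNNReal _ (by positivity)]
    exact key t t'
  exact hl.continuous

/-- strong continuity of the unitary group. -/
theorem continuous_wave_apply (D : LineCalculus H) (x : H) : Continuous fun t : ℝ => D.wave t x := by
  apply continuous_of_uniform_approx_of_continuous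
  intro U hU
  obtain ⟨ε, hε, hεU⟩ := Metric.mem_uniformity_dist.mp hU
  obtain ⟨f, hf, hlt⟩ := D.window x ε hε
  refine ⟨fun t => D.apply (LineCalculus.character t * f) x, ?_, ?_⟩
  · have h1 : Continuous fun g : BCF => D.apply g x := by
      have : Continuous fun g : BCF => D.apply g :=
        AddMonoidHomClass.continuous_of_bound D.apply 1 (by
          intro g; rw [one_mul]; exact norm_apply_le D g)
      exact (ContinuousLinearMap.apply ℂ H x).continuous.comp this
    exact h1.comp (continuous_character_mul f hf)
  · intro t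
    apply hεU
    simp only []
    rw [apply_mul_apply, dist_eq_norm]
    change ‖D.wave t x - D.wave t (D.apply f x)‖ < ε
    rw [← map_sub, norm_wave_apply, norm_sub_rev]
    exact hlt

theorem continuous_apply (D : LineCalculus H) : Continuous fun g : BCF => D.apply g :=
  AddMonoidHomClass.continuous_of_bound D.apply 1 (by
    intro g; rw [one_mul]; exact norm_apply_le D g)

/-- joint continuity. -/
theorem continuous_wave_comp (D : LineCalculus H) {X : Type*} [TopologicalSpace X]
    {a : X → ℝ} {w : X → H} (ha : Continuous a) (hw : Continuous w) :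
    Continuous fun p : X => D.wave (a p) (w p) := by
  rw [continuous_iff_continuousAt]
  intro p₀
  rw [ContinuousAt, Metric.tendsto_nhds]
  intro ε hε
  have h1 : ∀ᶠ p in nhds p₀, dist (w p) (w p₀) < ε / 2 :=
    (Metric.tendsto_nhds.mp hw.continuousAt) _ (half_pos hε)
  have h2 : ∀ᶠ p in nhds p₀, dist (D.wave (a p) (w p₀)) (D.wave (a p₀) (w p₀)) < ε / 2 :=
    (Metric.tendsto_nhds.mp ((continuous_wave_apply D (w p₀)).comp ha).continuousAt) _ (half_pos hε)
  filter_upwards [h1, h2] with p hp1 hp2
  calc dist (D.wave (a p) (w p)) (D.wave (a p₀) (w p₀))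
      ≤ dist (D.wave (a p) (w p)) (D.wave (a p) (w p₀))
        + dist (D.wave (a p) (w p₀)) (D.wave (a p₀) (w p₀)) := dist_triangle _ _ _
    _ < ε / 2 + ε / 2 := by
        refine add_lt_add ?_ hp2
        rw [dist_eq_norm, ← map_sub, norm_wave_apply, ← dist_eq_norm]
        exact hp1
    _ = ε := add_halves ε

end Crest.Agent.S0112
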