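import Crest.Statements.S0112

set_option autoImplicit false
set_option linter.unusedSectionVars false
open Crest Crest.OpAlg
open Filter MeasureTheory
open scoped Topology

namespace Crest.Agent.S0112

section Mean

variable {E : Type*} [NormedAddCommGroup E] [NormedSpace ℝ E]

/-- window mean for vector valued functions. -/
noncomputable def wMean (F : ℝ → E) (k : ℕ) : E :=
  ⨍ t in Set.Icc (-(k : ℝ)) (k : ℝ), F t

/-- ultrafilter mean for vector valued functions. -/
noncomputable def gMean (ω : Ultrafilter ℕ) (F : ℝ → E) : E :=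
  limUnder (ω : Filter ℕ) (wMean F)

theorem ultraMean_eq (ω : Ultrafilter ℕ) (f : ℝ → ℝ) : ultraMean ω f = gMean ω f := rfl

/-- bounded continuous. -/
structure Nice (F : ℝ → E) : Prop where
  cont : Continuous F
  bdd : ∃ C, ∀ t, ‖F t‖ ≤ C

theorem wMean_eq (F : ℝ → E) (k : ℕ) :
    wMean F k = (2 * (k : ℝ))⁻¹ • ∫ t in (-(k : ℝ))..(k : ℝ), F t := by
  have hk : -(k : ℝ) ≤ (k : ℝ) := by
    have : (0 : ℝ) ≤ k := Nat.cast_nonneg k
    linarith
  rw [wMean, setAverage_eq, Real.volume_real_Icc_of_le hk, integral_Icc_eq_integral_Ioc,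
    intervalIntegral.integral_of_le hk]
  congr 2
  ring

theorem norm_wMean_le {F : ℝ → E} {C : ℝ} (hC : ∀ t, ‖F t‖ ≤ C) (k : ℕ) : ‖wMean F k‖ ≤ C := by
  have hC0 : 0 ≤ C := (norm_nonneg _).trans (hC 0)
  rw [wMean_eq, norm_smul]
  have h1 : ‖∫ t in (-(k : ℝ))..(k : ℝ), F t‖ ≤ C * |(k : ℝ) - (-(k : ℝ))| :=
    intervalIntegral.norm_integral_le_of_norm_le_const (fun t _ => hC t)
  have hk : (0 : ℝ) ≤ k := Nat.cast_nonneg k
  have h2 : |(k : ℝ) - (-(k : ℝ))| = 2 * k := by
    rw [abs_of_nonneg (by linarith)]; ring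
  rw [h2] at h1
  rcases eq_or_lt_of_le hk with hk0 | hk0
  · rw [← hk0]; simpa using hC0
  · rw [norm_inv, Real.norm_eq_abs, abs_of_pos (by linarith : (0 : ℝ) < 2 * k)]
    calc (2 * (k : ℝ))⁻¹ * ‖∫ t in (-(k : ℝ))..(k : ℝ), F t‖
        ≤ (2 * (k : ℝ))⁻¹ * (C * (2 * k)) := by gcongr
      _ = C := by field_simp

theorem tendsto_gMean [ProperSpace E] (ω : Ultrafilter ℕ) {F : ℝ → E} (hF : ∃ C, ∀ t, ‖F t‖ ≤ C) :
    Tendsto (wMean F) (ω : Filter ℕ) (𝓝 (gMean ω F)) := by
  obtain ⟨C, hC⟩ := hF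
  apply tendsto_nhds_limUnder
  have hcomp : IsCompact (Metric.closedBall (0 : E) C) := isCompact_closedBall 0 C
  have hmem : ((ω.map (wMean F) : Ultrafilter E) : Filter E) ≤ 𝓟 (Metric.closedBall (0 : E) C) := by
    rw [le_principal_iff]
    change _ ∈ Filter.map (wMean F) (ω : Filter ℕ)
    rw [mem_map]
    apply Filter.univ_mem'
    intro k
    simp only [Set.mem_preimage, mem_closedBall_zero_iff]
    exact norm_wMean_le hC k
  obtain ⟨x, _, hx⟩ := hcomp.ultrafilter_le_nhds _ hmem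
  exact ⟨x, hx⟩

theorem gMean_eq_of_tendsto (ω : Ultrafilter ℕ) {F : ℝ → E} {x : E}
    (h : Tendsto (wMean F) (ω : Filter ℕ) (𝓝 x)) : gMean ω F = x :=
  h.limUnder_eq

theorem Nice.add {F G : ℝ → E} (hF : Nice F) (hG : Nice G) : Nice (fun t => F t + G t) := by
  obtain ⟨C, hC⟩ := hF.bdd
  obtain ⟨C', hC'⟩ := hG.bdd
  exact ⟨hF.cont.add hG.cont, C + C', fun t => (norm_add_le _ _).trans (add_le_add (hC t) (hC' t))⟩

theorem Nice.const (c : E) : Nice (fun _ : ℝ => c) := ⟨continuous_const, ‖c‖, fun _ => le_rfl⟩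

theorem Nice.clm {E' : Type*} [NormedAddCommGroup E'] [NormedSpace ℝ E'] {F : ℝ → E}
    (hF : Nice F) (L : E →L[ℝ] E') : Nice (fun t => L (F t)) := by
  obtain ⟨C, hC⟩ := hF.bdd
  refine ⟨L.continuous.comp hF.cont, ‖L‖ * C, fun t => ?_⟩
  exact (L.le_opNorm _).trans (mul_le_mul_of_nonneg_left (hC t) (norm_nonneg _))

theorem Nice.shift {F : ℝ → E} (hF : Nice F) (r : ℝ) : Nice (fun t => F (t + r)) := by
  obtain ⟨C, hC⟩ := hF.bdd
  exact ⟨hF.cont.comp (continuous_id.add continuous_const), C, fun t => hC _⟩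

theorem Nice.neg {F : ℝ → E} (hF : Nice F) : Nice (fun t => - F t) := by
  obtain ⟨C, hC⟩ := hF.bdd
  exact ⟨hF.cont.neg, C, fun t => by rw [norm_neg]; exact hC t⟩

theorem Nice.sub {F G : ℝ → E} (hF : Nice F) (hG : Nice G) : Nice (fun t => F t - G t) := by
  simpa [sub_eq_add_neg] using hF.add hG.neg

theorem wMean_add {F G : ℝ → E} (hF : Nice F) (hG : Nice G) (k : ℕ) :
    wMean (fun t => F t + G t) k = wMean F k + wMean G k := by
  rw [wMean_eq, wMean_eq, wMean_eq, intervalIntegral.integral_add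
    (hF.cont.intervalIntegrable _ _) (hG.cont.intervalIntegrable _ _), smul_add]

theorem wMean_clm [CompleteSpace E] {E' : Type*} [NormedAddCommGroup E'] [NormedSpace ℝ E'] [CompleteSpace E']
    {F : ℝ → E} (hF : Nice F) (L : E →L[ℝ] E') (k : ℕ) :
    wMean (fun t => L (F t)) k = L (wMean F k) := by
  rw [wMean_eq, wMean_eq, ContinuousLinearMap.intervalIntegral_comp_comm L
    (hF.cont.intervalIntegrable _ _), map_smul]

theorem gMean_add [ProperSpace E] (ω : Ultrafilter ℕ) {F G : ℝ → E} (hF : Nice F) (hG : Nice G) :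
    gMean ω (fun t => F t + G t) = gMean ω F + gMean ω G := by
  apply gMean_eq_of_tendsto
  have := (tendsto_gMean ω hF.bdd).add (tendsto_gMean ω hG.bdd)
  refine this.congr ?_
  intro k
  rw [wMean_add hF hG]

theorem gMean_clm [ProperSpace E] {E' : Type*} [NormedAddCommGroup E'] [NormedSpace ℝ E']
    [CompleteSpace E'] (ω : Ultrafilter ℕ)
    {F : ℝ → E} (hF : Nice F) (L : E →L[ℝ] E') :
    gMean ω (fun t => L (F t)) = L (gMean ω F) := by
  apply gMean_eq_of_tendsto
  have := (L.continuous.tendsto _).comp (tendsto_gMean ω hF.bdd)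
  refine this.congr ?_
  intro k
  rw [wMean_clm hF L]
  rfl

theorem gMean_neg [ProperSpace E] (ω : Ultrafilter ℕ) {F : ℝ → E} (hF : Nice F) :
    gMean ω (fun t => - F t) = - gMean ω F := by
  have := gMean_clm ω hF (-(ContinuousLinearMap.id ℝ E))
  simpa using this

theorem gMean_sub [ProperSpace E] (ω : Ultrafilter ℕ) {F G : ℝ → E} (hF : Nice F) (hG : Nice G) :
    gMean ω (fun t => F t - G t) = gMean ω F - gMean ω G := by
  have := gMean_add ω hF hG.neg
  rw [gMean_neg ω hG] at this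
  simpa [sub_eq_add_neg] using this

theorem norm_gMean_le [ProperSpace E] (ω : Ultrafilter ℕ) {F : ℝ → E} {C : ℝ}
    (hC : ∀ t, ‖F t‖ ≤ C) : ‖gMean ω F‖ ≤ C := by
  have h := tendsto_gMean ω (F := F) ⟨C, hC⟩
  exact le_of_tendsto h.norm (Filter.Eventually.of_forall fun k => norm_wMean_le hC k)

theorem gMean_const [CompleteSpace E] (ω : Ultrafilter ℕ) (hω : (ω : Filter ℕ) ≤ atTop) (c : E) :
    gMean ω (fun _ : ℝ => c) = c := by
  apply gMean_eq_of_tendsto
  apply tendsto_const_nhds.congr'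
  have : ∀ᶠ k : ℕ in atTop, c = wMean (fun _ : ℝ => c) k := by
    filter_upwards [eventually_ge_atTop 1] with k hk
    have hk' : (0 : ℝ) < k := by exact_mod_cast hk
    rw [wMean_eq, intervalIntegral.integral_const, smul_smul]
    have : (2 * (k : ℝ))⁻¹ * ((k : ℝ) - -(k : ℝ)) = 1 := by field_simp; ring
    rw [this, one_smul]
  exact hω this

theorem gMean_shift [ProperSpace E] (ω : Ultrafilter ℕ) (hω : (ω : Filter ℕ) ≤ atTop)
    {F : ℝ → E} (hF : Nice F) (r : ℝ) :
    gMean ω (fun t => F (t + r)) = gMean ω F := by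
  obtain ⟨C, hC⟩ := hF.bdd
  have hC0 : 0 ≤ C := (norm_nonneg _).trans (hC 0)
  have h1 := tendsto_gMean ω (hF.shift r).bdd
  have h2 := tendsto_gMean ω hF.bdd
  have h3 : Tendsto (fun k => wMean (fun t => F (t + r)) k - wMean F k) (ω : Filter ℕ) (𝓝 0) := by
    apply Tendsto.mono_left _ hω
    have hb : ∀ k : ℕ, ‖wMean (fun t => F (t + r)) k - wMean F k‖ ≤ (C * |r|) * ((k : ℝ))⁻¹ := by
      intro k
      rw [wMean_eq, wMean_eq, ← smul_sub, intervalIntegral.integral_comp_add_right,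
        intervalIntegral.integral_interval_sub_interval_comm
          (hF.cont.intervalIntegrable _ _) (hF.cont.intervalIntegrable _ _)
          (hF.cont.intervalIntegrable _ _), norm_smul]
      have e1 : ‖∫ t in (-(k : ℝ) + r)..(-(k : ℝ)), F t‖ ≤ C * |r| := by
        have := intervalIntegral.norm_integral_le_of_norm_le_const
          (a := -(k : ℝ) + r) (b := -(k : ℝ)) (f := F) (C := C) (fun t _ => hC t)
        refine this.trans (le_of_eq ?_)
        congr 1
        rw [← abs_neg]; congr 1; ring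
      have e2 : ‖∫ t in ((k : ℝ) + r)..(k : ℝ), F t‖ ≤ C * |r| := by
        have := intervalIntegral.norm_integral_le_of_norm_le_const
          (a := (k : ℝ) + r) (b := (k : ℝ)) (f := F) (C := C) (fun t _ => hC t)
        refine this.trans (le_of_eq ?_)
        congr 1
        rw [← abs_neg]; congr 1; ring
      have hk : (0 : ℝ) ≤ k := Nat.cast_nonneg k
      rw [norm_inv, Real.norm_eq_abs, abs_of_nonneg (by linarith : (0 : ℝ) ≤ 2 * k)]
      calc (2 * (k : ℝ))⁻¹ * ‖(∫ t in (-(k : ℝ) + r)..(-(k : ℝ)), F t) - ∫ t in ((k : ℝ) + r)..(k : ℝ), F t‖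
          ≤ (2 * (k : ℝ))⁻¹ * (C * |r| + C * |r|) := by
            gcongr
            exact (norm_sub_le _ _).trans (add_le_add e1 e2)
        _ = (C * |r|) * ((k : ℝ))⁻¹ := by
            rw [mul_inv]; ring
    apply squeeze_zero_norm hb
    have : Tendsto (fun k : ℕ => ((k : ℝ))⁻¹) atTop (𝓝 0) := tendsto_inv_atTop_nhds_zero_nat
    simpa using this.const_mul (C * |r|)
  have h4 := h1.sub h2
  have := tendsto_nhds_unique h4 h3
  exact sub_eq_zero.mp this

end Mean

theorem gMean_mono (ω : Ultrafilter ℕ) {f g : ℝ → ℝ} (hf : Nice f) (hg : Nice g)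
    (hfg : ∀ t, f t ≤ g t) : gMean ω f ≤ gMean ω g := by
  refine le_of_tendsto_of_tendsto (tendsto_gMean ω hf.bdd) (tendsto_gMean ω hg.bdd) ?_
  apply Filter.Eventually.of_forall
  intro k
  rw [wMean_eq, wMean_eq]
  have hk : (0 : ℝ) ≤ k := Nat.cast_nonneg k
  simp only [smul_eq_mul]
  apply mul_le_mul_of_nonneg_left _ (by positivity)
  apply intervalIntegral.integral_mono_on (by linarith) (hf.cont.intervalIntegrable _ _)
    (hg.cont.intervalIntegrable _ _)
  intro t _
  exact hfg t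

end Crest.Agent.S0112
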