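import Crest.Agent.S0112_Mod
import Crest.Agent.S0112_Mean

set_option autoImplicit false
open Crest Crest.OpAlg
open Filter MeasureTheory
open scoped Topology InnerProductSpace

namespace Crest.Agent.S0112

variable {H : Type*} [NormedAddCommGroup H] [InnerProductSpace ℂ H] [CompleteSpace H]

theorem gMean_const_mul (ω : Ultrafilter ℕ) {F : ℝ → ℂ} (hF : Nice F) (c : ℂ) :
    gMean ω (fun t => c * F t) = c * gMean ω F := by
  have := gMean_clm ω hF ((ContinuousLinearMap.mul ℝ ℂ) c)
  simpa using this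

theorem Nice.const_mul {F : ℝ → ℂ} (hF : Nice F) (c : ℂ) : Nice (fun t => c * F t) := by
  have := hF.clm ((ContinuousLinearMap.mul ℝ ℂ) c)
  simpa using this

namespace Mod

variable (S : ModularDatum H)

theorem flow_apply (t : ℝ) (y : H →L[ℂ] H) (x : H) :
    S.flow t y x = S.D.wave t (y (S.D.wave (-t) x)) := rfl

theorem continuous_flow_apply (y : H →L[ℂ] H) (x : H) : Continuous fun t : ℝ => S.flow t y x := by
  simp only [flow_apply]
  apply continuous_wave_comp S.D continuous_id
  apply y.continuous.comp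
  exact continuous_wave_comp S.D continuous_neg continuous_const

theorem norm_flow_apply_le (t : ℝ) (y : H →L[ℂ] H) (x : H) : ‖S.flow t y x‖ ≤ ‖y‖ * ‖x‖ := by
  rw [flow_apply, norm_wave_apply]
  refine (y.le_opNorm _).trans ?_
  rw [norm_wave_apply]

theorem nice_flow_inner (y : H →L[ℂ] H) (x z : H) : Nice (fun t : ℝ => ⟪S.flow t y x, z⟫_ℂ) := by
  refine ⟨(continuous_flow_apply S y x).inner continuous_const, ‖y‖ * ‖x‖ * ‖z‖, fun t => ?_⟩
  refine (norm_inner_le_norm _ _).trans ?_
  exact mul_le_mul_of_nonneg_right (norm_flow_apply_le S t y x) (norm_nonneg _)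

/-- the sesquilinear form of the mean of the flow. -/
noncomputable def meanForm (ω : Ultrafilter ℕ) (y : H →L[ℂ] H) : H →L⋆[ℂ] H →L[ℂ] ℂ :=
  LinearMap.mkContinuous₂
    (LinearMap.mk₂'ₛₗ (starRingEnd ℂ) (RingHom.id ℂ)
      (fun x z => gMean ω (fun t : ℝ => ⟪S.flow t y x, z⟫_ℂ))
      (fun x x' z => by
        simp only [map_add, inner_add_left]
        exact gMean_add ω (nice_flow_inner S y x z) (nice_flow_inner S y x' z))
      (fun c x z => by
        simp only [map_smul, inner_smul_left, smul_eq_mul]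
        exact gMean_const_mul ω (nice_flow_inner S y x z) _)
      (fun x z z' => by
        simp only [inner_add_right]
        exact gMean_add ω (nice_flow_inner S y x z) (nice_flow_inner S y x z'))
      (fun c x z => by
        simp only [inner_smul_right, smul_eq_mul, RingHom.id_apply]
        exact gMean_const_mul ω (nice_flow_inner S y x z) _))
    ‖y‖
    (fun x z => by
      simp only [LinearMap.mk₂'ₛₗ_apply]
      apply norm_gMean_le
      intro t
      refine (norm_inner_le_norm _ _).trans ?_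
      exact mul_le_mul_of_nonneg_right (norm_flow_apply_le S t y x) (norm_nonneg _))

/-- the mean of the flow as an operator. -/
noncomputable def meanOp (ω : Ultrafilter ℕ) (y : H →L[ℂ] H) : H →L[ℂ] H :=
  InnerProductSpace.continuousLinearMapOfBilin (meanForm S ω y)

theorem inner_meanOp (ω : Ultrafilter ℕ) (y : H →L[ℂ] H) (x z : H) :
    ⟪meanOp S ω y x, z⟫_ℂ = gMean ω (fun t : ℝ => ⟪S.flow t y x, z⟫_ℂ) := by
  rw [meanOp, InnerProductSpace.continuousLinearMapOfBilin_apply]
  rfl

theorem mem_of_commute {b : H →L[ℂ] H}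
    (h : ∀ g : H →L[ℂ] H, (∀ a ∈ S.M, a * g = g * a) → g * b = b * g) : b ∈ S.M := by
  rw [← S.M.commutant_commutant, VonNeumannAlgebra.mem_commutant_iff]
  intro g hg
  rw [VonNeumannAlgebra.mem_commutant_iff] at hg
  exact h g hg

theorem flow_mem' (t : ℝ) {a : H →L[ℂ] H} (ha : a ∈ S.M) : S.flow t a ∈ S.M :=
  S.flow_mem t a ha

theorem meanOp_mem (ω : Ultrafilter ℕ) {y : H →L[ℂ] H} (hy : y ∈ S.M) : meanOp S ω y ∈ S.M := by
  apply mem_of_commute
  intro g hg
  ext x
  apply ext_inner_right ℂ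
  intro z
  simp only [mul_apply_eq_comp]
  rw [← ContinuousLinearMap.adjoint_inner_right, inner_meanOp, inner_meanOp]
  congr 1
  ext t
  rw [ContinuousLinearMap.adjoint_inner_right]
  have := congrArg (fun A : H →L[ℂ] H => A x) (hg _ (flow_mem' S t hy))
  simp only [mul_apply_eq_comp] at this
  rw [this]

theorem flow_flow (r t : ℝ) (y : H →L[ℂ] H) : S.flow r (S.flow t y) = S.flow (t + r) y := by
  ext x
  simp only [flow_apply]
  rw [← wave_add_apply, ← wave_add_apply]
  have h1 : r + t = t + r := by ring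
  have h2 : -t + -r = -(t + r) := by ring
  rw [h1, h2]

theorem flow_meanOp (ω : Ultrafilter ℕ) (hω : (ω : Filter ℕ) ≤ atTop) (y : H →L[ℂ] H) (r : ℝ) :
    S.flow r (meanOp S ω y) = meanOp S ω y := by
  ext x
  apply ext_inner_right ℂ
  intro z
  rw [flow_apply, inner_wave_left, inner_meanOp, inner_meanOp,
    ← gMean_shift ω hω (nice_flow_inner S y x z) r]
  congr 1
  ext t
  rw [← flow_flow, flow_apply S r, inner_wave_left]

theorem flow_vac (t : ℝ) (y : H →L[ℂ] H) : S.flow t y S.vac = S.D.wave t (y S.vac) := by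
  rw [flow_apply, wave_vac]

theorem mean_flow_inner (herg : S.Ergodic) (ω : Ultrafilter ℕ) (hω : (ω : Filter ℕ) ≤ atTop)
    {y : H →L[ℂ] H} (hy : y ∈ S.M) (x z : H) :
    gMean ω (fun t : ℝ => ⟪S.flow t y x, z⟫_ℂ) = ⟪y S.vac, S.vac⟫_ℂ * ⟪x, z⟫_ℂ := by
  obtain ⟨c, hc⟩ := herg (meanOp S ω y) (meanOp_mem S ω hy) (flow_meanOp S ω hω y)
  have h1 : ⟪meanOp S ω y S.vac, S.vac⟫_ℂ = ⟪y S.vac, S.vac⟫_ℂ := by
    rw [inner_meanOp]
    have : (fun t : ℝ => ⟪S.flow t y S.vac, S.vac⟫_ℂ) = fun _ => ⟪y S.vac, S.vac⟫_ℂ := by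
      ext t
      rw [flow_vac, inner_wave_left, wave_vac]
    rw [this, gMean_const ω hω]
  rw [hc] at h1
  simp only [smul_apply, one_apply_eq_self, inner_smul_left,
    inner_self_eq_norm_sq_to_K, S.norm_vac] at h1
  rw [← inner_meanOp, hc]
  simp only [smul_apply, one_apply_eq_self, inner_smul_left]
  rw [← h1]
  simp

end Mod

end Crest.Agent.S0112
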