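import Crest.Statements.S0112

set_option autoImplicit false
open Filter MeasureTheory
open scoped Topology InnerProductSpace FourierTransform ContDiff SchwartzMap

namespace Crest.Agent.S0112

theorem exists_kernel : ∃ (K χ₀ : ℝ → ℂ), Integrable K ∧ Continuous χ₀ ∧ (∀ w, ‖χ₀ w‖ ≤ 1) ∧
    (∀ w, |w| ≤ 1 → χ₀ w = 1) ∧ (∀ w, 4 ≤ |w| → χ₀ w = 0) ∧
    ∀ w, χ₀ w = ∫ v, K v * Complex.exp (Complex.I * ((2 * Real.pi * v * w : ℝ) : ℂ)) := by
  let b : ContDiffBump (0 : ℝ) := ⟨1, 4, one_pos, by norm_num⟩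
  let g : ℝ → ℂ := fun x => ((b x : ℝ) : ℂ)
  have hg1 : HasCompactSupport g := b.hasCompactSupport.comp_left (g := Complex.ofReal) rfl
  have hg2 : ContDiff ℝ ∞ g := Complex.ofRealCLM.contDiff.comp b.contDiff
  let G : 𝓢(ℝ, ℂ) := hg1.toSchwartzMap hg2
  let K : 𝓢(ℝ, ℂ) := 𝓕 G
  refine ⟨K, g, K.integrable, hg2.continuous, ?_, ?_, ?_, ?_⟩
  · intro w
    simp only [g, Complex.norm_real, Real.norm_eq_abs, abs_of_nonneg b.nonneg]
    exact b.le_one
  · intro w hw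
    have : b w = 1 := b.one_of_mem_closedBall (by
      rw [Metric.mem_closedBall, Real.dist_eq, sub_zero]; exact hw)
    simp [g, this]
  · intro w hw
    have : b w = 0 := b.zero_of_le_dist (by
      rw [Real.dist_eq, sub_zero]; exact hw)
    simp [g, this]
  · intro w
    have h1 : 𝓕⁻ K = G := FourierTransform.fourierInv_fourier_eq G
    have h2 : (𝓕⁻ K : 𝓢(ℝ, ℂ)) w = g w := by rw [h1]; rfl
    rw [← h2, SchwartzMap.fourierInv_coe, Real.fourierInv_eq']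
    congr 1
    ext v
    rw [smul_eq_mul, mul_comm]
    congr 2
    simp only [RCLike.inner_apply, conj_trivial]
    rw [mul_comm Complex.I]
    congr 2
    ring

/-- rescaled kernels. -/
theorem exists_kernel_scaled : ∃ C₀ : ℝ, 0 ≤ C₀ ∧ ∀ (s δ : ℝ), 0 < δ →
    ∃ (κ : ℝ → ℂ) (c : ℝ) (χ : BoundedContinuousFunction ℝ ℂ), Integrable κ ∧ (∫ τ, ‖κ τ‖) ≤ C₀ ∧
      ‖χ‖ ≤ 1 ∧ (∀ u ∈ Set.Icc (s - δ) (s + δ), χ u = 1) ∧
      (∀ u, u ∉ Set.Icc (s - 4 * δ) (s + 4 * δ) → χ u = 0) ∧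
      ∀ u : ℝ, χ u = ∫ τ, κ τ * Complex.exp (Complex.I * (((c * τ) * u : ℝ) : ℂ)) := by
  obtain ⟨K, χ₀, hK, hc, hb, h1, h0, hF⟩ := exists_kernel
  refine ⟨∫ τ, ‖K τ‖, integral_nonneg fun _ => norm_nonneg _, ?_⟩
  intro s δ hδ
  have hph : ∀ τ : ℝ, ‖Complex.exp (Complex.I * ((-(2 * Real.pi * τ * s / δ) : ℝ) : ℂ))‖ = 1 := by
    intro τ
    rw [mul_comm, Complex.norm_exp_ofReal_mul_I]
  refine ⟨fun τ => K τ * Complex.exp (Complex.I * ((-(2 * Real.pi * τ * s / δ) : ℝ) : ℂ)),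
    2 * Real.pi / δ,
    BoundedContinuousFunction.ofNormedAddCommGroup (fun u => χ₀ ((u - s) / δ))
      (by fun_prop) 1 (fun u => hb _), ?_, ?_, ?_, ?_, ?_, ?_⟩
  · refine hK.mul_bdd (c := 1) ?_ (Filter.Eventually.of_forall fun τ => (hph τ).le)
    apply Continuous.aestronglyMeasurable
    fun_prop
  · apply le_of_eq
    congr 1
    ext τ
    rw [norm_mul, hph, mul_one]
  · exact BoundedContinuousFunction.norm_ofNormedAddCommGroup_le _ zero_le_one _
  · intro u hu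
    change χ₀ ((u - s) / δ) = 1
    apply h1
    rw [abs_div, abs_of_pos hδ, div_le_one hδ, abs_le]
    constructor <;> linarith [hu.1, hu.2]
  · intro u hu
    change χ₀ ((u - s) / δ) = 0
    apply h0
    rw [abs_div, abs_of_pos hδ, le_div_iff₀ hδ]
    by_contra hlt
    push Not at hlt
    apply hu
    rw [abs_lt] at hlt
    constructor <;> linarith [hlt.1, hlt.2]
  · intro u
    change χ₀ ((u - s) / δ) = _
    rw [hF]
    congr 1
    ext τ
    simp only []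
    rw [mul_assoc (K τ), ← Complex.exp_add]
    congr 2
    rw [← mul_add, ← Complex.ofReal_add]
    congr 2
    field_simp
    ring

end Crest.Agent.S0112
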