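import Crest.Statements.S0112

set_option autoImplicit false
open Filter
open scoped Topology InnerProductSpace

namespace Crest.Agent.S0112

variable {H : Type*} [NormedAddCommGroup H] [InnerProductSpace ℂ H] [CompleteSpace H]

theorem exp_remainder : ∃ K ρ : ℝ, 0 < ρ ∧ 0 ≤ K ∧ ∀ z : H →L[ℂ] H, ‖z‖ < ρ →
    ‖NormedSpace.exp z - (1 + z + (2 : ℂ)⁻¹ • (z * z))‖ ≤ K * ‖z‖ ^ 3 := by
  have h := (NormedSpace.exp_hasFPowerSeriesAt_zero (𝕂 := ℂ) (𝔸 := H →L[ℂ] H)).isBigO_sub_partialSum_pow 3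
  obtain ⟨K, hK, hev⟩ := h.exists_nonneg
  rw [Asymptotics.IsBigOWith] at hev
  obtain ⟨ρ, hρ, hball⟩ := Metric.eventually_nhds_iff.mp hev
  refine ⟨K, ρ, hρ, hK, ?_⟩
  intro z hz
  have := hball (y := z) (by rwa [dist_zero_right])
  simp only [zero_add, norm_pow, norm_norm] at this
  refine le_trans (le_of_eq ?_) this
  congr 2
  simp only [FormalMultilinearSeries.partialSum, Finset.sum_range_succ, Finset.sum_range_zero,
    NormedSpace.expSeries_apply_eq]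
  simp [pow_two]

theorem mem_vn_of_commute (M : VonNeumannAlgebra H) {b : H →L[ℂ] H}
    (h : ∀ g : H →L[ℂ] H, (∀ a ∈ M, a * g = g * a) → g * b = b * g) : b ∈ M := by
  rw [← M.commutant_commutant, VonNeumannAlgebra.mem_commutant_iff]
  intro g hg
  rw [VonNeumannAlgebra.mem_commutant_iff] at hg
  exact h g hg

theorem exp_mem_vn (M : VonNeumannAlgebra H) {z : H →L[ℂ] H} (hz : z ∈ M) :
    NormedSpace.exp z ∈ M := by
  apply mem_vn_of_commute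
  intro g hg
  have : Commute g z := (hg z hz).symm
  exact this.exp_right

theorem exp_unitary {x : H →L[ℂ] H} (hx : IsSelfAdjoint x) (t : ℝ) :
    NormedSpace.exp ((t * Complex.I : ℂ) • x) ∈ unitary (H →L[ℂ] H) := by
  have hs : IsSelfAdjoint (t • x) := (IsSelfAdjoint.all t).smul hx
  have := (selfAdjoint.expUnitary ⟨t • x, hs⟩).2
  rw [selfAdjoint.expUnitary_coe] at this
  have e : ((t * Complex.I : ℂ) • x) = Complex.I • (t • x) := by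
    rw [mul_comm, mul_smul]
    congr 1
  rw [e]
  exact this

theorem smul_mem_vn (M : VonNeumannAlgebra H) {x : H →L[ℂ] H} (hx : x ∈ M) (c : ℂ) : c • x ∈ M :=
  M.toStarSubalgebra.toSubalgebra.smul_mem hx c

theorem variation_aux (M : VonNeumannAlgebra H) (u : (H →L[ℂ] H) →L[ℂ] H) (N : ℝ)
    (hN : ∀ U ∈ unitary (H →L[ℂ] H), U ∈ M → ‖u U‖ ≤ N) {K ρ : ℝ} (hK : 0 ≤ K)
    (hrem : ∀ z : H →L[ℂ] H, ‖z‖ < ρ →
      ‖NormedSpace.exp z - (1 + z + (2 : ℂ)⁻¹ • (z * z))‖ ≤ K * ‖z‖ ^ 3)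
    {U₀ : H →L[ℂ] H} (hU : U₀ ∈ unitary (H →L[ℂ] H)) (hUM : U₀ ∈ M)
    {x : H →L[ℂ] H} (hxM : x ∈ M) (hx : IsSelfAdjoint x) {R : ℝ} (hxR : ‖x‖ ≤ R)
    (τ : ℝ) (hτ : |τ| * R < ρ) :
    ‖u U₀ + ((τ : ℂ) * Complex.I) • u (U₀ * x) - ((τ : ℂ) ^ 2 / 2) • u (U₀ * (x * x))‖
      ≤ N + ‖u‖ * K * (|τ| * R) ^ 3 := by
  set z : H →L[ℂ] H := ((τ : ℂ) * Complex.I) • x with hz
  have hzn : ‖z‖ ≤ |τ| * R := by
    rw [hz, norm_smul, norm_mul, Complex.norm_I, mul_one, Complex.norm_real, Real.norm_eq_abs]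
    exact mul_le_mul_of_nonneg_left hxR (abs_nonneg _)
  have he1 : NormedSpace.exp z ∈ unitary (H →L[ℂ] H) := exp_unitary hx τ
  have he2 : NormedSpace.exp z ∈ M := exp_mem_vn M (smul_mem_vn M hxM _)
  have h1 : ‖u (U₀ * NormedSpace.exp z)‖ ≤ N := hN _ (mul_mem hU he1) (mul_mem hUM he2)
  have h2 : u U₀ + ((τ : ℂ) * Complex.I) • u (U₀ * x) - ((τ : ℂ) ^ 2 / 2) • u (U₀ * (x * x))
      = u (U₀ * NormedSpace.exp z)
        - u (U₀ * (NormedSpace.exp z - (1 + z + (2 : ℂ)⁻¹ • (z * z)))) := by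
    rw [← map_sub, ← mul_sub, sub_sub_cancel, hz]
    simp only [mul_add, mul_one, mul_smul_comm, smul_mul_assoc, smul_smul, map_add, map_smul]
    rw [sub_eq_add_neg, ← neg_smul]
    congr 2
    have : Complex.I * Complex.I = -1 := Complex.I_mul_I
    linear_combination (-(τ : ℂ) ^ 2 / 2) * this
  rw [h2]
  refine (norm_sub_le _ _).trans (add_le_add h1 ?_)
  refine (u.le_opNorm _).trans ?_
  rw [CStarRing.norm_mem_unitary_mul _ hU, mul_assoc]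
  apply mul_le_mul_of_nonneg_left _ (norm_nonneg _)
  refine (hrem z (lt_of_le_of_lt hzn hτ)).trans ?_
  apply mul_le_mul_of_nonneg_left _ hK
  exact pow_le_pow_left₀ (norm_nonneg _) hzn 3

/-- second order variation at a near-maximising unitary. -/
theorem variation_sa (M : VonNeumannAlgebra H) (u : (H →L[ℂ] H) →L[ℂ] H) (N : ℝ)
    (hN : ∀ U ∈ unitary (H →L[ℂ] H), U ∈ M → ‖u U‖ ≤ N)
    (R : ℝ) (ε : ℝ) (hε : 0 < ε) :
    ∃ ε' : ℝ, 0 < ε' ∧ ∀ U₀ ∈ unitary (H →L[ℂ] H), U₀ ∈ M → N ^ 2 - ε' ≤ ‖u U₀‖ ^ 2 →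
      ∀ x ∈ M, IsSelfAdjoint x → ‖x‖ ≤ R →
        ‖u (U₀ * x)‖ ^ 2 ≤ RCLike.re ⟪u U₀, u (U₀ * (x * x))⟫_ℂ + ε := by
  obtain ⟨K, ρ, hρ, hK, hrem⟩ := exp_remainder (H := H)
  set φ : ℝ → ℝ := fun t => ‖u‖ * K * R ^ 3 * t * (2 * N + ‖u‖ * K * (t * R) ^ 3) with hφ
  have hφc : Continuous φ := by rw [hφ]; fun_prop
  have hφ0 : φ 0 = 0 := by simp [hφ]
  have ev1 : ∀ᶠ t in 𝓝 (0 : ℝ), φ t < ε / 2 := by
    have := hφc.tendsto 0
    rw [hφ0] at this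
    exact this.eventually (gt_mem_nhds (half_pos hε))
  have ev2 : ∀ᶠ t in 𝓝 (0 : ℝ), t * R < ρ := by
    have : Tendsto (fun t : ℝ => t * R) (𝓝 0) (𝓝 (0 * R)) :=
      (continuous_id.mul continuous_const).tendsto 0
    rw [zero_mul] at this
    exact this.eventually (gt_mem_nhds hρ)
  have ev3 : ∀ᶠ t in 𝓝[>] (0 : ℝ), φ t < ε / 2 ∧ t * R < ρ ∧ 0 < t :=
    ((ev1.and ev2).filter_mono nhdsWithin_le_nhds).and self_mem_nhdsWithin |>.mono
      (fun t ht => ⟨ht.1.1, ht.1.2, ht.2⟩)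
  obtain ⟨t, ht1, ht2, ht0⟩ := ev3.exists
  refine ⟨t ^ 2 * (ε / 2), by positivity, ?_⟩
  intro U₀ hU hUM hnear x hxM hx hxR
  set ζ := u U₀ with hζ
  set A := u (U₀ * x) with hA
  set B := u (U₀ * (x * x)) with hB
  set ω := ‖u‖ * K * (t * R) ^ 3 with hω
  have hp := variation_aux M u N hN hK hrem hU hUM hxM hx hxR t (by rwa [abs_of_pos ht0])
  have hm := variation_aux M u N hN hK hrem hU hUM hxM hx hxR (-t)
    (by rwa [abs_neg, abs_of_pos ht0])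
  rw [abs_of_pos ht0] at hp
  rw [abs_neg, abs_of_pos ht0] at hm
  set p := ζ - ((t : ℂ) ^ 2 / 2) • B with hpdef
  set q := ((t : ℂ) * Complex.I) • A with hqdef
  have hp' : ‖p + q‖ ≤ N + ω := by
    refine le_trans (le_of_eq ?_) hp
    congr 1
    rw [hpdef, hqdef]; abel
  have hm' : ‖p - q‖ ≤ N + ω := by
    refine le_trans (le_of_eq ?_) hm
    congr 1
    rw [hpdef, hqdef]
    push_cast
    rw [neg_mul, neg_smul, neg_sq]
    abel
  have hpar := parallelogram_law_with_norm ℂ p q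
  have hq2 : ‖q‖ ^ 2 = t ^ 2 * ‖A‖ ^ 2 := by
    rw [hqdef, norm_smul, norm_mul, Complex.norm_I, mul_one, Complex.norm_real, Real.norm_eq_abs,
      mul_pow, sq_abs]
  have hp2 : ‖ζ‖ ^ 2 - t ^ 2 * RCLike.re ⟪ζ, B⟫_ℂ ≤ ‖p‖ ^ 2 := by
    rw [hpdef, @norm_sub_sq ℂ, inner_smul_right]
    have e1 : RCLike.re (((t : ℂ) ^ 2 / 2) * ⟪ζ, B⟫_ℂ) = t ^ 2 / 2 * RCLike.re ⟪ζ, B⟫_ℂ := by
      have : ((t : ℂ) ^ 2 / 2) = ((t ^ 2 / 2 : ℝ) : ℂ) := by push_cast; ring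
      rw [this]
      exact Complex.re_ofReal_mul _ _
    rw [e1]
    have := sq_nonneg ‖((t : ℂ) ^ 2 / 2) • B‖
    linarith
  have hs1 : ‖p + q‖ ^ 2 ≤ (N + ω) ^ 2 := pow_le_pow_left₀ (norm_nonneg _) hp' 2
  have hs2 : ‖p - q‖ ^ 2 ≤ (N + ω) ^ 2 := pow_le_pow_left₀ (norm_nonneg _) hm' 2
  have hωφ : ω * (2 * N + ω) = t ^ 2 * φ t := by
    simp only [hω, hφ]; ring
  have hfin : t ^ 2 * ‖A‖ ^ 2 ≤ t ^ 2 * (RCLike.re ⟪ζ, B⟫_ℂ + ε) := by
    have e2 : (N + ω) ^ 2 = N ^ 2 + ω * (2 * N + ω) := by ring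
    have e3 : t ^ 2 * φ t ≤ t ^ 2 * (ε / 2) :=
      mul_le_mul_of_nonneg_left ht1.le (sq_nonneg t)
    nlinarith
  exact le_of_mul_le_mul_left hfin (by positivity)

/-- second order variation, general element. -/
theorem variation_gen (M : VonNeumannAlgebra H) (u : (H →L[ℂ] H) →L[ℂ] H) (N : ℝ)
    (hN : ∀ U ∈ unitary (H →L[ℂ] H), U ∈ M → ‖u U‖ ≤ N)
    (R : ℝ) (ε : ℝ) (hε : 0 < ε) :
    ∃ ε' : ℝ, 0 < ε' ∧ ∀ U₀ ∈ unitary (H →L[ℂ] H), U₀ ∈ M → N ^ 2 - ε' ≤ ‖u U₀‖ ^ 2 →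
      ∀ x ∈ M, ‖x‖ ≤ R →
        ‖u (U₀ * x)‖ ^ 2 ≤ RCLike.re ⟪u U₀, u (U₀ * (star x * x + x * star x))⟫_ℂ + ε := by
  obtain ⟨ε', hε', h⟩ := variation_sa M u N hN R (ε / 4) (by positivity)
  refine ⟨ε', hε', ?_⟩
  intro U₀ hU hUM hnear x hxM hxR
  obtain ⟨α, hα⟩ : ∃ α : H →L[ℂ] H, α = (2 : ℂ)⁻¹ • (x + star x) := ⟨_, rfl⟩
  obtain ⟨β, hβ⟩ : ∃ β : H →L[ℂ] H, β = (-Complex.I / 2 : ℂ) • (x - star x) := ⟨_, rfl⟩
  have hsx : star x ∈ M := star_mem hxM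
  have hαM : α ∈ M := hα ▸ smul_mem_vn M (add_mem hxM hsx) _
  have hβM : β ∈ M := hβ ▸ smul_mem_vn M (sub_mem hxM hsx) _
  have hαs : IsSelfAdjoint α := by
    rw [IsSelfAdjoint, hα, star_smul, star_add, star_star, add_comm]
    congr 1
    simp
  have hβs : IsSelfAdjoint β := by
    rw [IsSelfAdjoint, hβ, star_smul, star_sub, star_star, ← neg_sub, smul_neg, ← neg_smul]
    congr 1
    simp [Complex.conj_I]
    ring
  have hαR : ‖α‖ ≤ R := by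
    rw [hα, norm_smul]
    have h1 : ‖x + star x‖ ≤ 2 * R := by
      refine (norm_add_le _ _).trans ?_
      rw [norm_star]; linarith
    have h2 : ‖(2 : ℂ)⁻¹‖ = 2⁻¹ := by simp
    rw [h2]; linarith
  have hβR : ‖β‖ ≤ R := by
    rw [hβ, norm_smul]
    have h1 : ‖x - star x‖ ≤ 2 * R := by
      refine (norm_sub_le _ _).trans ?_
      rw [norm_star]; linarith
    have h2 : ‖(-Complex.I / 2 : ℂ)‖ = 2⁻¹ := by simp
    rw [h2]; linarith
  have hx : x = α + Complex.I • β := by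
    rw [hα, hβ, smul_smul]
    have : Complex.I * (-Complex.I / 2) = (2 : ℂ)⁻¹ := by
      have := Complex.I_mul_I
      linear_combination (-(2 : ℂ)⁻¹) * this
    rw [this, ← smul_add]
    have e : x + star x + (x - star x) = (2 : ℂ) • x := by rw [two_smul]; abel
    rw [e, smul_smul]
    simp
  have hkey : star x * x + x * star x = (2 : ℂ) • (α * α) + (2 : ℂ) • (β * β) := by
    rw [hα, hβ]
    simp only [smul_mul_assoc, mul_smul_comm, smul_smul]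
    have c1 : (2 : ℂ) * ((2 : ℂ)⁻¹ * (2 : ℂ)⁻¹) = (2 : ℂ)⁻¹ := by norm_num
    have c2 : (2 : ℂ) * (-Complex.I / 2 * (-Complex.I / 2)) = -(2 : ℂ)⁻¹ := by
      have := Complex.I_mul_I
      linear_combination (2 : ℂ)⁻¹ * this
    rw [c1, c2, neg_smul, ← sub_eq_add_neg, ← smul_sub]
    have e : (x + star x) * (x + star x) - (x - star x) * (x - star x)
        = (2 : ℂ) • (star x * x + x * star x) := by
      rw [two_smul]; noncomm_ring
    rw [e, smul_smul]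
    simp
  have hA := h U₀ hU hUM hnear α hαM hαs hαR
  have hB := h U₀ hU hUM hnear β hβM hβs hβR
  have h1 : u (U₀ * x) = u (U₀ * α) + Complex.I • u (U₀ * β) := by
    conv_lhs => rw [hx]
    rw [mul_add, mul_smul_comm, map_add, map_smul]
  have h2 : ‖u (U₀ * x)‖ ^ 2 ≤ 2 * ‖u (U₀ * α)‖ ^ 2 + 2 * ‖u (U₀ * β)‖ ^ 2 := by
    rw [h1]
    have e1 : ‖u (U₀ * α) + Complex.I • u (U₀ * β)‖ ≤ ‖u (U₀ * α)‖ + ‖u (U₀ * β)‖ := by
      refine (norm_add_le _ _).trans ?_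
      rw [norm_smul, Complex.norm_I, one_mul]
    have e2 := pow_le_pow_left₀ (norm_nonneg _) e1 2
    nlinarith [sq_nonneg (‖u (U₀ * α)‖ - ‖u (U₀ * β)‖)]
  have h3 : RCLike.re ⟪u U₀, u (U₀ * (star x * x + x * star x))⟫_ℂ
      = 2 * RCLike.re ⟪u U₀, u (U₀ * (α * α))⟫_ℂ + 2 * RCLike.re ⟪u U₀, u (U₀ * (β * β))⟫_ℂ := by
    rw [hkey, mul_add, mul_smul_comm, mul_smul_comm, map_add, map_smul, map_smul, inner_add_right,
      inner_smul_right, inner_smul_right, map_add]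
    have : ∀ w : ℂ, RCLike.re ((2 : ℂ) * w) = 2 * RCLike.re w := by
      intro w
      have := Complex.re_ofReal_mul 2 w
      simpa using this
    rw [this, this]
  rw [h3]
  linarith

end Crest.Agent.S0112
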