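import Crest.Agent.S0112_Smooth
import Crest.Agent.S0112_Var
import Crest.Agent.S0112_Kernel

set_option autoImplicit false
open Crest Crest.OpAlg
open Filter MeasureTheory
open scoped Topology InnerProductSpace

namespace Crest.Agent.S0112

variable {H : Type*} [NormedAddCommGroup H] [InnerProductSpace ℂ H] [CompleteSpace H]

local notation "BCF" => BoundedContinuousFunction ℝ ℂ

namespace Mod

variable (S : ModularDatum H)

theorem flow_def (r : ℝ) (a : H →L[ℂ] H) : S.flow r a = S.D.wave r * a * S.D.wave (-r) := rfl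

theorem flow_mul (r : ℝ) (a b : H →L[ℂ] H) : S.flow r (a * b) = S.flow r a * S.flow r b := by
  simp only [flow_def]
  calc S.D.wave r * (a * b) * S.D.wave (-r)
      = S.D.wave r * a * 1 * b * S.D.wave (-r) := by simp only [mul_one, mul_assoc]
    _ = S.D.wave r * a * (S.D.wave (-r) * S.D.wave r) * b * S.D.wave (-r) := by rw [wave_neg_mul]
    _ = _ := by simp only [mul_assoc]

theorem star_flow (r : ℝ) (a : H →L[ℂ] H) : star (S.flow r a) = S.flow r (star a) := by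
  simp only [flow_def, star_mul, star_wave, neg_neg, mul_assoc]

theorem norm_flow_le (r : ℝ) (a : H →L[ℂ] H) : ‖S.flow r a‖ ≤ ‖a‖ :=
  ContinuousLinearMap.opNorm_le_bound _ (norm_nonneg _) (fun x => norm_flow_apply_le S r a x)

theorem nice_re_flow_inner (y : H →L[ℂ] H) (x z : H) :
    Nice (fun t : ℝ => RCLike.re ⟪S.flow t y x, z⟫_ℂ) :=
  (nice_flow_inner S y x z).clm Complex.reCLM

theorem mean_re_flow_inner (herg : S.Ergodic) (ω : Ultrafilter ℕ) (hω : (ω : Filter ℕ) ≤ atTop)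
    {y : H →L[ℂ] H} (hy : y ∈ S.M) (x z : H) :
    gMean ω (fun t : ℝ => RCLike.re ⟪S.flow t y x, z⟫_ℂ)
      = RCLike.re (⟪y S.vac, S.vac⟫_ℂ * ⟪x, z⟫_ℂ) := by
  have := gMean_clm ω (nice_flow_inner S y x z) Complex.reCLM
  rw [mean_flow_inner S herg ω hω hy] at this
  exact this

theorem nice_norm_sq (L : H →L[ℂ] H) (a : H →L[ℂ] H) (x : H) :
    Nice (fun r : ℝ => ‖L (S.flow r a x)‖ ^ 2) := by
  refine ⟨((L.continuous.comp (continuous_flow_apply S a x)).norm).pow 2,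
    (‖L‖ * (‖a‖ * ‖x‖)) ^ 2, fun r => ?_⟩
  rw [Real.norm_eq_abs, abs_of_nonneg (sq_nonneg _)]
  apply pow_le_pow_left₀ (norm_nonneg _)
  exact (L.le_opNorm _).trans (mul_le_mul_of_nonneg_left (norm_flow_apply_le S r a x) (norm_nonneg _))

theorem main_ineq (herg : S.Ergodic) (ω : Ultrafilter ℕ) (hω : (ω : Filter ℕ) ≤ atTop)
    (L : H →L[ℂ] H) (N : ℝ)
    (hN : ∀ U ∈ unitary (H →L[ℂ] H), U ∈ S.M → ‖L (U S.vac)‖ ≤ N)
    (hNsup : ∀ ε' : ℝ, 0 < ε' → ∃ U₀ ∈ unitary (H →L[ℂ] H), U₀ ∈ S.M ∧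
      N ^ 2 - ε' ≤ ‖L (U₀ S.vac)‖ ^ 2)
    {a : H →L[ℂ] H} (ha : a ∈ S.M) :
    gMean ω (fun r : ℝ => ‖L (S.flow r a S.vac)‖ ^ 2)
      ≤ N ^ 2 * (‖a S.vac‖ ^ 2 + ‖star a S.vac‖ ^ 2) := by
  apply le_of_forall_pos_le_add
  intro ε hε
  set u : (H →L[ℂ] H) →L[ℂ] H := L.comp (ContinuousLinearMap.apply ℂ H S.vac) with hu
  have hu_apply : ∀ v : H →L[ℂ] H, u v = L (v S.vac) := fun v => rfl
  obtain ⟨ε', hε', hvar⟩ := variation_gen S.M u N hN ‖a‖ ε hε
  obtain ⟨U₀, hU, hUM, hnear⟩ := hNsup ε' hε'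
  set ζ := L (U₀ S.vac) with hζ
  have hUU : U₀ * star U₀ = 1 := (Unitary.mem_iff.mp hU).2
  have hsU : star U₀ ∈ unitary (H →L[ℂ] H) := Unitary.star_mem hU
  set z₁ : H := ContinuousLinearMap.adjoint (L * U₀) ζ with hz₁
  set z₂ : H := ContinuousLinearMap.adjoint L ζ with hz₂
  have hpt : ∀ r : ℝ, ‖L (S.flow r a S.vac)‖ ^ 2 ≤
      (RCLike.re ⟪S.flow r (star a * a) S.vac, z₁⟫_ℂ
        + RCLike.re ⟪S.flow r (a * star a) (U₀ S.vac), z₂⟫_ℂ) + ε := by
    intro r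
    have hxM : star U₀ * S.flow r a ∈ S.M := mul_mem (star_mem hUM) (flow_mem' S r ha)
    have hxR : ‖star U₀ * S.flow r a‖ ≤ ‖a‖ := by
      rw [CStarRing.norm_mem_unitary_mul _ hsU]
      exact norm_flow_le S r a
    have h := hvar U₀ hU hUM hnear _ hxM hxR
    have e1 : U₀ * (star U₀ * S.flow r a) = S.flow r a := by
      rw [← mul_assoc, hUU, one_mul]
    have e2 : U₀ * (star (star U₀ * S.flow r a) * (star U₀ * S.flow r a)
        + (star U₀ * S.flow r a) * star (star U₀ * S.flow r a))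
        = U₀ * S.flow r (star a * a) + S.flow r (a * star a) * U₀ := by
      rw [star_mul, star_star, mul_add, flow_mul, flow_mul, star_flow]
      congr 1
      · congr 1
        calc S.flow r (star a) * U₀ * (star U₀ * S.flow r a)
            = S.flow r (star a) * (U₀ * star U₀) * S.flow r a := by simp only [mul_assoc]
          _ = _ := by rw [hUU, mul_one]
      · calc U₀ * (star U₀ * S.flow r a * (S.flow r (star a) * U₀))
            = (U₀ * star U₀) * S.flow r a * S.flow r (star a) * U₀ := by simp only [mul_assoc]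
          _ = _ := by rw [hUU, one_mul]
    rw [e1, e2, hu_apply, hu_apply, hu_apply] at h
    refine h.trans (le_of_eq ?_)
    congr 1
    rw [add_apply, map_add, inner_add_right, map_add]
    congr 1
    · rw [hz₁, ContinuousLinearMap.adjoint_inner_right, ← inner_conj_symm, RCLike.conj_re]
      rfl
    · rw [hz₂, ContinuousLinearMap.adjoint_inner_right, ← inner_conj_symm, RCLike.conj_re]
      rfl
  have hn1 := nice_re_flow_inner S (star a * a) S.vac z₁
  have hn2 := nice_re_flow_inner S (a * star a) (U₀ S.vac) z₂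
  have hmono := gMean_mono ω (nice_norm_sq S L a S.vac) ((hn1.add hn2).add (Nice.const ε)) hpt
  rw [gMean_add ω (hn1.add hn2) (Nice.const ε), gMean_add ω hn1 hn2, gMean_const ω hω,
    mean_re_flow_inner S herg ω hω (mul_mem (star_mem ha) ha),
    mean_re_flow_inner S herg ω hω (mul_mem ha (star_mem ha))] at hmono
  refine hmono.trans ?_
  have i1 : ⟪(star a * a) S.vac, S.vac⟫_ℂ = ((‖a S.vac‖ ^ 2 : ℝ) : ℂ) := by
    rw [mul_apply_eq_comp, ContinuousLinearMap.star_eq_adjoint]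
    change ⟪ContinuousLinearMap.adjoint a (a S.vac), S.vac⟫_ℂ = _
    rw [ContinuousLinearMap.adjoint_inner_left, inner_self_eq_norm_sq_to_K]
    norm_cast
  have i2 : ⟪(a * star a) S.vac, S.vac⟫_ℂ = ((‖star a S.vac‖ ^ 2 : ℝ) : ℂ) := by
    change ⟪a (star a S.vac), S.vac⟫_ℂ = _
    rw [← ContinuousLinearMap.adjoint_inner_right, ← ContinuousLinearMap.star_eq_adjoint,
      inner_self_eq_norm_sq_to_K]
    norm_cast
  have i3 : ⟪S.vac, z₁⟫_ℂ = ((‖ζ‖ ^ 2 : ℝ) : ℂ) := by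
    rw [hz₁, ContinuousLinearMap.adjoint_inner_right]
    change ⟪L (U₀ S.vac), ζ⟫_ℂ = _
    rw [← hζ, inner_self_eq_norm_sq_to_K]
    norm_cast
  have i4 : ⟪U₀ S.vac, z₂⟫_ℂ = ((‖ζ‖ ^ 2 : ℝ) : ℂ) := by
    rw [hz₂, ContinuousLinearMap.adjoint_inner_right, ← hζ, inner_self_eq_norm_sq_to_K]
    norm_cast
  rw [i1, i2, i3, i4, ← Complex.ofReal_mul, ← Complex.ofReal_mul]
  have hζN : ‖ζ‖ ^ 2 ≤ N ^ 2 := pow_le_pow_left₀ (norm_nonneg _) (hN U₀ hU hUM) 2
  have r1 : ∀ w : ℝ, RCLike.re ((w : ℝ) : ℂ) = w := fun w => Complex.ofReal_re w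
  rw [r1, r1]
  have p1 := sq_nonneg ‖a S.vac‖
  have p2 := sq_nonneg ‖star a S.vac‖
  nlinarith

end Mod

end Crest.Agent.S0112
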