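import Crest.Agent.S0112_Calc

set_option autoImplicit false
open Crest Crest.OpAlg
open scoped InnerProductSpace

namespace Crest.Agent.S0112

variable {H : Type*} [NormedAddCommGroup H] [InnerProductSpace ℂ H] [CompleteSpace H]

local notation "BCF" => BoundedContinuousFunction ℝ ℂ

/-- bounded continuous function from a compactly supported continuous one. -/
noncomputable def mkC (f : ℝ → ℂ) (hc : Continuous f) (hs : HasCompactSupport f) : BCF :=
  BoundedContinuousFunction.ofNormedAddCommGroup f hc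
    (Classical.choose (hc.bounded_above_of_compact_support hs))
    (Classical.choose_spec (hc.bounded_above_of_compact_support hs))

@[simp] theorem mkC_apply (f : ℝ → ℂ) (hc : Continuous f) (hs : HasCompactSupport f) (u : ℝ) :
    mkC f hc hs u = f u := rfl

theorem mkC_coe (f : ℝ → ℂ) (hc : Continuous f) (hs : HasCompactSupport f) :
    (mkC f hc hs : ℝ → ℂ) = f := rfl

/-- the clamp of `exp (u/2)`. -/
noncomputable def expClamp (hi : ℝ) : BCF :=
  BoundedContinuousFunction.ofNormedAddCommGroup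
    (fun u : ℝ => ((Real.exp (min u hi / 2) : ℝ) : ℂ)) (by fun_prop) (Real.exp (hi / 2))
    (fun u => by
      rw [Complex.norm_real, Real.norm_eq_abs, abs_of_pos (Real.exp_pos _)]
      apply Real.exp_le_exp.mpr
      have := min_le_right u hi
      linarith)

theorem norm_expClamp_le (hi : ℝ) : ‖expClamp hi‖ ≤ Real.exp (hi / 2) :=
  BoundedContinuousFunction.norm_ofNormedAddCommGroup_le _ (Real.exp_pos _).le _

theorem halfExp_eq (D : LineCalculus H) {x y : H} {lo hi : ℝ}
    (hx : D.SupportedIn (Set.Icc lo hi) x) (hxy : D.HalfExp x y) :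
    y = D.apply (expClamp hi) x := by
  apply eq_of_forall_compact D
  intro f hf
  have hc : Continuous fun u : ℝ => f u * ((Real.exp (u / 2) : ℝ) : ℂ) := by
    have := f.continuous
    fun_prop
  have hs : HasCompactSupport fun u : ℝ => f u * ((Real.exp (u / 2) : ℝ) : ℂ) := hf.mul_right
  rw [hxy f (mkC _ hc hs) (fun u => rfl), ← apply_mul_apply]
  apply SupportedIn.apply_congr hx
  intro u hu
  simp only [mkC_apply, BoundedContinuousFunction.coe_mul, Pi.mul_apply]
  congr 1
  change _ = ((Real.exp (min u hi / 2) : ℝ) : ℂ)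
  rw [min_eq_left hu.2]

theorem halfExp_norm_le (D : LineCalculus H) {x y : H} {lo hi : ℝ}
    (hx : D.SupportedIn (Set.Icc lo hi) x) (hxy : D.HalfExp x y) :
    ‖y‖ ≤ Real.exp (hi / 2) * ‖x‖ := by
  rw [halfExp_eq D hx hxy]
  refine (norm_apply_apply_le D _ x).trans ?_
  exact mul_le_mul_of_nonneg_right (norm_expClamp_le hi) (norm_nonneg _)

omit [CompleteSpace H] in
/-- an antiunitary conjugates inner products. -/
theorem inner_conj_map (J : H ≃ₗᵢ⋆[ℂ] H) (x y : H) : ⟪J x, J y⟫_ℂ = ⟪y, x⟫_ℂ := by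
  rw [← inner_conj_symm y x, inner_eq_sum_norm_sq_div_four (J x) (J y),
    inner_eq_sum_norm_sq_div_four x y]
  have h1 : ‖J x + J y‖ = ‖x + y‖ := by rw [← map_add, J.norm_map]
  have h2 : ‖J x - J y‖ = ‖x - y‖ := by rw [← map_sub, J.norm_map]
  have h3 : ‖J x - (RCLike.I : ℂ) • J y‖ = ‖x + (RCLike.I : ℂ) • y‖ := by
    rw [← J.norm_map (x + (RCLike.I : ℂ) • y), map_add, J.map_smulₛₗ]
    congr 1
    simp [sub_eq_add_neg]
  have h4 : ‖J x + (RCLike.I : ℂ) • J y‖ = ‖x - (RCLike.I : ℂ) • y‖ := by
    rw [← J.norm_map (x - (RCLike.I : ℂ) • y), map_sub, J.map_smulₛₗ]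
    congr 1
    simp [sub_eq_add_neg]
  rw [h1, h2, h3, h4]
  have h5 : (starRingEnd ℂ) (4 : ℂ) = 4 := by
    have := Complex.conj_ofReal 4
    simpa using this
  simp only [map_div₀, map_add, map_sub, map_mul, map_pow, h5]
  simp
  ring

namespace Mod

variable (S : ModularDatum H)

theorem halfExp_of_mem {a : H →L[ℂ] H} (ha : a ∈ S.M) :
    S.D.HalfExp (a S.vac) (S.J (star a S.vac)) := by
  have : ((a S.vac, star a S.vac) : H × H) ∈ {p : H × H | S.D.HalfExp p.1 (S.J p.2)} := by
    rw [← S.tomita]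
    apply subset_closure
    exact ⟨⟨a, ha⟩, rfl⟩
  exact this

/-- KMS type bound. -/
theorem norm_star_vac_le {a : H →L[ℂ] H} (ha : a ∈ S.M) {lo hi : ℝ}
    (hx : S.D.SupportedIn (Set.Icc lo hi) (a S.vac)) :
    ‖star a S.vac‖ ≤ Real.exp (hi / 2) * ‖a S.vac‖ := by
  have := halfExp_norm_le S.D hx (halfExp_of_mem S ha)
  rwa [S.J.norm_map] at this

theorem closure_inner {p : H × H}
    (hp : p ∈ closure (Set.range fun a : S.M =>
      ((a : H →L[ℂ] H) S.vac, star (a : H →L[ℂ] H) S.vac))) :
    ⟪p.2, S.vac⟫_ℂ = ⟪S.vac, p.1⟫_ℂ := by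
  have hcl : IsClosed {p : H × H | ⟪p.2, S.vac⟫_ℂ = ⟪S.vac, p.1⟫_ℂ} := by
    apply isClosed_eq
    · fun_prop
    · fun_prop
  refine closure_minimal ?_ hcl hp
  rintro _ ⟨a, rfl⟩
  change ⟪star (a : H →L[ℂ] H) S.vac, S.vac⟫_ℂ = ⟪S.vac, (a : H →L[ℂ] H) S.vac⟫_ℂ
  rw [ContinuousLinearMap.star_eq_adjoint, ContinuousLinearMap.adjoint_inner_left]


theorem halfExp_compact (c : BCF) (hc : HasCompactSupport (c : ℝ → ℂ)) (z : H) :
    S.D.HalfExp (S.D.apply c z)
      (S.D.apply (mkC (fun u : ℝ => c u * ((Real.exp (u / 2) : ℝ) : ℂ))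
        (by have := c.continuous; fun_prop) hc.mul_right) z) := by
  intro f g hfg
  rw [← apply_mul_apply, ← apply_mul_apply]
  congr 2
  ext u
  simp only [BoundedContinuousFunction.coe_mul, Pi.mul_apply, mkC_apply, hfg u]
  ring

theorem apply_star_inner (f : BCF) (x y : H) :
    ⟪S.D.apply (star f) x, y⟫_ℂ = ⟪x, S.D.apply f y⟫_ℂ := by
  rw [map_star, ContinuousLinearMap.star_eq_adjoint, ContinuousLinearMap.adjoint_inner_left]

theorem apply_expHalf_J_vac (c : BCF) (hc : HasCompactSupport (c : ℝ → ℂ)) :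
    S.D.apply (star (mkC (fun u : ℝ => c u * ((Real.exp (u / 2) : ℝ) : ℂ))
        (by have := c.continuous; fun_prop) hc.mul_right)) (S.J S.vac)
      = S.D.apply (star c) S.vac := by
  apply ext_inner_right ℂ
  intro z
  rw [apply_star_inner, apply_star_inner]
  set w := S.D.apply (mkC (fun u : ℝ => c u * ((Real.exp (u / 2) : ℝ) : ℂ))
        (by have := c.continuous; fun_prop) hc.mul_right) z with hw
  have hmem : ((S.D.apply c z, S.J w) : H × H) ∈
      closure (Set.range fun a : S.M =>
        ((a : H →L[ℂ] H) S.vac, star (a : H →L[ℂ] H) S.vac)) := by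
    rw [S.tomita]
    change S.D.HalfExp (S.D.apply c z) (S.J (S.J w))
    rw [S.J_J]
    exact halfExp_compact S c hc z
  have h1 := closure_inner S hmem
  simp only at h1
  rw [← h1]
  conv_rhs => rw [← S.J_J S.vac]
  rw [inner_conj_map]

theorem halfExp_vac : S.D.HalfExp S.vac (S.J S.vac) := by
  have := halfExp_of_mem S (one_mem S.M)
  simpa using this

/-- `π(c e^u) ξ = π(c) ξ` for compactly supported `c`. -/
theorem apply_exp_vac (c : BCF) (hc : HasCompactSupport (c : ℝ → ℂ)) :
    S.D.apply (mkC (fun u : ℝ => c u * ((Real.exp u : ℝ) : ℂ))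
        (by have := c.continuous; fun_prop) hc.mul_right) S.vac = S.D.apply c S.vac := by
  have hsc : HasCompactSupport ((star c : BCF) : ℝ → ℂ) := by
    have : ((star c : BCF) : ℝ → ℂ) = fun u => star (c u) := by
      ext u; simp
    rw [this]
    exact hc.comp_left (g := (star : ℂ → ℂ)) (star_zero _)
  have h1 := apply_expHalf_J_vac S (star c) hsc
  rw [star_star] at h1
  rw [← h1]
  symm
  apply halfExp_vac S
  intro u
  simp only [mkC_apply, BoundedContinuousFunction.star_apply, star_mul', star_star]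
  have : star ((Real.exp (u / 2) : ℝ) : ℂ) = ((Real.exp (u / 2) : ℝ) : ℂ) := Complex.conj_ofReal _
  rw [this, mul_assoc, ← Complex.ofReal_mul, ← Real.exp_add]
  congr 3
  ring

theorem exists_quotient (t : ℝ) : ∃ q : ℝ → ℂ, Continuous q ∧
    ∀ u : ℝ, q u * (((Real.exp u : ℝ) : ℂ) - 1) = Complex.exp (Complex.I * ((t * u : ℝ) : ℂ)) - 1 := by
  set F : ℝ → ℂ := fun u => Complex.exp (Complex.I * ((t * u : ℝ) : ℂ)) with hF
  set G : ℝ → ℂ := fun u => ((Real.exp u : ℝ) : ℂ) with hG
  have hFd : Differentiable ℝ F := by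
    intro u
    simp only [hF]
    fun_prop
  have hGd : Differentiable ℝ G := by
    intro u
    exact ((Real.hasDerivAt_exp u).ofReal_comp).differentiableAt
  have hcont : ∀ K : ℝ → ℂ, Differentiable ℝ K → Continuous (dslope K 0) := by
    intro K hK
    rw [continuous_iff_continuousAt]
    intro u
    by_cases hu : u = 0
    · subst hu
      exact continuousAt_dslope_same.mpr (hK 0)
    · exact (continuousAt_dslope_of_ne hu).mpr (hK u).continuousAt
  have hGne : ∀ u, dslope G 0 u ≠ 0 := by
    intro u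
    by_cases hu : u = 0
    · subst hu
      rw [dslope_same, ((Real.hasDerivAt_exp 0).ofReal_comp).deriv]
      simp
    · intro h0
      have := sub_smul_dslope G 0 u
      rw [h0, smul_zero] at this
      simp only [hG, Real.exp_zero, Complex.ofReal_one] at this
      have h2 : ((Real.exp u : ℝ) : ℂ) = ((1 : ℝ) : ℂ) := by
        rw [Complex.ofReal_one]; exact (sub_eq_zero.mp this.symm)
      have h3 : Real.exp u = 1 := Complex.ofReal_injective h2
      exact hu (Real.exp_eq_one_iff u |>.mp h3)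
  refine ⟨fun u => dslope F 0 u / dslope G 0 u, (hcont F hFd).div (hcont G hGd) hGne, ?_⟩
  intro u
  have h1 := sub_smul_dslope G 0 u
  have h2 := sub_smul_dslope F 0 u
  simp only [hG, Real.exp_zero, Complex.ofReal_one, sub_zero] at h1
  simp only [hF, mul_zero, Complex.ofReal_zero, Complex.exp_zero, sub_zero] at h2
  rw [← h1, ← h2]
  simp only [Complex.real_smul]
  have h3 := hGne u
  change dslope F 0 u / dslope G 0 u * (↑u * dslope G 0 u) = ↑u * dslope F 0 u
  field_simp

/-- the vacuum is invariant under the modular unitary group. -/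
theorem wave_vac (t : ℝ) : S.D.wave t S.vac = S.vac := by
  apply eq_of_forall_compact S.D
  intro f hf
  obtain ⟨q, hq, hqe⟩ := exists_quotient t
  have hcc : Continuous fun u : ℝ => f u * q u := by
    have := f.continuous
    fun_prop
  have hcs : HasCompactSupport fun u : ℝ => f u * q u := hf.mul_right
  have h1 := apply_exp_vac S (mkC _ hcc hcs) hcs
  change S.D.apply f (S.D.apply (LineCalculus.character t) S.vac) = _
  rw [← apply_mul_apply]
  have h2 : f * LineCalculus.character t = f + (mkC (fun u : ℝ => (mkC _ hcc hcs) u * ((Real.exp u : ℝ) : ℂ))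
        (by have := (mkC _ hcc hcs).continuous; fun_prop) (HasCompactSupport.mul_right hcs) - mkC _ hcc hcs) := by
    ext u
    simp only [BoundedContinuousFunction.coe_mul, Pi.mul_apply, BoundedContinuousFunction.coe_add,
      BoundedContinuousFunction.coe_sub, Pi.add_apply, Pi.sub_apply, mkC_apply, character_apply]
    have := hqe u
    linear_combination (-(f u)) * this
  rw [h2, map_add, map_sub, add_apply, sub_apply, h1, sub_self, add_zero]

end Mod

end Crest.Agent.S0112
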