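import Crest.Agent.S0112_Erg

set_option autoImplicit false
open Crest Crest.OpAlg
open Filter MeasureTheory
open scoped Topology InnerProductSpace

namespace Crest.Agent.S0112

variable {H : Type*} [NormedAddCommGroup H] [InnerProductSpace ℂ H] [CompleteSpace H]

local notation "BCF" => BoundedContinuousFunction ℝ ℂ

theorem integrable_smul_of_bdd {X : Type*} [NormedAddCommGroup X] [NormedSpace ℂ X]
    {κ : ℝ → ℂ} (hκ : Integrable κ) {w : ℝ → X} (hw : Continuous w) {C : ℝ}
    (hC : ∀ τ, ‖w τ‖ ≤ C) : Integrable (fun τ => κ τ • w τ) :=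
  hκ.smul_bdd C hw.aestronglyMeasurable (Filter.Eventually.of_forall hC)

/-- the calculus as a continuous linear map. -/
noncomputable def applyCLM (D : LineCalculus H) : BCF →L[ℂ] (H →L[ℂ] H) :=
  ⟨D.apply.toLinearMap, continuous_apply D⟩

@[simp] theorem applyCLM_apply (D : LineCalculus H) (f : BCF) : applyCLM D f = D.apply f := rfl

theorem norm_character_mul_le (t : ℝ) (g : BCF) : ‖LineCalculus.character t * g‖ ≤ ‖g‖ := by
  calc _ ≤ ‖LineCalculus.character t‖ * ‖g‖ := norm_mul_le _ _
    _ ≤ 1 * ‖g‖ := mul_le_mul_of_nonneg_right (norm_character_le t) (norm_nonneg _)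
    _ = ‖g‖ := one_mul _

/-- Fourier representation of functions of `D`. -/
theorem integral_wave_eq (D : LineCalculus H) {κ : ℝ → ℂ} (hκ : Integrable κ) (c : ℝ) (χ : BCF)
    (hχ : ∀ u : ℝ, χ u = ∫ τ, κ τ * Complex.exp (Complex.I * (((c * τ) * u : ℝ) : ℂ))) (x : H) :
    ∫ τ, κ τ • D.wave (c * τ) x = D.apply χ x := by
  apply eq_of_forall_compact D
  intro g hg
  have hcont : Continuous fun τ : ℝ => LineCalculus.character (c * τ) * g :=
    (continuous_character_mul g hg).comp (continuous_const.mul continuous_id)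
  have hint : Integrable fun τ : ℝ => κ τ • (LineCalculus.character (c * τ) * g) :=
    integrable_smul_of_bdd hκ hcont (fun τ => norm_character_mul_le _ g)
  have hint2 : Integrable fun τ : ℝ => κ τ • D.wave (c * τ) x :=
    integrable_smul_of_bdd hκ
      (continuous_wave_comp D (continuous_const.mul continuous_id) continuous_const)
      (fun τ => (norm_wave_apply D _ x).le)
  have h1 : ∫ τ, κ τ • (LineCalculus.character (c * τ) * g) = χ * g := by
    ext u
    have := ContinuousLinearMap.integral_comp_comm (BoundedContinuousFunction.evalCLM ℂ u) hint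
    change (BoundedContinuousFunction.evalCLM ℂ u) _ = _
    rw [← this]
    simp only [BoundedContinuousFunction.evalCLM_apply, BoundedContinuousFunction.coe_smul,
      BoundedContinuousFunction.coe_mul, Pi.mul_apply, smul_eq_mul, hχ u, character_apply]
    rw [← integral_mul_const]
    congr 1
    ext τ
    ring
  rw [← ContinuousLinearMap.integral_comp_comm (D.apply g) hint2]
  have h2 := ContinuousLinearMap.integral_comp_comm
    ((ContinuousLinearMap.apply ℂ H x).comp (applyCLM D)) hint
  rw [h1] at h2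
  simp only [ContinuousLinearMap.comp_apply, applyCLM_apply, ContinuousLinearMap.apply_apply,
    map_smul, smul_apply] at h2
  rw [apply_comm, ← apply_mul_apply, ← h2]
  congr 1
  ext τ
  rw [map_smul, apply_mul_apply, apply_comm]
  rfl

namespace Mod

variable (S : ModularDatum H)

theorem integrable_smooth {κ : ℝ → ℂ} (hκ : Integrable κ) (c : ℝ) (v : H →L[ℂ] H) (x : H) :
    Integrable fun τ : ℝ => κ τ • S.flow (c * τ) v x :=
  integrable_smul_of_bdd hκ
    ((continuous_flow_apply S v x).comp (continuous_const.mul continuous_id))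
    (fun τ => norm_flow_apply_le S _ v x)

/-- smoothing of an operator along the flow. -/
noncomputable def smooth {κ : ℝ → ℂ} (hκ : Integrable κ) (c : ℝ) (v : H →L[ℂ] H) : H →L[ℂ] H :=
  LinearMap.mkContinuous
    { toFun := fun x => ∫ τ, κ τ • S.flow (c * τ) v x
      map_add' := fun x x' => by
        simp only [map_add, smul_add]
        exact integral_add (integrable_smooth S hκ c v x) (integrable_smooth S hκ c v x')
      map_smul' := fun a x => by
        simp only [map_smul, RingHom.id_apply]
        rw [← integral_smul]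
        congr 1
        ext τ
        rw [smul_comm] }
    ((∫ τ, ‖κ τ‖) * ‖v‖)
    (fun x => by
      change ‖∫ τ, κ τ • S.flow (c * τ) v x‖ ≤ _
      have : ∀ τ, ‖κ τ • S.flow (c * τ) v x‖ ≤ ‖κ τ‖ * (‖v‖ * ‖x‖) := by
        intro τ
        rw [norm_smul]
        exact mul_le_mul_of_nonneg_left (norm_flow_apply_le S _ v x) (norm_nonneg _)
      refine (norm_integral_le_of_norm_le (hκ.norm.mul_const _) (Filter.Eventually.of_forall this)).trans ?_
      rw [integral_mul_const]
      exact le_of_eq (by ring))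

theorem smooth_apply {κ : ℝ → ℂ} (hκ : Integrable κ) (c : ℝ) (v : H →L[ℂ] H) (x : H) :
    smooth S hκ c v x = ∫ τ, κ τ • S.flow (c * τ) v x := rfl

theorem norm_smooth_le {κ : ℝ → ℂ} (hκ : Integrable κ) (c : ℝ) (v : H →L[ℂ] H) :
    ‖smooth S hκ c v‖ ≤ (∫ τ, ‖κ τ‖) * ‖v‖ :=
  LinearMap.mkContinuous_norm_le _
    (mul_nonneg (integral_nonneg fun _ => norm_nonneg _) (norm_nonneg _)) _

theorem smooth_mem {κ : ℝ → ℂ} (hκ : Integrable κ) (c : ℝ) {v : H →L[ℂ] H} (hv : v ∈ S.M) :
    smooth S hκ c v ∈ S.M := by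
  apply mem_of_commute
  intro g hg
  ext x
  simp only [mul_apply_eq_comp, ContinuousLinearMap.comp_apply, smooth_apply]
  rw [← ContinuousLinearMap.integral_comp_comm g (integrable_smooth S hκ c v x)]
  congr 1
  ext τ
  rw [map_smul]
  have := congrArg (fun A : H →L[ℂ] H => A x) (hg _ (flow_mem' S (c * τ) hv))
  simp only [mul_apply_eq_comp, ContinuousLinearMap.comp_apply] at this
  rw [this]

theorem smooth_vac {κ : ℝ → ℂ} (hκ : Integrable κ) (c : ℝ) (χ : BCF)
    (hχ : ∀ u : ℝ, χ u = ∫ τ, κ τ * Complex.exp (Complex.I * (((c * τ) * u : ℝ) : ℂ)))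
    (v : H →L[ℂ] H) : smooth S hκ c v S.vac = S.D.apply χ (v S.vac) := by
  rw [smooth_apply, ← integral_wave_eq S.D hκ c χ hχ]
  congr 1
  ext τ
  rw [flow_vac]

end Mod

end Crest.Agent.S0112
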