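import Mathlib
import Crest.Agent.Lib.Auc

/-!
Row 125, S0166, abstract part: "good centres" and the midpoint moduli they give.
-/

set_option autoImplicit false

namespace Crest.Agent.S0166

open Crest.AnalysisR Crest.Agent.Auc

variable {X : Type} [NormedAddCommGroup X] [NormedSpace ℝ X]

/-- `c` is a good centre: on the common kernel of finitely many functionals the parallelogram-type
inequality `2‖c‖² + ‖y‖²/2 ≤ ‖c+y‖² + ‖c-y‖²` holds. -/
def Good (c : X) : Prop :=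
  ∃ L : List (X →L[ℝ] ℝ), ∀ y : X, (∀ φ ∈ L, φ y = 0) →
    2 * ‖c‖ ^ 2 + ‖y‖ ^ 2 / 2 ≤ ‖c + y‖ ^ 2 + ‖c - y‖ ^ 2

/-- good centres are dense -/
def GoodDense (X : Type) [NormedAddCommGroup X] [NormedSpace ℝ X] : Prop :=
  ∀ x : X, ∀ ε : ℝ, 0 < ε → ∃ c : X, Good c ∧ ‖x - c‖ < ε

theorem good_zero : Good (0 : X) := by
  refine ⟨[], fun y _ => ?_⟩
  simp only [norm_zero, zero_add, zero_sub, norm_neg]
  nlinarith [sq_nonneg ‖y‖]

/-- stronger (averaged) inequality implies the quadratic one -/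
theorem good_of_avg {c : X} (L : List (X →L[ℝ] ℝ))
    (h : ∀ y : X, (∀ φ ∈ L, φ y = 0) →
      2 * Real.sqrt (‖c‖ ^ 2 + ‖y‖ ^ 2 / 4) ≤ ‖c + y‖ + ‖c - y‖) : Good c := by
  refine ⟨L, fun y hy => ?_⟩
  have h1 := h y hy
  have h0 : 0 ≤ ‖c‖ ^ 2 + ‖y‖ ^ 2 / 4 := by positivity
  have h2 := Real.sq_sqrt h0
  have h3 := Real.sqrt_nonneg (‖c‖ ^ 2 + ‖y‖ ^ 2 / 4)
  set r := Real.sqrt (‖c‖ ^ 2 + ‖y‖ ^ 2 / 4)
  set a := ‖c + y‖
  set b := ‖c - y‖
  have h4 : (2 * r) ^ 2 ≤ (a + b) ^ 2 := pow_le_pow_left₀ (by positivity) h1 2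
  nlinarith [sq_nonneg (a - b)]

theorem exists_list_max (h : GoodDense X) (x : X) (hx : ‖x‖ = 1) (t : ℝ) (ht : 0 < t) (η : ℝ)
    (hη : 0 < η) :
    ∃ L : List (X →L[ℝ] ℝ), ∀ y : X, (∀ φ ∈ L, φ y = 0) → ‖y‖ = 1 →
      Real.sqrt (1 + t ^ 2 / 4) - η ≤ max ‖x + t • y‖ ‖x - t • y‖ ∧
        1 ≤ ‖x + t • y‖ ∧ 1 ≤ ‖x - t • y‖ := by
  obtain ⟨c, ⟨L, hL⟩, hc⟩ := h x (η / 2) (by positivity)
  have hx0 : ‖x‖ ≠ 0 := by
    rw [hx]; exact one_ne_zero
  obtain ⟨φ₀, hφ1, hφx⟩ := exists_dual_vector ℝ x hx0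
  refine ⟨φ₀ :: L, fun y hy hy1 => ?_⟩
  have hy0 : φ₀ y = 0 := hy φ₀ (by simp)
  have hyL : ∀ φ ∈ L, φ (t • y) = 0 := by
    intro φ hφ
    rw [map_smul, hy φ (by simp [hφ]), smul_zero]
  have hG := hL (t • y) hyL
  have hty : ‖t • y‖ = t := by rw [norm_smul, hy1, mul_one, Real.norm_eq_abs, abs_of_pos ht]
  rw [hty] at hG
  refine ⟨?_, ?_, ?_⟩
  · set δ := η / 2 with hδ
    have hδ0 : 0 < δ := by positivity
    set M := max ‖c + t • y‖ ‖c - t • y‖ with hM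
    have hM0 : 0 ≤ M := le_trans (norm_nonneg _) (le_max_left _ _)
    have h1 : ‖c + t • y‖ ^ 2 ≤ M ^ 2 := pow_le_pow_left₀ (norm_nonneg _) (le_max_left _ _) 2
    have h2 : ‖c - t • y‖ ^ 2 ≤ M ^ 2 := pow_le_pow_left₀ (norm_nonneg _) (le_max_right _ _) 2
    have h3 : ‖c‖ ^ 2 + t ^ 2 / 4 ≤ M ^ 2 := by linarith
    have hcn : 1 - δ ≤ ‖c‖ := by
      have := norm_sub_norm_le x c
      linarith
    have hc0 : 0 ≤ ‖c‖ := norm_nonneg _
    have hMc : ‖c‖ ≤ M := by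
      by_contra hlt
      rw [not_le] at hlt
      nlinarith [sq_nonneg t]
    have h4 : Real.sqrt (1 + t ^ 2 / 4) ≤ M + δ := by
      rw [Real.sqrt_le_left (by positivity)]
      nlinarith
    have h5 : M - δ ≤ max ‖x + t • y‖ ‖x - t • y‖ := by
      have e1 : ‖c + t • y‖ - δ ≤ ‖x + t • y‖ := by
        have : c + t • y = (x + t • y) - (x - c) := by abel
        have h' := norm_sub_le (x + t • y) (x - c)
        rw [← this] at h'
        linarith
      have e2 : ‖c - t • y‖ - δ ≤ ‖x - t • y‖ := by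
        have : c - t • y = (x - t • y) - (x - c) := by abel
        have h' := norm_sub_le (x - t • y) (x - c)
        rw [← this] at h'
        linarith
      rcases le_total ‖c + t • y‖ ‖c - t • y‖ with hle | hle
      · rw [hM, max_eq_right hle]
        exact le_trans e2 (le_max_right _ _)
      · rw [hM, max_eq_left hle]
        exact le_trans e1 (le_max_left _ _)
    linarith
  · have h1 : φ₀ (x + t • y) = 1 := by
      rw [map_add, map_smul, hy0, smul_zero, add_zero, hφx, hx]; simp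
    have h2 := φ₀.le_opNorm (x + t • y)
    rw [h1, hφ1, one_mul] at h2
    simpa using h2
  · have h1 : φ₀ (x - t • y) = 1 := by
      rw [map_sub, map_smul, hy0, smul_zero, sub_zero, hφx, hx]; simp
    have h2 := φ₀.le_opNorm (x - t • y)
    rw [h1, hφ1, one_mul] at h2
    simpa using h2

theorem maxMidpoint [CompleteSpace X] (h : GoodDense X) (t : ℝ) (ht : 0 < t) :
    (mkB X).MaxMidpointModulusGE (mkB X).norm t (Real.sqrt (1 + t ^ 2 / 4) - 1) := by
  intro x hx η hη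
  obtain ⟨L, hL⟩ := exists_list_max h x hx t ht η hη
  refine ⟨kerL L, isCof_kerL L, fun y hy hy1 => ?_⟩
  have := (hL y (mem_kerL.1 hy) hy1).1
  show Real.sqrt (1 + t ^ 2 / 4) - 1 - η ≤ max ‖x + t • y‖ ‖x - t • y‖ - 1
  linarith

theorem midpoint_half [CompleteSpace X] (h : GoodDense X) (t : ℝ) (ht : 0 < t) :
    (mkB X).MidpointModulusGE (mkB X).norm t ((Real.sqrt (1 + t ^ 2 / 4) - 1) / 2) := by
  intro x hx η hη
  obtain ⟨L, hL⟩ := exists_list_max h x hx t ht η hη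
  refine ⟨kerL L, isCof_kerL L, fun y hy hy1 => ?_⟩
  obtain ⟨h1, h2, h3⟩ := hL y (mem_kerL.1 hy) hy1
  show (Real.sqrt (1 + t ^ 2 / 4) - 1) / 2 - η ≤ (‖x + t • y‖ + ‖x - t • y‖) / 2 - 1
  rcases le_total ‖x + t • y‖ ‖x - t • y‖ with hle | hle
  · rw [max_eq_right hle] at h1
    linarith
  · rw [max_eq_left hle] at h1
    linarith

theorem midpoint_twelve [CompleteSpace X] (h : GoodDense X) (t : ℝ) (ht : 0 < t) :
    (mkB X).MidpointModulusGE (mkB X).norm t (Real.sqrt (1 + t ^ 2 / 12) - 1) := by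
  intro x hx η hη
  obtain ⟨L, hL⟩ := exists_list_max h x hx t ht η hη
  refine ⟨kerL L, isCof_kerL L, fun y hy hy1 => ?_⟩
  obtain ⟨h1, h2, h3⟩ := hL y (mem_kerL.1 hy) hy1
  show Real.sqrt (1 + t ^ 2 / 12) - 1 - η ≤ (‖x + t • y‖ + ‖x - t • y‖) / 2 - 1
  have havg : (1 + Real.sqrt (1 + t ^ 2 / 4) - η) / 2 ≤ (‖x + t • y‖ + ‖x - t • y‖) / 2 := by
    rcases le_total ‖x + t • y‖ ‖x - t • y‖ with hle | hle
    · rw [max_eq_right hle] at h1
      linarith
    · rw [max_eq_left hle] at h1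
      linarith
  have htri : t ≤ (‖x + t • y‖ + ‖x - t • y‖) / 2 := by
    have hy1' : ‖y‖ = 1 := hy1
    have e : (2 * t) • y = (x + t • y) - (x - t • y) := by
      rw [two_mul, add_smul]; abel
    have h' := norm_sub_le (x + t • y) (x - t • y)
    rw [← e, norm_smul, hy1', mul_one, Real.norm_eq_abs, abs_of_pos (by positivity)] at h'
    linarith
  by_cases hcase : t ^ 2 ≤ 96
  · have hs : Real.sqrt (1 + t ^ 2 / 12) ≤ (1 + Real.sqrt (1 + t ^ 2 / 4)) / 2 := by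
      have h0 : 0 ≤ 1 + t ^ 2 / 4 := by positivity
      have hr := Real.sq_sqrt h0
      have hr0 := Real.sqrt_nonneg (1 + t ^ 2 / 4)
      set r := Real.sqrt (1 + t ^ 2 / 4)
      have hr1 : 1 + t ^ 2 / 24 ≤ r := by
        by_contra hlt
        rw [not_le] at hlt
        have : r ^ 2 < (1 + t ^ 2 / 24) ^ 2 := pow_lt_pow_left₀ hlt hr0 (by norm_num)
        nlinarith [sq_nonneg t]
      rw [Real.sqrt_le_left (by positivity)]
      nlinarith
    linarith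
  · rw [not_le] at hcase
    have hs : Real.sqrt (1 + t ^ 2 / 12) ≤ t := by
      rw [Real.sqrt_le_left ht.le]
      nlinarith
    linarith

end Crest.Agent.S0166
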