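import Mathlib
import Crest.Agent.S0166_Abstract

/-!
Row 125, S0166: `ℓ²`-sums. Density of good centres passes to `lp X 2`; separability of `lp X 2`.
-/

set_option autoImplicit false

namespace Crest.Agent.S0166

open Crest.AnalysisR Crest.Agent.Auc

variable {ι : Type} {X : ι → Type} [∀ n, NormedAddCommGroup (X n)]

theorem hasSum_norm_sq (f : lp X 2) : HasSum (fun n => ‖f n‖ ^ 2) (‖f‖ ^ 2) := by
  have h := lp.hasSum_norm (p := 2) (by norm_num) f
  simpa using h

variable [DecidableEq ι]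

theorem sum_single_apply (B : Finset ι) (c : ∀ n, X n) (m : ι) :
    (∑ n ∈ B, lp.single 2 n (c n) : lp X 2) m = if m ∈ B then c m else 0 := by
  rw [lp.coeFn_sum, Finset.sum_apply]
  simp only [lp.single_apply, Finset.sum_pi_single]

theorem exists_finset_approx (x : lp X 2) (ε : ℝ) (hε : 0 < ε) :
    ∃ B : Finset ι, ‖x - ∑ n ∈ B, lp.single 2 n (x n)‖ < ε := by
  have hs := lp.hasSum_single (p := 2) (by norm_num) x
  rw [HasSum, Metric.tendsto_nhds] at hs
  obtain ⟨B, hB⟩ := (hs ε hε).exists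
  exact ⟨B, by rwa [dist_comm, dist_eq_norm] at hB⟩

variable [∀ n, NormedSpace ℝ (X n)]

theorem goodDense_lp (h : ∀ n, GoodDense (X n)) : GoodDense (lp X 2) := by
  intro x ε hε
  obtain ⟨B, hB⟩ := exists_finset_approx x (ε / 2) (by positivity)
  have hex : ∀ n, ∃ c : X n, Good c ∧ ‖x n - c‖ < ε / (2 * (B.card + 1)) :=
    fun n => h n (x n) _ (by positivity)
  choose c hcG hcε using hex
  choose L hL using hcG
  refine ⟨∑ n ∈ B, lp.single 2 n (c n),
    ⟨B.toList.flatMap (fun n => (L n).map (fun φ => φ.comp (lp.evalCLM ℝ X 2 n))), ?_⟩, ?_⟩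
  · intro y hy
    have hyn : ∀ n ∈ B, ∀ φ ∈ L n, φ (y n) = 0 := by
      intro n hn φ hφ
      have := hy (φ.comp (lp.evalCLM ℝ X 2 n)) (by
        simp only [List.mem_flatMap, Finset.mem_toList, List.mem_map]
        exact ⟨n, hn, φ, hφ, rfl⟩)
      exact this
    set C : lp X 2 := ∑ n ∈ B, lp.single 2 n (c n) with hC
    have hterm : ∀ n, 2 * ‖C n‖ ^ 2 + ‖y n‖ ^ 2 / 2 ≤ ‖(C + y) n‖ ^ 2 + ‖(C - y) n‖ ^ 2 := by
      intro n
      rw [lp.coeFn_add, lp.coeFn_sub, Pi.add_apply, Pi.sub_apply, hC, sum_single_apply]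
      by_cases hn : n ∈ B
      · simp only [if_pos hn]
        exact hL n (y n) (hyn n hn)
      · simp only [if_neg hn, norm_zero, zero_add, zero_sub, norm_neg]
        nlinarith [sq_nonneg ‖y n‖]
    have h1 := ((hasSum_norm_sq C).mul_left 2).add ((hasSum_norm_sq y).div_const 2)
    have h2 := (hasSum_norm_sq (C + y)).add (hasSum_norm_sq (C - y))
    exact hasSum_le hterm h1 h2
  · have e : x - ∑ n ∈ B, lp.single 2 n (c n) =
        (x - ∑ n ∈ B, lp.single 2 n (x n)) + ∑ n ∈ B, lp.single 2 n (x n - c n) := by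
      simp only [lp.single_sub, Finset.sum_sub_distrib]
      abel
    rw [e]
    have h1 : ‖∑ n ∈ B, lp.single 2 n (x n - c n)‖ ≤ ε / 2 := by
      calc ‖∑ n ∈ B, lp.single 2 n (x n - c n)‖
          ≤ ∑ n ∈ B, ‖lp.single 2 n (x n - c n)‖ := norm_sum_le _ _
        _ ≤ ∑ _n ∈ B, ε / (2 * (B.card + 1)) := by
            refine Finset.sum_le_sum fun n _ => ?_
            rw [lp.norm_single (by norm_num)]
            exact (hcε n).le
        _ = B.card * (ε / (2 * (B.card + 1))) := by simp
        _ ≤ ε / 2 := by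
            have hc : (0 : ℝ) ≤ B.card := Nat.cast_nonneg _
            rw [mul_div_assoc', div_le_div_iff₀ (by positivity) (by norm_num)]
            nlinarith
    calc _ ≤ ‖x - ∑ n ∈ B, lp.single 2 n (x n)‖ + ‖∑ n ∈ B, lp.single 2 n (x n - c n)‖ :=
          norm_add_le _ _
      _ < ε / 2 + ε / 2 := by linarith
      _ = ε := by ring

theorem separableSpace_lp [Countable ι] [∀ n, TopologicalSpace.SeparableSpace (X n)] :
    TopologicalSpace.SeparableSpace (lp X 2) := by
  have h1 : ∀ n, TopologicalSpace.IsSeparable (Set.range (lp.single (E := X) 2 n)) :=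
    fun n => TopologicalSpace.isSeparable_range (lp.isometry_single n).continuous
  have h2 := TopologicalSpace.isSeparable_iUnion.2 h1
  have h3 := (h2.span (R := ℝ)).closure
  rw [← TopologicalSpace.isSeparable_univ_iff]
  convert h3
  symm
  rw [Set.eq_univ_iff_forall]
  intro x
  have hs := lp.hasSum_single (p := 2) (by norm_num) x
  rw [HasSum] at hs
  refine mem_closure_of_tendsto hs (Filter.Eventually.of_forall fun B => ?_)
  refine Submodule.sum_mem _ fun n _ => Submodule.subset_span ?_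
  exact Set.mem_iUnion.2 ⟨n, ⟨x n, rfl⟩⟩

end Crest.Agent.S0166
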