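import Mathlib
import Crest.Prelude.Def_TreePotentials

/-!
Combinatorial core of the midpoint inequality for potential norms on the tree `List ℕ`
(row 125: S0166, also usable for S0168).

Given a suffix-closed finite set `A ∋ []`, two coefficient families `f g` and weights `α β`, we
construct two families `hp hm` which coincide with `α • f` on `A`, are dominated by `β • |g|`
off `A`, satisfy `hp - hm = β • g` off `A`, and whose potentials are bounded by one wherever those
of `f` and `g` are (if `α ≤ 1`, `β ≤ 1/2`).
-/

set_option autoImplicit false

namespace Crest.Agent.S0166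

open Crest.AnalysisR.TreePotential

/-- increments of a function on the tree -/
def incr (H : List ℕ → ℝ) : List ℕ → ℝ
  | [] => H []
  | a :: v => H (a :: v) - H v

theorem pathPotential_incr (H : List ℕ → ℝ) : ∀ s, pathPotential (incr H) s = H s
  | [] => rfl
  | a :: v => by
    simp only [pathPotential, incr, pathPotential_incr H v]
    ring

/-- the longest suffix of `s` lying in `A` (or `[]`) -/
def base (A : Finset (List ℕ)) : List ℕ → List ℕ
  | [] => []
  | a :: v => if a :: v ∈ A then a :: v else base A v

theorem base_of_mem {A : Finset (List ℕ)} : ∀ {s : List ℕ}, s ∈ A → base A s = s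
  | [], _ => rfl
  | a :: v, h => by simp [base, h]

theorem base_cons_of_not_mem {A : Finset (List ℕ)} {a : ℕ} {v : List ℕ} (h : a :: v ∉ A) :
    base A (a :: v) = base A v := by simp [base, h]

theorem base_suffix (A : Finset (List ℕ)) : ∀ s : List ℕ, base A s <:+ s
  | [] => List.suffix_refl _
  | a :: v => by
    by_cases h : a :: v ∈ A
    · rw [base_of_mem h]
    · rw [base_cons_of_not_mem h]
      exact (base_suffix A v).trans (List.suffix_cons a v)

section construction

variable (A : Finset (List ℕ)) (f g : List ℕ → ℝ) (α β : ℝ)

/-- relative potential of `g` above the base point -/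
noncomputable def relPot (s : List ℕ) : ℝ := pathPotential g s - pathPotential g (base A s)

/-- the potential of the `+` family -/
noncomputable def potP (s : List ℕ) : ℝ :=
  α * pathPotential f (base A s) +
    β * (if 0 ≤ pathPotential f (base A s) then min (relPot A g s) 0 else max (relPot A g s) 0)

/-- the potential of the `-` family -/
noncomputable def potM (s : List ℕ) : ℝ :=
  α * pathPotential f (base A s) -
    β * (if 0 ≤ pathPotential f (base A s) then max (relPot A g s) 0 else min (relPot A g s) 0)

end construction

theorem relPot_of_mem {A : Finset (List ℕ)} (g : List ℕ → ℝ) {s : List ℕ} (h : s ∈ A) :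
    relPot A g s = 0 := by simp [relPot, base_of_mem h]

theorem relPot_cons_of_not_mem {A : Finset (List ℕ)} (g : List ℕ → ℝ) {a : ℕ} {v : List ℕ}
    (h : a :: v ∉ A) : relPot A g (a :: v) = relPot A g v + g (a :: v) := by
  simp only [relPot, base_cons_of_not_mem h, pathPotential]
  ring

theorem abs_min_zero_sub_le (x y : ℝ) : |min x 0 - min y 0| ≤ |x - y| := by
  have := abs_min_sub_min_le_max x 0 y 0
  simpa using this

theorem abs_max_zero_sub_le (x y : ℝ) : |max x 0 - max y 0| ≤ |x - y| := by
  have := abs_max_sub_max_le_max x 0 y 0
  simpa using this

/-- The splitting lemma. -/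
theorem exists_split (A : Finset (List ℕ)) (hA0 : [] ∈ A)
    (hA : ∀ (a : ℕ) (v : List ℕ), a :: v ∈ A → v ∈ A) (f g : List ℕ → ℝ) (α β : ℝ)
    (hα : 0 ≤ α) (hα1 : α ≤ 1) (hβ : 0 ≤ β) (hβ1 : β ≤ 1 / 2) :
    ∃ hp hm : List ℕ → ℝ,
      (∀ s ∈ A, hp s = α * f s ∧ hm s = α * f s) ∧
      (∀ s ∉ A, |hp s| ≤ β * |g s| ∧ |hm s| ≤ β * |g s| ∧ hp s - hm s = β * g s) ∧
      (∀ s, (∀ r, r <:+ s → |pathPotential f r| ≤ 1 ∧ |pathPotential g r| ≤ 1) →
        |pathPotential hp s| ≤ 1 ∧ |pathPotential hm s| ≤ 1) := by
  refine ⟨incr (potP A f g α β), incr (potM A f g α β), ?_, ?_, ?_⟩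
  · intro s hs
    cases s with
    | nil =>
      simp [incr, potP, potM, relPot_of_mem g hs, base, pathPotential]
    | cons a v =>
      have hv := hA a v hs
      simp only [incr, potP, potM, relPot_of_mem g hs, relPot_of_mem g hv, base_of_mem hs,
        base_of_mem hv, pathPotential]
      simp
      ring
  · intro s hs
    cases s with
    | nil => exact absurd hA0 hs
    | cons a v =>
      have hb := base_cons_of_not_mem hs
      have hq := relPot_cons_of_not_mem g hs
      have e1 := abs_min_zero_sub_le (relPot A g (a :: v)) (relPot A g v)
      have e2 := abs_max_zero_sub_le (relPot A g (a :: v)) (relPot A g v)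
      have e3 : relPot A g (a :: v) - relPot A g v = g (a :: v) := by rw [hq]; ring
      rw [e3] at e1 e2
      simp only [incr, potP, potM, hb]
      by_cases hc : 0 ≤ pathPotential f (base A v)
      · simp only [if_pos hc]
        refine ⟨?_, ?_, ?_⟩
        · have : α * pathPotential f (base A v) + β * min (relPot A g (a :: v)) 0 -
              (α * pathPotential f (base A v) + β * min (relPot A g v) 0) =
              β * (min (relPot A g (a :: v)) 0 - min (relPot A g v) 0) := by ring
          rw [this, abs_mul, abs_of_nonneg hβ]
          exact mul_le_mul_of_nonneg_left e1 hβ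
        · have : α * pathPotential f (base A v) - β * max (relPot A g (a :: v)) 0 -
              (α * pathPotential f (base A v) - β * max (relPot A g v) 0) =
              -(β * (max (relPot A g (a :: v)) 0 - max (relPot A g v) 0)) := by ring
          rw [this, abs_neg, abs_mul, abs_of_nonneg hβ]
          exact mul_le_mul_of_nonneg_left e2 hβ
        · have m1 := min_add_max (relPot A g (a :: v)) 0
          have m2 := min_add_max (relPot A g v) 0
          have : α * pathPotential f (base A v) + β * min (relPot A g (a :: v)) 0 -
              (α * pathPotential f (base A v) + β * min (relPot A g v) 0) -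
              (α * pathPotential f (base A v) - β * max (relPot A g (a :: v)) 0 -
              (α * pathPotential f (base A v) - β * max (relPot A g v) 0)) =
              β * ((min (relPot A g (a :: v)) 0 + max (relPot A g (a :: v)) 0) -
                (min (relPot A g v) 0 + max (relPot A g v) 0)) := by ring
          rw [this, m1, m2, ← e3]; ring
      · simp only [if_neg hc]
        refine ⟨?_, ?_, ?_⟩
        · have : α * pathPotential f (base A v) + β * max (relPot A g (a :: v)) 0 -
              (α * pathPotential f (base A v) + β * max (relPot A g v) 0) =
              β * (max (relPot A g (a :: v)) 0 - max (relPot A g v) 0) := by ring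
          rw [this, abs_mul, abs_of_nonneg hβ]
          exact mul_le_mul_of_nonneg_left e2 hβ
        · have : α * pathPotential f (base A v) - β * min (relPot A g (a :: v)) 0 -
              (α * pathPotential f (base A v) - β * min (relPot A g v) 0) =
              -(β * (min (relPot A g (a :: v)) 0 - min (relPot A g v) 0)) := by ring
          rw [this, abs_neg, abs_mul, abs_of_nonneg hβ]
          exact mul_le_mul_of_nonneg_left e1 hβ
        · have m1 := min_add_max (relPot A g (a :: v)) 0
          have m2 := min_add_max (relPot A g v) 0
          have : α * pathPotential f (base A v) + β * max (relPot A g (a :: v)) 0 -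
              (α * pathPotential f (base A v) + β * max (relPot A g v) 0) -
              (α * pathPotential f (base A v) - β * min (relPot A g (a :: v)) 0 -
              (α * pathPotential f (base A v) - β * min (relPot A g v) 0)) =
              β * ((min (relPot A g (a :: v)) 0 + max (relPot A g (a :: v)) 0) -
                (min (relPot A g v) 0 + max (relPot A g v) 0)) := by ring
          rw [this, m1, m2, ← e3]; ring
  · intro s hs
    rw [pathPotential_incr, pathPotential_incr]
    have hf := (hs _ (base_suffix A s)).1
    have hg1 := (hs _ (base_suffix A s)).2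
    have hg2 := (hs _ (List.suffix_refl s)).2
    have hq : |relPot A g s| ≤ 2 := by
      unfold relPot
      rw [abs_le] at hg1 hg2 ⊢
      constructor <;> linarith [hg1.1, hg1.2, hg2.1, hg2.2]
    rw [abs_le] at hf hq
    set p := pathPotential f (base A s) with hp
    set q := relPot A g s with hqdef
    have hmin0 : min q 0 ≤ 0 := min_le_right _ _
    have hmin2 : -2 ≤ min q 0 := le_min hq.1 (by norm_num)
    have hmax0 : 0 ≤ max q 0 := le_max_right _ _
    have hmax2 : max q 0 ≤ 2 := max_le hq.2 (by norm_num)
    simp only [potP, potM, ← hp, ← hqdef]
    by_cases hc : 0 ≤ p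
    · simp only [if_pos hc]
      constructor
      · rw [abs_le]; constructor <;> nlinarith
      · rw [abs_le]; constructor <;> nlinarith
    · simp only [if_neg hc]
      rw [not_le] at hc
      constructor
      · rw [abs_le]; constructor <;> nlinarith
      · rw [abs_le]; constructor <;> nlinarith

end Crest.Agent.S0166
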