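import Mathlib
import Crest.Agent.S0166_Split
import Crest.Agent.S0166_L2Sum

/-!
Row 125, S0166: the spaces `Xs n` = `ℓ²(List ℕ)` renormed by
`‖x‖ₙ = sup {⟪f, x⟫ : ‖f‖₂ ≤ 1, |pathPotential f s| ≤ 1 for |s| ≤ n}`, realised as the range of
the evaluation map `ℓ² → ℓ^∞(tests)`.
-/

set_option autoImplicit false

namespace Crest.Agent.S0166

open Crest.AnalysisR Crest.Agent.Auc Crest.AnalysisR.TreePotential
open scoped RealInnerProductSpace

/-- the Hilbert space `ℓ²(List ℕ)` -/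
abbrev Hs : Type := lp (fun _ : List ℕ => ℝ) 2

/-- tests of depth `n` -/
def IsT (n : ℕ) (f : Hs) : Prop :=
  ‖f‖ ≤ 1 ∧ ∀ s : List ℕ, s.length ≤ n → |pathPotential (⇑f) s| ≤ 1

/-- the type of tests -/
def T (n : ℕ) : Type := {f : Hs // IsT n f}

theorem pathPotential_neg (f : List ℕ → ℝ) : ∀ s, pathPotential (-f) s = -pathPotential f s
  | [] => rfl
  | a :: v => by
    simp only [pathPotential, pathPotential_neg f v, Pi.neg_apply]
    ring

theorem IsT.neg {n : ℕ} {f : Hs} (h : IsT n f) : IsT n (-f) := by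
  refine ⟨by rw [norm_neg]; exact h.1, fun s hs => ?_⟩
  rw [lp.coeFn_neg, pathPotential_neg, abs_neg]
  exact h.2 s hs

theorem abs_inner_le_of_isT {n : ℕ} {f : Hs} (h : IsT n f) (x : Hs) : |⟪f, x⟫| ≤ ‖x‖ := by
  calc |⟪f, x⟫| ≤ ‖f‖ * ‖x‖ := abs_real_inner_le_norm f x
    _ ≤ 1 * ‖x‖ := by gcongr; exact h.1
    _ = ‖x‖ := one_mul _

/-- evaluation against all tests -/
noncomputable def Jl (n : ℕ) : Hs →ₗ[ℝ] lp (fun _ : T n => ℝ) ⊤ where
  toFun x := ⟨fun f => ⟪f.1, x⟫, memℓp_infty ⟨‖x‖, by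
    rintro _ ⟨f, rfl⟩
    exact abs_inner_le_of_isT f.2 x⟩⟩
  map_add' x y := by
    ext f
    exact inner_add_right _ _ _
  map_smul' a x := by
    ext f
    exact inner_smul_right _ _ _

theorem Jl_apply (n : ℕ) (x : Hs) (f : T n) : Jl n x f = ⟪f.1, x⟫ := rfl

theorem norm_Jl_le (n : ℕ) (x : Hs) : ‖Jl n x‖ ≤ ‖x‖ :=
  lp.norm_le_of_forall_le (norm_nonneg _) fun f => abs_inner_le_of_isT f.2 x

theorem inner_le_norm_Jl {n : ℕ} {f : Hs} (h : IsT n f) (x : Hs) : ⟪f, x⟫ ≤ ‖Jl n x‖ :=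
  le_trans (le_abs_self _) (lp.norm_apply_le_norm (by simp) (Jl n x) ⟨f, h⟩)

theorem norm_Jl_le_of {n : ℕ} {x : Hs} {C : ℝ} (hC : 0 ≤ C) (h : ∀ f, IsT n f → ⟪f, x⟫ ≤ C) :
    ‖Jl n x‖ ≤ C := by
  refine lp.norm_le_of_forall_le hC fun f => ?_
  rw [Jl_apply, Real.norm_eq_abs, abs_le]
  refine ⟨?_, h _ f.2⟩
  have := h _ f.2.neg
  rw [inner_neg_left] at this
  linarith

theorem abs_pathPotential_le (f : List ℕ → ℝ) (C : ℝ) (h : ∀ s, |f s| ≤ C) :
    ∀ s : List ℕ, |pathPotential f s| ≤ (s.length + 1) * C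
  | [] => by simpa [pathPotential] using h []
  | a :: v => by
    have h1 := abs_pathPotential_le f C h v
    have h2 := h (a :: v)
    simp only [pathPotential, List.length_cons, Nat.cast_add, Nat.cast_one]
    calc |pathPotential f v + f (a :: v)| ≤ |pathPotential f v| + |f (a :: v)| := abs_add_le _ _
      _ ≤ (v.length + 1) * C + C := add_le_add h1 h2
      _ = (v.length + 1 + 1) * C := by ring

theorem isT_of_norm_le {n : ℕ} {f : Hs} (h : ((n : ℝ) + 1) * ‖f‖ ≤ 1) : IsT n f := by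
  have hn : (0 : ℝ) ≤ n := Nat.cast_nonneg n
  have hf : 0 ≤ ‖f‖ := norm_nonneg f
  refine ⟨by nlinarith, fun s hs => ?_⟩
  have h1 := abs_pathPotential_le (⇑f) ‖f‖ (fun r => lp.norm_apply_le_norm (by simp) f r) s
  have h2 : (s.length : ℝ) ≤ n := by exact_mod_cast hs
  calc |pathPotential (⇑f) s| ≤ (s.length + 1) * ‖f‖ := h1
    _ ≤ ((n : ℝ) + 1) * ‖f‖ := by gcongr
    _ ≤ 1 := h

theorem norm_le_mul_norm_Jl (n : ℕ) (x : Hs) : ‖x‖ ≤ ((n : ℝ) + 1) * ‖Jl n x‖ := by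
  have hn : (0 : ℝ) < (n : ℝ) + 1 := by positivity
  rcases eq_or_ne x 0 with rfl | hx
  · simp
  have hx0 : 0 < ‖x‖ := norm_pos_iff.2 hx
  have ht : IsT n ((((n : ℝ) + 1) * ‖x‖)⁻¹ • x) := by
    apply isT_of_norm_le
    rw [norm_smul, norm_inv, Real.norm_eq_abs, abs_of_pos (by positivity)]
    field_simp
    exact le_refl _
  have := inner_le_norm_Jl ht x
  rw [inner_smul_left, real_inner_self_eq_norm_sq] at this
  simp only [conj_trivial] at this
  have e : (((n : ℝ) + 1) * ‖x‖)⁻¹ * ‖x‖ ^ 2 = ‖x‖ / ((n : ℝ) + 1) := by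
    field_simp
  rw [e, div_le_iff₀ hn] at this
  linarith

theorem Jl_injective (n : ℕ) : Function.Injective (Jl n) := by
  rw [injective_iff_map_eq_zero]
  intro x hx
  have := norm_le_mul_norm_Jl n x
  rw [hx, norm_zero, mul_zero] at this
  exact norm_le_zero_iff.1 this

/-- the renormed space -/
abbrev Xs (n : ℕ) : Type := LinearMap.range (Jl n)

/-- the identification of `ℓ²` with the renormed space -/
noncomputable def e (n : ℕ) : Hs ≃L[ℝ] Xs n :=
  (LinearEquiv.ofInjective (Jl n) (Jl_injective n)).toContinuousLinearEquivOfBounds 1 ((n : ℝ) + 1)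
    (fun x => by rw [one_mul]; exact norm_Jl_le n x)
    (fun y => by
      have := norm_le_mul_norm_Jl n ((LinearEquiv.ofInjective (Jl n) (Jl_injective n)).symm y)
      have h2 : Jl n ((LinearEquiv.ofInjective (Jl n) (Jl_injective n)).symm y) = y := by
        have := (LinearEquiv.ofInjective (Jl n) (Jl_injective n)).apply_symm_apply y
        exact congrArg Subtype.val this
      rw [h2] at this
      exact this)

theorem norm_e (n : ℕ) (x : Hs) : ‖e n x‖ = ‖Jl n x‖ := rfl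

theorem norm_e_le (n : ℕ) (x : Hs) : ‖e n x‖ ≤ ‖x‖ := norm_Jl_le n x

theorem inner_le_norm_e {n : ℕ} {f : Hs} (h : IsT n f) (x : Hs) : ⟪f, x⟫ ≤ ‖e n x‖ :=
  inner_le_norm_Jl h x

theorem norm_e_le_of {n : ℕ} {x : Hs} {C : ℝ} (hC : 0 ≤ C) (h : ∀ f, IsT n f → ⟪f, x⟫ ≤ C) :
    ‖e n x‖ ≤ C := norm_Jl_le_of hC h

theorem isT_zero (n : ℕ) : IsT n 0 := isT_of_norm_le (by simp)

theorem exists_test_near (n : ℕ) (x : Hs) (ε : ℝ) (hε : 0 < ε) :
    ∃ f, IsT n f ∧ ‖e n x‖ - ε < ⟪f, x⟫ := by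
  by_contra hcon
  push Not at hcon
  by_cases h0 : 0 ≤ ‖e n x‖ - ε
  · have := norm_e_le_of h0 hcon
    linarith
  · have := hcon 0 (isT_zero n)
    rw [inner_zero_left] at this
    exact h0 this

instance (n : ℕ) : CompleteSpace (Xs n) :=
  ((e n).isUniformEmbedding.isUniformInducing.completeSpace_congr (e n).surjective).1 inferInstance

instance : TopologicalSpace.SeparableSpace Hs := separableSpace_lp

instance (n : ℕ) : TopologicalSpace.SeparableSpace (Xs n) :=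
  (e n).toHomeomorph.surjective.denseRange.separableSpace (e n).continuous

end Crest.Agent.S0166
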