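import Mathlib
import Crest.Agent.S0166_Space

/-!
Row 125, S0166: the key midpoint inequality in the spaces `Xs n`, and density of good centres.
-/

set_option autoImplicit false

namespace Crest.Agent.S0166

open Crest.AnalysisR Crest.Agent.Auc Crest.AnalysisR.TreePotential
open scoped RealInnerProductSpace

theorem hasSum_inner_mul (u x : Hs) : HasSum (fun s => u s * x s) ⟪u, x⟫ := by
  have := lp.hasSum_inner (𝕜 := ℝ) u x
  simpa [mul_comm] using this

theorem exists_lp_of_sq_le (h : List ℕ → ℝ) (f g : Hs) (α β : ℝ)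
    (hb : ∀ s, h s ^ 2 ≤ α ^ 2 * f s ^ 2 + β ^ 2 * g s ^ 2) :
    ∃ h' : Hs, (∀ s, h' s = h s) ∧ ‖h'‖ ^ 2 ≤ α ^ 2 * ‖f‖ ^ 2 + β ^ 2 * ‖g‖ ^ 2 := by
  have hf := hasSum_norm_sq f
  have hg := hasSum_norm_sq g
  have hsum := (hf.mul_left (α ^ 2)).add (hg.mul_left (β ^ 2))
  have hle : ∀ s, ‖h s‖ ^ 2 ≤ α ^ 2 * ‖f s‖ ^ 2 + β ^ 2 * ‖g s‖ ^ 2 := by
    intro s
    simpa [Real.norm_eq_abs, sq_abs] using hb s
  have hmem : Memℓp h 2 := by
    apply memℓp_gen
    have : Summable (fun s => ‖h s‖ ^ 2) :=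
      Summable.of_nonneg_of_le (fun s => by positivity) hle hsum.summable
    simpa using this
  refine ⟨⟨h, hmem⟩, fun s => rfl, ?_⟩
  exact hasSum_le hle (hasSum_norm_sq (⟨h, hmem⟩ : Hs)) hsum

theorem key_lin (n : ℕ) (A : Finset (List ℕ)) (hA0 : [] ∈ A)
    (hA : ∀ (a : ℕ) (v : List ℕ), a :: v ∈ A → v ∈ A)
    (c d : Hs) (hc : ∀ s, s ∉ A → c s = 0) (hd : ∀ s, s ∈ A → d s = 0) (α β : ℝ) (hα : 0 ≤ α)
    (hβ : 0 ≤ β) (hαβ : α ^ 2 + β ^ 2 ≤ 1) (hβ1 : β ≤ 1 / 2) :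
    2 * α * ‖e n c‖ + β * ‖e n d‖ ≤ ‖e n (c + d)‖ + ‖e n (c - d)‖ := by
  have hα1 : α ≤ 1 := by nlinarith
  apply le_of_forall_pos_le_add
  intro ε hε
  obtain ⟨f, hf, hfc⟩ := exists_test_near n c (ε / 3) (by positivity)
  obtain ⟨g, hg, hgd⟩ := exists_test_near n d (ε / 3) (by positivity)
  obtain ⟨hp, hm, h1, h2, h3⟩ := exists_split A hA0 hA f g α β hα hα1 hβ hβ1
  have aux : ∀ (h : List ℕ → ℝ), (∀ s ∈ A, h s = α * f s) → (∀ s, s ∉ A → |h s| ≤ β * |g s|) →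
      ∀ s, h s ^ 2 ≤ α ^ 2 * f s ^ 2 + β ^ 2 * g s ^ 2 := by
    intro h ha hb s
    by_cases hs : s ∈ A
    · rw [ha s hs]
      nlinarith [sq_nonneg (β * g s)]
    · have h4 := hb s hs
      have h5 : |h s| ^ 2 ≤ (β * |g s|) ^ 2 := pow_le_pow_left₀ (abs_nonneg _) h4 2
      rw [sq_abs, mul_pow, sq_abs] at h5
      nlinarith [sq_nonneg (α * f s)]
  obtain ⟨Hp, hHp, nHp⟩ := exists_lp_of_sq_le hp f g α β
    (aux hp (fun s hs => (h1 s hs).1) (fun s hs => (h2 s hs).1))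
  obtain ⟨Hm, hHm, nHm⟩ := exists_lp_of_sq_le hm f g α β
    (aux hm (fun s hs => (h1 s hs).2) (fun s hs => (h2 s hs).2.1))
  have hbound : α ^ 2 * ‖f‖ ^ 2 + β ^ 2 * ‖g‖ ^ 2 ≤ 1 := by
    have e1 : ‖f‖ ^ 2 ≤ 1 := pow_le_one₀ (norm_nonneg _) hf.1
    have e2 : ‖g‖ ^ 2 ≤ 1 := pow_le_one₀ (norm_nonneg _) hg.1
    nlinarith [sq_nonneg α, sq_nonneg β]
  have hpot : ∀ s : List ℕ, s.length ≤ n →
      ∀ r, r <:+ s → |pathPotential (⇑f) r| ≤ 1 ∧ |pathPotential (⇑g) r| ≤ 1 := by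
    intro s hs r hr
    exact ⟨hf.2 r (le_trans hr.length_le hs), hg.2 r (le_trans hr.length_le hs)⟩
  have tp : IsT n Hp := by
    refine ⟨?_, fun s hs => ?_⟩
    · have : ‖Hp‖ ^ 2 ≤ 1 := le_trans nHp hbound
      exact (pow_le_one_iff_of_nonneg (norm_nonneg _) (by norm_num)).1 this
    · have : (⇑Hp : List ℕ → ℝ) = hp := funext hHp
      rw [this]
      exact (h3 s (hpot s hs)).1
  have tm : IsT n Hm := by
    refine ⟨?_, fun s hs => ?_⟩
    · have : ‖Hm‖ ^ 2 ≤ 1 := le_trans nHm hbound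
      exact (pow_le_one_iff_of_nonneg (norm_nonneg _) (by norm_num)).1 this
    · have : (⇑Hm : List ℕ → ℝ) = hm := funext hHm
      rw [this]
      exact (h3 s (hpot s hs)).2
  have hid : ⟪Hp, c + d⟫ + ⟪Hm, c - d⟫ = 2 * α * ⟪f, c⟫ + β * ⟪g, d⟫ := by
    have s1 := (hasSum_inner_mul Hp (c + d)).add (hasSum_inner_mul Hm (c - d))
    have s2 := ((hasSum_inner_mul f c).mul_left (2 * α)).add ((hasSum_inner_mul g d).mul_left β)
    refine s1.unique ?_
    have hfun : (fun b => Hp b * (c + d) b + Hm b * (c - d) b) =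
        (fun b => 2 * α * (f b * c b) + β * (g b * d b)) := by
      funext s
      rw [lp.coeFn_add, lp.coeFn_sub, Pi.add_apply, Pi.sub_apply, hHp, hHm]
      by_cases hs : s ∈ A
      · rw [(h1 s hs).1, (h1 s hs).2, hd s hs]
        ring
      · have h6 := (h2 s hs).2.2
        rw [hc s hs]
        have : hp s = hm s + β * g s := by linarith
        rw [this]
        ring
    rw [hfun]
    exact s2
  have i1 := inner_le_norm_e tp (c + d)
  have i2 := inner_le_norm_e tm (c - d)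
  have j1 : 2 * α * ‖e n c‖ ≤ 2 * α * (⟪f, c⟫ + ε / 3) :=
    mul_le_mul_of_nonneg_left (by linarith) (by positivity)
  have j2 : β * ‖e n d‖ ≤ β * (⟪g, d⟫ + ε / 3) :=
    mul_le_mul_of_nonneg_left (by linarith) hβ
  nlinarith

theorem real_opt (a b S : ℝ) (ha : 0 ≤ a) (hb : 0 ≤ b) (h2 : 2 * b ≤ S)
    (h : ∀ α β : ℝ, 0 ≤ α → 0 ≤ β → α ^ 2 + β ^ 2 ≤ 1 → β ≤ 1 / 2 → 2 * α * a + β * b ≤ S) :
    2 * Real.sqrt (a ^ 2 + b ^ 2 / 4) ≤ S := by
  have h0 : 0 ≤ a ^ 2 + b ^ 2 / 4 := by positivity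
  have hR := Real.sq_sqrt h0
  have hR0 := Real.sqrt_nonneg (a ^ 2 + b ^ 2 / 4)
  set R := Real.sqrt (a ^ 2 + b ^ 2 / 4) with hRdef
  by_cases hcase : 3 * b ^ 2 ≤ 4 * a ^ 2
  · rcases eq_or_lt_of_le hR0 with hz | hpos
    · rw [← hz]; linarith
    · have hbR : b ≤ R := by
        by_contra hlt
        rw [not_le] at hlt
        nlinarith
      have := h (a / R) (b / 2 / R) (by positivity) (by positivity)
        (by
          rw [div_pow, div_pow, div_pow, ← add_div, div_le_one (by positivity)]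
          nlinarith)
        (by
          rw [div_le_iff₀ hpos]
          linarith)
      have e : 2 * (a / R) * a + b / 2 / R * b = 2 * R := by
        field_simp
        nlinarith
      linarith
  · rw [not_le] at hcase
    have : R ≤ b := by
      rw [hRdef, Real.sqrt_le_left hb]
      nlinarith
    linarith

theorem key (n : ℕ) (A : Finset (List ℕ)) (hA0 : [] ∈ A)
    (hA : ∀ (a : ℕ) (v : List ℕ), a :: v ∈ A → v ∈ A)
    (c d : Hs) (hc : ∀ s, s ∉ A → c s = 0) (hd : ∀ s, s ∈ A → d s = 0) :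
    2 * Real.sqrt (‖e n c‖ ^ 2 + ‖e n d‖ ^ 2 / 4) ≤ ‖e n c + e n d‖ + ‖e n c - e n d‖ := by
  apply real_opt _ _ _ (norm_nonneg _) (norm_nonneg _)
  · have e1 : (2 : ℝ) • e n d = (e n c + e n d) - (e n c - e n d) := by
      rw [two_smul]; abel
    have h' := norm_sub_le (e n c + e n d) (e n c - e n d)
    rw [← e1, norm_smul] at h'
    simpa using h'
  · intro α β hα hβ hαβ hβ1
    rw [← map_add, ← map_sub]
    exact key_lin n A hA0 hA c d hc hd α β hα hβ hαβ hβ1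

/-- suffix closure of a finite set of vertices, with the root added -/
def sufClosure (B : Finset (List ℕ)) : Finset (List ℕ) :=
  insert [] (B.biUnion fun s => s.tails.toFinset)

theorem nil_mem_sufClosure (B : Finset (List ℕ)) : [] ∈ sufClosure B := Finset.mem_insert_self _ _

theorem subset_sufClosure (B : Finset (List ℕ)) : B ⊆ sufClosure B := by
  intro s hs
  refine Finset.mem_insert_of_mem (Finset.mem_biUnion.2 ⟨s, hs, ?_⟩)
  simp

theorem sufClosure_closed (B : Finset (List ℕ)) (a : ℕ) (v : List ℕ)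
    (h : a :: v ∈ sufClosure B) : v ∈ sufClosure B := by
  rcases Finset.mem_insert.1 h with h | h
  · exact absurd h (by simp)
  · obtain ⟨s, hs, hv⟩ := Finset.mem_biUnion.1 h
    refine Finset.mem_insert_of_mem (Finset.mem_biUnion.2 ⟨s, hs, ?_⟩)
    simp only [List.mem_toFinset, List.mem_tails] at hv ⊢
    exact (List.suffix_cons a v).trans hv

theorem goodDense_Xs (n : ℕ) : GoodDense (Xs n) := by
  intro x ε hε
  set x₀ : Hs := (e n).symm x with hx₀
  obtain ⟨B, hB⟩ := exists_finset_approx x₀ ε hε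
  set c₀ : Hs := ∑ s ∈ B, lp.single 2 s (x₀ s) with hc₀
  refine ⟨e n c₀, ?_, ?_⟩
  · apply good_of_avg ((sufClosure B).toList.map fun s =>
      (lp.evalCLM ℝ (fun _ : List ℕ => ℝ) 2 s).comp ((e n).symm : Xs n →L[ℝ] Hs))
    intro y hy
    have hd : ∀ s, s ∈ sufClosure B → ((e n).symm y) s = 0 := by
      intro s hs
      exact hy ((lp.evalCLM ℝ (fun _ : List ℕ => ℝ) 2 s).comp ((e n).symm : Xs n →L[ℝ] Hs))
        (List.mem_map.2 ⟨s, Finset.mem_toList.2 hs, rfl⟩)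
    have hc : ∀ s, s ∉ sufClosure B → c₀ s = 0 := by
      intro s hs
      rw [hc₀, sum_single_apply, if_neg (fun h => hs (subset_sufClosure B h))]
    have := key n (sufClosure B) (nil_mem_sufClosure B) (sufClosure_closed B) c₀ ((e n).symm y)
      hc hd
    rwa [(e n).apply_symm_apply] at this
  · have : x - e n c₀ = e n (x₀ - c₀) := by
      rw [map_sub, hx₀, (e n).apply_symm_apply]
    rw [this]
    exact lt_of_le_of_lt (norm_e_le n _) hB

end Crest.Agent.S0166
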