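import Mathlib
import Crest.Agent.S0166_Key

/-!
Row 125, S0166: the `ℓ²`-sum `Es` of the spaces `Xs n`; weakly null trees, rank, no AUC renorming,
infinite dimension, separability, moduli.
-/

set_option autoImplicit false

namespace Crest.Agent.S0166

open Crest.AnalysisR Crest.Agent.Auc Crest.AnalysisR.TreePotential
open scoped RealInnerProductSpace

/-- the space of S0166 -/
abbrev Es : Type := lp Xs 2

/-- coordinate vectors of `ℓ²(List ℕ)` -/
noncomputable def dl (s : List ℕ) : Hs := lp.single 2 s (1 : ℝ)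

/-- branch vectors -/
noncomputable def uu : List ℕ → Hs
  | [] => dl []
  | a :: v => uu v + dl (a :: v)

theorem dl_apply (s r : List ℕ) : dl s r = if r = s then 1 else 0 := by
  simp [dl, Pi.single_apply]

theorem inner_dl (f : Hs) (s : List ℕ) : ⟪f, dl s⟫ = f s := by
  rw [dl, lp.inner_single_right]
  simp

theorem inner_uu (f : Hs) : ∀ v, ⟪f, uu v⟫ = pathPotential (⇑f) v
  | [] => inner_dl f []
  | a :: v => by
    rw [uu, inner_add_right, inner_uu f v, inner_dl]
    rfl

theorem norm_dl (s : List ℕ) : ‖dl s‖ = 1 := by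
  simp [dl]

theorem pathPotential_dl (s : List ℕ) :
    ∀ r, pathPotential (⇑(dl s)) r = if s <:+ r then 1 else 0
  | [] => by
    simp only [pathPotential, dl_apply, List.suffix_nil]
    simp only [eq_comm]
  | a :: v => by
    simp only [pathPotential, pathPotential_dl s v, dl_apply, List.suffix_cons_iff]
    by_cases h : s = a :: v
    · subst h
      have h2 : ¬ (a :: v) <:+ v := by
        intro hs
        have := hs.length_le
        simp at this
      simp [h2]
    · have h' : ¬ (a :: v = s) := fun h3 => h h3.symm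
      simp [h, h']

theorem isT_dl (n : ℕ) (s : List ℕ) : IsT n (dl s) := by
  refine ⟨(norm_dl s).le, fun r _ => ?_⟩
  rw [pathPotential_dl]
  split_ifs <;> simp

theorem norm_e_dl (n : ℕ) (s : List ℕ) : ‖e n (dl s)‖ = 1 := by
  apply le_antisymm
  · exact (norm_e_le n _).trans (norm_dl s).le
  · have := inner_le_norm_e (isT_dl n s) (dl s)
    rwa [inner_dl, dl_apply, if_pos rfl] at this

theorem norm_e_uu (n : ℕ) (v : List ℕ) (hv : v.length ≤ n) : ‖e n (uu v)‖ = 1 := by
  apply le_antisymm
  · refine norm_e_le_of zero_le_one fun f hf => ?_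
    rw [inner_uu]
    exact (le_abs_self _).trans (hf.2 v hv)
  · have := inner_le_norm_e (isT_dl n []) (uu v)
    rwa [inner_uu, pathPotential_dl, if_pos (List.nil_suffix)] at this

/-- `m ↦ m :: v` as an embedding -/
def consEmb (v : List ℕ) : ℕ ↪ List ℕ := ⟨fun m => m :: v, fun a b h => by simpa using h⟩

@[simp] theorem consEmb_apply (v : List ℕ) (m : ℕ) : consEmb v m = m :: v := rfl

theorem norm_sq_sum_dl (v : List ℕ) (A : Finset ℕ) (σ : ℕ → ℝ) (hσ : ∀ n, σ n = 1 ∨ σ n = -1) :
    ‖∑ m ∈ A, σ m • dl (m :: v)‖ ^ 2 = A.card := by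
  have h1 : ∑ m ∈ A, σ m • dl (m :: v) =
      ∑ i ∈ A.map (consEmb v), lp.single 2 i (σ (i.headD 0)) := by
    rw [Finset.sum_map]
    refine Finset.sum_congr rfl fun m _ => ?_
    simp [dl, ← lp.single_smul]
  have h2 := lp.norm_sum_single (p := 2) (E := fun _ : List ℕ => ℝ) (by norm_num)
    (fun i => σ (i.headD 0)) (A.map (consEmb v))
  rw [h1]
  have h3 : ∀ m, σ m ^ 2 = 1 := by
    intro m
    rcases hσ m with h | h <;> simp [h]
  simpa [Finset.sum_map, h3] using h2

/-- the embedding of `ℓ²` as the `n`-th summand -/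
noncomputable def emb (n : ℕ) : Hs →ₗ[ℝ] Es :=
  (lp.lsingle (𝕜 := ℝ) (E := Xs) 2 n).comp (e n).toLinearEquiv.toLinearMap

theorem emb_apply (n : ℕ) (x : Hs) : emb n x = lp.single 2 n (e n x) := rfl

/-- the weakly null sequences -/
noncomputable def yy (n : ℕ) (v : List ℕ) (m : ℕ) : Es := lp.single 2 n (e n (dl (m :: v)))

/-- the branch vectors in `Es` -/
noncomputable def UU (n : ℕ) (v : List ℕ) : Es := lp.single 2 n (e n (uu v))

theorem norm_yy (n : ℕ) (v : List ℕ) (m : ℕ) : ‖yy n v m‖ = 1 := by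
  rw [yy, lp.norm_single (by norm_num), norm_e_dl]

theorem norm_UU (n : ℕ) (v : List ℕ) (hv : v.length ≤ n) : ‖UU n v‖ = 1 := by
  rw [UU, lp.norm_single (by norm_num), norm_e_uu n v hv]

theorem UU_add_yy (n : ℕ) (v : List ℕ) (m : ℕ) : UU n v + yy n v m = UU n (m :: v) := by
  rw [UU, yy, UU, ← lp.single_add, ← map_add]
  rfl

theorem weaklyNull_yy (n : ℕ) (v : List ℕ) : WeaklyNull (yy n v) := by
  apply weaklyNull_of_sqrt_bound _ 1
  intro A σ hσ
  have h1 : ∑ m ∈ A, σ m • yy n v m = emb n (∑ m ∈ A, σ m • dl (m :: v)) := by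
    rw [map_sum]
    refine Finset.sum_congr rfl fun m _ => ?_
    rw [map_smul]
    rfl
  rw [h1, emb_apply, lp.norm_single (by norm_num), one_mul]
  refine (norm_e_le n _).trans ?_
  apply Real.le_sqrt_of_sq_le
  rw [norm_sq_sum_dl v A σ hσ]

theorem rank_UU (n : ℕ) : ∀ (k : ℕ) (v : List ℕ), v.length + k ≤ n → Rank (1 : ℝ) k (UU n v)
  | 0, _, _ => trivial
  | k + 1, v, h => by
    have hv : v.length ≤ n := by omega
    have hv' : ∀ m : ℕ, (m :: v).length ≤ n := by
      intro m
      simp only [List.length_cons]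
      omega
    have hx : UU n v ≠ 0 := by
      intro h0
      have := norm_UU n v hv
      rw [h0, norm_zero] at this
      exact zero_ne_one this
    refine rank_succ_of_weaklyNull hx (yy n v) (weaklyNull_yy n v) ?_ ?_ ?_
    · intro m
      rw [norm_UU n v hv, norm_yy, one_mul]
    · intro m
      rw [UU_add_yy, norm_UU n v hv, norm_UU n _ (hv' m)]
    · intro m
      rw [UU_add_yy]
      apply rank_UU n k (m :: v)
      simp only [List.length_cons]
      omega

theorem no_auc (N : Es → ℝ) (hN : (mkB Es).IsEquivNorm N) : ¬ (mkB Es).IsAUC N := by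
  refine not_isAUC_of_rank (δ := 1) one_pos (fun k => ⟨UU k [], ?_, rank_UU k k [] (by simp)⟩) N hN
  intro h0
  have := norm_UU k [] (by simp)
  rw [h0, norm_zero] at this
  exact zero_ne_one this

theorem not_finiteDimensional_Es : ¬ FiniteDimensional ℝ Es :=
  not_finiteDimensional_of_weaklyNull (weaklyNull_yy 0 []) one_pos fun m => (norm_yy 0 [] m).ge

theorem separable_Es : TopologicalSpace.SeparableSpace Es := separableSpace_lp

theorem goodDense_Es : GoodDense Es := goodDense_lp goodDense_Xs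

end Crest.Agent.S0166
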