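import Crest.Statements.S0166
import Crest.Agent.S0166_Rank
import Crest.Agent.Lib.helper95_Diamond
import Crest.Agent.Lib.helper32_Reflexive

set_option autoImplicit false
open Crest Crest.AnalysisR

namespace Crest.Agent.S0166

/-- There is a real Banach space (RealBanach record) that is separable, infinite-dimensional and reflexive, whose given norm has at every t > 0 averaged midpoint asymptotic modulus at least √(1 + t²/12) - 1 and at least (√(1 + t²/4) - 1)/2 and maximum-based midpoint modulus at least √(1 + t²/4) - 1, on which no equivalent norm is asymptotically uniformly convex, and in which for every k every map of the depth-k countably branching diamond graph of distortion at most D has 1 + k/4 ≤ D². -/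
theorem result :
    ∃ E : Crest.AnalysisR.RealBanach, E.IsSeparableInfiniteDim ∧ E.IsReflexive ∧
      (∀ t : ℝ, 0 < t → E.MidpointModulusGE E.norm t (Real.sqrt (1 + t ^ 2 / 12) - 1) ∧
        E.MidpointModulusGE E.norm t ((Real.sqrt (1 + t ^ 2 / 4) - 1) / 2) ∧
        E.MaxMidpointModulusGE E.norm t (Real.sqrt (1 + t ^ 2 / 4) - 1)) ∧
      (∀ N : E.X → ℝ, E.IsEquivNorm N → ¬ E.IsAUC N) ∧
      ∀ (k : ℕ) (f : Crest.AnalysisR.DiamondVertex k → E.X) (D : ℝ),
        E.HasDistortionLE k f D → 1 + (k : ℝ) / 4 ≤ D ^ 2 := by
  refine ⟨Crest.Agent.Auc.mkB Es, ⟨separable_Es, not_finiteDimensional_Es⟩, ?_, ?_, no_auc, ?_⟩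
  · exact Crest.Agent.helper32.isReflexive_mk Es
      (Crest.Agent.helper32.reflexive_lp_two fun n =>
        Crest.Agent.helper32.reflexive_of_equiv_hilbert (e n).symm)
  · intro t ht
    exact ⟨midpoint_twelve goodDense_Es t ht, midpoint_half goodDense_Es t ht,
      maxMidpoint goodDense_Es t ht⟩
  · exact Crest.Agent.helper95.diamond_distortion (Crest.Agent.Auc.mkB Es)
      (fun t ht => maxMidpoint goodDense_Es t ht)

end Crest.Agent.S0166
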