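import Mathlib
import Crest.Prelude.Def_DaugavetL1
import Crest.Agent.Lib.Auc

/-!
Measure-theoretic half of S0167: for a closed subspace `E` of `L¹(P)` whose unit ball is totally
bounded for convergence in measure, the averaged midpoint modulus at `t` is at least
`max (t/2) (t-1)`.
-/

set_option autoImplicit false

namespace Crest.Agent.S0167

open MeasureTheory Crest.AnalysisR Crest.AnalysisR.L1Subspace

variable {Ω : Type}

/-- the `±1`-valued sign of a function -/
noncomputable def sgn (g : Ω → ℝ) (ω : Ω) : ℝ := if 0 ≤ g ω then 1 else -1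

theorem sgn_mul_self (g : Ω → ℝ) (ω : Ω) : g ω * sgn g ω = |g ω| := by
  unfold sgn
  split_ifs with h
  · rw [abs_of_nonneg h, mul_one]
  · rw [abs_of_neg (not_le.mp h)]; ring

theorem abs_sgn (g : Ω → ℝ) (ω : Ω) : |sgn g ω| = 1 := by
  unfold sgn
  split_ifs <;> simp

variable [MeasurableSpace Ω]

theorem measurable_sgn {g : Ω → ℝ} (hg : Measurable g) : Measurable (sgn g) := by
  unfold sgn
  exact Measurable.ite (measurableSet_le measurable_const hg) measurable_const measurable_const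

theorem integrable_mul_sgn {P : Measure Ω} {h g : Ω → ℝ} (hh : Integrable h P) (hg : Measurable g) :
    Integrable (fun ω => h ω * sgn g ω) P :=
  hh.mul_bdd (c := 1) (measurable_sgn hg).aestronglyMeasurable
    (Filter.Eventually.of_forall fun ω => by rw [Real.norm_eq_abs, abs_sgn])

/-- Step 1: half of the mass of `y` sits on the small set `B = {a < |y - g|}`. -/
theorem half_mass {P : Measure Ω} [IsProbabilityMeasure P] {y g : Ω → ℝ} (hy : Integrable y P)
    (hym : Measurable y) (hg : Measurable g) {a : ℝ} (ha : 0 ≤ a)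
    (h0 : ∫ ω, y ω * sgn g ω ∂P = 0) :
    (∫ ω, |y ω| ∂P) / 2 - a ≤ ∫ ω, Set.indicator {ω | a < |y ω - g ω|} (fun ω => |y ω|) ω ∂P := by
  set B : Set Ω := {ω | a < |y ω - g ω|} with hB
  have hBm : MeasurableSet B := measurableSet_lt measurable_const (hym.sub hg).abs
  have hI : Integrable (fun ω => Set.indicator B (fun ω => |y ω|) ω) P := hy.abs.indicator hBm
  have key : ∀ ω, |y ω| - 2 * Set.indicator B (fun ω => |y ω|) ω ≤ y ω * sgn g ω + 2 * a := by
    intro ω
    have hs := abs_sgn g ω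
    have h1 : -|y ω| ≤ y ω * sgn g ω := by
      have : |y ω * sgn g ω| = |y ω| := by rw [abs_mul, hs, mul_one]
      rw [← this]; exact neg_abs_le _
    by_cases hω : ω ∈ B
    · rw [Set.indicator_of_mem hω]
      linarith
    · rw [Set.indicator_of_notMem hω]
      have h2 : |y ω - g ω| ≤ a := not_lt.mp hω
      have h3 : |y ω| ≤ |g ω| + a := by
        have := abs_sub_abs_le_abs_sub (y ω) (g ω)
        linarith
      have h4 : (g ω - y ω) * sgn g ω ≤ a := by
        have : |(g ω - y ω) * sgn g ω| = |y ω - g ω| := by rw [abs_mul, hs, mul_one, abs_sub_comm]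
        have h5 := le_abs_self ((g ω - y ω) * sgn g ω)
        linarith
      have h6 := sgn_mul_self g ω
      nlinarith
  have e1 : ∫ ω, (|y ω| - 2 * Set.indicator B (fun ω => |y ω|) ω) ∂P
      = (∫ ω, |y ω| ∂P) - 2 * ∫ ω, Set.indicator B (fun ω => |y ω|) ω ∂P := by
    rw [integral_sub hy.abs (hI.const_mul 2), integral_const_mul]
  have e2 : ∫ ω, (y ω * sgn g ω + 2 * a) ∂P = 2 * a := by
    rw [integral_add (integrable_mul_sgn hy hg) (integrable_const (2 * a)), h0]
    simp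
  have hint : ∫ ω, (|y ω| - 2 * Set.indicator B (fun ω => |y ω|) ω) ∂P
      ≤ ∫ ω, (y ω * sgn g ω + 2 * a) ∂P :=
    integral_mono (hy.abs.sub (hI.const_mul 2))
      ((integrable_mul_sgn hy hg).add (integrable_const (2 * a))) key
  rw [e1, e2] at hint
  linarith

/-- Step 2: the pointwise bound `(|x+ty| + |x-ty|)/2 ≥ max |x| (t|y|)` integrated. -/
theorem avg_ge {P : Measure Ω} {x y : Ω → ℝ} (hx : Integrable x P) (hy : Integrable y P)
    {B : Set Ω} (hBm : MeasurableSet B) {t : ℝ} (ht : 0 ≤ t) :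
    (∫ ω, |x ω| ∂P) - (∫ ω, Set.indicator B (fun ω => |x ω|) ω ∂P)
      + t * (∫ ω, Set.indicator B (fun ω => |y ω|) ω ∂P)
      ≤ ((∫ ω, |x ω + t * y ω| ∂P) + ∫ ω, |x ω - t * y ω| ∂P) / 2 := by
  have hIx : Integrable (fun ω => Set.indicator B (fun ω => |x ω|) ω) P := hx.abs.indicator hBm
  have hIy : Integrable (fun ω => Set.indicator B (fun ω => |y ω|) ω) P := hy.abs.indicator hBm
  have hp : Integrable (fun ω => |x ω + t * y ω|) P := (hx.add (hy.const_mul t)).abs
  have hm : Integrable (fun ω => |x ω - t * y ω|) P := (hx.sub (hy.const_mul t)).abs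
  have key : ∀ ω, |x ω| - Set.indicator B (fun ω => |x ω|) ω
      + t * Set.indicator B (fun ω => |y ω|) ω ≤ (|x ω + t * y ω| + |x ω - t * y ω|) / 2 := by
    intro ω
    have h1 : 2 * |x ω| ≤ |x ω + t * y ω| + |x ω - t * y ω| := by
      have := abs_add_le (x ω + t * y ω) (x ω - t * y ω)
      have h : x ω + t * y ω + (x ω - t * y ω) = 2 * x ω := by ring
      rw [h, abs_mul] at this
      simpa using this
    have h2 : 2 * (t * |y ω|) ≤ |x ω + t * y ω| + |x ω - t * y ω| := by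
      have := abs_sub (x ω + t * y ω) (x ω - t * y ω)
      have h : x ω + t * y ω - (x ω - t * y ω) = 2 * (t * y ω) := by ring
      rw [h, abs_mul, abs_mul, abs_of_nonneg ht] at this
      simpa using this
    by_cases hω : ω ∈ B
    · rw [Set.indicator_of_mem hω, Set.indicator_of_mem hω]; linarith
    · rw [Set.indicator_of_notMem hω, Set.indicator_of_notMem hω]; linarith
  have e1 : ∫ ω, (|x ω| - Set.indicator B (fun ω => |x ω|) ω
      + t * Set.indicator B (fun ω => |y ω|) ω) ∂P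
      = (∫ ω, |x ω| ∂P) - (∫ ω, Set.indicator B (fun ω => |x ω|) ω ∂P)
      + t * (∫ ω, Set.indicator B (fun ω => |y ω|) ω ∂P) := by
    have hsub : Integrable (fun ω => |x ω| - Set.indicator B (fun ω => |x ω|) ω) P :=
      hx.abs.sub hIx
    rw [integral_add hsub (hIy.const_mul t), integral_sub hx.abs hIx, integral_const_mul]
  have e2 : ∫ ω, (|x ω + t * y ω| + |x ω - t * y ω|) / 2 ∂P
      = ((∫ ω, |x ω + t * y ω| ∂P) + ∫ ω, |x ω - t * y ω| ∂P) / 2 := by
    rw [integral_div, integral_add hp hm]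
  rw [← e1, ← e2]
  exact integral_mono ((hx.abs.sub hIx).add (hIy.const_mul t)) ((hp.add hm).div_const 2) key

/-- absolute continuity of the integral -/
theorem exists_delta {P : Measure Ω} {x : Ω → ℝ} (hx : Integrable x P) {η : ℝ} (hη : 0 < η) :
    ∃ δ : ℝ, 0 < δ ∧ ∀ B : Set Ω, MeasurableSet B → P B < ENNReal.ofReal δ →
      ∫ ω, Set.indicator B (fun ω => |x ω|) ω ∂P < η := by
  have h1 : ∫⁻ ω, ENNReal.ofReal |x ω| ∂P ≠ ⊤ := hx.abs.lintegral_lt_top.ne
  obtain ⟨δ, hδ, h⟩ := exists_pos_setLIntegral_lt_of_measure_lt h1 (ε := ENNReal.ofReal η)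
    (by simpa using hη)
  have hne : min δ 1 ≠ ⊤ := ne_top_of_le_ne_top ENNReal.one_ne_top (min_le_right _ _)
  refine ⟨(min δ 1).toReal, ENNReal.toReal_pos (lt_min hδ one_pos).ne' hne, ?_⟩
  intro B hB hPB
  rw [ENNReal.ofReal_toReal hne] at hPB
  have h2 := h B (lt_of_lt_of_le hPB (min_le_left _ _))
  rw [integral_indicator hB, integral_eq_lintegral_of_nonneg_ae
    (Filter.Eventually.of_forall fun ω => abs_nonneg _) hx.abs.aestronglyMeasurable.restrict]
  exact ENNReal.toReal_lt_of_lt_ofReal h2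

/-- the functional `h ↦ ∫ h * sgn g` on `L¹` -/
noncomputable def sgnL (P : Measure Ω) (g : Lp ℝ 1 P) : Lp ℝ 1 P →L[ℝ] ℝ :=
  LinearMap.mkContinuous
    { toFun := fun h => ∫ ω, h ω * sgn g ω ∂P
      map_add' := fun h₁ h₂ => by
        have hg : Measurable (g : Ω → ℝ) := (Lp.stronglyMeasurable g).measurable
        have : ∀ᵐ ω ∂P, (h₁ + h₂ : Lp ℝ 1 P) ω * sgn g ω
            = h₁ ω * sgn g ω + h₂ ω * sgn g ω := by
          filter_upwards [Lp.coeFn_add h₁ h₂] with ω hω
          rw [hω, Pi.add_apply, add_mul]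
        rw [integral_congr_ae this, integral_add (integrable_mul_sgn (L1.integrable_coeFn h₁) hg)
          (integrable_mul_sgn (L1.integrable_coeFn h₂) hg)]
      map_smul' := fun c h => by
        have : ∀ᵐ ω ∂P, (c • h : Lp ℝ 1 P) ω * sgn g ω = c * (h ω * sgn g ω) := by
          filter_upwards [Lp.coeFn_smul c h] with ω hω
          rw [hω, Pi.smul_apply, smul_eq_mul, mul_assoc]
        rw [integral_congr_ae this, integral_const_mul]
        rfl }
    1 (fun h => by
      rw [one_mul, L1.norm_eq_integral_norm]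
      refine (norm_integral_le_integral_norm _).trans (le_of_eq ?_)
      refine integral_congr_ae (Filter.Eventually.of_forall fun ω => ?_)
      simp only [Real.norm_eq_abs, abs_mul, abs_sgn, mul_one])

theorem sgnL_apply (P : Measure Ω) (g h : Lp ℝ 1 P) :
    sgnL P g h = ∫ ω, h ω * sgn g ω ∂P := rfl

/-- extraction of a witness from `measureDist < ε` -/
theorem exists_of_measureDist_lt {P : Measure Ω} [IsProbabilityMeasure P] {f g : Lp ℝ 1 P} {ε : ℝ}
    (h : measureDist P f g < ε) :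
    ∃ a : ℝ, 0 < a ∧ a < ε ∧
      P {z | a < abs ((f : Ω → ℝ) z - (g : Ω → ℝ) z)} < ENNReal.ofReal a := by
  have hne : {a : ℝ | 0 < a ∧ P {z | a < abs ((f : Ω → ℝ) z - (g : Ω → ℝ) z)}
      < ENNReal.ofReal a}.Nonempty := by
    refine ⟨2, by norm_num, lt_of_le_of_lt prob_le_one ?_⟩
    rw [show (1 : ENNReal) = ENNReal.ofReal 1 by simp]
    exact (ENNReal.ofReal_lt_ofReal_iff (by norm_num)).2 (by norm_num)
  obtain ⟨a, ha, hlt⟩ := exists_lt_of_csInf_lt hne h
  exact ⟨a, ha.1, hlt, ha.2⟩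

/-- norms in `L¹` of `x ± t y` as integrals of representatives -/
theorem norm_add_smul (P : Measure Ω) (x y : Lp ℝ 1 P) (t : ℝ) :
    ‖x + t • y‖ = ∫ ω, |x ω + t * y ω| ∂P := by
  rw [L1.norm_eq_integral_norm]
  refine integral_congr_ae ?_
  filter_upwards [Lp.coeFn_add x (t • y), Lp.coeFn_smul t y] with ω h1 h2
  rw [h1, Pi.add_apply, h2, Pi.smul_apply, smul_eq_mul, Real.norm_eq_abs]

theorem norm_sub_smul (P : Measure Ω) (x y : Lp ℝ 1 P) (t : ℝ) :
    ‖x - t • y‖ = ∫ ω, |x ω - t * y ω| ∂P := by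
  rw [L1.norm_eq_integral_norm]
  refine integral_congr_ae ?_
  filter_upwards [Lp.coeFn_sub x (t • y), Lp.coeFn_smul t y] with ω h1 h2
  rw [h1, Pi.sub_apply, h2, Pi.smul_apply, smul_eq_mul, Real.norm_eq_abs]

theorem norm_eq_abs_integral (P : Measure Ω) (x : Lp ℝ 1 P) : ‖x‖ = ∫ ω, |x ω| ∂P := by
  rw [L1.norm_eq_integral_norm]
  rfl

/-- The core statement in `L¹`. -/
theorem midpoint_core (P : Measure Ω) [IsProbabilityMeasure P] (E : Submodule ℝ (Lp ℝ 1 P))
    (htb : UnitBallTotallyBoundedInMeasure P E) {t : ℝ} (ht : 0 < t) (x : Lp ℝ 1 P)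
    {η : ℝ} (hη : 0 < η) :
    ∃ s : Finset (Lp ℝ 1 P), ∀ y ∈ E, (∀ g ∈ s, sgnL P g y = 0) → ‖y‖ = 1 →
      ‖x‖ + t / 2 - η ≤ (‖x + t • y‖ + ‖x - t • y‖) / 2 := by
  obtain ⟨δ, hδ, hB⟩ := exists_delta (L1.integrable_coeFn x) (half_pos hη)
  have hε : 0 < min δ (η / (2 * t)) := lt_min hδ (by positivity)
  obtain ⟨s, -, hs⟩ := htb _ hε
  refine ⟨s, fun y hyE hker hy1 => ?_⟩
  obtain ⟨g, hgs, hdist⟩ := hs y hyE hy1.le
  obtain ⟨a, ha0, haε, hPa⟩ := exists_of_measureDist_lt hdist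
  have hym : Measurable (y : Ω → ℝ) := (Lp.stronglyMeasurable y).measurable
  have hgm : Measurable (g : Ω → ℝ) := (Lp.stronglyMeasurable g).measurable
  have hBm : MeasurableSet {ω | a < |(y : Ω → ℝ) ω - (g : Ω → ℝ) ω|} :=
    measurableSet_lt measurable_const (hym.sub hgm).abs
  have h1 := half_mass (L1.integrable_coeFn y) hym hgm ha0.le (hker g hgs)
  have h2 := avg_ge (L1.integrable_coeFn x) (L1.integrable_coeFn y) hBm ht.le
  have h3 := hB _ hBm (hPa.trans_le (ENNReal.ofReal_le_ofReal (haε.le.trans (min_le_left _ _))))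
  rw [← norm_eq_abs_integral] at h1
  rw [← norm_eq_abs_integral, ← norm_add_smul, ← norm_sub_smul] at h2
  rw [hy1] at h1
  have h4 : t * a ≤ η / 2 := by
    have : a ≤ η / (2 * t) := haε.le.trans (min_le_right _ _)
    calc t * a ≤ t * (η / (2 * t)) := by gcongr
      _ = η / 2 := by field_simp
  nlinarith

open Crest.Agent.Auc in
/-- **P3b**: the averaged midpoint modulus of `E` at `t` is at least `max (t/2) (t-1)`. -/
theorem midpointModulusGE (P : Measure Ω) [IsProbabilityMeasure P] (E : Submodule ℝ (Lp ℝ 1 P))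
    (hcl : IsClosed (E : Set (Lp ℝ 1 P))) (htb : UnitBallTotallyBoundedInMeasure P E)
    (t : ℝ) (ht : 0 < t) :
    (toRealBanach P E hcl).MidpointModulusGE (toRealBanach P E hcl).norm t
      (max (t / 2) (t - 1)) := by
  have : CompleteSpace E := hcl.completeSpace_coe
  show ∀ x : E, ‖x‖ = 1 → ∀ η : ℝ, 0 < η → ∃ F : Set E, (mkB E).IsCof F ∧
    ∀ y ∈ F, ‖y‖ = 1 → max (t / 2) (t - 1) - η ≤ (‖x + t • y‖ + ‖x - t • y‖) / 2 - 1
  intro x hx η hη
  obtain ⟨s, hs⟩ := midpoint_core P E htb ht (x : Lp ℝ 1 P) hη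
  refine ⟨kerL (s.toList.map fun g => (sgnL P g).comp E.subtypeL), isCof_kerL _, ?_⟩
  intro y hy hy1
  have hy' : ∀ g ∈ s, sgnL P g (y : Lp ℝ 1 P) = 0 := by
    intro g hg
    have := (mem_kerL.1 hy) ((sgnL P g).comp E.subtypeL)
      (List.mem_map.2 ⟨g, Finset.mem_toList.2 hg, rfl⟩)
    simpa using this
  have h1 := hs (y : Lp ℝ 1 P) y.2 hy' (by simpa using hy1)
  have hx' : ‖(x : Lp ℝ 1 P)‖ = 1 := by simpa using hx
  have ep : ‖x + t • y‖ = ‖(x : Lp ℝ 1 P) + t • (y : Lp ℝ 1 P)‖ := rfl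
  have em : ‖x - t • y‖ = ‖(x : Lp ℝ 1 P) - t • (y : Lp ℝ 1 P)‖ := rfl
  have h2 : 2 * t ≤ ‖x + t • y‖ + ‖x - t • y‖ := by
    have h := norm_sub_le (x + t • y) (x - t • y)
    have e : x + t • y - (x - t • y) = (2 * t) • y := by
      rw [mul_smul, two_smul]; abel
    rw [e, norm_smul, hy1, Real.norm_eq_abs, abs_of_pos (by positivity), mul_one] at h
    exact h
  rw [← ep, ← em, hx'] at h1
  rcases max_cases (t / 2) (t - 1) with ⟨h, -⟩ | ⟨h, -⟩ <;> rw [h] <;> linarith

open Crest.Agent.Auc in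
/-- the (easy) lower bound `max 0 (t-2)` for the one-sided modulus; holds in any Banach space. -/
theorem oneSidedModulusGE_gen {X : Type} [NormedAddCommGroup X] [NormedSpace ℝ X] [CompleteSpace X]
    (t : ℝ) (ht : 0 < t) :
    (mkB X).OneSidedModulusGE (mkB X).norm t (max 0 (t - 2)) := by
  show ∀ x : X, ‖x‖ = 1 → ∀ η : ℝ, 0 < η → ∃ F : Set X, (mkB X).IsCof F ∧
    ∀ y ∈ F, ‖y‖ = 1 → max 0 (t - 2) - η ≤ ‖x + t • y‖ - 1
  intro x hx η hη
  have hx0 : ‖x‖ ≠ 0 := by rw [hx]; exact one_ne_zero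
  obtain ⟨φ, hφ1, hφx⟩ := exists_dual_vector ℝ x hx0
  refine ⟨kerL [φ], isCof_kerL _, ?_⟩
  intro y hy hy1
  have hφy : φ y = 0 := (mem_kerL.1 hy) φ (by simp)
  have h1 : 1 ≤ ‖x + t • y‖ := by
    have h := φ.le_opNorm (x + t • y)
    rw [hφ1, one_mul, map_add, map_smul, hφy, smul_zero, add_zero, hφx] at h
    simpa [hx] using h
  have h2 : t - 1 ≤ ‖x + t • y‖ := by
    have h := norm_sub_le (x + t • y) x
    rw [add_sub_cancel_left, norm_smul, hy1, hx, Real.norm_eq_abs, abs_of_pos ht, mul_one] at h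
    linarith
  rcases max_cases 0 (t - 2) with ⟨h, -⟩ | ⟨h, -⟩ <;> rw [h] <;> linarith

/-- the one-sided lower bound for the `L¹` subspace record -/
theorem oneSidedModulusGE (P : Measure Ω) (E : Submodule ℝ (Lp ℝ 1 P))
    (hcl : IsClosed (E : Set (Lp ℝ 1 P))) (t : ℝ) (ht : 0 < t) :
    (toRealBanach P E hcl).OneSidedModulusGE (toRealBanach P E hcl).norm t (max 0 (t - 2)) := by
  have : CompleteSpace E := hcl.completeSpace_coe
  exact oneSidedModulusGE_gen (X := E) t ht

end Crest.Agent.S0167
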