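import Mathlib
import Crest.Prelude.Def_MultiMarginal

/-!
# S0175, package P6: the abstract optimal-transport argument

Pure measure theory.  `X` is any measurable space with measurable diagonal, `c` a symmetric
measurable cost on triples.  The hypotheses are collected in the structure `Setup`.
-/

set_option autoImplicit false
open MeasureTheory
open scoped ENNReal
open Crest.AnalysisR.OT

namespace Crest.Agent.S0175

variable {X : Type*} [MeasurableSpace X]

theorem coupling_lintegral_sum {μ : Measure X} {π : Measure (X × X × X)} (hπ : IsCoupling₃ μ π)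
    {u : X → ℝ≥0∞} (hu : Measurable u) :
    ∫⁻ p, (u p.1 + u p.2.1 + u p.2.2) ∂π = 3 * ∫⁻ x, u x ∂μ := by
  obtain ⟨h1, h2, h3⟩ := hπ
  have m1 : Measurable (fun p : X × X × X => p.1) := measurable_fst
  have m2 : Measurable (fun p : X × X × X => p.2.1) := measurable_fst.comp measurable_snd
  have m3 : Measurable (fun p : X × X × X => p.2.2) := measurable_snd.comp measurable_snd
  have e1 : ∫⁻ p, u p.1 ∂π = ∫⁻ x, u x ∂μ := by
    conv_rhs => rw [← h1]
    rw [lintegral_map hu m1]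
  have e2 : ∫⁻ p, u p.2.1 ∂π = ∫⁻ x, u x ∂μ := by
    conv_rhs => rw [← h2]
    rw [lintegral_map hu m2]
  have e3 : ∫⁻ p, u p.2.2 ∂π = ∫⁻ x, u x ∂μ := by
    conv_rhs => rw [← h3]
    rw [lintegral_map hu m3]
  have n2 : Measurable (fun p : X × X × X => u p.2.1) := hu.comp m2
  have n3 : Measurable (fun p : X × X × X => u p.2.2) := hu.comp m3
  rw [lintegral_add_right _ n3, lintegral_add_right _ n2, e1, e2, e3]
  ring

theorem coupling_ae_mem {μ : Measure X} {π : Measure (X × X × X)} (hπ : IsCoupling₃ μ π)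
    {S : Set X} (hS : μ Sᶜ = 0) : ∀ᵐ p ∂π, p.1 ∈ S ∧ p.2.1 ∈ S ∧ p.2.2 ∈ S := by
  obtain ⟨h1, h2, h3⟩ := hπ
  have m1 : Measurable (fun p : X × X × X => p.1) := measurable_fst
  have m2 : Measurable (fun p : X × X × X => p.2.1) := measurable_fst.comp measurable_snd
  have m3 : Measurable (fun p : X × X × X => p.2.2) := measurable_snd.comp measurable_snd
  have hae : ∀ᵐ x ∂μ, x ∈ S := by
    rw [ae_iff]; exact hS
  have a1 : ∀ᵐ p ∂π, p.1 ∈ S := by
    apply ae_of_ae_map m1.aemeasurable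
    rw [h1]; exact hae
  have a2 : ∀ᵐ p ∂π, p.2.1 ∈ S := by
    apply ae_of_ae_map m2.aemeasurable
    rw [h2]; exact hae
  have a3 : ∀ᵐ p ∂π, p.2.2 ∈ S := by
    apply ae_of_ae_map m3.aemeasurable
    rw [h3]; exact hae
  filter_upwards [a1, a2, a3] with p q1 q2 q3 using ⟨q1, q2, q3⟩

theorem monge_isCoupling {μ : Measure X} {T₂ T₃ : X → X} (h2 : Measurable T₂) (h3 : Measurable T₃)
    (p2 : μ.map T₂ = μ) (p3 : μ.map T₃ = μ) :
    IsCoupling₃ μ (μ.map (fun x => (x, T₂ x, T₃ x))) := by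
  have m : Measurable (fun x => (x, T₂ x, T₃ x)) := measurable_id.prodMk (h2.prodMk h3)
  have m1 : Measurable (fun p : X × X × X => p.1) := measurable_fst
  have m2 : Measurable (fun p : X × X × X => p.2.1) := measurable_fst.comp measurable_snd
  have m3 : Measurable (fun p : X × X × X => p.2.2) := measurable_snd.comp measurable_snd
  refine ⟨?_, ?_, ?_⟩
  · rw [Measure.map_map m1 m]
    exact Measure.map_id
  · rw [Measure.map_map m2 m]
    exact p2
  · rw [Measure.map_map m3 m]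
    exact p3

/-- The candidate optimal plan: the three cyclic positions of `x ↦ (x, y x, z x)` on `A`. -/
noncomputable def plan0 (μ : Measure X) (A : Set X) (y z : X → X) : Measure (X × X × X) :=
  (μ.restrict A).map (fun x => (x, y x, z x)) + (μ.restrict A).map (fun x => (z x, x, y x))
    + (μ.restrict A).map (fun x => (y x, z x, x))

/-- Hypotheses of the abstract theorem. -/
structure Setup (μ : Measure X) (c : X × X × X → ℝ≥0∞) (A B : Set X) (y z : X → X)
    (fA fB h : X → ℝ≥0∞) : Prop where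
  mA : MeasurableSet A
  mB : MeasurableSet B
  disj : Disjoint A B
  full : μ (A ∪ B)ᶜ = 0
  posA : μ A ≠ 0
  my : Measurable y
  mz : Measurable z
  yAB : ∀ x ∈ A, y x ∈ B
  zAB : ∀ x ∈ A, z x ∈ B
  push_y : (μ.restrict A).map y = (2⁻¹ : ℝ≥0∞) • μ.restrict B
  push_z : (μ.restrict A).map z = (2⁻¹ : ℝ≥0∞) • μ.restrict B
  inj_y : Set.InjOn y A
  inj_z : Set.InjOn z A
  ne_yz : ∀ x ∈ A, y x ≠ z x
  mc : Measurable c
  symm12 : ∀ a b d, c (a, b, d) = c (b, a, d)
  symm23 : ∀ a b d, c (a, b, d) = c (a, d, b)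
  mfA : Measurable fA
  mfB : Measurable fB
  mh : Measurable h
  int_fA : ∫⁻ x in A, fA x ∂μ ≠ ⊤
  int_fB : ∫⁻ x in B, fB x ∂μ ≠ ⊤
  int_h : ∫⁻ x in B, h x ∂μ ≠ ⊤
  dual_ABB : ∀ a ∈ A, ∀ b ∈ B, ∀ d ∈ B, fA a ≤ c (a, b, d) + fB b + fB d
  dual_AAB : ∀ a ∈ A, ∀ b ∈ A, ∀ d ∈ B, fA a + fA b < c (a, b, d) + fB d
  dual_AAA : ∀ a ∈ A, ∀ b ∈ A, ∀ d ∈ A, fA a + fA b + fA d < c (a, b, d)
  dual_BBB : ∀ a ∈ B, ∀ b ∈ B, ∀ d ∈ B, c (a, b, d) ≠ 0
  eq_graph : ∀ x ∈ A, fA x = c (x, y x, z x) + fB (y x) + fB (z x)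
  moment_le : ∀ a ∈ A, ∀ b ∈ B, ∀ d ∈ B, fA a = c (a, b, d) + fB b + fB d →
    h (y a) + h (z a) ≤ h b + h d
  moment_eq : ∀ a ∈ A, ∀ b ∈ B, ∀ d ∈ B, fA a = c (a, b, d) + fB b + fB d →
    h (y a) + h (z a) = h b + h d → (b = y a ∧ d = z a) ∨ (b = z a ∧ d = y a)

variable {μ : Measure X} {c : X × X × X → ℝ≥0∞} {A B : Set X} {y z : X → X}
  {fA fB h : X → ℝ≥0∞}

theorem Setup.restrict_add (S : Setup μ c A B y z fA fB h) :
    μ.restrict A + μ.restrict B = μ := by
  rw [← Measure.restrict_union S.disj S.mB]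
  exact Measure.restrict_eq_self_of_ae_mem (by rw [ae_iff]; exact S.full)

theorem Setup.isCoupling (S : Setup μ c A B y z fA fB h) : IsCoupling₃ μ (plan0 μ A y z) := by
  have half : (2⁻¹ : ℝ≥0∞) • μ.restrict B + (2⁻¹ : ℝ≥0∞) • μ.restrict B = μ.restrict B := by
    rw [← add_smul, ENNReal.inv_two_add_inv_two, one_smul]
  have n1 : Measurable (fun x => (x, y x, z x)) := measurable_id.prodMk (S.my.prodMk S.mz)
  have n2 : Measurable (fun x => (z x, x, y x)) := S.mz.prodMk (measurable_id.prodMk S.my)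
  have n3 : Measurable (fun x => (y x, z x, x)) := S.my.prodMk (S.mz.prodMk measurable_id)
  have m1 : Measurable (fun p : X × X × X => p.1) := measurable_fst
  have m2 : Measurable (fun p : X × X × X => p.2.1) := measurable_fst.comp measurable_snd
  have m3 : Measurable (fun p : X × X × X => p.2.2) := measurable_snd.comp measurable_snd
  have hid : (μ.restrict A).map (fun x => x) = μ.restrict A := Measure.map_id
  refine ⟨?_, ?_, ?_⟩
  · unfold plan0
    rw [Measure.map_add _ _ m1, Measure.map_add _ _ m1, Measure.map_map m1 n1,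
      Measure.map_map m1 n2, Measure.map_map m1 n3]
    show (μ.restrict A).map (fun x => x) + (μ.restrict A).map z + (μ.restrict A).map y = μ
    rw [hid, S.push_y, S.push_z, add_assoc, half, S.restrict_add]
  · unfold plan0
    rw [Measure.map_add _ _ m2, Measure.map_add _ _ m2, Measure.map_map m2 n1,
      Measure.map_map m2 n2, Measure.map_map m2 n3]
    show (μ.restrict A).map y + (μ.restrict A).map (fun x => x) + (μ.restrict A).map z = μ
    rw [hid, S.push_y, S.push_z, add_comm _ (μ.restrict A), add_assoc, half, S.restrict_add]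
  · unfold plan0
    rw [Measure.map_add _ _ m3, Measure.map_add _ _ m3, Measure.map_map m3 n1,
      Measure.map_map m3 n2, Measure.map_map m3 n3]
    show (μ.restrict A).map z + (μ.restrict A).map y + (μ.restrict A).map (fun x => x) = μ
    rw [hid, S.push_y, S.push_z, half, add_comm, S.restrict_add]

theorem Setup.lintegral_plan0 (S : Setup μ c A B y z fA fB h) :
    ∫⁻ p, c p ∂(plan0 μ A y z) = 3 * ∫⁻ x in A, c (x, y x, z x) ∂μ := by
  have n1 : Measurable (fun x => (x, y x, z x)) := measurable_id.prodMk (S.my.prodMk S.mz)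
  have n2 : Measurable (fun x => (z x, x, y x)) := S.mz.prodMk (measurable_id.prodMk S.my)
  have n3 : Measurable (fun x => (y x, z x, x)) := S.my.prodMk (S.mz.prodMk measurable_id)
  unfold plan0
  rw [lintegral_add_measure, lintegral_add_measure, lintegral_map S.mc n1, lintegral_map S.mc n2,
    lintegral_map S.mc n3]
  have e2 : ∀ x, c (z x, x, y x) = c (x, y x, z x) := fun x => by
    rw [S.symm12, S.symm23]
  have e3 : ∀ x, c (y x, z x, x) = c (x, y x, z x) := fun x => by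
    rw [S.symm23, S.symm12]
  simp only [e2, e3]
  ring

/-- `∫_A fA = ∫_A c(x,yx,zx) + ∫_B fB`. -/
theorem Setup.lintegral_fA (S : Setup μ c A B y z fA fB h) :
    ∫⁻ x in A, fA x ∂μ = ∫⁻ x in A, c (x, y x, z x) ∂μ + ∫⁻ x in B, fB x ∂μ := by
  have n1 : Measurable (fun x => (x, y x, z x)) := measurable_id.prodMk (S.my.prodMk S.mz)
  have e : ∫⁻ x in A, fA x ∂μ = ∫⁻ x in A, (c (x, y x, z x) + fB (y x) + fB (z x)) ∂μ :=
    setLIntegral_congr_fun S.mA (fun x hx => S.eq_graph x hx)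
  have ky : ∫⁻ x in A, fB (y x) ∂μ = 2⁻¹ * ∫⁻ x in B, fB x ∂μ := by
    rw [← lintegral_map S.mfB S.my, S.push_y, lintegral_smul_measure, smul_eq_mul]
  have kz : ∫⁻ x in A, fB (z x) ∂μ = 2⁻¹ * ∫⁻ x in B, fB x ∂μ := by
    rw [← lintegral_map S.mfB S.mz, S.push_z, lintegral_smul_measure, smul_eq_mul]
  have q2 : Measurable (fun x => fB (y x)) := S.mfB.comp S.my
  have q3 : Measurable (fun x => fB (z x)) := S.mfB.comp S.mz
  rw [e, lintegral_add_right _ q3, lintegral_add_right _ q2, ky, kz, add_assoc, ← add_mul,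
    ENNReal.inv_two_add_inv_two, one_mul]

theorem Setup.lintegral_plan0_lt_top (S : Setup μ c A B y z fA fB h) :
    ∫⁻ p, c p ∂(plan0 μ A y z) < ⊤ := by
  rw [S.lintegral_plan0]
  have h1 : ∫⁻ x in A, c (x, y x, z x) ∂μ ≤ ∫⁻ x in A, fA x ∂μ := by
    rw [S.lintegral_fA]; exact le_self_add
  have h2 : ∫⁻ x in A, c (x, y x, z x) ∂μ ≠ ⊤ := ne_top_of_le_ne_top S.int_fA h1
  exact ENNReal.mul_lt_top (by simp) h2.lt_top

/-- TContact triple in canonical position (apex first). -/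
def TContact (c : X × X × X → ℝ≥0∞) (A B : Set X) (fA fB : X → ℝ≥0∞) (a b d : X) : Prop :=
  a ∈ A ∧ b ∈ B ∧ d ∈ B ∧ fA a = c (a, b, d) + fB b + fB d

/-- TRigid triple in canonical position (apex first). -/
def TRigid (A : Set X) (y z : X → X) (a b d : X) : Prop :=
  a ∈ A ∧ ((b = y a ∧ d = z a) ∨ (b = z a ∧ d = y a))

theorem Setup.pointwise (S : Setup μ c A B y z fA fB h) {a b d : X} (ha : a ∈ A ∪ B)
    (hb : b ∈ A ∪ B) (hd : d ∈ A ∪ B) :
    (A.indicator fA a + A.indicator fA b + A.indicator fA d ≤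
      c (a, b, d) + (B.indicator fB a + B.indicator fB b + B.indicator fB d)) ∧
    (A.indicator fA a + A.indicator fA b + A.indicator fA d =
      c (a, b, d) + (B.indicator fB a + B.indicator fB b + B.indicator fB d) →
      TContact c A B fA fB a b d ∨ TContact c A B fA fB b a d ∨ TContact c A B fA fB d a b) := by
  have iAA : ∀ x ∈ A, A.indicator fA x = fA x := fun x hx => Set.indicator_of_mem hx _
  have iBA : ∀ x ∈ A, B.indicator fB x = 0 := fun x hx =>
    Set.indicator_of_notMem (Set.disjoint_left.mp S.disj hx) _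
  have iAB : ∀ x ∈ B, A.indicator fA x = 0 := fun x hx =>
    Set.indicator_of_notMem (Set.disjoint_right.mp S.disj hx) _
  have iBB : ∀ x ∈ B, B.indicator fB x = fB x := fun x hx => Set.indicator_of_mem hx _
  have c1 : c (a, d, b) = c (a, b, d) := (S.symm23 a b d).symm
  have c2 : c (b, d, a) = c (a, b, d) := by rw [S.symm23, S.symm12]
  have c3 : c (b, a, d) = c (a, b, d) := (S.symm12 a b d).symm
  have c4 : c (d, a, b) = c (a, b, d) := by rw [S.symm12, S.symm23]
  rcases ha with ha | ha <;> rcases hb with hb | hb <;> rcases hd with hd | hd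
  · -- AAA
    have := S.dual_AAA a ha b hb d hd
    rw [iAA a ha, iAA b hb, iAA d hd, iBA a ha, iBA b hb, iBA d hd]
    simp only [add_zero]
    exact ⟨this.le, fun e => absurd e this.ne⟩
  · -- AAB
    have := S.dual_AAB a ha b hb d hd
    rw [iAA a ha, iAA b hb, iAB d hd, iBA a ha, iBA b hb, iBB d hd]
    simp only [add_zero, zero_add]
    exact ⟨this.le, fun e => absurd e this.ne⟩
  · -- ABA
    have := S.dual_AAB a ha d hd b hb
    rw [c1] at this
    rw [iAA a ha, iAB b hb, iAA d hd, iBA a ha, iBB b hb, iBA d hd]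
    simp only [add_zero, zero_add]
    exact ⟨this.le, fun e => absurd e this.ne⟩
  · -- ABB
    have := S.dual_ABB a ha b hb d hd
    rw [iAA a ha, iAB b hb, iAB d hd, iBA a ha, iBB b hb, iBB d hd]
    simp only [add_zero, zero_add]
    rw [← add_assoc]
    exact ⟨this, fun e => Or.inl ⟨ha, hb, hd, e⟩⟩
  · -- BAA
    have := S.dual_AAB b hb d hd a ha
    rw [c2] at this
    rw [iAB a ha, iAA b hb, iAA d hd, iBB a ha, iBA b hb, iBA d hd]
    simp only [add_zero, zero_add]
    exact ⟨this.le, fun e => absurd e this.ne⟩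
  · -- BAB
    have := S.dual_ABB b hb a ha d hd
    rw [iAB a ha, iAA b hb, iAB d hd, iBB a ha, iBA b hb, iBB d hd]
    simp only [add_zero, zero_add]
    rw [← add_assoc, ← c3]
    exact ⟨this, fun e => Or.inr (Or.inl ⟨hb, ha, hd, e⟩)⟩
  · -- BBA
    have := S.dual_ABB d hd a ha b hb
    rw [iAB a ha, iAB b hb, iAA d hd, iBB a ha, iBB b hb, iBA d hd]
    simp only [add_zero, zero_add]
    rw [← add_assoc, ← c4]
    exact ⟨this, fun e => Or.inr (Or.inr ⟨hd, ha, hb, e⟩)⟩
  · -- BBB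
    have := S.dual_BBB a ha b hb d hd
    rw [iAB a ha, iAB b hb, iAB d hd, iBB a ha, iBB b hb, iBB d hd]
    simp only [add_zero]
    refine ⟨zero_le, fun e => ?_⟩
    exfalso
    have e' := e.symm
    rw [add_eq_zero] at e'
    exact this e'.1

theorem Setup.pointwise2 (S : Setup μ c A B y z fA fB h) {a b d : X}
    (H : TContact c A B fA fB a b d ∨ TContact c A B fA fB b a d ∨ TContact c A B fA fB d a b) :
    (A.indicator (fun x => h (y x) + h (z x)) a + A.indicator (fun x => h (y x) + h (z x)) b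
        + A.indicator (fun x => h (y x) + h (z x)) d ≤
      B.indicator h a + B.indicator h b + B.indicator h d) ∧
    (A.indicator (fun x => h (y x) + h (z x)) a + A.indicator (fun x => h (y x) + h (z x)) b
        + A.indicator (fun x => h (y x) + h (z x)) d =
      B.indicator h a + B.indicator h b + B.indicator h d →
      TRigid A y z a b d ∨ TRigid A y z b a d ∨ TRigid A y z d a b) := by
  have iAA : ∀ x ∈ A, A.indicator (fun x => h (y x) + h (z x)) x = h (y x) + h (z x) :=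
    fun x hx => Set.indicator_of_mem hx _
  have iBA : ∀ x ∈ A, B.indicator h x = 0 := fun x hx =>
    Set.indicator_of_notMem (Set.disjoint_left.mp S.disj hx) _
  have iAB : ∀ x ∈ B, A.indicator (fun x => h (y x) + h (z x)) x = 0 := fun x hx =>
    Set.indicator_of_notMem (Set.disjoint_right.mp S.disj hx) _
  have iBB : ∀ x ∈ B, B.indicator h x = h x := fun x hx => Set.indicator_of_mem hx _
  rcases H with ⟨ha, hb, hd, e⟩ | ⟨hb, ha, hd, e⟩ | ⟨hd, ha, hb, e⟩
  · rw [iAA a ha, iAB b hb, iAB d hd, iBA a ha, iBB b hb, iBB d hd]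
    simp only [add_zero, zero_add]
    exact ⟨S.moment_le a ha b hb d hd e, fun e' => Or.inl ⟨ha, S.moment_eq a ha b hb d hd e e'⟩⟩
  · rw [iAB a ha, iAA b hb, iAB d hd, iBB a ha, iBA b hb, iBB d hd]
    simp only [add_zero, zero_add]
    exact ⟨S.moment_le b hb a ha d hd e,
      fun e' => Or.inr (Or.inl ⟨hb, S.moment_eq b hb a ha d hd e e'⟩)⟩
  · rw [iAB a ha, iAB b hb, iAA d hd, iBB a ha, iBB b hb, iBA d hd]
    simp only [add_zero, zero_add]
    exact ⟨S.moment_le d hd a ha b hb e,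
      fun e' => Or.inr (Or.inr ⟨hd, S.moment_eq d hd a ha b hb e e'⟩)⟩

theorem Setup.lintegral_F (S : Setup μ c A B y z fA fB h) {π : Measure (X × X × X)}
    (hπ : IsCoupling₃ μ π) :
    ∫⁻ p, (A.indicator fA p.1 + A.indicator fA p.2.1 + A.indicator fA p.2.2) ∂π
      = 3 * ∫⁻ x in A, fA x ∂μ := by
  rw [coupling_lintegral_sum hπ (S.mfA.indicator S.mA), lintegral_indicator S.mA]

theorem Setup.lintegral_G (S : Setup μ c A B y z fA fB h) {π : Measure (X × X × X)}
    (hπ : IsCoupling₃ μ π) :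
    ∫⁻ p, (c p + (B.indicator fB p.1 + B.indicator fB p.2.1 + B.indicator fB p.2.2)) ∂π
      = ∫⁻ p, c p ∂π + 3 * ∫⁻ x in B, fB x ∂μ := by
  rw [lintegral_add_left S.mc, coupling_lintegral_sum hπ (S.mfB.indicator S.mB),
    lintegral_indicator S.mB]

theorem Setup.F_le_G (S : Setup μ c A B y z fA fB h) {π : Measure (X × X × X)}
    (hπ : IsCoupling₃ μ π) :
    (fun p : X × X × X => A.indicator fA p.1 + A.indicator fA p.2.1 + A.indicator fA p.2.2)
      ≤ᵐ[π] (fun p => c p + (B.indicator fB p.1 + B.indicator fB p.2.1 + B.indicator fB p.2.2)) := by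
  filter_upwards [coupling_ae_mem hπ S.full] with p hp
  exact (S.pointwise hp.1 hp.2.1 hp.2.2).1

theorem Setup.three_fA (S : Setup μ c A B y z fA fB h) :
    3 * ∫⁻ x in A, fA x ∂μ = ∫⁻ p, c p ∂(plan0 μ A y z) + 3 * ∫⁻ x in B, fB x ∂μ := by
  rw [S.lintegral_plan0, S.lintegral_fA, mul_add]

theorem Setup.three_fB_ne_top (S : Setup μ c A B y z fA fB h) :
    3 * ∫⁻ x in B, fB x ∂μ ≠ ⊤ := ENNReal.mul_ne_top (by simp) S.int_fB

theorem Setup.optimal (S : Setup μ c A B y z fA fB h) (π : Measure (X × X × X))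
    (hπ : IsCoupling₃ μ π) : ∫⁻ p, c p ∂(plan0 μ A y z) ≤ ∫⁻ p, c p ∂π := by
  have h1 := lintegral_mono_ae (S.F_le_G hπ)
  rw [S.lintegral_F hπ, S.lintegral_G hπ, S.three_fA] at h1
  exact (ENNReal.add_le_add_iff_right S.three_fB_ne_top).mp h1

theorem Setup.ae_contact (S : Setup μ c A B y z fA fB h) {π : Measure (X × X × X)}
    (hπ : IsCoupling₃ μ π) (hle : ∫⁻ p, c p ∂π ≤ ∫⁻ p, c p ∂(plan0 μ A y z)) :
    ∀ᵐ p ∂π, TContact c A B fA fB p.1 p.2.1 p.2.2 ∨ TContact c A B fA fB p.2.1 p.1 p.2.2 ∨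
      TContact c A B fA fB p.2.2 p.1 p.2.1 := by
  have m1 : Measurable (fun p : X × X × X => p.1) := measurable_fst
  have m2 : Measurable (fun p : X × X × X => p.2.1) := measurable_fst.comp measurable_snd
  have m3 : Measurable (fun p : X × X × X => p.2.2) := measurable_snd.comp measurable_snd
  have mB := S.mfB.indicator S.mB
  have mG : Measurable (fun p : X × X × X =>
      c p + (B.indicator fB p.1 + B.indicator fB p.2.1 + B.indicator fB p.2.2)) :=
    S.mc.add (((mB.comp m1).add (mB.comp m2)).add (mB.comp m3))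
  have key := ae_eq_of_ae_le_of_lintegral_le (S.F_le_G hπ)
    (by rw [S.lintegral_F hπ]; exact ENNReal.mul_ne_top (by simp) S.int_fA) mG.aemeasurable
    (by
      rw [S.lintegral_F hπ, S.lintegral_G hπ, S.three_fA]
      gcongr)
  filter_upwards [coupling_ae_mem hπ S.full, key] with p hp e
  exact (S.pointwise hp.1 hp.2.1 hp.2.2).2 e

theorem Setup.lintegral_hyz (S : Setup μ c A B y z fA fB h) :
    ∫⁻ x in A, (h (y x) + h (z x)) ∂μ = ∫⁻ x in B, h x ∂μ := by
  have ky : ∫⁻ x in A, h (y x) ∂μ = 2⁻¹ * ∫⁻ x in B, h x ∂μ := by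
    rw [← lintegral_map S.mh S.my, S.push_y, lintegral_smul_measure, smul_eq_mul]
  have kz : ∫⁻ x in A, h (z x) ∂μ = 2⁻¹ * ∫⁻ x in B, h x ∂μ := by
    rw [← lintegral_map S.mh S.mz, S.push_z, lintegral_smul_measure, smul_eq_mul]
  have q3 : Measurable (fun x => h (z x)) := S.mh.comp S.mz
  rw [lintegral_add_right _ q3, ky, kz, ← add_mul, ENNReal.inv_two_add_inv_two, one_mul]

theorem Setup.ae_rigid (S : Setup μ c A B y z fA fB h) {π : Measure (X × X × X)}
    (hπ : IsCoupling₃ μ π) (hle : ∫⁻ p, c p ∂π ≤ ∫⁻ p, c p ∂(plan0 μ A y z)) :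
    ∀ᵐ p ∂π, TRigid A y z p.1 p.2.1 p.2.2 ∨ TRigid A y z p.2.1 p.1 p.2.2 ∨
      TRigid A y z p.2.2 p.1 p.2.1 := by
  have m1 : Measurable (fun p : X × X × X => p.1) := measurable_fst
  have m2 : Measurable (fun p : X × X × X => p.2.1) := measurable_fst.comp measurable_snd
  have m3 : Measurable (fun p : X × X × X => p.2.2) := measurable_snd.comp measurable_snd
  have mB := S.mh.indicator S.mB
  have mhyz : Measurable (fun x => h (y x) + h (z x)) := (S.mh.comp S.my).add (S.mh.comp S.mz)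
  have mA := mhyz.indicator S.mA
  have mG : Measurable (fun p : X × X × X =>
      B.indicator h p.1 + B.indicator h p.2.1 + B.indicator h p.2.2) :=
    ((mB.comp m1).add (mB.comp m2)).add (mB.comp m3)
  have hc := S.ae_contact hπ hle
  have hFG : (fun p : X × X × X => A.indicator (fun x => h (y x) + h (z x)) p.1
      + A.indicator (fun x => h (y x) + h (z x)) p.2.1
      + A.indicator (fun x => h (y x) + h (z x)) p.2.2) ≤ᵐ[π]
      (fun p => B.indicator h p.1 + B.indicator h p.2.1 + B.indicator h p.2.2) := by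
    filter_upwards [hc] with p hp
    exact (S.pointwise2 hp).1
  have iF : ∫⁻ p, (A.indicator (fun x => h (y x) + h (z x)) p.1
      + A.indicator (fun x => h (y x) + h (z x)) p.2.1
      + A.indicator (fun x => h (y x) + h (z x)) p.2.2) ∂π = 3 * ∫⁻ x in B, h x ∂μ := by
    rw [coupling_lintegral_sum hπ mA, lintegral_indicator S.mA, S.lintegral_hyz]
  have iG : ∫⁻ p, (B.indicator h p.1 + B.indicator h p.2.1 + B.indicator h p.2.2) ∂π
      = 3 * ∫⁻ x in B, h x ∂μ := by
    rw [coupling_lintegral_sum hπ mB, lintegral_indicator S.mB]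
  have key := ae_eq_of_ae_le_of_lintegral_le hFG
    (by rw [iF]; exact ENNReal.mul_ne_top (by simp) S.int_h) mG.aemeasurable
    (by rw [iF, iG])
  filter_upwards [hc, key] with p hp e
  exact (S.pointwise2 hp).2 e

theorem half_push [MeasurableEq X] {μ : Measure X} {A B W : Set X} {y T : X → X}
    (my : Measurable y) (hT : Measurable T)
    (yAB : ∀ x ∈ A, y x ∈ B) (push : (μ.restrict A).map y = (2⁻¹ : ℝ≥0∞) • μ.restrict B)
    (inj : Set.InjOn y A) (hW : MeasurableSet W) (hWA : W ⊆ A) :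
    MeasurableSet {x | T x ∈ W ∧ x = y (T x)} ∧
    μ {x | T x ∈ W ∧ x = y (T x)} = 2 * μ (W ∩ {x | T (y x) = x}) := by
  have mS : MeasurableSet {x | T x ∈ W ∧ x = y (T x)} :=
    (hT hW).inter (measurableSet_eq_fun measurable_id (my.comp hT))
  refine ⟨mS, ?_⟩
  have hSB : {x | T x ∈ W ∧ x = y (T x)} ⊆ B := by
    rintro x ⟨h1, h2⟩
    rw [h2]
    exact yAB _ (hWA h1)
  have e1 : (μ.restrict B) {x | T x ∈ W ∧ x = y (T x)} = μ {x | T x ∈ W ∧ x = y (T x)} := by
    rw [Measure.restrict_apply mS, Set.inter_eq_left.mpr hSB]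
  have e2 : ((μ.restrict A).map y) {x | T x ∈ W ∧ x = y (T x)} = μ (W ∩ {x | T (y x) = x}) := by
    rw [Measure.map_apply my mS, Measure.restrict_apply (my mS)]
    congr 1
    ext x
    simp only [Set.mem_inter_iff, Set.mem_preimage, Set.mem_ofPred_eq]
    constructor
    · rintro ⟨⟨h1, h2⟩, h3⟩
      have := inj h3 (hWA h1) h2
      rw [← this] at h1
      exact ⟨h1, this.symm⟩
    · rintro ⟨h1, h2⟩
      rw [h2]
      exact ⟨⟨h1, rfl⟩, hWA h1⟩
  rw [push, Measure.smul_apply, e1, smul_eq_mul] at e2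
  rw [← e2, ← mul_assoc, ENNReal.mul_inv_cancel (by simp) (by simp), one_mul]

/-- The parity argument: no measure preserving `T` can have the property that a.e. point mapped
into `A` is one of the two partners of its image. -/
theorem Setup.parity [MeasurableEq X] [IsFiniteMeasure μ] (S : Setup μ c A B y z fA fB h)
    (T : X → X) (hT : Measurable T) (pT : μ.map T = μ)
    (hr : ∀ᵐ x ∂μ, T x ∈ A → x = y (T x) ∨ x = z (T x)) : False := by
  have mP : MeasurableSet {x | T (y x) = x} := measurableSet_eq_fun (hT.comp S.my) measurable_id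
  have mQ : MeasurableSet {x | T (z x) = x} := measurableSet_eq_fun (hT.comp S.mz) measurable_id
  have key : ∀ W : Set X, MeasurableSet W → W ⊆ A →
      μ W = 2 * μ (W ∩ {x | T (y x) = x}) + 2 * μ (W ∩ {x | T (z x) = x}) := by
    intro W hW hWA
    obtain ⟨my1, ey⟩ := half_push (T := T) S.my hT S.yAB S.push_y S.inj_y hW hWA
    obtain ⟨mz1, ez⟩ := half_push (T := T) S.mz hT S.zAB S.push_z S.inj_z hW hWA
    have e0 : μ W = μ (T ⁻¹' W) := by
      conv_lhs => rw [← pT]
      rw [Measure.map_apply hT hW]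
    have e1 : μ (T ⁻¹' W) = μ ({x | T x ∈ W ∧ x = y (T x)} ∪ {x | T x ∈ W ∧ x = z (T x)}) := by
      apply measure_congr
      filter_upwards [hr] with x hx
      apply propext
      show T x ∈ W ↔ ((T x ∈ W ∧ x = y (T x)) ∨ (T x ∈ W ∧ x = z (T x)))
      constructor
      · intro hw
        rcases hx (hWA hw) with h1 | h1
        · exact Or.inl ⟨hw, h1⟩
        · exact Or.inr ⟨hw, h1⟩
      · rintro (h1 | h1) <;> exact h1.1
    have dis : Disjoint {x | T x ∈ W ∧ x = y (T x)} {x | T x ∈ W ∧ x = z (T x)} := by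
      rw [Set.disjoint_left]
      rintro x ⟨h1, h2⟩ ⟨_, h3⟩
      exact S.ne_yz _ (hWA h1) (h2.symm.trans h3)
    rw [e0, e1, measure_union dis mz1, ey, ez]
  set P : Set X := {x | T (y x) = x} with hP
  set Q : Set X := {x | T (z x) = x} with hQ
  have fin : ∀ W : Set X, μ W ≠ ⊤ := fun W => measure_ne_top μ W
  -- W1 = A ∩ P ∩ Q
  have z1 : μ (A ∩ P ∩ Q) = 0 := by
    have k := key (A ∩ P ∩ Q) ((S.mA.inter mP).inter mQ)
      (fun x hx => hx.1.1)
    have s1 : A ∩ P ∩ Q ∩ P = A ∩ P ∩ Q := by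
      ext x; simp only [Set.mem_inter_iff]; tauto
    have s2 : A ∩ P ∩ Q ∩ Q = A ∩ P ∩ Q := by
      ext x; simp only [Set.mem_inter_iff]; tauto
    rw [s1, s2] at k
    by_contra hne
    have : μ (A ∩ P ∩ Q) + 0 = μ (A ∩ P ∩ Q) + 3 * μ (A ∩ P ∩ Q) := by
      rw [add_zero]
      calc μ (A ∩ P ∩ Q) = 2 * μ (A ∩ P ∩ Q) + 2 * μ (A ∩ P ∩ Q) := k
        _ = μ (A ∩ P ∩ Q) + 3 * μ (A ∩ P ∩ Q) := by ring
    have := (ENNReal.add_right_inj (fin _)).mp this
    have h3 := this.symm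
    rw [mul_eq_zero] at h3
    rcases h3 with h3 | h3
    · norm_num at h3
    · exact hne h3
  have z2 : μ ((A ∩ P) \ Q) = 0 := by
    have k := key ((A ∩ P) \ Q) ((S.mA.inter mP).diff mQ) (fun x hx => hx.1.1)
    have s1 : (A ∩ P) \ Q ∩ P = (A ∩ P) \ Q := by
      ext x; simp only [Set.mem_inter_iff, Set.mem_sdiff]; tauto
    have s2 : (A ∩ P) \ Q ∩ Q = ∅ := by
      ext x; simp only [Set.mem_inter_iff, Set.mem_sdiff, Set.mem_empty_iff_false]; tauto
    rw [s1, s2, measure_empty, mul_zero, add_zero] at k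
    have : μ ((A ∩ P) \ Q) + 0 = μ ((A ∩ P) \ Q) + μ ((A ∩ P) \ Q) := by
      rw [add_zero]
      calc μ ((A ∩ P) \ Q) = 2 * μ ((A ∩ P) \ Q) := k
        _ = μ ((A ∩ P) \ Q) + μ ((A ∩ P) \ Q) := by ring
    exact ((ENNReal.add_right_inj (fin _)).mp this).symm
  have z3 : μ ((A ∩ Q) \ P) = 0 := by
    have k := key ((A ∩ Q) \ P) ((S.mA.inter mQ).diff mP) (fun x hx => hx.1.1)
    have s1 : (A ∩ Q) \ P ∩ Q = (A ∩ Q) \ P := by
      ext x; simp only [Set.mem_inter_iff, Set.mem_sdiff]; tauto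
    have s2 : (A ∩ Q) \ P ∩ P = ∅ := by
      ext x; simp only [Set.mem_inter_iff, Set.mem_sdiff, Set.mem_empty_iff_false]; tauto
    rw [s1, s2, measure_empty, mul_zero, zero_add] at k
    have : μ ((A ∩ Q) \ P) + 0 = μ ((A ∩ Q) \ P) + μ ((A ∩ Q) \ P) := by
      rw [add_zero]
      calc μ ((A ∩ Q) \ P) = 2 * μ ((A ∩ Q) \ P) := k
        _ = μ ((A ∩ Q) \ P) + μ ((A ∩ Q) \ P) := by ring
    exact ((ENNReal.add_right_inj (fin _)).mp this).symm
  have z4 : μ (A \ (P ∪ Q)) = 0 := by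
    have k := key (A \ (P ∪ Q)) (S.mA.diff (mP.union mQ)) (fun x hx => hx.1)
    have s1 : A \ (P ∪ Q) ∩ P = ∅ := by
      ext x; simp only [Set.mem_inter_iff, Set.mem_sdiff, Set.mem_union,
        Set.mem_empty_iff_false]; tauto
    have s2 : A \ (P ∪ Q) ∩ Q = ∅ := by
      ext x; simp only [Set.mem_inter_iff, Set.mem_sdiff, Set.mem_union,
        Set.mem_empty_iff_false]; tauto
    rw [s1, s2, measure_empty, mul_zero, add_zero] at k
    exact k
  apply S.posA
  have cover : A ⊆ (A ∩ P ∩ Q) ∪ ((A ∩ P) \ Q) ∪ ((A ∩ Q) \ P) ∪ (A \ (P ∪ Q)) := by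
    intro x hx
    simp only [Set.mem_inter_iff, Set.mem_sdiff, Set.mem_union]
    tauto
  have := measure_mono (μ := μ) cover
  have u : μ ((A ∩ P ∩ Q) ∪ ((A ∩ P) \ Q) ∪ ((A ∩ Q) \ P) ∪ (A \ (P ∪ Q))) = 0 := by
    rw [measure_union_null_iff, measure_union_null_iff, measure_union_null_iff]
    exact ⟨⟨⟨z1, z2⟩, z3⟩, z4⟩
  rw [u] at this
  exact le_antisymm this zero_le

theorem Setup.no_monge [MeasurableEq X] [IsFiniteMeasure μ] (S : Setup μ c A B y z fA fB h)
    (T₂ T₃ : X → X) (h2 : Measurable T₂) (h3 : Measurable T₃) (p2 : μ.map T₂ = μ)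
    (p3 : μ.map T₃ = μ) :
    ∫⁻ p, c p ∂(plan0 μ A y z) < ∫⁻ x, c (x, T₂ x, T₃ x) ∂μ := by
  by_contra hcon
  rw [not_lt] at hcon
  have m : Measurable (fun x => (x, T₂ x, T₃ x)) := measurable_id.prodMk (h2.prodMk h3)
  have hπ := monge_isCoupling h2 h3 p2 p3
  have hle : ∫⁻ p, c p ∂(μ.map (fun x => (x, T₂ x, T₃ x))) ≤ ∫⁻ p, c p ∂(plan0 μ A y z) := by
    rw [lintegral_map S.mc m]; exact hcon
  have hr := ae_of_ae_map m.aemeasurable (S.ae_rigid hπ hle)
  refine S.parity T₂ h2 p2 ?_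
  filter_upwards [hr] with x hx hTA
  have nB : T₂ x ∉ B := Set.disjoint_left.mp S.disj hTA
  rcases hx with ⟨ha, hh⟩ | ⟨_, hh⟩ | ⟨ha, hh⟩
  · exfalso
    rcases hh with ⟨e1, _⟩ | ⟨e1, _⟩
    · exact nB (by rw [e1]; exact S.yAB _ ha)
    · exact nB (by rw [e1]; exact S.zAB _ ha)
  · rcases hh with ⟨e1, _⟩ | ⟨e1, _⟩
    · exact Or.inl e1
    · exact Or.inr e1
  · exfalso
    rcases hh with ⟨_, e1⟩ | ⟨_, e1⟩
    · exact nB (by rw [e1]; exact S.zAB _ ha)
    · exact nB (by rw [e1]; exact S.yAB _ ha)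

end Crest.Agent.S0175
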