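import Mathlib
import Crest.Prelude.Def_MultiMarginal

/-!
# S0175, package P8: abstract approximation by Monge plans and the cost estimate
-/

set_option autoImplicit false
set_option linter.unusedVariables false
set_option linter.unusedSectionVars false

namespace Crest.Agent.S0175.Approx

open MeasureTheory Set
open scoped ENNReal
open Crest.AnalysisR.OT

section abstract

variable {E : Type*} [MeasurableSpace E]

/-- second map -/
noncomputable def T2 (A B1 : Set E) (y z η D : E → E) : E → E := by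
  classical
  exact fun x => if x ∈ A then y x else if x ∈ B1 then η (D x) else z (η (D x))

/-- third map -/
noncomputable def T3 (A B1 : Set E) (y z η D : E → E) : E → E := by
  classical
  exact fun x => if x ∈ A then z x else if x ∈ B1 then z (η (D x)) else η (D x)

theorem measurable_T2 {A B1 : Set E} (hA : MeasurableSet A) (hB1 : MeasurableSet B1)
    {y z η D : E → E} (hy : Measurable y) (hz : Measurable z) (hη : Measurable η)
    (hD : Measurable D) : Measurable (T2 A B1 y z η D) := by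
  classical
  unfold T2
  exact Measurable.ite hA hy (Measurable.ite hB1 (hη.comp hD) (hz.comp (hη.comp hD)))

theorem measurable_T3 {A B1 : Set E} (hA : MeasurableSet A) (hB1 : MeasurableSet B1)
    {y z η D : E → E} (hy : Measurable y) (hz : Measurable z) (hη : Measurable η)
    (hD : Measurable D) : Measurable (T3 A B1 y z η D) := by
  classical
  unfold T3
  exact Measurable.ite hA hz (Measurable.ite hB1 (hz.comp (hη.comp hD)) (hη.comp hD))

theorem measure_split (μ : Measure E) {A B1 B2 : Set E} (hA : MeasurableSet A)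
    (hB1 : MeasurableSet B1) (hB2 : MeasurableSet B2)
    (hAB1 : Disjoint A B1) (hAB2 : Disjoint A B2) (hB12 : Disjoint B1 B2)
    (hμ : μ (A ∪ (B1 ∪ B2))ᶜ = 0) :
    μ = μ.restrict A + (μ.restrict B1 + μ.restrict B2) := by
  have h1 : μ.restrict (A ∪ (B1 ∪ B2)) = μ := by
    apply Measure.restrict_eq_self_of_ae_mem
    rw [ae_iff]
    exact hμ
  rw [← Measure.restrict_union hB12 hB2, ← Measure.restrict_union _ (hB1.union hB2), h1]
  exact Disjoint.union_right hAB1 hAB2

theorem T2_of_mem_A {A B1 : Set E} {y z η D : E → E} {x : E} (hx : x ∈ A) :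
    T2 A B1 y z η D x = y x := by
  classical
  simp [T2, hx]

theorem T2_of_mem_B1 {A B1 : Set E} {y z η D : E → E} {x : E} (hxA : x ∉ A) (hx : x ∈ B1) :
    T2 A B1 y z η D x = η (D x) := by
  classical
  simp [T2, hx, hxA]

theorem T2_of_mem_B2 {A B1 : Set E} {y z η D : E → E} {x : E} (hxA : x ∉ A) (hx : x ∉ B1) :
    T2 A B1 y z η D x = z (η (D x)) := by
  classical
  simp [T2, hx, hxA]

theorem T3_of_mem_A {A B1 : Set E} {y z η D : E → E} {x : E} (hx : x ∈ A) :
    T3 A B1 y z η D x = z x := by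
  classical
  simp [T3, hx]

theorem T3_of_mem_B1 {A B1 : Set E} {y z η D : E → E} {x : E} (hxA : x ∉ A) (hx : x ∈ B1) :
    T3 A B1 y z η D x = z (η (D x)) := by
  classical
  simp [T3, hx, hxA]

theorem T3_of_mem_B2 {A B1 : Set E} {y z η D : E → E} {x : E} (hxA : x ∉ A) (hx : x ∉ B1) :
    T3 A B1 y z η D x = η (D x) := by
  classical
  simp [T3, hx, hxA]

/-- `η ∘ D` pushes `μ|Bi` to `μ|A`. -/
theorem map_eta_D (μ : Measure E) {A B Bi : Set E} (hA : MeasurableSet A)
    {y η D : E → E} (hy : Measurable y) (hη : Measurable η) (hD : Measurable D)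
    (hyμ : (μ.restrict A).map y = (2 : ℝ≥0∞)⁻¹ • μ.restrict B)
    (hDi : (μ.restrict Bi).map D = (2 : ℝ≥0∞)⁻¹ • μ.restrict B)
    (hηy : ∀ x ∈ A, η (y x) = x) :
    (μ.restrict Bi).map (fun x => η (D x)) = μ.restrict A := by
  have h1 : (μ.restrict Bi).map (fun x => η (D x)) = ((μ.restrict Bi).map D).map η :=
    (Measure.map_map hη hD).symm
  rw [h1, hDi, ← hyμ, Measure.map_map hη hy]
  have h2 : (η ∘ y) =ᵐ[μ.restrict A] id := by
    filter_upwards [ae_restrict_mem hA] with x hx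
    exact hηy x hx
  rw [Measure.map_congr h2, Measure.map_id]

theorem map_congr_restrict (μ : Measure E) {S : Set E} (hS : MeasurableSet S) {f g : E → E}
    (h : ∀ x ∈ S, f x = g x) : (μ.restrict S).map f = (μ.restrict S).map g := by
  apply Measure.map_congr
  filter_upwards [ae_restrict_mem hS] with x hx
  exact h x hx

theorem half_add_half (ν : Measure E) : (2 : ℝ≥0∞)⁻¹ • ν + (2 : ℝ≥0∞)⁻¹ • ν = ν := by
  rw [← add_smul, ENNReal.inv_two_add_inv_two, one_smul]

/-- The abstract approximation theorem. -/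
theorem approx (μ : Measure E) (c : E × E × E → ℝ≥0∞) (hc : Measurable c)
    (hsymm1 : ∀ a b d, c (a, b, d) = c (b, a, d)) (hsymm2 : ∀ a b d, c (a, b, d) = c (a, d, b))
    {A B1 B2 : Set E} (hA : MeasurableSet A) (hB1 : MeasurableSet B1) (hB2 : MeasurableSet B2)
    (hAB1 : Disjoint A B1) (hAB2 : Disjoint A B2) (hB12 : Disjoint B1 B2)
    (hμ : μ (A ∪ (B1 ∪ B2))ᶜ = 0)
    {y z η D : E → E} (hy : Measurable y) (hz : Measurable z) (hη : Measurable η)
    (hD : Measurable D)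
    (hyμ : (μ.restrict A).map y = (2 : ℝ≥0∞)⁻¹ • μ.restrict (B1 ∪ B2))
    (hzμ : (μ.restrict A).map z = (2 : ℝ≥0∞)⁻¹ • μ.restrict (B1 ∪ B2))
    (hD1 : (μ.restrict B1).map D = (2 : ℝ≥0∞)⁻¹ • μ.restrict (B1 ∪ B2))
    (hD2 : (μ.restrict B2).map D = (2 : ℝ≥0∞)⁻¹ • μ.restrict (B1 ∪ B2))
    (hηy : ∀ x ∈ A, η (y x) = x)
    (C : ℝ≥0∞) (hC1 : 1 ≤ C)
    (hC : ∀ x ∈ B1 ∪ B2, c (x, η (D x), z (η (D x))) ≤ C * c (D x, η (D x), z (η (D x)))) :
    ∃ T₂ T₃ : E → E, Measurable T₂ ∧ Measurable T₃ ∧ μ.map T₂ = μ ∧ μ.map T₃ = μ ∧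
      ∫⁻ x, c (x, T₂ x, T₃ x) ∂μ ≤ C * (3 * ∫⁻ x in A, c (x, y x, z x) ∂μ) := by
  have hsplit := measure_split μ hA hB1 hB2 hAB1 hAB2 hB12 hμ
  have hm2 := measurable_T2 hA hB1 hy hz hη hD
  have hm3 := measurable_T3 hA hB1 hy hz hη hD
  have hnA1 : ∀ x ∈ B1, x ∉ A := fun x hx hxA => (Set.disjoint_left.mp hAB1 hxA hx)
  have hnA2 : ∀ x ∈ B2, x ∉ A := fun x hx hxA => (Set.disjoint_left.mp hAB2 hxA hx)
  have hnB1 : ∀ x ∈ B2, x ∉ B1 := fun x hx hxB => (Set.disjoint_left.mp hB12 hxB hx)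
  have hηD1 := map_eta_D μ hA hy hη hD hyμ hD1 hηy
  have hηD2 := map_eta_D μ hA hy hη hD hyμ hD2 hηy
  have hzηD : ∀ Bi : Set E, (μ.restrict Bi).map (fun x => η (D x)) = μ.restrict A →
      (μ.restrict Bi).map (fun x => z (η (D x))) = (2 : ℝ≥0∞)⁻¹ • μ.restrict (B1 ∪ B2) := by
    intro Bi h
    have : (μ.restrict Bi).map (fun x => z (η (D x)))
        = ((μ.restrict Bi).map (fun x => η (D x))).map z :=
      (Measure.map_map hz (hη.comp hD)).symm
    rw [this, h, hzμ]
  have hBB : μ.restrict (B1 ∪ B2) = μ.restrict B1 + μ.restrict B2 :=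
    Measure.restrict_union hB12 hB2
  refine ⟨T2 A B1 y z η D, T3 A B1 y z η D, hm2, hm3, ?_, ?_, ?_⟩
  · conv_lhs => rw [hsplit]
    rw [Measure.map_add _ _ hm2, Measure.map_add _ _ hm2,
      map_congr_restrict μ hA (fun x hx => T2_of_mem_A (B1 := B1) (y := y) (z := z) (η := η)
        (D := D) hx),
      map_congr_restrict μ hB1 (fun x hx => T2_of_mem_B1 (y := y) (z := z) (η := η)
        (D := D) (hnA1 x hx) hx),
      map_congr_restrict μ hB2 (fun x hx => T2_of_mem_B2 (y := y) (z := z) (η := η)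
        (D := D) (hnA2 x hx) (hnB1 x hx)),
      hyμ, hηD1, hzηD B2 hηD2]
    conv_rhs => rw [hsplit, ← hBB, ← half_add_half (μ.restrict (B1 ∪ B2))]
    abel
  · conv_lhs => rw [hsplit]
    rw [Measure.map_add _ _ hm3, Measure.map_add _ _ hm3,
      map_congr_restrict μ hA (fun x hx => T3_of_mem_A (B1 := B1) (y := y) (z := z) (η := η)
        (D := D) hx),
      map_congr_restrict μ hB1 (fun x hx => T3_of_mem_B1 (y := y) (z := z) (η := η)
        (D := D) (hnA1 x hx) hx),
      map_congr_restrict μ hB2 (fun x hx => T3_of_mem_B2 (y := y) (z := z) (η := η)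
        (D := D) (hnA2 x hx) (hnB1 x hx)),
      hzμ, hηD2, hzηD B1 hηD1]
    conv_rhs => rw [hsplit, ← hBB, ← half_add_half (μ.restrict (B1 ∪ B2))]
    abel
  · set I := ∫⁻ x in A, c (x, y x, z x) ∂μ with hI
    -- the function on `B`
    set g : E → ℝ≥0∞ := fun b => c (b, η b, z (η b)) with hg
    have hgm : Measurable g := hc.comp (measurable_id.prodMk (hη.prodMk (hz.comp hη)))
    have hgI : ∀ Bi : Set E, (μ.restrict Bi).map D = (2 : ℝ≥0∞)⁻¹ • μ.restrict (B1 ∪ B2) →
        ∫⁻ x in Bi, g (D x) ∂μ = I := by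
      intro Bi hDi
      rw [← lintegral_map hgm hD, hDi, ← hyμ, lintegral_map hgm hy, hI]
      apply setLIntegral_congr_fun hA
      intro x hx
      simp only [hg, hηy x hx]
      exact hsymm1 _ _ _
    have hF : Measurable fun x => c (x, T2 A B1 y z η D x, T3 A B1 y z η D x) :=
      hc.comp (measurable_id.prodMk (hm2.prodMk hm3))
    conv_lhs => rw [hsplit]
    rw [lintegral_add_measure, lintegral_add_measure]
    have e1 : ∫⁻ x in A, c (x, T2 A B1 y z η D x, T3 A B1 y z η D x) ∂μ = I := by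
      apply setLIntegral_congr_fun hA
      intro x hx
      simp only [T2_of_mem_A hx, T3_of_mem_A hx]
    have e2 : ∫⁻ x in B1, c (x, T2 A B1 y z η D x, T3 A B1 y z η D x) ∂μ ≤ C * I := by
      have hgD : Measurable fun x => g (D x) := hgm.comp hD
      rw [← hgI B1 hD1, ← lintegral_const_mul C hgD]
      apply setLIntegral_mono (measurable_const.mul hgD)
      intro x hx
      simp only [T2_of_mem_B1 (hnA1 x hx) hx, T3_of_mem_B1 (hnA1 x hx) hx]
      exact hC x (Or.inl hx)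
    have e3 : ∫⁻ x in B2, c (x, T2 A B1 y z η D x, T3 A B1 y z η D x) ∂μ ≤ C * I := by
      have hgD : Measurable fun x => g (D x) := hgm.comp hD
      rw [← hgI B2 hD2, ← lintegral_const_mul C hgD]
      apply setLIntegral_mono (measurable_const.mul hgD)
      intro x hx
      simp only [T2_of_mem_B2 (hnA2 x hx) (hnB1 x hx), T3_of_mem_B2 (hnA2 x hx) (hnB1 x hx)]
      rw [hsymm2]
      exact hC x (Or.inr hx)
    rw [e1]
    calc I + (∫⁻ x in B1, c (x, T2 A B1 y z η D x, T3 A B1 y z η D x) ∂μ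
          + ∫⁻ x in B2, c (x, T2 A B1 y z η D x, T3 A B1 y z η D x) ∂μ)
        ≤ C * I + (C * I + C * I) := by
          gcongr
          calc I = 1 * I := (one_mul I).symm
            _ ≤ C * I := by gcongr
      _ = C * (3 * I) := by ring

end abstract

section cost

variable {E : Type*} [NormedAddCommGroup E]

theorem pairCost_comm (s : ℝ) (x y : E) : pairCost s x y = pairCost s y x := by
  unfold pairCost
  rw [norm_sub_rev]

theorem tripleCost_swap12 (s : ℝ) (a b d : E) :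
    tripleCost s (a, b, d) = tripleCost s (b, a, d) := by
  simp only [tripleCost]
  rw [pairCost_comm s a b, add_assoc, add_assoc, add_comm (pairCost s a d)]

theorem tripleCost_swap23 (s : ℝ) (a b d : E) :
    tripleCost s (a, b, d) = tripleCost s (a, d, b) := by
  simp only [tripleCost]
  rw [pairCost_comm s b d, add_comm (pairCost s a b)]

theorem measurable_pairCost [MeasurableSpace E] [BorelSpace E] [SecondCountableTopology E]
    (s : ℝ) : Measurable (fun p : E × E => pairCost s p.1 p.2) := by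
  unfold pairCost
  exact ((measurable_fst.sub measurable_snd).norm.ennreal_ofReal).pow_const _

theorem measurable_tripleCost [MeasurableSpace E] [BorelSpace E] [SecondCountableTopology E]
    (s : ℝ) : Measurable (tripleCost s : E × E × E → ℝ≥0∞) := by
  unfold tripleCost
  have h := measurable_pairCost (E := E) s
  exact ((h.comp (measurable_fst.prodMk (measurable_fst.comp measurable_snd))).add
    (h.comp (measurable_fst.prodMk (measurable_snd.comp measurable_snd)))).add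
    (h.comp ((measurable_fst.comp measurable_snd).prodMk (measurable_snd.comp measurable_snd)))

/-- moving the first point by at most `δ` when the distance is at least `l`. -/
theorem pairCost_le {s : ℝ} (hs : 0 ≤ s) {x x' p : E} {δ l : ℝ} (hl : 0 < l) (hδ0 : 0 ≤ δ)
    (hδ : δ < l) (h1 : ‖x - x'‖ ≤ δ) (h2 : l ≤ ‖x' - p‖) :
    pairCost s x p ≤ ENNReal.ofReal ((1 - δ / l) ^ (-s)) * pairCost s x' p := by
  unfold pairCost
  have hθ : 0 < 1 - δ / l := by
    rw [sub_pos, div_lt_one hl]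
    exact hδ
  have ha : 0 < ‖x' - p‖ := lt_of_lt_of_le hl h2
  have hb : (1 - δ / l) * ‖x' - p‖ ≤ ‖x - p‖ := by
    have h3 : ‖x' - p‖ ≤ ‖x - p‖ + ‖x - x'‖ := by
      have : x' - p = (x - p) - (x - x') := by abel
      rw [this]
      exact norm_sub_le _ _
    have h4 : δ / l * ‖x' - p‖ ≥ δ := by
      rw [ge_iff_le, div_mul_eq_mul_div, le_div_iff₀ hl]
      exact mul_le_mul_of_nonneg_left h2 hδ0
    nlinarith
  rw [← ENNReal.ofReal_rpow_of_pos hθ, ← ENNReal.mul_rpow_of_ne_top ENNReal.ofReal_ne_top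
    ENNReal.ofReal_ne_top, ← ENNReal.ofReal_mul hθ.le, ENNReal.rpow_neg, ENNReal.rpow_neg]
  apply ENNReal.inv_le_inv.mpr
  exact ENNReal.rpow_le_rpow (ENNReal.ofReal_le_ofReal hb) hs

theorem one_le_const {s : ℝ} (hs : 0 ≤ s) {δ l : ℝ} (hl : 0 < l) (hδ0 : 0 ≤ δ) (hδ : δ < l) :
    (1 : ℝ≥0∞) ≤ ENNReal.ofReal ((1 - δ / l) ^ (-s)) := by
  have hθ : 0 < 1 - δ / l := by
    rw [sub_pos, div_lt_one hl]
    exact hδ
  have hθ1 : 1 - δ / l ≤ 1 := by
    have : 0 ≤ δ / l := div_nonneg hδ0 hl.le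
    linarith
  rw [← ENNReal.ofReal_one]
  apply ENNReal.ofReal_le_ofReal
  exact Real.one_le_rpow_of_pos_of_le_one_of_nonpos hθ hθ1 (by linarith)

theorem tripleCost_le {s : ℝ} (hs : 0 ≤ s) {x x' p q : E} {δ l : ℝ} (hl : 0 < l) (hδ0 : 0 ≤ δ)
    (hδ : δ < l) (h1 : ‖x - x'‖ ≤ δ) (h2 : l ≤ ‖x' - p‖) (h3 : l ≤ ‖x' - q‖) :
    tripleCost s (x, p, q) ≤ ENNReal.ofReal ((1 - δ / l) ^ (-s)) * tripleCost s (x', p, q) := by
  simp only [tripleCost]
  rw [mul_add, mul_add]
  have h4 : pairCost s p q ≤ ENNReal.ofReal ((1 - δ / l) ^ (-s)) * pairCost s p q := by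
    calc pairCost s p q = 1 * pairCost s p q := (one_mul _).symm
      _ ≤ _ := by
        gcongr
        exact one_le_const hs hl hδ0 hδ
  exact add_le_add (add_le_add (pairCost_le hs hl hδ0 hδ h1 h2) (pairCost_le hs hl hδ0 hδ h1 h3)) h4

theorem exists_delta {M ε : ℝ≥0∞} (hM : M ≠ ⊤) (hε : 0 < ε) {l : ℝ} (hl : 0 < l) (s : ℝ) :
    ∃ δ : ℝ, 0 < δ ∧ δ < l ∧ ENNReal.ofReal ((1 - δ / l) ^ (-s)) * M < M + ε := by
  have h1 : Filter.Tendsto (fun δ : ℝ => ENNReal.ofReal ((1 - δ / l) ^ (-s)) * M)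
      (nhds 0) (nhds (ENNReal.ofReal ((1 - 0 / l) ^ (-s)) * M)) := by
    apply ENNReal.Tendsto.mul_const _ (Or.inr hM)
    apply ENNReal.tendsto_ofReal
    have : ContinuousAt (fun δ : ℝ => (1 - δ / l) ^ (-s)) 0 := by
      apply ContinuousAt.rpow_const
      · fun_prop
      · left
        simp
    exact this
  have h2 : ENNReal.ofReal ((1 - 0 / l) ^ (-s)) * M < M + ε := by
    simp only [zero_div, sub_zero, Real.one_rpow, ENNReal.ofReal_one, one_mul]
    exact ENNReal.lt_add_right hM hε.ne'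
  have h3 := h1.eventually (eventually_lt_nhds h2)
  have h4 : ∀ᶠ δ : ℝ in nhdsWithin 0 (Set.Ioi 0), δ < l :=
    Filter.Eventually.filter_mono nhdsWithin_le_nhds (eventually_lt_nhds hl)
  obtain ⟨δ, ⟨h5, h6⟩, h7⟩ := ((h3.filter_mono nhdsWithin_le_nhds).and h4 |>.and
    self_mem_nhdsWithin).exists
  exact ⟨δ, h7, h6, h5⟩

/-- The concrete approximation statement, in the shape of the last bullet of S0175. -/
theorem approx_concrete [MeasurableSpace E] [BorelSpace E] [SecondCountableTopology E]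
    (μ : Measure E) {s : ℝ} (hs : 0 ≤ s) {A B : Set E} (hA : MeasurableSet A)
    (hAB : Disjoint A B) (hμ : μ (A ∪ B)ᶜ = 0)
    {y z η : E → E} (hy : Measurable y) (hz : Measurable z) (hη : Measurable η)
    (hyμ : (μ.restrict A).map y = (2 : ℝ≥0∞)⁻¹ • μ.restrict B)
    (hzμ : (μ.restrict A).map z = (2 : ℝ≥0∞)⁻¹ • μ.restrict B)
    (hηy : ∀ x ∈ A, η (y x) = x) (hyη : ∀ b ∈ B, η b ∈ A ∧ y (η b) = b)
    {l : ℝ} (hl : 0 < l) (hl1 : ∀ x ∈ A, l ≤ ‖y x - x‖) (hl2 : ∀ x ∈ A, l ≤ ‖y x - z x‖)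
    (hfin : ∫⁻ x in A, tripleCost s (x, y x, z x) ∂μ ≠ ⊤)
    (hDs : ∀ δ : ℝ, 0 < δ → ∃ (B1 B2 : Set E) (D : E → E), MeasurableSet B1 ∧ MeasurableSet B2 ∧
      Disjoint B1 B2 ∧ B1 ∪ B2 = B ∧ Measurable D ∧
      (μ.restrict B1).map D = (2 : ℝ≥0∞)⁻¹ • μ.restrict B ∧
      (μ.restrict B2).map D = (2 : ℝ≥0∞)⁻¹ • μ.restrict B ∧
      ∀ x ∈ B, D x ∈ B ∧ ‖x - D x‖ ≤ δ) :
    ∀ ε : ℝ≥0∞, 0 < ε → ∃ T₂ T₃ : E → E, Measurable T₂ ∧ Measurable T₃ ∧
      μ.map T₂ = μ ∧ μ.map T₃ = μ ∧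
      ∫⁻ x, tripleCost s (x, T₂ x, T₃ x) ∂μ
        < 3 * ∫⁻ x in A, tripleCost s (x, y x, z x) ∂μ + ε := by
  intro ε hε
  have hM : 3 * ∫⁻ x in A, tripleCost s (x, y x, z x) ∂μ ≠ ⊤ :=
    ENNReal.mul_ne_top (by simp) hfin
  obtain ⟨δ, hδ0, hδl, hδ⟩ := exists_delta hM hε hl s
  obtain ⟨B1, B2, D, hB1, hB2, hB12, rfl, hD, hD1, hD2, hDB⟩ := hDs δ hδ0
  have hAB1 : Disjoint A B1 := hAB.mono_right Set.subset_union_left
  have hAB2 : Disjoint A B2 := hAB.mono_right Set.subset_union_right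
  obtain ⟨T₂, T₃, h1, h2, h3, h4, h5⟩ := approx μ (tripleCost s) (measurable_tripleCost s)
    (tripleCost_swap12 s) (tripleCost_swap23 s) hA hB1 hB2 hAB1 hAB2 hB12 hμ hy hz hη hD
    hyμ hzμ hD1 hD2 hηy (ENNReal.ofReal ((1 - δ / l) ^ (-s))) (one_le_const hs hl hδ0.le hδl)
    (by
      intro x hx
      obtain ⟨hDx, hxD⟩ := hDB x hx
      obtain ⟨hηA, hyηD⟩ := hyη (D x) hDx
      apply tripleCost_le hs hl hδ0.le hδl hxD
      · have := hl1 _ hηA
        rwa [hyηD] at this
      · have := hl2 _ hηA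
        rwa [hyηD] at this)
  exact ⟨T₂, T₃, h1, h2, h3, h4, lt_of_le_of_lt h5 hδ⟩

end cost

section inverse

/-- measurable left inverse of an injective (on `A`) measurable map -/
theorem exists_left_inverse {X : Type*} [MeasurableSpace X] [StandardBorelSpace X] [Nonempty X]
    {A : Set X} (hA : MeasurableSet A) {y : X → X} (hy : Measurable y) (hinj : Set.InjOn y A) :
    ∃ η : X → X, Measurable η ∧ ∀ x ∈ A, η (y x) = x := by
  have : StandardBorelSpace A := hA.standardBorel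
  have hf : Measurable (fun a : A => y a) := hy.comp measurable_subtype_coe
  have hfi : Function.Injective (fun a : A => y a) := by
    intro a b hab
    exact Subtype.ext (hinj a.2 b.2 hab)
  have hemb : MeasurableEmbedding (fun a : A => y a) := hf.measurableEmbedding hfi
  obtain ⟨x0⟩ := ‹Nonempty X›
  refine ⟨Function.extend (fun a : A => y a) (fun a : A => (a : X)) (fun _ => x0),
    hemb.measurable_extend measurable_subtype_coe measurable_const, ?_⟩
  intro x hx
  exact hfi.extend_apply (fun a : A => (a : X)) (fun _ => x0) ⟨x, hx⟩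

end inverse

end Crest.Agent.S0175.Approx

namespace Crest.Agent.S0175

open MeasureTheory Set
open scoped ENNReal
open Crest.AnalysisR.OT
open Crest.Agent.S0175.Approx

section P8
variable {X : Type*} [NormedAddCommGroup X] [MeasurableSpace X] [BorelSpace X]
  [SecondCountableTopology X] [CompleteSpace X]

/-- P8, verbatim from helper88's interface. -/
theorem abstract_approx (μ : Measure X) [IsFiniteMeasure μ] (c : X × X × X → ℝ≥0∞)
    (hc : Measurable c)
    (A B : Set X) (hA : MeasurableSet A) (hB : MeasurableSet B) (hAB : Disjoint A B)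
    (hμ : μ (A ∪ B)ᶜ = 0)
    (y z : X → X) (hy : Measurable y) (hz : Measurable z)
    (hyinj : Set.InjOn y A) (hyim : y '' A = B)
    (hpy : (μ.restrict A).map y = (2 : ℝ≥0∞)⁻¹ • μ.restrict B)
    (hpz : (μ.restrict A).map z = (2 : ℝ≥0∞)⁻¹ • μ.restrict B)
    (D : X → X) (S : Set X) (hD : Measurable D) (hS : MeasurableSet S)
    (hDB : ∀ x ∈ B, D x ∈ B)
    (hD1 : ((μ.restrict B).restrict S).map D = (2 : ℝ≥0∞)⁻¹ • μ.restrict B)
    (hD2 : ((μ.restrict B).restrict Sᶜ).map D = (2 : ℝ≥0∞)⁻¹ • μ.restrict B)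
    (k : ℝ≥0∞)
    (hcost : ∀ x ∈ B, ∀ a ∈ A, D x = y a →
      c (x, a, z a) ≤ k * c (a, y a, z a) ∧ c (x, z a, a) ≤ k * c (a, y a, z a)) :
    ∃ T₂ T₃ : X → X, Measurable T₂ ∧ Measurable T₃ ∧ μ.map T₂ = μ ∧ μ.map T₃ = μ ∧
      ∫⁻ x, c (x, T₂ x, T₃ x) ∂μ ≤ (1 + 2 * k) * ∫⁻ x in A, c (x, y x, z x) ∂μ := by
  obtain ⟨η, hη, hηy⟩ := exists_left_inverse hA hy hyinj
  set B1 : Set X := S ∩ B with hB1def
  set B2 : Set X := Sᶜ ∩ B with hB2def
  have hB1 : MeasurableSet B1 := hS.inter hB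
  have hB2 : MeasurableSet B2 := hS.compl.inter hB
  have hBu : B1 ∪ B2 = B := by
    rw [hB1def, hB2def, ← Set.union_inter_distrib_right, Set.union_compl_self, Set.univ_inter]
  have hB12 : Disjoint B1 B2 := by
    rw [Set.disjoint_left]
    intro x hx hx'
    exact hx'.1 hx.1
  have hAB1 : Disjoint A B1 := hAB.mono_right Set.inter_subset_right
  have hAB2 : Disjoint A B2 := hAB.mono_right Set.inter_subset_right
  rw [Measure.restrict_restrict hS] at hD1
  rw [Measure.restrict_restrict hS.compl] at hD2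
  have hμ' : μ (A ∪ (B1 ∪ B2))ᶜ = 0 := by rw [hBu]; exact hμ
  have hsplit := measure_split μ hA hB1 hB2 hAB1 hAB2 hB12 hμ'
  have hm2 := measurable_T2 hA hB1 hy hz hη hD
  have hm3 := measurable_T3 hA hB1 hy hz hη hD
  have hnA1 : ∀ x ∈ B1, x ∉ A := fun x hx hxA => (Set.disjoint_left.mp hAB1 hxA hx)
  have hnA2 : ∀ x ∈ B2, x ∉ A := fun x hx hxA => (Set.disjoint_left.mp hAB2 hxA hx)
  have hnB1 : ∀ x ∈ B2, x ∉ B1 := fun x hx hxB => (Set.disjoint_left.mp hB12 hxB hx)
  have hηD1 := map_eta_D μ hA hy hη hD hpy hD1 hηy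
  have hηD2 := map_eta_D μ hA hy hη hD hpy hD2 hηy
  have hzηD : ∀ Bi : Set X, (μ.restrict Bi).map (fun x => η (D x)) = μ.restrict A →
      (μ.restrict Bi).map (fun x => z (η (D x))) = (2 : ℝ≥0∞)⁻¹ • μ.restrict B := by
    intro Bi h
    have : (μ.restrict Bi).map (fun x => z (η (D x)))
        = ((μ.restrict Bi).map (fun x => η (D x))).map z :=
      (Measure.map_map hz (hη.comp hD)).symm
    rw [this, h, hpz]
  have hBB : μ.restrict B = μ.restrict B1 + μ.restrict B2 := by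
    rw [← hBu]
    exact Measure.restrict_union hB12 hB2
  -- for `x ∈ B`, `a = η (D x)` is in `A` and `y a = D x`
  have hkey : ∀ x ∈ B, η (D x) ∈ A ∧ D x = y (η (D x)) := by
    intro x hx
    have h1 : D x ∈ y '' A := by rw [hyim]; exact hDB x hx
    obtain ⟨a, ha, hya⟩ := h1
    rw [← hya, hηy a ha]
    exact ⟨ha, rfl⟩
  refine ⟨T2 A B1 y z η D, T3 A B1 y z η D, hm2, hm3, ?_, ?_, ?_⟩
  · conv_lhs => rw [hsplit]
    rw [Measure.map_add _ _ hm2, Measure.map_add _ _ hm2,
      map_congr_restrict μ hA (fun x hx => T2_of_mem_A (B1 := B1) (y := y) (z := z) (η := η)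
        (D := D) hx),
      map_congr_restrict μ hB1 (fun x hx => T2_of_mem_B1 (y := y) (z := z) (η := η)
        (D := D) (hnA1 x hx) hx),
      map_congr_restrict μ hB2 (fun x hx => T2_of_mem_B2 (y := y) (z := z) (η := η)
        (D := D) (hnA2 x hx) (hnB1 x hx)),
      hpy, hηD1, hzηD B2 hηD2]
    conv_rhs => rw [hsplit, ← hBB, ← half_add_half (μ.restrict B)]
    abel
  · conv_lhs => rw [hsplit]
    rw [Measure.map_add _ _ hm3, Measure.map_add _ _ hm3,
      map_congr_restrict μ hA (fun x hx => T3_of_mem_A (B1 := B1) (y := y) (z := z) (η := η)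
        (D := D) hx),
      map_congr_restrict μ hB1 (fun x hx => T3_of_mem_B1 (y := y) (z := z) (η := η)
        (D := D) (hnA1 x hx) hx),
      map_congr_restrict μ hB2 (fun x hx => T3_of_mem_B2 (y := y) (z := z) (η := η)
        (D := D) (hnA2 x hx) (hnB1 x hx)),
      hpz, hηD2, hzηD B1 hηD1]
    conv_rhs => rw [hsplit, ← hBB, ← half_add_half (μ.restrict B)]
    abel
  · set I := ∫⁻ x in A, c (x, y x, z x) ∂μ with hI
    set G : X → ℝ≥0∞ := fun a => c (a, y a, z a) with hG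
    have hGm : Measurable G := hc.comp (measurable_id.prodMk (hy.prodMk hz))
    have hηDm : Measurable fun x => η (D x) := hη.comp hD
    have hGI : ∀ Bi : Set X, (μ.restrict Bi).map (fun x => η (D x)) = μ.restrict A →
        ∫⁻ x in Bi, G (η (D x)) ∂μ = I := by
      intro Bi hDi
      rw [← lintegral_map hGm hηDm, hDi]
    have hGD : Measurable fun x => G (η (D x)) := hGm.comp hηDm
    conv_lhs => rw [hsplit]
    rw [lintegral_add_measure, lintegral_add_measure]
    have e1 : ∫⁻ x in A, c (x, T2 A B1 y z η D x, T3 A B1 y z η D x) ∂μ = I := by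
      apply setLIntegral_congr_fun hA
      intro x hx
      simp only [T2_of_mem_A hx, T3_of_mem_A hx]
    have e2 : ∫⁻ x in B1, c (x, T2 A B1 y z η D x, T3 A B1 y z η D x) ∂μ ≤ k * I := by
      rw [← hGI B1 hηD1, ← lintegral_const_mul k hGD]
      apply setLIntegral_mono (measurable_const.mul hGD)
      intro x hx
      simp only [T2_of_mem_B1 (hnA1 x hx) hx, T3_of_mem_B1 (hnA1 x hx) hx]
      obtain ⟨h1, h2⟩ := hkey x hx.2
      exact (hcost x hx.2 _ h1 h2).1
    have e3 : ∫⁻ x in B2, c (x, T2 A B1 y z η D x, T3 A B1 y z η D x) ∂μ ≤ k * I := by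
      rw [← hGI B2 hηD2, ← lintegral_const_mul k hGD]
      apply setLIntegral_mono (measurable_const.mul hGD)
      intro x hx
      simp only [T2_of_mem_B2 (hnA2 x hx) (hnB1 x hx), T3_of_mem_B2 (hnA2 x hx) (hnB1 x hx)]
      obtain ⟨h1, h2⟩ := hkey x hx.2
      exact (hcost x hx.2 _ h1 h2).2
    rw [e1]
    calc I + (∫⁻ x in B1, c (x, T2 A B1 y z η D x, T3 A B1 y z η D x) ∂μ
          + ∫⁻ x in B2, c (x, T2 A B1 y z η D x, T3 A B1 y z η D x) ∂μ)
        ≤ I + (k * I + k * I) := by gcongr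
      _ = (1 + 2 * k) * I := by ring

end P8

end Crest.Agent.S0175
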