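import Crest.Agent.S0175_Defs

/-!
# S0175, package P3: geometry of the maps `Y_±`
-/

set_option autoImplicit false
open MeasureTheory
open scoped ENNReal ContDiff

namespace Crest.Agent.S0175

namespace Geom

variable {n : ℕ}

theorem inner_e0 (x : E (n + 2)) : inner ℝ e0 x = x 0 := by
  simp [e0, EuclideanSpace.inner_single_left]

theorem inner_e1 (x : E (n + 2)) : inner ℝ e1 x = x 1 := by
  simp [e1, EuclideanSpace.inner_single_left]

theorem inner_e0' (x : E (n + 2)) : inner ℝ x e0 = x 0 := by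
  rw [real_inner_comm, inner_e0]

theorem inner_e1' (x : E (n + 2)) : inner ℝ x e1 = x 1 := by
  rw [real_inner_comm, inner_e1]

theorem e0_0 : (e0 : E (n + 2)) 0 = 1 := by simp [e0]
theorem e0_1 : (e0 : E (n + 2)) 1 = 0 := by simp [e0]
theorem e1_0 : (e1 : E (n + 2)) 0 = 0 := by simp [e1]
theorem e1_1 : (e1 : E (n + 2)) 1 = 1 := by simp [e1]

theorem Pp_0 (x : E (n + 2)) : Pp x 0 = x 0 := by simp [Pp, e0_0, e1_0]
theorem Pp_1 (x : E (n + 2)) : Pp x 1 = x 1 := by simp [Pp, e0_1, e1_1]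
theorem Jp_0 (x : E (n + 2)) : Jp x 0 = -x 1 := by simp [Jp, e0_0, e1_0]
theorem Jp_1 (x : E (n + 2)) : Jp x 1 = x 0 := by simp [Jp, e0_1, e1_1]

theorem inner_Pp (x y : E (n + 2)) : inner ℝ x (Pp y) = x 0 * y 0 + x 1 * y 1 := by
  simp only [Pp, inner_add_right, inner_smul_right, inner_e0', inner_e1']; ring

theorem inner_Jp (x y : E (n + 2)) : inner ℝ x (Jp y) = - x 0 * y 1 + x 1 * y 0 := by
  simp only [Jp, inner_add_right, inner_smul_right, inner_e0', inner_e1']; ring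

theorem inner_self_Jp (x : E (n + 2)) : inner ℝ x (Jp x) = 0 := by
  rw [inner_Jp]; ring

theorem norm_sq_Jp (x : E (n + 2)) : ‖Jp x‖ ^ 2 = rsq x := by
  rw [← real_inner_self_eq_norm_sq, inner_Jp, Jp_0, Jp_1, rsq]; ring

theorem norm_sq_Pp (x : E (n + 2)) : ‖Pp x‖ ^ 2 = rsq x := by
  rw [← real_inner_self_eq_norm_sq, inner_Pp, Pp_0, Pp_1, rsq]; ring

theorem hh_eq (x : E (n + 2)) : hh x = ‖x - Pp x‖ ^ 2 := by
  rw [norm_sub_sq_real, inner_Pp, norm_sq_Pp, hh, rsq]; ring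

end Geom

open Geom

variable {n : ℕ}

theorem hh_nonneg (x : E (n + 2)) : 0 ≤ hh x := by
  rw [hh_eq]; positivity

namespace Geom

theorem continuous_c0 : Continuous (fun x : E (n + 2) => x 0) := by
  simp_rw [← inner_e0]; fun_prop

theorem continuous_c1 : Continuous (fun x : E (n + 2) => x 1) := by
  simp_rw [← inner_e1]; fun_prop

theorem continuous_rsq : Continuous (fun x : E (n + 2) => rsq x) := by
  unfold rsq
  exact (continuous_c0.pow 2).add (continuous_c1.pow 2)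

theorem continuous_hh : Continuous (fun x : E (n + 2) => hh x) := by
  unfold hh
  exact ((continuous_norm).pow 2).sub continuous_rsq

theorem continuous_Jp : Continuous (fun x : E (n + 2) => Jp x) := by
  unfold Jp
  exact ((continuous_c1.neg).smul continuous_const).add (continuous_c0.smul continuous_const)

theorem continuous_Pp : Continuous (fun x : E (n + 2) => Pp x) := by
  unfold Pp
  exact ((continuous_c0).smul continuous_const).add (continuous_c1.smul continuous_const)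

theorem continuous_nsq : Continuous (fun x : E (n + 2) => ‖x‖ ^ 2) := continuous_norm.pow 2

/-- the commutative algebra of operators `α + β P + γ J`. -/
noncomputable def lin (α β γ : ℝ) (y : E (n + 2)) : E (n + 2) := α • y + β • Pp y + γ • Jp y

theorem lin_0 (α β γ : ℝ) (y : E (n + 2)) : lin α β γ y 0 = (α + β) * y 0 - γ * y 1 := by
  simp only [lin, PiLp.add_apply, PiLp.smul_apply, Pp_0, Jp_0, smul_eq_mul]; ring

theorem lin_1 (α β γ : ℝ) (y : E (n + 2)) : lin α β γ y 1 = (α + β) * y 1 + γ * y 0 := by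
  simp only [lin, PiLp.add_apply, PiLp.smul_apply, Pp_1, Jp_1, smul_eq_mul]; ring

theorem Pp_lin (α β γ : ℝ) (y : E (n + 2)) :
    Pp (lin α β γ y) = (α + β) • Pp y + γ • Jp y := by
  rw [Pp, lin_0, lin_1, Pp, Jp]; module

theorem Jp_lin (α β γ : ℝ) (y : E (n + 2)) :
    Jp (lin α β γ y) = (α + β) • Jp y - γ • Pp y := by
  rw [Jp, lin_0, lin_1, Pp, Jp]; module

theorem lin_lin (α' β' γ' α β γ : ℝ) (y : E (n + 2)) :
    lin α' β' γ' (lin α β γ y)
      = lin (α' * α) (α' * β + β' * (α + β) - γ' * γ) (α' * γ + β' * γ + γ' * (α + β)) y := by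
  rw [lin, Pp_lin, Jp_lin]; unfold lin; module

theorem lin_one (y : E (n + 2)) : lin 1 0 0 y = y := by simp [lin]

theorem rsq_lin (α β γ : ℝ) (y : E (n + 2)) :
    rsq (lin α β γ y) = ((α + β) ^ 2 + γ ^ 2) * rsq y := by
  rw [rsq, lin_0, lin_1, rsq]; ring

theorem inner_Pp_Jp (y : E (n + 2)) : inner ℝ (Pp y) (Jp y) = 0 := by
  rw [inner_Jp, Pp_0, Pp_1]; ring

theorem inner_self_Pp (y : E (n + 2)) : inner ℝ y (Pp y) = rsq y := by
  rw [inner_Pp, rsq]; ring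

theorem norm_sq_lin (α β γ : ℝ) (y : E (n + 2)) :
    ‖lin α β γ y‖ ^ 2 = α ^ 2 * ‖y‖ ^ 2 + (β ^ 2 + γ ^ 2 + 2 * α * β) * rsq y := by
  rw [lin, norm_add_sq_real, norm_add_sq_real, inner_add_left]
  simp only [inner_smul_left, inner_smul_right, norm_smul, mul_pow, norm_sq_Pp, norm_sq_Jp,
    inner_self_Pp, inner_self_Jp, inner_Pp_Jp, Real.norm_eq_abs, sq_abs, RCLike.conj_to_real]
  ring

theorem hh_lin (α β γ : ℝ) (y : E (n + 2)) : hh (lin α β γ y) = α ^ 2 * hh y := by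
  rw [hh, norm_sq_lin, rsq_lin, hh]; ring

theorem lin_sub (α β γ : ℝ) (x y : E (n + 2)) :
    lin α β γ (x - y) = lin α β γ x - lin α β γ y := by
  simp only [lin, Pp, Jp, PiLp.sub_apply]; module

theorem Ymap_eq_lin (Lam W : ℝ → ℝ) (x : E (n + 2)) :
    Ymap Lam W x = lin (-Lam (‖x‖ ^ 2)) 0 (W (‖x‖ ^ 2) / Real.sqrt (rsq x)) x := by
  simp [Ymap, lin]

section params
variable {s : ℝ} (p : Params s)

theorem Ea_mem : p.Ea ∈ Set.Ioo p.E1 p.E2 := by
  have := p.E1_lt_E2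
  constructor <;> unfold Params.Ea <;> linarith

theorem Eb_mem : p.Eb ∈ Set.Ioo p.E1 p.E2 := by
  have := p.E1_lt_E2
  constructor <;> unfold Params.Eb <;> linarith

theorem Ea_lt_Eb : p.Ea < p.Eb := by
  have := p.E1_lt_E2
  unfold Params.Ea Params.Eb; linarith

theorem Icc_sub : Set.Icc p.Ea p.Eb ⊆ Set.Ioo p.E1 p.E2 := fun _ hx =>
  ⟨lt_of_lt_of_le (Ea_mem p).1 hx.1, lt_of_le_of_lt hx.2 (Eb_mem p).2⟩

theorem Ioo_sub : Set.Ioo p.Ea p.Eb ⊆ Set.Ioo p.E1 p.E2 := fun _ hx =>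
  Icc_sub p ⟨hx.1.le, hx.2.le⟩

theorem contOn_Lam : ContinuousOn p.Lam (Set.Ioo p.E1 p.E2) := p.smooth_Lam.continuousOn

theorem contOn_W : ContinuousOn p.W (Set.Ioo p.E1 p.E2) := p.smooth_W.continuousOn

theorem contOn_F : ContinuousOn p.F (Set.Ioo p.E1 p.E2) := by
  unfold Params.F
  exact (((contOn_Lam p).pow 2).mul continuousOn_id).add ((contOn_W p).pow 2)

theorem strictAntiOn_F : StrictAntiOn p.F (Set.Ioo p.E1 p.E2) := by
  apply strictAntiOn_of_deriv_neg (convex_Ioo _ _) (contOn_F p)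
  intro x hx
  rw [interior_Ioo] at hx
  exact p.deriv_F_neg x hx

theorem pos_of_mem {t : ℝ} (ht : t ∈ Set.Ioo p.E1 p.E2) : 0 < t := lt_trans p.E1_pos ht.1

theorem Lam_pos {t : ℝ} (ht : t ∈ Set.Ioo p.E1 p.E2) : 0 < p.Lam t := by
  have h1 : 0 ≤ p.Lam t := by
    rw [p.Lam_eq t ht]
    unfold gam
    have hT1 : 0 < p.T1 t := lt_of_lt_of_le (by have := p.ell_pos; positivity) (p.T1_ge t ht)
    have hT2 : 0 < p.T2 t := lt_of_lt_of_le (by have := p.ell_pos; positivity) (p.T2_ge t ht)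
    have a1 : 0 < p.T1 t ^ (-(s / 2) - 1) := Real.rpow_pos_of_pos hT1 _
    have a2 : 0 < p.T2 t ^ (-(s / 2) - 1) := Real.rpow_pos_of_pos hT2 _
    rcases eq_or_ne s 0 with h0 | h0
    · simp [h0]
    · have : s / 2 * p.T1 t ^ (-(s / 2) - 1) / (2 * (s / 2 * p.T2 t ^ (-(s / 2) - 1)))
          = p.T1 t ^ (-(s / 2) - 1) / (2 * p.T2 t ^ (-(s / 2) - 1)) := by
        field_simp
      rw [this]; positivity
  have h2 : p.Lam t ≠ 0 := by
    intro h0
    have := p.eta2_le t ht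
    have h3 := p.eta2_pos
    rw [h0] at this
    simp at this
    linarith
  exact lt_of_le_of_ne h1 (Ne.symm h2)

end params

end Geom

section P3
variable {s : ℝ} (p : Params s) (n : ℕ)

theorem isOpen_regA : IsOpen (p.regA n) := by
  have hU : IsOpen {x : E (n + 2) | ‖x‖ ^ 2 ∈ Set.Ioo p.Ea p.Eb} :=
    isOpen_Ioo.preimage continuous_nsq
  have hg : ContinuousOn (fun x : E (n + 2) => p.Lam (‖x‖ ^ 2) ^ 2 * hh x)
      {x : E (n + 2) | ‖x‖ ^ 2 ∈ Set.Ioo p.Ea p.Eb} := by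
    apply ContinuousOn.mul _ continuous_hh.continuousOn
    apply ContinuousOn.pow
    exact (contOn_Lam p).comp continuous_nsq.continuousOn (fun x hx => Ioo_sub p hx)
  exact hg.isOpen_inter_preimage hU isOpen_Iio

theorem isOpen_regB : IsOpen (p.regB n) :=
  (isOpen_Ioo.preimage continuous_nsq).inter (isOpen_Iio.preimage continuous_hh)

theorem disjoint_regA_regB : Disjoint (p.regA n) (p.regB n) := by
  rw [Set.disjoint_left]
  intro x hA hB
  have h1 : ‖x‖ ^ 2 < p.Eb := hA.1.2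
  have h2 : p.F p.Eb < ‖x‖ ^ 2 := hB.1.1
  have h3 := p.E2_lt_F p.Eb (Eb_mem p)
  have h4 := (Eb_mem p).2
  unfold Params.F at h2
  linarith

theorem rsq_pos_of_mem_regA {x : E (n + 2)} (hx : x ∈ p.regA n) : 0 < rsq x := by
  have hE := Ioo_sub p hx.1
  have h1 := p.eta2_le _ hE
  have h2 : p.Lam (‖x‖ ^ 2) ^ 2 * hh x < p.eta2 := hx.2
  have h3 : 0 < p.Lam (‖x‖ ^ 2) ^ 2 := by have := Lam_pos p hE; positivity
  have h4 : p.Lam (‖x‖ ^ 2) ^ 2 * hh x < p.Lam (‖x‖ ^ 2) ^ 2 * ‖x‖ ^ 2 := lt_of_lt_of_le h2 h1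
  have h5 := lt_of_mul_lt_mul_left h4 h3.le
  unfold hh at h5
  linarith

theorem rsq_pos_of_mem_regB {x : E (n + 2)} (hx : x ∈ p.regB n) : 0 < rsq x := by
  have h1 : p.F p.Eb < ‖x‖ ^ 2 := hx.1.1
  have h2 : hh x < p.eta2 := hx.2
  have h3 := p.eta2_le _ (Eb_mem p)
  have h4 : 0 ≤ p.W p.Eb ^ 2 := by positivity
  unfold Params.F at h1
  unfold hh at h2
  linarith

namespace Geom

theorem Yeps_eq_lin (ε : ℝ) (x : E (n + 2)) :
    p.Yeps n ε x = lin (-p.Lam (‖x‖ ^ 2)) 0 (ε * p.W (‖x‖ ^ 2) / Real.sqrt (rsq x)) x := by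
  rw [Params.Yeps, Ymap_eq_lin]

theorem csq {ε : ℝ} (hε : ε = 1 ∨ ε = -1) (w : ℝ) {ρ : ℝ} (hρ : 0 < ρ) :
    (ε * w / Real.sqrt ρ) ^ 2 * ρ = w ^ 2 := by
  have h1 : ε ^ 2 = 1 := by rcases hε with h | h <;> rw [h] <;> norm_num
  have h2 : Real.sqrt ρ ^ 2 = ρ := Real.sq_sqrt hρ.le
  rw [div_pow, mul_pow, h1, h2]
  field_simp

end Geom

theorem norm_sq_Yeps {ε : ℝ} (hε : ε = 1 ∨ ε = -1) {x : E (n + 2)} (hx : x ∈ p.regA n) :
    ‖p.Yeps n ε x‖ ^ 2 = p.F (‖x‖ ^ 2) := by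
  have hr := rsq_pos_of_mem_regA p n hx
  have hc := csq hε (p.W (‖x‖ ^ 2)) hr
  rw [Yeps_eq_lin, norm_sq_lin, Params.F]
  linear_combination hc

theorem hh_Yeps {ε : ℝ} (hε : ε = 1 ∨ ε = -1) {x : E (n + 2)} (hx : x ∈ p.regA n) :
    hh (p.Yeps n ε x) = p.Lam (‖x‖ ^ 2) ^ 2 * hh x := by
  rw [Yeps_eq_lin, hh_lin]; ring

theorem Yeps_mem_regB {ε : ℝ} (hε : ε = 1 ∨ ε = -1) {x : E (n + 2)} (hx : x ∈ p.regA n) :
    p.Yeps n ε x ∈ p.regB n := by
  refine ⟨?_, ?_⟩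
  · rw [norm_sq_Yeps p n hε hx]
    exact ⟨strictAntiOn_F p (Ioo_sub p hx.1) (Eb_mem p) hx.1.2,
      strictAntiOn_F p (Ea_mem p) (Ioo_sub p hx.1) hx.1.1⟩
  · rw [hh_Yeps p n hε hx]
    exact hx.2

theorem injOn_Yeps {ε : ℝ} (hε : ε = 1 ∨ ε = -1) : Set.InjOn (p.Yeps n ε) (p.regA n) := by
  intro x hx x' hx' hY
  have hE : ‖x‖ ^ 2 = ‖x'‖ ^ 2 := by
    apply (strictAntiOn_F p).injOn (Ioo_sub p hx.1) (Ioo_sub p hx'.1)
    rw [← norm_sq_Yeps p n hε hx, ← norm_sq_Yeps p n hε hx', hY]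
  have hL := Lam_pos p (Ioo_sub p hx.1)
  have hh' : hh x = hh x' := by
    have h1 := hh_Yeps p n hε hx
    have h2 := hh_Yeps p n hε hx'
    rw [hY, h2, ← hE] at h1
    have h3 : p.Lam (‖x‖ ^ 2) ^ 2 ≠ 0 := by positivity
    exact (mul_left_cancel₀ h3 h1).symm
  have hr : rsq x = rsq x' := by
    unfold hh at hh'; linarith
  rw [Yeps_eq_lin, Yeps_eq_lin, ← hE, ← hr, ← sub_eq_zero, ← lin_sub] at hY
  have h4 := norm_sq_lin (-p.Lam (‖x‖ ^ 2)) 0 (ε * p.W (‖x‖ ^ 2) / Real.sqrt (rsq x)) (x - x')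
  rw [hY] at h4
  have h5 : 0 ≤ rsq (x - x') := by unfold rsq; positivity
  have h6 : 0 ≤ (ε * p.W (‖x‖ ^ 2) / Real.sqrt (rsq x)) ^ 2 * rsq (x - x') := by positivity
  have h7 : p.Lam (‖x‖ ^ 2) ^ 2 * ‖x - x'‖ ^ 2 ≤ 0 := by
    simp only [norm_zero] at h4
    nlinarith
  have h8 : ‖x - x'‖ ^ 2 ≤ 0 := by
    by_contra hcon
    push_neg at hcon
    have : 0 < p.Lam (‖x‖ ^ 2) ^ 2 * ‖x - x'‖ ^ 2 := by positivity
    linarith
  have h9 : ‖x - x'‖ = 0 := by
    have := norm_nonneg (x - x')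
    nlinarith
  exact sub_eq_zero.mp (norm_eq_zero.mp h9)

theorem image_Yeps {ε : ℝ} (hε : ε = 1 ∨ ε = -1) : p.Yeps n ε '' p.regA n = p.regB n := by
  apply Set.Subset.antisymm
  · rintro _ ⟨x, hx, rfl⟩
    exact Yeps_mem_regB p n hε hx
  · intro y hy
    obtain ⟨t, ht, hFt⟩ := intermediate_value_Ioo' (Ea_lt_Eb p).le
      ((contOn_F p).mono (Icc_sub p)) hy.1
    have ht' := Ioo_sub p ht
    have hL := Lam_pos p ht'
    set L := p.Lam t with hLdef
    set w := p.W t with hwdef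
    have hhy : hh y < L ^ 2 * t := lt_of_lt_of_le hy.2 (p.eta2_le t ht')
    set ρ := t - hh y / L ^ 2 with hρdef
    have hρ : 0 < ρ := by
      rw [hρdef, sub_pos, div_lt_iff₀ (by positivity)]
      linarith
    set c := ε * w / Real.sqrt ρ with hcdef
    have hc : c ^ 2 * ρ = w ^ 2 := csq hε w hρ
    have hD : 0 < L ^ 2 + c ^ 2 := by positivity
    have hLρ : L ^ 2 * ρ = L ^ 2 * t - hh y := by
      rw [hρdef]; field_simp
    have hry : rsq y = ρ * (L ^ 2 + c ^ 2) := by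
      have h1 : ‖y‖ ^ 2 = L ^ 2 * t + w ^ 2 := by rw [← hFt, Params.F]
      have h2 : rsq y = ‖y‖ ^ 2 - hh y := by unfold hh; ring
      rw [h2, h1]
      linear_combination (-1 : ℝ) * hLρ - hc
    set α := -1 / L with hα
    set β := 1 / L - L / (L ^ 2 + c ^ 2) with hβ
    set γ := -c / (L ^ 2 + c ^ 2) with hγ
    have hαβ : ((α + β) ^ 2 + γ ^ 2) * (L ^ 2 + c ^ 2) = 1 := by
      rw [hα, hβ, hγ]; field_simp; ring
    have hrx : rsq (lin α β γ y) = ρ := by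
      rw [rsq_lin, hry]
      linear_combination ρ * hαβ
    have hnx : ‖lin α β γ y‖ ^ 2 = t := by
      have h2 : ‖y‖ ^ 2 = hh y + rsq y := by unfold hh; ring
      have h3 : α ^ 2 * hh y = t - ρ := by
        rw [hα, hρdef]; field_simp; ring
      rw [norm_sq_lin, h2, hry]
      linear_combination h3 + ρ * hαβ
    have hhx : hh (lin α β γ y) = hh y / L ^ 2 := by
      rw [hh_lin, hα]; field_simp
    refine ⟨lin α β γ y, ⟨?_, ?_⟩, ?_⟩
    · rw [hnx]; exact ht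
    · rw [hnx, hhx]
      have : p.Lam t ^ 2 * (hh y / L ^ 2) = hh y := by
        rw [← hLdef]; field_simp
      rw [this]; exact hy.2
    · rw [Yeps_eq_lin, hnx, hrx, ← hLdef, ← hwdef, ← hcdef, lin_lin]
      have e1 : -L * α = 1 := by rw [hα]; field_simp
      have e2 : -L * β + 0 * (α + β) - c * γ = 0 := by rw [hα, hβ, hγ]; field_simp; ring
      have e3 : -L * γ + 0 * γ + c * (α + β) = 0 := by rw [hα, hβ, hγ]; field_simp; ring
      rw [e1, e2, e3, lin_one]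

theorem continuousOn_Yeps (ε : ℝ) : ContinuousOn (p.Yeps n ε) (p.regA n) := by
  have hm : Set.MapsTo (fun x : E (n + 2) => ‖x‖ ^ 2) (p.regA n) (Set.Ioo p.E1 p.E2) :=
    fun x hx => Ioo_sub p hx.1
  have h1 : ContinuousOn (fun x : E (n + 2) => p.Lam (‖x‖ ^ 2)) (p.regA n) :=
    (contOn_Lam p).comp continuous_nsq.continuousOn hm
  have h2 : ContinuousOn (fun x : E (n + 2) => p.W (‖x‖ ^ 2)) (p.regA n) :=
    (contOn_W p).comp continuous_nsq.continuousOn hm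
  have h3 : ContinuousOn (fun x : E (n + 2) => Real.sqrt (rsq x)) (p.regA n) :=
    (continuous_rsq.sqrt).continuousOn
  unfold Params.Yeps Ymap
  apply ContinuousOn.add
  · exact h1.neg.smul continuousOn_id
  · have h4 : ContinuousOn (fun x : E (n + 2) => ε * p.W (‖x‖ ^ 2) / Real.sqrt (rsq x))
        (p.regA n) := by
      apply ContinuousOn.div (continuousOn_const.mul h2) h3
      intro x hx
      exact (Real.sqrt_pos.mpr (rsq_pos_of_mem_regA p n hx)).ne'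
    exact h4.smul continuous_Jp.continuousOn

/-- the distances in the contact triangle -/
theorem contact_dist {x : E (n + 2)} (hx : x ∈ p.regA n) :
    ‖x - p.Yeps n 1 x‖ ^ 2 = p.T1 (‖x‖ ^ 2) ∧ ‖x - p.Yeps n (-1) x‖ ^ 2 = p.T1 (‖x‖ ^ 2) ∧
    ‖p.Yeps n 1 x - p.Yeps n (-1) x‖ ^ 2 = p.T2 (‖x‖ ^ 2) ∧
    p.Yeps n 1 x + p.Yeps n (-1) x = -(2 * p.Lam (‖x‖ ^ 2)) • x := by
  have hE := Ioo_sub p hx.1
  have hr := rsq_pos_of_mem_regA p n hx
  have hW := p.W_sq _ hE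
  have hap := p.apex_eq _ hE
  have key : ∀ ε : ℝ, (ε = 1 ∨ ε = -1) → ‖x - p.Yeps n ε x‖ ^ 2 = p.T1 (‖x‖ ^ 2) := by
    intro ε hε
    have hc := csq hε (p.W (‖x‖ ^ 2)) hr
    have h1 : x - p.Yeps n ε x
        = lin (1 + p.Lam (‖x‖ ^ 2)) 0 (-(ε * p.W (‖x‖ ^ 2) / Real.sqrt (rsq x))) x := by
      rw [Yeps_eq_lin]; unfold lin; module
    rw [h1, norm_sq_lin]
    linear_combination hc + hW + hap
  refine ⟨key 1 (Or.inl rfl), key (-1) (Or.inr rfl), ?_, ?_⟩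
  · have hc := csq (Or.inl rfl : (1 : ℝ) = 1 ∨ (1 : ℝ) = -1) (p.W (‖x‖ ^ 2)) hr
    have h1 : p.Yeps n 1 x - p.Yeps n (-1) x
        = lin 0 0 (2 * (1 * p.W (‖x‖ ^ 2) / Real.sqrt (rsq x))) x := by
      rw [Yeps_eq_lin, Yeps_eq_lin]; unfold lin; module
    rw [h1, norm_sq_lin]
    linear_combination 4 * hc + 4 * hW
  · rw [Yeps_eq_lin, Yeps_eq_lin]; unfold lin; module

/-- rigidity: an isosceles contact triangle with apex `x ∈ A`; moment inequality, and in the case of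
equality the outer points are `y x`, `z x`. -/
theorem contact_rigid {x y z : E (n + 2)} (hx : x ∈ p.regA n)
    (hxy : ‖x - y‖ ^ 2 = p.T1 (‖x‖ ^ 2)) (hxz : ‖x - z‖ ^ 2 = p.T1 (‖x‖ ^ 2))
    (hyz : ‖y - z‖ ^ 2 = p.T2 (‖x‖ ^ 2)) (hsum : y + z = -(2 * p.Lam (‖x‖ ^ 2)) • x) :
    2 * p.Lam (‖x‖ ^ 2) ^ 2 * hh x ≤ hh y + hh z ∧
    (hh y + hh z ≤ 2 * p.Lam (‖x‖ ^ 2) ^ 2 * hh x →
      (y = p.Yeps n 1 x ∧ z = p.Yeps n (-1) x) ∨ (y = p.Yeps n (-1) x ∧ z = p.Yeps n 1 x)) := by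
  have hE := Ioo_sub p hx.1
  have hr := rsq_pos_of_mem_regA p n hx
  have hWsq := p.W_sq _ hE
  have hWpos := p.W_pos _ hE
  have hL := Lam_pos p hE
  set L := p.Lam (‖x‖ ^ 2) with hLdef
  set w := p.W (‖x‖ ^ 2) with hwdef
  set v := y - z with hv
  have hy : y = (-L) • x + (1 / 2 : ℝ) • v := by
    have : y = (1 / 2 : ℝ) • (y + z) + (1 / 2 : ℝ) • v := by rw [hv]; module
    rw [this, hsum]; module
  have hz : z = (-L) • x - (1 / 2 : ℝ) • v := by
    have : z = (1 / 2 : ℝ) • (y + z) - (1 / 2 : ℝ) • v := by rw [hv]; module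
    rw [this, hsum]; module
  -- orthogonality
  have hxv : inner ℝ x v = 0 := by
    have h1 : x - y = (1 + L) • x - (1 / 2 : ℝ) • v := by rw [hy]; module
    have h2 : x - z = (1 + L) • x + (1 / 2 : ℝ) • v := by rw [hz]; module
    have h3 : ‖x - y‖ ^ 2 = ‖x - z‖ ^ 2 := by rw [hxy, hxz]
    rw [h1, h2, norm_sub_sq_real, norm_add_sq_real, inner_smul_left, inner_smul_right] at h3
    simp only [RCLike.conj_to_real] at h3
    have h4 : (1 + L) * inner ℝ x v = 0 := by linarith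
    rcases mul_eq_zero.mp h4 with h5 | h5
    · linarith
    · exact h5
  -- the moment identity
  have hmom : hh y + hh z = 2 * L ^ 2 * hh x + hh v / 2 := by
    have n1 : ‖y‖ ^ 2 = L ^ 2 * ‖x‖ ^ 2 + ‖v‖ ^ 2 / 4 := by
      rw [hy, norm_add_sq_real, inner_smul_left, inner_smul_right, hxv, norm_smul, norm_smul,
        mul_pow, mul_pow]
      simp only [Real.norm_eq_abs, sq_abs]
      ring
    have n2 : ‖z‖ ^ 2 = L ^ 2 * ‖x‖ ^ 2 + ‖v‖ ^ 2 / 4 := by
      rw [hz, norm_sub_sq_real, inner_smul_left, inner_smul_right, hxv, norm_smul, norm_smul,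
        mul_pow, mul_pow]
      simp only [Real.norm_eq_abs, sq_abs]
      ring
    have c1 : ∀ i, y i = -L * x i + v i / 2 := by
      intro i
      rw [hy]; simp only [PiLp.add_apply, PiLp.smul_apply, smul_eq_mul]; ring
    have c2 : ∀ i, z i = -L * x i - v i / 2 := by
      intro i
      rw [hz]; simp only [PiLp.sub_apply, PiLp.smul_apply, smul_eq_mul]; ring
    unfold hh rsq
    rw [n1, n2, c1 0, c1 1, c2 0, c2 1]
    ring
  refine ⟨?_, ?_⟩
  · have := hh_nonneg v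
    linarith
  · intro hle
    have hv0 : hh v = 0 := le_antisymm (by linarith) (hh_nonneg v)
    have hvP : v = Pp v := by
      rw [hh_eq] at hv0
      have : ‖v - Pp v‖ = 0 := by
        have := norm_nonneg (v - Pp v)
        nlinarith
      exact sub_eq_zero.mp (norm_eq_zero.mp this)
    have hdot : x 0 * v 0 + x 1 * v 1 = 0 := by
      rw [← inner_Pp, ← hvP]; exact hxv
    have hrv : v 0 ^ 2 + v 1 ^ 2 = 4 * w ^ 2 := by
      have : rsq v = ‖v‖ ^ 2 := by unfold hh at hv0; linarith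
      unfold rsq at this
      rw [this, hyz, hWsq]; ring
    set ρ := rsq x with hρ
    have hρ' : x 0 ^ 2 + x 1 ^ 2 = ρ := rfl
    set μ := (-x 1 * v 0 + x 0 * v 1) / ρ with hμ
    have hv0' : v 0 = μ * (-x 1) := by
      rw [hμ]; field_simp
      linear_combination (-v 0) * hρ' + x 0 * hdot
    have hv1' : v 1 = μ * x 0 := by
      rw [hμ]; field_simp
      linear_combination (-v 1) * hρ' + x 1 * hdot
    have hvJ : v = μ • Jp x := by
      rw [hvP, Pp, hv0', hv1', Jp]; module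
    have hμsq : μ ^ 2 * ρ = 4 * w ^ 2 := by
      rw [← hrv, hv0', hv1', ← hρ']; ring
    have hsq : Real.sqrt ρ ^ 2 = ρ := Real.sq_sqrt hr.le
    have hsp : 0 < Real.sqrt ρ := Real.sqrt_pos.mpr hr
    have hfac : (μ * Real.sqrt ρ - 2 * w) * (μ * Real.sqrt ρ + 2 * w) = 0 := by
      have : (μ * Real.sqrt ρ) ^ 2 = 4 * w ^ 2 := by rw [mul_pow, hsq, hμsq]
      linear_combination this
    rcases mul_eq_zero.mp hfac with h1 | h1
    · left
      have hμ1 : μ = 2 * (w / Real.sqrt ρ) := by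
        field_simp; linarith
      constructor
      · rw [Yeps_eq_lin, hy, hvJ, hμ1, ← hLdef, ← hwdef]; unfold lin; module
      · rw [Yeps_eq_lin, hz, hvJ, hμ1, ← hLdef, ← hwdef]; unfold lin; module
    · right
      have hμ1 : μ = -2 * (w / Real.sqrt ρ) := by
        field_simp; linarith
      constructor
      · rw [Yeps_eq_lin, hy, hvJ, hμ1, ← hLdef, ← hwdef]; unfold lin; module
      · rw [Yeps_eq_lin, hz, hvJ, hμ1, ← hLdef, ← hwdef]; unfold lin; module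

end P3

end Crest.Agent.S0175
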