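import Crest.Agent.S0175_Dual
import Crest.Agent.S0175_Geom

/-!
# S0175, package P10: the geometric fields of the abstract `Setup` for `tripleCost`
-/

set_option autoImplicit false
open MeasureTheory
open scoped ENNReal ContDiff
open Crest.AnalysisR.OT

namespace Crest.Agent.S0175

namespace Contact10

variable {s : ℝ} (p : Params s) (n : ℕ)

lemma Ea_gt : p.E1 < p.Ea := by
  have := p.E1_lt_E2; unfold Params.Ea; linarith
lemma Eb_lt : p.Eb < p.E2 := by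
  have := p.E1_lt_E2; unfold Params.Eb; linarith
lemma Ea_lt_Eb : p.Ea < p.Eb := by
  have := p.E1_lt_E2; unfold Params.Ea Params.Eb; linarith

lemma mem_Ioo {E : ℝ} (h : E ∈ Set.Ioo p.Ea p.Eb) : E ∈ Set.Ioo p.E1 p.E2 :=
  ⟨(Ea_gt p).trans h.1, h.2.trans (Eb_lt p)⟩

lemma mem_of_regA {x : E (n + 2)} (hx : x ∈ p.regA n) : ‖x‖ ^ 2 ∈ Set.Ioo p.E1 p.E2 :=
  mem_Ioo p hx.1

lemma T1_pos {E : ℝ} (h : E ∈ Set.Ioo p.E1 p.E2) : 0 < p.T1 E :=
  lt_of_lt_of_le (pow_pos p.ell_pos 2) (p.T1_ge E h)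
lemma T2_pos {E : ℝ} (h : E ∈ Set.Ioo p.E1 p.E2) : 0 < p.T2 E :=
  lt_of_lt_of_le (pow_pos p.ell_pos 2) (p.T2_ge E h)

lemma UA_eq {E : ℝ} (h : E ∈ Set.Ioo p.E1 p.E2) :
    p.UA E = Kc s (p.T1 E) (p.T2 E) - aC s (p.T1 E) (p.T2 E) * E := by
  unfold Params.UA
  rw [Kc_eq (T1_pos p h) (T2_pos p h)]
  rfl

lemma kap_eq' {E : ℝ} (h : E ∈ Set.Ioo p.E1 p.E2) : p.kap = kapC s (p.T1 E) (p.T2 E) :=
  (p.kap_eq E h).symm

lemma fA_of_mem {x : E (n + 2)} (hx : x ∈ p.regA n) :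
    p.fA n x = ENNReal.ofReal (Kc s (p.T1 (‖x‖ ^ 2)) (p.T2 (‖x‖ ^ 2))
      - aC s (p.T1 (‖x‖ ^ 2)) (p.T2 (‖x‖ ^ 2)) * ‖x‖ ^ 2) := by
  unfold Params.fA
  rw [if_pos hx, UA_eq p (mem_of_regA p n hx)]

lemma fB_of_mem {x : E (n + 2)} (hx : x ∈ p.regB n) :
    p.fB n x = ENNReal.ofReal (p.kap * ‖x‖ ^ 2) := by
  unfold Params.fB
  rw [if_pos hx]

lemma UA_le (hs : 0 < s) {E : ℝ} (h : E ∈ Set.Ioo p.E1 p.E2) : p.UA E ≤ p.Kmax := by
  have h1 := p.K_le E h
  have g1 := gam_pos hs (T1_pos p h)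
  have g2 := gam_pos hs (T2_pos p h)
  have hE : 0 < E := p.E1_pos.trans h.1
  unfold Params.UA
  have : 0 ≤ (2 * gam s (p.T1 E) + gam s (p.T1 E) ^ 2 / gam s (p.T2 E)) * E := by positivity
  linarith

lemma fA_le (hs : 0 < s) (x : E (n + 2)) : p.fA n x ≤ ENNReal.ofReal p.Kmax := by
  unfold Params.fA
  split_ifs with hx
  · exact ENNReal.ofReal_le_ofReal (UA_le p hs (mem_of_regA p n hx))
  · exact zero_le

lemma Kmax_nonneg (hs : 0 < s) : 0 ≤ p.Kmax := by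
  have hE : (p.E1 + p.E2) / 2 ∈ Set.Ioo p.E1 p.E2 := by
    have := p.E1_lt_E2
    constructor <;> linarith
  have h1 := p.K_le _ hE
  have a1 := phi_pos s (T1_pos p hE)
  have a2 := phi_pos s (T2_pos p hE)
  have : 0 ≤ (s / 2 + 1) * (2 * phi s (p.T1 ((p.E1 + p.E2) / 2)) + phi s (p.T2 ((p.E1 + p.E2) / 2))) := by
    positivity
  linarith

lemma norm_lt_of_regA {x : E (n + 2)} (hx : x ∈ p.regA n) : ‖x‖ ≤ Real.sqrt p.E2 := by
  apply Real.le_sqrt_of_sq_le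
  exact ((mem_of_regA p n hx).2).le

lemma phi_le_pairCost (hs : 0 < s) {a b : E (n + 2)} (ha : a ∈ p.regA n) (hb : b ∈ p.regA n) :
    ENNReal.ofReal (phi s (4 * p.E2)) ≤ pairCost s a b := by
  have hE2 : 0 < p.E2 := p.E1_pos.trans p.E1_lt_E2
  have hR : 0 < 2 * Real.sqrt p.E2 := by positivity
  have h1 : ‖a - b‖ ≤ 2 * Real.sqrt p.E2 := by
    have := norm_sub_le a b
    have := norm_lt_of_regA p n ha
    have := norm_lt_of_regA p n hb
    linarith
  have h2 := le_pairCost_of_norm_le hs hR h1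
  have h3 : (2 * Real.sqrt p.E2) ^ (-s) = phi s (4 * p.E2) := by
    unfold phi
    have : 4 * p.E2 = (2 * Real.sqrt p.E2) ^ (2 : ℝ) := by
      rw [Real.rpow_two, mul_pow, Real.sq_sqrt hE2.le]; norm_num
    rw [this, ← Real.rpow_mul hR.le]
    congr 1
    ring
  rwa [h3] at h2

lemma isContact {x : E (n + 2)} (hx : x ∈ p.regA n) :
    Contact s (p.T1 (‖x‖ ^ 2)) (p.T2 (‖x‖ ^ 2)) x (p.Yeps n 1 x) (p.Yeps n (-1) x) := by
  obtain ⟨h1, h2, h3, h4⟩ := contact_dist p n hx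
  refine ⟨h1, h2, h3, ?_⟩
  rw [h4, p.Lam_eq _ (mem_of_regA p n hx)]
  congr 2
  ring

end Contact10

open Contact10

section P10
variable {s : ℝ} (hs : 0 < s) (p : Params s) (n : ℕ)
include hs

theorem dual_ABB' : ∀ a ∈ p.regA n, ∀ b ∈ p.regB n, ∀ d ∈ p.regB n,
    p.fA n a ≤ tripleCost s (a, b, d) + p.fB n b + p.fB n d := by
  intro a ha b hb d hd
  have hE := mem_of_regA p n ha
  rw [fA_of_mem p n ha, fB_of_mem p n hb, fB_of_mem p n hd, kap_eq' p hE]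
  exact dual_ABB hs (T1_pos p hE) (T2_pos p hE) a b d

theorem dual_AAB' : ∀ a ∈ p.regA n, ∀ b ∈ p.regA n, ∀ d ∈ p.regB n,
    p.fA n a + p.fA n b < tripleCost s (a, b, d) + p.fB n d := by
  intro a ha b hb d _
  have hK := Kmax_nonneg p hs
  calc p.fA n a + p.fA n b ≤ ENNReal.ofReal p.Kmax + ENNReal.ofReal p.Kmax :=
        add_le_add (fA_le p n hs a) (fA_le p n hs b)
    _ = ENNReal.ofReal (p.Kmax + p.Kmax) := (ENNReal.ofReal_add hK hK).symm
    _ < ENNReal.ofReal (phi s (4 * p.E2)) := by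
        apply (ENNReal.ofReal_lt_ofReal_iff _).2
        · have := p.Kmax_lt; linarith
        · have := p.Kmax_lt; linarith
    _ ≤ pairCost s a b := phi_le_pairCost p n hs ha hb
    _ ≤ tripleCost s (a, b, d) := pairCost12_le_tripleCost s a b d
    _ ≤ tripleCost s (a, b, d) + p.fB n d := le_self_add

theorem dual_AAA' : ∀ a ∈ p.regA n, ∀ b ∈ p.regA n, ∀ d ∈ p.regA n,
    p.fA n a + p.fA n b + p.fA n d < tripleCost s (a, b, d) := by
  intro a ha b hb d _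
  have hK := Kmax_nonneg p hs
  calc p.fA n a + p.fA n b + p.fA n d
      ≤ ENNReal.ofReal p.Kmax + ENNReal.ofReal p.Kmax + ENNReal.ofReal p.Kmax :=
        add_le_add (add_le_add (fA_le p n hs a) (fA_le p n hs b)) (fA_le p n hs d)
    _ = ENNReal.ofReal (p.Kmax + p.Kmax + p.Kmax) := by
        rw [ENNReal.ofReal_add (by linarith) hK, ENNReal.ofReal_add hK hK]
    _ < ENNReal.ofReal (phi s (4 * p.E2)) := by
        apply (ENNReal.ofReal_lt_ofReal_iff _).2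
        · have := p.Kmax_lt; linarith
        · have := p.Kmax_lt; linarith
    _ ≤ pairCost s a b := phi_le_pairCost p n hs ha hb
    _ ≤ tripleCost s (a, b, d) := pairCost12_le_tripleCost s a b d

theorem eq_graph' : ∀ x ∈ p.regA n,
    p.fA n x = tripleCost s (x, p.Yeps n 1 x, p.Yeps n (-1) x)
      + p.fB n (p.Yeps n 1 x) + p.fB n (p.Yeps n (-1) x) := by
  intro x hx
  have hE := mem_of_regA p n hx
  rw [fA_of_mem p n hx, fB_of_mem p n (Yeps_mem_regB p n (Or.inl rfl) hx),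
    fB_of_mem p n (Yeps_mem_regB p n (Or.inr rfl) hx), kap_eq' p hE]
  exact eq_of_contact hs (T1_pos p hE) (T2_pos p hE) (isContact p n hx)

/-- a contact triple with apex in `A` satisfies the hypotheses of `contact_rigid` -/
theorem contact_of_eq {a b d : E (n + 2)} (ha : a ∈ p.regA n) (hb : b ∈ p.regB n)
    (hd : d ∈ p.regB n) (h : p.fA n a = tripleCost s (a, b, d) + p.fB n b + p.fB n d) :
    ‖a - b‖ ^ 2 = p.T1 (‖a‖ ^ 2) ∧ ‖a - d‖ ^ 2 = p.T1 (‖a‖ ^ 2) ∧ ‖b - d‖ ^ 2 = p.T2 (‖a‖ ^ 2) ∧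
      b + d = -(2 * p.Lam (‖a‖ ^ 2)) • a := by
  have hE := mem_of_regA p n ha
  rw [fA_of_mem p n ha, fB_of_mem p n hb, fB_of_mem p n hd, kap_eq' p hE] at h
  obtain ⟨h1, h2, h3, h4⟩ := contact_of_le hs (T1_pos p hE) (T2_pos p hE) h.ge
  refine ⟨h1, h2, h3, ?_⟩
  rw [h4, p.Lam_eq _ hE]
  congr 2
  ring

theorem moment_le' : ∀ a ∈ p.regA n, ∀ b ∈ p.regB n, ∀ d ∈ p.regB n,
    p.fA n a = tripleCost s (a, b, d) + p.fB n b + p.fB n d →
    ENNReal.ofReal (hh (p.Yeps n 1 a)) + ENNReal.ofReal (hh (p.Yeps n (-1) a))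
      ≤ ENNReal.ofReal (hh b) + ENNReal.ofReal (hh d) := by
  intro a ha b hb d hd h
  obtain ⟨h1, h2, h3, h4⟩ := contact_of_eq hs p n ha hb hd h
  have hr := (contact_rigid p n ha h1 h2 h3 h4).1
  rw [← ENNReal.ofReal_add (hh_nonneg _) (hh_nonneg _),
    ← ENNReal.ofReal_add (hh_nonneg _) (hh_nonneg _)]
  apply ENNReal.ofReal_le_ofReal
  rw [hh_Yeps p n (Or.inl rfl) ha, hh_Yeps p n (Or.inr rfl) ha]
  linarith

theorem moment_eq' : ∀ a ∈ p.regA n, ∀ b ∈ p.regB n, ∀ d ∈ p.regB n,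
    p.fA n a = tripleCost s (a, b, d) + p.fB n b + p.fB n d →
    ENNReal.ofReal (hh (p.Yeps n 1 a)) + ENNReal.ofReal (hh (p.Yeps n (-1) a))
      = ENNReal.ofReal (hh b) + ENNReal.ofReal (hh d) →
    (b = p.Yeps n 1 a ∧ d = p.Yeps n (-1) a) ∨ (b = p.Yeps n (-1) a ∧ d = p.Yeps n 1 a) := by
  intro a ha b hb d hd h he
  obtain ⟨h1, h2, h3, h4⟩ := contact_of_eq hs p n ha hb hd h
  apply (contact_rigid p n ha h1 h2 h3 h4).2
  rw [← ENNReal.ofReal_add (hh_nonneg _) (hh_nonneg _),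
    ← ENNReal.ofReal_add (hh_nonneg _) (hh_nonneg _)] at he
  have h5 : hh b + hh d ≤ hh (p.Yeps n 1 a) + hh (p.Yeps n (-1) a) := by
    have := he.ge
    rwa [ENNReal.ofReal_le_ofReal_iff (add_nonneg (hh_nonneg _) (hh_nonneg _))] at this
  rw [hh_Yeps p n (Or.inl rfl) ha, hh_Yeps p n (Or.inr rfl) ha] at h5
  linarith

omit hs in
theorem ne_yz' : ∀ x ∈ p.regA n, p.Yeps n 1 x ≠ p.Yeps n (-1) x := by
  intro x hx he
  obtain ⟨_, _, h3, _⟩ := contact_dist p n hx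
  rw [he, sub_self, norm_zero] at h3
  have := T2_pos p (mem_of_regA p n hx)
  simp at h3
  linarith

omit hs in
/-- lower bounds for the contact distances (for `Approx.approx_concrete`) -/
theorem ell_le_dist : ∀ x ∈ p.regA n, p.ell ≤ ‖p.Yeps n 1 x - x‖ ∧
    p.ell ≤ ‖p.Yeps n 1 x - p.Yeps n (-1) x‖ := by
  intro x hx
  obtain ⟨h1, _, h3, _⟩ := contact_dist p n hx
  have hE := mem_of_regA p n hx
  constructor
  · rw [norm_sub_rev]
    apply le_of_sq_le_sq _ (norm_nonneg _) |> fun h => h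
    rw [h1]; exact p.T1_ge _ hE
  · apply le_of_sq_le_sq _ (norm_nonneg _) |> fun h => h
    rw [h3]; exact p.T2_ge _ hE

omit hs in
theorem continuousOn_UA : ContinuousOn p.UA (Set.Ioo p.E1 p.E2) := by
  have c1 : ContinuousOn p.T1 (Set.Ioo p.E1 p.E2) := p.smooth_T1.continuousOn
  have c2 : ContinuousOn p.T2 (Set.Ioo p.E1 p.E2) := p.smooth_T2.continuousOn
  have n1 : ∀ E ∈ Set.Ioo p.E1 p.E2, p.T1 E ≠ 0 := fun E h => (T1_pos p h).ne'
  have n2 : ∀ E ∈ Set.Ioo p.E1 p.E2, p.T2 E ≠ 0 := fun E h => (T2_pos p h).ne'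
  by_cases hs0 : s = 0
  · subst hs0
    unfold Params.UA phi gam
    simp only [zero_div, zero_mul, neg_zero, Real.rpow_zero]
    fun_prop
  have g2 : ∀ E ∈ Set.Ioo p.E1 p.E2, gam s (p.T2 E) ≠ 0 := by
    intro E h
    unfold gam
    have := Real.rpow_pos_of_pos (T2_pos p h) (-(s / 2) - 1)
    have hs2 : s / 2 ≠ 0 := by simpa using hs0
    exact mul_ne_zero hs2 this.ne'
  unfold Params.UA
  have p1 : ∀ q : ℝ, ContinuousOn (fun E => p.T1 E ^ q) (Set.Ioo p.E1 p.E2) :=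
    fun q => c1.rpow_const (fun E h => Or.inl (n1 E h))
  have p2 : ∀ q : ℝ, ContinuousOn (fun E => p.T2 E ^ q) (Set.Ioo p.E1 p.E2) :=
    fun q => c2.rpow_const (fun E h => Or.inl (n2 E h))
  have G1 : ContinuousOn (fun E => gam s (p.T1 E)) (Set.Ioo p.E1 p.E2) :=
    continuousOn_const.mul (p1 _)
  have G2 : ContinuousOn (fun E => gam s (p.T2 E)) (Set.Ioo p.E1 p.E2) :=
    continuousOn_const.mul (p2 _)
  have F1 : ContinuousOn (fun E => phi s (p.T1 E)) (Set.Ioo p.E1 p.E2) := p1 _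
  have F2 : ContinuousOn (fun E => phi s (p.T2 E)) (Set.Ioo p.E1 p.E2) := p2 _
  exact (continuousOn_const.mul ((continuousOn_const.mul F1).add F2)).sub
    ((((continuousOn_const.mul G1)).add ((G1.pow 2).div G2 g2)).mul continuousOn_id)

omit hs in
theorem measurable_fA : Measurable (p.fA n) := by
  classical
  have h1 : ContinuousOn (fun x : E (n + 2) => ENNReal.ofReal (p.UA (‖x‖ ^ 2))) (p.regA n) := by
    apply ENNReal.continuous_ofReal.comp_continuousOn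
    apply (continuousOn_UA p).comp (by fun_prop)
    intro x hx
    exact mem_of_regA p n hx
  have h2 := h1.measurable_piecewise (g := fun _ => (0 : ℝ≥0∞)) continuousOn_const
    (isOpen_regA p n).measurableSet
  convert h2 using 1
  funext x
  unfold Params.fA
  simp only [Set.piecewise]

omit hs in
theorem measurable_fB : Measurable (p.fB n) := by
  classical
  unfold Params.fB
  exact Measurable.ite (isOpen_regB p n).measurableSet (by fun_prop) measurable_const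

theorem exists_bound : ∃ C : ℝ≥0∞, C ≠ ⊤ ∧ ∀ x, p.fA n x ≤ C ∧ p.fB n x ≤ C := by
  refine ⟨ENNReal.ofReal p.Kmax + ENNReal.ofReal (p.kap * p.F p.Ea), by simp, fun x => ⟨?_, ?_⟩⟩
  · exact (fA_le p n hs x).trans le_self_add
  · refine le_trans ?_ le_add_self
    unfold Params.fB
    split_ifs with hx
    · apply ENNReal.ofReal_le_ofReal
      exact mul_le_mul_of_nonneg_left hx.1.2.le p.kap_pos.le
    · exact zero_le

end P10

end Crest.Agent.S0175
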