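import Mathlib
import Crest.Prelude.Def_MultiMarginal

/-!
Row 130 (S0175), package P5: the densities.
-/

set_option autoImplicit false

open MeasureTheory Set
open scoped ContDiff RealInnerProductSpace

namespace Crest.Agent.S0175.Dens

variable {d : ℕ}

local notation "E" => EuclideanSpace ℝ (Fin d)

/-- squared distance to the plane spanned by the orthonormal pair `u0 u1` -/
noncomputable def hf (u0 u1 : E) (x : E) : ℝ := ‖x‖ ^ 2 - ⟪u0, x⟫ ^ 2 - ⟪u1, x⟫ ^ 2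

lemma contDiff_hf (u0 u1 : E) : ContDiff ℝ ∞ (hf u0 u1) := by
  unfold hf
  exact ((contDiff_norm_sq ℝ).sub ((contDiff_const.inner ℝ contDiff_id).pow 2)).sub
    ((contDiff_const.inner ℝ contDiff_id).pow 2)

/-- a smooth bump on the line with support exactly `Ioo p q` -/
lemma exists_bump (p q : ℝ) (hpq : p < q) :
    ∃ g : ℝ → ℝ, ContDiff ℝ ∞ g ∧ (∀ t, 0 ≤ g t) ∧ (∀ t, g t ≠ 0 ↔ t ∈ Ioo p q) := by
  have hr : 0 < (q - p) / 2 := by linarith
  let f : ContDiffBump ((p + q) / 2 : ℝ) := ⟨(q - p) / 4, (q - p) / 2, by linarith, by linarith⟩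
  refine ⟨f, f.contDiff, fun t => f.nonneg, fun t => ?_⟩
  have := f.support_eq
  have h2 : t ∈ Function.support f ↔ t ∈ Metric.ball ((p + q) / 2 : ℝ) ((q - p) / 2) := by
    rw [this]
  rw [Function.mem_support, Real.ball_eq_Ioo] at h2
  rw [h2]
  constructor
  · rintro ⟨h1, h3⟩; constructor <;> linarith
  · rintro ⟨h1, h3⟩; constructor <;> linarith

/-- extension by zero of a function which is smooth on a spherical shell and vanishes off a
smaller closed shell -/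
lemma contDiff_of_shell {f : E → ℝ} {E1 E2 a b : ℝ} (ha : E1 < a) (hb : b < E2)
    (hf : ContDiffOn ℝ ∞ f {x : E | ‖x‖ ^ 2 ∈ Ioo E1 E2})
    (h0 : ∀ x : E, ‖x‖ ^ 2 ∉ Icc a b → f x = 0) : ContDiff ℝ ∞ f := by
  have hcont : Continuous fun x : E => ‖x‖ ^ 2 := (contDiff_norm_sq ℝ (n := 0)).continuous
  rw [contDiff_iff_contDiffAt]
  intro x
  by_cases hx : ‖x‖ ^ 2 ∈ Ioo E1 E2
  · exact hf.contDiffAt ((isOpen_Ioo.preimage hcont).mem_nhds hx)
  · have hx' : ‖x‖ ^ 2 ∉ Icc a b := fun h => hx ⟨lt_of_lt_of_le ha h.1, lt_of_le_of_lt h.2 hb⟩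
    have hopen : IsOpen {x : E | ‖x‖ ^ 2 ∉ Icc a b} := (isClosed_Icc.preimage hcont).isOpen_compl
    have : f =ᶠ[nhds x] fun _ => 0 :=
      Filter.eventuallyEq_of_mem (hopen.mem_nhds hx') (fun y hy => h0 y hy)
    exact contDiffAt_const.congr_of_eventuallyEq this

/-- the density profile on the `B` side -/
noncomputable def psiB (h : E → ℝ) (c0 : ℝ) (g1 g2 : ℝ → ℝ) (y : E) : ℝ :=
  c0 * g1 (‖y‖ ^ 2) * g2 (h y)

open Classical in
/-- the density profile on the `A` side -/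
noncomputable def psiA (h : E → ℝ) (c0 : ℝ) (g1 g2 : ℝ → ℝ) (E1 E2 : ℝ) (Lam F G : ℝ → ℝ)
    (x : E) : ℝ :=
  if ‖x‖ ^ 2 ∈ Ioo E1 E2 then
    c0 * g1 (F (‖x‖ ^ 2)) * g2 (Lam (‖x‖ ^ 2) ^ 2 * h x) * Real.sqrt (G (‖x‖ ^ 2))
  else 0

lemma contDiff_psiB {h : E → ℝ} (hh : ContDiff ℝ ∞ h) (c0 : ℝ) {g1 g2 : ℝ → ℝ}
    (h1 : ContDiff ℝ ∞ g1) (h2 : ContDiff ℝ ∞ g2) : ContDiff ℝ ∞ (psiB h c0 g1 g2) := by
  unfold psiB
  exact (contDiff_const.mul (h1.comp (contDiff_norm_sq ℝ))).mul (h2.comp hh)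

lemma contDiff_psiA {h : E → ℝ} (hh : ContDiff ℝ ∞ h) (c0 : ℝ) {g1 g2 : ℝ → ℝ}
    (h1 : ContDiff ℝ ∞ g1)
    (h2 : ContDiff ℝ ∞ g2) {E1 E2 a b : ℝ} (ha : E1 < a) (hb : b < E2) {Lam F G : ℝ → ℝ}
    (hLam : ContDiffOn ℝ ∞ Lam (Ioo E1 E2)) (hF : ContDiffOn ℝ ∞ F (Ioo E1 E2))
    (hG : ContDiffOn ℝ ∞ G (Ioo E1 E2)) (hGpos : ∀ t ∈ Ioo E1 E2, 0 < G t)
    (hsupp : ∀ t ∈ Ioo E1 E2, g1 (F t) ≠ 0 → t ∈ Icc a b) :
    ContDiff ℝ ∞ (psiA h c0 g1 g2 E1 E2 Lam F G) := by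
  apply contDiff_of_shell ha hb
  · have hn : ContDiffOn ℝ ∞ (fun x : E => ‖x‖ ^ 2) {x : E | ‖x‖ ^ 2 ∈ Ioo E1 E2} :=
      (contDiff_norm_sq ℝ).contDiffOn
    have hmaps : MapsTo (fun x : E => ‖x‖ ^ 2) {x : E | ‖x‖ ^ 2 ∈ Ioo E1 E2} (Ioo E1 E2) :=
      fun x hx => hx
    have e1 : ContDiffOn ℝ ∞ (fun x : E =>
        c0 * g1 (F (‖x‖ ^ 2)) * g2 (Lam (‖x‖ ^ 2) ^ 2 * h x) * Real.sqrt (G (‖x‖ ^ 2)))
        {x : E | ‖x‖ ^ 2 ∈ Ioo E1 E2} := by
      refine ((contDiffOn_const.mul (h1.comp_contDiffOn (hF.comp hn hmaps))).mul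
        (h2.comp_contDiffOn (((hLam.comp hn hmaps).pow 2).mul
          hh.contDiffOn))).mul ?_
      exact (hG.comp hn hmaps).sqrt (fun x hx => (hGpos _ hx).ne')
    refine e1.congr (fun x hx => ?_)
    unfold psiA
    exact if_pos hx
  · intro x hx
    unfold psiA
    split_ifs with h
    · have : g1 (F (‖x‖ ^ 2)) = 0 := by
        by_contra hne
        exact hx (hsupp _ h hne)
      rw [this]; ring
    · rfl

/-! ### From the two profiles to the density -/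

section rho

lemma sqrt_rho {ψA ψB : E → ℝ} (hA : ∀ x, 0 ≤ ψA x) (hB : ∀ x, 0 ≤ ψB x) (hAB : ∀ x, ψA x * ψB x = 0) (x : E) :
    Real.sqrt (ψA x ^ 2 + ψB x ^ 2) = ψA x + ψB x := by
  have : ψA x ^ 2 + ψB x ^ 2 = (ψA x + ψB x) ^ 2 := by nlinarith [hAB x]
  rw [this, Real.sqrt_sq (add_nonneg (hA x) (hB x))]

lemma contDiff_sqrt_rho {ψA ψB : E → ℝ} (hA : ∀ x, 0 ≤ ψA x) (hB : ∀ x, 0 ≤ ψB x) (hAB : ∀ x, ψA x * ψB x = 0)
    (cA : ContDiff ℝ ∞ ψA) (cB : ContDiff ℝ ∞ ψB) :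
    ContDiff ℝ ∞ (fun x => Real.sqrt (ψA x ^ 2 + ψB x ^ 2)) := by
  have : (fun x => Real.sqrt (ψA x ^ 2 + ψB x ^ 2)) = fun x => ψA x + ψB x :=
    funext (sqrt_rho hA hB hAB)
  rw [this]
  exact cA.add cB

lemma contDiff_rho {ψA ψB : E → ℝ} (cA : ContDiff ℝ ∞ ψA) (cB : ContDiff ℝ ∞ ψB) :
    ContDiff ℝ ∞ (fun x => ψA x ^ 2 + ψB x ^ 2) := (cA.pow 2).add (cB.pow 2)

lemma hasCompactSupport_sq {ψ : E → ℝ} (h : HasCompactSupport ψ) :
    HasCompactSupport (fun x => ψ x ^ 2) :=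
  h.comp_left (g := fun t : ℝ => t ^ 2) (by norm_num)

lemma hasCompactSupport_rho {ψA ψB : E → ℝ} (sA : HasCompactSupport ψA)
    (sB : HasCompactSupport ψB) : HasCompactSupport (fun x => ψA x ^ 2 + ψB x ^ 2) :=
  (hasCompactSupport_sq sA).add (hasCompactSupport_sq sB)

end rho

lemma hasCompactSupport_of_norm_sq_le {f : E → ℝ} {R : ℝ}
    (h : ∀ x, f x ≠ 0 → ‖x‖ ^ 2 ≤ R) : HasCompactSupport f := by
  apply HasCompactSupport.of_support_subset_isCompact (isCompact_closedBall (0 : E) (Real.sqrt R))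
  intro x hx
  rw [mem_closedBall_zero_iff]
  exact Real.le_sqrt_of_sq_le (h x hx)

/-- **Package P5.** Existence of the two profiles (abstract form). -/
theorem exists_profiles {h : E → ℝ} (hh : ContDiff ℝ ∞ h)
    (hpt : ∀ c : ℝ, 0 < c → ∃ y : E, ‖y‖ ^ 2 = c ∧ h y = 0)
    {E1 E2 a b η2 : ℝ} (ha1 : E1 < a) (hab : a < b) (hb2 : b < E2) (hη : 0 < η2)
    {Lam F G : ℝ → ℝ}
    (hLam : ContDiffOn ℝ ∞ Lam (Ioo E1 E2)) (hF : ContDiffOn ℝ ∞ F (Ioo E1 E2))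
    (hG : ContDiffOn ℝ ∞ G (Ioo E1 E2)) (hGpos : ∀ t ∈ Ioo E1 E2, 0 < G t)
    (hanti : StrictAntiOn F (Ioo E1 E2)) (hFb : 0 ≤ F b) :
    ∃ (ψA ψB : E → ℝ) (q : ℝ → ℝ → ℝ),
      ContDiff ℝ ∞ ψA ∧ ContDiff ℝ ∞ ψB ∧ (∀ x, 0 ≤ ψA x) ∧ (∀ x, 0 ≤ ψB x) ∧
      HasCompactSupport ψA ∧ HasCompactSupport ψB ∧
      (∀ x, ψA x ≠ 0 → ‖x‖ ^ 2 ∈ Ioo a b ∧ Lam (‖x‖ ^ 2) ^ 2 * h x < η2) ∧
      (∀ y, ψB y ≠ 0 → ‖y‖ ^ 2 ∈ Ioo (F b) (F a) ∧ h y < η2) ∧
      (∀ y, ψB y = q (‖y‖ ^ 2) (h y)) ∧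
      (∀ x, ‖x‖ ^ 2 ∈ Ioo E1 E2 → ψA x =
        q (F (‖x‖ ^ 2)) (Lam (‖x‖ ^ 2) ^ 2 * h x) * Real.sqrt (G (‖x‖ ^ 2))) ∧
      ∫ y, ψB y ^ 2 = 2 / 3 := by
  have haI : a ∈ Ioo E1 E2 := ⟨ha1, hab.trans hb2⟩
  have hbI : b ∈ Ioo E1 E2 := ⟨ha1.trans hab, hb2⟩
  have hFab : F b < F a := hanti haI hbI hab
  obtain ⟨g1, c1, n1, s1⟩ := exists_bump (F b) (F a) hFab
  obtain ⟨g2, c2, n2, s2⟩ := exists_bump (-η2) η2 (by linarith)
  have hsupp' : ∀ t ∈ Ioo E1 E2, g1 (F t) ≠ 0 → t ∈ Ioo a b := by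
    intro t ht hne
    have := (s1 _).mp hne
    constructor
    · by_contra hlt
      push Not at hlt
      rcases hlt.lt_or_eq with hlt | heq
      · exact absurd (hanti ht haI hlt) (not_lt.mpr this.2.le)
      · rw [heq] at this; exact lt_irrefl _ this.2
    · by_contra hlt
      push Not at hlt
      rcases hlt.lt_or_eq with hlt | heq
      · exact absurd (hanti hbI ht hlt) (not_lt.mpr this.1.le)
      · rw [← heq] at this; exact lt_irrefl _ this.1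
  have hsupp : ∀ t ∈ Ioo E1 E2, g1 (F t) ≠ 0 → t ∈ Icc a b :=
    fun t ht hne => Ioo_subset_Icc_self (hsupp' t ht hne)
  -- normalisation
  set f0 : E → ℝ := fun y => (psiB h 1 g1 g2 y) ^ 2 with hf0
  have hB1 : ∀ y : E, psiB h 1 g1 g2 y ≠ 0 → ‖y‖ ^ 2 ∈ Ioo (F b) (F a) ∧
      h y ∈ Ioo (-η2) η2 := by
    intro y hy
    unfold psiB at hy
    refine ⟨(s1 _).mp (fun h => hy (by rw [h]; ring)), (s2 _).mp (fun h => hy (by rw [h]; ring))⟩
  have cs1 : HasCompactSupport (psiB h 1 g1 g2) :=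
    hasCompactSupport_of_norm_sq_le (R := F a) (fun y hy => (hB1 y hy).1.2.le)
  have cf0 : Continuous f0 := ((contDiff_psiB hh 1 c1 c2).continuous).pow 2
  have sf0 : HasCompactSupport f0 := hasCompactSupport_sq cs1
  have hc : 0 < (F a + F b) / 2 := by linarith
  have hI0 : 0 < ∫ y, f0 y := by
    obtain ⟨y0, e1, e2⟩ := hpt _ hc
    apply cf0.integral_pos_of_hasCompactSupport_nonneg_nonzero sf0 (fun y => sq_nonneg _) (x := y0)
    have e3 : g1 ((F a + F b) / 2) ≠ 0 := (s1 _).mpr ⟨by linarith, by linarith⟩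
    have e4 : g2 0 ≠ 0 := (s2 _).mpr ⟨by linarith, hη⟩
    simp only [hf0, psiB, e1, e2]
    positivity
  set c0 := Real.sqrt (2 / 3 / ∫ y, f0 y) with hc0
  have hc0pos : 0 < c0 := Real.sqrt_pos.mpr (by positivity)
  have hc0sq : c0 ^ 2 = 2 / 3 / ∫ y, f0 y := Real.sq_sqrt (by positivity)
  have hBc : ∀ y, psiB h c0 g1 g2 y = c0 * psiB h 1 g1 g2 y := by
    intro y; unfold psiB; ring
  refine ⟨psiA h c0 g1 g2 E1 E2 Lam F G, psiB h c0 g1 g2, fun s t => c0 * g1 s * g2 t,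
    contDiff_psiA hh c0 c1 c2 ha1 hb2 hLam hF hG hGpos hsupp, contDiff_psiB hh c0 c1 c2,
    ?_, ?_, ?_, ?_, ?_, ?_, fun y => rfl, ?_, ?_⟩
  · intro x
    unfold psiA
    split_ifs
    · exact mul_nonneg (mul_nonneg (mul_nonneg hc0pos.le (n1 _)) (n2 _)) (Real.sqrt_nonneg _)
    · exact le_rfl
  · intro y
    exact mul_nonneg (mul_nonneg hc0pos.le (n1 _)) (n2 _)
  · apply hasCompactSupport_of_norm_sq_le (R := E2)
    intro x hx
    unfold psiA at hx
    split_ifs at hx with h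
    · exact h.2.le
    · exact absurd rfl hx
  · apply hasCompactSupport_of_norm_sq_le (R := F a)
    intro y hy
    rw [hBc] at hy
    exact (hB1 y (right_ne_zero_of_mul hy)).1.2.le
  · intro x hx
    unfold psiA at hx
    split_ifs at hx with hI
    · have h1 : g1 (F (‖x‖ ^ 2)) ≠ 0 := fun h0 => hx (by rw [h0]; ring)
      have h2 : g2 (Lam (‖x‖ ^ 2) ^ 2 * h x) ≠ 0 := fun h0 => hx (by rw [h0]; ring)
      exact ⟨hsupp' _ hI h1, ((s2 _).mp h2).2⟩
    · exact absurd rfl hx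
  · intro y hy
    rw [hBc] at hy
    obtain ⟨h1, h2⟩ := hB1 y (right_ne_zero_of_mul hy)
    exact ⟨h1, h2.2⟩
  · intro x hx
    unfold psiA
    exact if_pos hx
  · have : ∀ y, psiB h c0 g1 g2 y ^ 2 = c0 ^ 2 * f0 y := by
      intro y; rw [hBc, mul_pow]
    simp only [this]
    rw [integral_const_mul, hc0sq]
    field_simp

/-! ### The measures -/

/-- the measure with density `ψ²` -/
noncomputable def muOf (ψ : E → ℝ) : Measure E :=
  volume.withDensity fun x => ENNReal.ofReal (ψ x ^ 2)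

lemma measOfDensity_rho {ψA ψB : E → ℝ} (mA : Measurable ψA) :
    Crest.AnalysisR.OT.measOfDensity (fun x => ψA x ^ 2 + ψB x ^ 2) = muOf ψA + muOf ψB := by
  unfold Crest.AnalysisR.OT.measOfDensity muOf
  rw [← withDensity_add_left (mA.pow_const 2).ennreal_ofReal]
  congr 1
  funext x
  exact ENNReal.ofReal_add (sq_nonneg _) (sq_nonneg _)

lemma muOf_restrict {ψ : E → ℝ} {S : Set E} (hS : MeasurableSet S) (h : ∀ x, ψ x ≠ 0 → x ∈ S) :
    (muOf ψ).restrict S = muOf ψ := by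
  unfold muOf
  rw [restrict_withDensity hS, ← withDensity_indicator hS]
  congr 1
  funext x
  by_cases hx : x ∈ S
  · rw [indicator_of_mem hx]
  · rw [indicator_of_notMem hx]
    have : ψ x = 0 := by
      by_contra hne
      exact hx (h x hne)
    rw [this]; simp

lemma muOf_restrict_eq_zero {ψ : E → ℝ} {S : Set E} (hS : MeasurableSet S)
    (h : ∀ x, ψ x ≠ 0 → x ∉ S) : (muOf ψ).restrict S = 0 := by
  unfold muOf
  rw [restrict_withDensity hS, ← withDensity_indicator hS]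
  have : (S.indicator fun x => ENNReal.ofReal (ψ x ^ 2)) = 0 := by
    funext x
    by_cases hx : x ∈ S
    · rw [indicator_of_mem hx]
      have : ψ x = 0 := by
        by_contra hne
        exact h x hne hx
      rw [this]; simp
    · rw [indicator_of_notMem hx]; rfl
  rw [this, withDensity_zero]

lemma integrable_sq {ψ : E → ℝ} (hc : Continuous ψ) (hs : HasCompactSupport ψ) :
    Integrable fun x => ψ x ^ 2 :=
  (hc.pow 2).integrable_of_hasCompactSupport (hasCompactSupport_sq hs)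

lemma muOf_univ {ψ : E → ℝ} (hc : Continuous ψ) (hs : HasCompactSupport ψ) :
    muOf ψ univ = ENNReal.ofReal (∫ x, ψ x ^ 2) := by
  unfold muOf
  rw [withDensity_apply _ MeasurableSet.univ, Measure.restrict_univ,
    ofReal_integral_eq_lintegral_ofReal (integrable_sq hc hs)
      (Filter.Eventually.of_forall fun x => sq_nonneg _)]

lemma integral_rho {ψA ψB : E → ℝ} (cA : Continuous ψA) (sA : HasCompactSupport ψA)
    (cB : Continuous ψB) (sB : HasCompactSupport ψB) (hA : muOf ψA univ = 1 / 3)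
    (hB : ∫ y, ψB y ^ 2 = 2 / 3) : ∫ x, (ψA x ^ 2 + ψB x ^ 2) = 1 := by
  rw [integral_add (integrable_sq cA sA) (integrable_sq cB sB), hB]
  have h1 := muOf_univ cA sA
  rw [hA] at h1
  have h2 : (0 : ℝ) ≤ ∫ x, ψA x ^ 2 := integral_nonneg fun x => sq_nonneg _
  have h3 : (∫ x, ψA x ^ 2) = 1 / 3 := by
    have := congrArg ENNReal.toReal h1
    rw [ENNReal.toReal_ofReal h2] at this
    rw [← this]
    simp
  rw [h3]; norm_num

/-- Push-forward of `ψA² dx` under an injective differentiable map `Y` whose Jacobian matches the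
two profiles. -/
theorem map_muOf {ψA ψB : E → ℝ} {Y : E → E} {Y' : E → E →L[ℝ] E} {A B : Set E}
    (hA : MeasurableSet A) (hYm : Measurable Y)
    (hY : ∀ x ∈ A, HasFDerivWithinAt Y (Y' x) A x) (hinj : InjOn Y A) (himg : Y '' A = B)
    (hdens : ∀ x ∈ A, ψA x ^ 2 = ψB (Y x) ^ 2 * (|(Y' x).det| / 2))
    (suppA : ∀ x, ψA x ≠ 0 → x ∈ A) (suppB : ∀ y, ψB y ≠ 0 → y ∈ B) :
    (muOf ψA).map Y = (2⁻¹ : ENNReal) • muOf ψB := by
  have hB : MeasurableSet B := himg ▸ measurable_image_of_fderivWithin hA hY hinj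
  ext S hS
  rw [Measure.map_apply hYm hS, Measure.smul_apply, smul_eq_mul]
  unfold muOf
  rw [withDensity_apply _ (hYm hS), withDensity_apply _ hS]
  set f : E → ENNReal := S.indicator fun y => ENNReal.ofReal (ψB y ^ 2) * 2⁻¹ with hf
  have key := lintegral_image_eq_lintegral_abs_det_fderiv_mul volume hA hY hinj f
  rw [himg] at key
  have e1 : ∫⁻ x in Y ⁻¹' S, ENNReal.ofReal (ψA x ^ 2)
      = ∫⁻ x in A, ENNReal.ofReal |(Y' x).det| * f (Y x) := by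
    rw [← lintegral_indicator (hYm hS), ← lintegral_indicator hA]
    congr 1
    funext x
    by_cases hxA : x ∈ A
    · rw [indicator_of_mem hxA]
      by_cases hxS : Y x ∈ S
      · rw [indicator_of_mem (show x ∈ Y ⁻¹' S from hxS), hf, indicator_of_mem hxS, hdens x hxA,
          ENNReal.ofReal_mul (sq_nonneg _), ENNReal.ofReal_div_of_pos (by norm_num)]
        simp only [ENNReal.ofReal_ofNat, div_eq_mul_inv]
        ring
      · rw [indicator_of_notMem (show x ∉ Y ⁻¹' S from hxS), hf, indicator_of_notMem hxS, mul_zero]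
    · rw [indicator_of_notMem hxA]
      have h0 : ψA x = 0 := by
        by_contra hne
        exact hxA (suppA x hne)
      by_cases hxS : x ∈ Y ⁻¹' S
      · rw [indicator_of_mem hxS, h0]; simp
      · rw [indicator_of_notMem hxS]
  have e2 : ∫⁻ y in B, f y = 2⁻¹ * ∫⁻ y in S, ENNReal.ofReal (ψB y ^ 2) := by
    rw [← lintegral_indicator hB, ← lintegral_const_mul' _ _ (by simp), ← lintegral_indicator hS]
    congr 1
    funext y
    by_cases hyS : y ∈ S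
    · by_cases hyB : y ∈ B
      · rw [indicator_of_mem hyB, hf, indicator_of_mem hyS, indicator_of_mem hyS, mul_comm]
      · have h0 : ψB y = 0 := by
          by_contra hne
          exact hyB (suppB y hne)
        rw [indicator_of_notMem hyB, indicator_of_mem hyS, h0]; simp
    · by_cases hyB : y ∈ B
      · rw [indicator_of_mem hyB, hf, indicator_of_notMem hyS, indicator_of_notMem hyS]
      · rw [indicator_of_notMem hyB, indicator_of_notMem hyS]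
  rw [e1, ← key, e2]

end Crest.Agent.S0175.Dens
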