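import Crest.Agent.S0175_Defs
import Crest.Agent.S0175_Dens

/-!
Row 130 (S0175), package P5: `exists_density` (interface statement).
-/

set_option autoImplicit false
open MeasureTheory Set
open scoped ENNReal ContDiff

namespace Crest.Agent.S0175

namespace Dens

variable {n : ℕ}

lemma e0_zero : (e0 : E (n + 2)) 0 = 1 := by simp [e0]
lemma e0_one : (e0 : E (n + 2)) 1 = 0 := by simp [e0]
lemma e1_zero : (e1 : E (n + 2)) 0 = 0 := by simp [e1]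
lemma e1_one : (e1 : E (n + 2)) 1 = 1 := by simp [e1]

lemma inner_e0 (x : E (n + 2)) : inner ℝ x (e0 : E (n + 2)) = x 0 := by
  simp [e0, EuclideanSpace.inner_single_right]

lemma inner_e1 (x : E (n + 2)) : inner ℝ x (e1 : E (n + 2)) = x 1 := by
  simp [e1, EuclideanSpace.inner_single_right]

lemma inner_comb (a b : ℝ) (y : E (n + 2)) :
    inner ℝ y (a • (e0 : E (n + 2)) + b • e1) = a * y 0 + b * y 1 := by
  rw [inner_add_right, inner_smul_right, inner_smul_right, inner_e0, inner_e1]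

lemma Pp_zero (x : E (n + 2)) : Pp x 0 = x 0 := by
  simp [Pp, e0_zero, e1_zero]
lemma Pp_one (x : E (n + 2)) : Pp x 1 = x 1 := by
  simp [Pp, e0_one, e1_one]
lemma Jp_zero (x : E (n + 2)) : Jp x 0 = - x 1 := by
  simp [Jp, e0_zero, e1_zero]
lemma Jp_one (x : E (n + 2)) : Jp x 1 = x 0 := by
  simp [Jp, e0_one, e1_one]

lemma inner_Pp' (y x : E (n + 2)) : inner ℝ y (Pp x) = x 0 * y 0 + x 1 * y 1 := inner_comb _ _ _

lemma inner_Jp' (y x : E (n + 2)) : inner ℝ y (Jp x) = - x 1 * y 0 + x 0 * y 1 := inner_comb _ _ _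

lemma inner_Pp (x : E (n + 2)) : inner ℝ x (Pp x) = rsq x := by
  rw [inner_Pp', rsq]; ring

lemma inner_Jp (x : E (n + 2)) : inner ℝ x (Jp x) = 0 := by
  rw [inner_Jp']; ring

lemma norm_sq_Pp (x : E (n + 2)) : ‖Pp x‖ ^ 2 = rsq x := by
  rw [← real_inner_self_eq_norm_sq, inner_Pp', Pp_zero, Pp_one, rsq]; ring

lemma norm_sq_Jp (x : E (n + 2)) : ‖Jp x‖ ^ 2 = rsq x := by
  rw [← real_inner_self_eq_norm_sq, inner_Jp', Jp_zero, Jp_one, rsq]; ring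

lemma inner_Pp_Jp (x : E (n + 2)) : inner ℝ (Pp x) (Jp x) = 0 := by
  rw [inner_Jp', Pp_zero, Pp_one]; ring

lemma norm_sq_comb (x : E (n + 2)) (c a b : ℝ) :
    ‖c • x + a • Pp x + b • Jp x‖ ^ 2 = c ^ 2 * ‖x‖ ^ 2 + (a ^ 2 + b ^ 2 + 2 * a * c) * rsq x := by
  rw [← real_inner_self_eq_norm_sq]
  simp only [inner_add_left, inner_add_right, inner_smul_left, inner_smul_right,
    real_inner_self_eq_norm_sq, norm_sq_Pp, norm_sq_Jp, inner_Pp, inner_Jp, inner_Pp_Jp,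
    real_inner_comm x (Pp x), real_inner_comm x (Jp x), real_inner_comm (Pp x) (Jp x)]
  simp
  ring

lemma rsq_comb (x : E (n + 2)) (c a b : ℝ) :
    rsq (c • x + a • Pp x + b • Jp x) = ((c + a) ^ 2 + b ^ 2) * rsq x := by
  unfold rsq
  simp only [PiLp.add_apply, PiLp.smul_apply, smul_eq_mul, Pp_zero, Pp_one, Jp_zero, Jp_one]
  ring

lemma norm_sq_Rot (θ : ℝ) (x : E (n + 2)) : ‖Rot θ x‖ ^ 2 = ‖x‖ ^ 2 := by
  have : Rot θ x = (1 : ℝ) • x + (Real.cos θ - 1) • Pp x + Real.sin θ • Jp x := by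
    rw [one_smul]; rfl
  rw [this, norm_sq_comb]
  have := Real.sin_sq_add_cos_sq θ
  have h2 : (Real.cos θ - 1) ^ 2 + Real.sin θ ^ 2 + 2 * (Real.cos θ - 1) * 1 = 0 := by nlinarith
  rw [h2]; ring

lemma rsq_Rot (θ : ℝ) (x : E (n + 2)) : rsq (Rot θ x) = rsq x := by
  have : Rot θ x = (1 : ℝ) • x + (Real.cos θ - 1) • Pp x + Real.sin θ • Jp x := by
    rw [one_smul]; rfl
  rw [this, rsq_comb]
  have := Real.sin_sq_add_cos_sq θ
  have h2 : (1 + (Real.cos θ - 1)) ^ 2 + Real.sin θ ^ 2 = 1 := by nlinarith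
  rw [h2, one_mul]

lemma hh_Rot (θ : ℝ) (x : E (n + 2)) : hh (Rot θ x) = hh x := by
  unfold hh
  rw [norm_sq_Rot, rsq_Rot]

lemma Ymap_eq (Lam W : ℝ → ℝ) (x : E (n + 2)) :
    Ymap Lam W x = (-Lam (‖x‖ ^ 2)) • x + (0 : ℝ) • Pp x
      + (W (‖x‖ ^ 2) / Real.sqrt (rsq x)) • Jp x := by
  rw [zero_smul, add_zero]; rfl

lemma norm_sq_Ymap (Lam W : ℝ → ℝ) {x : E (n + 2)} (hx : 0 < rsq x) :
    ‖Ymap Lam W x‖ ^ 2 = Lam (‖x‖ ^ 2) ^ 2 * ‖x‖ ^ 2 + W (‖x‖ ^ 2) ^ 2 := by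
  rw [Ymap_eq, norm_sq_comb]
  have h1 : Real.sqrt (rsq x) ^ 2 = rsq x := Real.sq_sqrt hx.le
  have h2 : 0 < Real.sqrt (rsq x) := Real.sqrt_pos.mpr hx
  have h3 : (W (‖x‖ ^ 2) / Real.sqrt (rsq x)) ^ 2 * rsq x = W (‖x‖ ^ 2) ^ 2 := by
    rw [div_pow, h1]; field_simp
  nlinarith

lemma rsq_Ymap (Lam W : ℝ → ℝ) {x : E (n + 2)} (hx : 0 < rsq x) :
    rsq (Ymap Lam W x) = Lam (‖x‖ ^ 2) ^ 2 * rsq x + W (‖x‖ ^ 2) ^ 2 := by
  rw [Ymap_eq, rsq_comb]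
  have h1 : Real.sqrt (rsq x) ^ 2 = rsq x := Real.sq_sqrt hx.le
  have h3 : (W (‖x‖ ^ 2) / Real.sqrt (rsq x)) ^ 2 * rsq x = W (‖x‖ ^ 2) ^ 2 := by
    rw [div_pow, h1]; field_simp
  nlinarith

lemma hh_Ymap (Lam W : ℝ → ℝ) {x : E (n + 2)} (hx : 0 < rsq x) :
    hh (Ymap Lam W x) = Lam (‖x‖ ^ 2) ^ 2 * hh x := by
  unfold hh
  rw [norm_sq_Ymap Lam W hx, rsq_Ymap Lam W hx]; ring

lemma contDiff_hh : ContDiff ℝ ∞ (hh : E (n + 2) → ℝ) := by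
  unfold hh rsq
  have h0 : ContDiff ℝ ∞ fun x : E (n + 2) => x 0 := by
    have : (fun x : E (n + 2) => x 0) = fun x => inner ℝ x (e0 : E (n + 2)) := by
      funext x; rw [inner_e0]
    rw [this]; exact contDiff_id.inner ℝ contDiff_const
  have h1 : ContDiff ℝ ∞ fun x : E (n + 2) => x 1 := by
    have : (fun x : E (n + 2) => x 1) = fun x => inner ℝ x (e1 : E (n + 2)) := by
      funext x; rw [inner_e1]
    rw [this]; exact contDiff_id.inner ℝ contDiff_const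
  exact (contDiff_norm_sq ℝ).sub ((h0.pow 2).add (h1.pow 2))

lemma exists_point (c : ℝ) (hc : 0 < c) : ∃ y : E (n + 2), ‖y‖ ^ 2 = c ∧ hh y = 0 := by
  refine ⟨Real.sqrt c • e0, ?_, ?_⟩
  · rw [norm_smul, e0, PiLp.norm_single]
    simp [Real.sq_sqrt hc.le]
  · unfold hh rsq
    rw [norm_smul, e0, PiLp.norm_single]
    simp [Real.sq_sqrt hc.le]

section params

variable {s : ℝ} (p : Params s)

lemma Ea_mem : p.Ea ∈ Ioo p.E1 p.E2 := by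
  have := p.E1_lt_E2
  constructor <;> unfold Params.Ea <;> linarith

lemma Eb_mem : p.Eb ∈ Ioo p.E1 p.E2 := by
  have := p.E1_lt_E2
  constructor <;> unfold Params.Eb <;> linarith

lemma Ea_lt_Eb : p.Ea < p.Eb := by
  have := p.E1_lt_E2
  unfold Params.Ea Params.Eb; linarith

lemma Lam_pos {t : ℝ} (ht : t ∈ Ioo p.E1 p.E2) : 0 < p.Lam t := by
  have h1 : 0 < p.T1 t := lt_of_lt_of_le (pow_pos p.ell_pos 2) (p.T1_ge t ht)
  have h2 : 0 < p.T2 t := lt_of_lt_of_le (pow_pos p.ell_pos 2) (p.T2_ge t ht)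
  have hL := p.Lam_eq t ht
  have hne : p.Lam t ≠ 0 := by
    intro h0
    have := p.eta2_le t ht
    rw [h0] at this
    have h3 := p.eta2_pos
    nlinarith
  have a1 : 0 < p.T1 t ^ (-(s / 2) - 1) := Real.rpow_pos_of_pos h1 _
  have a2 : 0 < p.T2 t ^ (-(s / 2) - 1) := Real.rpow_pos_of_pos h2 _
  by_cases hs : s = 0
  · exfalso
    apply hne
    have hg : gam s (p.T1 t) = 0 := by
      unfold gam
      have : s / 2 = 0 := by rw [hs]; norm_num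
      rw [this, zero_mul]
    rw [hL, hg, zero_div]
  · have : p.Lam t = p.T1 t ^ (-(s / 2) - 1) / (2 * p.T2 t ^ (-(s / 2) - 1)) := by
      rw [hL, gam, gam]
      field_simp
    rw [this]; positivity

lemma F_eq : p.F = fun t => p.Lam t ^ 2 * t + p.W t ^ 2 := rfl

lemma smooth_F : ContDiffOn ℝ ∞ p.F (Ioo p.E1 p.E2) := by
  rw [F_eq]
  exact ((p.smooth_Lam.pow 2).mul contDiffOn_id).add (p.smooth_W.pow 2)

lemma smooth_deriv_F : ContDiffOn ℝ ∞ (deriv p.F) (Ioo p.E1 p.E2) :=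
  (smooth_F p).deriv_of_isOpen isOpen_Ioo (by simp)

lemma strictAntiOn_F : StrictAntiOn p.F (Ioo p.E1 p.E2) := by
  apply strictAntiOn_of_deriv_neg (convex_Ioo _ _) (smooth_F p).continuousOn
  rw [interior_Ioo]
  exact p.deriv_F_neg

lemma rsq_pos {n : ℕ} {x : E (n + 2)} (hx : x ∈ p.regA n) : 0 < rsq x := by
  obtain ⟨h1, h2⟩ := hx
  have hI : ‖x‖ ^ 2 ∈ Ioo p.E1 p.E2 :=
    ⟨(Ea_mem p).1.trans h1.1, h1.2.trans (Eb_mem p).2⟩
  have h3 := p.eta2_le _ hI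
  have h4 : 0 < p.Lam (‖x‖ ^ 2) ^ 2 := pow_pos (Lam_pos p hI) 2
  have h5 : hh x < ‖x‖ ^ 2 := lt_of_mul_lt_mul_left (h2.trans_le h3) h4.le
  unfold hh at h5
  linarith

end params

end Dens

open Dens in
/-- **P5** (interface statement). -/
theorem exists_density {s : ℝ} (p : Params s) (n : ℕ) :
    ∃ ψA ψB : E (n + 2) → ℝ,
      ContDiff ℝ ∞ ψA ∧ ContDiff ℝ ∞ ψB ∧ HasCompactSupport ψA ∧ HasCompactSupport ψB ∧
      (∀ x, 0 ≤ ψA x) ∧ (∀ x, 0 ≤ ψB x) ∧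
      (∀ x, ψA x ≠ 0 → x ∈ p.regA n) ∧ (∀ x, ψB x ≠ 0 → x ∈ p.regB n) ∧
      (∀ θ x, ψB (Rot θ x) = ψB x) ∧
      (∀ ε : ℝ, ε = 1 ∨ ε = -1 → ∀ x ∈ p.regA n,
        2 * ψA x ^ 2 = p.Jac n (‖x‖ ^ 2) * ψB (p.Yeps n ε x) ^ 2) ∧
      ∫ x, ψB x ^ 2 = 2 / 3 := by
  have hG : ContDiffOn ℝ ∞ (fun t => p.Jac n t / 2) (Ioo p.E1 p.E2) := by
    unfold Params.Jac
    exact ((p.smooth_Lam.pow n).mul (smooth_deriv_F p).neg).div_const 2
  have hGpos : ∀ t ∈ Ioo p.E1 p.E2, 0 < p.Jac n t / 2 := by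
    intro t ht
    unfold Params.Jac
    have h1 := pow_pos (Lam_pos p ht) n
    have h2 : deriv p.F t < 0 := p.deriv_F_neg t ht
    have : 0 < p.Lam t ^ n * (-deriv p.F t) := mul_pos h1 (by linarith)
    linarith
  have hFb : 0 ≤ p.F p.Eb := by
    have h1 : p.E2 < p.F p.Eb := p.E2_lt_F _ (Eb_mem p)
    have h2 := p.E1_pos
    have h3 := p.E1_lt_E2
    linarith
  obtain ⟨ψA, ψB, q, cA, cB, nA, nB, sA, sB, suppA, suppB, hqB, hqA, hint⟩ :=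
    Dens.exists_profiles (h := (hh : E (n + 2) → ℝ)) contDiff_hh exists_point
      (Ea_mem p).1 (Ea_lt_Eb p) (Eb_mem p).2 p.eta2_pos p.smooth_Lam (smooth_F p) hG hGpos
      (strictAntiOn_F p) hFb
  refine ⟨ψA, ψB, cA, cB, sA, sB, nA, nB, suppA, suppB, ?_, ?_, hint⟩
  · intro θ x
    rw [hqB, hqB, norm_sq_Rot, hh_Rot]
  · intro ε hε x hx
    have hI : ‖x‖ ^ 2 ∈ Ioo p.E1 p.E2 :=
      ⟨(Ea_mem p).1.trans hx.1.1, hx.1.2.trans (Eb_mem p).2⟩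
    have hr := rsq_pos p hx
    have hε2 : ε ^ 2 = 1 := by rcases hε with h | h <;> rw [h] <;> norm_num
    have e1 : ‖p.Yeps n ε x‖ ^ 2 = p.F (‖x‖ ^ 2) := by
      unfold Params.Yeps
      rw [norm_sq_Ymap _ _ hr, mul_pow, hε2, one_mul]; rfl
    have e2 : hh (p.Yeps n ε x) = p.Lam (‖x‖ ^ 2) ^ 2 * hh x := by
      unfold Params.Yeps
      rw [hh_Ymap _ _ hr]
    rw [hqA x hI, hqB, e1, e2, mul_pow, Real.sq_sqrt (hGpos _ hI).le]
    ring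

end Crest.Agent.S0175
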