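import Crest.Agent.S0175_Jac
import Crest.Agent.S0175_Geom

/-! Package P4 of row 130 (S0175): the change of variables statement, verbatim interface form. -/

set_option autoImplicit false

namespace Crest.Agent.S0175

open MeasureTheory
open scoped ENNReal ContDiff

variable {s : ℝ} (p : Params s) (n : ℕ)

/-- change of variables -/
theorem lintegral_regB {ε : ℝ} (hε : ε = 1 ∨ ε = -1) (g : E (n + 2) → ℝ≥0∞) :
    ∫⁻ y in p.regB n, g y
      = ∫⁻ x in p.regA n, ENNReal.ofReal (p.Jac n (‖x‖ ^ 2)) * g (p.Yeps n ε x) :=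
  Jac.lintegral_regB_of p n hε (isOpen_regA p n).measurableSet (injOn_Yeps p n hε)
    (image_Yeps p n hε) g

end Crest.Agent.S0175
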