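import Crest.Agent.S0175_Defs

/-!
# S0175, package P9a: measure facts for `ρ = ψA² + ψB²`
All inputs from other packages are hypotheses (structure `Dens` and explicit arguments).
-/

set_option autoImplicit false
set_option linter.unusedVariables false
set_option linter.unusedSectionVars false

namespace Crest.Agent.S0175.Meas

open MeasureTheory Set
open scoped ENNReal ContDiff
open Crest.AnalysisR.OT
open Crest.Agent.S0175

variable {s : ℝ} (p : Params s) (n : ℕ)

/-- the output of `exists_density` -/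
structure Dens (ψA ψB : E (n + 2) → ℝ) : Prop where
  smoothA : ContDiff ℝ ∞ ψA
  smoothB : ContDiff ℝ ∞ ψB
  cptA : HasCompactSupport ψA
  cptB : HasCompactSupport ψB
  nonnegA : ∀ x, 0 ≤ ψA x
  nonnegB : ∀ x, 0 ≤ ψB x
  suppA : ∀ x, ψA x ≠ 0 → x ∈ p.regA n
  suppB : ∀ x, ψB x ≠ 0 → x ∈ p.regB n
  rotB : ∀ θ x, ψB (Rot θ x) = ψB x
  jac : ∀ ε : ℝ, ε = 1 ∨ ε = -1 → ∀ x ∈ p.regA n,
        2 * ψA x ^ 2 = p.Jac n (‖x‖ ^ 2) * ψB (p.Yeps n ε x) ^ 2
  intB : ∫ x, ψB x ^ 2 = 2 / 3

/-- the density -/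
def rho (ψA ψB : E (n + 2) → ℝ) (x : E (n + 2)) : ℝ := ψA x ^ 2 + ψB x ^ 2

variable {p n} {ψA ψB : E (n + 2) → ℝ}

theorem rho_nonneg (x : E (n + 2)) : 0 ≤ rho n ψA ψB x := by
  unfold rho; positivity

theorem Dens.contDiff_rho (h : Dens p n ψA ψB) : ContDiff ℝ ∞ (rho n ψA ψB) := by
  unfold rho
  exact (h.smoothA.pow 2).add (h.smoothB.pow 2)

theorem Dens.hasCompactSupport_rho (h : Dens p n ψA ψB) : HasCompactSupport (rho n ψA ψB) := by
  unfold rho
  exact (h.cptA.comp_left (g := fun t : ℝ => t ^ 2) (by simp)).add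
    (h.cptB.comp_left (g := fun t : ℝ => t ^ 2) (by simp))

theorem Dens.psiB_eq_zero (h : Dens p n ψA ψB) (hdisj : Disjoint (p.regA n) (p.regB n))
    {x : E (n + 2)} (hx : x ∈ p.regA n) : ψB x = 0 := by
  by_contra hne
  exact Set.disjoint_left.mp hdisj hx (h.suppB x hne)

theorem Dens.psiA_eq_zero (h : Dens p n ψA ψB) (hdisj : Disjoint (p.regA n) (p.regB n))
    {x : E (n + 2)} (hx : x ∈ p.regB n) : ψA x = 0 := by
  by_contra hne
  exact Set.disjoint_left.mp hdisj (h.suppA x hne) hx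

theorem Dens.sqrt_rho (h : Dens p n ψA ψB) (hdisj : Disjoint (p.regA n) (p.regB n)) :
    (fun x => Real.sqrt (rho n ψA ψB x)) = fun x => ψA x + ψB x := by
  funext x
  unfold rho
  by_cases hA : ψA x = 0
  · rw [hA]
    simp [Real.sqrt_sq (h.nonnegB x)]
  · have hB : ψB x = 0 := h.psiB_eq_zero hdisj (h.suppA x hA)
    rw [hB]
    simp [Real.sqrt_sq (h.nonnegA x)]

theorem Dens.contDiff_sqrt_rho (h : Dens p n ψA ψB) (hdisj : Disjoint (p.regA n) (p.regB n)) :
    ContDiff ℝ ∞ (fun x => Real.sqrt (rho n ψA ψB x)) := by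
  rw [h.sqrt_rho hdisj]
  exact h.smoothA.add h.smoothB

/-! ### the measures -/

/-- `ψ² dx` -/
noncomputable def nu (ψ : E (n + 2) → ℝ) : Measure (E (n + 2)) :=
  volume.withDensity fun x => ENNReal.ofReal (ψ x ^ 2)

theorem measurable_dens {ψ : E (n + 2) → ℝ} (hψ : Continuous ψ) :
    Measurable fun x => ENNReal.ofReal (ψ x ^ 2) :=
  (hψ.pow 2).measurable.ennreal_ofReal

theorem Dens.mu_eq (h : Dens p n ψA ψB) : measOfDensity (rho n ψA ψB) = nu ψA + nu ψB := by
  unfold measOfDensity nu rho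
  rw [← withDensity_add_left (measurable_dens h.smoothA.continuous)]
  congr 1
  funext x
  exact ENNReal.ofReal_add (by positivity) (by positivity)

theorem nu_restrict_of_supp {ψ : E (n + 2) → ℝ} {S : Set (E (n + 2))} (hS : MeasurableSet S)
    (hsupp : ∀ x, ψ x ≠ 0 → x ∈ S) : (nu ψ).restrict S = nu ψ := by
  unfold nu
  rw [restrict_withDensity hS, ← withDensity_indicator hS]
  congr 1
  funext x
  by_cases hx : x ∈ S
  · rw [Set.indicator_of_mem hx]
  · rw [Set.indicator_of_notMem hx]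
    have : ψ x = 0 := by
      by_contra hne
      exact hx (hsupp x hne)
    simp [this]

theorem nu_restrict_of_zero {ψ : E (n + 2) → ℝ} {S : Set (E (n + 2))} (hS : MeasurableSet S)
    (hzero : ∀ x ∈ S, ψ x = 0) : (nu ψ).restrict S = 0 := by
  unfold nu
  rw [restrict_withDensity hS, ← withDensity_indicator hS]
  have : (S.indicator fun x => ENNReal.ofReal (ψ x ^ 2)) = 0 := by
    funext x
    by_cases hx : x ∈ S
    · rw [Set.indicator_of_mem hx]
      simp [hzero x hx]
    · rw [Set.indicator_of_notMem hx]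
      rfl
  rw [this, withDensity_zero]

theorem Dens.restrict_A (h : Dens p n ψA ψB) (hdisj : Disjoint (p.regA n) (p.regB n))
    (hmA : MeasurableSet (p.regA n)) :
    (measOfDensity (rho n ψA ψB)).restrict (p.regA n) = nu ψA := by
  rw [h.mu_eq, Measure.restrict_add, nu_restrict_of_supp hmA h.suppA,
    nu_restrict_of_zero hmA (fun x hx => h.psiB_eq_zero hdisj hx), add_zero]

theorem Dens.restrict_B (h : Dens p n ψA ψB) (hdisj : Disjoint (p.regA n) (p.regB n))
    (hmB : MeasurableSet (p.regB n)) :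
    (measOfDensity (rho n ψA ψB)).restrict (p.regB n) = nu ψB := by
  rw [h.mu_eq, Measure.restrict_add, nu_restrict_of_supp hmB h.suppB,
    nu_restrict_of_zero hmB (fun x hx => h.psiA_eq_zero hdisj hx), zero_add]

theorem Dens.mu_compl (h : Dens p n ψA ψB) (hmA : MeasurableSet (p.regA n))
    (hmB : MeasurableSet (p.regB n)) :
    measOfDensity (rho n ψA ψB) (p.regA n ∪ p.regB n)ᶜ = 0 := by
  have hm : MeasurableSet (p.regA n ∪ p.regB n)ᶜ := (hmA.union hmB).compl
  rw [← Measure.restrict_apply_univ, h.mu_eq, Measure.restrict_add,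
    nu_restrict_of_zero hm, nu_restrict_of_zero hm]
  · simp
  · intro x hx
    by_contra hne
    exact hx (Or.inr (h.suppB x hne))
  · intro x hx
    by_contra hne
    exact hx (Or.inl (h.suppA x hne))

theorem lintegral_nu {ψ : E (n + 2) → ℝ} (hψ : Continuous ψ) {S : Set (E (n + 2))}
    (hS : MeasurableSet S) (hsupp : ∀ x, ψ x ≠ 0 → x ∈ S) {f : E (n + 2) → ℝ≥0∞}
    (hf : Measurable f) :
    ∫⁻ x, f x ∂(nu ψ) = ∫⁻ x in S, ENNReal.ofReal (ψ x ^ 2) * f x := by
  rw [← nu_restrict_of_supp hS hsupp]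
  unfold nu
  rw [restrict_withDensity hS, lintegral_withDensity_eq_lintegral_mul _ (measurable_dens hψ) hf]
  rfl

/-- push-forward of `ψA² dx` under (a measurable version of) `Y_ε`. -/
theorem Dens.push (h : Dens p n ψA ψB) (hmA : MeasurableSet (p.regA n))
    (hmB : MeasurableSet (p.regB n)) {ε : ℝ} (hε : ε = 1 ∨ ε = -1)
    (hlint : ∀ g : E (n + 2) → ℝ≥0∞, ∫⁻ y in p.regB n, g y
      = ∫⁻ x in p.regA n, ENNReal.ofReal (p.Jac n (‖x‖ ^ 2)) * g (p.Yeps n ε x))
    {yM : E (n + 2) → E (n + 2)} (hyM : Measurable yM)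
    (hyMeq : ∀ x ∈ p.regA n, yM x = p.Yeps n ε x) :
    (nu ψA).map yM = (2 : ℝ≥0∞)⁻¹ • nu ψB := by
  apply Measure.ext_of_lintegral
  intro f hf
  have hfy : Measurable fun x => f (yM x) := hf.comp hyM
  rw [lintegral_map hf hyM, lintegral_smul_measure,
    lintegral_nu h.smoothA.continuous hmA h.suppA hfy,
    lintegral_nu h.smoothB.continuous hmB h.suppB hf, hlint, smul_eq_mul,
    ← lintegral_const_mul' _ _ (by simp)]
  apply setLIntegral_congr_fun hmA
  intro x hx
  simp only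
  have h2 : (2 : ℝ≥0∞)⁻¹ * ENNReal.ofReal 2 = 1 := by
    rw [show ENNReal.ofReal 2 = 2 by simp]
    exact ENNReal.inv_mul_cancel (by simp) (by simp)
  have h3 : ENNReal.ofReal (p.Jac n (‖x‖ ^ 2)) * ENNReal.ofReal (ψB (p.Yeps n ε x) ^ 2)
      = ENNReal.ofReal 2 * ENNReal.ofReal (ψA x ^ 2) := by
    rw [← ENNReal.ofReal_mul' (by positivity), ← h.jac ε hε x hx,
      ENNReal.ofReal_mul (by norm_num)]
  rw [hyMeq x hx, ← mul_assoc, ← mul_assoc, mul_assoc (2 : ℝ≥0∞)⁻¹, h3, ← mul_assoc, h2, one_mul]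

theorem integrable_sq {ψ : E (n + 2) → ℝ} (hψ : Continuous ψ) (hc : HasCompactSupport ψ) :
    Integrable (fun x => ψ x ^ 2) volume := by
  have h1 : Continuous fun x => ψ x ^ 2 := hψ.pow 2
  have h2 : HasCompactSupport fun x => ψ x ^ 2 :=
    hc.comp_left (g := fun t : ℝ => t ^ 2) (by simp)
  exact h1.integrable_of_hasCompactSupport h2

theorem nu_univ {ψ : E (n + 2) → ℝ} (hψ : Continuous ψ) (hc : HasCompactSupport ψ) :
    nu ψ Set.univ = ENNReal.ofReal (∫ x, ψ x ^ 2) := by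
  unfold nu
  rw [withDensity_apply _ MeasurableSet.univ, Measure.restrict_univ,
    ofReal_integral_eq_lintegral_ofReal (integrable_sq hψ hc)
      (Filter.Eventually.of_forall fun x => by positivity)]

theorem Dens.massB (h : Dens p n ψA ψB) : nu ψB Set.univ = ENNReal.ofReal (2 / 3) := by
  rw [nu_univ h.smoothB.continuous h.cptB, h.intB]

theorem Dens.massA (h : Dens p n ψA ψB) {yM : E (n + 2) → E (n + 2)} (hyM : Measurable yM)
    (hpush : (nu ψA).map yM = (2 : ℝ≥0∞)⁻¹ • nu ψB) :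
    nu ψA Set.univ = ENNReal.ofReal (1 / 3) := by
  have h1 : (nu ψA).map yM Set.univ = nu ψA Set.univ := by
    rw [Measure.map_apply hyM MeasurableSet.univ, Set.preimage_univ]
  rw [← h1, hpush, Measure.smul_apply, h.massB, smul_eq_mul,
    show (2 : ℝ≥0∞)⁻¹ = ENNReal.ofReal (1 / 2) by
      rw [one_div, ENNReal.ofReal_inv_of_pos (by norm_num)]; simp,
    ← ENNReal.ofReal_mul (by norm_num)]
  norm_num

theorem Dens.intA (h : Dens p n ψA ψB) {yM : E (n + 2) → E (n + 2)} (hyM : Measurable yM)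
    (hpush : (nu ψA).map yM = (2 : ℝ≥0∞)⁻¹ • nu ψB) : ∫ x, ψA x ^ 2 = 1 / 3 := by
  have h1 := h.massA hyM hpush
  rw [nu_univ h.smoothA.continuous h.cptA] at h1
  exact (ENNReal.ofReal_eq_ofReal_iff (integral_nonneg fun x => by positivity)
    (by norm_num)).mp h1

theorem Dens.integral_rho (h : Dens p n ψA ψB) {yM : E (n + 2) → E (n + 2)} (hyM : Measurable yM)
    (hpush : (nu ψA).map yM = (2 : ℝ≥0∞)⁻¹ • nu ψB) : ∫ x, rho n ψA ψB x = 1 := by
  unfold rho
  rw [integral_add (integrable_sq h.smoothA.continuous h.cptA)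
    (integrable_sq h.smoothB.continuous h.cptB), h.intA hyM hpush, h.intB]
  norm_num

theorem Dens.isFiniteMeasure (h : Dens p n ψA ψB) :
    IsFiniteMeasure (measOfDensity (rho n ψA ψB)) := by
  constructor
  rw [h.mu_eq, Measure.add_apply, nu_univ h.smoothA.continuous h.cptA,
    nu_univ h.smoothB.continuous h.cptB]
  exact ENNReal.add_lt_top.mpr ⟨ENNReal.ofReal_lt_top, ENNReal.ofReal_lt_top⟩

theorem Dens.mu_A_ne_zero (h : Dens p n ψA ψB) (hdisj : Disjoint (p.regA n) (p.regB n))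
    (hmA : MeasurableSet (p.regA n)) {yM : E (n + 2) → E (n + 2)} (hyM : Measurable yM)
    (hpush : (nu ψA).map yM = (2 : ℝ≥0∞)⁻¹ • nu ψB) :
    measOfDensity (rho n ψA ψB) (p.regA n) ≠ 0 := by
  rw [← Measure.restrict_apply_univ, h.restrict_A hdisj hmA, h.massA hyM hpush]
  simp

/-- rotation invariance of `ψB² dx` -/
theorem Dens.map_Rot (h : Dens p n ψA ψB)
    (hvol : ∀ θ, (volume : Measure (E (n + 2))).map (Rot θ) = volume)
    (hmeas : ∀ θ, Measurable (Rot θ : E (n + 2) → E (n + 2))) (θ : ℝ) :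
    (nu ψB).map (Rot θ) = nu ψB := by
  apply Measure.ext_of_lintegral
  intro f hf
  have hfR : Measurable fun x => f (Rot θ x) := hf.comp (hmeas θ)
  have hd := measurable_dens h.smoothB.continuous
  rw [lintegral_map hf (hmeas θ)]
  unfold nu
  rw [lintegral_withDensity_eq_lintegral_mul _ hd hfR, lintegral_withDensity_eq_lintegral_mul _ hd hf]
  conv_rhs => rw [← hvol θ]
  rw [lintegral_map (hd.mul hf) (hmeas θ)]
  apply lintegral_congr
  intro x
  simp only [Pi.mul_apply, h.rotB θ x]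

theorem Dens.nu_rsq_zero (h : Dens p n ψA ψB) (hmB : MeasurableSet (p.regB n))
    (hpos : ∀ x ∈ p.regB n, 0 < rsq x) : nu ψB {x : E (n + 2) | rsq x = 0} = 0 := by
  rw [← nu_restrict_of_supp hmB h.suppB]
  apply le_antisymm _ zero_le
  calc (nu ψB).restrict (p.regB n) {x : E (n + 2) | rsq x = 0}
      ≤ (nu ψB).restrict (p.regB n) (p.regB n)ᶜ := by
        apply measure_mono
        intro x hx hxB
        exact (hpos x hxB).ne' hx
    _ = 0 := by
        rw [Measure.restrict_apply hmB.compl, Set.compl_inter_self, measure_empty]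

/-- measurable version of `Y_ε` -/
noncomputable def yM (p : Params s) (n : ℕ) (ε : ℝ) : E (n + 2) → E (n + 2) := by
  classical
  exact (p.regA n).piecewise (p.Yeps n ε) (fun _ => 0)

theorem yM_eq {ε : ℝ} {x : E (n + 2)} (hx : x ∈ p.regA n) : yM p n ε x = p.Yeps n ε x := by
  classical
  unfold yM
  exact Set.piecewise_eq_of_mem _ _ _ hx

theorem measurable_yM {ε : ℝ} (hmA : MeasurableSet (p.regA n))
    (hcont : ContinuousOn (p.Yeps n ε) (p.regA n)) : Measurable (yM p n ε) := by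
  classical
  unfold yM
  exact hcont.measurable_piecewise continuousOn_const hmA

end Crest.Agent.S0175.Meas
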