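import Mathlib
import Crest.Prelude.Def_MultiMarginal

/-!
# S0175 (row 130): shared definitions

Notation of the board post (topic ROW130).  Everything lives in `Crest.Agent.S0175`.
-/

set_option autoImplicit false
open MeasureTheory
open scoped ENNReal ContDiff

namespace Crest.Agent.S0175

/-- The ambient space. We always write the dimension as `n + 2`. -/
abbrev E (d : ℕ) := EuclideanSpace ℝ (Fin d)

/-- `φ(t) = t^(-s/2)`, so that `‖x-y‖^(-s) = φ(‖x-y‖²)`. -/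
noncomputable def phi (s t : ℝ) : ℝ := t ^ (-(s / 2))

/-- `γ(t) = -φ'(t) = (s/2) t^(-s/2-1)`. -/
noncomputable def gam (s t : ℝ) : ℝ := (s / 2) * t ^ (-(s / 2) - 1)

section geometry
variable {n : ℕ}

noncomputable def e0 : E (n + 2) := EuclideanSpace.single 0 1
noncomputable def e1 : E (n + 2) := EuclideanSpace.single 1 1

/-- orthogonal projection on the plane spanned by the first two coordinates -/
noncomputable def Pp (x : E (n + 2)) : E (n + 2) := x 0 • e0 + x 1 • e1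

/-- rotation by a right angle in that plane (zero on the orthogonal complement) -/
noncomputable def Jp (x : E (n + 2)) : E (n + 2) := (-x 1) • e0 + x 0 • e1

/-- `r(x)² = |P x|²` -/
noncomputable def rsq (x : E (n + 2)) : ℝ := x 0 ^ 2 + x 1 ^ 2

/-- `h(x) = |x - P x|²` -/
noncomputable def hh (x : E (n + 2)) : ℝ := ‖x‖ ^ 2 - rsq x

/-- rotation by the angle `θ` in the plane of the first two coordinates -/
noncomputable def Rot (θ : ℝ) (x : E (n + 2)) : E (n + 2) :=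
  x + (Real.cos θ - 1) • Pp x + Real.sin θ • Jp x

/-- `Y(x) = -Λ(|x|²) x + W(|x|²) J x / r(x)` -/
noncomputable def Ymap (Lam W : ℝ → ℝ) (x : E (n + 2)) : E (n + 2) :=
  (-Lam (‖x‖ ^ 2)) • x + (W (‖x‖ ^ 2) / Real.sqrt (rsq x)) • Jp x

end geometry

/-- The one-parameter family of isosceles contact triangles, parametrised by `E = |apex|²`. -/
structure Params (s : ℝ) where
  E1 : ℝ
  E2 : ℝ
  kap : ℝ
  Kmax : ℝ
  eta2 : ℝ
  ell : ℝ
  Lam : ℝ → ℝ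
  W : ℝ → ℝ
  T1 : ℝ → ℝ
  T2 : ℝ → ℝ
  E1_pos : 0 < E1
  E1_lt_E2 : E1 < E2
  kap_pos : 0 < kap
  eta2_pos : 0 < eta2
  ell_pos : 0 < ell
  smooth_Lam : ContDiffOn ℝ ∞ Lam (Set.Ioo E1 E2)
  smooth_W : ContDiffOn ℝ ∞ W (Set.Ioo E1 E2)
  smooth_T1 : ContDiffOn ℝ ∞ T1 (Set.Ioo E1 E2)
  smooth_T2 : ContDiffOn ℝ ∞ T2 (Set.Ioo E1 E2)
  T1_ge : ∀ E ∈ Set.Ioo E1 E2, ell ^ 2 ≤ T1 E
  T2_ge : ∀ E ∈ Set.Ioo E1 E2, ell ^ 2 ≤ T2 E
  W_pos : ∀ E ∈ Set.Ioo E1 E2, 0 < W E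
  kap_eq : ∀ E ∈ Set.Ioo E1 E2, gam s (T1 E) + 2 * gam s (T2 E) = kap
  Lam_eq : ∀ E ∈ Set.Ioo E1 E2, Lam E = gam s (T1 E) / (2 * gam s (T2 E))
  W_sq : ∀ E ∈ Set.Ioo E1 E2, W E ^ 2 = T2 E / 4
  apex_eq : ∀ E ∈ Set.Ioo E1 E2, E * (1 + Lam E) ^ 2 = T1 E - T2 E / 4
  deriv_F_neg : ∀ E ∈ Set.Ioo E1 E2, deriv (fun E => Lam E ^ 2 * E + W E ^ 2) E < 0
  eta2_le : ∀ E ∈ Set.Ioo E1 E2, eta2 ≤ Lam E ^ 2 * E
  E2_lt_F : ∀ E ∈ Set.Ioo E1 E2, E2 < Lam E ^ 2 * E + W E ^ 2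
  K_le : ∀ E ∈ Set.Ioo E1 E2, (s / 2 + 1) * (2 * phi s (T1 E) + phi s (T2 E)) ≤ Kmax
  Kmax_lt : 3 * Kmax < phi s (4 * E2)

namespace Params
variable {s : ℝ} (p : Params s)

/-- `F(E) = |y|²` for the outer points of the contact triangle with `|apex|² = E`. -/
noncomputable def F (E : ℝ) : ℝ := p.Lam E ^ 2 * E + p.W E ^ 2

noncomputable def Ea : ℝ := (2 * p.E1 + p.E2) / 3
noncomputable def Eb : ℝ := (p.E1 + 2 * p.E2) / 3

/-- value of the dual potential on `A` as a function of `E = |x|²` -/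
noncomputable def UA (E : ℝ) : ℝ :=
  (s / 2 + 1) * (2 * phi s (p.T1 E) + phi s (p.T2 E))
    - (2 * gam s (p.T1 E) + gam s (p.T1 E) ^ 2 / gam s (p.T2 E)) * E

variable (n : ℕ)

/-- the two maps `y = Yeps 1`, `z = Yeps (-1)` -/
noncomputable def Yeps (ε : ℝ) (x : E (n + 2)) : E (n + 2) :=
  Ymap p.Lam (fun t => ε * p.W t) x

def regA : Set (E (n + 2)) :=
  {x | ‖x‖ ^ 2 ∈ Set.Ioo p.Ea p.Eb ∧ p.Lam (‖x‖ ^ 2) ^ 2 * hh x < p.eta2}

def regB : Set (E (n + 2)) :=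
  {y | ‖y‖ ^ 2 ∈ Set.Ioo (p.F p.Eb) (p.F p.Ea) ∧ hh y < p.eta2}

/-- Jacobian factor `|det DY| = Λ^n (-F')` -/
noncomputable def Jac (E : ℝ) : ℝ := p.Lam E ^ n * (-deriv p.F E)

open Classical in
noncomputable def fA (x : E (n + 2)) : ℝ≥0∞ :=
  if x ∈ p.regA n then ENNReal.ofReal (p.UA (‖x‖ ^ 2)) else 0

open Classical in
noncomputable def fB (x : E (n + 2)) : ℝ≥0∞ :=
  if x ∈ p.regB n then ENNReal.ofReal (p.kap * ‖x‖ ^ 2) else 0

open Classical in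
noncomputable def mA (x : E (n + 2)) : ℝ≥0∞ :=
  if x ∈ p.regA n then ENNReal.ofReal (2 * p.Lam (‖x‖ ^ 2) ^ 2 * hh x) else 0

open Classical in
noncomputable def mB (x : E (n + 2)) : ℝ≥0∞ :=
  if x ∈ p.regB n then ENNReal.ofReal (hh x) else 0

end Params

end Crest.Agent.S0175
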