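import Mathlib
import Crest.Agent.S0175_Defs

/-!
# S0175, package P2: the one–dimensional parameter family

`σ = s/2+1`, `γ(t) = (s/2) t^(-σ)`, `τ = γ⁻¹`.
-/

namespace Crest.Agent.S0175.Param

open Real Set Filter Topology
open scoped ContDiff

noncomputable section

variable {s : ℝ}

/-- `σ = s/2+1`. -/
def sg (s : ℝ) : ℝ := s / 2 + 1
/-- `γ(t) = (s/2) t^(-σ)`. -/
def gam (s t : ℝ) : ℝ := s / 2 * t ^ (-(s / 2 + 1))
/-- `τ = γ⁻¹`. -/
def tau (s g : ℝ) : ℝ := (2 * g / s) ^ (-(1 / (s / 2 + 1)))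

lemma tau_pos (hs : 0 < s) {g : ℝ} (hg : 0 < g) : 0 < tau s g := by
  unfold tau; positivity

lemma gam_pos (hs : 0 < s) {t : ℝ} (ht : 0 < t) : 0 < gam s t := by
  unfold gam; positivity

lemma gam_tau (hs : 0 < s) {g : ℝ} (hg : 0 < g) : gam s (tau s g) = g := by
  unfold gam tau
  rw [← Real.rpow_mul (by positivity)]
  have : -(1 / (s / 2 + 1)) * -(s / 2 + 1) = 1 := by
    have : s / 2 + 1 ≠ 0 := by positivity
    field_simp
  rw [this, Real.rpow_one]; field_simp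

lemma tau_gam (hs : 0 < s) {t : ℝ} (ht : 0 < t) : tau s (gam s t) = t := by
  unfold gam tau
  have h1 : 2 * (s / 2 * t ^ (-(s / 2 + 1))) / s = t ^ (-(s / 2 + 1)) := by field_simp
  rw [h1, ← Real.rpow_mul ht.le]
  have : -(s / 2 + 1) * -(1 / (s / 2 + 1)) = 1 := by
    have : s / 2 + 1 ≠ 0 := by positivity
    field_simp
  rw [this, Real.rpow_one]

lemma tau_lt_tau (hs : 0 < s) {g g' : ℝ} (hg : 0 < g) (h : g < g') : tau s g' < tau s g := by
  unfold tau
  apply Real.rpow_lt_rpow_of_neg (by positivity)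
  · gcongr
  · have : 0 < 1 / (s / 2 + 1) := by positivity
    linarith

lemma gam_lt_gam (hs : 0 < s) {t t' : ℝ} (ht : 0 < t) (h : t < t') : gam s t' < gam s t := by
  unfold gam
  have : t' ^ (-(s / 2 + 1)) < t ^ (-(s / 2 + 1)) :=
    Real.rpow_lt_rpow_of_neg ht h (by linarith)
  have h2 : 0 < s / 2 := by positivity
  nlinarith

lemma hasDerivAt_tau (hs : 0 < s) {g : ℝ} (hg : 0 < g) :
    HasDerivAt (tau s) (-(tau s g / ((s / 2 + 1) * g))) g := by
  unfold tau
  have h0 : HasDerivAt (fun g : ℝ => 2 * g / s) (2 / s) g := by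
    have := ((hasDerivAt_id g).const_mul 2).div_const s
    simpa using this
  have hpos : 0 < 2 * g / s := by positivity
  have h1 := h0.rpow_const (p := -(1 / (s / 2 + 1))) (Or.inl hpos.ne')
  convert h1 using 1
  rw [Real.rpow_sub_one hpos.ne']
  have : s / 2 + 1 ≠ 0 := by positivity
  field_simp

lemma contDiffAt_tau (hs : 0 < s) {g : ℝ} (hg : 0 < g) : ContDiffAt ℝ ∞ (tau s) g := by
  unfold tau
  have hpos : 0 < 2 * g / s := by positivity
  have h0 : ContDiffAt ℝ ∞ (fun g : ℝ => 2 * g / s) g := by fun_prop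
  exact h0.rpow_const_of_ne hpos.ne'


/-- A one–dimensional global inverse function theorem on an interval. -/
theorem exists_smooth_inverse {f : ℝ → ℝ} {a b : ℝ} (hab : a < b)
    (hf : ∀ x ∈ Icc a b, ContDiffAt ℝ ∞ f x) (hf' : ∀ x ∈ Icc a b, 0 < deriv f x) :
    f a < f b ∧ ∃ g : ℝ → ℝ, Measurable g ∧ ContDiffOn ℝ ∞ g (Ioo (f a) (f b)) ∧
      (∀ y ∈ Ioo (f a) (f b), g y ∈ Ioo a b ∧ f (g y) = y) ∧
      (∀ x ∈ Ioo a b, f x ∈ Ioo (f a) (f b) ∧ g (f x) = x) ∧
      (∀ y ∈ Ioo (f a) (f b), HasDerivAt g (deriv f (g y))⁻¹ y) := by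
  classical
  have hcont : ContinuousOn f (Icc a b) := fun x hx => (hf x hx).continuousAt.continuousWithinAt
  have hmono : StrictMonoOn f (Icc a b) :=
    strictMonoOn_of_deriv_pos (convex_Icc a b) hcont
      (fun x hx => hf' x (interior_subset hx))
  have hsurj : ∀ y ∈ Ioo (f a) (f b), ∃ x ∈ Ioo a b, f x = y := fun y hy =>
    intermediate_value_Ioo hab.le hcont hy
  have hmaps : ∀ x ∈ Ioo a b, f x ∈ Ioo (f a) (f b) := fun x hx =>
    ⟨hmono (left_mem_Icc.2 hab.le) (Ioo_subset_Icc_self hx) hx.1,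
      hmono (Ioo_subset_Icc_self hx) (right_mem_Icc.2 hab.le) hx.2⟩
  let g : ℝ → ℝ := fun y => if h : y ∈ Ioo (f a) (f b) then (hsurj y h).choose else a
  have hg1 : ∀ y ∈ Ioo (f a) (f b), g y ∈ Ioo a b ∧ f (g y) = y := by
    intro y hy
    simp only [g, dif_pos hy]
    exact (hsurj y hy).choose_spec
  have hg2 : ∀ x ∈ Ioo a b, g (f x) = x := by
    intro x hx
    have h1 := hg1 (f x) (hmaps x hx)
    exact hmono.injOn (Ioo_subset_Icc_self h1.1) (Ioo_subset_Icc_self hx) h1.2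
  -- local description
  have hloc : ∀ y ∈ Ioo (f a) (f b), ContDiffAt ℝ ∞ g y ∧ HasDerivAt g (deriv f (g y))⁻¹ y := by
    intro y hy
    obtain ⟨hx, hfx⟩ := hg1 y hy
    set x := g y with hxdef
    have hcd := hf x (Ioo_subset_Icc_self hx)
    have hd0 : deriv f x ≠ 0 := (hf' x (Ioo_subset_Icc_self hx)).ne'
    have hsd : HasStrictDerivAt f (deriv f x) x := hcd.hasStrictDerivAt (by simp)
    have hfd := hsd.hasDerivAt.hasFDerivAt_equiv hd0
    have hinv := hcd.to_localInverse hfd (by simp)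
    set L := hcd.localInverse hfd (by simp) with hL
    have hLx : L (f x) = x := hcd.localInverse_apply_image hfd (by simp)
    have hLcont : ContinuousAt L (f x) := hinv.continuousAt
    have hev1 : ∀ᶠ z in 𝓝 (f x), L z ∈ Ioo a b := by
      apply hLcont.eventually_mem
      rw [hLx]; exact Ioo_mem_nhds hx.1 hx.2
    have hev2 : ∀ᶠ z in 𝓝 (f x), f (L z) = z :=
      (hcd.hasStrictFDerivAt' hfd (by simp)).eventually_right_inverse
    have hev : g =ᶠ[𝓝 (f x)] L := by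
      filter_upwards [hev1, hev2] with z hz1 hz2
      rw [← hz2, hg2 _ hz1, hz2]
    rw [← hfx]
    refine ⟨hinv.congr_of_eventuallyEq hev, ?_⟩
    have hLd : HasDerivAt L (deriv f x)⁻¹ (f x) := by
      have := (hsd.to_localInverse hd0).hasDerivAt
      exact this
    exact hLd.congr_of_eventuallyEq hev
  refine ⟨hmono (left_mem_Icc.2 hab.le) (right_mem_Icc.2 hab.le) hab,
    g, ?_, fun y hy => (hloc y hy).1.contDiffWithinAt, hg1,
    fun x hx => ⟨hmaps x hx, hg2 x hx⟩, fun y hy => (hloc y hy).2⟩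
  have : g = (Ioo (f a) (f b)).piecewise g (fun _ => a) := by
    funext y
    by_cases hy : y ∈ Ioo (f a) (f b)
    · simp [hy]
    · rw [Set.piecewise_eq_of_notMem _ _ _ hy]
      simp only [g, dif_neg hy]
  rw [this]
  exact ContinuousOn.measurable_piecewise
    (fun y hy => (hloc y hy).1.continuousAt.continuousWithinAt) continuousOn_const measurableSet_Ioo

/-! ### The family, parametrised by `β` -/

/-- `κ = γ(1) + 2 γ(4)`. -/
def kap (s : ℝ) : ℝ := gam s 1 + 2 * gam s 4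
/-- `t₁ = τ(α)`, `α = κ - 2β`. -/
def T1 (s β : ℝ) : ℝ := tau s (kap s - 2 * β)
/-- `t₂ = τ(β)`. -/
def T2 (s β : ℝ) : ℝ := tau s β
/-- `H² = t₁ - t₂/4`. -/
def Hsq (s β : ℝ) : ℝ := T1 s β - T2 s β / 4
/-- `|x|²`. -/
def EA (s β : ℝ) : ℝ := 4 * β ^ 2 * Hsq s β / kap s ^ 2
/-- `|y|²`. -/
def EB (s β : ℝ) : ℝ := (kap s - 2 * β) ^ 2 * Hsq s β / kap s ^ 2 + T2 s β / 4

lemma kap_pos (hs : 0 < s) : 0 < kap s := by
  have := gam_pos hs (t := 1) one_pos
  have := gam_pos hs (t := 4) (by norm_num)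
  unfold kap; positivity

lemma gam4_lt_gam1 (hs : 0 < s) : gam s 4 < gam s 1 := gam_lt_gam hs one_pos (by norm_num)

lemma T1_gam4 (hs : 0 < s) : T1 s (gam s 4) = 1 := by
  unfold T1 kap
  have : gam s 1 + 2 * gam s 4 - 2 * gam s 4 = gam s 1 := by ring
  rw [this, tau_gam hs one_pos]

lemma T2_gam4 (hs : 0 < s) : T2 s (gam s 4) = 4 := tau_gam hs (by norm_num)

lemma EA_gam4 (hs : 0 < s) : EA s (gam s 4) = 0 := by
  unfold EA Hsq; rw [T1_gam4 hs, T2_gam4 hs]; norm_num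

section dom
variable {β : ℝ}

lemma one_lt_T1 (hs : 0 < s) (h1 : gam s 4 < β) (h2 : 2 * β < kap s) : 1 < T1 s β := by
  have : tau s (gam s 1) < tau s (kap s - 2 * β) :=
    tau_lt_tau hs (by linarith) (by unfold kap; linarith)
  rwa [tau_gam hs one_pos] at this

lemma T2_lt_four (hs : 0 < s) (h1 : gam s 4 < β) : T2 s β < 4 := by
  have : tau s β < tau s (gam s 4) := tau_lt_tau hs (gam_pos hs (by norm_num)) h1
  rwa [tau_gam hs (by norm_num)] at this

lemma one_lt_T2 (hs : 0 < s) (h0 : 0 < β) (h1 : β < gam s 1) : 1 < T2 s β := by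
  have : tau s (gam s 1) < tau s β := tau_lt_tau hs h0 h1
  rwa [tau_gam hs one_pos] at this

lemma Hsq_pos (hs : 0 < s) (h1 : gam s 4 < β) (h2 : 2 * β < kap s) : 0 < Hsq s β := by
  have := one_lt_T1 hs h1 h2
  have := T2_lt_four hs h1
  unfold Hsq; linarith

lemma hasDerivAt_T1 (hs : 0 < s) (h2 : 2 * β < kap s) :
    HasDerivAt (T1 s) (2 * T1 s β / ((s / 2 + 1) * (kap s - 2 * β))) β := by
  have h0 : HasDerivAt (fun β : ℝ => kap s - 2 * β) (-2) β := by
    have := ((hasDerivAt_id β).const_mul 2).const_sub (kap s)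
    simpa using this
  have h1 : HasDerivAt (T1 s) _ β :=
    (hasDerivAt_tau hs (g := kap s - 2 * β) (by linarith)).comp β h0
  refine h1.congr_deriv ?_
  unfold T1
  ring

lemma hasDerivAt_T2 (hs : 0 < s) (h0 : 0 < β) :
    HasDerivAt (T2 s) (-(T2 s β / ((s / 2 + 1) * β))) β := hasDerivAt_tau hs h0

lemma hasDerivAt_Hsq (hs : 0 < s) (h0 : 0 < β) (h2 : 2 * β < kap s) :
    HasDerivAt (Hsq s) (2 * T1 s β / ((s / 2 + 1) * (kap s - 2 * β))
      + T2 s β / (4 * (s / 2 + 1) * β)) β := by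
  have h1 : HasDerivAt (Hsq s) _ β := (hasDerivAt_T1 hs h2).sub ((hasDerivAt_T2 hs h0).div_const 4)
  refine h1.congr_deriv ?_
  have : s / 2 + 1 ≠ 0 := by positivity
  field_simp
  ring

lemma hasDerivAt_EA (hs : 0 < s) (h0 : 0 < β) (h2 : 2 * β < kap s) :
    HasDerivAt (EA s) ((8 * β * Hsq s β + 4 * β ^ 2 * (2 * T1 s β / ((s / 2 + 1) * (kap s - 2 * β))
      + T2 s β / (4 * (s / 2 + 1) * β))) / kap s ^ 2) β := by
  have h1 : HasDerivAt (fun β : ℝ => 4 * β ^ 2) (8 * β) β := by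
    have := ((hasDerivAt_id β).pow 2).const_mul 4
    refine this.congr_deriv ?_
    simp; ring
  have := (h1.mul (hasDerivAt_Hsq hs h0 h2)).div_const (kap s ^ 2)
  exact this

lemma hasDerivAt_EB (hs : 0 < s) (h0 : 0 < β) (h2 : 2 * β < kap s) :
    HasDerivAt (EB s) (-(2 * (kap s - 2 * β) * Hsq s β / kap s ^ 2 * (2 - 1 / (s / 2 + 1)))
      - T2 s β / (2 * (s / 2 + 1) * kap s)) β := by
  have h1 : HasDerivAt (fun β : ℝ => (kap s - 2 * β) ^ 2) (-4 * (kap s - 2 * β)) β := by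
    have h0 : HasDerivAt (fun β : ℝ => kap s - 2 * β) (-2) β := by
      have := ((hasDerivAt_id β).const_mul 2).const_sub (kap s)
      simpa using this
    have := h0.pow 2
    refine this.congr_deriv ?_
    simp; ring
  have h3 : HasDerivAt (EB s) _ β := ((h1.mul (hasDerivAt_Hsq hs h0 h2)).div_const (kap s ^ 2)).add
    ((hasDerivAt_T2 hs h0).div_const 4)
  refine h3.congr_deriv ?_
  have hσ : s / 2 + 1 ≠ 0 := by positivity
  have hk : kap s ≠ 0 := (kap_pos hs).ne'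
  have ha : kap s - 2 * β ≠ 0 := by linarith
  have hT : T1 s β = Hsq s β + T2 s β / 4 := by unfold Hsq; ring
  rw [hT]
  field_simp
  ring

lemma EA_deriv_pos (hs : 0 < s) (h1 : gam s 4 < β) (h2 : 2 * β < kap s) :
    0 < (8 * β * Hsq s β + 4 * β ^ 2 * (2 * T1 s β / ((s / 2 + 1) * (kap s - 2 * β))
      + T2 s β / (4 * (s / 2 + 1) * β))) / kap s ^ 2 := by
  have h0 : 0 < β := (gam_pos hs (by norm_num)).trans h1
  have := Hsq_pos hs h1 h2
  have := kap_pos hs
  have : 0 < T1 s β := tau_pos hs (by linarith)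
  have : 0 < T2 s β := tau_pos hs h0
  have : 0 < kap s - 2 * β := by linarith
  positivity

lemma EB_deriv_neg (hs : 0 < s) (h1 : gam s 4 < β) (h2 : 2 * β < kap s) :
    -(2 * (kap s - 2 * β) * Hsq s β / kap s ^ 2 * (2 - 1 / (s / 2 + 1)))
      - T2 s β / (2 * (s / 2 + 1) * kap s) < 0 := by
  have h0 : 0 < β := (gam_pos hs (by norm_num)).trans h1
  have := Hsq_pos hs h1 h2
  have := kap_pos hs
  have : 0 < T2 s β := tau_pos hs h0
  have : 0 < kap s - 2 * β := by linarith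
  have h3 : 0 < 2 - 1 / (s / 2 + 1) := by
    have : 1 / (s / 2 + 1) < 1 := by
      rw [div_lt_one (by positivity)]; linarith
    linarith
  have h4 : 0 < 2 * (kap s - 2 * β) * Hsq s β / kap s ^ 2 * (2 - 1 / (s / 2 + 1)) := by positivity
  have h5 : 0 < T2 s β / (2 * (s / 2 + 1) * kap s) := by positivity
  linarith

lemma contDiffAt_T1 (hs : 0 < s) (h2 : 2 * β < kap s) : ContDiffAt ℝ ∞ (T1 s) β := by
  have h0 : ContDiffAt ℝ ∞ (fun β : ℝ => kap s - 2 * β) β := by fun_prop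
  exact (contDiffAt_tau hs (g := kap s - 2 * β) (by linarith)).comp β h0

lemma contDiffAt_T2 (hs : 0 < s) (h0 : 0 < β) : ContDiffAt ℝ ∞ (T2 s) β := contDiffAt_tau hs h0

lemma contDiffAt_Hsq (hs : 0 < s) (h0 : 0 < β) (h2 : 2 * β < kap s) :
    ContDiffAt ℝ ∞ (Hsq s) β :=
  (contDiffAt_T1 hs h2).sub ((contDiffAt_T2 hs h0).div_const 4)

lemma contDiffAt_EA (hs : 0 < s) (h0 : 0 < β) (h2 : 2 * β < kap s) :
    ContDiffAt ℝ ∞ (EA s) β := by
  have h1 : ContDiffAt ℝ ∞ (fun β : ℝ => 4 * β ^ 2) β := by fun_prop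
  exact (h1.mul (contDiffAt_Hsq hs h0 h2)).div_const _

lemma contDiffAt_EB (hs : 0 < s) (h0 : 0 < β) (h2 : 2 * β < kap s) :
    ContDiffAt ℝ ∞ (EB s) β := by
  have h1 : ContDiffAt ℝ ∞ (fun β : ℝ => (kap s - 2 * β) ^ 2) β := by fun_prop
  exact ((h1.mul (contDiffAt_Hsq hs h0 h2)).div_const _).add ((contDiffAt_T2 hs h0).div_const 4)

end dom

/-! ### Choice of the parameter interval -/

lemma EA_pos {β : ℝ} (hs : 0 < s) (h1 : gam s 4 < β) (h2 : 2 * β < kap s) : 0 < EA s β := by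
  have h0 : 0 < β := (gam_pos hs (by norm_num)).trans h1
  have := Hsq_pos hs h1 h2
  have := kap_pos hs
  unfold EA; positivity

/-- There is `β₂ > γ(4)` with all the smallness properties. -/
lemma exists_beta2 (hs : 0 < s) : ∃ β₂ : ℝ, gam s 4 < β₂ ∧ β₂ < gam s 1 ∧
    β₂ ≤ gam s 4 + gam s 1 / 4 ∧ EA s β₂ < 1 / 4 ∧
    EA s β₂ < (9 * (s / 2 + 1)) ^ (-(2 / s)) / 4 := by
  have h4 : 0 < gam s 4 := gam_pos hs (by norm_num)
  have h1 : 0 < gam s 1 := gam_pos hs one_pos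
  have h41 := gam4_lt_gam1 hs
  have hk : 2 * gam s 4 < kap s := by unfold kap; linarith
  have hc : ContinuousAt (EA s) (gam s 4) := (contDiffAt_EA hs h4 hk).continuousAt
  have hδ : 0 < (9 * (s / 2 + 1)) ^ (-(2 / s)) / 4 := by positivity
  have e1 : ∀ᶠ β in 𝓝 (gam s 4), EA s β < 1 / 4 := by
    apply hc.eventually_lt_const; rw [EA_gam4 hs]; norm_num
  have e2 : ∀ᶠ β in 𝓝 (gam s 4), EA s β < (9 * (s / 2 + 1)) ^ (-(2 / s)) / 4 := by
    apply hc.eventually_lt_const; rw [EA_gam4 hs]; exact hδ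
  have e3 : ∀ᶠ β in 𝓝 (gam s 4), β < gam s 1 := eventually_lt_nhds h41
  have e4 : ∀ᶠ β in 𝓝 (gam s 4), β < gam s 4 + gam s 1 / 4 := eventually_lt_nhds (by linarith)
  have e5 : ∀ᶠ β in 𝓝[>] (gam s 4), gam s 4 < β := self_mem_nhdsWithin
  obtain ⟨β, hβ⟩ := (((((e1.and e2).and e3).and e4).filter_mono nhdsWithin_le_nhds).and e5).exists
  exact ⟨β, hβ.2, hβ.1.1.2, hβ.1.2.le, hβ.1.1.1.1, hβ.1.1.1.2⟩

end

end Crest.Agent.S0175.Param

namespace Crest.Agent.S0175

open Real Set Filter Topology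
open scoped ContDiff

lemma gam_eq_Param_gam (s t : ℝ) : gam s t = Param.gam s t := by
  unfold gam Param.gam
  congr 2; ring

theorem exists_params {s : ℝ} (hs : 0 < s) : Nonempty (Params s) := by
  obtain ⟨β₂, hb1, hb2, hb3, hb4, hb5⟩ := Param.exists_beta2 hs
  have h4 : 0 < Param.gam s 4 := Param.gam_pos hs (by norm_num)
  have h1 : 0 < Param.gam s 1 := Param.gam_pos hs one_pos
  have hκ := Param.kap_pos hs
  set β₁ : ℝ := (Param.gam s 4 + β₂) / 2 with hβ₁
  have hβ12 : β₁ < β₂ := by rw [hβ₁]; linarith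
  have hβ01 : Param.gam s 4 < β₁ := by rw [hβ₁]; linarith
  -- facts on the closed interval
  have hdom : ∀ β ∈ Icc β₁ β₂, Param.gam s 4 < β ∧ 0 < β ∧ 2 * β < Param.kap s ∧
      β < Param.gam s 1 ∧ Param.gam s 1 / 2 ≤ Param.kap s - 2 * β := by
    intro β hβ
    refine ⟨by linarith [hβ.1], by linarith [hβ.1], ?_, by linarith [hβ.2], ?_⟩
    · unfold Param.kap; linarith [hβ.2]
    · unfold Param.kap; linarith [hβ.2]
  obtain ⟨hE12', b, -, hbs, hb_inv, -, hb_der⟩ := Param.exists_smooth_inverse (f := Param.EA s) hβ12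
    (fun β hβ => Param.contDiffAt_EA hs (hdom β hβ).2.1 (hdom β hβ).2.2.1)
    (fun β hβ => by
      rw [(Param.hasDerivAt_EA hs (hdom β hβ).2.1 (hdom β hβ).2.2.1).deriv]
      exact Param.EA_deriv_pos hs (hdom β hβ).1 (hdom β hβ).2.2.1)
  set E1 := Param.EA s β₁ with hE1
  set E2 := Param.EA s β₂ with hE2
  have hbI : ∀ E ∈ Ioo E1 E2, b E ∈ Icc β₁ β₂ := fun E hE => Ioo_subset_Icc_self (hb_inv E hE).1
  have hE1pos : 0 < E1 :=
    Param.EA_pos hs hβ01 (hdom β₁ (left_mem_Icc.2 hβ12.le)).2.2.1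
  have hE12 : E1 < E2 := hE12'
  have hopen : IsOpen (Ioo E1 E2) := isOpen_Ioo
  have hbat : ∀ E ∈ Ioo E1 E2, ContDiffAt ℝ ∞ b E := fun E hE =>
    (hbs E hE).contDiffAt (hopen.mem_nhds hE)
  have sT1 : ContDiffOn ℝ ∞ (fun E => Param.T1 s (b E)) (Ioo E1 E2) := fun E hE =>
    ((Param.contDiffAt_T1 hs (hdom _ (hbI E hE)).2.2.1).comp E (hbat E hE)).contDiffWithinAt
  have sT2 : ContDiffOn ℝ ∞ (fun E => Param.T2 s (b E)) (Ioo E1 E2) := fun E hE =>
    ((Param.contDiffAt_T2 hs (hdom _ (hbI E hE)).2.1).comp E (hbat E hE)).contDiffWithinAt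
  have T1gt : ∀ E ∈ Ioo E1 E2, 1 < Param.T1 s (b E) := fun E hE =>
    Param.one_lt_T1 hs (hdom _ (hbI E hE)).1 (hdom _ (hbI E hE)).2.2.1
  have T2gt : ∀ E ∈ Ioo E1 E2, 1 < Param.T2 s (b E) := fun E hE =>
    Param.one_lt_T2 hs (hdom _ (hbI E hE)).2.1 (hdom _ (hbI E hE)).2.2.2.1
  have g1 : ∀ E ∈ Ioo E1 E2, gam s (Param.T1 s (b E)) = Param.kap s - 2 * b E := fun E hE => by
    rw [gam_eq_Param_gam]
    exact Param.gam_tau hs (by linarith [(hdom _ (hbI E hE)).2.2.1])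
  have g2 : ∀ E ∈ Ioo E1 E2, gam s (Param.T2 s (b E)) = b E := fun E hE => by
    rw [gam_eq_Param_gam]
    exact Param.gam_tau hs (hdom _ (hbI E hE)).2.1
  refine ⟨{
    E1 := E1
    E2 := E2
    kap := Param.kap s
    Kmax := 3 * (s / 2 + 1)
    eta2 := E1 / 16
    ell := 1
    Lam := fun E => (Param.kap s - 2 * b E) / (2 * b E)
    W := fun E => Real.sqrt (Param.T2 s (b E)) / 2
    T1 := fun E => Param.T1 s (b E)
    T2 := fun E => Param.T2 s (b E)
    E1_pos := hE1pos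
    E1_lt_E2 := hE12
    kap_pos := hκ
    eta2_pos := by positivity
    ell_pos := one_pos
    smooth_Lam := ?_
    smooth_W := ?_
    smooth_T1 := sT1
    smooth_T2 := sT2
    T1_ge := fun E hE => by simpa using (T1gt E hE).le
    T2_ge := fun E hE => by simpa using (T2gt E hE).le
    W_pos := fun E hE => by
      have := T2gt E hE
      positivity
    kap_eq := fun E hE => by rw [g1 E hE, g2 E hE]; ring
    Lam_eq := fun E hE => by rw [g1 E hE, g2 E hE]
    W_sq := fun E hE => by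
      have := T2gt E hE
      rw [div_pow, Real.sq_sqrt (by linarith)]; norm_num
    apex_eq := ?_
    deriv_F_neg := ?_
    eta2_le := ?_
    E2_lt_F := ?_
    K_le := ?_
    Kmax_lt := ?_ }⟩
  · -- smooth_Lam
    refine ContDiffOn.div (contDiffOn_const.sub (contDiffOn_const.mul hbs))
      (contDiffOn_const.mul hbs) (fun E hE => ?_)
    have := (hdom _ (hbI E hE)).2.1
    positivity
  · -- smooth_W
    refine (ContDiffOn.sqrt sT2 (fun E hE => ?_)).div_const 2
    have := T2gt E hE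
    positivity
  · -- apex_eq
    intro E hE
    have hβ := (hdom _ (hbI E hE)).2.1
    have hEA : Param.EA s (b E) = E := (hb_inv E hE).2
    show E * (1 + (Param.kap s - 2 * b E) / (2 * b E)) ^ 2
      = Param.T1 s (b E) - Param.T2 s (b E) / 4
    have h2 : 4 * b E ^ 2 * Param.Hsq s (b E) / Param.kap s ^ 2 = E := hEA
    have h3 : Param.T1 s (b E) - Param.T2 s (b E) / 4 = Param.Hsq s (b E) := rfl
    rw [h3]
    generalize Param.Hsq s (b E) = H at h2 ⊢
    generalize b E = β at h2 hβ ⊢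
    rw [← h2]
    field_simp
    ring
  · -- deriv_F_neg
    intro E hE
    have hβ := hdom _ (hbI E hE)
    have hev : (fun E => ((Param.kap s - 2 * b E) / (2 * b E)) ^ 2 * E
        + (Real.sqrt (Param.T2 s (b E)) / 2) ^ 2) =ᶠ[𝓝 E] fun E => Param.EB s (b E) := by
      filter_upwards [hopen.mem_nhds hE] with E' hE'
      have hβ' := (hdom _ (hbI E' hE')).2.1
      have hEA : Param.EA s (b E') = E' := (hb_inv E' hE').2
      have h2 : 4 * b E' ^ 2 * Param.Hsq s (b E') / Param.kap s ^ 2 = E' := hEA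
      have := T2gt E' hE'
      rw [div_pow (Real.sqrt _), Real.sq_sqrt (by linarith)]
      simp only [Param.EB]
      generalize Param.Hsq s (b E') = H at h2 ⊢
      generalize Param.T2 s (b E') = T at *
      generalize b E' = β at h2 hβ' ⊢
      rw [← h2]
      field_simp
      ring
    rw [hev.deriv_eq]
    have hd : HasDerivAt (fun E => Param.EB s (b E)) _ E :=
      (Param.hasDerivAt_EB hs hβ.2.1 hβ.2.2.1).comp E (hb_der E hE)
    rw [hd.deriv, (Param.hasDerivAt_EA hs hβ.2.1 hβ.2.2.1).deriv]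
    exact mul_neg_of_neg_of_pos (Param.EB_deriv_neg hs hβ.1 hβ.2.2.1)
      (inv_pos.2 (Param.EA_deriv_pos hs hβ.1 hβ.2.2.1))
  · -- eta2_le
    intro E hE
    have hβ := hdom _ (hbI E hE)
    have hL : 1 / 4 ≤ (Param.kap s - 2 * b E) / (2 * b E) := by
      rw [div_le_div_iff₀ (by norm_num) (by linarith [hβ.2.1])]
      linarith [hβ.2.2.2.1, hβ.2.2.2.2]
    have hL2 : 1 / 16 ≤ ((Param.kap s - 2 * b E) / (2 * b E)) ^ 2 := by nlinarith
    show E1 / 16 ≤ ((Param.kap s - 2 * b E) / (2 * b E)) ^ 2 * E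
    nlinarith [hE.1]
  · -- E2_lt_F
    intro E hE
    have := T2gt E hE
    show E2 < ((Param.kap s - 2 * b E) / (2 * b E)) ^ 2 * E
        + (Real.sqrt (Param.T2 s (b E)) / 2) ^ 2
    rw [div_pow (Real.sqrt _), Real.sq_sqrt (by linarith)]
    have h0 : 0 ≤ ((Param.kap s - 2 * b E) / (2 * b E)) ^ 2 * E :=
      mul_nonneg (sq_nonneg _) (by linarith [hE.1])
    linarith
  · -- K_le
    intro E hE
    have p1 : phi s (Param.T1 s (b E)) ≤ 1 :=
      Real.rpow_le_one_of_one_le_of_nonpos (T1gt E hE).le (by linarith)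
    have p2 : phi s (Param.T2 s (b E)) ≤ 1 :=
      Real.rpow_le_one_of_one_le_of_nonpos (T2gt E hE).le (by linarith)
    show (s / 2 + 1) * (2 * phi s (Param.T1 s (b E)) + phi s (Param.T2 s (b E)))
      ≤ 3 * (s / 2 + 1)
    have : 0 < s / 2 + 1 := by positivity
    nlinarith
  · -- Kmax_lt
    show 3 * (3 * (s / 2 + 1)) < phi s (4 * E2)
    have hE2pos : 0 < E2 := hE1pos.trans hE12
    have h9 : 0 < 9 * (s / 2 + 1) := by positivity
    have hlt : 4 * E2 < (9 * (s / 2 + 1)) ^ (-(2 / s)) := by linarith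
    have := Real.rpow_lt_rpow_of_neg (z := -(s / 2)) (by positivity) hlt (by linarith)
    rw [← Real.rpow_mul h9.le] at this
    have he : -(2 / s) * -(s / 2) = 1 := by field_simp
    rw [he, Real.rpow_one] at this
    unfold phi
    linarith

end Crest.Agent.S0175
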