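import Mathlib

set_option autoImplicit false

open MeasureTheory Set
open scoped ENNReal

namespace Crest.Agent.S0175.RotAux

/-- periodic lintegral -/
theorem lintegral_Ioc_periodic {T : ℝ} (hT : 0 < T) (K : ℝ → ℝ≥0∞) (hK : Function.Periodic K T)
    (a b : ℝ) : ∫⁻ u in Ioc a (a + T), K u = ∫⁻ u in Ioc b (b + T), K u := by
  have : VAddInvariantMeasure (AddSubgroup.zmultiples T) ℝ volume :=
    ⟨fun c s _ => measure_preimage_add _ _ _⟩
  apply IsAddFundamentalDomain.setLIntegral_eq (G := AddSubgroup.zmultiples T)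
  exacts [isAddFundamentalDomain_Ioc hT a, isAddFundamentalDomain_Ioc hT b, hK.map_vadd_zmultiples]

/-- affine change of variables `v = 2 u - a`. -/
theorem lintegral_two_mul_sub (G : ℝ → ℝ≥0∞) (hG : Measurable G) (a : ℝ) :
    ∫⁻ u, G (2 * u - a) = (1 / 2 : ℝ≥0∞) * ∫⁻ v, G v := by
  have h1 : ∫⁻ u, G (2 * u - a) = ∫⁻ v, G (v - a) ∂(Measure.map (fun u : ℝ => 2 * u) volume) := by
    rw [lintegral_map (by fun_prop) (by fun_prop)]
  rw [h1, Real.map_volume_mul_left (by norm_num : (2 : ℝ) ≠ 0), lintegral_smul_measure,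
    lintegral_sub_right_eq_self (fun v => G v) a]
  congr 1
  rw [abs_of_pos (by norm_num), ENNReal.ofReal_inv_of_pos (by norm_num)]
  simp

theorem lintegral_Ioc_shift (K : ℝ → ℝ≥0∞) (a b c : ℝ) :
    ∫⁻ α in Ioc a b, K (c + α) = ∫⁻ u in Ioc (c + a) (c + b), K u := by
  rw [← lintegral_indicator measurableSet_Ioc, ← lintegral_indicator measurableSet_Ioc,
    ← lintegral_add_left_eq_self (fun u => (Ioc (c + a) (c + b)).indicator K u) c]
  congr 1
  ext α
  by_cases h : α ∈ Ioc a b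
  · have h' : c + α ∈ Ioc (c + a) (c + b) := ⟨by linarith [h.1], by linarith [h.2]⟩
    rw [indicator_of_mem h, indicator_of_mem h']
  · have h' : c + α ∉ Ioc (c + a) (c + b) := fun h' => h ⟨by linarith [h'.1], by linarith [h'.2]⟩
    rw [indicator_of_notMem h, indicator_of_notMem h']

/-- cellwise doubling on `ℝ`, cells `[kδ,(k+1)δ)`. -/
noncomputable def dbl (δ u : ℝ) : ℝ := δ * (⌊u / δ⌋ + Int.fract (2 * (u / δ)))

/-- lower halves of the cells. -/
def low (δ : ℝ) : Set ℝ := {u | Int.fract (u / δ) < 1 / 2}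

theorem measurable_dbl (δ : ℝ) : Measurable (dbl δ) := by
  unfold dbl
  have h1 : Measurable fun u : ℝ => ((⌊u / δ⌋ : ℤ) : ℝ) :=
    (measurable_from_top (f := fun n : ℤ => (n : ℝ))).comp (Int.measurable_floor.comp (by fun_prop))
  have h2 : Measurable fun u : ℝ => Int.fract (2 * (u / δ)) :=
    measurable_fract.comp (by fun_prop)
  exact (h1.add h2).const_mul δ

theorem measurableSet_low (δ : ℝ) : MeasurableSet (low δ) := by
  unfold low
  have h2 : Measurable fun u : ℝ => Int.fract (u / δ) := measurable_fract.comp (by fun_prop)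
  exact measurableSet_lt h2 measurable_const

theorem cell_floor {δ : ℝ} (hδ : 0 < δ) (k : ℤ) {u : ℝ} (h1 : k * δ ≤ u) (h2 : u < (k + 1) * δ) :
    ⌊u / δ⌋ = k := by
  rw [Int.floor_eq_iff]
  constructor
  · rw [le_div_iff₀ hδ]; exact h1
  · rw [div_lt_iff₀ hδ]; exact h2

theorem dbl_low {δ : ℝ} (hδ : 0 < δ) (k : ℤ) {u : ℝ} (h1 : k * δ ≤ u) (h2 : u < k * δ + δ / 2) :
    u ∈ low δ ∧ dbl δ u = 2 * u - k * δ := by
  have hf : ⌊u / δ⌋ = k := cell_floor hδ k h1 (by linarith)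
  have hu : u / δ < k + 1 / 2 := by rw [div_lt_iff₀ hδ]; linarith
  have hu' : (k : ℝ) ≤ u / δ := by rw [le_div_iff₀ hδ]; exact h1
  have hf2 : ⌊2 * (u / δ)⌋ = 2 * k := by
    rw [Int.floor_eq_iff]; push_cast; constructor <;> linarith
  constructor
  · show Int.fract (u / δ) < 1 / 2
    rw [Int.fract, hf]; linarith
  · unfold dbl
    rw [Int.fract, hf, hf2]; push_cast; field_simp; ring

theorem dbl_high {δ : ℝ} (hδ : 0 < δ) (k : ℤ) {u : ℝ} (h1 : k * δ + δ / 2 ≤ u)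
    (h2 : u < (k + 1) * δ) :
    u ∉ low δ ∧ dbl δ u = 2 * u - (k + 1) * δ := by
  have hf : ⌊u / δ⌋ = k := cell_floor hδ k (by linarith) h2
  have hu : u / δ < k + 1 := by rw [div_lt_iff₀ hδ]; linarith
  have hu' : (k : ℝ) + 1 / 2 ≤ u / δ := by rw [le_div_iff₀ hδ]; linarith
  have hf2 : ⌊2 * (u / δ)⌋ = 2 * k + 1 := by
    rw [Int.floor_eq_iff]; push_cast; constructor <;> linarith
  constructor
  · show ¬ Int.fract (u / δ) < 1 / 2
    rw [Int.fract, hf]; linarith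
  · unfold dbl
    rw [Int.fract, hf, hf2]; push_cast; field_simp; ring

theorem cell_low {δ : ℝ} (hδ : 0 < δ) (k : ℤ) (F : ℝ → ℝ≥0∞) (hF : Measurable F) :
    ∫⁻ u in Ico (k * δ) ((k + 1) * δ), (low δ).indicator (fun u => F (dbl δ u)) u
      = (1 / 2 : ℝ≥0∞) * ∫⁻ v in Ico (k * δ) ((k + 1) * δ), F v := by
  rw [← lintegral_indicator measurableSet_Ico, ← lintegral_indicator measurableSet_Ico,
    ← lintegral_two_mul_sub _ (hF.indicator measurableSet_Ico) (k * δ)]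
  congr 1
  ext u
  by_cases h : k * δ ≤ u ∧ u < k * δ + δ / 2
  · obtain ⟨hl, hd⟩ := dbl_low hδ k h.1 h.2
    rw [indicator_of_mem (show u ∈ Ico (k * δ) ((k + 1) * δ) from ⟨h.1, by linarith [h.2]⟩),
      indicator_of_mem hl, hd,
      indicator_of_mem (show 2 * u - k * δ ∈ Ico (k * δ) ((k + 1) * δ) from
        ⟨by linarith [h.1], by linarith [h.2]⟩)]
  · rw [indicator_of_notMem (show 2 * u - k * δ ∉ Ico (k * δ) ((k + 1) * δ) from fun h' =>
      h ⟨by linarith [h'.1], by linarith [h'.2]⟩)]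
    by_cases hc : u ∈ Ico (k * δ) ((k + 1) * δ)
    · rw [indicator_of_mem hc]
      have : k * δ + δ / 2 ≤ u := by
        by_contra hlt
        exact h ⟨hc.1, not_le.mp hlt⟩
      rw [indicator_of_notMem (dbl_high hδ k this hc.2).1]
    · rw [indicator_of_notMem hc]

theorem cell_high {δ : ℝ} (hδ : 0 < δ) (k : ℤ) (F : ℝ → ℝ≥0∞) (hF : Measurable F) :
    ∫⁻ u in Ico (k * δ) ((k + 1) * δ), (low δ)ᶜ.indicator (fun u => F (dbl δ u)) u
      = (1 / 2 : ℝ≥0∞) * ∫⁻ v in Ico (k * δ) ((k + 1) * δ), F v := by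
  rw [← lintegral_indicator measurableSet_Ico, ← lintegral_indicator measurableSet_Ico,
    ← lintegral_two_mul_sub _ (hF.indicator measurableSet_Ico) ((k + 1) * δ)]
  congr 1
  ext u
  by_cases h : k * δ + δ / 2 ≤ u ∧ u < (k + 1) * δ
  · obtain ⟨hl, hd⟩ := dbl_high hδ k h.1 h.2
    rw [indicator_of_mem (show u ∈ Ico (k * δ) ((k + 1) * δ) from ⟨by linarith [h.1], h.2⟩),
      indicator_of_mem (show u ∈ (low δ)ᶜ from hl), hd,
      indicator_of_mem (show 2 * u - (k + 1) * δ ∈ Ico (k * δ) ((k + 1) * δ) from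
        ⟨by linarith [h.1], by linarith [h.2]⟩)]
  · rw [indicator_of_notMem (show 2 * u - (k + 1) * δ ∉ Ico (k * δ) ((k + 1) * δ) from fun h' =>
      h ⟨by linarith [h'.1], by linarith [h'.2]⟩)]
    by_cases hc : u ∈ Ico (k * δ) ((k + 1) * δ)
    · rw [indicator_of_mem hc]
      have : u < k * δ + δ / 2 := by
        by_contra hlt
        exact h ⟨not_lt.mp hlt, hc.2⟩
      rw [indicator_of_notMem (show u ∉ (low δ)ᶜ from fun hh => hh (dbl_low hδ k hc.1 this).1)]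
    · rw [indicator_of_notMem hc]

/-- sum over the cells -/
theorem cells_sum {δ : ℝ} (hδ : 0 < δ) (H F : ℝ → ℝ≥0∞)
    (h : ∀ k : ℤ, ∫⁻ u in Ico (k * δ) ((k + 1) * δ), H u
      = (1 / 2 : ℝ≥0∞) * ∫⁻ v in Ico (k * δ) ((k + 1) * δ), F v) (n : ℕ) :
    ∫⁻ u in Ico 0 (n * δ), H u = (1 / 2 : ℝ≥0∞) * ∫⁻ v in Ico 0 (n * δ), F v := by
  induction n with
  | zero => simp
  | succ n ih =>
    have hU : Ico (0 : ℝ) ((n + 1 : ℕ) * δ) = Ico 0 (n * δ) ∪ Ico (n * δ) ((n + 1) * δ) := by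
      rw [Ico_union_Ico_eq_Ico (by positivity) (by nlinarith)]
      push_cast; rfl
    have hd : Disjoint (Ico (0 : ℝ) (n * δ)) (Ico (n * δ) ((n + 1) * δ)) := by
      rw [Set.disjoint_left]
      intro x hx hx'
      exact absurd hx.2 (not_lt.mpr hx'.1)
    rw [hU, lintegral_union measurableSet_Ico hd, lintegral_union measurableSet_Ico hd, ih, mul_add]
    congr 1
    exact_mod_cast h n


theorem dbl_add_int {δ : ℝ} (hδ : 0 < δ) (u : ℝ) (m : ℤ) : dbl δ (u + m * δ) = dbl δ u + m * δ := by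
  unfold dbl
  have h1 : (u + m * δ) / δ = u / δ + m := by field_simp
  have h2 : 2 * (u / δ + m) = 2 * (u / δ) + ((2 * m : ℤ) : ℝ) := by push_cast; ring
  rw [h1, h2, Int.floor_add_intCast, Int.fract_add_intCast]
  push_cast; ring

theorem mem_low_add_int {δ : ℝ} (hδ : 0 < δ) (u : ℝ) (m : ℤ) : u + m * δ ∈ low δ ↔ u ∈ low δ := by
  unfold low
  have h1 : (u + m * δ) / δ = u / δ + m := by field_simp
  show Int.fract ((u + m * δ) / δ) < 1 / 2 ↔ Int.fract (u / δ) < 1 / 2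
  rw [h1, Int.fract_add_intCast]

theorem abs_dbl_sub_le {δ : ℝ} (hδ : 0 < δ) (u : ℝ) : |dbl δ u - u| ≤ δ / 2 := by
  set k : ℤ := ⌊u / δ⌋ with hk
  have h1 : k * δ ≤ u := by
    have := Int.floor_le (u / δ)
    rw [← hk, le_div_iff₀ hδ] at this; exact this
  have h2 : u < (k + 1) * δ := by
    have := Int.lt_floor_add_one (u / δ)
    rw [← hk, div_lt_iff₀ hδ] at this; exact this
  by_cases h : u < k * δ + δ / 2
  · rw [(dbl_low hδ k h1 h).2, abs_le]; constructor <;> linarith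
  · rw [(dbl_high hδ k (not_lt.mp h) h2).2, abs_le]; constructor <;> linarith

/-- The one-dimensional core: for a `T`-periodic `F`, `T = N δ`. -/
theorem core_low {δ : ℝ} (hδ : 0 < δ) (N : ℕ) (hN : 0 < N) (F : ℝ → ℝ≥0∞) (hF : Measurable F)
    (hper : Function.Periodic F (N * δ)) (c : ℝ) :
    ∫⁻ α in Ioc 0 (N * δ), (low δ).indicator (fun u => F (dbl δ u - c)) (c + α)
      = (1 / 2 : ℝ≥0∞) * ∫⁻ β in Ioc 0 (N * δ), F β := by
  have hT : 0 < N * δ := by positivity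
  set K : ℝ → ℝ≥0∞ := (low δ).indicator (fun u => F (dbl δ u - c)) with hK
  have hKper : Function.Periodic K (N * δ) := by
    intro u
    have e1 : dbl δ (u + N * δ) = dbl δ u + N * δ := by exact_mod_cast dbl_add_int hδ u N
    have e2 : u + N * δ ∈ low δ ↔ u ∈ low δ := by exact_mod_cast mem_low_add_int hδ u N
    by_cases hu : u ∈ low δ
    · rw [hK, indicator_of_mem hu, indicator_of_mem (e2.mpr hu), e1]
      have : dbl δ u + N * δ - c = (dbl δ u - c) + N * δ := by ring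
      rw [this, hper]
    · rw [hK, indicator_of_notMem hu, indicator_of_notMem (fun h => hu (e2.mp h))]
  have hFc : Measurable fun v => F (v - c) := hF.comp (by fun_prop)
  calc ∫⁻ α in Ioc 0 (N * δ), K (c + α) = ∫⁻ u in Ioc (c + 0) (c + N * δ), K u :=
        lintegral_Ioc_shift K 0 (N * δ) c
    _ = ∫⁻ u in Ioc 0 (0 + N * δ), K u := by
        rw [add_zero]; exact lintegral_Ioc_periodic hT K hKper c 0
    _ = ∫⁻ u in Ico 0 (N * δ), K u := by
        rw [zero_add]; exact setLIntegral_congr Ico_ae_eq_Ioc.symm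
    _ = (1 / 2 : ℝ≥0∞) * ∫⁻ v in Ico 0 (N * δ), F (v - c) :=
        cells_sum hδ K (fun v => F (v - c)) (fun k => cell_low hδ k (fun v => F (v - c)) hFc) N
    _ = (1 / 2 : ℝ≥0∞) * ∫⁻ v in Ioc 0 (N * δ), F (-c + v) := by
        rw [setLIntegral_congr Ico_ae_eq_Ioc]
        simp only [sub_eq_add_neg, add_comm]
    _ = (1 / 2 : ℝ≥0∞) * ∫⁻ v in Ioc (-c + 0) (-c + N * δ), F v := by
        rw [lintegral_Ioc_shift F 0 (N * δ) (-c)]
    _ = (1 / 2 : ℝ≥0∞) * ∫⁻ β in Ioc 0 (N * δ), F β := by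
        rw [add_zero, lintegral_Ioc_periodic hT F hper (-c) 0, zero_add]

theorem core_high {δ : ℝ} (hδ : 0 < δ) (N : ℕ) (hN : 0 < N) (F : ℝ → ℝ≥0∞) (hF : Measurable F)
    (hper : Function.Periodic F (N * δ)) (c : ℝ) :
    ∫⁻ α in Ioc 0 (N * δ), (low δ)ᶜ.indicator (fun u => F (dbl δ u - c)) (c + α)
      = (1 / 2 : ℝ≥0∞) * ∫⁻ β in Ioc 0 (N * δ), F β := by
  have hT : 0 < N * δ := by positivity
  set K : ℝ → ℝ≥0∞ := (low δ)ᶜ.indicator (fun u => F (dbl δ u - c)) with hK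
  have hKper : Function.Periodic K (N * δ) := by
    intro u
    have e1 : dbl δ (u + N * δ) = dbl δ u + N * δ := by exact_mod_cast dbl_add_int hδ u N
    have e2 : u + N * δ ∈ low δ ↔ u ∈ low δ := by exact_mod_cast mem_low_add_int hδ u N
    by_cases hu : u ∈ (low δ)ᶜ
    · rw [hK, indicator_of_mem hu,
        indicator_of_mem (show u + N * δ ∈ (low δ)ᶜ from fun h => hu (e2.mp h)), e1]
      have : dbl δ u + N * δ - c = (dbl δ u - c) + N * δ := by ring
      rw [this, hper]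
    · rw [hK, indicator_of_notMem hu,
        indicator_of_notMem (show u + N * δ ∉ (low δ)ᶜ from fun h => hu (fun h' => h (e2.mpr h')))]
  have hFc : Measurable fun v => F (v - c) := hF.comp (by fun_prop)
  calc ∫⁻ α in Ioc 0 (N * δ), K (c + α) = ∫⁻ u in Ioc (c + 0) (c + N * δ), K u :=
        lintegral_Ioc_shift K 0 (N * δ) c
    _ = ∫⁻ u in Ioc 0 (0 + N * δ), K u := by
        rw [add_zero]; exact lintegral_Ioc_periodic hT K hKper c 0
    _ = ∫⁻ u in Ico 0 (N * δ), K u := by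
        rw [zero_add]; exact setLIntegral_congr Ico_ae_eq_Ioc.symm
    _ = (1 / 2 : ℝ≥0∞) * ∫⁻ v in Ico 0 (N * δ), F (v - c) :=
        cells_sum hδ K (fun v => F (v - c)) (fun k => cell_high hδ k (fun v => F (v - c)) hFc) N
    _ = (1 / 2 : ℝ≥0∞) * ∫⁻ v in Ioc 0 (N * δ), F (-c + v) := by
        rw [setLIntegral_congr Ico_ae_eq_Ioc]
        simp only [sub_eq_add_neg, add_comm]
    _ = (1 / 2 : ℝ≥0∞) * ∫⁻ v in Ioc (-c + 0) (-c + N * δ), F v := by
        rw [lintegral_Ioc_shift F 0 (N * δ) (-c)]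
    _ = (1 / 2 : ℝ≥0∞) * ∫⁻ β in Ioc 0 (N * δ), F β := by
        rw [add_zero, lintegral_Ioc_periodic hT F hper (-c) 0, zero_add]

end Crest.Agent.S0175.RotAux
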