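import Mathlib
import Crest.Agent.S0175_Rot1D

set_option autoImplicit false

open MeasureTheory Set
open scoped ENNReal

namespace Crest.Agent.S0175.RotAux

section Abstract

variable {X : Type*} [MeasurableSpace X]

/-- averaging over the action -/
theorem average_eq (R : ℝ → X → X) (hRm : Measurable (fun p : ℝ × X => R p.1 p.2))
    (ν : Measure X) [SFinite ν] (hinv : ∀ ψ, ν.map (R ψ) = ν) (T : ℝ)
    (h : X → ℝ≥0∞) (hh : Measurable h) :
    ∫⁻ x, (∫⁻ α in Ioc 0 T, h (R α x)) ∂ν = ENNReal.ofReal T * ∫⁻ x, h x ∂ν := by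
  have hm : Measurable (fun p : X × ℝ => h (R p.2 p.1)) :=
    hh.comp (hRm.comp (measurable_snd.prodMk measurable_fst))
  rw [lintegral_lintegral_swap (f := fun x α => h (R α x)) hm.aemeasurable]
  have h1 : ∀ α : ℝ, ∫⁻ x, h (R α x) ∂ν = ∫⁻ x, h x ∂ν := by
    intro α
    have hRα : Measurable (R α) := hRm.comp (measurable_const.prodMk measurable_id)
    conv_rhs => rw [← hinv α]
    rw [lintegral_map hh hRα]
  simp only [h1]
  rw [lintegral_const, Measure.restrict_apply MeasurableSet.univ, univ_inter, Real.volume_Ioc,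
    sub_zero, mul_comm]

variable (R : ℝ → X → X) (ang : X → ℝ) (δ : ℝ)

/-- the cellwise doubling map attached to an action `R` and an angle function `ang`. -/
noncomputable def Dmap (x : X) : X := R (dbl δ (ang x) - ang x) x

theorem measurable_Dmap (hRm : Measurable (fun p : ℝ × X => R p.1 p.2)) (ham : Measurable ang) :
    Measurable (Dmap R ang δ) := by
  unfold Dmap
  exact hRm.comp ((((measurable_dbl δ).comp ham).sub ham).prodMk measurable_id)

omit [MeasurableSpace X] in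
theorem Dmap_rot {δ : ℝ} (hδ : 0 < δ) (N : ℕ)
    (hadd : ∀ a b x, R (a + b) x = R a (R b x))
    {x : X} (hang : ∀ ψ, ∃ k : ℤ, ang (R ψ x) = ang x + ψ + k * (N * δ)) (α : ℝ) :
    Dmap R ang δ (R α x) = R (dbl δ (ang x + α) - ang x) x ∧
      (ang (R α x) ∈ low δ ↔ ang x + α ∈ low δ) := by
  obtain ⟨k, hk⟩ := hang α
  have e : ang (R α x) = (ang x + α) + ((k * N : ℤ) : ℝ) * δ := by rw [hk]; push_cast; ring
  constructor
  · unfold Dmap
    rw [← hadd, e, dbl_add_int hδ]
    congr 1; ring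
  · rw [e, mem_low_add_int hδ]

theorem lintegral_low {δ : ℝ} (hδ : 0 < δ) (N : ℕ) (hN : 0 < N)
    (hRm : Measurable (fun p : ℝ × X => R p.1 p.2)) (ham : Measurable ang)
    (hadd : ∀ a b x, R (a + b) x = R a (R b x))
    (hper : ∀ a x, R (a + N * δ) x = R a x)
    (ν : Measure X) [SFinite ν] (hinv : ∀ ψ, ν.map (R ψ) = ν)
    (hang : ∀ᵐ x ∂ν, ∀ ψ, ∃ k : ℤ, ang (R ψ x) = ang x + ψ + k * (N * δ))
    (f : X → ℝ≥0∞) (hf : Measurable f) :
    ∫⁻ x in ang ⁻¹' (low δ), f (Dmap R ang δ x) ∂ν = (1 / 2 : ℝ≥0∞) * ∫⁻ x, f x ∂ν := by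
  have hT : 0 < N * δ := by positivity
  have hS : MeasurableSet (ang ⁻¹' (low δ)) := ham (measurableSet_low δ)
  have hD := measurable_Dmap R ang δ hRm ham
  set h : X → ℝ≥0∞ := (ang ⁻¹' (low δ)).indicator (fun x => f (Dmap R ang δ x)) with hh
  have hhm : Measurable h := (hf.comp hD).indicator hS
  have key : ENNReal.ofReal (N * δ) * ∫⁻ x, h x ∂ν
      = ENNReal.ofReal (N * δ) * ((1 / 2 : ℝ≥0∞) * ∫⁻ x, f x ∂ν) := by
    rw [← average_eq R hRm ν hinv (N * δ) h hhm, mul_left_comm,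
      ← average_eq R hRm ν hinv (N * δ) f hf, ← lintegral_const_mul']
    · apply lintegral_congr_ae
      filter_upwards [hang] with x hx
      have hFm : Measurable fun β : ℝ => f (R β x) :=
        hf.comp (hRm.comp (measurable_id.prodMk measurable_const))
      have hFp : Function.Periodic (fun β : ℝ => f (R β x)) (N * δ) := by
        intro β
        show f (R (β + N * δ) x) = f (R β x)
        rw [hper]
      rw [← core_low hδ N hN (fun β => f (R β x)) hFm hFp (ang x)]
      apply lintegral_congr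
      intro α
      obtain ⟨e1, e2⟩ := Dmap_rot R ang hδ N hadd hx α
      by_cases hm : ang x + α ∈ low δ
      · rw [indicator_of_mem hm, hh, indicator_of_mem (show R α x ∈ ang ⁻¹' (low δ) from e2.mpr hm),
          e1]
      · rw [indicator_of_notMem hm, hh,
          indicator_of_notMem (show R α x ∉ ang ⁻¹' (low δ) from fun h' => hm (e2.mp h'))]
    · simp
  rw [← lintegral_indicator hS]
  exact (ENNReal.mul_right_inj (ENNReal.ofReal_pos.mpr hT).ne' ENNReal.ofReal_ne_top).mp key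

theorem lintegral_high {δ : ℝ} (hδ : 0 < δ) (N : ℕ) (hN : 0 < N)
    (hRm : Measurable (fun p : ℝ × X => R p.1 p.2)) (ham : Measurable ang)
    (hadd : ∀ a b x, R (a + b) x = R a (R b x))
    (hper : ∀ a x, R (a + N * δ) x = R a x)
    (ν : Measure X) [SFinite ν] (hinv : ∀ ψ, ν.map (R ψ) = ν)
    (hang : ∀ᵐ x ∂ν, ∀ ψ, ∃ k : ℤ, ang (R ψ x) = ang x + ψ + k * (N * δ))
    (f : X → ℝ≥0∞) (hf : Measurable f) :
    ∫⁻ x in (ang ⁻¹' (low δ))ᶜ, f (Dmap R ang δ x) ∂ν = (1 / 2 : ℝ≥0∞) * ∫⁻ x, f x ∂ν := by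
  have hT : 0 < N * δ := by positivity
  have hS : MeasurableSet (ang ⁻¹' (low δ))ᶜ := (ham (measurableSet_low δ)).compl
  have hD := measurable_Dmap R ang δ hRm ham
  set h : X → ℝ≥0∞ := (ang ⁻¹' (low δ))ᶜ.indicator (fun x => f (Dmap R ang δ x)) with hh
  have hhm : Measurable h := (hf.comp hD).indicator hS
  have key : ENNReal.ofReal (N * δ) * ∫⁻ x, h x ∂ν
      = ENNReal.ofReal (N * δ) * ((1 / 2 : ℝ≥0∞) * ∫⁻ x, f x ∂ν) := by
    rw [← average_eq R hRm ν hinv (N * δ) h hhm, mul_left_comm,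
      ← average_eq R hRm ν hinv (N * δ) f hf, ← lintegral_const_mul']
    · apply lintegral_congr_ae
      filter_upwards [hang] with x hx
      have hFm : Measurable fun β : ℝ => f (R β x) :=
        hf.comp (hRm.comp (measurable_id.prodMk measurable_const))
      have hFp : Function.Periodic (fun β : ℝ => f (R β x)) (N * δ) := by
        intro β
        show f (R (β + N * δ) x) = f (R β x)
        rw [hper]
      rw [← core_high hδ N hN (fun β => f (R β x)) hFm hFp (ang x)]
      apply lintegral_congr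
      intro α
      obtain ⟨e1, e2⟩ := Dmap_rot R ang hδ N hadd hx α
      by_cases hm : ang x + α ∈ (low δ)ᶜ
      · rw [indicator_of_mem hm, hh,
          indicator_of_mem (show R α x ∈ (ang ⁻¹' (low δ))ᶜ from fun h' => hm (e2.mp h')), e1]
      · rw [indicator_of_notMem hm, hh,
          indicator_of_notMem (show R α x ∉ (ang ⁻¹' (low δ))ᶜ from
            fun h' => hm (fun h'' => h' (e2.mpr h'')))]
    · simp
  rw [← lintegral_indicator hS]
  exact (ENNReal.mul_right_inj (ENNReal.ofReal_pos.mpr hT).ne' ENNReal.ofReal_ne_top).mp key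

theorem map_low {δ : ℝ} (hδ : 0 < δ) (N : ℕ) (hN : 0 < N)
    (hRm : Measurable (fun p : ℝ × X => R p.1 p.2)) (ham : Measurable ang)
    (hadd : ∀ a b x, R (a + b) x = R a (R b x))
    (hper : ∀ a x, R (a + N * δ) x = R a x)
    (ν : Measure X) [SFinite ν] (hinv : ∀ ψ, ν.map (R ψ) = ν)
    (hang : ∀ᵐ x ∂ν, ∀ ψ, ∃ k : ℤ, ang (R ψ x) = ang x + ψ + k * (N * δ)) :
    (ν.restrict (ang ⁻¹' (low δ))).map (Dmap R ang δ) = (1 / 2 : ℝ≥0∞) • ν := by
  have hD := measurable_Dmap R ang δ hRm ham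
  ext s hs
  have := lintegral_low R ang hδ N hN hRm ham hadd hper ν hinv hang (s.indicator 1)
    (measurable_one.indicator hs)
  rw [lintegral_indicator_one hs] at this
  rw [Measure.smul_apply, smul_eq_mul, ← this, Measure.map_apply hD hs,
    ← lintegral_indicator_one (hD hs)]
  rfl

theorem map_high {δ : ℝ} (hδ : 0 < δ) (N : ℕ) (hN : 0 < N)
    (hRm : Measurable (fun p : ℝ × X => R p.1 p.2)) (ham : Measurable ang)
    (hadd : ∀ a b x, R (a + b) x = R a (R b x))
    (hper : ∀ a x, R (a + N * δ) x = R a x)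
    (ν : Measure X) [SFinite ν] (hinv : ∀ ψ, ν.map (R ψ) = ν)
    (hang : ∀ᵐ x ∂ν, ∀ ψ, ∃ k : ℤ, ang (R ψ x) = ang x + ψ + k * (N * δ)) :
    (ν.restrict (ang ⁻¹' (low δ))ᶜ).map (Dmap R ang δ) = (1 / 2 : ℝ≥0∞) • ν := by
  have hD := measurable_Dmap R ang δ hRm ham
  ext s hs
  have := lintegral_high R ang hδ N hN hRm ham hadd hper ν hinv hang (s.indicator 1)
    (measurable_one.indicator hs)
  rw [lintegral_indicator_one hs] at this
  rw [Measure.smul_apply, smul_eq_mul, ← this, Measure.map_apply hD hs,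
    ← lintegral_indicator_one (hD hs)]
  rfl

end Abstract

end Crest.Agent.S0175.RotAux
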