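import Mathlib
import Crest.Agent.S0175_Defs
import Crest.Agent.S0175_RotAbs

set_option autoImplicit false

open MeasureTheory Set
open scoped ENNReal

namespace Crest.Agent.S0175

namespace RotAux

variable {n : ℕ}

theorem rot_zero_coord (θ : ℝ) (x : E (n + 2)) :
    Rot θ x 0 = Real.cos θ * x 0 - Real.sin θ * x 1 := by
  simp [Rot, Pp, Jp, e0, e1]
  ring

theorem rot_one_coord (θ : ℝ) (x : E (n + 2)) :
    Rot θ x 1 = Real.sin θ * x 0 + Real.cos θ * x 1 := by
  simp [Rot, Pp, Jp, e0, e1]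
  ring

theorem rot_other_coord (θ : ℝ) (x : E (n + 2)) (i : Fin (n + 2)) (h0 : i ≠ 0) (h1 : i ≠ 1) :
    Rot θ x i = x i := by
  simp [Rot, Pp, Jp, e0, e1, h0, h1]

theorem rot_add (a b : ℝ) (x : E (n + 2)) : Rot (a + b) x = Rot a (Rot b x) := by
  ext i
  by_cases h0 : i = 0
  · subst h0
    rw [rot_zero_coord, rot_zero_coord, rot_zero_coord, rot_one_coord, Real.cos_add, Real.sin_add]
    ring
  by_cases h1 : i = 1
  · subst h1
    rw [rot_one_coord, rot_one_coord, rot_zero_coord, rot_one_coord, Real.cos_add, Real.sin_add]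
    ring
  rw [rot_other_coord _ _ i h0 h1, rot_other_coord _ _ i h0 h1, rot_other_coord _ _ i h0 h1]

theorem rot_periodic (a : ℝ) (x : E (n + 2)) : Rot (a + 2 * Real.pi) x = Rot a x := by
  simp [Rot]

theorem continuous_rot : Continuous (fun q : ℝ × E (n + 2) => Rot q.1 q.2) := by
  unfold Rot Pp Jp
  fun_prop

/-- the complex number attached to the first two coordinates -/
noncomputable def zc (x : E (n + 2)) : ℂ := (x 0 : ℂ) + (x 1 : ℂ) * Complex.I

/-- the angle of the first two coordinates -/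
noncomputable def ang (x : E (n + 2)) : ℝ := Complex.arg (zc x)

theorem measurable_ang : Measurable (ang : E (n + 2) → ℝ) := by
  unfold ang zc
  apply Complex.measurable_arg.comp
  apply Continuous.measurable
  fun_prop

theorem zc_ne_zero {x : E (n + 2)} (hx : rsq x ≠ 0) : zc x ≠ 0 := by
  intro h
  apply hx
  have h0 : x 0 = 0 := by simpa [zc] using congrArg Complex.re h
  have h1 : x 1 = 0 := by simpa [zc] using congrArg Complex.im h
  simp [rsq, h0, h1]

theorem zc_rot (ψ : ℝ) (x : E (n + 2)) :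
    zc (Rot ψ x) = (Real.Angle.cos (ψ : Real.Angle) + Real.Angle.sin (ψ : Real.Angle) * Complex.I)
      * zc x := by
  unfold zc
  rw [rot_zero_coord, rot_one_coord, Real.Angle.cos_coe, Real.Angle.sin_coe]
  apply Complex.ext
  · simp
  · simp; ring

theorem ang_rot {x : E (n + 2)} (hx : rsq x ≠ 0) (ψ : ℝ) :
    ∃ k : ℤ, ang (Rot ψ x) = ang x + ψ + k * (2 * Real.pi) := by
  have hz := zc_ne_zero hx
  have hu : (Real.Angle.cos (ψ : Real.Angle) + Real.Angle.sin (ψ : Real.Angle) * Complex.I : ℂ)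
      ≠ 0 := by
    intro h
    rw [Real.Angle.cos_coe, Real.Angle.sin_coe] at h
    have h0 : Real.cos ψ = 0 := by
      have := congrArg Complex.re h
      simpa [-Complex.ofReal_cos, -Complex.ofReal_sin] using this
    have h1 : Real.sin ψ = 0 := by
      have := congrArg Complex.im h
      simpa [-Complex.ofReal_cos, -Complex.ofReal_sin] using this
    have := Real.sin_sq_add_cos_sq ψ
    rw [h0, h1] at this
    norm_num at this
  have h1 : ((ang (Rot ψ x) : ℝ) : Real.Angle) = ((ang x + ψ : ℝ) : Real.Angle) := by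
    unfold ang
    rw [zc_rot, Complex.arg_mul_coe_angle hu hz, Complex.arg_cos_add_sin_mul_I_coe_angle,
      Real.Angle.coe_add, add_comm]
  obtain ⟨k, hk⟩ := Real.Angle.angle_eq_iff_two_pi_dvd_sub.mp h1
  exact ⟨k, by linarith⟩

end RotAux

open RotAux in
theorem exists_doubling (n : ℕ) (μ : Measure (E (n + 2))) [IsFiniteMeasure μ]
    (hinv : ∀ θ, μ.map (Rot θ) = μ) (hnull : μ {x | rsq x = 0} = 0) (N : ℕ) (hN : 0 < N) :
    ∃ (D : E (n + 2) → E (n + 2)) (S : Set (E (n + 2))), Measurable D ∧ MeasurableSet S ∧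
      (μ.restrict S).map D = (2 : ℝ≥0∞)⁻¹ • μ ∧ (μ.restrict Sᶜ).map D = (2 : ℝ≥0∞)⁻¹ • μ ∧
      ∀ x, ∃ θ : ℝ, |θ| ≤ 2 * Real.pi / N ∧ D x = Rot θ x := by
  have hN' : (0 : ℝ) < N := by exact_mod_cast hN
  set δ : ℝ := 2 * Real.pi / N with hδdef
  have hδ : 0 < δ := by positivity
  have hNδ : (N : ℝ) * δ = 2 * Real.pi := by rw [hδdef]; field_simp
  have hRm : Measurable (fun q : ℝ × E (n + 2) => Rot q.1 q.2) := continuous_rot.measurable
  have hper : ∀ (a : ℝ) (x : E (n + 2)), Rot (a + N * δ) x = Rot a x := by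
    intro a x; rw [hNδ]; exact rot_periodic a x
  have hang : ∀ᵐ x ∂μ, ∀ ψ, ∃ k : ℤ, ang (Rot ψ x) = ang x + ψ + k * (N * δ) := by
    have : ∀ᵐ x ∂μ, rsq x ≠ 0 := by
      rw [ae_iff]; simpa using hnull
    filter_upwards [this] with x hx ψ
    rw [hNδ]; exact ang_rot hx ψ
  refine ⟨Dmap Rot ang δ, ang ⁻¹' (low δ), measurable_Dmap Rot ang δ hRm measurable_ang,
    measurable_ang (measurableSet_low δ), ?_, ?_, ?_⟩
  · rw [← one_div]
    exact map_low Rot ang hδ N hN hRm measurable_ang rot_add hper μ hinv hang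
  · rw [← one_div]
    exact map_high Rot ang hδ N hN hRm measurable_ang rot_add hper μ hinv hang
  · intro x
    refine ⟨dbl δ (ang x) - ang x, ?_, rfl⟩
    have := abs_dbl_sub_le hδ (ang x)
    linarith

end Crest.Agent.S0175
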