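import Crest.Agent.S0175_Geom

/-!
# S0175, package P3, Rot block
-/

set_option autoImplicit false
open MeasureTheory
open scoped ENNReal ContDiff

namespace Crest.Agent.S0175

open Geom

variable {n : ℕ}

namespace Geom

theorem Rot_eq_lin (θ : ℝ) (x : E (n + 2)) : Rot θ x = lin 1 (Real.cos θ - 1) (Real.sin θ) x := by
  simp [Rot, lin]

theorem lin_add (α β γ : ℝ) (x y : E (n + 2)) :
    lin α β γ (x + y) = lin α β γ x + lin α β γ y := by
  simp only [lin, Pp, Jp, PiLp.add_apply]; module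

theorem lin_smul (α β γ c : ℝ) (x : E (n + 2)) :
    lin α β γ (c • x) = c • lin α β γ x := by
  simp only [lin, Pp, Jp, PiLp.smul_apply, smul_eq_mul]; module

end Geom

theorem norm_Rot (θ : ℝ) (x : E (n + 2)) : ‖Rot θ x‖ = ‖x‖ := by
  have h : ‖Rot θ x‖ ^ 2 = ‖x‖ ^ 2 := by
    rw [Rot_eq_lin, norm_sq_lin]
    have := Real.sin_sq_add_cos_sq θ
    linear_combination rsq x * this
  exact (sq_eq_sq₀ (norm_nonneg _) (norm_nonneg _)).mp h

theorem rsq_Rot (θ : ℝ) (x : E (n + 2)) : rsq (Rot θ x) = rsq x := by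
  rw [Rot_eq_lin, rsq_lin]
  have := Real.sin_sq_add_cos_sq θ
  linear_combination rsq x * this

theorem hh_Rot (θ : ℝ) (x : E (n + 2)) : hh (Rot θ x) = hh x := by
  rw [Rot_eq_lin, hh_lin]; ring

theorem Rot_add (θ θ' : ℝ) (x : E (n + 2)) : Rot θ (Rot θ' x) = Rot (θ + θ') x := by
  rw [Rot_eq_lin, Rot_eq_lin, Rot_eq_lin, lin_lin, Real.cos_add, Real.sin_add]
  congr 1 <;> ring

theorem Rot_zero (x : E (n + 2)) : Rot 0 x = x := by
  simp [Rot]

theorem norm_Rot_sub_le (θ : ℝ) (x : E (n + 2)) : ‖Rot θ x - x‖ ≤ |θ| * ‖x‖ := by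
  have h1 : Rot θ x - x = lin 0 (Real.cos θ - 1) (Real.sin θ) x := by
    simp [Rot, lin]; abel
  have h2 : ‖Rot θ x - x‖ ^ 2 ≤ (|θ| * ‖x‖) ^ 2 := by
    rw [h1, norm_sq_lin, mul_pow, sq_abs]
    have h3 := Real.sin_sq_add_cos_sq θ
    have h4 := Real.one_sub_sq_div_two_le_cos (x := θ)
    have h5 : rsq x ≤ ‖x‖ ^ 2 := by have := hh_nonneg x; unfold hh at this; linarith
    have h6 : 0 ≤ rsq x := by unfold rsq; positivity
    have h7 : (Real.cos θ - 1) ^ 2 + Real.sin θ ^ 2 + 2 * 0 * (Real.cos θ - 1) ≤ θ ^ 2 := by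
      nlinarith
    calc 0 ^ 2 * ‖x‖ ^ 2 + ((Real.cos θ - 1) ^ 2 + Real.sin θ ^ 2 + 2 * 0 * (Real.cos θ - 1)) * rsq x
        = ((Real.cos θ - 1) ^ 2 + Real.sin θ ^ 2 + 2 * 0 * (Real.cos θ - 1)) * rsq x := by ring
      _ ≤ θ ^ 2 * rsq x := mul_le_mul_of_nonneg_right h7 h6
      _ ≤ θ ^ 2 * ‖x‖ ^ 2 := mul_le_mul_of_nonneg_left h5 (sq_nonneg _)
  exact (sq_le_sq₀ (norm_nonneg _) (by positivity)).mp h2

theorem continuous_Rot : Continuous (fun q : ℝ × E (n + 2) => Rot q.1 q.2) := by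
  unfold Rot
  have hP : Continuous (fun q : ℝ × E (n + 2) => Pp q.2) := continuous_Pp.comp continuous_snd
  have hJ : Continuous (fun q : ℝ × E (n + 2) => Jp q.2) := continuous_Jp.comp continuous_snd
  have hc : Continuous (fun q : ℝ × E (n + 2) => Real.cos q.1 - 1) :=
    (Real.continuous_cos.comp continuous_fst).sub continuous_const
  have hs : Continuous (fun q : ℝ × E (n + 2) => Real.sin q.1) :=
    Real.continuous_sin.comp continuous_fst
  exact (continuous_snd.add (hc.smul hP)).add (hs.smul hJ)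

namespace Geom

/-- `Rot θ` as a linear isometry equivalence. -/
noncomputable def RotLI (θ : ℝ) : E (n + 2) ≃ₗᵢ[ℝ] E (n + 2) where
  toFun := Rot θ
  invFun := Rot (-θ)
  map_add' x y := by rw [Rot_eq_lin, Rot_eq_lin, Rot_eq_lin, lin_add]
  map_smul' c x := by rw [Rot_eq_lin, Rot_eq_lin, lin_smul]; rfl
  left_inv x := by rw [Rot_add]; simp [Rot_zero]
  right_inv x := by rw [Rot_add]; simp [Rot_zero]
  norm_map' x := norm_Rot θ x

end Geom

theorem map_Rot_volume (θ : ℝ) : (volume : Measure (E (n + 2))).map (Rot θ) = volume :=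
  (RotLI (n := n) θ).measurePreserving.map_eq

section P3
variable {s : ℝ} (p : Params s) (n : ℕ)

theorem Rot_mem_regB (θ : ℝ) {x : E (n + 2)} (hx : x ∈ p.regB n) : Rot θ x ∈ p.regB n := by
  refine ⟨?_, ?_⟩
  · rw [norm_Rot]; exact hx.1
  · rw [hh_Rot]; exact hx.2

end P3

end Crest.Agent.S0175
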