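import Crest.Statements.S0175
import Crest.Agent.S0175_Abstract
import Crest.Agent.S0175_Approx
import Crest.Agent.S0175_Contact
import Crest.Agent.S0175_Measure
import Crest.Agent.S0175_Param
import Crest.Agent.S0175_Rot
import Crest.Agent.S0175_JacB
import Crest.Agent.S0175_Density
import Crest.Agent.S0175_RotBasic

set_option autoImplicit false
open MeasureTheory
open scoped ENNReal ContDiff
open Crest.AnalysisR.OT
open Crest Crest.AnalysisR Crest.AnalysisR.OT

namespace Crest.Agent.S0175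

open Meas in
/-- The theorem in dimension `n + 2`, for a given parameter family. -/
theorem main {s : ℝ} (hs : 0 < s) (p : Params s) (n : ℕ) :
    ∃ ρ : E (n + 2) → ℝ, (∀ x, 0 ≤ ρ x) ∧ ContDiff ℝ ∞ ρ ∧ HasCompactSupport ρ ∧
      ContDiff ℝ ∞ (fun x => Real.sqrt (ρ x)) ∧ ∫ x, ρ x = 1 ∧
      ∃ π₀ : Measure (E (n + 2) × E (n + 2) × E (n + 2)),
        IsCoupling₃ (measOfDensity ρ) π₀ ∧ ∫⁻ q, tripleCost s q ∂π₀ < ⊤ ∧
        (∀ π : Measure (E (n + 2) × E (n + 2) × E (n + 2)), IsCoupling₃ (measOfDensity ρ) π →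
          ∫⁻ q, tripleCost s q ∂π₀ ≤ ∫⁻ q, tripleCost s q ∂π) ∧
        (∀ T₂ T₃ : E (n + 2) → E (n + 2), Measurable T₂ → Measurable T₃ →
          (measOfDensity ρ).map T₂ = measOfDensity ρ → (measOfDensity ρ).map T₃ = measOfDensity ρ →
          ∫⁻ q, tripleCost s q ∂π₀ < ∫⁻ x, tripleCost s (x, T₂ x, T₃ x) ∂(measOfDensity ρ)) ∧
        (∀ ε : ℝ≥0∞, 0 < ε → ∃ T₂ T₃ : E (n + 2) → E (n + 2), Measurable T₂ ∧ Measurable T₃ ∧
          (measOfDensity ρ).map T₂ = measOfDensity ρ ∧ (measOfDensity ρ).map T₃ = measOfDensity ρ ∧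
          ∫⁻ x, tripleCost s (x, T₂ x, T₃ x) ∂(measOfDensity ρ)
            < ∫⁻ q, tripleCost s q ∂π₀ + ε) := by
  obtain ⟨ψA, ψB, h1, h2, h3, h4, h5, h6, h7, h8, h9, h10, h11⟩ := exists_density p n
  have hD : Dens p n ψA ψB := ⟨h1, h2, h3, h4, h5, h6, h7, h8, h9, h10, h11⟩
  have hmA : MeasurableSet (p.regA n) := (isOpen_regA p n).measurableSet
  have hmB : MeasurableSet (p.regB n) := (isOpen_regB p n).measurableSet
  have hdisj : Disjoint (p.regA n) (p.regB n) := disjoint_regA_regB p n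
  set μ : Measure (E (n + 2)) := measOfDensity (rho n ψA ψB) with hμdef
  set y : E (n + 2) → E (n + 2) := yM p n 1 with hydef
  set z : E (n + 2) → E (n + 2) := yM p n (-1) with hzdef
  have hyeq : ∀ x ∈ p.regA n, y x = p.Yeps n 1 x := fun x hx => yM_eq hx
  have hzeq : ∀ x ∈ p.regA n, z x = p.Yeps n (-1) x := fun x hx => yM_eq hx
  have hy : Measurable y := measurable_yM hmA (continuousOn_Yeps p n 1)
  have hz : Measurable z := measurable_yM hmA (continuousOn_Yeps p n (-1))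
  have hpy' : (nu ψA).map y = (2 : ℝ≥0∞)⁻¹ • nu ψB :=
    hD.push hmA hmB (Or.inl rfl) (lintegral_regB p n (Or.inl rfl)) hy hyeq
  have hpz' : (nu ψA).map z = (2 : ℝ≥0∞)⁻¹ • nu ψB :=
    hD.push hmA hmB (Or.inr rfl) (lintegral_regB p n (Or.inr rfl)) hz hzeq
  have hrA : μ.restrict (p.regA n) = nu ψA := hD.restrict_A hdisj hmA
  have hrB : μ.restrict (p.regB n) = nu ψB := hD.restrict_B hdisj hmB
  have hfin : IsFiniteMeasure μ := hD.isFiniteMeasure
  have hpy : (μ.restrict (p.regA n)).map y = (2 : ℝ≥0∞)⁻¹ • μ.restrict (p.regB n) := by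
    rw [hrA, hrB]; exact hpy'
  have hpz : (μ.restrict (p.regA n)).map z = (2 : ℝ≥0∞)⁻¹ • μ.restrict (p.regB n) := by
    rw [hrA, hrB]; exact hpz'
  have hfull : μ (p.regA n ∪ p.regB n)ᶜ = 0 := hD.mu_compl hmA hmB
  have hyinj : Set.InjOn y (p.regA n) := by
    intro a ha b hb hab
    rw [hyeq a ha, hyeq b hb] at hab
    exact injOn_Yeps p n (Or.inl rfl) ha hb hab
  have hzinj : Set.InjOn z (p.regA n) := by
    intro a ha b hb hab
    rw [hzeq a ha, hzeq b hb] at hab
    exact injOn_Yeps p n (Or.inr rfl) ha hb hab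
  obtain ⟨C, hC, hCb⟩ := exists_bound hs p n
  have hbdd : ∀ (f : E (n + 2) → ℝ≥0∞) (S : Set (E (n + 2))) (C : ℝ≥0∞), C ≠ ⊤ →
      (∀ x ∈ S, f x ≤ C) → MeasurableSet S → ∫⁻ x in S, f x ∂μ ≠ ⊤ := by
    intro f S C hC hf hS
    have h1 : ∫⁻ x in S, f x ∂μ ≤ ∫⁻ _ in S, C ∂μ := setLIntegral_mono' hS hf
    rw [setLIntegral_const] at h1
    exact ne_top_of_le_ne_top (ENNReal.mul_ne_top hC (measure_ne_top _ _)) h1
  have hmh : Measurable (fun x : E (n + 2) => ENNReal.ofReal (hh x)) := by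
    apply Measurable.ennreal_ofReal
    unfold hh rsq
    fun_prop
  have S : Setup μ (tripleCost s) (p.regA n) (p.regB n) y z (p.fA n) (p.fB n)
      (fun x => ENNReal.ofReal (hh x)) :=
    { mA := hmA
      mB := hmB
      disj := hdisj
      full := hfull
      posA := hD.mu_A_ne_zero hdisj hmA hy hpy'
      my := hy
      mz := hz
      yAB := fun x hx => by rw [hyeq x hx]; exact Yeps_mem_regB p n (Or.inl rfl) hx
      zAB := fun x hx => by rw [hzeq x hx]; exact Yeps_mem_regB p n (Or.inr rfl) hx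
      push_y := hpy
      push_z := hpz
      inj_y := hyinj
      inj_z := hzinj
      ne_yz := fun x hx => by rw [hyeq x hx, hzeq x hx]; exact ne_yz' p n x hx
      mc := measurable_tripleCost s
      symm12 := tripleCost_symm12 s
      symm23 := tripleCost_symm23 s
      mfA := measurable_fA p n
      mfB := measurable_fB p n
      mh := hmh
      int_fA := hbdd _ _ C hC (fun x _ => (hCb x).1) hmA
      int_fB := hbdd _ _ C hC (fun x _ => (hCb x).2) hmB
      int_h := hbdd _ _ (ENNReal.ofReal p.eta2) ENNReal.ofReal_ne_top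
        (fun x hx => ENNReal.ofReal_le_ofReal hx.2.le) hmB
      dual_ABB := dual_ABB' hs p n
      dual_AAB := dual_AAB' hs p n
      dual_AAA := dual_AAA' hs p n
      dual_BBB := fun a _ b _ d _ => tripleCost_ne_zero hs (a, b, d)
      eq_graph := fun x hx => by rw [hyeq x hx, hzeq x hx]; exact eq_graph' hs p n x hx
      moment_le := fun a ha b hb d hd h => by
        simp only [hyeq a ha, hzeq a ha]; exact moment_le' hs p n a ha b hb d hd h
      moment_eq := fun a ha b hb d hd h h' => by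
        simp only [hyeq a ha, hzeq a ha] at h' ⊢
        exact moment_eq' hs p n a ha b hb d hd h h' }
  refine ⟨rho n ψA ψB, rho_nonneg, hD.contDiff_rho, hD.hasCompactSupport_rho,
    hD.contDiff_sqrt_rho hdisj, hD.integral_rho hy hpy', plan0 μ (p.regA n) y z, S.isCoupling,
    S.lintegral_plan0_lt_top, S.optimal, S.no_monge, ?_⟩
  rw [S.lintegral_plan0]
  -- the approximating maps
  obtain ⟨η, hη, hηy⟩ := Approx.exists_left_inverse hmA hy hyinj
  have hyη : ∀ b ∈ p.regB n, η b ∈ p.regA n ∧ y (η b) = b := by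
    intro b hb
    rw [← image_Yeps p n (Or.inl rfl)] at hb
    obtain ⟨a, ha, rfl⟩ := hb
    rw [← hyeq a ha, hηy a ha]
    exact ⟨ha, rfl⟩
  have hfinA : ∫⁻ x in p.regA n, tripleCost s (x, y x, z x) ∂μ ≠ ⊤ := by
    have h := S.lintegral_plan0_lt_top
    rw [S.lintegral_plan0] at h
    intro htop
    rw [htop] at h
    simp at h
  have hRotmeas : ∀ θ, Measurable (Rot θ : E (n + 2) → E (n + 2)) := by
    intro θ
    have : Continuous (fun x : E (n + 2) => Rot θ x) :=
      continuous_Rot.comp (Continuous.prodMk continuous_const continuous_id)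
    exact this.measurable
  have hinv : ∀ θ, (μ.restrict (p.regB n)).map (Rot θ) = μ.restrict (p.regB n) := by
    intro θ
    rw [hrB]
    exact hD.map_Rot map_Rot_volume hRotmeas θ
  have hnull : μ.restrict (p.regB n) {x : E (n + 2) | rsq x = 0} = 0 := by
    rw [hrB]
    exact hD.nu_rsq_zero hmB (fun x hx => rsq_pos_of_mem_regB p n hx)
  refine Approx.approx_concrete μ hs.le hmA hdisj hfull hy hz hη hpy hpz hηy hyη p.ell_pos
    (fun x hx => by rw [hyeq x hx]; exact (ell_le_dist p n x hx).1)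
    (fun x hx => by rw [hyeq x hx, hzeq x hx]; exact (ell_le_dist p n x hx).2) hfinA ?_
  intro δ hδ
  -- choose `N`
  set R : ℝ := Real.sqrt (p.F p.Ea) with hR
  obtain ⟨N, hN⟩ := exists_nat_gt (2 * Real.pi * R / δ)
  have hR0 : 0 ≤ R := Real.sqrt_nonneg _
  have hNpos : (0 : ℝ) < N := lt_of_le_of_lt (by positivity) hN
  have hN0 : 0 < N := by exact_mod_cast hNpos
  obtain ⟨D, Sd, hDm, hSd, hD1, hD2, hDrot⟩ :=
    exists_doubling n (μ.restrict (p.regB n)) hinv hnull N hN0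
  refine ⟨Sd ∩ p.regB n, Sdᶜ ∩ p.regB n, D, hSd.inter hmB, hSd.compl.inter hmB, ?_, ?_, hDm, ?_, ?_,
    ?_⟩
  · rw [Set.disjoint_left]
    intro x hx hx'
    exact hx'.1 hx.1
  · rw [← Set.union_inter_distrib_right, Set.union_compl_self, Set.univ_inter]
  · rw [← Measure.restrict_restrict hSd]; exact hD1
  · rw [← Measure.restrict_restrict hSd.compl]; exact hD2
  · intro x hx
    obtain ⟨θ, hθ, hDx⟩ := hDrot x
    rw [hDx]
    refine ⟨Rot_mem_regB p n θ hx, ?_⟩
    rw [norm_sub_rev]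
    have hxR : ‖x‖ ≤ R := Real.le_sqrt_of_sq_le hx.1.2.le
    calc ‖Rot θ x - x‖ ≤ |θ| * ‖x‖ := norm_Rot_sub_le θ x
      _ ≤ (2 * Real.pi / N) * R := by gcongr
      _ ≤ δ := by
        rw [div_lt_iff₀ hδ] at hN
        rw [div_mul_eq_mul_div, div_le_iff₀ hNpos]
        linarith

/-- For every d ≥ 2 and s > 0 there is a smooth, compactly supported, nonnegative ρ on ℝᵈ with integral 1 and smooth square root such that, for μ = ρ dx and the cost summing ‖xᵢ - xⱼ‖^(-s) over the three pairs of a triple: some coupling with all three marginals μ has finite cost, minimal among all such couplings; every pair of Borel maps T₂, T₃ pushing μ to itself gives the plan x ↦ (x, T₂ x, T₃ x) strictly larger cost; and such pairs have costs arbitrarily close to that minimum. -/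
theorem result
    (d : ℕ) (hd : 2 ≤ d) (s : ℝ) (hs : 0 < s) :
    ∃ ρ : EuclideanSpace ℝ (Fin d) → ℝ, (∀ x, 0 ≤ ρ x) ∧ ContDiff ℝ ∞ ρ ∧ HasCompactSupport ρ ∧
      ContDiff ℝ ∞ (fun x => Real.sqrt (ρ x)) ∧ ∫ x, ρ x = 1 ∧
      ∃ π₀ : Measure (EuclideanSpace ℝ (Fin d) × EuclideanSpace ℝ (Fin d) × EuclideanSpace ℝ (Fin d)),
        IsCoupling₃ (measOfDensity ρ) π₀ ∧ ∫⁻ p, tripleCost s p ∂π₀ < ⊤ ∧
        (∀ π : Measure (EuclideanSpace ℝ (Fin d) × EuclideanSpace ℝ (Fin d) × EuclideanSpace ℝ (Fin d)), IsCoupling₃ (measOfDensity ρ) π →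
          ∫⁻ p, tripleCost s p ∂π₀ ≤ ∫⁻ p, tripleCost s p ∂π) ∧
        (∀ T₂ T₃ : EuclideanSpace ℝ (Fin d) → EuclideanSpace ℝ (Fin d), Measurable T₂ → Measurable T₃ →
          (measOfDensity ρ).map T₂ = measOfDensity ρ → (measOfDensity ρ).map T₃ = measOfDensity ρ →
          ∫⁻ p, tripleCost s p ∂π₀ < ∫⁻ x, tripleCost s (x, T₂ x, T₃ x) ∂(measOfDensity ρ)) ∧
        (∀ ε : ℝ≥0∞, 0 < ε → ∃ T₂ T₃ : EuclideanSpace ℝ (Fin d) → EuclideanSpace ℝ (Fin d), Measurable T₂ ∧ Measurable T₃ ∧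
          (measOfDensity ρ).map T₂ = measOfDensity ρ ∧ (measOfDensity ρ).map T₃ = measOfDensity ρ ∧
          ∫⁻ x, tripleCost s (x, T₂ x, T₃ x) ∂(measOfDensity ρ) < ∫⁻ p, tripleCost s p ∂π₀ + ε) := by
  obtain ⟨n, rfl⟩ := Nat.exists_eq_add_of_le' hd
  obtain ⟨p⟩ := exists_params hs
  exact main hs p n

end Crest.Agent.S0175
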