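import Mathlib
import Crest.Prelude.Def_MultiMarginal
import Crest.Agent.S0175_Defs

/-!
Package P1 of row 130 (S0175), helper32: the pointwise dual inequality for the three-body cost
`‖x-y‖^(-s) + ‖x-z‖^(-s) + ‖y-z‖^(-s)`, its equality case, and the `ℝ≥0∞` forms for the Prelude's
`pairCost` / `tripleCost`.
-/

set_option autoImplicit false

namespace Crest.Agent.S0175

open Crest.AnalysisR.OT
open scoped ENNReal

lemma phi_pos (s : ℝ) {t : ℝ} (ht : 0 < t) : 0 < phi s t := Real.rpow_pos_of_pos ht _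

lemma gam_pos {s : ℝ} (hs : 0 < s) {t : ℝ} (ht : 0 < t) : 0 < gam s t :=
  mul_pos (by positivity) (Real.rpow_pos_of_pos ht _)

/-- Bernoulli for negative exponents -/
lemma one_add_mul_le_rpow_of_neg {p x : ℝ} (hp : p < 0) (hx : 0 < x) :
    1 + p * (x - 1) ≤ x ^ p := by
  rw [Real.rpow_def_of_pos hx]
  have h1 : Real.log x ≤ x - 1 := Real.log_le_sub_one_of_pos hx
  have h2 : Real.log x * p + 1 ≤ Real.exp (Real.log x * p) := Real.add_one_le_exp _
  nlinarith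

lemma one_add_mul_lt_rpow_of_neg {p x : ℝ} (hp : p < 0) (hx : 0 < x) (hx1 : x ≠ 1) :
    1 + p * (x - 1) < x ^ p := by
  rw [Real.rpow_def_of_pos hx]
  have h1 : Real.log x < x - 1 := Real.log_lt_sub_one_of_pos hx hx1
  have h2 : Real.log x * p + 1 ≤ Real.exp (Real.log x * p) := Real.add_one_le_exp _
  nlinarith

lemma phi_eq_mul {s t T : ℝ} (ht : 0 < t) (hT : 0 < T) :
    phi s T = phi s t * (T / t) ^ (-(s / 2)) := by
  unfold phi
  rw [← Real.mul_rpow ht.le (by positivity)]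
  congr 1
  field_simp

lemma gam_eq {s t : ℝ} (ht : 0 < t) : gam s t = s / 2 * (phi s t / t) := by
  unfold gam phi
  rw [Real.rpow_sub_one ht.ne']

/-- tangent line inequality for `φ` -/
theorem phi_tangent {s t T : ℝ} (hs : 0 < s) (ht : 0 < t) (hT : 0 < T) :
    phi s t - gam s t * (T - t) ≤ phi s T := by
  have h := one_add_mul_le_rpow_of_neg (p := -(s / 2)) (x := T / t) (by linarith) (by positivity)
  rw [phi_eq_mul ht hT, gam_eq ht]
  have hp := phi_pos s ht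
  have h2 : phi s t * (1 + -(s / 2) * (T / t - 1)) ≤ phi s t * (T / t) ^ (-(s / 2)) :=
    mul_le_mul_of_nonneg_left h hp.le
  have h3 : phi s t * (1 + -(s / 2) * (T / t - 1)) = phi s t - s / 2 * (phi s t / t) * (T - t) := by
    field_simp
    ring
  linarith

theorem phi_tangent_strict {s t T : ℝ} (hs : 0 < s) (ht : 0 < t) (hT : 0 < T) (hne : T ≠ t) :
    phi s t - gam s t * (T - t) < phi s T := by
  have hne' : T / t ≠ 1 := by
    intro h; rw [div_eq_one_iff_eq ht.ne'] at h; exact hne h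
  have h := one_add_mul_lt_rpow_of_neg (p := -(s / 2)) (x := T / t) (by linarith) (by positivity) hne'
  rw [phi_eq_mul ht hT, gam_eq ht]
  have hp := phi_pos s ht
  have h2 : phi s t * (1 + -(s / 2) * (T / t - 1)) < phi s t * (T / t) ^ (-(s / 2)) :=
    mul_lt_mul_of_pos_left h hp
  have h3 : phi s t * (1 + -(s / 2) * (T / t - 1)) = phi s t - s / 2 * (phi s t / t) * (T - t) := by
    field_simp
    ring
  linarith

/-- equality in the tangent line inequality forces `T = t` -/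
theorem eq_of_phi_le_tangent {s t T : ℝ} (hs : 0 < s) (ht : 0 < t) (hT : 0 < T)
    (h : phi s T ≤ phi s t - gam s t * (T - t)) : T = t := by
  by_contra hne
  exact absurd h (not_le.2 (phi_tangent_strict hs ht hT hne))

section inner

variable {V : Type*} [NormedAddCommGroup V] [InnerProductSpace ℝ V]

/-- completing the square -/
theorem square_identity (α β : ℝ) (hβ : β ≠ 0) (x y z : V) :
    -α * ‖x - y‖ ^ 2 - α * ‖x - z‖ ^ 2 - β * ‖y - z‖ ^ 2 =
      -(2 * α + α ^ 2 / β) * ‖x‖ ^ 2 - (α + 2 * β) * ‖y‖ ^ 2 - (α + 2 * β) * ‖z‖ ^ 2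
        + β * ‖y + z + (α / β) • x‖ ^ 2 := by
  have e1 : ‖x - y‖ ^ 2 = ‖x‖ ^ 2 - 2 * inner ℝ x y + ‖y‖ ^ 2 := norm_sub_sq_real x y
  have e2 : ‖x - z‖ ^ 2 = ‖x‖ ^ 2 - 2 * inner ℝ x z + ‖z‖ ^ 2 := norm_sub_sq_real x z
  have e3 : ‖y - z‖ ^ 2 = ‖y‖ ^ 2 - 2 * inner ℝ y z + ‖z‖ ^ 2 := norm_sub_sq_real y z
  have e4 : ‖y + z + (α / β) • x‖ ^ 2 = ‖y‖ ^ 2 + ‖z‖ ^ 2 + (α / β) ^ 2 * ‖x‖ ^ 2
      + 2 * inner ℝ y z + 2 * (α / β) * inner ℝ x y + 2 * (α / β) * inner ℝ x z := by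
    rw [norm_add_sq_real, norm_add_sq_real, norm_smul, inner_add_left, inner_smul_right,
      inner_smul_right, real_inner_comm x y, real_inner_comm x z, mul_pow, Real.norm_eq_abs,
      sq_abs]
    ring
  rw [e1, e2, e3, e4]
  field_simp
  ring

/-- the real-valued three-body cost (meaningful for pairwise distinct points) -/
noncomputable def cReal (s : ℝ) (x y z : V) : ℝ :=
  phi s (‖x - y‖ ^ 2) + phi s (‖x - z‖ ^ 2) + phi s (‖y - z‖ ^ 2)

/-- the constant `K = 2φ(t₁)+φ(t₂)+2 γ(t₁) t₁+γ(t₂) t₂` -/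
noncomputable def Kc (s t1 t2 : ℝ) : ℝ :=
  2 * phi s t1 + phi s t2 + 2 * gam s t1 * t1 + gam s t2 * t2

/-- the coefficient of `‖x‖²` (apex) -/
noncomputable def aC (s t1 t2 : ℝ) : ℝ := 2 * gam s t1 + gam s t1 ^ 2 / gam s t2

/-- the coefficient `κ = α + 2β` of `‖y‖²`, `‖z‖²` -/
noncomputable def kapC (s t1 t2 : ℝ) : ℝ := gam s t1 + 2 * gam s t2

lemma kapC_pos {s t1 t2 : ℝ} (hs : 0 < s) (h1 : 0 < t1) (h2 : 0 < t2) : 0 < kapC s t1 t2 := by
  have := gam_pos hs h1; have := gam_pos hs h2; unfold kapC; positivity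

lemma Kc_eq {s t1 t2 : ℝ} (h1 : 0 < t1) (h2 : 0 < t2) :
    Kc s t1 t2 = (s / 2 + 1) * (2 * phi s t1 + phi s t2) := by
  unfold Kc
  rw [gam_eq h1, gam_eq h2]
  field_simp
  ring

/-- exact formula: cost minus tangent planes -/
theorem cReal_ge_aux {s t1 t2 : ℝ} (hs : 0 < s) (h1 : 0 < t1) (h2 : 0 < t2) {x y z : V}
    (hxy : x ≠ y) (hxz : x ≠ z) (hyz : y ≠ z) :
    Kc s t1 t2 - aC s t1 t2 * ‖x‖ ^ 2 - kapC s t1 t2 * ‖y‖ ^ 2 - kapC s t1 t2 * ‖z‖ ^ 2
      + gam s t2 * ‖y + z + (gam s t1 / gam s t2) • x‖ ^ 2 ≤ cReal s x y z := by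
  have p1 : 0 < ‖x - y‖ ^ 2 := by have := norm_pos_iff.2 (sub_ne_zero.2 hxy); positivity
  have p2 : 0 < ‖x - z‖ ^ 2 := by have := norm_pos_iff.2 (sub_ne_zero.2 hxz); positivity
  have p3 : 0 < ‖y - z‖ ^ 2 := by have := norm_pos_iff.2 (sub_ne_zero.2 hyz); positivity
  have q1 := phi_tangent hs h1 p1
  have q2 := phi_tangent hs h1 p2
  have q3 := phi_tangent hs h2 p3
  have hid := square_identity (gam s t1) (gam s t2) (gam_pos hs h2).ne' x y z
  unfold cReal Kc aC kapC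
  linarith

/-- (1) the dual inequality, real form -/
theorem cReal_ge {s t1 t2 : ℝ} (hs : 0 < s) (h1 : 0 < t1) (h2 : 0 < t2) {x y z : V}
    (hxy : x ≠ y) (hxz : x ≠ z) (hyz : y ≠ z) :
    Kc s t1 t2 - aC s t1 t2 * ‖x‖ ^ 2 - kapC s t1 t2 * ‖y‖ ^ 2 - kapC s t1 t2 * ‖z‖ ^ 2
      ≤ cReal s x y z := by
  have h := cReal_ge_aux hs h1 h2 hxy hxz hyz
  have hg := gam_pos hs h2
  have : 0 ≤ gam s t2 * ‖y + z + (gam s t1 / gam s t2) • x‖ ^ 2 := by positivity
  linarith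

/-- the contact set of parameters `(t₁,t₂)` with apex `x` -/
def Contact (s t1 t2 : ℝ) (x y z : V) : Prop :=
  ‖x - y‖ ^ 2 = t1 ∧ ‖x - z‖ ^ 2 = t1 ∧ ‖y - z‖ ^ 2 = t2 ∧
    y + z = -(gam s t1 / gam s t2) • x

/-- (1) equality case, real form -/
theorem contact_of_cReal_le {s t1 t2 : ℝ} (hs : 0 < s) (h1 : 0 < t1) (h2 : 0 < t2) {x y z : V}
    (hxy : x ≠ y) (hxz : x ≠ z) (hyz : y ≠ z)
    (h : cReal s x y z ≤
      Kc s t1 t2 - aC s t1 t2 * ‖x‖ ^ 2 - kapC s t1 t2 * ‖y‖ ^ 2 - kapC s t1 t2 * ‖z‖ ^ 2) :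
    Contact s t1 t2 x y z := by
  have p1 : 0 < ‖x - y‖ ^ 2 := by have := norm_pos_iff.2 (sub_ne_zero.2 hxy); positivity
  have p2 : 0 < ‖x - z‖ ^ 2 := by have := norm_pos_iff.2 (sub_ne_zero.2 hxz); positivity
  have p3 : 0 < ‖y - z‖ ^ 2 := by have := norm_pos_iff.2 (sub_ne_zero.2 hyz); positivity
  have q1 := phi_tangent hs h1 p1
  have q2 := phi_tangent hs h1 p2
  have q3 := phi_tangent hs h2 p3
  have hid := square_identity (gam s t1) (gam s t2) (gam_pos hs h2).ne' x y z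
  have hg := gam_pos hs h2
  have hsq : 0 ≤ gam s t2 * ‖y + z + (gam s t1 / gam s t2) • x‖ ^ 2 := by positivity
  unfold cReal Kc aC kapC at h
  refine ⟨eq_of_phi_le_tangent hs h1 p1 (by linarith), eq_of_phi_le_tangent hs h1 p2 (by linarith),
    eq_of_phi_le_tangent hs h2 p3 (by linarith), ?_⟩
  have h0 : gam s t2 * ‖y + z + (gam s t1 / gam s t2) • x‖ ^ 2 = 0 := by linarith
  have h0' : ‖y + z + (gam s t1 / gam s t2) • x‖ ^ 2 = 0 := by
    rcases mul_eq_zero.1 h0 with h | h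
    · exact absurd h hg.ne'
    · exact h
  have h0'' : y + z + (gam s t1 / gam s t2) • x = 0 := by
    rw [← norm_eq_zero]; exact pow_eq_zero_iff (two_ne_zero) |>.1 h0'
  rw [neg_smul]
  exact eq_neg_of_add_eq_zero_left h0''

/-- (1) equality holds on the contact set -/
theorem cReal_eq_of_contact {s t1 t2 : ℝ} (hs : 0 < s) (h2 : 0 < t2) {x y z : V}
    (h : Contact s t1 t2 x y z) :
    cReal s x y z =
      Kc s t1 t2 - aC s t1 t2 * ‖x‖ ^ 2 - kapC s t1 t2 * ‖y‖ ^ 2 - kapC s t1 t2 * ‖z‖ ^ 2 := by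
  obtain ⟨e1, e2, e3, e4⟩ := h
  have hid := square_identity (gam s t1) (gam s t2) (gam_pos hs h2).ne' x y z
  have h0 : y + z + (gam s t1 / gam s t2) • x = 0 := by
    rw [e4, neg_smul]; simp
  rw [h0, norm_zero, e1, e2, e3] at hid
  unfold cReal Kc aC kapC
  rw [e1, e2, e3]
  linarith

/-- geometric form of a contact triple -/
theorem contact_form {s t1 t2 : ℝ} (hs : 0 < s) (h1 : 0 < t1) (h2 : 0 < t2) {x y z : V}
    (h : Contact s t1 t2 x y z) :
    ∃ v : V, y = -(gam s t1 / (2 * gam s t2)) • x + v ∧ z = -(gam s t1 / (2 * gam s t2)) • x - v ∧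
      ‖v‖ ^ 2 = t2 / 4 ∧ inner ℝ x v = 0 ∧
      (1 + gam s t1 / (2 * gam s t2)) ^ 2 * ‖x‖ ^ 2 = t1 - t2 / 4 := by
  obtain ⟨e1, e2, e3, e4⟩ := h
  have ha := gam_pos hs h1
  have hb := gam_pos hs h2
  set lam := gam s t1 / (2 * gam s t2) with hlam
  have hlam0 : 0 < lam := by positivity
  have e4' : y + z = -(2 * lam) • x := by
    rw [e4, hlam]; congr 2; field_simp
  set v : V := (1 / 2 : ℝ) • (y - z) with hv
  have hy : y = -lam • x + v := by
    have : y = (1 / 2 : ℝ) • (y + z) + (1 / 2 : ℝ) • (y - z) := by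
      rw [← smul_add]; simp only [add_add_sub_cancel]; rw [← two_smul ℝ y, smul_smul]; norm_num
    rw [this, e4', smul_smul]
    congr 2
    ring
  have hz : z = -lam • x - v := by
    have : z = (1 / 2 : ℝ) • (y + z) - (1 / 2 : ℝ) • (y - z) := by
      rw [← smul_sub]; simp only [add_sub_sub_cancel]; rw [← two_smul ℝ z, smul_smul]; norm_num
    rw [this, e4', smul_smul]
    congr 2
    ring
  have hvn : ‖v‖ ^ 2 = t2 / 4 := by
    rw [hv, norm_smul, mul_pow, e3]; norm_num; ring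
  have hxy : x - y = (1 + lam) • x - v := by
    rw [hy, add_smul, one_smul, neg_smul]; abel
  have hxz : x - z = (1 + lam) • x + v := by
    rw [hz, add_smul, one_smul, neg_smul]; abel
  have n1 : ‖x - y‖ ^ 2 = (1 + lam) ^ 2 * ‖x‖ ^ 2 - 2 * (1 + lam) * inner ℝ x v + ‖v‖ ^ 2 := by
    rw [hxy, norm_sub_sq_real, norm_smul, inner_smul_left, mul_pow, Real.norm_eq_abs, sq_abs]
    simp; ring
  have n2 : ‖x - z‖ ^ 2 = (1 + lam) ^ 2 * ‖x‖ ^ 2 + 2 * (1 + lam) * inner ℝ x v + ‖v‖ ^ 2 := by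
    rw [hxz, norm_add_sq_real, norm_smul, inner_smul_left, mul_pow, Real.norm_eq_abs, sq_abs]
    simp; ring
  have hin : inner ℝ x v = 0 := by
    have : 4 * (1 + lam) * inner ℝ x v = 0 := by linarith
    rcases mul_eq_zero.1 this with h | h
    · exfalso; linarith
    · exact h
  refine ⟨v, hy, hz, hvn, hin, ?_⟩
  rw [hin] at n1
  linarith

end inner

section ennreal

variable {V : Type*} [NormedAddCommGroup V]

lemma pairCost_comm (s : ℝ) (x y : V) : pairCost s x y = pairCost s y x := by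
  unfold pairCost; rw [norm_sub_rev]

lemma pairCost_self {s : ℝ} (hs : 0 < s) (x : V) : pairCost s x x = ⊤ := by
  unfold pairCost
  simp [ENNReal.zero_rpow_of_neg (show -s < 0 by linarith)]

lemma pairCost_eq_ofReal (s : ℝ) {x y : V} (h : x ≠ y) :
    pairCost s x y = ENNReal.ofReal (phi s (‖x - y‖ ^ 2)) := by
  have hpos : 0 < ‖x - y‖ := norm_pos_iff.2 (sub_ne_zero.2 h)
  unfold pairCost phi
  rw [ENNReal.ofReal_rpow_of_pos hpos]
  congr 1
  rw [← Real.rpow_natCast, ← Real.rpow_mul hpos.le]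
  congr 1
  push_cast
  ring

lemma pairCost_ne_zero {s : ℝ} (hs : 0 < s) (x y : V) : pairCost s x y ≠ 0 := by
  unfold pairCost
  intro h
  rw [ENNReal.rpow_eq_zero_iff] at h
  rcases h with ⟨_, h2⟩ | ⟨h1, _⟩
  · linarith
  · exact ENNReal.ofReal_ne_top h1

/-- lower bound of the pair cost for close points -/
lemma le_pairCost_of_norm_le {s : ℝ} (hs : 0 < s) {x y : V} {R : ℝ} (hR : 0 < R)
    (h : ‖x - y‖ ≤ R) : ENNReal.ofReal (R ^ (-s)) ≤ pairCost s x y := by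
  unfold pairCost
  rw [← ENNReal.ofReal_rpow_of_pos hR]
  rw [ENNReal.rpow_neg, ENNReal.rpow_neg, ENNReal.inv_le_inv]
  exact ENNReal.rpow_le_rpow (ENNReal.ofReal_le_ofReal h) hs.le

lemma tripleCost_symm12 (s : ℝ) (a b d : V) : tripleCost s (a, b, d) = tripleCost s (b, a, d) := by
  unfold tripleCost
  simp only
  rw [pairCost_comm s b a]
  ring

lemma tripleCost_symm23 (s : ℝ) (a b d : V) : tripleCost s (a, b, d) = tripleCost s (a, d, b) := by
  unfold tripleCost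
  simp only
  rw [pairCost_comm s d b]
  ring

lemma tripleCost_ne_zero {s : ℝ} (hs : 0 < s) (p : V × V × V) : tripleCost s p ≠ 0 := by
  unfold tripleCost
  intro h
  have := pairCost_ne_zero hs p.1 p.2.1
  simp only [add_eq_zero] at h
  exact this h.1.1

lemma pairCost12_le_tripleCost (s : ℝ) (a b d : V) : pairCost s a b ≤ tripleCost s (a, b, d) := by
  unfold tripleCost
  simp only
  rw [add_assoc]
  exact le_self_add

lemma measurable_pairCost [MeasurableSpace V] [BorelSpace V] [SecondCountableTopology V] (s : ℝ) :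
    Measurable (fun p : V × V => pairCost s p.1 p.2) := by
  unfold pairCost
  have h1 : Measurable (fun p : V × V => ENNReal.ofReal ‖p.1 - p.2‖) :=
    ((measurable_fst.sub measurable_snd).norm).ennreal_ofReal
  exact h1.pow_const _

lemma measurable_tripleCost [MeasurableSpace V] [BorelSpace V] [SecondCountableTopology V]
    (s : ℝ) : Measurable (tripleCost (E := V) s) := by
  unfold tripleCost
  have h := measurable_pairCost (V := V) s
  have m1 : Measurable (fun p : V × V × V => (p.1, p.2.1)) :=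
    measurable_fst.prodMk (measurable_fst.comp measurable_snd)
  have m2 : Measurable (fun p : V × V × V => (p.1, p.2.2)) :=
    measurable_fst.prodMk (measurable_snd.comp measurable_snd)
  have m3 : Measurable (fun p : V × V × V => (p.2.1, p.2.2)) :=
    (measurable_fst.comp measurable_snd).prodMk (measurable_snd.comp measurable_snd)
  exact ((h.comp m1).add (h.comp m2)).add (h.comp m3)

end ennreal

section ennreal_inner

variable {V : Type*} [NormedAddCommGroup V] [InnerProductSpace ℝ V]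

omit [InnerProductSpace ℝ V] in
lemma cReal_pos (s : ℝ) {x y z : V} (hxy : x ≠ y) (hxz : x ≠ z) (hyz : y ≠ z) :
    0 < cReal s x y z := by
  have p1 : 0 < ‖x - y‖ ^ 2 := by have := norm_pos_iff.2 (sub_ne_zero.2 hxy); positivity
  have p2 : 0 < ‖x - z‖ ^ 2 := by have := norm_pos_iff.2 (sub_ne_zero.2 hxz); positivity
  have p3 : 0 < ‖y - z‖ ^ 2 := by have := norm_pos_iff.2 (sub_ne_zero.2 hyz); positivity
  have := phi_pos s p1; have := phi_pos s p2; have := phi_pos s p3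
  unfold cReal; positivity

omit [InnerProductSpace ℝ V] in
lemma tripleCost_eq_ofReal (s : ℝ) {x y z : V} (hxy : x ≠ y) (hxz : x ≠ z) (hyz : y ≠ z) :
    tripleCost s (x, y, z) = ENNReal.ofReal (cReal s x y z) := by
  have p1 : 0 < ‖x - y‖ ^ 2 := by have := norm_pos_iff.2 (sub_ne_zero.2 hxy); positivity
  have p2 : 0 < ‖x - z‖ ^ 2 := by have := norm_pos_iff.2 (sub_ne_zero.2 hxz); positivity
  have p3 : 0 < ‖y - z‖ ^ 2 := by have := norm_pos_iff.2 (sub_ne_zero.2 hyz); positivity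
  have q1 := phi_pos s p1; have q2 := phi_pos s p2; have q3 := phi_pos s p3
  unfold tripleCost cReal
  simp only
  rw [pairCost_eq_ofReal s hxy, pairCost_eq_ofReal s hxz, pairCost_eq_ofReal s hyz,
    ENNReal.ofReal_add (by positivity) q3.le, ENNReal.ofReal_add q1.le q2.le]

omit [InnerProductSpace ℝ V] in
lemma tripleCost_eq_top {s : ℝ} (hs : 0 < s) {x y z : V} (h : x = y ∨ x = z ∨ y = z) :
    tripleCost s (x, y, z) = ⊤ := by
  unfold tripleCost
  simp only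
  rcases h with rfl | rfl | rfl
  · simp [pairCost_self hs]
  · simp [pairCost_self hs]
  · simp [pairCost_self hs]

/-- (1) the dual inequality in `ℝ≥0∞` form (apex in first position). -/
theorem dual_ABB {s t1 t2 : ℝ} (hs : 0 < s) (h1 : 0 < t1) (h2 : 0 < t2) (x y z : V) :
    ENNReal.ofReal (Kc s t1 t2 - aC s t1 t2 * ‖x‖ ^ 2) ≤
      tripleCost s (x, y, z) + ENNReal.ofReal (kapC s t1 t2 * ‖y‖ ^ 2)
        + ENNReal.ofReal (kapC s t1 t2 * ‖z‖ ^ 2) := by
  by_cases hd : x = y ∨ x = z ∨ y = z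
  · rw [tripleCost_eq_top hs hd]; simp
  · push Not at hd
    obtain ⟨hxy, hxz, hyz⟩ := hd
    have hk := kapC_pos hs h1 h2
    rw [tripleCost_eq_ofReal s hxy hxz hyz,
      ← ENNReal.ofReal_add (cReal_pos s hxy hxz hyz).le (by positivity),
      ← ENNReal.ofReal_add (by have := cReal_pos s hxy hxz hyz; positivity) (by positivity)]
    apply ENNReal.ofReal_le_ofReal
    have := cReal_ge hs h1 h2 hxy hxz hyz
    linarith

/-- (1) equality case in `ℝ≥0∞` form. -/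
theorem contact_of_le {s t1 t2 : ℝ} (hs : 0 < s) (h1 : 0 < t1) (h2 : 0 < t2) {x y z : V}
    (h : tripleCost s (x, y, z) + ENNReal.ofReal (kapC s t1 t2 * ‖y‖ ^ 2)
        + ENNReal.ofReal (kapC s t1 t2 * ‖z‖ ^ 2) ≤
      ENNReal.ofReal (Kc s t1 t2 - aC s t1 t2 * ‖x‖ ^ 2)) :
    Contact s t1 t2 x y z := by
  by_cases hd : x = y ∨ x = z ∨ y = z
  · rw [tripleCost_eq_top hs hd] at h
    simp at h
  · push Not at hd
    obtain ⟨hxy, hxz, hyz⟩ := hd
    have hk := kapC_pos hs h1 h2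
    have hc := cReal_pos s hxy hxz hyz
    rw [tripleCost_eq_ofReal s hxy hxz hyz,
      ← ENNReal.ofReal_add hc.le (by positivity),
      ← ENNReal.ofReal_add (by positivity) (by positivity)] at h
    have hpos : 0 < cReal s x y z + kapC s t1 t2 * ‖y‖ ^ 2 + kapC s t1 t2 * ‖z‖ ^ 2 := by
      positivity
    have h' := (ENNReal.ofReal_le_ofReal_iff' ).1 h
    rcases h' with h' | h'
    · exact contact_of_cReal_le hs h1 h2 hxy hxz hyz (by linarith)
    · exact absurd h' (not_le.2 hpos)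

/-- points of a contact triple are pairwise distinct -/
lemma Contact.ne {s t1 t2 : ℝ} (h1 : 0 < t1) (h2 : 0 < t2) {x y z : V}
    (h : Contact s t1 t2 x y z) : x ≠ y ∧ x ≠ z ∧ y ≠ z := by
  obtain ⟨e1, e2, e3, _⟩ := h
  refine ⟨?_, ?_, ?_⟩
  · rintro rfl; simp at e1; exact h1.ne e1
  · rintro rfl; simp at e2; exact h1.ne e2
  · rintro rfl; simp at e3; exact h2.ne e3

/-- (1) equality on the contact set in `ℝ≥0∞` form. -/
theorem eq_of_contact {s t1 t2 : ℝ} (hs : 0 < s) (h1 : 0 < t1) (h2 : 0 < t2) {x y z : V}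
    (h : Contact s t1 t2 x y z) :
    ENNReal.ofReal (Kc s t1 t2 - aC s t1 t2 * ‖x‖ ^ 2) =
      tripleCost s (x, y, z) + ENNReal.ofReal (kapC s t1 t2 * ‖y‖ ^ 2)
        + ENNReal.ofReal (kapC s t1 t2 * ‖z‖ ^ 2) := by
  obtain ⟨hxy, hxz, hyz⟩ := h.ne h1 h2
  have hk := kapC_pos hs h1 h2
  have hc := cReal_pos s hxy hxz hyz
  rw [tripleCost_eq_ofReal s hxy hxz hyz,
    ← ENNReal.ofReal_add hc.le (by positivity),
    ← ENNReal.ofReal_add (by positivity) (by positivity)]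
  congr 1
  have := cReal_eq_of_contact hs h2 h
  linarith

/-- value of the cost on a contact triple -/
theorem tripleCost_of_contact {s t1 t2 : ℝ} (h1 : 0 < t1) (h2 : 0 < t2) {x y z : V}
    (h : Contact s t1 t2 x y z) :
    tripleCost s (x, y, z) = ENNReal.ofReal (2 * phi s t1 + phi s t2) := by
  obtain ⟨hxy, hxz, hyz⟩ := h.ne h1 h2
  rw [tripleCost_eq_ofReal s hxy hxz hyz]
  obtain ⟨e1, e2, e3, _⟩ := h
  unfold cReal
  rw [e1, e2, e3]
  congr 1
  ring

end ennreal_inner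


/-! ### The statements of the interface file (verbatim names) -/

section iface

theorem tangent {s : ℝ} (hs : 0 < s) {t T : ℝ} (ht : 0 < t) (hT : 0 < T) :
    phi s t - gam s t * (T - t) ≤ phi s T := phi_tangent hs ht hT

theorem tangent_eq {s : ℝ} (hs : 0 < s) {t T : ℝ} (ht : 0 < t) (hT : 0 < T)
    (h : phi s T ≤ phi s t - gam s t * (T - t)) : T = t := eq_of_phi_le_tangent hs ht hT h

theorem pairCost_eq {V : Type*} [NormedAddCommGroup V] (s : ℝ) {x y : V} (h : x ≠ y) :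
    pairCost s x y = ENNReal.ofReal (phi s (‖x - y‖ ^ 2)) := pairCost_eq_ofReal s h

/-- the dual inequality, real form -/
theorem dual_ineq {V : Type*} [NormedAddCommGroup V] [InnerProductSpace ℝ V] {s : ℝ} (hs : 0 < s)
    {t1 t2 : ℝ} (h1 : 0 < t1) (h2 : 0 < t2) (x y z : V) (hxy : x ≠ y) (hxz : x ≠ z) (hyz : y ≠ z) :
    (s / 2 + 1) * (2 * phi s t1 + phi s t2)
        - (2 * gam s t1 + gam s t1 ^ 2 / gam s t2) * ‖x‖ ^ 2
      ≤ phi s (‖x - y‖ ^ 2) + phi s (‖x - z‖ ^ 2) + phi s (‖y - z‖ ^ 2)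
        + (gam s t1 + 2 * gam s t2) * ‖y‖ ^ 2 + (gam s t1 + 2 * gam s t2) * ‖z‖ ^ 2 := by
  have h := cReal_ge hs h1 h2 hxy hxz hyz
  rw [Kc_eq h1 h2] at h
  unfold cReal aC kapC at h
  linarith

/-- equality case -/
theorem dual_eq {V : Type*} [NormedAddCommGroup V] [InnerProductSpace ℝ V] {s : ℝ} (hs : 0 < s)
    {t1 t2 : ℝ} (h1 : 0 < t1) (h2 : 0 < t2) (x y z : V) (hxy : x ≠ y) (hxz : x ≠ z) (hyz : y ≠ z)
    (h : phi s (‖x - y‖ ^ 2) + phi s (‖x - z‖ ^ 2) + phi s (‖y - z‖ ^ 2)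
        + (gam s t1 + 2 * gam s t2) * ‖y‖ ^ 2 + (gam s t1 + 2 * gam s t2) * ‖z‖ ^ 2
      ≤ (s / 2 + 1) * (2 * phi s t1 + phi s t2)
        - (2 * gam s t1 + gam s t1 ^ 2 / gam s t2) * ‖x‖ ^ 2) :
    ‖x - y‖ ^ 2 = t1 ∧ ‖x - z‖ ^ 2 = t1 ∧ ‖y - z‖ ^ 2 = t2 ∧
      y + z = -(gam s t1 / gam s t2) • x := by
  apply contact_of_cReal_le hs h1 h2 hxy hxz hyz
  rw [Kc_eq h1 h2]
  unfold cReal aC kapC
  linarith

/-- converse of the equality case -/
theorem dual_eq_of {V : Type*} [NormedAddCommGroup V] [InnerProductSpace ℝ V] {s : ℝ} (hs : 0 < s)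
    {t1 t2 : ℝ} (h1 : 0 < t1) (h2 : 0 < t2) (x y z : V)
    (hxy : ‖x - y‖ ^ 2 = t1) (hxz : ‖x - z‖ ^ 2 = t1) (hyz : ‖y - z‖ ^ 2 = t2)
    (hsum : y + z = -(gam s t1 / gam s t2) • x) :
    phi s (‖x - y‖ ^ 2) + phi s (‖x - z‖ ^ 2) + phi s (‖y - z‖ ^ 2)
        + (gam s t1 + 2 * gam s t2) * ‖y‖ ^ 2 + (gam s t1 + 2 * gam s t2) * ‖z‖ ^ 2
      = (s / 2 + 1) * (2 * phi s t1 + phi s t2)
        - (2 * gam s t1 + gam s t1 ^ 2 / gam s t2) * ‖x‖ ^ 2 := by
  have h := cReal_eq_of_contact (s := s) (t1 := t1) hs h2 (x := x) (y := y) (z := z)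
    ⟨hxy, hxz, hyz, hsum⟩
  rw [Kc_eq h1 h2] at h
  unfold cReal aC kapC at h
  linarith

/-- NOTE: needs `0 < s` (for `s < 0` and `x = y` the pair cost is `0`). -/
theorem pairCost_pos {V : Type*} [NormedAddCommGroup V] {s : ℝ} (hs : 0 < s) (x y : V) :
    0 < pairCost s x y := pos_iff_ne_zero.2 (pairCost_ne_zero hs x y)

/-- moving one point by at most `δ < ℓ ≤ ‖x' - q‖` changes the pair cost by a factor close to 1 -/
theorem pairCost_le_of_close {V : Type*} [NormedAddCommGroup V] {s : ℝ} (hs : 0 < s)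
    {x x' q : V} {δ ℓ : ℝ} (hδ : ‖x - x'‖ ≤ δ) (hℓ : ℓ ≤ ‖x' - q‖) (hδℓ : δ < ℓ) :
    pairCost s x q ≤ ENNReal.ofReal ((1 - δ / ℓ) ^ (-s)) * pairCost s x' q := by
  have hδ0 : 0 ≤ δ := (norm_nonneg _).trans hδ
  have hℓ0 : 0 < ℓ := lt_of_le_of_lt hδ0 hδℓ
  have hD' : 0 < ‖x' - q‖ := lt_of_lt_of_le hℓ0 hℓ
  have hc : 0 < 1 - δ / ℓ := by
    rw [sub_pos, div_lt_one hℓ0]; exact hδℓ
  have htri : ‖x' - q‖ ≤ ‖x - x'‖ + ‖x - q‖ := by
    have : x' - q = -(x - x') + (x - q) := by abel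
    rw [this]
    exact (norm_add_le _ _).trans (by rw [norm_neg])
  have hlow : (1 - δ / ℓ) * ‖x' - q‖ ≤ ‖x - q‖ := by
    have h1 : δ ≤ δ / ℓ * ‖x' - q‖ := by
      rw [div_mul_eq_mul_div, le_div_iff₀ hℓ0]
      exact mul_le_mul_of_nonneg_left hℓ hδ0
    nlinarith
  have hD : 0 < ‖x - q‖ := lt_of_lt_of_le (by positivity) hlow
  unfold pairCost
  rw [ENNReal.ofReal_rpow_of_pos hD, ENNReal.ofReal_rpow_of_pos hD',
    ← ENNReal.ofReal_mul (by positivity)]
  apply ENNReal.ofReal_le_ofReal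
  rw [← Real.mul_rpow hc.le hD'.le]
  exact Real.rpow_le_rpow_of_nonpos (by positivity) hlow (by linarith)

end iface

end Crest.Agent.S0175
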