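import Mathlib
import Crest.Agent.S0175_Defs

/-!
Package P4 of row 130 (S0175): determinant of a rank-two update, derivative and Jacobian determinant of
the maps `Y_ε`, and the change-of-variables (push-forward) statement.
-/

set_option autoImplicit false

namespace Crest.Agent.S0175.Jac

open MeasureTheory
open scoped ENNReal ContDiff

section RankTwo

variable {F : Type*} [NormedAddCommGroup F] [InnerProductSpace ℝ F]

/-- the rank-two update `a • id + ⟨v₁,·⟩ u₁ + ⟨v₂,·⟩ u₂`. -/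
noncomputable def rankTwo (a : ℝ) (u1 v1 u2 v2 : F) : F →L[ℝ] F :=
  a • ContinuousLinearMap.id ℝ F + (innerSL ℝ v1).smulRight u1 + (innerSL ℝ v2).smulRight u2

theorem rankTwo_apply (a : ℝ) (u1 v1 u2 v2 x : F) :
    rankTwo a u1 v1 u2 v2 x = a • x + inner ℝ v1 x • u1 + inner ℝ v2 x • u2 := by
  simp [rankTwo]

end RankTwo

section Det

variable {d : ℕ}

local notation "E" => EuclideanSpace ℝ (Fin d)

theorem det_rankTwo (hd : 2 ≤ d) (a : ℝ) (ha : a ≠ 0) (u1 v1 u2 v2 : E) :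
    (rankTwo a u1 v1 u2 v2).det =
      a ^ (d - 2) * ((a + inner ℝ v1 u1) * (a + inner ℝ v2 u2) - inner ℝ v1 u2 * inner ℝ v2 u1) := by
  classical
  set b := (EuclideanSpace.basisFun (Fin d) ℝ).toBasis with hb
  set U : Matrix (Fin d) (Fin 2) ℝ := Matrix.of (fun i k => ![u1 i, u2 i] k) with hU
  set V : Matrix (Fin 2) (Fin d) ℝ := Matrix.of (fun k j => ![v1 j, v2 j] k) with hV
  have hM : LinearMap.toMatrix b b (rankTwo a u1 v1 u2 v2 : E →ₗ[ℝ] E) = a • (1 + (a⁻¹ • U) * V) := by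
    ext i j
    have h1 : inner ℝ v1 (b j) = v1 j := by
      simp [hb, EuclideanSpace.basisFun_apply, PiLp.inner_apply]
    have h2 : inner ℝ v2 (b j) = v2 j := by
      simp [hb, EuclideanSpace.basisFun_apply, PiLp.inner_apply]
    rw [LinearMap.toMatrix_apply]
    simp only [ContinuousLinearMap.coe_coe, rankTwo_apply, h1, h2]
    simp [hb, hU, hV, Matrix.mul_apply, Fin.sum_univ_two, Matrix.one_apply, mul_add]
    field_simp
    ring
  have hVU : V * (a⁻¹ • U) = Matrix.of ![![a⁻¹ * inner ℝ v1 u1, a⁻¹ * inner ℝ v1 u2],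
      ![a⁻¹ * inner ℝ v2 u1, a⁻¹ * inner ℝ v2 u2]] := by
    ext k l
    fin_cases k <;> fin_cases l <;>
      simp [hU, hV, Matrix.mul_apply, PiLp.inner_apply, Finset.mul_sum] <;>
      refine Finset.sum_congr rfl (fun i _ => by ring)
  obtain ⟨n, rfl⟩ := Nat.exists_eq_add_of_le hd
  rw [ContinuousLinearMap.det, ← LinearMap.det_toMatrix b, hM, Matrix.det_smul,
    Matrix.det_one_add_mul_comm, hVU, Matrix.det_fin_two]
  simp only [Fintype.card_fin, Matrix.add_apply, Matrix.one_apply_eq, Matrix.of_apply,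
    Matrix.cons_val_zero, Matrix.cons_val_one, Matrix.cons_val', Matrix.cons_val_fin_one]
  have e : 2 + n - 2 = n := by omega
  rw [e]
  simp
  field_simp
  ring

end Det

section Push

variable {F : Type*} [NormedAddCommGroup F] [NormedSpace ℝ F] [FiniteDimensional ℝ F]
  [MeasurableSpace F] [BorelSpace F]

/-- Abstract change of variables as a push-forward statement. -/
theorem map_restrict_withDensity (μ : Measure F) [μ.IsAddHaarMeasure]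
    {Y : F → F} {Y' : F → F →L[ℝ] F} {A B : Set F} (hA : MeasurableSet A) (hYm : Measurable Y)
    (hY' : ∀ x ∈ A, HasFDerivWithinAt Y (Y' x) A x) (hinj : Set.InjOn Y A) (himg : Y '' A = B)
    {ρA ρB : F → ℝ≥0∞} {c : ℝ≥0∞} (hc : c ≠ ⊤)
    (hρ : ∀ x ∈ A, ρA x = c * (ENNReal.ofReal |(Y' x).det| * ρB (Y x))) :
    ((μ.withDensity ρA).restrict A).map Y = c • (μ.withDensity ρB).restrict B := by
  have hB : MeasurableSet B := himg ▸ measurable_image_of_fderivWithin hA hY' hinj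
  ext S hS
  have hS' : MeasurableSet (A ∩ Y ⁻¹' S) := hA.inter (hYm hS)
  rw [Measure.map_apply hYm hS, Measure.restrict_apply (hYm hS), Set.inter_comm,
    withDensity_apply _ hS', Measure.smul_apply, Measure.restrict_apply hS,
    withDensity_apply _ (hS.inter hB), smul_eq_mul]
  have himg' : S ∩ B = Y '' (A ∩ Y ⁻¹' S) := by
    rw [Set.image_inter_preimage, himg, Set.inter_comm]
  rw [himg', lintegral_image_eq_lintegral_abs_det_fderiv_mul μ hS'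
    (fun x hx => (hY' x hx.1).mono Set.inter_subset_left) (hinj.mono Set.inter_subset_left) ρB,
    ← lintegral_const_mul' _ _ hc]
  exact setLIntegral_congr_fun hS' (fun x hx => hρ x hx.1)

end Push

section Deriv

variable {F : Type*} [NormedAddCommGroup F] [InnerProductSpace ℝ F]

/-- the unit vector `e(x) = J x / ‖P x‖`. -/
noncomputable def eVec (P J : F →L[ℝ] F) (x : F) : F := ‖P x‖⁻¹ • J x

/-- the map `Y_ε(x) = -Λ(‖x‖²) x + ε W(‖x‖²) e(x)`. -/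
noncomputable def Ymap (P J : F →L[ℝ] F) (Lam W : ℝ → ℝ) (ε : ℝ) (x : F) : F :=
  (-Lam (‖x‖ ^ 2)) • x + (ε * W (‖x‖ ^ 2)) • eVec P J x

theorem hasFDerivAt_norm_comp (P : F →L[ℝ] F) {x : F} (hx : P x ≠ 0) :
    HasFDerivAt (fun x => ‖P x‖) (‖P x‖⁻¹ • (innerSL ℝ (P x)).comp P) x := by
  have h1 : HasFDerivAt (fun x => ‖P x‖ ^ 2) (2 • (innerSL ℝ (P x)).comp P) x :=
    P.hasFDerivAt.norm_sq
  have hn : ‖P x‖ ≠ 0 := norm_ne_zero_iff.mpr hx
  have h2 := h1.sqrt (pow_ne_zero 2 hn)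
  have e1 : (fun y => Real.sqrt (‖P y‖ ^ 2)) = fun y => ‖P y‖ := by
    funext y; exact Real.sqrt_sq (norm_nonneg _)
  rw [e1, Real.sqrt_sq (norm_nonneg _)] at h2
  convert h2 using 1
  ext v
  simp only [smul_apply, smul_eq_mul, nsmul_eq_mul]
  field_simp
  norm_num

/-- derivative of `e`, using the planar identity. -/
theorem hasFDerivAt_eVec (P J : F →L[ℝ] F)
    (hpl : ∀ x v, ‖P x‖ ^ 2 • J v = inner ℝ (P x) (P v) • J x - inner ℝ (J x) v • P x)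
    {x : F} (hx : P x ≠ 0) :
    HasFDerivAt (eVec P J)
      ((-(‖P x‖⁻¹) ^ 2) • (innerSL ℝ (eVec P J x)).smulRight (P x)) x := by
  have hn : ‖P x‖ ≠ 0 := norm_ne_zero_iff.mpr hx
  have h1 := hasFDerivAt_norm_comp P hx
  have h2 : HasFDerivAt (fun y => ‖P y‖⁻¹)
      ((-(‖P x‖ ^ 2)⁻¹) • (‖P x‖⁻¹ • (innerSL ℝ (P x)).comp P)) x :=
    (hasDerivAt_inv hn).comp_hasFDerivAt x h1
  have h3 : HasFDerivAt (fun y => ‖P y‖⁻¹ • J y) (‖P x‖⁻¹ • J +
      ((-(‖P x‖ ^ 2)⁻¹) • (‖P x‖⁻¹ • (innerSL ℝ (P x)).comp P)).smulRight (J x)) x :=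
    h2.smul J.hasFDerivAt
  refine h3.congr_fderiv ?_
  ext1 v
  have hv := hpl x v
  have hJv : J v = (‖P x‖ ^ 2)⁻¹ • (inner ℝ (P x) (P v) • J x - inner ℝ (J x) v • P x) := by
    rw [← hv, smul_smul, inv_mul_cancel₀ (pow_ne_zero 2 hn), one_smul]
  simp only [eVec, smul_apply, ContinuousLinearMap.smulRight_apply, innerSL_apply_apply,
    add_apply, ContinuousLinearMap.comp_apply, smul_eq_mul, inner_smul_left,
    RCLike.conj_to_real]
  rw [hJv]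
  simp only [smul_sub, smul_smul]
  have c1 : ‖P x‖⁻¹ * ((‖P x‖ ^ 2)⁻¹ * inner ℝ (P x) (P v)) =
      -(-(‖P x‖ ^ 2)⁻¹ * (‖P x‖⁻¹ * inner ℝ (P x) (P v))) := by ring
  have c2 : ‖P x‖⁻¹ * ((‖P x‖ ^ 2)⁻¹ * inner ℝ (J x) v) =
      -(-‖P x‖⁻¹ ^ 2 * (‖P x‖⁻¹ * inner ℝ (J x) v)) := by
    rw [inv_pow]; ring
  rw [c1, c2, neg_smul, neg_smul]
  abel

/-- the derivative of `Y_ε` as a rank-two update. -/
noncomputable def Yderiv (P J : F →L[ℝ] F) (Lam W : ℝ → ℝ) (Lam' W' ε : ℝ) (x : F) : F →L[ℝ] F :=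
  rankTwo (-Lam (‖x‖ ^ 2)) ((-2 * Lam') • x + (2 * ε * W') • eVec P J x) x
    ((-(ε * W (‖x‖ ^ 2)) * ‖P x‖⁻¹ ^ 2) • P x) (eVec P J x)

theorem hasFDerivAt_Ymap (P J : F →L[ℝ] F)
    (hpl : ∀ x v, ‖P x‖ ^ 2 • J v = inner ℝ (P x) (P v) • J x - inner ℝ (J x) v • P x)
    {Lam W : ℝ → ℝ} {Lam' W' : ℝ} (ε : ℝ) {x : F} (hx : P x ≠ 0)
    (hL : HasDerivAt Lam Lam' (‖x‖ ^ 2)) (hW : HasDerivAt W W' (‖x‖ ^ 2)) :
    HasFDerivAt (Ymap P J Lam W ε) (Yderiv P J Lam W Lam' W' ε x) x := by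
  have hq : HasFDerivAt (fun y : F => ‖y‖ ^ 2) (2 • innerSL ℝ x) x :=
    (hasStrictFDerivAt_norm_sq x).hasFDerivAt
  have hLq : HasFDerivAt (fun y : F => Lam (‖y‖ ^ 2)) (Lam' • (2 • innerSL ℝ x)) x :=
    hL.comp_hasFDerivAt x hq
  have hWq : HasFDerivAt (fun y : F => W (‖y‖ ^ 2)) (W' • (2 • innerSL ℝ x)) x :=
    hW.comp_hasFDerivAt x hq
  have he := hasFDerivAt_eVec P J hpl hx
  have h1 : HasFDerivAt (fun y : F => (-Lam (‖y‖ ^ 2)) • y)
      ((-Lam (‖x‖ ^ 2)) • ContinuousLinearMap.id ℝ F +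
        (-(Lam' • (2 • innerSL ℝ x))).smulRight x) x :=
    hLq.neg.smul (hasFDerivAt_id x)
  have h2 : HasFDerivAt (fun y : F => (ε * W (‖y‖ ^ 2)) • eVec P J y)
      ((ε * W (‖x‖ ^ 2)) • ((-(‖P x‖⁻¹) ^ 2) • (innerSL ℝ (eVec P J x)).smulRight (P x)) +
        (ε • (W' • (2 • innerSL ℝ x))).smulRight (eVec P J x)) x :=
    (hWq.const_mul ε).smul he
  have h3 := h1.add h2
  refine h3.congr_fderiv ?_
  ext1 v
  simp only [Yderiv, rankTwo_apply, add_apply, smul_apply, ContinuousLinearMap.smulRight_apply,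
    ContinuousLinearMap.id_apply, neg_apply, innerSL_apply_apply, smul_eq_mul, nsmul_eq_mul,
    smul_add, smul_smul, neg_smul]
  push_cast
  module

theorem inner_eVec_self (P J : F →L[ℝ] F) (h3 : ∀ x, ‖J x‖ = ‖P x‖) {x : F} (hx : P x ≠ 0) :
    inner ℝ (eVec P J x) (eVec P J x) = 1 := by
  have hn : ‖P x‖ ≠ 0 := norm_ne_zero_iff.mpr hx
  rw [real_inner_self_eq_norm_sq, eVec, norm_smul, norm_inv, norm_norm, h3, inv_mul_cancel₀ hn,
    one_pow]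

theorem norm_eVec (P J : F →L[ℝ] F) (h3 : ∀ x, ‖J x‖ = ‖P x‖) {x : F} (hx : P x ≠ 0) :
    ‖eVec P J x‖ = 1 := by
  have hn : ‖P x‖ ≠ 0 := norm_ne_zero_iff.mpr hx
  rw [eVec, norm_smul, norm_inv, norm_norm, h3, inv_mul_cancel₀ hn]

theorem inner_eVec_left (P J : F →L[ℝ] F) (h1 : ∀ x, inner ℝ (J x) x = 0) (x : F) :
    inner ℝ (eVec P J x) x = 0 := by
  rw [eVec, inner_smul_left, h1, mul_zero]

theorem inner_eVec_P (P J : F →L[ℝ] F) (h2 : ∀ x, inner ℝ (J x) (P x) = 0) (x : F) :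
    inner ℝ (eVec P J x) (P x) = 0 := by
  rw [eVec, inner_smul_left, h2, mul_zero]

/-- `‖Y_ε x‖² = Λ² ‖x‖² + W²`. -/
theorem norm_sq_Ymap (P J : F →L[ℝ] F) (h1 : ∀ x, inner ℝ (J x) x = 0)
    (h3 : ∀ x, ‖J x‖ = ‖P x‖) (Lam W : ℝ → ℝ) {ε : ℝ} (hε : ε ^ 2 = 1) {x : F} (hx : P x ≠ 0) :
    ‖Ymap P J Lam W ε x‖ ^ 2 = Lam (‖x‖ ^ 2) ^ 2 * ‖x‖ ^ 2 + W (‖x‖ ^ 2) ^ 2 := by
  have a1 := inner_eVec_self P J h3 hx
  have a2 := inner_eVec_left P J h1 x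
  have a3 : inner ℝ x (eVec P J x) = 0 := by rw [real_inner_comm]; exact a2
  rw [← real_inner_self_eq_norm_sq, Ymap]
  simp only [inner_add_left, inner_add_right, inner_smul_left, inner_smul_right, a1, a2, a3,
    RCLike.conj_to_real, real_inner_self_eq_norm_sq]
  linear_combination (W (‖x‖ ^ 2) ^ 2) * hε

end Deriv

section DetY

variable {d : ℕ}

local notation "E" => EuclideanSpace ℝ (Fin d)

theorem det_Yderiv (hd : 2 ≤ d) (P J : E →L[ℝ] E) (h1 : ∀ x, inner ℝ (J x) x = 0)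
    (h2 : ∀ x, inner ℝ (J x) (P x) = 0) (h3 : ∀ x, ‖J x‖ = ‖P x‖)
    (h4 : ∀ x, inner ℝ x (P x) = ‖P x‖ ^ 2) (Lam W : ℝ → ℝ) (Lam' W' : ℝ) {ε : ℝ}
    (hε : ε ^ 2 = 1) {x : E} (hx : P x ≠ 0) (hLam : Lam (‖x‖ ^ 2) ≠ 0) :
    (Yderiv P J Lam W Lam' W' ε x).det =
      (-Lam (‖x‖ ^ 2)) ^ (d - 2) *
        (Lam (‖x‖ ^ 2) ^ 2 + 2 * Lam (‖x‖ ^ 2) * Lam' * ‖x‖ ^ 2 + 2 * W (‖x‖ ^ 2) * W') := by
  have hn : ‖P x‖ ≠ 0 := norm_ne_zero_iff.mpr hx
  have a1 := inner_eVec_self P J h3 hx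
  have a2 := inner_eVec_left P J h1 x
  have a3 : inner ℝ x (eVec P J x) = 0 := by rw [real_inner_comm]; exact a2
  have a4 := inner_eVec_P P J h2 x
  rw [Yderiv, det_rankTwo hd _ (neg_ne_zero.mpr hLam)]
  simp only [inner_add_right, inner_smul_right, a1, a2, a3, a4, h4, real_inner_self_eq_norm_sq]
  congr 1
  have : -(ε * W (‖x‖ ^ 2)) * ‖P x‖⁻¹ ^ 2 * ‖P x‖ ^ 2 = -(ε * W (‖x‖ ^ 2)) := by
    field_simp
  rw [this]
  have e2 : -(ε * W (‖x‖ ^ 2)) * (-2 * Lam' * 0 + 2 * ε * W' * 1) =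
      -(2 * ε ^ 2 * W (‖x‖ ^ 2) * W') := by ring
  rw [e2, hε]
  ring

end DetY

end Crest.Agent.S0175.Jac

namespace Crest.Agent.S0175

open MeasureTheory
open scoped ENNReal ContDiff

namespace Jac

variable {n : ℕ}

/-- `Pp` as a continuous linear map -/
noncomputable def PpL : E (n + 2) →L[ℝ] E (n + 2) :=
  (EuclideanSpace.proj (0 : Fin (n + 2))).smulRight e0 +
    (EuclideanSpace.proj (1 : Fin (n + 2))).smulRight e1

/-- `Jp` as a continuous linear map -/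
noncomputable def JpL : E (n + 2) →L[ℝ] E (n + 2) :=
  (-(EuclideanSpace.proj (1 : Fin (n + 2)))).smulRight e0 +
    (EuclideanSpace.proj (0 : Fin (n + 2))).smulRight e1

theorem PpL_apply (x : E (n + 2)) : PpL x = Pp x := by
  simp [PpL, Pp]

theorem JpL_apply (x : E (n + 2)) : JpL x = Jp x := by
  simp [JpL, Jp]

theorem inner_e0 (x : E (n + 2)) : inner ℝ (e0 : E (n + 2)) x = x 0 := by
  simp [e0, EuclideanSpace.inner_single_left]

theorem inner_e1 (x : E (n + 2)) : inner ℝ (e1 : E (n + 2)) x = x 1 := by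
  simp [e1, EuclideanSpace.inner_single_left]

theorem e0_0 : (e0 : E (n + 2)) 0 = 1 := by simp [e0]
theorem e0_1 : (e0 : E (n + 2)) 1 = 0 := by simp [e0]
theorem e1_0 : (e1 : E (n + 2)) 0 = 0 := by simp [e1]
theorem e1_1 : (e1 : E (n + 2)) 1 = 1 := by simp [e1]

theorem inner_Pp (x v : E (n + 2)) : inner ℝ (Pp x) v = x 0 * v 0 + x 1 * v 1 := by
  simp [Pp, inner_add_left, inner_smul_left, inner_e0, inner_e1]

theorem inner_Jp (x v : E (n + 2)) : inner ℝ (Jp x) v = -x 1 * v 0 + x 0 * v 1 := by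
  simp [Jp, inner_add_left, inner_smul_left, inner_e0, inner_e1]

theorem Pp_0 (x : E (n + 2)) : Pp x 0 = x 0 := by simp [Pp, e0_0, e1_0]
theorem Pp_1 (x : E (n + 2)) : Pp x 1 = x 1 := by simp [Pp, e0_1, e1_1]
theorem Jp_0 (x : E (n + 2)) : Jp x 0 = -x 1 := by simp [Jp, e0_0, e1_0]
theorem Jp_1 (x : E (n + 2)) : Jp x 1 = x 0 := by simp [Jp, e0_1, e1_1]

theorem norm_sq_Pp (x : E (n + 2)) : ‖Pp x‖ ^ 2 = rsq x := by
  rw [← real_inner_self_eq_norm_sq, inner_Pp, Pp_0, Pp_1, rsq]; ring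

theorem norm_sq_Jp (x : E (n + 2)) : ‖Jp x‖ ^ 2 = rsq x := by
  rw [← real_inner_self_eq_norm_sq, inner_Jp, Jp_0, Jp_1, rsq]; ring

theorem norm_Pp (x : E (n + 2)) : ‖Pp x‖ = Real.sqrt (rsq x) := by
  rw [← norm_sq_Pp, Real.sqrt_sq (norm_nonneg _)]

theorem norm_Jp (x : E (n + 2)) : ‖Jp x‖ = Real.sqrt (rsq x) := by
  rw [← norm_sq_Jp, Real.sqrt_sq (norm_nonneg _)]

theorem ax1 (x : E (n + 2)) : inner ℝ (JpL x) x = 0 := by
  rw [JpL_apply, inner_Jp]; ring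

theorem ax2 (x : E (n + 2)) : inner ℝ (JpL x) (PpL x) = 0 := by
  rw [JpL_apply, PpL_apply, inner_Jp, Pp_0, Pp_1]; ring

theorem ax3 (x : E (n + 2)) : ‖JpL x‖ = ‖PpL x‖ := by
  rw [JpL_apply, PpL_apply, norm_Jp, norm_Pp]

theorem ax4 (x : E (n + 2)) : inner ℝ x (PpL x) = ‖PpL x‖ ^ 2 := by
  rw [PpL_apply, real_inner_comm, inner_Pp, norm_sq_Pp, rsq]; ring

theorem axpl (x v : E (n + 2)) : ‖PpL x‖ ^ 2 • JpL v =
    inner ℝ (PpL x) (PpL v) • JpL x - inner ℝ (JpL x) v • PpL x := by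
  simp only [PpL_apply, JpL_apply, norm_sq_Pp, inner_Pp, inner_Jp, Pp_0, Pp_1, rsq]
  simp only [Pp, Jp]
  module

theorem Pp_ne_zero {x : E (n + 2)} (hx : 0 < rsq x) : PpL x ≠ 0 := by
  intro h
  have : ‖PpL x‖ ^ 2 = rsq x := by rw [PpL_apply, norm_sq_Pp]
  rw [h, norm_zero] at this
  nlinarith

/-- the interface map `Ymap` agrees with the abstract one. -/
theorem Ymap_eq (Lam W : ℝ → ℝ) (ε : ℝ) (x : E (n + 2)) :
    Crest.Agent.S0175.Ymap Lam (fun t => ε * W t) x = Jac.Ymap PpL JpL Lam W ε x := by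
  simp only [Crest.Agent.S0175.Ymap, Jac.Ymap, eVec, PpL_apply, JpL_apply, norm_Pp, smul_smul,
    div_eq_mul_inv]

end Jac

namespace Jac

variable {s : ℝ} (p : Params s)

theorem Ioo_sub {t : ℝ} (ht : t ∈ Set.Ioo p.Ea p.Eb) : t ∈ Set.Ioo p.E1 p.E2 := by
  have h := p.E1_lt_E2
  obtain ⟨h1, h2⟩ := ht
  simp only [Params.Ea, Params.Eb] at h1 h2
  constructor <;> linarith

theorem Lam_sq_pos {t : ℝ} (ht : t ∈ Set.Ioo p.E1 p.E2) : 0 < p.Lam t ^ 2 := by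
  have h1 := p.eta2_le t ht
  have h2 := p.eta2_pos
  have h3 : 0 < t := lt_trans p.E1_pos ht.1
  by_contra hcon
  have : p.Lam t ^ 2 = 0 := le_antisymm (not_lt.mp hcon) (sq_nonneg _)
  rw [this, zero_mul] at h1
  linarith

theorem Lam_pos {t : ℝ} (ht : t ∈ Set.Ioo p.E1 p.E2) : 0 < p.Lam t := by
  have h0 := Lam_sq_pos p ht
  have hne : p.Lam t ≠ 0 := by
    intro h; rw [h] at h0; simp at h0
  have hT1 : 0 < p.T1 t := lt_of_lt_of_le (pow_pos p.ell_pos 2) (p.T1_ge t ht)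
  have hT2 : 0 < p.T2 t := lt_of_lt_of_le (pow_pos p.ell_pos 2) (p.T2_ge t ht)
  have hs : s ≠ 0 := by
    intro hs
    apply hne
    have hz : s / 2 = 0 := by rw [hs]; simp
    rw [p.Lam_eq t ht, gam, hz]; simp
  have e : p.Lam t = p.T1 t ^ (-(s / 2) - 1) / (2 * p.T2 t ^ (-(s / 2) - 1)) := by
    have := Real.rpow_pos_of_pos hT2 (-(s / 2) - 1)
    rw [p.Lam_eq t ht, gam, gam]
    field_simp
  rw [e]
  have a1 := Real.rpow_pos_of_pos hT1 (-(s / 2) - 1)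
  have a2 := Real.rpow_pos_of_pos hT2 (-(s / 2) - 1)
  positivity

theorem rsq_pos {n : ℕ} {x : E (n + 2)} (hx : x ∈ p.regA n) : 0 < rsq x := by
  obtain ⟨h1, h2⟩ := hx
  have ht := Ioo_sub p h1
  have h3 := p.eta2_le _ ht
  have h4 := Lam_sq_pos p ht
  have h5 : p.Lam (‖x‖ ^ 2) ^ 2 * hh x < p.Lam (‖x‖ ^ 2) ^ 2 * ‖x‖ ^ 2 := lt_of_lt_of_le h2 h3
  have h6 : hh x < ‖x‖ ^ 2 := lt_of_mul_lt_mul_left h5 h4.le
  rw [hh] at h6
  linarith

theorem hasDerivAt_Lam {t : ℝ} (ht : t ∈ Set.Ioo p.E1 p.E2) :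
    HasDerivAt p.Lam (deriv p.Lam t) t :=
  ((p.smooth_Lam.contDiffAt (Ioo_mem_nhds ht.1 ht.2)).differentiableAt (by simp)).hasDerivAt

theorem hasDerivAt_W {t : ℝ} (ht : t ∈ Set.Ioo p.E1 p.E2) :
    HasDerivAt p.W (deriv p.W t) t :=
  ((p.smooth_W.contDiffAt (Ioo_mem_nhds ht.1 ht.2)).differentiableAt (by simp)).hasDerivAt

theorem deriv_F {t : ℝ} (ht : t ∈ Set.Ioo p.E1 p.E2) :
    deriv p.F t = p.Lam t ^ 2 + 2 * p.Lam t * deriv p.Lam t * t + 2 * p.W t * deriv p.W t := by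
  have hL := hasDerivAt_Lam p ht
  have hW := hasDerivAt_W p ht
  have h : HasDerivAt p.F (((2 : ℕ) * p.Lam t ^ (2 - 1) * deriv p.Lam t) * t + p.Lam t ^ 2 * 1 +
      (2 : ℕ) * p.W t ^ (2 - 1) * deriv p.W t) t :=
    ((hL.pow 2).mul (hasDerivAt_id t)).add (hW.pow 2)
  rw [h.deriv]
  push_cast
  ring

theorem deriv_F_neg {t : ℝ} (ht : t ∈ Set.Ioo p.E1 p.E2) : deriv p.F t < 0 :=
  p.deriv_F_neg t ht

theorem hasFDerivAt_Yeps (n : ℕ) (ε : ℝ) {x : E (n + 2)} (hx : x ∈ p.regA n) :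
    HasFDerivAt (p.Yeps n ε)
      (Yderiv PpL JpL p.Lam p.W (deriv p.Lam (‖x‖ ^ 2)) (deriv p.W (‖x‖ ^ 2)) ε x) x := by
  have ht := Ioo_sub p hx.1
  have h := hasFDerivAt_Ymap PpL JpL axpl ε (Pp_ne_zero (rsq_pos p hx))
    (hasDerivAt_Lam p ht) (hasDerivAt_W p ht)
  have e : p.Yeps n ε = Jac.Ymap PpL JpL p.Lam p.W ε := by
    funext y; exact Ymap_eq p.Lam p.W ε y
  rw [e]; exact h

end Jac

section P4
variable {s : ℝ} (p : Params s) (n : ℕ)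

/-- rank two update of a multiple of the identity -/
theorem det_rank_two (c : ℝ) (u1 v1 u2 v2 : E (n + 2)) :
    (c • ContinuousLinearMap.id ℝ (E (n + 2)) + (innerSL ℝ v1).smulRight u1
        + (innerSL ℝ v2).smulRight u2).det
      = c ^ n * ((c + inner ℝ v1 u1) * (c + inner ℝ v2 u2) - inner ℝ v1 u2 * inner ℝ v2 u1) := by
  have hf : Continuous (fun c : ℝ => (c • ContinuousLinearMap.id ℝ (E (n + 2)) +
      (innerSL ℝ v1).smulRight u1 + (innerSL ℝ v2).smulRight u2).det) := by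
    refine ContinuousLinearMap.continuous_det.comp ?_
    fun_prop
  have hg : Continuous (fun c : ℝ => c ^ n * ((c + inner ℝ v1 u1) * (c + inner ℝ v2 u2) -
      inner ℝ v1 u2 * inner ℝ v2 u1)) := by fun_prop
  have h := Continuous.ext_on (dense_compl_singleton (0 : ℝ)) hf hg (fun a ha => by
    have := Jac.det_rankTwo (d := n + 2) (by omega) a ha u1 v1 u2 v2
    simpa [Jac.rankTwo] using this)
  exact congrFun h c

theorem abs_det_fderiv_Yeps {ε : ℝ} (hε : ε = 1 ∨ ε = -1) {x : E (n + 2)} (hx : x ∈ p.regA n) :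
    DifferentiableAt ℝ (p.Yeps n ε) x ∧ |(fderiv ℝ (p.Yeps n ε) x).det| = p.Jac n (‖x‖ ^ 2) := by
  have h := Jac.hasFDerivAt_Yeps p n ε hx
  have ht := Jac.Ioo_sub p hx.1
  have hε2 : ε ^ 2 = 1 := by rcases hε with h | h <;> rw [h] <;> norm_num
  have hL := Jac.Lam_pos p ht
  refine ⟨h.differentiableAt, ?_⟩
  rw [h.fderiv, Jac.det_Yderiv (by omega) Jac.PpL Jac.JpL Jac.ax1 Jac.ax2 Jac.ax3 Jac.ax4 p.Lam p.W _ _
    hε2 (Jac.Pp_ne_zero (Jac.rsq_pos p hx)) hL.ne', ← Jac.deriv_F p ht, abs_mul, abs_pow, abs_neg,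
    abs_of_pos hL, abs_of_neg (Jac.deriv_F_neg p ht), Params.Jac]
  simp

/-- change of variables, assuming the facts of package P3 -/
theorem Jac.lintegral_regB_of {ε : ℝ} (hε : ε = 1 ∨ ε = -1) (hm : MeasurableSet (p.regA n))
    (hinj : Set.InjOn (p.Yeps n ε) (p.regA n)) (himg : p.Yeps n ε '' p.regA n = p.regB n)
    (g : E (n + 2) → ℝ≥0∞) :
    ∫⁻ y in p.regB n, g y
      = ∫⁻ x in p.regA n, ENNReal.ofReal (p.Jac n (‖x‖ ^ 2)) * g (p.Yeps n ε x) := by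
  rw [← himg, lintegral_image_eq_lintegral_abs_det_fderiv_mul volume hm
    (fun x hx => (Jac.hasFDerivAt_Yeps p n ε hx).hasFDerivWithinAt) hinj g]
  refine setLIntegral_congr_fun hm (fun x hx => ?_)
  have h := (abs_det_fderiv_Yeps p n hε hx).2
  rw [(Jac.hasFDerivAt_Yeps p n ε hx).fderiv] at h
  simp only [h]

end P4

end Crest.Agent.S0175
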