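import Crest.Agent.S0209_Final2

/-!
# ROW 149, package K (part 3): generic facts on potentials
* only the values of `φ` on `[0,∞)` matter;
* the long range attraction `Wsum α R r = ∑' j, α j * Kac (R j) r`: bounds, tail, continuity;
* integrability of radial functions with bounded support.
-/

set_option autoImplicit false
namespace Crest.Agent.S0209
open Crest.ProbabilityR.Continuum MeasureTheory Filter Topology

/-! ### only the values on `[0,∞)` matter -/

theorem energy_congr {φ φ' : ℝ → ℝ} (h : ∀ r, 0 ≤ r → φ r = φ' r) {N : ℕ} (x : Fin N → Pt) :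
    energy φ x = energy φ' x := by
  unfold energy
  exact Finset.sum_congr rfl fun p _ => h _ dist_nonneg

theorem partitionFn_congr {φ φ' : ℝ → ℝ} (h : ∀ r, 0 ≤ r → φ r = φ' r) (L : ℝ) (N : ℕ) (β : ℝ) :
    partitionFn φ L N β = partitionFn φ' L N β := by
  unfold partitionFn
  simp_rw [energy_congr h]

theorem Phi_congr {φ φ' : ℝ → ℝ} (h : ∀ r, 0 ≤ r → φ r = φ' r) (L : ℝ) (N : ℕ) (β : ℝ) :
    Phi φ L N β = Phi φ' L N β := by
  unfold Phi
  rw [partitionFn_congr h]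

theorem Glim_congr {φ φ' : ℝ → ℝ} (h : ∀ r, 0 ≤ r → φ r = φ' r) (β ρ : ℝ) :
    Glim φ β ρ = Glim φ' β ρ := by
  unfold Glim
  simp_rw [Phi_congr h]

theorem HasLim.congr {φ φ' : ℝ → ℝ} (h : ∀ r, 0 ≤ r → φ r = φ' r) (hl : HasLim φ) :
    HasLim φ' := by
  intro β ρ hβ hρ
  obtain ⟨F, hF⟩ := hl β ρ hβ hρ
  refine ⟨F, ?_⟩
  simp_rw [Phi_congr h] at hF
  exact hF

theorem HasKink.congr {φ φ' : ℝ → ℝ} (h : ∀ r, 0 ≤ r → φ r = φ' r) {βc ρ : ℝ}
    (hk : HasKink φ βc ρ) : HasKink φ' βc ρ := by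
  obtain ⟨uA, uB, r, h1, h2, h3⟩ := hk
  refine ⟨uA, uB, r, h1, h2, fun β hβ => ?_⟩
  rw [← Glim_congr h, ← Glim_congr h]
  exact h3 β hβ

theorem Good.congr {φ φ' : ℝ → ℝ} {B : ℝ} (h : ∀ r, 0 ≤ r → φ r = φ' r) (hm : Measurable φ')
    (hg : Good φ B) : Good φ' B :=
  ⟨hm, fun N x => by rw [← energy_congr h]; exact hg.stable N x⟩

/-- the even extension -/
noncomputable def evn (φ : ℝ → ℝ) : ℝ → ℝ := fun r => φ |r|

theorem evn_eq (φ : ℝ → ℝ) : ∀ r, 0 ≤ r → φ r = evn φ r := fun r hr => by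
  simp [evn, abs_of_nonneg hr]

/-! ### the long range attraction -/

/-- `∑_j α_j Kac_{R_j}(r)` -/
noncomputable def Wsum (α R : ℕ → ℝ) (r : ℝ) : ℝ := ∑' j, α j * Kac (R j) r

namespace PP

theorem Kac_nonneg' {R : ℝ} (hR : 0 < R) (r : ℝ) : 0 ≤ Kac R r := by
  unfold Kac
  positivity

theorem Kac_le' {R r : ℝ} (hR : 0 < R) (hr : 0 ≤ r) : Kac R r ≤ 1 / R ^ 3 := by
  unfold Kac
  have : max 0 (1 - r / R) ≤ 1 := max_le zero_le_one (by
    have : 0 ≤ r / R := by positivity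
    linarith)
  exact div_le_div_of_nonneg_right this (by positivity)

theorem Kac_eq_zero' {R r : ℝ} (hR : 0 < R) (hr : R ≤ r) : Kac R r = 0 := by
  unfold Kac
  have : 1 ≤ r / R := by rwa [one_le_div hR]
  rw [max_eq_left (by linarith), zero_div]

theorem continuous_Kac (R : ℝ) : Continuous (Kac R) := by
  unfold Kac
  fun_prop

theorem Kac_le_one {R r : ℝ} (hR : 1 ≤ R) (hr : 0 ≤ r) : Kac R r ≤ R ^ (1 / 32 : ℝ) := by
  have hR0 : 0 < R := by linarith
  have h1 : 1 / R ^ 3 ≤ 1 := by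
    rw [div_le_one (by positivity)]
    exact one_le_pow₀ hR
  have h2 : 1 ≤ R ^ (1 / 32 : ℝ) := Real.one_le_rpow hR (by norm_num)
  linarith [Kac_le' hR0 hr]

/-- termwise tail bound -/
theorem Kac_tail {R r : ℝ} (hR : 1 ≤ R) (hr : 1 ≤ r) :
    Kac R r ≤ R ^ (1 / 32 : ℝ) * r ^ (-(3 + 1 / 32 : ℝ)) := by
  have hR0 : 0 < R := by linarith
  have hr0 : 0 < r := by linarith
  rcases le_total R r with h | h
  · rw [Kac_eq_zero' hR0 h]
    positivity
  · have h1 := Kac_le' hR0 hr0.le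
    have h2 : 1 / R ^ 3 = R ^ (1 / 32 : ℝ) * R ^ (-(3 + 1 / 32 : ℝ)) := by
      rw [← Real.rpow_add hR0, one_div, ← Real.rpow_natCast, ← Real.rpow_neg hR0.le]
      norm_num
    have h3 : R ^ (-(3 + 1 / 32 : ℝ)) ≤ r ^ (-(3 + 1 / 32 : ℝ)) :=
      Real.rpow_le_rpow_of_nonpos hr0 h (by norm_num)
    calc Kac R r ≤ 1 / R ^ 3 := h1
      _ = R ^ (1 / 32 : ℝ) * R ^ (-(3 + 1 / 32 : ℝ)) := h2
      _ ≤ _ := mul_le_mul_of_nonneg_left h3 (by positivity)

end PP

section Wsum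
variable {α R : ℕ → ℝ}

theorem Wsum_summable (hα : ∀ j, 0 ≤ α j) (hR : ∀ j, 1 ≤ R j)
    (hs : Summable fun j => α j * R j ^ (1 / 32 : ℝ)) {r : ℝ} (hr : 0 ≤ r) :
    Summable fun j => α j * Kac (R j) r :=
  Summable.of_nonneg_of_le
    (fun j => mul_nonneg (hα j) (PP.Kac_nonneg' (by linarith [hR j]) r))
    (fun j => mul_le_mul_of_nonneg_left (PP.Kac_le_one (hR j) hr) (hα j)) hs

theorem Wsum_nonneg (hα : ∀ j, 0 ≤ α j) (hR : ∀ j, 1 ≤ R j) (r : ℝ) : 0 ≤ Wsum α R r :=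
  tsum_nonneg fun j => mul_nonneg (hα j) (PP.Kac_nonneg' (by linarith [hR j]) r)

theorem Wsum_le (hα : ∀ j, 0 ≤ α j) (hR : ∀ j, 1 ≤ R j)
    (hs : Summable fun j => α j * R j ^ (1 / 32 : ℝ)) {r : ℝ} (hr : 0 ≤ r) :
    Wsum α R r ≤ ∑' j, α j * R j ^ (1 / 32 : ℝ) :=
  (Wsum_summable hα hR hs hr).tsum_le_tsum
    (fun j => mul_le_mul_of_nonneg_left (PP.Kac_le_one (hR j) hr) (hα j)) hs

theorem Wsum_tail (hα : ∀ j, 0 ≤ α j) (hR : ∀ j, 1 ≤ R j)
    (hs : Summable fun j => α j * R j ^ (1 / 32 : ℝ)) {r : ℝ} (hr : 1 ≤ r) :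
    Wsum α R r ≤ (∑' j, α j * R j ^ (1 / 32 : ℝ)) * r ^ (-(3 + 1 / 32 : ℝ)) := by
  rw [← tsum_mul_right]
  refine (Wsum_summable hα hR hs (by linarith)).tsum_le_tsum (fun j => ?_) (hs.mul_right _)
  rw [mul_assoc]
  exact mul_le_mul_of_nonneg_left (PP.Kac_tail (hR j) hr) (hα j)

theorem Wsum_ge_term (hα : ∀ j, 0 ≤ α j) (hR : ∀ j, 1 ≤ R j)
    (hs : Summable fun j => α j * R j ^ (1 / 32 : ℝ)) {r : ℝ} (hr : 0 ≤ r) (j : ℕ) :
    α j * Kac (R j) r ≤ Wsum α R r :=
  (Wsum_summable hα hR hs hr).le_tsum j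
    (fun i _ => mul_nonneg (hα i) (PP.Kac_nonneg' (by linarith [hR i]) r))

theorem measurable_Wsum (α R : ℕ → ℝ) : Measurable (Wsum α R) := by
  unfold Wsum
  exact Measurable.tsum fun j => ((PP.continuous_Kac (R j)).measurable).const_mul (α j)

theorem continuous_evn_Wsum (hα : ∀ j, 0 ≤ α j) (hR : ∀ j, 1 ≤ R j)
    (hs : Summable fun j => α j * R j ^ (1 / 32 : ℝ)) : Continuous (evn (Wsum α R)) := by
  unfold evn Wsum
  refine continuous_tsum (fun j => ?_) hs (fun j r => ?_)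
  · exact continuous_const.mul ((PP.continuous_Kac (R j)).comp continuous_abs)
  · rw [Real.norm_eq_abs, abs_of_nonneg
      (mul_nonneg (hα j) (PP.Kac_nonneg' (by linarith [hR j]) _))]
    exact mul_le_mul_of_nonneg_left (PP.Kac_le_one (hR j) (abs_nonneg r)) (hα j)

end Wsum

/-! ### radial functions -/

theorem finrank_Pt : Module.finrank ℝ Pt = 3 := by simp

/-- A nonnegative measurable radial profile, vanishing beyond `1`, with `r² g(r)` bounded on
`(0,1)`, is integrable over `ℝ³`. -/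
theorem integrable_radial {g : ℝ → ℝ} (hm : Measurable g) {K : ℝ}
    (hK : ∀ r, 0 < r → r < 1 → |r ^ 2 * g r| ≤ K) (h0 : ∀ r, 1 ≤ r → g r = 0) :
    Integrable (fun x : Pt => g ‖x‖) := by
  rw [integrable_fun_norm_addHaar (volume : Measure Pt) (f := g), finrank_Pt]
  have hsplit : Set.Ioi (0 : ℝ) = Set.Ioo 0 1 ∪ Set.Ici 1 := by
    ext r
    simp only [Set.mem_Ioi, Set.mem_union, Set.mem_Ioo, Set.mem_Ici]
    constructor
    · intro h
      rcases lt_or_ge r 1 with h1 | h1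
      · exact Or.inl ⟨h, h1⟩
      · exact Or.inr h1
    · rintro (h | h)
      · exact h.1
      · linarith
  rw [hsplit]
  refine IntegrableOn.union ?_ ?_
  · refine Measure.integrableOn_of_bounded (M := K) (by simp) ?_ ?_
    · exact ((measurable_id.pow_const _).smul hm).aestronglyMeasurable
    · refine (ae_restrict_iff' measurableSet_Ioo).2 (Eventually.of_forall fun r hr => ?_)
      simpa using hK r hr.1 hr.2
  · refine (integrableOn_zero).congr_fun ?_ measurableSet_Ici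
    intro r hr
    simp [h0 r hr]

end Crest.Agent.S0209

/-- Realise the auto-generated equation lemmas once, in this (defining / root) module, so that
sibling modules of one import closure do not each create their own copy of the same name. -/
theorem Crest.Agent.S0209.eqns_realised_PotProps : True := by
  have := @Crest.Agent.S0209.evn.eq_1
  have := @Crest.Agent.S0209.Wsum.eq_1
  trivial
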