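import Crest.Agent.S0209_Scales
import Crest.Agent.S0209_PotProps

/-!
# ROW 149, package K (part 4): the concrete cores
`core` (two plateaus, continuous, bounded; S0209) and `core + zeta` (divergent at `0+`; S0210),
both with `CoreP`.
-/

set_option autoImplicit false
namespace Crest.Agent.S0209
open Crest.ProbabilityR.Continuum MeasureTheory Filter Topology

/-- `clamp x = max 0 (min 1 x)` -/
noncomputable def clamp (x : ℝ) : ℝ := max 0 (min 1 x)

theorem clamp_nonneg (x : ℝ) : 0 ≤ clamp x := le_max_left _ _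
theorem clamp_le_one (x : ℝ) : clamp x ≤ 1 := max_le zero_le_one (min_le_left _ _)
theorem clamp_of_nonpos {x : ℝ} (h : x ≤ 0) : clamp x = 0 := by
  unfold clamp
  rw [min_eq_right (by linarith), max_eq_left h]
theorem clamp_of_one_le {x : ℝ} (h : 1 ≤ x) : clamp x = 1 := by
  unfold clamp
  rw [min_eq_left h, max_eq_right zero_le_one]
theorem continuous_clamp : Continuous clamp := by
  unfold clamp
  fun_prop

/-- the two-plateau core: `20T` on `r ≤ a/2`, `81T` on `[a,b1]`, `0` on `r ≥ 1`. -/
noncomputable def core (T a b1 r : ℝ) : ℝ :=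
  min (20 * T + 61 * T * clamp ((r - a / 2) / (a / 2))) (81 * T * clamp ((1 - r) / (1 - b1)))

/-- the singular part: `(1/r - 1/r0)₊` (`= 0` at `r = 0` by the convention `1/0 = 0`). -/
noncomputable def zeta (r0 r : ℝ) : ℝ := max 0 (1 / r - 1 / r0)

section core
variable {T a b1 : ℝ}

theorem continuous_core (T a b1 : ℝ) : Continuous (core T a b1) := by
  unfold core
  have := continuous_clamp
  fun_prop

theorem core_nonneg (hT : 0 ≤ T) (r : ℝ) : 0 ≤ core T a b1 r := by
  unfold core
  have h1 := clamp_nonneg ((r - a / 2) / (a / 2))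
  have h2 := clamp_nonneg ((1 - r) / (1 - b1))
  exact le_min (by positivity) (by positivity)

theorem core_le (hT : 0 ≤ T) (r : ℝ) : core T a b1 r ≤ 81 * T := by
  unfold core
  refine (min_le_right _ _).trans ?_
  have h2 := clamp_le_one ((1 - r) / (1 - b1))
  nlinarith

theorem core_low1 (hT : 0 ≤ T) (hb : b1 < 1) {r : ℝ} (hr : r ≤ b1) : 20 * T ≤ core T a b1 r := by
  unfold core
  have h1 := clamp_nonneg ((r - a / 2) / (a / 2))
  have h2 : clamp ((1 - r) / (1 - b1)) = 1 :=
    clamp_of_one_le (by rw [one_le_div (by linarith)]; linarith)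
  rw [h2]
  refine le_min ?_ (by linarith)
  have : 0 ≤ 61 * T * clamp ((r - a / 2) / (a / 2)) := by positivity
  linarith

theorem core_low2 (ha : 0 < a) (hb : b1 < 1) {r : ℝ} (har : a < r) (hr : r ≤ b1) :
    81 * T ≤ core T a b1 r := by
  unfold core
  have h1 : clamp ((r - a / 2) / (a / 2)) = 1 :=
    clamp_of_one_le (by rw [one_le_div (by linarith)]; linarith)
  have h2 : clamp ((1 - r) / (1 - b1)) = 1 :=
    clamp_of_one_le (by rw [one_le_div (by linarith)]; linarith)
  rw [h1, h2]
  exact le_min (by linarith) (by linarith)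

theorem core_up1 (ha : 0 < a) {r : ℝ} (hr : r ≤ a / 2) : core T a b1 r ≤ 20 * T := by
  unfold core
  have h1 : clamp ((r - a / 2) / (a / 2)) = 0 :=
    clamp_of_nonpos (div_nonpos_of_nonpos_of_nonneg (by linarith) (by linarith))
  rw [h1]
  exact (min_le_left _ _).trans (by linarith)

theorem core_zero (hT : 0 ≤ T) (hb : b1 < 1) {r : ℝ} (hr : 1 ≤ r) : core T a b1 r = 0 := by
  unfold core
  have h1 := clamp_nonneg ((r - a / 2) / (a / 2))
  have h2 : clamp ((1 - r) / (1 - b1)) = 0 :=
    clamp_of_nonpos (div_nonpos_of_nonpos_of_nonneg (by linarith) (by linarith))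
  rw [h2, mul_zero]
  exact min_eq_right (by positivity)

theorem integrable_core (hT : 0 ≤ T) (hb : b1 < 1) :
    Integrable (fun x : Pt => core T a b1 ‖x‖) := by
  refine integrable_radial (continuous_core T a b1).measurable (K := 81 * T) ?_
    (fun r hr => core_zero hT hb hr)
  intro r h0 h1
  rw [abs_of_nonneg (mul_nonneg (by positivity) (core_nonneg hT r))]
  have h2 : r ^ 2 ≤ 1 := by nlinarith
  have h3 := core_le (a := a) (b1 := b1) hT r
  have h4 := core_nonneg (a := a) (b1 := b1) hT r
  nlinarith

/-- `CoreP` for the bounded core. -/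
theorem coreP_core (hT : 0 ≤ T) (ha : 0 < a) (hb : b1 < 1) (r0 : ℝ) :
    CoreP (core T a b1) T a b1 r0 (∫ x : Pt, core T a b1 ‖x‖) where
  meas := (continuous_core T a b1).measurable
  nonneg := core_nonneg hT
  low1 := fun _ _ hr => core_low1 hT hb hr
  low2 := fun _ har hr => core_low2 ha hb har hr
  up1 := fun _ _ hr => core_up1 ha hr
  up2 := fun r _ => core_le hT r
  zero := fun _ hr => core_zero hT hb hr
  int := integrable_core hT hb
  int_le := le_rfl

end core

section zeta
variable {r0 : ℝ}

theorem zeta_nonneg (r0 r : ℝ) : 0 ≤ zeta r0 r := le_max_left _ _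

theorem measurable_zeta (r0 : ℝ) : Measurable (zeta r0) := by
  unfold zeta
  fun_prop

theorem zeta_zero (hr0 : 0 < r0) {r : ℝ} (hr : r0 ≤ r) : zeta r0 r = 0 := by
  unfold zeta
  have : 1 / r ≤ 1 / r0 := one_div_le_one_div_of_le hr0 hr
  exact max_eq_left (by linarith)

theorem zeta_le (hr0 : 0 < r0) {r : ℝ} (hr : 0 < r) : zeta r0 r ≤ 1 / r := by
  unfold zeta
  have h1 : 0 < 1 / r0 := by positivity
  have h2 : 0 < 1 / r := by positivity
  exact max_le h2.le (by linarith)

theorem le_zeta (r0 r : ℝ) : 1 / r - 1 / r0 ≤ zeta r0 r := le_max_right _ _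

theorem integrable_zeta (hr0 : 0 < r0) (hr01 : r0 ≤ 1) :
    Integrable (fun x : Pt => zeta r0 ‖x‖) := by
  refine integrable_radial (measurable_zeta r0) (K := 1) ?_
    (fun r hr => zeta_zero hr0 (hr01.trans hr))
  intro r h0 h1
  rw [abs_of_nonneg (mul_nonneg (by positivity) (zeta_nonneg r0 r))]
  have h2 := zeta_le hr0 h0
  calc r ^ 2 * zeta r0 r ≤ r ^ 2 * (1 / r) := mul_le_mul_of_nonneg_left h2 (by positivity)
    _ = r := by field_simp
    _ ≤ 1 := h1.le

end zeta

/-- the divergent core -/
noncomputable def coreS (T a b1 r0 r : ℝ) : ℝ := core T a b1 r + zeta r0 r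

/-- `CoreP` for the divergent core. -/
theorem coreP_coreS {T a b1 r0 : ℝ} (hT : 0 ≤ T) (ha : 0 < a) (hb : b1 < 1) (hr0 : 0 < r0)
    (hr01 : r0 ≤ 1) :
    CoreP (coreS T a b1 r0) T a b1 r0 (∫ x : Pt, coreS T a b1 r0 ‖x‖) where
  meas := (continuous_core T a b1).measurable.add (measurable_zeta r0)
  nonneg := fun r => add_nonneg (core_nonneg hT r) (zeta_nonneg r0 r)
  low1 := fun r _ hr => by
    have := core_low1 (a := a) hT hb hr
    have := zeta_nonneg r0 r
    unfold coreS
    linarith
  low2 := fun r har hr => by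
    have := core_low2 (T := T) ha hb har hr
    have := zeta_nonneg r0 r
    unfold coreS
    linarith
  up1 := fun r h0 hr => by
    have := core_up1 (T := T) (b1 := b1) ha hr
    unfold coreS
    rw [zeta_zero hr0 h0]
    linarith
  up2 := fun r h0 => by
    have := core_le (a := a) (b1 := b1) hT r
    unfold coreS
    rw [zeta_zero hr0 h0]
    linarith
  zero := fun r hr => by
    unfold coreS
    rw [core_zero hT hb hr, zeta_zero hr0 (hr01.trans hr), add_zero]
  int := (integrable_core hT hb).add (integrable_zeta hr0 hr01)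
  int_le := le_rfl

end Crest.Agent.S0209

/-- Realise the auto-generated equation lemmas once, in this (defining / root) module, so that
sibling modules of one import closure do not each create their own copy of the same name. -/
theorem Crest.Agent.S0209.eqns_realised_Core : True := by
  have := @Crest.Agent.S0209.clamp.eq_1
  have := @Crest.Agent.S0209.core.eq_1
  have := @Crest.Agent.S0209.zeta.eq_1
  have := @Crest.Agent.S0209.coreS.eq_1
  trivial
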