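import Crest.Agent.S0209_Scales

/-!
# ROW 149, package I8 : existence of admissible parameters
-/

set_option autoImplicit false
namespace Crest.Agent.S0209
open Crest.ProbabilityR.Continuum MeasureTheory Filter

namespace ExPar

theorem vb_pos {r : ℝ} (hr : 0 < r) : 0 < vb r := by
  unfold vb; positivity

/-- choice of `T` -/
theorem exists_T (A1 A2 v : ℝ) (hv : 0 < v) :
    ∃ T : ℝ, 1e8 ≤ T ∧ A1 ≤ 5e-8 * T ∧ A2 ≤ 5e-8 * T ∧ Real.exp (-(80 * T)) ≤ v := by
  have h1 : ∀ᶠ T : ℝ in atTop, (1e8 : ℝ) ≤ T := eventually_ge_atTop _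
  have hlin : Tendsto (fun T : ℝ => 5e-8 * T) atTop atTop :=
    tendsto_id.const_mul_atTop (by norm_num)
  have h2 : ∀ᶠ T : ℝ in atTop, A1 ≤ 5e-8 * T := hlin.eventually_ge_atTop A1
  have h3 : ∀ᶠ T : ℝ in atTop, A2 ≤ 5e-8 * T := hlin.eventually_ge_atTop A2
  have hlin2 : Tendsto (fun T : ℝ => 80 * T) atTop atTop :=
    tendsto_id.const_mul_atTop (by norm_num)
  have hexp : Tendsto (fun T : ℝ => Real.exp (-(80 * T))) atTop (nhds 0) :=
    Real.tendsto_exp_neg_atTop_nhds_zero.comp hlin2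
  have h4 : ∀ᶠ T : ℝ in atTop, Real.exp (-(80 * T)) ≤ v :=
    (hexp.eventually_lt_const hv).mono fun _ h => h.le
  obtain ⟨T, hT⟩ := (h1.and (h2.and (h3.and h4))).exists
  exact ⟨T, hT.1, hT.2.1, hT.2.2.1, hT.2.2.2⟩

/-- choice of `a` -/
theorem exists_a (E d : ℝ) (hE : 0 < E) (hd : 0 < d) (hEd : E ≤ vb (2 * d)) :
    ∃ a : ℝ, 0 < a ∧ vb (2 * a) = E ∧ a ≤ d := by
  have hpi := Real.pi_pos
  set y : ℝ := 3 * E / (32 * Real.pi) with hy
  have hy0 : 0 < y := by positivity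
  refine ⟨y ^ (1 / 3 : ℝ), Real.rpow_pos_of_pos hy0 _, ?_, ?_⟩
  · have h3 : (y ^ (1 / 3 : ℝ)) ^ 3 = y := by
      rw [← Real.rpow_natCast, ← Real.rpow_mul hy0.le]
      norm_num
    unfold vb
    rw [mul_pow, h3, hy]
    field_simp
    ring
  · have h3 : (y ^ (1 / 3 : ℝ)) ^ 3 = y := by
      rw [← Real.rpow_natCast, ← Real.rpow_mul hy0.le]
      norm_num
    by_contra hcon0
    have hcon := not_le.mp hcon0
    have h4 : d ^ 3 < (y ^ (1 / 3 : ℝ)) ^ 3 := pow_lt_pow_left₀ hcon hd.le (by norm_num)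
    rw [h3, hy] at h4
    unfold vb at hEd
    have h5 : d ^ 3 * (32 * Real.pi) < 3 * E := by
      rwa [lt_div_iff₀ (by positivity)] at h4
    nlinarith [hEd, h5]

/-- asymptotics of packing numbers along `x ↦ (x - s)/t` -/
theorem tendsto_pack (s t : ℝ) (ht : 0 < t) :
    Tendsto (fun x : ℝ => (packingNumber ((x - s) / t) : ℝ) / x ^ 3) atTop
      (nhds (Pack.pdens * (1 / t) ^ 3)) := by
  have hy : Tendsto (fun x : ℝ => (x - s) / t) atTop atTop := by
    apply Tendsto.atTop_div_const ht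
    exact tendsto_atTop_add_const_right _ (-s) tendsto_id
  have h1 := Pack.tendsto_packing.comp hy
  have h2 : Tendsto (fun x : ℝ => (1 - s * x⁻¹) / t) atTop (nhds ((1 - s * 0) / t)) :=
    ((tendsto_const_nhds.sub (tendsto_inv_atTop_zero.const_mul s))).div_const t
  have h3 := h1.mul (h2.pow 3)
  have e : (1 - s * 0) / t = 1 / t := by ring
  rw [e] at h3
  refine h3.congr' ?_
  filter_upwards [eventually_gt_atTop (0 : ℝ), eventually_gt_atTop s] with x hx hxs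
  have hx0 : x ≠ 0 := hx.ne'
  have hxs' : x - s ≠ 0 := by linarith
  simp only [Function.comp]
  have e2 : (1 - s * x⁻¹) / t = ((x - s) / t) / x := by field_simp
  rw [e2]
  have hne : (x - s) / t ≠ 0 := div_ne_zero hxs' ht.ne'
  field_simp

end ExPar

open ExPar in
theorem exists_par : ∃ P : Par, P.OK := by
  classical
  set δ : ℝ := 1e-11 with hδ
  have hδ0 : 0 < δ := by rw [hδ]; norm_num
  obtain ⟨T, hT1, hT2, hT3, hT4⟩ := exists_T
    (Real.log 24 - Real.log (vb (δ / 2)) + 9 * Real.log 64)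
    (Real.log 2 - 2 * Real.log (vb (δ / 8))) (vb (2 * (δ / 10)))
    (vb_pos (by positivity))
  obtain ⟨a, ha0, hadef, hale⟩ := exists_a (Real.exp (-(80 * T))) (δ / 10) (Real.exp_pos _)
    (by positivity) hT4
  have hp1 := Pack.one_le_pdens
  have hp0 : 0 < Pack.pdens := by linarith
  -- the two limits
  have hb : 0 < 1 - δ - 4 * a := by
    have : a ≤ 1e-12 := by rw [hδ] at hale; linarith
    rw [hδ]; linarith
  have hL1 := tendsto_pack (2 * δ) (1 + 2 * δ) (by positivity)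
  have hL2 := tendsto_pack 0 (1 - δ - 4 * a) hb
  have hx : Tendsto (fun n : ℕ => (((2 * n : ℕ) : ℝ)) ^ 2) atTop atTop := by
    have h0 : Tendsto (fun n : ℕ => ((2 * n : ℕ) : ℝ)) atTop atTop := by
      apply tendsto_natCast_atTop_atTop.comp
      exact tendsto_id.const_mul_atTop' (by norm_num)
    exact (tendsto_pow_atTop (n := 2) (by norm_num)).comp h0
  have hS1 := hL1.comp hx
  have hS2 := hL2.comp hx
  -- numeric comparison of the limits
  have hc1 : 0.995 * Pack.pdens < Pack.pdens * (1 / (1 + 2 * δ)) ^ 3 := by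
    have : (0.995 : ℝ) < (1 / (1 + 2 * δ)) ^ 3 := by rw [hδ]; norm_num
    nlinarith
  have hc2 : Pack.pdens * (1 / (1 - δ - 4 * a)) ^ 3 <
      (1 + 4e-10) * (Pack.pdens * (1 / (1 + 2 * δ)) ^ 3) := by
    have ha12 : a ≤ 1e-12 := by rw [hδ] at hale; linarith
    have hb2 : (1 - 1.4e-11 : ℝ) ≤ 1 - δ - 4 * a := by rw [hδ]; linarith
    have h1 : (1 / (1 - δ - 4 * a)) ^ 3 ≤ (1 / (1 - 1.4e-11 : ℝ)) ^ 3 := by
      apply pow_le_pow_left₀ (by positivity)
      exact one_div_le_one_div_of_le (by norm_num) hb2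
    have h2 : (1 / (1 - 1.4e-11 : ℝ)) ^ 3 < (1 + 4e-10) * (1 / (1 + 2 * δ)) ^ 3 := by
      rw [hδ]; norm_num
    have h3 : (1 / (1 - δ - 4 * a)) ^ 3 < (1 + 4e-10) * (1 / (1 + 2 * δ)) ^ 3 :=
      lt_of_le_of_lt h1 h2
    nlinarith
  have hE1 := hS1.eventually_const_lt hc1
  have hE2 := hS2.eventually_lt (hS1.const_mul (1 + 4e-10)) hc2
  obtain ⟨n, hn1, hn2, hn3⟩ := (hE1.and (hE2.and (eventually_ge_atTop (10 ^ 60)))).exists
  have hn0 : 0 < n := lt_of_lt_of_le (by positivity) hn3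
  refine ⟨⟨T, δ, a, a / 16, 1e-13, 2 * n⟩, ?_⟩
  have hl : (((Par.l ⟨T, δ, a, a / 16, 1e-13, 2 * n⟩ 1 : ℕ)) : ℝ) = (((2 * n : ℕ) : ℝ)) ^ 2 := by
    simp [Par.l, Par.R]
  have hxpos : 0 < ((((2 * n : ℕ) : ℝ)) ^ 2) ^ 3 := by
    have : (0 : ℝ) < ((2 * n : ℕ) : ℝ) := by exact_mod_cast (by omega : 0 < 2 * n)
    positivity
  have hM : ((Par.M ⟨T, δ, a, a / 16, 1e-13, 2 * n⟩ 1 : ℕ) : ℝ) =
      (packingNumber (((((2 * n : ℕ) : ℝ)) ^ 2 - 2 * δ) / (1 + 2 * δ)) : ℝ) := by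
    simp only [Par.M]
    rw [hl]
  constructor
  · exact hT1
  · exact hδ0
  · exact le_of_eq hδ
  · exact ha0
  · exact hadef
  · exact hale
  · show 0 < a / 16
    positivity
  · exact le_refl _
  · rfl
  · exact Dvd.intro n rfl
  · show 10 ^ 60 ≤ 2 * n
    omega
  · exact hT2
  · exact hT3
  · rw [hM, hl]
    simp only [Function.comp] at hn2
    rw [sub_zero] at hn2
    have h := hn2
    rw [← mul_div_assoc, div_lt_div_iff_of_pos_right hxpos] at h
    exact h.le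
  · rw [hM, hl]
    simp only [Function.comp] at hn1
    rw [lt_div_iff₀ hxpos] at hn1
    exact hn1.le

end Crest.Agent.S0209
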