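import Crest.Agent.S0209_Defs

/-!
# ROW 149, package AB2: `Z_scale` (length scaling) and `Phi_concave` (Hölder)
-/

set_option autoImplicit false
namespace Crest.Agent.S0209
open Crest.ProbabilityR.Continuum MeasureTheory

namespace Basic2

theorem finrank_conf (N : ℕ) : Module.finrank ℝ (Fin N → Pt) = 3 * N := by
  rw [Module.finrank_pi_fintype]
  simp [mul_comm]

theorem isClosed_cube (L : ℝ) : IsClosed (cube L) := by
  have : cube L = ⋂ k : Fin 3, {x : Pt | 0 ≤ x k ∧ x k ≤ L} := by
    ext x; simp [cube]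
  rw [this]
  refine isClosed_iInter fun k => ?_
  have hc : Continuous fun x : Pt => x k := by fun_prop
  exact (isClosed_le continuous_const hc).inter (isClosed_le hc continuous_const)

theorem measurableSet_cube (L : ℝ) : MeasurableSet (cube L) := (isClosed_cube L).measurableSet

theorem measurableSet_box (L : ℝ) (N : ℕ) :
    MeasurableSet (Set.pi Set.univ (fun _ : Fin N => cube L)) :=
  MeasurableSet.univ_pi fun _ => measurableSet_cube L

theorem smul_mem_cube {b : ℝ} (hb : 0 < b) (L : ℝ) (x : Pt) :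
    b • x ∈ cube (b * L) ↔ x ∈ cube L := by
  have key : ∀ k : Fin 3, (0 ≤ b * x k ∧ b * x k ≤ b * L) ↔ (0 ≤ x k ∧ x k ≤ L) := by
    intro k
    constructor
    · rintro ⟨h1, h2⟩
      exact ⟨nonneg_of_mul_nonneg_right h1 hb, le_of_mul_le_mul_left h2 hb⟩
    · rintro ⟨h1, h2⟩
      exact ⟨by positivity, by gcongr⟩
  show (∀ k : Fin 3, 0 ≤ (b • x) k ∧ (b • x) k ≤ b * L) ↔ ∀ k : Fin 3, 0 ≤ x k ∧ x k ≤ L
  refine forall_congr' fun k => ?_
  simpa using key k

theorem smul_mem_box {b : ℝ} (hb : 0 < b) (L : ℝ) {N : ℕ} (x : Fin N → Pt) :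
    b • x ∈ Set.pi Set.univ (fun _ : Fin N => cube (b * L)) ↔
      x ∈ Set.pi Set.univ (fun _ : Fin N => cube L) := by
  simp only [Set.mem_pi, Set.mem_univ, true_imp_iff, Pi.smul_apply, smul_mem_cube hb]

theorem energy_scale (φ : ℝ → ℝ) {b : ℝ} (hb : 0 < b) {N : ℕ} (x : Fin N → Pt) :
    energy (fun r => φ (r / b)) (b • x) = energy φ x := by
  unfold energy
  refine Finset.sum_congr rfl fun p _ => ?_
  simp only [Pi.smul_apply, dist_smul₀, Real.norm_eq_abs, abs_of_pos hb]
  rw [mul_div_cancel_left₀ _ hb.ne']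

end Basic2

open Basic2 in
/-- length scaling -/
theorem Z_scale (φ : ℝ → ℝ) {b : ℝ} (hb : 0 < b) (L : ℝ) (N : ℕ) (β : ℝ) :
    partitionFn (fun r => φ (r / b)) (b * L) N β = b ^ (3 * N) * partitionFn φ L N β := by
  unfold partitionFn
  rw [← integral_indicator (measurableSet_box _ _), ← integral_indicator (measurableSet_box _ _)]
  have h := Measure.integral_comp_smul (volume : Measure (Fin N → Pt))
    ((Set.pi Set.univ (fun _ : Fin N => cube (b * L))).indicator
      (fun x => Real.exp (-β * energy (fun r => φ (r / b)) x))) b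
  have h2 : (fun x : Fin N → Pt => (Set.pi Set.univ (fun _ : Fin N => cube (b * L))).indicator
      (fun x => Real.exp (-β * energy (fun r => φ (r / b)) x)) (b • x)) =
      (Set.pi Set.univ (fun _ : Fin N => cube L)).indicator
        (fun x => Real.exp (-β * energy φ x)) := by
    funext x
    by_cases hx : x ∈ Set.pi Set.univ (fun _ : Fin N => cube L)
    · rw [Set.indicator_of_mem hx, Set.indicator_of_mem ((smul_mem_box hb L x).2 hx),
        energy_scale φ hb]
    · rw [Set.indicator_of_notMem hx,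
        Set.indicator_of_notMem (fun h => hx ((smul_mem_box hb L x).1 h))]
  rw [h2, finrank_conf, smul_eq_mul, abs_of_pos (by positivity)] at h
  rw [h]
  have hb' : b ^ (3 * N) ≠ 0 := by positivity
  field_simp

namespace Basic2

theorem isBounded_cube (L : ℝ) : Bornology.IsBounded (cube L) := by
  rw [isBounded_iff_forall_norm_le]
  refine ⟨Real.sqrt (∑ _k : Fin 3, L ^ 2), fun x hx => ?_⟩
  rw [EuclideanSpace.norm_eq]
  refine Real.sqrt_le_sqrt (Finset.sum_le_sum fun k _ => ?_)
  have := hx k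
  rw [Real.norm_eq_abs, sq_abs]
  nlinarith [this.1, this.2]

theorem volume_cube_lt_top (L : ℝ) : volume (cube L) < ⊤ := (isBounded_cube L).measure_lt_top

theorem volume_cube_pos {L : ℝ} (hL : 0 < L) : 0 < volume (cube L) := by
  have hsub : Metric.ball (WithLp.toLp 2 (fun _ : Fin 3 => L / 2) : Pt) (L / 2) ⊆ cube L := by
    intro x hx k
    rw [Metric.mem_ball, dist_eq_norm] at hx
    have h1 : ‖(x - (WithLp.toLp 2 (fun _ : Fin 3 => L / 2) : Pt)) k‖ < L / 2 :=
      lt_of_le_of_lt (PiLp.norm_apply_le _ k) hx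
    simp only [PiLp.sub_apply, Real.norm_eq_abs, abs_lt] at h1
    constructor <;> linarith [h1.1, h1.2]
  exact lt_of_lt_of_le (Metric.measure_ball_pos _ _ (by positivity)) (measure_mono hsub)

theorem volume_box_lt_top (L : ℝ) (N : ℕ) :
    volume (Set.pi Set.univ (fun _ : Fin N => cube L)) < ⊤ := by
  rw [volume_pi_pi]
  exact ENNReal.prod_lt_top fun _ _ => volume_cube_lt_top L

theorem volume_box_pos {L : ℝ} (hL : 0 < L) (N : ℕ) :
    0 < volume (Set.pi Set.univ (fun _ : Fin N => cube L)) := by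
  rw [volume_pi_pi]
  exact CanonicallyOrderedAdd.prod_pos.2 fun _ _ => volume_cube_pos hL

theorem measurable_energy {φ : ℝ → ℝ} (hφ : Measurable φ) (N : ℕ) :
    Measurable (fun x : Fin N → Pt => energy φ x) := by
  unfold energy
  refine Finset.measurable_sum _ fun p _ => ?_
  exact hφ.comp ((measurable_pi_apply _).dist (measurable_pi_apply _))

theorem integrableOn_exp {φ : ℝ → ℝ} {B : ℝ} (h : Good φ B) (L : ℝ) {β : ℝ} (hβ : 0 ≤ β) (N : ℕ) :
    IntegrableOn (fun x : Fin N → Pt => Real.exp (-β * energy φ x))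
      (Set.pi Set.univ (fun _ : Fin N => cube L)) := by
  refine Measure.integrableOn_of_bounded (M := Real.exp (β * (B * N))) (volume_box_lt_top L N).ne
    (Real.measurable_exp.comp ((measurable_energy h.meas N).const_mul _)).aestronglyMeasurable ?_
  refine Filter.Eventually.of_forall fun x => ?_
  rw [Real.norm_eq_abs, abs_of_pos (Real.exp_pos _)]
  refine Real.exp_le_exp.2 ?_
  have := h.stable N x
  nlinarith

theorem integral_exp_pos {φ : ℝ → ℝ} {B : ℝ} (h : Good φ B) {L : ℝ} (hL : 0 < L) {β : ℝ}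
    (hβ : 0 ≤ β) (N : ℕ) :
    0 < ∫ x in Set.pi Set.univ (fun _ : Fin N => cube L), Real.exp (-β * energy φ x) := by
  rw [integral_pos_iff_support_of_nonneg (fun x => (Real.exp_pos _).le) (integrableOn_exp h L hβ N)]
  have : Function.support (fun x : Fin N → Pt => Real.exp (-β * energy φ x)) = Set.univ := by
    ext x; simp [(Real.exp_pos _).ne']
  rw [this, Measure.restrict_apply_univ]
  exact volume_box_pos hL N

/-- Hölder in logarithmic form. -/
theorem log_integral_le {φ : ℝ → ℝ} {B : ℝ} (h : Good φ B) {L : ℝ} (hL : 0 < L) (N : ℕ)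
    {β₁ β₂ a b : ℝ} (h₁ : 0 ≤ β₁) (h₂ : 0 ≤ β₂) (ha : 0 ≤ a) (hb : 0 ≤ b) (hab : a + b = 1) :
    Real.log (∫ x in Set.pi Set.univ (fun _ : Fin N => cube L),
        Real.exp (-(a * β₁ + b * β₂) * energy φ x)) ≤
      a * Real.log (∫ x in Set.pi Set.univ (fun _ : Fin N => cube L),
        Real.exp (-β₁ * energy φ x)) +
      b * Real.log (∫ x in Set.pi Set.univ (fun _ : Fin N => cube L),
        Real.exp (-β₂ * energy φ x)) := by
  set S := Set.pi Set.univ (fun _ : Fin N => cube L) with hS
  set I₁ := ∫ x in S, Real.exp (-β₁ * energy φ x) with hI₁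
  set I₂ := ∫ x in S, Real.exp (-β₂ * energy φ x) with hI₂
  have p₁ : 0 < I₁ := integral_exp_pos h hL h₁ N
  have p₂ : 0 < I₂ := integral_exp_pos h hL h₂ N
  have h₃ : 0 ≤ a * β₁ + b * β₂ := by positivity
  have p₃ := integral_exp_pos h hL h₃ N
  have i₁ := integrableOn_exp h L h₁ N
  have i₂ := integrableOn_exp h L h₂ N
  -- pointwise convexity of exp
  have hpt : ∀ x : Fin N → Pt, Real.exp (-(a * β₁ + b * β₂) * energy φ x) ≤
      Real.exp (a * Real.log I₁ + b * Real.log I₂) *
        (a * (Real.exp (-β₁ * energy φ x) / I₁) + b * (Real.exp (-β₂ * energy φ x) / I₂)) := by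
    intro x
    have hc := convexOn_exp.2 (Set.mem_univ (-β₁ * energy φ x - Real.log I₁))
      (Set.mem_univ (-β₂ * energy φ x - Real.log I₂)) ha hb hab
    simp only [smul_eq_mul] at hc
    rw [Real.exp_sub, Real.exp_sub, Real.exp_log p₁, Real.exp_log p₂] at hc
    calc Real.exp (-(a * β₁ + b * β₂) * energy φ x)
        = Real.exp (a * Real.log I₁ + b * Real.log I₂) *
          Real.exp (a * (-β₁ * energy φ x - Real.log I₁) +
            b * (-β₂ * energy φ x - Real.log I₂)) := by
          rw [← Real.exp_add]; congr 1; ring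
      _ ≤ _ := by gcongr
  have hint : Integrable (fun x : Fin N → Pt => Real.exp (a * Real.log I₁ + b * Real.log I₂) *
        (a * (Real.exp (-β₁ * energy φ x) / I₁) + b * (Real.exp (-β₂ * energy φ x) / I₂)))
      (volume.restrict S) :=
    (((i₁.div_const I₁).const_mul a).add ((i₂.div_const I₂).const_mul b)).const_mul _
  have hle := integral_mono_of_nonneg (μ := volume.restrict S)
    (Filter.Eventually.of_forall fun x => (Real.exp_pos (-(a * β₁ + b * β₂) * energy φ x)).le)
    hint (Filter.Eventually.of_forall hpt)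
  have hval : ∫ x in S, Real.exp (a * Real.log I₁ + b * Real.log I₂) *
        (a * (Real.exp (-β₁ * energy φ x) / I₁) + b * (Real.exp (-β₂ * energy φ x) / I₂)) =
      Real.exp (a * Real.log I₁ + b * Real.log I₂) := by
    rw [integral_const_mul, integral_add ((i₁.div_const I₁).const_mul a)
      ((i₂.div_const I₂).const_mul b), integral_const_mul, integral_const_mul,
      integral_div, integral_div, ← hI₁, ← hI₂, div_self p₁.ne', div_self p₂.ne']
    rw [mul_one, mul_one, hab, mul_one]
  rw [hval] at hle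
  calc _ ≤ Real.log (Real.exp (a * Real.log I₁ + b * Real.log I₂)) := Real.log_le_log p₃ hle
    _ = _ := Real.log_exp _

end Basic2

open Basic2 in
/-- Hölder: `-log Z` is concave in `β`. -/
theorem Phi_concave {φ : ℝ → ℝ} {B : ℝ} (h : Good φ B) {L : ℝ} (hL : 0 < L) (N : ℕ) :
    ConcaveOn ℝ (Set.Ici 0) (fun β => Phi φ L N β) := by
  refine ⟨convex_Ici 0, ?_⟩
  intro β₁ h₁ β₂ h₂ a b ha hb hab
  simp only [Set.mem_Ici] at h₁ h₂
  have hf : (0 : ℝ) < 1 / (N.factorial : ℝ) := by positivity
  have h₃ : 0 ≤ a * β₁ + b * β₂ := by positivity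
  simp only [Phi, partitionFn, smul_eq_mul]
  rw [Real.log_mul hf.ne' (integral_exp_pos h hL h₁ N).ne',
    Real.log_mul hf.ne' (integral_exp_pos h hL h₂ N).ne',
    Real.log_mul hf.ne' (integral_exp_pos h hL h₃ N).ne']
  have := log_integral_le h hL N h₁ h₂ ha hb hab
  have hb' : b = 1 - a := by linarith
  subst hb'
  nlinarith

end Crest.Agent.S0209
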