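import Crest.Agent.S0209_ZgBasic
import Crest.Agent.S0209_Basic2

/-!
# ROW 149, package AB: basic facts on the partition function

`Z_scale` and `Phi_concave` are in `S0209_Basic2` (helper72), re-exported by the import.
-/

set_option autoImplicit false
namespace Crest.Agent.S0209
open Crest.ProbabilityR.Continuum MeasureTheory

theorem Good.En_ge {φ : ℝ → ℝ} {B : ℝ} (h : Good φ B) {N : ℕ} (x : Fin N → Pt) :
    -(B * N) ≤ En (rad φ) x := by
  have := h.stable N x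
  rw [energy_eq_En] at this
  linarith

theorem Good.integrableOn {φ : ℝ → ℝ} {B : ℝ} (h : Good φ B) (L : ℝ) {β : ℝ} (hβ : 0 ≤ β)
    (N : ℕ) :
    IntegrableOn (fun x : Fin N → Pt => Real.exp (-β * En (rad φ) x))
      (Set.pi Set.univ (fun _ : Fin N => cube L)) :=
  integrableOn_exp_En (measurable_rad h.meas) (measurableSet_cube L) (volume_cube_lt_top L) hβ
    (fun x _ => h.En_ge x)

theorem volume_cube_toReal {L : ℝ} (hL : 0 ≤ L) : (volume (cube L)).toReal = L ^ 3 := by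
  rw [volume_cube hL, ENNReal.toReal_ofReal (by positivity)]

theorem Z_pos {φ : ℝ → ℝ} {B : ℝ} (h : Good φ B) {L β : ℝ} (hL : 0 < L) (hβ : 0 ≤ β) (N : ℕ) :
    0 < partitionFn φ L N β := by
  rw [partitionFn_eq_Zg]
  refine Zg_pos ?_ (h.integrableOn L hβ N)
  rw [volume_cube hL.le]
  exact ENNReal.ofReal_pos.mpr (by positivity)

theorem Z_zero (φ : ℝ → ℝ) (L β : ℝ) : partitionFn φ L 0 β = 1 := by
  rw [partitionFn_eq_Zg]; exact Zg_zero _ _ _

theorem Z_beta_zero (φ : ℝ → ℝ) {L : ℝ} (hL : 0 ≤ L) (N : ℕ) :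
    partitionFn φ L N 0 = L ^ (3 * N) / N.factorial := by
  rw [partitionFn_eq_Zg, Zg_beta_zero, volume_cube_toReal hL, pow_mul]

theorem Z_le {φ : ℝ → ℝ} {B : ℝ} (h : Good φ B) {L β : ℝ} (hL : 0 ≤ L) (hβ : 0 ≤ β) (N : ℕ) :
    partitionFn φ L N β ≤ Real.exp (β * B * N) * L ^ (3 * N) / N.factorial := by
  rw [partitionFn_eq_Zg]
  have := Zg_le (V := rad φ) (measurableSet_cube L) (volume_cube_lt_top L) (N := N) hβ
    (fun x _ => h.En_ge x)
  rwa [volume_cube_toReal hL, ← pow_mul, ← mul_assoc] at this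

theorem Z_mono_L {φ : ℝ → ℝ} {B : ℝ} (h : Good φ B) {L L' β : ℝ} (hLL : L ≤ L') (hβ : 0 ≤ β)
    (N : ℕ) : partitionFn φ L N β ≤ partitionFn φ L' N β := by
  rw [partitionFn_eq_Zg, partitionFn_eq_Zg]
  exact Zg_mono_set (cube_mono hLL) (h.integrableOn L' hβ N)

theorem Z_mono_phi {φ φ' : ℝ → ℝ} {B B' : ℝ} (h : Good φ B) (h' : Good φ' B')
    (hle : ∀ r, 0 ≤ r → φ r ≤ φ' r) {β : ℝ} (hβ : 0 ≤ β) (L : ℝ) (N : ℕ) :
    partitionFn φ' L N β ≤ partitionFn φ L N β := by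
  rw [partitionFn_eq_Zg, partitionFn_eq_Zg]
  have := Zg_le_Zg_of_En_le (a := 0) (measurableSet_cube L) (h'.integrableOn L hβ N)
    (h.integrableOn L hβ N) (fun x _ => ?_)
  · simpa using this
  · have h1 : En (rad φ) x ≤ En (rad φ') x :=
      Finset.sum_le_sum (fun p _ => hle _ dist_nonneg)
    nlinarith

/-- energy comparison gives partition function comparison (used for the tail and superstability) -/
theorem Z_le_of_energy {φ φ' : ℝ → ℝ} {B B' : ℝ} (h : Good φ B) (h' : Good φ' B')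
    {c χ : ℝ} (hχ0 : 0 ≤ χ) (hχ1 : χ ≤ 1)
    (hE : ∀ (N : ℕ) (x : Fin N → Pt), (1 - χ) * energy φ' x - c * N ≤ energy φ x)
    {β : ℝ} (hβ : 0 ≤ β) (L : ℝ) (N : ℕ) :
    partitionFn φ L N β ≤ Real.exp (β * c * N) * partitionFn φ' L N ((1 - χ) * β) := by
  rw [partitionFn_eq_Zg, partitionFn_eq_Zg]
  refine Zg_le_Zg_of_En_le (measurableSet_cube L) (h.integrableOn L hβ N)
    (h'.integrableOn L (mul_nonneg (by linarith) hβ) N) (fun x _ => ?_)
  have h1 := hE N x
  rw [energy_eq_En, energy_eq_En] at h1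
  nlinarith

end Crest.Agent.S0209
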