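import Crest.Agent.S0209_Defs

/-!
# ROW 149, package AK: multi-cell lower bound for partition functions (`Z_blocks`)
-/

set_option autoImplicit false
namespace Crest.Agent.S0209.Blk
open Crest.ProbabilityR.Continuum MeasureTheory

section Energy

variable {ι κ : Type*} [Fintype ι] [DecidableEq ι] [Fintype κ] [DecidableEq κ]

/-- Symmetric form of the pair energy, over an arbitrary finite index type. -/
noncomputable def Eo (V : Pt → Pt → ℝ) (x : ι → Pt) : ℝ :=
  (1 / 2) * ∑ i, ∑ j, if i = j then 0 else V (x i) (x j)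

theorem Eo_comp_equiv (V : Pt → Pt → ℝ) (e : κ ≃ ι) (x : ι → Pt) :
    Eo V (x ∘ e) = Eo V x := by
  unfold Eo
  congr 1
  rw [← e.sum_comp]
  refine Finset.sum_congr rfl fun i _ => ?_
  rw [← e.sum_comp]
  refine Finset.sum_congr rfl fun j _ => ?_
  simp [e.injective.eq_iff]

theorem En_eq_Eo (V : Pt → Pt → ℝ) (hV : ∀ x y, V x y = V y x) {N : ℕ} (x : Fin N → Pt) :
    En V x = Eo V x := by
  unfold En Eo
  have h1 : ∑ p : {p : Fin N × Fin N // p.1 < p.2}, V (x p.1.1) (x p.1.2)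
      = ∑ i, ∑ j, if i < j then V (x i) (x j) else 0 := by
    rw [← Fintype.sum_prod_type', ← Finset.sum_filter]
    exact (Finset.sum_subtype_eq_sum_filter (s := Finset.univ)
      (f := fun p : Fin N × Fin N => V (x p.1) (x p.2)) (p := fun p => p.1 < p.2)) ▸ by simp
  have h2 : ∑ i, ∑ j, (if i < j then V (x i) (x j) else 0)
      = ∑ i, ∑ j, if j < i then V (x i) (x j) else 0 := by
    rw [Finset.sum_comm]
    refine Finset.sum_congr rfl fun i _ => Finset.sum_congr rfl fun j _ => ?_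
    rw [hV]
  have h3 : ∑ i, ∑ j, (if i = j then 0 else V (x i) (x j))
      = ∑ i, ∑ j, (if i < j then V (x i) (x j) else 0)
        + ∑ i, ∑ j, (if j < i then V (x i) (x j) else 0) := by
    rw [← Finset.sum_add_distrib]
    refine Finset.sum_congr rfl fun i _ => ?_
    rw [← Finset.sum_add_distrib]
    refine Finset.sum_congr rfl fun j _ => ?_
    rcases lt_trichotomy i j with h | h | h
    · simp [h, h.ne, h.le.not_gt]
    · simp [h]
    · simp [h, h.ne', h.le.not_gt]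
  rw [h1, h3, ← h2]
  ring

end Energy

section Sigma

variable {C : Type*} [Fintype C] [DecidableEq C] (n : C → ℕ)

theorem Eo_sigma (V : Pt → Pt → ℝ) (x : (Σ c, Fin (n c)) → Pt) :
    Eo V x = ∑ c, Eo V (fun j => x ⟨c, j⟩)
      + (1 / 2) * ∑ c, ∑ c', if c = c' then 0 else ∑ j, ∑ j', V (x ⟨c, j⟩) (x ⟨c', j'⟩) := by
  unfold Eo
  rw [← Finset.mul_sum, ← mul_add, ← Finset.sum_add_distrib, Fintype.sum_sigma]
  congr 1
  refine Finset.sum_congr rfl fun c _ => ?_
  have h1 : ∀ j : Fin (n c), (∑ q : (Σ c, Fin (n c)),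
      if (⟨c, j⟩ : Σ c, Fin (n c)) = q then 0 else V (x ⟨c, j⟩) (x q))
      = ∑ c', ∑ j', if (⟨c, j⟩ : Σ c, Fin (n c)) = ⟨c', j'⟩ then 0
          else V (x ⟨c, j⟩) (x ⟨c', j'⟩) := fun j => by rw [Fintype.sum_sigma]
  simp_rw [h1]
  rw [Finset.sum_comm]
  rw [← Finset.add_sum_erase _ _ (Finset.mem_univ c)]
  congr 1
  · refine Finset.sum_congr rfl fun j _ => Finset.sum_congr rfl fun j' _ => ?_
    simp
  · rw [← Finset.add_sum_erase (a := c) Finset.univ (fun c' => if c = c' then 0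
      else ∑ j, ∑ j', V (x ⟨c, j⟩) (x ⟨c', j'⟩)) (Finset.mem_univ c)]
    simp only [if_true, zero_add]
    refine Finset.sum_congr rfl fun c' hc' => ?_
    have hne : c ≠ c' := fun h => (Finset.mem_erase.1 hc').1 h.symm
    rw [if_neg hne]
    refine Finset.sum_congr rfl fun j _ => Finset.sum_congr rfl fun j' _ => ?_
    rw [if_neg]
    intro h
    exact hne (Sigma.mk.inj_iff.1 h).1

theorem Eo_mono {ι : Type*} [Fintype ι] [DecidableEq ι] {V W : Pt → Pt → ℝ} {Λ : Set Pt}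
    (h : ∀ x ∈ Λ, ∀ y ∈ Λ, V x y ≤ W x y) (x : ι → Pt) (hx : ∀ i, x i ∈ Λ) :
    Eo V x ≤ Eo W x := by
  unfold Eo
  refine mul_le_mul_of_nonneg_left ?_ (by norm_num)
  refine Finset.sum_le_sum fun i _ => Finset.sum_le_sum fun j _ => ?_
  split_ifs
  · exact le_rfl
  · exact h _ (hx i) _ (hx j)

theorem Eo_sigma_le (V : Pt → Pt → ℝ) (W : C → Pt → Pt → ℝ) (w : C → C → ℝ) (Λ : C → Set Pt)
    (hin : ∀ c, ∀ x ∈ Λ c, ∀ y ∈ Λ c, V x y ≤ W c x y)
    (hcr : ∀ c c', c ≠ c' → ∀ x ∈ Λ c, ∀ y ∈ Λ c', V x y ≤ w c c')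
    (x : (Σ c, Fin (n c)) → Pt) (hx : ∀ i, x i ∈ Λ i.1) :
    Eo V x ≤ ∑ c, Eo (W c) (fun j => x ⟨c, j⟩)
      + (1 / 2) * ∑ c, ∑ c', if c = c' then 0 else (n c : ℝ) * (n c') * w c c' := by
  rw [Eo_sigma]
  refine add_le_add (Finset.sum_le_sum fun c _ => Eo_mono (hin c) _ fun j => hx ⟨c, j⟩) ?_
  refine mul_le_mul_of_nonneg_left ?_ (by norm_num)
  refine Finset.sum_le_sum fun c _ => Finset.sum_le_sum fun c' _ => ?_
  split_ifs with h
  · exact le_rfl
  · calc ∑ j, ∑ j', V (x ⟨c, j⟩) (x ⟨c', j'⟩) ≤ ∑ _j : Fin (n c), ∑ _j' : Fin (n c'), w c c' :=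
        Finset.sum_le_sum fun j _ => Finset.sum_le_sum fun j' _ =>
          hcr c c' h _ (hx ⟨c, j⟩) _ (hx ⟨c', j'⟩)
      _ = (n c : ℝ) * (n c') * w c c' := by simp [mul_assoc]

end Sigma

section Meas

variable {ι κ : Type*} [Fintype ι] [DecidableEq ι] [Fintype κ] [DecidableEq κ]

/-- Unnormalised configuration integral with a domain for each particle. -/
noncomputable def ZI (V : Pt → Pt → ℝ) (Λ : ι → Set Pt) (β : ℝ) : ℝ :=
  ∫ x, Real.exp (-β * Eo V x) ∂(Measure.pi fun i => (volume : Measure Pt).restrict (Λ i))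

theorem ZI_eq_setIntegral (V : Pt → Pt → ℝ) (Λ : ι → Set Pt) (β : ℝ) :
    ZI V Λ β = ∫ x in Set.pi Set.univ Λ, Real.exp (-β * Eo V x) := by
  unfold ZI
  rw [← Measure.restrict_pi_pi, ← volume_pi]

theorem Zg_eq_ZI (V : Pt → Pt → ℝ) (hV : ∀ x y, V x y = V y x) (D : Set Pt) (N : ℕ) (β : ℝ) :
    Zg V D N β = (1 / (N.factorial : ℝ)) * ZI V (fun _ : Fin N => D) β := by
  rw [ZI_eq_setIntegral]
  unfold Zg
  simp_rw [En_eq_Eo V hV]

theorem ZI_comp_equiv (V : Pt → Pt → ℝ) (e : κ ≃ ι) (Λ : ι → Set Pt) (β : ℝ) :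
    ZI V (fun k => Λ (e k)) β = ZI V Λ β := by
  unfold ZI
  have hmp := measurePreserving_piCongrLeft (α := fun _ : ι => Pt)
    (fun i => (volume : Measure Pt).restrict (Λ i)) e
  rw [← hmp.integral_comp']
  refine integral_congr_ae (Filter.Eventually.of_forall fun x => ?_)
  have : (MeasurableEquiv.piCongrLeft (fun _ : ι => Pt) e) x ∘ e = x := by
    funext k
    simp only [Function.comp_apply, MeasurableEquiv.coe_piCongrLeft]
    exact Equiv.piCongrLeft_apply_apply (fun _ : ι => Pt) e x k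
  show Real.exp (-β * Eo V x) = Real.exp (-β * Eo V (MeasurableEquiv.piCongrLeft _ e x))
  rw [← Eo_comp_equiv V e (MeasurableEquiv.piCongrLeft _ e x), this]

theorem integrable_comp_equiv (V : Pt → Pt → ℝ) (e : κ ≃ ι) (Λ : ι → Set Pt) (β : ℝ)
    (h : IntegrableOn (fun x : κ → Pt => Real.exp (-β * Eo V x))
      (Set.pi Set.univ fun k => Λ (e k))) :
    IntegrableOn (fun x : ι → Pt => Real.exp (-β * Eo V x)) (Set.pi Set.univ Λ) := by
  unfold IntegrableOn at h ⊢
  rw [volume_pi, Measure.restrict_pi_pi] at h ⊢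
  have hmp := measurePreserving_piCongrLeft (α := fun _ : ι => Pt)
    (fun i => (volume : Measure Pt).restrict (Λ i)) e
  rw [← hmp.integrable_comp_emb (MeasurableEquiv.measurableEmbedding _)]
  refine h.congr (Filter.Eventually.of_forall fun x => ?_)
  have : (MeasurableEquiv.piCongrLeft (fun _ : ι => Pt) e) x ∘ e = x := by
    funext k
    simp only [Function.comp_apply, MeasurableEquiv.coe_piCongrLeft]
    exact Equiv.piCongrLeft_apply_apply (fun _ : ι => Pt) e x k
  show Real.exp (-β * Eo V x) = Real.exp (-β * Eo V (MeasurableEquiv.piCongrLeft _ e x))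
  rw [← Eo_comp_equiv V e (MeasurableEquiv.piCongrLeft _ e x), this]

open Classical in
/-- counting: the permutations `σ` for which a fixed configuration has particle `i` in cell
`t (σ i)` for all `i` inject into the stabiliser of `t`. -/
theorem card_perm_le {C : Type*} [Fintype C] [DecidableEq C] (t : ι → C) (Λ : C → Set Pt)
    (hdisj : ∀ c c', c ≠ c' → Disjoint (Λ c) (Λ c')) (x : ι → Pt) :
    (Finset.univ.filter (fun σ : Equiv.Perm ι => ∀ i, x i ∈ Λ (t (σ i)))).card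
      ≤ ∏ c, (Fintype.card {i // t i = c}).factorial := by
  classical
  rw [← DomMulAct.stabilizer_card t, Fintype.card_subtype]
  rcases (Finset.univ.filter (fun σ : Equiv.Perm ι => ∀ i, x i ∈ Λ (t (σ i)))).eq_empty_or_nonempty
    with h | ⟨σ₁, hσ₁⟩
  · rw [h]; simp
  · have h1 := (Finset.mem_filter.1 hσ₁).2
    refine Finset.card_le_card_of_injOn (fun σ => σ * σ₁⁻¹) ?_ ?_
    · intro σ hσ
      have h2 := (Finset.mem_filter.1 (Finset.mem_coe.1 hσ)).2
      refine Finset.mem_coe.2 (Finset.mem_filter.2 ⟨Finset.mem_univ _, ?_⟩)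
      funext i
      have key : ∀ j, t (σ j) = t (σ₁ j) := by
        intro j
        by_contra hne
        exact Set.disjoint_left.1 (hdisj _ _ hne) (h2 j) (h1 j)
      simp only [Function.comp_apply, Equiv.Perm.coe_mul]
      rw [key]
      simp
    · intro a _ b _ hab
      exact mul_right_cancel hab

theorem ZI_perm_avg {C : Type*} [Fintype C] [DecidableEq C] (V : Pt → Pt → ℝ) (t : ι → C)
    (Λ : C → Set Pt) (D : Set Pt) (hΛ : ∀ c, MeasurableSet (Λ c))
    (hdisj : ∀ c c', c ≠ c' → Disjoint (Λ c) (Λ c')) (hsub : ∀ c, Λ c ⊆ D) (hD : MeasurableSet D)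
    (β : ℝ)
    (hint : IntegrableOn (fun x : ι → Pt => Real.exp (-β * Eo V x))
      (Set.pi Set.univ fun _ => D)) :
    ((Fintype.card ι).factorial : ℝ) * ZI V (fun i => Λ (t i)) β
      ≤ ((∏ c, (Fintype.card {i // t i = c}).factorial : ℕ) : ℝ) * ZI V (fun _ : ι => D) β := by
  classical
  set F : (ι → Pt) → ℝ := fun x => Real.exp (-β * Eo V x) with hF
  set K : ℕ := ∏ c, (Fintype.card {i // t i = c}).factorial with hK
  set T : Equiv.Perm ι → Set (ι → Pt) := fun σ => Set.pi Set.univ fun i => Λ (t (σ i)) with hT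
  set DD : Set (ι → Pt) := Set.pi Set.univ fun _ => D with hDD
  have hTm : ∀ σ, MeasurableSet (T σ) := fun σ => MeasurableSet.univ_pi fun i => hΛ _
  have hDm : MeasurableSet DD := MeasurableSet.univ_pi fun _ => hD
  have hTD : ∀ σ, T σ ⊆ DD := fun σ => Set.pi_mono fun i _ => hsub _
  have h1 : ∀ σ : Equiv.Perm ι, ZI V (fun i => Λ (t (σ i))) β = ZI V (fun i => Λ (t i)) β :=
    fun σ => ZI_comp_equiv V σ (fun i => Λ (t i)) β
  have h2 : ((Fintype.card ι).factorial : ℝ) * ZI V (fun i => Λ (t i)) β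
      = ∑ σ : Equiv.Perm ι, ∫ x, (T σ).indicator F x := by
    rw [← Fintype.card_perm]
    simp_rw [integral_indicator (hTm _), hT, hF, ← ZI_eq_setIntegral, h1]
    simp
  have h3 : (K : ℝ) * ZI V (fun _ : ι => D) β = ∫ x, (K : ℝ) * DD.indicator F x := by
    rw [integral_const_mul, integral_indicator hDm, ZI_eq_setIntegral]
  rw [h2, h3, ← integral_finsetSum]
  · refine integral_mono ?_ ?_ ?_
    · exact integrable_finsetSum _ fun σ _ =>
        (integrable_indicator_iff (hTm σ)).2 (hint.mono_set (hTD σ))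
    · exact ((integrable_indicator_iff hDm).2 hint).const_mul _
    · intro x
      have hFx : 0 ≤ F x := (Real.exp_pos _).le
      show ∑ σ : Equiv.Perm ι, (T σ).indicator F x ≤ (K : ℝ) * DD.indicator F x
      have e1 : ∑ σ : Equiv.Perm ι, (T σ).indicator F x
          = ((Finset.univ.filter (fun σ : Equiv.Perm ι => ∀ i, x i ∈ Λ (t (σ i)))).card : ℝ)
            * F x := by
        rw [Finset.card_filter]
        push_cast
        rw [Finset.sum_mul]
        refine Finset.sum_congr rfl fun σ _ => ?_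
        by_cases hx : ∀ i, x i ∈ Λ (t (σ i))
        · rw [Set.indicator_of_mem (by simpa [hT, Set.mem_pi] using hx), if_pos hx]; simp
        · rw [Set.indicator_of_notMem (by simpa [hT, Set.mem_pi] using hx), if_neg hx]; simp
      rw [e1]
      by_cases hxD : x ∈ DD
      · rw [Set.indicator_of_mem hxD]
        exact mul_le_mul_of_nonneg_right (by exact_mod_cast card_perm_le t Λ hdisj x) hFx
      · have : (Finset.univ.filter (fun σ : Equiv.Perm ι => ∀ i, x i ∈ Λ (t (σ i)))) = ∅ := by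
          rw [Finset.filter_eq_empty_iff]
          intro σ _ hx
          exact hxD (hTD σ (by simpa [hT, Set.mem_pi] using hx))
        rw [this, Set.indicator_of_notMem hxD]
        simp
  · exact fun σ _ => (integrable_indicator_iff (hTm σ)).2 (hint.mono_set (hTD σ))

end Meas

section Factor

variable {C : Type*} [Fintype C] [DecidableEq C] (n : C → ℕ)

omit [DecidableEq C] in
theorem measurePreserving_piCurry_Pt (μ : C → Measure Pt) [∀ c, SigmaFinite (μ c)] :
    MeasurePreserving (MeasurableEquiv.piCurry (fun (c : C) (_ : Fin (n c)) => Pt))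
      (Measure.pi fun p : (Σ c, Fin (n c)) => μ p.1)
      (Measure.pi fun c => Measure.pi fun _ : Fin (n c) => μ c) := by
  refine (MeasurePreserving.symm _
    ⟨(MeasurableEquiv.piCurry (fun (c : C) (_ : Fin (n c)) => Pt)).symm.measurable, ?_⟩)
  refine (Measure.pi_eq fun s hs => ?_).symm
  rw [MeasurableEquiv.map_apply]
  have : (MeasurableEquiv.piCurry (fun (c : C) (_ : Fin (n c)) => Pt)).symm ⁻¹' Set.pi Set.univ s
      = Set.pi Set.univ fun c => Set.pi Set.univ fun j => s ⟨c, j⟩ := by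
    ext f
    simp only [Set.mem_preimage, Set.mem_pi, Set.mem_univ, forall_true_left,
      MeasurableEquiv.coe_piCurry_symm]
    constructor
    · intro h c j
      exact h ⟨c, j⟩
    · rintro h ⟨c, j⟩
      exact h c j
  rw [this, Measure.pi_pi]
  simp_rw [Measure.pi_pi]
  rw [Fintype.prod_sigma]

omit [DecidableEq C] in
theorem integral_sigma_prod (μ : C → Measure Pt) [∀ c, SigmaFinite (μ c)]
    (G : ∀ c, (Fin (n c) → Pt) → ℝ) :
    ∫ x, ∏ c, G c (fun j => x ⟨c, j⟩) ∂(Measure.pi fun p : (Σ c, Fin (n c)) => μ p.1)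
      = ∏ c, ∫ y, G c y ∂(Measure.pi fun _ : Fin (n c) => μ c) := by
  rw [← integral_fintype_prod_eq_prod, ← (measurePreserving_piCurry_Pt n μ).integral_comp']
  rfl

/-- **General multi-cell lower bound**, energy hypothesis on whole configurations. -/
theorem ZI_sigma_ge (V : Pt → Pt → ℝ) (W : C → Pt → Pt → ℝ) (Λ : C → Set Pt)
    (hΛ : ∀ c, MeasurableSet (Λ c)) (β K : ℝ)
    (hE : ∀ x : (Σ c, Fin (n c)) → Pt, (∀ i, x i ∈ Λ i.1) →
      β * Eo V x ≤ β * ∑ c, Eo (W c) (fun j => x ⟨c, j⟩) + K)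
    (hint : IntegrableOn (fun x : (Σ c, Fin (n c)) → Pt => Real.exp (-β * Eo V x))
      (Set.pi Set.univ fun i => Λ i.1)) :
    Real.exp (-K) * ∏ c, ZI (W c) (fun _ : Fin (n c) => Λ c) β
      ≤ ZI V (fun i : (Σ c, Fin (n c)) => Λ i.1) β := by
  unfold ZI
  rw [← integral_sigma_prod n (fun c => (volume : Measure Pt).restrict (Λ c))
    (fun c y => Real.exp (-β * Eo (W c) y)), ← integral_const_mul]
  have hm : (Measure.pi fun p : (Σ c, Fin (n c)) => (volume : Measure Pt).restrict (Λ p.1))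
      = (volume : Measure ((Σ c, Fin (n c)) → Pt)).restrict (Set.pi Set.univ fun i => Λ i.1) := by
    rw [← Measure.restrict_pi_pi, ← volume_pi]
  rw [hm]
  refine integral_mono_of_nonneg (Filter.Eventually.of_forall fun x => ?_) hint ?_
  · exact mul_nonneg (Real.exp_pos _).le (Finset.prod_nonneg fun c _ => (Real.exp_pos _).le)
  · refine (ae_restrict_iff' (MeasurableSet.univ_pi fun i => hΛ _)).2
      (Filter.Eventually.of_forall fun x hx => ?_)
    have hx' : ∀ i, x i ∈ Λ i.1 := fun i => hx i (Set.mem_univ _)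
    show Real.exp (-K) * ∏ c, Real.exp (-β * Eo (W c) (fun j => x ⟨c, j⟩))
      ≤ Real.exp (-β * Eo V x)
    rw [← Real.exp_sum, ← Real.exp_add]
    refine Real.exp_le_exp.2 ?_
    have := hE x hx'
    rw [Finset.mul_sum] at this
    simp only [neg_mul, Finset.sum_neg_distrib]
    linarith

theorem card_sigma_fiber (c : C) :
    Fintype.card {i : (Σ c, Fin (n c)) // i.1 = c} = n c := by
  rw [Fintype.card_congr (Equiv.sigmaSubtype c), Fintype.card_fin]

/-- **General multi-cell lower bound** for `Zg`. -/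
theorem Zg_cells (V : Pt → Pt → ℝ) (hV : ∀ x y, V x y = V y x) (W : C → Pt → Pt → ℝ)
    (hW : ∀ c x y, W c x y = W c y x) (Λ : C → Set Pt) (D : Set Pt)
    (hΛ : ∀ c, MeasurableSet (Λ c)) (hdisj : ∀ c c', c ≠ c' → Disjoint (Λ c) (Λ c'))
    (hsub : ∀ c, Λ c ⊆ D) (hD : MeasurableSet D) (β K : ℝ)
    (hE : ∀ x : (Σ c, Fin (n c)) → Pt, (∀ i, x i ∈ Λ i.1) →
      β * Eo V x ≤ β * ∑ c, Eo (W c) (fun j => x ⟨c, j⟩) + K)
    (hint : IntegrableOn (fun x : Fin (∑ c, n c) → Pt => Real.exp (-β * En V x))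
      (Set.pi Set.univ fun _ => D)) :
    Real.exp (-K) * ∏ c, Zg (W c) (Λ c) (n c) β ≤ Zg V D (∑ c, n c) β := by
  have hcard : Fintype.card (Σ c, Fin (n c)) = ∑ c, n c := by simp
  let e : Fin (∑ c, n c) ≃ (Σ c, Fin (n c)) := (Fintype.equivFinOfCardEq hcard).symm
  simp_rw [En_eq_Eo V hV] at hint
  have hint' : IntegrableOn (fun x : (Σ c, Fin (n c)) → Pt => Real.exp (-β * Eo V x))
      (Set.pi Set.univ fun _ => D) := integrable_comp_equiv V e (fun _ => D) β hint
  have h1 := ZI_perm_avg V (fun i : (Σ c, Fin (n c)) => i.1) Λ D hΛ hdisj hsub hD β hint'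
  have h2 := ZI_sigma_ge n V W Λ hΛ β K hE (hint'.mono_set (Set.pi_mono fun i _ => hsub _))
  have h3 : ZI V (fun _ : Fin (∑ c, n c) => D) β = ZI V (fun _ : (Σ c, Fin (n c)) => D) β :=
    ZI_comp_equiv V e (fun _ => D) β
  simp_rw [card_sigma_fiber, hcard] at h1
  rw [Zg_eq_ZI V hV, h3]
  simp_rw [fun c => Zg_eq_ZI (W c) (hW c)]
  rw [Finset.prod_mul_distrib]
  have hP : (0 : ℝ) < ((∏ c, (n c).factorial : ℕ) : ℝ) := by
    exact_mod_cast Finset.prod_pos fun c _ => Nat.factorial_pos _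
  have hN : (0 : ℝ) < ((∑ c, n c).factorial : ℝ) := by exact_mod_cast Nat.factorial_pos _
  have hPe : ∏ c, (1 / ((n c).factorial : ℝ)) = 1 / ((∏ c, (n c).factorial : ℕ) : ℝ) := by
    push_cast
    rw [Finset.prod_div_distrib]
    simp
  rw [hPe]
  rw [show Real.exp (-K) * (1 / ((∏ c, (n c).factorial : ℕ) : ℝ)
        * ∏ c, ZI (W c) (fun _ : Fin (n c) => Λ c) β)
      = (Real.exp (-K) * ∏ c, ZI (W c) (fun _ : Fin (n c) => Λ c) β)
        / ((∏ c, (n c).factorial : ℕ) : ℝ) by ring]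
  rw [div_le_iff₀ hP]
  refine h2.trans ?_
  rw [show 1 / ((∑ c, n c).factorial : ℝ) * ZI V (fun _ : (Σ c, Fin (n c)) => D) β
        * ((∏ c, (n c).factorial : ℕ) : ℝ)
      = (((∏ c, (n c).factorial : ℕ) : ℝ) * ZI V (fun _ : (Σ c, Fin (n c)) => D) β)
        / ((∑ c, n c).factorial : ℝ) by ring]
  rw [le_div_iff₀ hN]
  linarith

/-- **Multi-cell lower bound**, pairwise hypotheses: inside cell `c` the interaction is at most
`W c`, between the cells `c ≠ c'` it is at most the constant `w c c'`. -/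
theorem Zg_cells_pair (V : Pt → Pt → ℝ) (hV : ∀ x y, V x y = V y x) (W : C → Pt → Pt → ℝ)
    (hW : ∀ c x y, W c x y = W c y x) (w : C → C → ℝ) (Λ : C → Set Pt) (D : Set Pt)
    (hΛ : ∀ c, MeasurableSet (Λ c)) (hdisj : ∀ c c', c ≠ c' → Disjoint (Λ c) (Λ c'))
    (hsub : ∀ c, Λ c ⊆ D) (hD : MeasurableSet D) {β : ℝ} (hβ : 0 ≤ β)
    (hin : ∀ c, ∀ x ∈ Λ c, ∀ y ∈ Λ c, V x y ≤ W c x y)
    (hcr : ∀ c c', c ≠ c' → ∀ x ∈ Λ c, ∀ y ∈ Λ c', V x y ≤ w c c')
    (hint : IntegrableOn (fun x : Fin (∑ c, n c) → Pt => Real.exp (-β * En V x))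
      (Set.pi Set.univ fun _ => D)) :
    Real.exp (-(β * ((1 / 2) * ∑ c, ∑ c', if c = c' then 0 else (n c : ℝ) * (n c') * w c c')))
      * ∏ c, Zg (W c) (Λ c) (n c) β ≤ Zg V D (∑ c, n c) β := by
  refine Zg_cells n V hV W hW Λ D hΛ hdisj hsub hD β _ (fun x hx => ?_) hint
  rw [← mul_add]
  exact mul_le_mul_of_nonneg_left (Eo_sigma_le n V W w Λ hin hcr x hx) hβ

end Factor

section Cube

theorem measurable_En {V : Pt → Pt → ℝ} (hVm : Measurable (Function.uncurry V)) (N : ℕ) :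
    Measurable (fun x : Fin N → Pt => En V x) := by
  unfold En
  refine Finset.measurable_sum _ fun p _ => ?_
  have h : Measurable fun x : Fin N → Pt => (x p.1.1, x p.1.2) :=
    (measurable_pi_apply p.1.1).prodMk (measurable_pi_apply p.1.2)
  exact hVm.comp h

theorem measurable_rad {φ : ℝ → ℝ} (hφ : Measurable φ) : Measurable (Function.uncurry (rad φ)) :=
  hφ.comp measurable_dist

theorem rad_symm (φ : ℝ → ℝ) (x y : Pt) : rad φ x y = rad φ y x := by
  unfold rad; rw [dist_comm]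

theorem integrableOn_exp_En {V : Pt → Pt → ℝ} (hVm : Measurable (Function.uncurry V))
    {D : Set Pt} (hDfin : volume D ≠ ⊤) (N : ℕ) {β : ℝ} (hβ : 0 ≤ β) (b : ℝ)
    (hb : ∀ x : Fin N → Pt, -b ≤ En V x) :
    IntegrableOn (fun x : Fin N → Pt => Real.exp (-β * En V x)) (Set.pi Set.univ fun _ => D) := by
  refine Measure.integrableOn_of_bounded (M := Real.exp (β * b)) ?_ ?_ ?_
  · rw [volume_pi_pi]
    exact ENNReal.prod_ne_top fun _ _ => hDfin
  · exact (Real.measurable_exp.comp ((measurable_En hVm N).const_mul _)).aestronglyMeasurable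
  · refine Filter.Eventually.of_forall fun x => ?_
    rw [Real.norm_eq_abs, abs_of_pos (Real.exp_pos _)]
    refine Real.exp_le_exp.2 ?_
    have := mul_le_mul_of_nonneg_left (hb x) hβ
    linarith

theorem isClosed_cube (L : ℝ) : IsClosed (cube L) := by
  have : cube L = ⋂ k : Fin 3, {x : Pt | 0 ≤ x k ∧ x k ≤ L} := by
    ext x; simp [cube]
  rw [this]
  refine isClosed_iInter fun k => ?_
  have hc : Continuous fun x : Pt => x k := by fun_prop
  exact (isClosed_le continuous_const hc).inter (isClosed_le hc continuous_const)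

theorem measurableSet_cube (L : ℝ) : MeasurableSet (cube L) := (isClosed_cube L).measurableSet

theorem isBounded_cube (L : ℝ) : Bornology.IsBounded (cube L) := by
  refine isBounded_iff_forall_norm_le.2 ⟨Real.sqrt (∑ _k : Fin 3, L ^ 2), fun x hx => ?_⟩
  rw [EuclideanSpace.norm_eq]
  refine Real.sqrt_le_sqrt (Finset.sum_le_sum fun k _ => ?_)
  have := hx k
  rw [Real.norm_eq_abs, sq_abs]
  exact pow_le_pow_left₀ this.1 this.2 2

theorem volume_cube_ne_top (L : ℝ) : volume (cube L) ≠ ⊤ := (isBounded_cube L).measure_lt_top.ne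

theorem Zg_translate (φ : ℝ → ℝ) (a : Pt) (Λ : Set Pt) (N : ℕ) (β : ℝ) :
    Zg (rad φ) {x | x + a ∈ Λ} N β = Zg (rad φ) Λ N β := by
  unfold Zg
  congr 1
  have h := (measurePreserving_add_right (volume : Measure (Fin N → Pt))
    (fun _ => a)).setIntegral_preimage_emb (measurableEmbedding_addRight _)
    (fun y => Real.exp (-β * En (rad φ) y)) (Set.pi Set.univ fun _ => Λ)
  rw [← h]
  have hs : (fun x : Fin N → Pt => x + fun _ => a) ⁻¹' (Set.pi Set.univ fun _ => Λ)
      = Set.pi Set.univ fun _ => {x | x + a ∈ Λ} := by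
    ext x; simp [Set.mem_pi]
  rw [hs]
  refine integral_congr_ae (Filter.Eventually.of_forall fun x => ?_)
  simp [En, rad]

/-- corner of the block with index `c` -/
noncomputable def corner (l : ℝ) {m : ℕ} (c : Fin 3 → Fin m) : Pt :=
  WithLp.toLp 2 fun k => ((c k : ℕ) : ℝ) * (l + 1)

theorem corner_apply (l : ℝ) {m : ℕ} (c : Fin 3 → Fin m) (k : Fin 3) :
    corner l c k = ((c k : ℕ) : ℝ) * (l + 1) := rfl

/-- the block with index `c`: the cube of side `l` translated by `corner l c` -/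
def block (l : ℝ) {m : ℕ} (c : Fin 3 → Fin m) : Set Pt := {x | x + -(corner l c) ∈ cube l}

theorem mem_block {l : ℝ} {m : ℕ} {c : Fin 3 → Fin m} {x : Pt} :
    x ∈ block l c ↔ ∀ k, ((c k : ℕ) : ℝ) * (l + 1) ≤ x k ∧ x k ≤ ((c k : ℕ) : ℝ) * (l + 1) + l := by
  unfold block cube
  simp only [Set.mem_ofPred_eq, PiLp.add_apply, PiLp.neg_apply, corner_apply]
  refine forall_congr' fun k => ?_
  constructor <;> rintro ⟨h1, h2⟩ <;> constructor <;> linarith

theorem measurableSet_block (l : ℝ) {m : ℕ} (c : Fin 3 → Fin m) : MeasurableSet (block l c) :=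
  (measurable_id.add_const _) (measurableSet_cube l)

theorem block_sep {l : ℝ} (hl : 0 < l) {m : ℕ} {c c' : Fin 3 → Fin m} (hc : c ≠ c') {x y : Pt}
    (hx : x ∈ block l c) (hy : y ∈ block l c') : 1 ≤ dist x y := by
  obtain ⟨k, hk⟩ := Function.ne_iff.1 hc
  have h1 := (mem_block.1 hx) k
  have h2 := (mem_block.1 hy) k
  have hle : |x k - y k| ≤ dist x y := by
    rw [dist_eq_norm, ← Real.norm_eq_abs]
    exact PiLp.norm_apply_le (x - y) k
  refine le_trans ?_ hle
  have hk' : ((c k : ℕ)) ≠ ((c' k : ℕ)) := fun h => hk (Fin.ext h)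
  rcases lt_or_gt_of_ne hk' with h | h
  · have h3 : ((c k : ℕ) : ℝ) + 1 ≤ ((c' k : ℕ) : ℝ) := by exact_mod_cast h
    have h4 : (((c k : ℕ) : ℝ) + 1) * (l + 1) ≤ ((c' k : ℕ) : ℝ) * (l + 1) :=
      mul_le_mul_of_nonneg_right h3 (by linarith)
    rw [abs_sub_comm]
    refine le_trans ?_ (le_abs_self _)
    linarith
  · have h3 : ((c' k : ℕ) : ℝ) + 1 ≤ ((c k : ℕ) : ℝ) := by exact_mod_cast h
    have h4 : (((c' k : ℕ) : ℝ) + 1) * (l + 1) ≤ ((c k : ℕ) : ℝ) * (l + 1) :=
      mul_le_mul_of_nonneg_right h3 (by linarith)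
    refine le_trans ?_ (le_abs_self _)
    linarith

theorem block_subset {l L : ℝ} (hl : 0 < l) {m : ℕ} (hm : m * (l + 1) ≤ L + 1)
    (c : Fin 3 → Fin m) : block l c ⊆ cube L := by
  intro x hx k
  have h1 := (mem_block.1 hx) k
  have h2 : ((c k : ℕ) : ℝ) + 1 ≤ (m : ℝ) := by exact_mod_cast (c k).2
  have h3 : (((c k : ℕ) : ℝ) + 1) * (l + 1) ≤ (m : ℝ) * (l + 1) :=
    mul_le_mul_of_nonneg_right h2 (by linarith)
  have h4 : (0 : ℝ) ≤ ((c k : ℕ) : ℝ) * (l + 1) := by positivity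
  constructor <;> linarith

theorem Z_blocks {φ : ℝ → ℝ} {B : ℝ} (h : Good φ B) (hneg : ∀ r, 1 ≤ r → φ r ≤ 0)
    {l L β : ℝ} (hl : 0 < l) (hβ : 0 ≤ β) (m : ℕ) (hm : m * (l + 1) ≤ L + 1)
    (n : (Fin 3 → Fin m) → ℕ) :
    ∏ b, partitionFn φ l (n b) β ≤ partitionFn φ L (∑ b, n b) β := by
  have key := Zg_cells_pair n (rad φ) (rad_symm φ) (fun _ => rad φ) (fun _ => rad_symm φ)
    (fun _ _ => 0) (fun c => block l c) (cube L) (fun c => measurableSet_block l c)
    (fun c c' hc => Set.disjoint_left.2 fun x hx hx' => by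
      have := block_sep hl hc hx hx'
      rw [dist_self] at this
      linarith)
    (fun c => block_subset hl hm c) (measurableSet_cube L) hβ
    (fun _ _ _ _ _ => le_rfl)
    (fun c c' hc x hx y hy => hneg _ (block_sep hl hc hx hy))
    (integrableOn_exp_En (measurable_rad h.meas) (volume_cube_ne_top L) _ hβ
      (B * (∑ b, n b : ℕ)) (fun x => by
        have := h.stable _ x
        rw [energy_eq_En] at this
        linarith))
  simp only [mul_zero, ite_self, Finset.sum_const_zero, neg_zero, Real.exp_zero, one_mul] at key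
  simp_rw [partitionFn_eq_Zg]
  refine le_trans (le_of_eq ?_) key
  refine Finset.prod_congr rfl fun c _ => ?_
  exact (Zg_translate φ (-(corner l c)) (cube l) (n c) β).symm

end Cube

end Crest.Agent.S0209.Blk

namespace Crest.Agent.S0209
open Crest.ProbabilityR.Continuum MeasureTheory

/-- Package AK, statement verbatim from the interface. -/
theorem Z_blocks {φ : ℝ → ℝ} {B : ℝ} (h : Good φ B) (hneg : ∀ r, 1 ≤ r → φ r ≤ 0)
    {l L β : ℝ} (hl : 0 < l) (hβ : 0 ≤ β) (m : ℕ) (hm : m * (l + 1) ≤ L + 1)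
    (n : (Fin 3 → Fin m) → ℕ) :
    ∏ b, partitionFn φ l (n b) β ≤ partitionFn φ L (∑ b, n b) β :=
  Blk.Z_blocks h hneg hl hβ m hm n

/-- **Multi-cell lower bound**, pairwise hypotheses: inside cell `c` the interaction is at most
`W c`, between the cells `c ≠ c'` it is at most the constant `w c c'`. -/
theorem Zg_cells_pair {C : Type*} [Fintype C] [DecidableEq C] (n : C → ℕ)
    (V : Pt → Pt → ℝ) (hV : ∀ x y, V x y = V y x) (W : C → Pt → Pt → ℝ)
    (hW : ∀ c x y, W c x y = W c y x) (w : C → C → ℝ) (Λ : C → Set Pt) (D : Set Pt)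
    (hΛ : ∀ c, MeasurableSet (Λ c)) (hdisj : ∀ c c', c ≠ c' → Disjoint (Λ c) (Λ c'))
    (hsub : ∀ c, Λ c ⊆ D) (hD : MeasurableSet D) {β : ℝ} (hβ : 0 ≤ β)
    (hin : ∀ c, ∀ x ∈ Λ c, ∀ y ∈ Λ c, V x y ≤ W c x y)
    (hcr : ∀ c c', c ≠ c' → ∀ x ∈ Λ c, ∀ y ∈ Λ c', V x y ≤ w c c')
    (hint : IntegrableOn (fun x : Fin (∑ c, n c) → Pt => Real.exp (-β * En V x))
      (Set.pi Set.univ fun _ => D)) :
    Real.exp (-(β * ((1 / 2) * ∑ c, ∑ c', if c = c' then 0 else (n c : ℝ) * (n c') * w c c')))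
      * ∏ c, Zg (W c) (Λ c) (n c) β ≤ Zg V D (∑ c, n c) β :=
  Blk.Zg_cells_pair n V hV W hW w Λ D hΛ hdisj hsub hD hβ hin hcr hint

end Crest.Agent.S0209
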