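import Crest.Agent.S0209_Defs

/-!
# ROW 149, package AI: one-particle insertion bound `Z_insert`

`Z_{N+1}(L) ≥ Z_N(L) · L³/(N+1) · exp(-β N I / L³)`: Fubini in the particle number `0` and the
tangent-line form of Jensen's inequality for `exp` on the cube.
Auxiliary lemmas live in the sub-namespace `Crest.Agent.S0209.Ins`.
-/

set_option autoImplicit false
namespace Crest.Agent.S0209
open Crest.ProbabilityR.Continuum MeasureTheory

namespace Ins

theorem energy_eq_double (φ : ℝ → ℝ) {N : ℕ} (x : Fin N → Pt) :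
    energy φ x = ∑ i : Fin N, ∑ j : Fin N, if i < j then φ (dist (x i) (x j)) else 0 := by
  unfold energy
  rw [← Finset.sum_product', Finset.univ_product_univ]
  rw [← Finset.sum_filter]
  rw [← Finset.sum_subtype (Finset.univ.filter fun p : Fin N × Fin N => p.1 < p.2)
    (fun p => by simp) (fun p => φ (dist (x p.1) (x p.2)))]

theorem energy_cons (φ : ℝ → ℝ) {N : ℕ} (y : Pt) (x : Fin N → Pt) :
    energy φ (Fin.cons y x : Fin (N + 1) → Pt) = energy φ x + ∑ i : Fin N, φ (dist y (x i)) := by
  rw [energy_eq_double, energy_eq_double, Fin.sum_univ_succ]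
  simp only [Fin.sum_univ_succ, Fin.cons_zero, Fin.cons_succ, lt_self_iff_false, if_false,
    Fin.succ_pos, if_true, Fin.not_lt_zero, Fin.succ_lt_succ_iff, zero_add]
  ring

theorem measurable_energy {φ : ℝ → ℝ} (hφ : Measurable φ) (N : ℕ) :
    Measurable (fun x : Fin N → Pt => energy φ x) := by
  unfold energy
  refine Finset.measurable_sum _ fun p _ => ?_
  exact hφ.comp ((measurable_pi_apply _).dist (measurable_pi_apply _))

theorem measurableSet_cube (L : ℝ) : MeasurableSet (cube L) := by
  have : cube L = ⋂ k : Fin 3, {x : Pt | 0 ≤ x k ∧ x k ≤ L} := by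
    ext x; simp [cube]
  rw [this]
  refine MeasurableSet.iInter fun k => ?_
  have hk : Measurable fun x : Pt => x k := (EuclideanSpace.proj (𝕜 := ℝ) k).continuous.measurable
  exact (measurableSet_le measurable_const hk).inter (measurableSet_le hk measurable_const)

theorem volume_cube {L : ℝ} (hL : 0 ≤ L) : volume (cube L) = ENNReal.ofReal (L ^ 3) := by
  have h1 : cube L = (MeasurableEquiv.toLp 2 (Fin 3 → ℝ)).symm ⁻¹' (Set.Icc 0 (fun _ => L)) := by
    ext x
    simp [cube, Set.mem_Icc, Pi.le_def, forall_and]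
  rw [h1, (EuclideanSpace.volume_preserving_symm_measurableEquiv_toLp (Fin 3)).measure_preimage
    measurableSet_Icc.nullMeasurableSet, Real.volume_Icc_pi]
  simp [ENNReal.ofReal_pow hL]

theorem volume_pi_cube_ne_top {L : ℝ} (hL : 0 ≤ L) (N : ℕ) :
    volume (Set.pi Set.univ fun _ : Fin N => cube L) ≠ ⊤ := by
  rw [volume_pi_pi]
  simp [volume_cube hL]

theorem integrableOn_boltz {φ : ℝ → ℝ} {B : ℝ} (h : Good φ B) {L β : ℝ} (hL : 0 ≤ L) (hβ : 0 ≤ β)
    (N : ℕ) :
    IntegrableOn (fun x : Fin N → Pt => Real.exp (-β * energy φ x))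
      (Set.pi Set.univ fun _ => cube L) := by
  refine Measure.integrableOn_of_bounded (M := Real.exp (β * (B * N))) (volume_pi_cube_ne_top hL N)
    ?_ ?_
  · exact (Real.measurable_exp.comp
      ((measurable_energy h.meas N).const_mul (-β))).aestronglyMeasurable
  · refine Filter.Eventually.of_forall fun x => ?_
    rw [Real.norm_eq_abs, abs_of_pos (Real.exp_pos _)]
    refine Real.exp_le_exp.2 ?_
    have := h.stable N x
    nlinarith

/-- the inner integral: tangent-line Jensen -/
theorem inner_bound {φ : ℝ → ℝ} {B I : ℝ} (h : Good φ B)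
    (hint : Integrable (fun x : Pt => max (φ ‖x‖) 0))
    (hI : ∫ x : Pt, max (φ ‖x‖) 0 ≤ I)
    {L β : ℝ} (hL : 0 < L) (hβ : 0 ≤ β) {N : ℕ} (x : Fin N → Pt) :
    L ^ 3 * Real.exp (-β * N * I / L ^ 3)
      ≤ ∫ y in cube L, Real.exp (-β * ∑ i, φ (dist y (x i))) := by
  set a : ℝ := -β * N * I / L ^ 3 with ha
  have hL3 : 0 < L ^ 3 := by positivity
  set Wp : Pt → ℝ := fun y => ∑ i, max (φ ‖y - x i‖) 0 with hWp
  have hWpi : Integrable Wp := integrable_finsetSum _ fun i _ => hint.comp_sub_right (x i)
  have hWp0 : ∀ y, 0 ≤ Wp y := fun y => Finset.sum_nonneg fun i _ => le_max_right _ _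
  have hWpI : ∫ y, Wp y ≤ N * I := by
    rw [hWp, integral_finsetSum _ fun i _ => hint.comp_sub_right (x i)]
    have : ∀ i : Fin N, ∫ y : Pt, max (φ ‖y - x i‖) 0 = ∫ y : Pt, max (φ ‖y‖) 0 := fun i =>
      integral_sub_right_eq_self (fun y : Pt => max (φ ‖y‖) 0) (x i)
    simp only [this, Finset.sum_const, Finset.card_univ, Fintype.card_fin, nsmul_eq_mul]
    exact mul_le_mul_of_nonneg_left hI (Nat.cast_nonneg _)
  have hWpc : ∫ y in cube L, Wp y ≤ N * I :=
    (setIntegral_le_integral hWpi (Filter.Eventually.of_forall hWp0)).trans hWpI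
  have hvol : volume.real (cube L) = L ^ 3 := by
    rw [Measure.real, volume_cube hL.le, ENNReal.toReal_ofReal hL3.le]
  have hfin : volume (cube L) ≠ ⊤ := by rw [volume_cube hL.le]; exact ENNReal.ofReal_ne_top
  -- the lower function
  have hlow : IntegrableOn (fun y => Real.exp a * ((1 - a) - β * Wp y)) (cube L) :=
    ((integrableOn_const hfin).sub (hWpi.integrableOn.const_mul β)).const_mul _
  have hup : IntegrableOn (fun y => Real.exp (-β * ∑ i, φ (dist y (x i)))) (cube L) := by
    refine Measure.integrableOn_of_bounded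
      (M := Real.exp (β * (B * (N + 1 : ℕ) + energy φ x))) hfin ?_ ?_
    · refine (Real.measurable_exp.comp (Measurable.const_mul ?_ (-β))).aestronglyMeasurable
      exact Finset.measurable_sum _ fun i _ => h.meas.comp (measurable_id.dist measurable_const)
    · refine Filter.Eventually.of_forall fun y => ?_
      rw [Real.norm_eq_abs, abs_of_pos (Real.exp_pos _)]
      refine Real.exp_le_exp.2 ?_
      have := h.stable (N + 1) (Fin.cons y x)
      rw [energy_cons] at this
      nlinarith
  have hmono : ∫ y in cube L, Real.exp a * ((1 - a) - β * Wp y)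
      ≤ ∫ y in cube L, Real.exp (-β * ∑ i, φ (dist y (x i))) := by
    refine setIntegral_mono_on hlow hup (measurableSet_cube L) fun y _ => ?_
    have h1 : ∑ i, φ (dist y (x i)) ≤ Wp y :=
      Finset.sum_le_sum fun i _ => by rw [dist_eq_norm]; exact le_max_left _ _
    have h2 : Real.exp (-β * Wp y) ≤ Real.exp (-β * ∑ i, φ (dist y (x i))) :=
      Real.exp_le_exp.2 (by nlinarith)
    refine le_trans ?_ h2
    have h3 : (-β * Wp y - a) + 1 ≤ Real.exp (-β * Wp y - a) := Real.add_one_le_exp _
    have h4 : Real.exp (-β * Wp y) = Real.exp a * Real.exp (-β * Wp y - a) := by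
      rw [← Real.exp_add]; congr 1; ring
    rw [h4]
    refine mul_le_mul_of_nonneg_left ?_ (Real.exp_pos _).le
    linarith
  refine le_trans ?_ hmono
  have hc : IntegrableOn (fun _ : Pt => (1 - a : ℝ)) (cube L) := integrableOn_const hfin
  rw [integral_const_mul, integral_sub hc (hWpi.integrableOn.const_mul β),
    integral_const_mul, setIntegral_const, hvol, smul_eq_mul, mul_comm (L ^ 3)]
  refine mul_le_mul_of_nonneg_left ?_ (Real.exp_pos _).le
  have haL : a * L ^ 3 = -β * N * I := by rw [ha]; field_simp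
  nlinarith

end Ins

open Ins in
theorem Z_insert {φ : ℝ → ℝ} {B I : ℝ} (h : Good φ B)
    (hint : Integrable (fun x : Pt => max (φ ‖x‖) 0))
    (hI : ∫ x : Pt, max (φ ‖x‖) 0 ≤ I)
    {L β : ℝ} (hL : 0 < L) (hβ : 0 ≤ β) (N : ℕ) :
    partitionFn φ L N β * (L ^ 3 / (N + 1)) * Real.exp (-β * N * I / L ^ 3)
      ≤ partitionFn φ L (N + 1) β := by
  set e := MeasurableEquiv.piFinSuccAbove (fun _ : Fin (N + 1) => Pt) 0 with he
  have hmp : MeasurePreserving e := volume_preserving_piFinSuccAbove (fun _ : Fin (N + 1) => Pt) 0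
  set S : Set (Pt × (Fin N → Pt)) := cube L ×ˢ Set.pi Set.univ fun _ : Fin N => cube L with hS
  have hpre : (Set.pi Set.univ fun _ : Fin (N + 1) => cube L) = e ⁻¹' S := by
    ext x
    simp [hS, he, MeasurableEquiv.piFinSuccAbove, Fin.forall_fin_succ, Fin.insertNthEquiv, Fin.tail]
  set g : Pt × (Fin N → Pt) → ℝ := fun z =>
    Real.exp (-β * energy φ z.2) * Real.exp (-β * ∑ i, φ (dist z.1 (z.2 i))) with hg
  have hge : ∀ x : Fin (N + 1) → Pt, Real.exp (-β * energy φ x) = g (e x) := by
    intro x
    have hx : x = Fin.cons (x 0) (fun i => x i.succ) := (Fin.cons_self_tail x).symm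
    have h1 : e x = (x 0, fun i => x i.succ) := by
      simp [he, MeasurableEquiv.piFinSuccAbove, Fin.insertNthEquiv]
      rfl
    rw [h1, hg]
    simp only
    rw [← Real.exp_add]
    conv_lhs => rw [hx, energy_cons]
    congr 1; ring
  have hint1 := integrableOn_boltz h hL.le hβ (N + 1)
  have hgS : IntegrableOn g S := by
    rw [← hmp.integrableOn_comp_preimage e.measurableEmbedding, ← hpre]
    refine hint1.congr (Filter.Eventually.of_forall fun x => ?_)
    exact hge x
  have hZ : ∫ x in Set.pi Set.univ fun _ : Fin (N + 1) => cube L, Real.exp (-β * energy φ x)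
      = ∫ z in S, g z := by
    rw [hpre]; simp_rw [hge]; exact hmp.setIntegral_preimage_emb e.measurableEmbedding g S
  have hgS' : Integrable g ((volume.restrict (cube L)).prod
      (volume.restrict (Set.pi Set.univ fun _ : Fin N => cube L))) := by
    rw [Measure.prod_restrict]; exact hgS
  have hF : ∫ z in S, g z
      = ∫ x in Set.pi Set.univ fun _ : Fin N => cube L, ∫ y in cube L, g (y, x) := by
    rw [hS, Measure.volume_eq_prod, ← Measure.prod_restrict]; exact integral_prod_symm g hgS'
  have hlow : ∫ x in Set.pi Set.univ fun _ : Fin N => cube L,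
        Real.exp (-β * energy φ x) * (L ^ 3 * Real.exp (-β * N * I / L ^ 3))
      ≤ ∫ x in Set.pi Set.univ fun _ : Fin N => cube L, ∫ y in cube L, g (y, x) := by
    refine integral_mono ((integrableOn_boltz h hL.le hβ N).mul_const _)
      hgS'.integral_prod_right fun x => ?_
    simp only [hg]
    rw [integral_const_mul]
    exact mul_le_mul_of_nonneg_left (inner_bound h hint hI hL hβ x) (Real.exp_pos _).le
  unfold partitionFn
  rw [hZ, hF]
  rw [integral_mul_const] at hlow
  rw [Nat.factorial_succ]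
  push_cast
  have hf : (0 : ℝ) < (N.factorial : ℝ) := by positivity
  have hN : (0 : ℝ) < (N : ℝ) + 1 := by positivity
  calc 1 / (N.factorial : ℝ) * (∫ x in Set.pi Set.univ fun _ : Fin N => cube L,
        Real.exp (-β * energy φ x)) * (L ^ 3 / (N + 1)) * Real.exp (-β * N * I / L ^ 3)
      = 1 / (((N : ℝ) + 1) * N.factorial) * ((∫ x in Set.pi Set.univ fun _ : Fin N => cube L,
        Real.exp (-β * energy φ x)) * (L ^ 3 * Real.exp (-β * N * I / L ^ 3))) := by
        field_simp
    _ ≤ _ := mul_le_mul_of_nonneg_left hlow (by positivity)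

end Crest.Agent.S0209
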