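import Mathlib

/-!
# ROW 149, package J (abstract core): thermodynamic limit from super-multiplicativity + insertion

Pure real analysis: `Z : ℝ → ℕ → ℝ` is an abstract "partition function" (side `L`, `N` particles).
-/

set_option autoImplicit false
open Filter Topology Finset

namespace Crest.Agent.S0209.LimitCore

/-- the four facts on the partition function which are used. -/
structure Sys (Z : ℝ → ℕ → ℝ) (K J : ℝ) : Prop where
  pos : ∀ L, 0 < L → ∀ N, 0 < Z L N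
  le : ∀ L, 0 ≤ L → ∀ N : ℕ, Z L N ≤ Real.exp (K * N) * L ^ (3 * N) / N.factorial
  blocks : ∀ l L : ℝ, 0 < l → ∀ m : ℕ, (m : ℝ) * (l + 1) ≤ L + 1 →
    ∀ n : (Fin 3 → Fin m) → ℕ, ∏ b, Z l (n b) ≤ Z L (∑ b, n b)
  ins : ∀ L, 0 < L → ∀ N : ℕ,
    Z L N * (L ^ 3 / (N + 1)) * Real.exp (-J * N / L ^ 3) ≤ Z L (N + 1)
  J_nonneg : 0 ≤ J

/-- `-log Z`. -/
noncomputable def Ph (Z : ℝ → ℕ → ℝ) (L : ℝ) (N : ℕ) : ℝ := -Real.log (Z L N)

/-- distribute occupation numbers: `k i` boxes get `n i` particles, the others none. -/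
lemma exists_assign {ι : Type*} [Fintype ι] (k n : Fin 3 → ℕ)
    (hk : ∑ i, k i ≤ Fintype.card ι) :
    ∃ ν : ι → ℕ, ∀ g : ℕ → ℝ,
      ∑ b, g (ν b) = ∑ i, (k i : ℝ) * g (n i) + ((Fintype.card ι : ℝ) - ∑ i, (k i : ℝ)) * g 0 := by
  classical
  have hcard : Fintype.card (Σ i : Fin 3, Fin (k i)) = ∑ i, k i := by
    simp [Fintype.card_sigma]
  obtain ⟨e⟩ : Nonempty ((Σ i : Fin 3, Fin (k i)) ↪ ι) :=
    Function.Embedding.nonempty_of_card_le (by rw [hcard]; exact hk)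
  refine ⟨Function.extend e (fun t => n t.1) (fun _ => 0), fun g => ?_⟩
  rw [← Finset.sum_add_sum_compl (univ.map e)]
  congr 1
  · rw [Finset.sum_map]
    have : ∀ t : (Σ i : Fin 3, Fin (k i)),
        g (Function.extend e (fun t => n t.1) (fun _ => 0) (e t)) = g (n t.1) := by
      intro t
      rw [e.injective.extend_apply]
    simp only [this]
    rw [Fintype.sum_sigma]
    simp
  · have : ∀ b ∈ (univ.map e)ᶜ, g (Function.extend e (fun t => n t.1) (fun _ => 0) b) = g 0 := by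
      intro b hb
      rw [Function.extend_apply']
      rintro ⟨t, rfl⟩
      simp at hb
    rw [Finset.sum_congr rfl this, Finset.sum_const, Finset.card_compl, Finset.card_map,
      Finset.card_univ, hcard, nsmul_eq_mul, Nat.cast_sub hk]
    push_cast
    ring

variable {Z : ℝ → ℕ → ℝ} {K J : ℝ}

/-- cost of one insertion. -/
noncomputable def cst (J ρ : ℝ) : ℝ := |Real.log ρ| + J * ρ

lemma cst_nonneg (hJ : 0 ≤ J) {ρ : ℝ} (hρ : 0 < ρ) : 0 ≤ cst J ρ := by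
  unfold cst
  positivity

lemma ins_step (h : Sys Z K J) {L ρ : ℝ} (hL : 0 < L) (hρ : 0 < ρ) (N : ℕ)
    (hN : ((N + 1 : ℕ) : ℝ) ≤ ρ * L ^ 3) :
    Ph Z L (N + 1) ≤ Ph Z L N + cst J ρ := by
  have h1 := h.ins L hL N
  have hZ := h.pos L hL N
  have hZ' := h.pos L hL (N + 1)
  have hL3 : 0 < L ^ 3 := by positivity
  have hN1 : (0 : ℝ) < N + 1 := by positivity
  push_cast at hN
  have h2 : Real.log (Z L N * (L ^ 3 / (N + 1)) * Real.exp (-J * N / L ^ 3))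
      ≤ Real.log (Z L (N + 1)) := Real.log_le_log (by positivity) h1
  rw [Real.log_mul (by positivity) (by positivity), Real.log_mul (by positivity) (by positivity),
    Real.log_exp] at h2
  have h3 : -Real.log ρ ≤ Real.log (L ^ 3 / (N + 1)) := by
    rw [← Real.log_inv]
    apply Real.log_le_log (by positivity)
    rw [inv_eq_one_div, div_le_div_iff₀ hρ hN1]
    linarith
  have h4 : J * N / L ^ 3 ≤ J * ρ := by
    rw [div_le_iff₀ hL3]
    have h5 : (N : ℝ) ≤ ρ * L ^ 3 := by linarith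
    have := mul_le_mul_of_nonneg_left h5 h.J_nonneg
    linarith
  unfold Ph cst
  have h5 := le_abs_self (Real.log ρ)
  have h6 : -J * N / L ^ 3 = -(J * N / L ^ 3) := by ring
  rw [h6] at h2
  linarith

lemma ins_iter (h : Sys Z K J) {L ρ : ℝ} (hL : 0 < L) (hρ : 0 < ρ) (N' N : ℕ) (hNN : N' ≤ N)
    (hN : (N : ℝ) ≤ ρ * L ^ 3) :
    Ph Z L N ≤ Ph Z L N' + ((N : ℝ) - N') * cst J ρ := by
  induction N, hNN using Nat.le_induction with
  | base => simp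
  | succ N hNN ih =>
    have h1 := ins_step h hL hρ N hN
    have h2 := ih (by push_cast at hN; linarith)
    push_cast
    have h3 : ((N : ℝ) + 1 - N') * cst J ρ = ((N : ℝ) - N') * cst J ρ + cst J ρ := by ring
    rw [h3]
    linarith

lemma block_bound (h : Sys Z K J) {l L ρ : ℝ} (hl : 0 < l) (hL : 0 < L) (hρ : 0 < ρ) (m : ℕ)
    (hm : (m : ℝ) * (l + 1) ≤ L) (k n : Fin 3 → ℕ) (hk : ∑ i, k i ≤ m ^ 3) (N : ℕ)
    (hN' : ∑ i, k i * n i ≤ N) (hN : (N : ℝ) ≤ ρ * L ^ 3) :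
    Ph Z L N ≤ ∑ i, (k i : ℝ) * Ph Z l (n i) + ((m : ℝ) ^ 3 - ∑ i, (k i : ℝ)) * Ph Z l 0
      + ((N : ℝ) - ∑ i, (k i : ℝ) * n i) * cst J ρ := by
  have hcard : Fintype.card (Fin 3 → Fin m) = m ^ 3 := by simp
  obtain ⟨ν, hν⟩ := exists_assign (ι := Fin 3 → Fin m) k n (by rw [hcard]; exact hk)
  have hsum : ((∑ b, ν b : ℕ) : ℝ) = ∑ i, (k i : ℝ) * n i := by
    have := hν (fun j => (j : ℝ))
    simp only [Nat.cast_zero, mul_zero, add_zero] at this
    rw [← this]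
    push_cast
    rfl
  have hsumN : ∑ b, ν b = ∑ i, k i * n i := by exact_mod_cast hsum
  have h1 := h.blocks l L hl m (by linarith) ν
  have h2 : Ph Z L (∑ b, ν b) ≤ ∑ b, Ph Z l (ν b) := by
    unfold Ph
    rw [Finset.sum_neg_distrib, neg_le_neg_iff, ← Real.log_prod]
    · exact Real.log_le_log (Finset.prod_pos (fun b _ => h.pos l hl _)) h1
    · intro b _
      exact (h.pos l hl _).ne'
  have h3 := hν (fun j => Ph Z l j)
  have h4 := ins_iter h hL hρ (∑ b, ν b) N (by rw [hsumN]; exact hN') hN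
  rw [hsum] at h4
  rw [hcard] at h3
  push_cast at h3
  linarith

/-! ### the limits of the counting functions -/

lemma tendsto_N {ρ : ℝ} (hρ : 0 < ρ) :
    Tendsto (fun L : ℝ => (⌊ρ * L ^ 3⌋₊ : ℝ) / L ^ 3) atTop (𝓝 ρ) :=
  (tendsto_nat_floor_mul_div_atTop hρ.le).comp (tendsto_pow_atTop (by norm_num))

lemma tendsto_m3 {a : ℝ} (ha : 0 ≤ a) :
    Tendsto (fun L : ℝ => (⌊a * L⌋₊ : ℝ) ^ 3 / L ^ 3) atTop (𝓝 (a ^ 3)) := by
  have := (tendsto_nat_floor_mul_div_atTop ha).pow 3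
  simpa only [div_pow] using this

lemma tendsto_inv_cube : Tendsto (fun L : ℝ => 1 / L ^ 3) atTop (𝓝 0) := by
  have : Tendsto (fun L : ℝ => (L ^ 3)⁻¹) atTop (𝓝 0) :=
    tendsto_inv_atTop_zero.comp (tendsto_pow_atTop (by norm_num))
  simpa only [one_div] using this

lemma tendsto_k {a w : ℝ} (ha : 0 ≤ a) (hw : 0 ≤ w) :
    Tendsto (fun L : ℝ => (⌊w * (⌊a * L⌋₊ : ℝ) ^ 3⌋₊ : ℝ) / L ^ 3) atTop (𝓝 (w * a ^ 3)) := by
  have hup : Tendsto (fun L : ℝ => w * ((⌊a * L⌋₊ : ℝ) ^ 3 / L ^ 3)) atTop (𝓝 (w * a ^ 3)) :=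
    (tendsto_m3 ha).const_mul w
  have hlo : Tendsto (fun L : ℝ => w * ((⌊a * L⌋₊ : ℝ) ^ 3 / L ^ 3) - 1 / L ^ 3) atTop
      (𝓝 (w * a ^ 3)) := by
    simpa using hup.sub tendsto_inv_cube
  refine tendsto_of_tendsto_of_tendsto_of_le_of_le' hlo hup ?_ ?_
  · filter_upwards [eventually_gt_atTop 0] with L hL
    have hL3 : 0 < L ^ 3 := by positivity
    have h1 := (Nat.sub_one_lt_floor (w * (⌊a * L⌋₊ : ℝ) ^ 3)).le
    rw [← mul_div_assoc, ← sub_div]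
    gcongr
  · filter_upwards [eventually_gt_atTop 0] with L hL
    have hL3 : 0 < L ^ 3 := by positivity
    have h1 := Nat.floor_le (a := w * (⌊a * L⌋₊ : ℝ) ^ 3) (by positivity)
    rw [← mul_div_assoc]
    gcongr

/-- **Key lemma**: the upper bound obtained from filling the big cube with small cubes with
occupation numbers `n i` in proportions `w i` and inserting the missing particles. -/
lemma exists_upper (h : Sys Z K J) {l ρ : ℝ} (hl : 0 < l) (hρ : 0 < ρ) (w : Fin 3 → ℝ)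
    (hw : ∀ i, 0 ≤ w i) (hw1 : ∑ i, w i = 1) (n : Fin 3 → ℕ)
    (hs : (∑ i, w i * n i) / (l + 1) ^ 3 ≤ ρ) :
    ∃ R : ℝ → ℝ,
      Tendsto R atTop (𝓝 (∑ i, w i * Ph Z l (n i) / (l + 1) ^ 3
        + (ρ - (∑ i, w i * n i) / (l + 1) ^ 3) * cst J ρ)) ∧
      ∀ L, 0 < L → Ph Z L ⌊ρ * L ^ 3⌋₊ / L ^ 3 ≤ R L := by
  set a : ℝ := (l + 1)⁻¹ with ha_def
  have hl1 : 0 < l + 1 := by linarith
  have ha : 0 ≤ a := by positivity
  let m : ℝ → ℕ := fun L => ⌊a * L⌋₊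
  let k : ℝ → Fin 3 → ℕ := fun L i => ⌊w i * (m L : ℝ) ^ 3⌋₊
  refine ⟨fun L => ∑ i, ((k L i : ℝ) / L ^ 3) * Ph Z l (n i)
      + ((m L : ℝ) ^ 3 / L ^ 3 - ∑ i, (k L i : ℝ) / L ^ 3) * Ph Z l 0
      + ((⌊ρ * L ^ 3⌋₊ : ℝ) / L ^ 3 - ∑ i, ((k L i : ℝ) / L ^ 3) * n i) * cst J ρ, ?_, ?_⟩
  · have hk : ∀ i, Tendsto (fun L : ℝ => (k L i : ℝ) / L ^ 3) atTop (𝓝 (w i * a ^ 3)) :=
      fun i => tendsto_k ha (hw i)
    have h1 : Tendsto (fun L : ℝ => ∑ i, ((k L i : ℝ) / L ^ 3) * Ph Z l (n i)) atTop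
        (𝓝 (∑ i, (w i * a ^ 3) * Ph Z l (n i))) :=
      tendsto_finsetSum _ (fun i _ => (hk i).mul_const _)
    have h2 : Tendsto (fun L : ℝ => ∑ i, (k L i : ℝ) / L ^ 3) atTop (𝓝 (∑ i, w i * a ^ 3)) :=
      tendsto_finsetSum _ (fun i _ => hk i)
    have h3 : Tendsto (fun L : ℝ => ∑ i, ((k L i : ℝ) / L ^ 3) * n i) atTop
        (𝓝 (∑ i, (w i * a ^ 3) * n i)) :=
      tendsto_finsetSum _ (fun i _ => (hk i).mul_const _)
    have h4 := ((h1.add (((tendsto_m3 ha).sub h2).mul_const (Ph Z l 0))).add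
      (((tendsto_N hρ).sub h3).mul_const (cst J ρ)))
    convert h4 using 2
    have e1 : ∑ i, w i * a ^ 3 = a ^ 3 := by rw [← Finset.sum_mul, hw1, one_mul]
    rw [e1, sub_self, zero_mul, add_zero]
    congr 1
    · refine Finset.sum_congr rfl (fun i _ => ?_)
      rw [ha_def, inv_pow]
      field_simp
    · congr 2
      rw [Finset.sum_div]
      refine Finset.sum_congr rfl (fun i _ => ?_)
      rw [ha_def, inv_pow]
      field_simp
  · intro L hL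
    have hL3 : 0 < L ^ 3 := by positivity
    have hmL : (m L : ℝ) ≤ a * L := Nat.floor_le (by positivity)
    have hm : (m L : ℝ) * (l + 1) ≤ L := by
      calc (m L : ℝ) * (l + 1) ≤ a * L * (l + 1) := by gcongr
        _ = L := by rw [ha_def]; field_simp
    have hkle : ∀ i, (k L i : ℝ) ≤ w i * (m L : ℝ) ^ 3 :=
      fun i => Nat.floor_le (by have := hw i; positivity)
    have hk : ∑ i, k L i ≤ (m L) ^ 3 := by
      have : ((∑ i, k L i : ℕ) : ℝ) ≤ (((m L) ^ 3 : ℕ) : ℝ) := by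
        push_cast
        calc ∑ i, (k L i : ℝ) ≤ ∑ i, w i * (m L : ℝ) ^ 3 := Finset.sum_le_sum (fun i _ => hkle i)
          _ = (m L : ℝ) ^ 3 := by rw [← Finset.sum_mul, hw1, one_mul]
      exact_mod_cast this
    have hN' : ∑ i, k L i * n i ≤ ⌊ρ * L ^ 3⌋₊ := by
      apply Nat.le_floor
      push_cast
      have hs0 : 0 ≤ ∑ i, w i * (n i : ℝ) :=
        Finset.sum_nonneg (fun i _ => mul_nonneg (hw i) (Nat.cast_nonneg _))
      calc ∑ i, (k L i : ℝ) * (n i : ℝ) ≤ ∑ i, (w i * (m L : ℝ) ^ 3) * (n i : ℝ) :=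
            Finset.sum_le_sum (fun i _ => mul_le_mul_of_nonneg_right (hkle i) (Nat.cast_nonneg _))
        _ = (∑ i, w i * (n i : ℝ)) * (m L : ℝ) ^ 3 := by
            rw [Finset.sum_mul]
            exact Finset.sum_congr rfl (fun i _ => by ring)
        _ ≤ (∑ i, w i * (n i : ℝ)) * (a * L) ^ 3 := by gcongr
        _ = (∑ i, w i * (n i : ℝ)) / (l + 1) ^ 3 * L ^ 3 := by
            rw [ha_def, mul_pow, inv_pow]
            field_simp
        _ ≤ ρ * L ^ 3 := by gcongr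
    have hN : ((⌊ρ * L ^ 3⌋₊ : ℕ) : ℝ) ≤ ρ * L ^ 3 := Nat.floor_le (by positivity)
    have key := block_bound h hl hL hρ (m L) hm (k L) n hk ⌊ρ * L ^ 3⌋₊ hN' hN
    rw [div_le_iff₀ hL3]
    refine key.trans (le_of_eq ?_)
    simp only [Fin.sum_univ_three]
    field_simp

/-- **mixture bound** (abstract form). -/
theorem mixture (h : Sys Z K J) {ρ F : ℝ} (hρ : 0 < ρ)
    (hF : Tendsto (fun L : ℝ => Ph Z L ⌊ρ * L ^ 3⌋₊ / L ^ 3) atTop (𝓝 F))
    {l : ℝ} (hl : 0 < l) (w : Fin 3 → ℝ) (hw : ∀ i, 0 ≤ w i) (hw1 : ∑ i, w i = 1) (n : Fin 3 → ℕ)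
    (hρn : ρ = ∑ i, w i * n i / (l + 1) ^ 3) :
    F ≤ ∑ i, w i * Ph Z l (n i) / (l + 1) ^ 3 := by
  have hs : (∑ i, w i * n i) / (l + 1) ^ 3 = ρ := by rw [hρn, Finset.sum_div]
  obtain ⟨R, hR, hle⟩ := exists_upper h hl hρ w hw hw1 n hs.le
  rw [hs, sub_self, zero_mul, add_zero] at hR
  exact le_of_tendsto_of_tendsto hF hR
    (by filter_upwards [eventually_gt_atTop 0] with L hL using hle L hL)

lemma Ph_lower (h : Sys Z K J) {L : ℝ} (hL : 0 < L) (N : ℕ) : -(K * N) - L ^ 3 ≤ Ph Z L N := by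
  have h1 := h.le L hL.le N
  have h2 : L ^ (3 * N) / N.factorial ≤ Real.exp (L ^ 3) := by
    rw [pow_mul]
    exact Real.pow_div_factorial_le_exp _ (by positivity) N
  have h3 : Z L N ≤ Real.exp (K * N + L ^ 3) := by
    rw [Real.exp_add]
    calc Z L N ≤ Real.exp (K * N) * L ^ (3 * N) / N.factorial := h1
      _ = Real.exp (K * N) * (L ^ (3 * N) / N.factorial) := by ring
      _ ≤ _ := by gcongr
  have h4 := Real.log_le_log (h.pos L hL N) h3
  rw [Real.log_exp] at h4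
  unfold Ph
  linarith

lemma A_lower (h : Sys Z K J) {ρ : ℝ} (hρ : 0 < ρ) {L : ℝ} (hL : 0 < L) :
    -(|K| * ρ + 1) ≤ Ph Z L ⌊ρ * L ^ 3⌋₊ / L ^ 3 := by
  have hL3 : 0 < L ^ 3 := by positivity
  rw [le_div_iff₀ hL3]
  have h1 := Ph_lower h hL ⌊ρ * L ^ 3⌋₊
  have hN : ((⌊ρ * L ^ 3⌋₊ : ℕ) : ℝ) ≤ ρ * L ^ 3 := Nat.floor_le (by positivity)
  have h2 : K * (⌊ρ * L ^ 3⌋₊ : ℝ) ≤ |K| * (ρ * L ^ 3) :=
    calc K * (⌊ρ * L ^ 3⌋₊ : ℝ) ≤ |K| * (⌊ρ * L ^ 3⌋₊ : ℝ) :=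
          mul_le_mul_of_nonneg_right (le_abs_self K) (Nat.cast_nonneg _)
      _ ≤ |K| * (ρ * L ^ 3) := by gcongr
  nlinarith

/-- **existence of the thermodynamic limit** (abstract form). -/
theorem exists_limit (h : Sys Z K J) {ρ : ℝ} (hρ : 0 < ρ) :
    ∃ F, Tendsto (fun L : ℝ => Ph Z L ⌊ρ * L ^ 3⌋₊ / L ^ 3) atTop (𝓝 F) := by
  have hc : 0 ≤ cst J ρ := cst_nonneg h.J_nonneg hρ
  let A : ℝ → ℝ := fun L => Ph Z L ⌊ρ * L ^ 3⌋₊ / L ^ 3
  let r : ℝ → ℝ := fun l => (⌊ρ * l ^ 3⌋₊ : ℝ) / l ^ 3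
  let q : ℝ → ℝ := fun l => (1 + l⁻¹) ^ 3
  let b : ℝ → ℝ := fun l => A l / q l + (ρ - r l / q l) * cst J ρ
  have hq : Tendsto q atTop (𝓝 1) := by
    have : Tendsto (fun l : ℝ => (1 + l⁻¹) ^ 3) atTop (𝓝 ((1 + 0) ^ 3)) :=
      (tendsto_const_nhds.add tendsto_inv_atTop_zero).pow 3
    simpa using this
  have hr : Tendsto r atTop (𝓝 ρ) := tendsto_N hρ
  have hq1 : ∀ l, 0 < l → 1 ≤ q l := by
    intro l hl
    have : (1 : ℝ) ≤ 1 + l⁻¹ := by
      have : 0 < l⁻¹ := inv_pos.2 hl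
      linarith
    exact one_le_pow₀ this
  have hr0 : ∀ l, 0 < l → 0 ≤ r l := fun l hl => by positivity
  have hrρ : ∀ l, 0 < l → r l ≤ ρ := by
    intro l hl
    have hl3 : 0 < l ^ 3 := by positivity
    show (⌊ρ * l ^ 3⌋₊ : ℝ) / l ^ 3 ≤ ρ
    rw [div_le_iff₀ hl3]
    exact Nat.floor_le (by positivity)
  have hrq : ∀ l, 0 < l → r l / q l ≤ ρ := by
    intro l hl
    exact (div_le_self (hr0 l hl) (hq1 l hl)).trans (hrρ l hl)
  have hql : ∀ l, 0 < l → l ^ 3 * q l = (l + 1) ^ 3 := by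
    intro l hl
    show l ^ 3 * (1 + l⁻¹) ^ 3 = (l + 1) ^ 3
    rw [← mul_pow]
    congr 1
    field_simp
  -- upper bound
  have hub : ∀ l, 0 < l → ∀ a', b l < a' → ∀ᶠ L in atTop, A L < a' := by
    intro l hl a' ha'
    have hl1 : 0 < l + 1 := by linarith
    have hl3 : 0 < l ^ 3 := by positivity
    have hs : (∑ i, (![1, 0, 0] : Fin 3 → ℝ) i * ((![⌊ρ * l ^ 3⌋₊, 0, 0] : Fin 3 → ℕ) i : ℝ))
        / (l + 1) ^ 3 = r l / q l := by
      simp only [Fin.sum_univ_three]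
      simp only [Matrix.cons_val_zero, Matrix.cons_val_one, Matrix.cons_val]
      rw [← hql l hl]
      show _ = (⌊ρ * l ^ 3⌋₊ : ℝ) / l ^ 3 / q l
      rw [div_div]
      simp
    obtain ⟨R, hR, hle⟩ := exists_upper h hl hρ ![1, 0, 0]
      (by intro i; fin_cases i <;> simp) (by simp [Fin.sum_univ_three])
      ![⌊ρ * l ^ 3⌋₊, 0, 0] (by rw [hs]; exact hrq l hl)
    rw [hs] at hR
    have hval : ∑ i, (![1, 0, 0] : Fin 3 → ℝ) i *
        Ph Z l ((![⌊ρ * l ^ 3⌋₊, 0, 0] : Fin 3 → ℕ) i) / (l + 1) ^ 3 = A l / q l := by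
      simp only [Fin.sum_univ_three]
      simp only [Matrix.cons_val_zero, Matrix.cons_val_one, Matrix.cons_val]
      rw [← hql l hl]
      show _ = Ph Z l ⌊ρ * l ^ 3⌋₊ / l ^ 3 / q l
      rw [div_div]
      simp
    rw [hval] at hR
    filter_upwards [hR.eventually_lt_const ha', eventually_gt_atTop 0] with L h1 h2
    exact (hle L h2).trans_lt h1
  -- `b` is bounded below
  have hK' : 0 ≤ |K| * ρ + 1 := by positivity
  have hb_lower : ∀ l, 0 < l → -(|K| * ρ + 1) ≤ b l := by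
    intro l hl
    have h1 : -(|K| * ρ + 1) ≤ A l := A_lower h hρ hl
    have hqpos : 0 < q l := lt_of_lt_of_le one_pos (hq1 l hl)
    have h2 : -(|K| * ρ + 1) ≤ A l / q l := by
      rw [le_div_iff₀ hqpos]
      have := hq1 l hl
      nlinarith
    have h3 : 0 ≤ (ρ - r l / q l) * cst J ρ := mul_nonneg (by linarith [hrq l hl]) hc
    show _ ≤ A l / q l + (ρ - r l / q l) * cst J ρ
    linarith
  have hbdd : BddBelow (b '' Set.Ici 1) := by
    refine ⟨-(|K| * ρ + 1), ?_⟩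
    rintro _ ⟨l, hl, rfl⟩
    exact hb_lower l (lt_of_lt_of_le one_pos hl)
  have hne : (b '' Set.Ici 1).Nonempty := ⟨b 1, 1, Set.self_mem_Ici, rfl⟩
  refine ⟨sInf (b '' Set.Ici 1), ?_⟩
  set F' := sInf (b '' Set.Ici 1) with hF'
  have hg : Tendsto (fun l => (F' - (ρ - r l / q l) * cst J ρ) * q l) atTop (𝓝 F') := by
    have := ((tendsto_const_nhds (x := F')).sub
      (((tendsto_const_nhds (x := ρ)).sub (hr.div hq one_ne_zero)).mul_const (cst J ρ))).mul hq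
    simpa using this
  have hlow : ∀ l, 1 ≤ l → (F' - (ρ - r l / q l) * cst J ρ) * q l ≤ A l := by
    intro l hl
    have hl0 : 0 < l := lt_of_lt_of_le one_pos hl
    have hqpos : 0 < q l := lt_of_lt_of_le one_pos (hq1 l hl0)
    have h1 : F' ≤ b l := csInf_le hbdd ⟨l, hl, rfl⟩
    have h2 : A l = (b l - (ρ - r l / q l) * cst J ρ) * q l := by
      show A l = (A l / q l + (ρ - r l / q l) * cst J ρ - (ρ - r l / q l) * cst J ρ) * q l
      field_simp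
      ring
    rw [h2]
    gcongr
  refine tendsto_order.2 ⟨fun a' ha' => ?_, fun a' ha' => ?_⟩
  · filter_upwards [hg.eventually_const_lt ha', eventually_ge_atTop 1] with l h1 h2
    exact h1.trans_le (hlow l h2)
  · obtain ⟨_, ⟨l, hl, rfl⟩, hlt⟩ := exists_lt_of_csInf_lt hne ha'
    exact hub l (lt_of_lt_of_le one_pos hl) a' hlt

end Crest.Agent.S0209.LimitCore
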