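import Crest.Agent.S0209_Defs
import Crest.Agent.S0209_LimitCore
import Crest.Agent.S0209_Basic
import Crest.Agent.S0209_Blocks
import Crest.Agent.S0209_Insert

/-!
# ROW 149, package J: thermodynamic limit and mixture bound
-/

set_option autoImplicit false
namespace Crest.Agent.S0209
open Crest.ProbabilityR.Continuum MeasureTheory

/-- the partition function of a `Thermo` potential satisfies the hypotheses of the abstract core. -/
theorem sys_of_thermo {φ : ℝ → ℝ} {B I : ℝ} (h : Thermo φ B I) {β : ℝ} (hβ : 0 < β) :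
    LimitCore.Sys (fun L N => partitionFn φ L N β) (β * B) (β * I) where
  pos := fun _ hL N => Z_pos h.toGood hL hβ.le N
  le := fun _ hL N => Z_le h.toGood hL hβ.le N
  blocks := fun _ _ hl m hm n => Z_blocks h.toGood h.neg hl hβ.le m hm n
  ins := by
    intro L hL N
    have h1 := Z_insert h.toGood h.int h.int_le hL hβ.le N
    have h2 : -(β * I) * N / L ^ 3 = -β * N * I / L ^ 3 := by ring
    rw [h2]
    exact h1
  J_nonneg := by
    have h0 : 0 ≤ ∫ x : Pt, max (φ ‖x‖) 0 := integral_nonneg (fun x => le_max_right _ _)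
    exact mul_nonneg hβ.le (h0.trans h.int_le)

theorem thermo_limit {φ : ℝ → ℝ} {B I : ℝ} (h : Thermo φ B I) {β ρ : ℝ} (hβ : 0 < β) (hρ : 0 < ρ) :
    ∃ F : ℝ, Filter.Tendsto (fun L : ℝ => Phi φ L ⌊ρ * L ^ 3⌋₊ β / L ^ 3) Filter.atTop (nhds F) :=
  LimitCore.exists_limit (sys_of_thermo h hβ) hρ

/-- mixture upper bound (= subadditivity + convexity in the density in one statement) -/
theorem mixture_bound {φ : ℝ → ℝ} {B I : ℝ} (h : Thermo φ B I) {β ρ F : ℝ} (hβ : 0 < β) (hρ : 0 < ρ)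
    (hF : Filter.Tendsto (fun L : ℝ => Phi φ L ⌊ρ * L ^ 3⌋₊ β / L ^ 3) Filter.atTop (nhds F))
    {l : ℝ} (hl : 0 < l) (w : Fin 3 → ℝ) (hw : ∀ i, 0 ≤ w i) (hw1 : ∑ i, w i = 1) (n : Fin 3 → ℕ)
    (hρn : ρ = ∑ i, w i * n i / (l + 1) ^ 3) :
    F ≤ ∑ i, w i * Phi φ l (n i) β / (l + 1) ^ 3 :=
  LimitCore.mixture (sys_of_thermo h hβ) hρ hF hl w hw hw1 n hρn

end Crest.Agent.S0209
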