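import Crest.Agent.S0209_Main
import Crest.Agent.S0209_Core
import Crest.Agent.S0209_Limit
import Crest.Agent.S0209_ExistsPar

/-!
# ROW 149, package K (part 5): verification of the hypotheses of `S0209_reduction` and
`S0210_reduction` for the concrete potentials.
-/

set_option autoImplicit false
namespace Crest.Agent.S0209
open Crest.ProbabilityR.Continuum MeasureTheory Filter Topology

theorem hasLim_of_thermo {φ : ℝ → ℝ} {B I : ℝ} (h : Thermo φ B I) : HasLim φ :=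
  fun _ _ hβ hρ => thermo_limit h hβ hρ

namespace Par
variable {P : Par}

theorem b1_lt_one (h : P.OK) : P.b1 < 1 := by
  unfold Par.b1
  linarith [h.δ_pos]
theorem r0_le_one (h : P.OK) : P.r0 ≤ 1 := by
  have h1 := h.r0_le
  have h2 := h.a_le
  have h3 := h.δ_le
  have h4 := h.a_pos
  have h5 := h.δ_pos
  norm_num at h3
  linarith

/-- the bounded core attached to the parameters -/
noncomputable def q (P : Par) : ℝ → ℝ := core P.T P.a P.b1
/-- the divergent core attached to the parameters -/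
noncomputable def qS (P : Par) : ℝ → ℝ := coreS P.T P.a P.b1 P.r0

theorem coreP_q (h : P.OK) : CoreP P.q P.T P.a P.b1 P.r0 (∫ x : Pt, P.q ‖x‖) :=
  coreP_core (T_pos h).le h.a_pos (b1_lt_one h) P.r0

theorem coreP_qS (h : P.OK) : CoreP P.qS P.T P.a P.b1 P.r0 (∫ x : Pt, P.qS ‖x‖) :=
  coreP_coreS (T_pos h).le h.a_pos (b1_lt_one h) h.r0_pos (r0_le_one h)

theorem continuous_evn_potInf (h : P.OK) : Continuous (evn (P.potInf P.q)) := by
  unfold evn Par.potInf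
  refine Continuous.sub ((continuous_core _ _ _).comp continuous_abs) ?_
  exact (Winf_cont h).comp_continuous continuous_abs (fun r => abs_nonneg r)

theorem evn_potInf_bdd (h : P.OK) : ∃ M : ℝ, ∀ r, |evn (P.potInf P.q) r| ≤ M := by
  obtain ⟨C, hC⟩ := Winf_bdd h
  refine ⟨81 * P.T + C, fun r => ?_⟩
  unfold evn Par.potInf
  have h1 := hC |r| (abs_nonneg r)
  have h2 : |P.q (|r|)| ≤ 81 * P.T := by
    unfold Par.q
    rw [abs_of_nonneg (core_nonneg (T_pos h).le _)]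
    exact core_le (T_pos h).le _
  exact (abs_sub _ _).trans (add_le_add h2 h1)

end Par

/-- The frozen statement S0209. -/
theorem S0209_final :
    ∃ φ : ℝ → ℝ, Continuous φ ∧ (∃ M : ℝ, ∀ r : ℝ, |φ r| ≤ M) ∧
      (∃ B : ℝ, ∀ (N : ℕ) (x : Fin N → Crest.ProbabilityR.Continuum.Pt), -B * N ≤ Crest.ProbabilityR.Continuum.energy φ x) ∧
      (∃ C : ℝ, ∀ r : ℝ, 1 ≤ r → |φ r| ≤ C * r ^ (-(3 + 1 / 32 : ℝ))) ∧
      ∃ p η βc : ℝ, 0 < p ∧
        Filter.Tendsto (fun L : ℝ => (Crest.ProbabilityR.Continuum.packingNumber L : ℝ) / L ^ 3)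
          Filter.atTop (nhds p) ∧
        0 < η ∧ η ≤ 5 * p / 3 ∧ 7 / 8 ≤ βc ∧ βc ≤ 9 / 8 ∧
        ∃ f : ℝ → ℝ → ℝ,
          (∀ ρ : ℝ, 5 * p / 3 - η < ρ → ρ < 5 * p / 3 + η → ∀ β : ℝ, 0 < β →
            Filter.Tendsto (fun L : ℝ => -(1 / (β * L ^ 3)) *
                Real.log (Crest.ProbabilityR.Continuum.partitionFn φ L ⌊ρ * L ^ 3⌋₊ β))
              Filter.atTop (nhds (f β ρ))) ∧
          (∀ ρ : ℝ, 5 * p / 3 - η < ρ → ρ < 5 * p / 3 + η → ∃ Dl Dr : ℝ,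
            HasDerivWithinAt (fun β => f β ρ) Dl (Set.Iio βc) βc ∧
            HasDerivWithinAt (fun β => f β ρ) Dr (Set.Ioi βc) βc ∧ Dr < Dl) := by
  obtain ⟨P, h⟩ := exists_par
  have hq := Par.coreP_q h
  have hth := Par.potInf_thermo h hq
  obtain ⟨M, hM⟩ := Par.evn_potInf_bdd h
  obtain ⟨C, hC⟩ := Par.potInf_decay h hq
  obtain ⟨βc, hβc, hk⟩ := Par.main_kink h hq
  have hcont := Par.continuous_evn_potInf h
  have heq := evn_eq (P.potInf P.q)
  refine S0209_reduction (φ := evn (P.potInf P.q)) (hth.toGood.congr heq hcont.measurable)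
    ((hasLim_of_thermo hth).congr heq) hcont hM (C := C) ?_ (βc := βc)
    (by have := hβc.1; norm_num at this ⊢; linarith) (by have := hβc.2; norm_num at this ⊢; linarith)
    (fun ρ h1 h2 => (hk ρ h1 h2).congr heq)
  intro r hr
  rw [← heq r (by linarith)]
  exact hC r hr

/-- The frozen statement S0210. -/
theorem S0210_final :
    ∃ φ : ℝ → ℝ, Measurable φ ∧
      (∀ a b : ℝ, 0 < a → a ≤ b → ∃ M : ℝ, ∀ r : ℝ, a ≤ r → r ≤ b → |φ r| ≤ M) ∧
      Filter.Tendsto φ (nhdsWithin 0 (Set.Ioi 0)) Filter.atTop ∧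
      (∃ r₁ r₂ a : ℝ, 0 < r₁ ∧ r₁ < r₂ ∧ 0 < a ∧ ∀ r : ℝ, r₁ ≤ r → r ≤ r₂ → φ r ≤ -a) ∧
      (∃ R : ℝ, 0 < R ∧ MeasureTheory.IntegrableOn (fun r : ℝ => r ^ 2 * |φ r|) (Set.Ioi R)) ∧
      Filter.Tendsto (fun r : ℝ => r ^ 3 * φ r) Filter.atTop (nhds 0) ∧
      (∃ B : ℝ, ∀ (N : ℕ) (x : Fin N → Crest.ProbabilityR.Continuum.Pt), Function.Injective x →
        -B * N ≤ Crest.ProbabilityR.Continuum.energy φ x) ∧
      ∃ f : ℝ → ℝ → ℝ,
        (∀ ρ : ℝ, 0 < ρ → ∀ β : ℝ, 0 < β →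
          Filter.Tendsto (fun L : ℝ => -(1 / (β * L ^ 3)) *
              Real.log (Crest.ProbabilityR.Continuum.partitionFn φ L ⌊ρ * L ^ 3⌋₊ β))
            Filter.atTop (nhds (f β ρ))) ∧
        ∃ ρ₁ ρ₂ βc : ℝ, 0 ≤ ρ₁ ∧ ρ₁ < ρ₂ ∧ 1 / 2 < βc ∧ βc < 3 / 2 ∧
          ∀ ρ : ℝ, ρ₁ < ρ → ρ < ρ₂ → ∃ Dl Dr : ℝ,
            HasDerivWithinAt (fun β => f β ρ) Dl (Set.Iio βc) βc ∧
            HasDerivWithinAt (fun β => f β ρ) Dr (Set.Ioi βc) βc ∧ Dr < Dl := by
  obtain ⟨P, h⟩ := exists_par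
  have hq := Par.coreP_qS h
  have hth := Par.potInf_thermo h hq
  obtain ⟨CW, hCW⟩ := Par.Winf_bdd h
  obtain ⟨C, hC⟩ := Par.potInf_decay h hq
  obtain ⟨a, ha, hattr⟩ := Par.potInf_attr h hq
  obtain ⟨βc, hβc, hk⟩ := Par.main_kink h hq
  have hT := Par.T_pos h
  have hp1 : 1 ≤ Pack.pdens := Pack.one_le_pdens
  refine S0210_reduction (φ := P.potInf P.qS) hth.toGood (hasLim_of_thermo hth) ?_ ?_
    ⟨1, 2, a, one_pos, by norm_num, ha, hattr⟩ hC (βc := βc) (ρ₁ := 2.1 * Pack.pdens)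
    (ρ₂ := 3.9 * Pack.pdens)
    (by have := hβc.1; norm_num at this ⊢; linarith) (by have := hβc.2; norm_num at this ⊢; linarith)
    (by positivity) (by nlinarith) hk
  · -- locally bounded
    intro a' b' ha' _
    refine ⟨81 * P.T + 1 / a' + CW, fun r hr1 _ => ?_⟩
    have hr0 : 0 < r := lt_of_lt_of_le ha' hr1
    have h1 := hCW r hr0.le
    have h2 : |P.qS r| ≤ 81 * P.T + 1 / a' := by
      have h3 : 0 ≤ P.qS r := hq.nonneg r
      rw [abs_of_nonneg h3]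
      have h4 := core_le (a := P.a) (b1 := P.b1) hT.le r
      have h5 := zeta_le h.r0_pos hr0
      have h6 : 1 / r ≤ 1 / a' := one_div_le_one_div_of_le ha' hr1
      unfold Par.qS coreS
      linarith
    unfold Par.potInf
    exact (abs_sub _ _).trans (add_le_add h2 h1)
  · -- divergence at `0+`
    have h1 : Tendsto (fun r : ℝ => 1 / r - 1 / P.r0 - CW) (𝓝[>] 0) atTop := by
      have h2 : Tendsto (fun r : ℝ => r⁻¹) (𝓝[>] 0) atTop := tendsto_inv_nhdsGT_zero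
      have h3 := tendsto_atTop_add_const_right _ (-(1 / P.r0) - CW) h2
      refine h3.congr (fun r => ?_)
      rw [one_div]
      ring
    refine tendsto_atTop_mono' _ ?_ h1
    filter_upwards [self_mem_nhdsWithin] with r hr
    have hr0 : (0 : ℝ) < r := hr
    have h4 := (abs_le.1 (hCW r hr0.le)).2
    have h5 := le_zeta P.r0 r
    have h6 := core_nonneg (a := P.a) (b1 := P.b1) hT.le r
    unfold Par.potInf Par.qS coreS
    linarith

end Crest.Agent.S0209
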