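import Mathlib
/-!
ROW 149: definitions for the abstract induction (theorem H) and the final kink lemma (KF).
Blueprint: notes/ROW149_blueprint.md sections H, KF; statements: notes/ROW149_Iface3.lean.txt.
-/
set_option autoImplicit false
namespace Crest.Agent.S0209

/-- abstract hierarchical data; levels are `k ≥ 1`, errors are indexed by `k ≥ 0` -/
structure Hier where
  M : ℕ → ℕ
  m : ℕ → ℕ
  a : ℕ → ℝ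
  E : ℕ → ℝ
  η : ℕ → ℝ
  φ : ℕ → ℝ → ℕ → ℝ

/-- `ψ_k(β,n) = φ_k(β,n) - β a_k t²/2`, `t = n / M_k` -/
noncomputable def Hier.psi (H : Hier) (k : ℕ) (β : ℝ) (n : ℕ) : ℝ :=
  H.φ k β n - β * H.a k * ((n : ℝ) / H.M k) ^ 2 / 2

/-- per-site cost in units of `T` -/
noncomputable def hh (j : ℕ) (β : ℝ) : ℝ :=
  if j ≤ 1 then 0 else if j = 2 then 81 * β else 10 * β * j * (j - 1) + 80 * (j - 1)

/-- `th_k = (300 η_k + 20 E_k) / a_{k+1}` -/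
noncomputable def Hier.th (H : Hier) (k : ℕ) : ℝ := (300 * H.η k + 20 * H.E k) / H.a (k + 1)

structure Hier.Hyp (H : Hier) : Prop where
  M_pos : ∀ k, 1 ≤ k → 0 < H.M k
  M_succ : ∀ k, 1 ≤ k → H.M (k + 1) = H.m k * H.M k
  a_pos : ∀ k, 1 ≤ k → 0 < H.a k
  a_anti : ∀ k, 1 ≤ k → H.a (k + 1) ≤ H.a k
  E_nonneg : ∀ k, 0 ≤ H.E k
  η_nonneg : ∀ k, 0 ≤ H.η k
  conc : ∀ k n, 1 ≤ k → ConcaveOn ℝ (Set.Icc 0.99 1.01) (fun β => H.φ k β n)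
  baseLow : ∀ β ∈ Set.Icc (0.99 : ℝ) 1.01, ∀ (n j : ℕ) (s : ℝ), 0 ≤ s → s ≤ 1 →
    (n : ℝ) / H.M 1 = j + s →
    (1 - s) * hh j β + s * hh (j + 1) β - H.E 0 * (1 + ((n : ℝ) / H.M 1) ^ 2) ≤ H.φ 1 β n
  baseUp : ∀ β ∈ Set.Icc (0.99 : ℝ) 1.01, ∀ i : ℕ, 2 ≤ i → i ≤ 4 →
    H.φ 1 β (i * H.M 1) ≤ hh i β + H.E 0
  stepU : ∀ k, 1 ≤ k → ∀ β ∈ Set.Icc (0.99 : ℝ) 1.01, ∀ n : ℕ, n ≤ 15 * H.M k →
    H.φ (k + 1) β (H.m k * n) ≤ H.psi k β n + H.E k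
  stepL : ∀ k, 1 ≤ k → ∀ β ∈ Set.Icc (0.99 : ℝ) 1.01, ∀ μ ∈ Set.Icc (125 : ℝ) 150, ∀ P : ℝ,
    (∀ n : ℕ, μ * ((n : ℝ) / H.M k) - H.psi k β n ≤ P) → ∀ N : ℕ,
    μ * ((N : ℝ) / H.M (k + 1)) - (1 + H.η k) * P - H.E k * (1 + (N : ℝ) / H.M (k + 1))
      ≤ H.φ (k + 1) β N
  ss : ∀ k, 2 ≤ k → ∀ β ∈ Set.Icc (0.99 : ℝ) 1.01, ∀ n : ℕ,
    0.6 * ((n : ℝ) / H.M k) ^ 2 - 11 * ((n : ℝ) / H.M k) - 1 ≤ H.φ k β n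
  a_one : |H.a 1 - 1| ≤ 0.05
  a_sum : ∀ K, ∑ k ∈ Finset.Icc 2 K, H.a k ≤ 1e-11
  E_zero : H.E 0 ≤ 1e-7
  th_sqrt : ∀ K, ∑ k ∈ Finset.Icc 1 K, Real.sqrt (3 * H.th k) ≤ 1e-4
  th_sum : ∀ K, ∑ k ∈ Finset.Icc 1 K, H.th k ≤ 2e-6
  err_sum : ∀ K, ∑ k ∈ Finset.Icc 1 K, (300 * H.η k + 251 * H.E k) ≤ 1e-6

/-- the conclusion of theorem H at level `k` -/
structure Hier.Triple (H : Hier) (k : ℕ) (βk μk Ps : ℝ) (n : Fin 3 → ℕ) (u : Fin 3 → ℝ) : Prop where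
  β_mem : βk ∈ Set.Icc (0.995 : ℝ) 1.005
  μ_mem : μk ∈ Set.Icc (130 : ℝ) 142
  Ps_mem : Ps ∈ Set.Icc (0 : ℝ) 300
  window : ∀ i : Fin 3, |(n i : ℝ) / H.M k - ((i : ℕ) + 2)| ≤ 1e-3
  isMax : ∀ i : Fin 3, μk * ((n i : ℝ) / H.M k) - H.psi k βk (n i) = Ps
  le_Ps : ∀ β ∈ Set.Icc (0.994 : ℝ) 1.006, ∀ n' : ℕ,
    μk * ((n' : ℝ) / H.M k) - H.psi k β n' ≤ Ps + 4500 * |β - βk|
  slope : ∀ i : Fin 3, ∀ β ∈ Set.Icc (0.99 : ℝ) 1.01,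
    H.psi k β (n i) ≤ H.psi k βk (n i) + u i * (β - βk)
  u0 : 75 ≤ u 0
  u1 : u 1 ≤ 57
  u2 : 107 ≤ u 2
  u_bdd : ∀ i, |u i| ≤ 200

end Crest.Agent.S0209

/-- Realise the auto-generated equation lemmas once, in this (defining / root) module, so that
sibling modules of one import closure do not each create their own copy of the same name. -/
theorem Crest.Agent.S0209.eqns_realised_AbsDefs : True := by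
  have := @Crest.Agent.S0209.hh.eq_1
  have := @Crest.Agent.S0209.Hier.psi.eq_1
  have := @Crest.Agent.S0209.Hier.th.eq_1
  trivial
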