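import Crest.Agent.S0209_BaseLowDefs
import Crest.Agent.S0209_Insert

/-!
# ROW 149, package E2 : the integral bound for the attachment weight `attW`
-/

set_option autoImplicit false
namespace Crest.Agent.S0209
namespace BaseLow
open Crest.ProbabilityR.Continuum MeasureTheory

theorem measurable_attW (a Lam : ℝ) (n : ℕ) :
    Measurable (fun x : Fin n → Pt => attW a Lam x) := by
  unfold attW
  refine Finset.measurable_prod _ fun i _ => ?_
  have h0 : Measurable (fun x : Fin n → Pt =>
      ∑ j : Fin n, if i < j ∧ dist (x i) (x j) ≤ 2 * a then (1 : ENNReal) else 0) := by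
    refine Finset.measurable_sum _ fun j _ => ?_
    refine Measurable.ite ?_ measurable_const measurable_const
    have h : MeasurableSet {x : Fin n → Pt | dist (x i) (x j) ≤ 2 * a} :=
      measurableSet_le ((measurable_pi_apply i).dist (measurable_pi_apply j)) measurable_const
    by_cases hij : i < j
    · simpa [hij] using h
    · simp [hij]
  exact (h0.const_mul _).const_add _

/-- the factor of the first particle. -/
noncomputable def fac (a Lam : ℝ) {n : ℕ} (y : Pt) (x : Fin n → Pt) : ENNReal :=
  1 + ENNReal.ofReal (Real.exp Lam) *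
    ∑ j : Fin n, if dist y (x j) ≤ 2 * a then (1 : ENNReal) else 0

theorem attW_cons (a Lam : ℝ) {n : ℕ} (y : Pt) (x : Fin n → Pt) :
    attW a Lam (Fin.cons y x : Fin (n + 1) → Pt) = fac a Lam y x * attW a Lam x := by
  unfold attW fac
  rw [Fin.prod_univ_succ]
  congr 1
  · rw [Fin.sum_univ_succ]
    simp [Fin.succ_pos]
  · refine Finset.prod_congr rfl fun i _ => ?_
    rw [Fin.sum_univ_succ]
    simp [Fin.succ_lt_succ_iff]

theorem measurable_fac (a Lam : ℝ) (n : ℕ) :
    Measurable (fun z : Pt × (Fin n → Pt) => fac a Lam z.1 z.2) := by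
  unfold fac
  have h0 : Measurable (fun z : Pt × (Fin n → Pt) =>
      ∑ j : Fin n, if dist z.1 (z.2 j) ≤ 2 * a then (1 : ENNReal) else 0) := by
    refine Finset.measurable_sum _ fun j _ => ?_
    refine Measurable.ite ?_ measurable_const measurable_const
    exact measurableSet_le (measurable_fst.dist ((measurable_pi_apply j).comp measurable_snd))
      measurable_const
  exact (h0.const_mul _).const_add _

theorem measurable_fac_left (a Lam : ℝ) {n : ℕ} (x : Fin n → Pt) :
    Measurable (fun y : Pt => fac a Lam y x) := by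
  unfold fac
  have h0 : Measurable (fun y : Pt =>
      ∑ j : Fin n, if dist y (x j) ≤ 2 * a then (1 : ENNReal) else 0) := by
    refine Finset.measurable_sum _ fun j _ => ?_
    refine Measurable.ite ?_ measurable_const measurable_const
    exact measurableSet_le (measurable_id.dist measurable_const) measurable_const
  exact (h0.const_mul _).const_add _

theorem volume_closedBall_eq (x : Pt) {r : ℝ} (hr : 0 ≤ r) :
    volume (Metric.closedBall x r) = ENNReal.ofReal (vb r) := by
  rw [EuclideanSpace.volume_closedBall_fin_three, ← ENNReal.ofReal_pow hr,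
    ← ENNReal.ofReal_mul (by positivity)]
  congr 1
  unfold vb
  ring

theorem lintegral_fac_le {a l Lam : ℝ} (ha : 0 < a) (hl : 0 < l)
    (hLam : Lam ≤ -Real.log (vb (2 * a))) {n : ℕ} (x : Fin n → Pt) :
    ∫⁻ y in cube l, fac a Lam y x ≤ ENNReal.ofReal (l ^ 3 + n) := by
  have hvb : 0 < vb (2 * a) := by unfold vb; positivity
  have hE : ENNReal.ofReal (Real.exp Lam) * ENNReal.ofReal (vb (2 * a)) ≤ 1 := by
    rw [← ENNReal.ofReal_mul (Real.exp_pos _).le, ← ENNReal.ofReal_one]
    apply ENNReal.ofReal_le_ofReal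
    calc Real.exp Lam * vb (2 * a) ≤ Real.exp (-Real.log (vb (2 * a))) * vb (2 * a) :=
          mul_le_mul_of_nonneg_right (Real.exp_le_exp.2 hLam) hvb.le
      _ = 1 := by rw [Real.exp_neg, Real.exp_log hvb, inv_mul_cancel₀ hvb.ne']
  have hmeas : ∀ j : Fin n, Measurable (fun y : Pt => if dist y (x j) ≤ 2 * a then (1 : ENNReal) else 0) :=
    fun j => Measurable.ite (measurableSet_le (measurable_id.dist measurable_const) measurable_const)
      measurable_const measurable_const
  unfold fac
  rw [lintegral_add_left measurable_const, lintegral_const_mul _ (Finset.measurable_sum _ fun j _ => hmeas j),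
    lintegral_finsetSum _ fun j _ => hmeas j]
  have h1 : ∀ j : Fin n, ∫⁻ y in cube l, (if dist y (x j) ≤ 2 * a then (1 : ENNReal) else 0)
      ≤ ENNReal.ofReal (vb (2 * a)) := by
    intro j
    calc ∫⁻ y in cube l, (if dist y (x j) ≤ 2 * a then (1 : ENNReal) else 0)
        ≤ ∫⁻ y, (if dist y (x j) ≤ 2 * a then (1 : ENNReal) else 0) :=
          lintegral_mono' Measure.restrict_le_self le_rfl
      _ = ∫⁻ y, (Metric.closedBall (x j) (2 * a)).indicator 1 y := by
          refine lintegral_congr fun y => ?_
          by_cases h : dist y (x j) ≤ 2 * a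
          · rw [if_pos h, Set.indicator_of_mem (Metric.mem_closedBall.2 h)]; rfl
          · rw [if_neg h, Set.indicator_of_notMem (fun h' => h (Metric.mem_closedBall.1 h'))]
      _ = volume (Metric.closedBall (x j) (2 * a)) :=
          lintegral_indicator_one Metric.isClosed_closedBall.measurableSet
      _ = ENNReal.ofReal (vb (2 * a)) := volume_closedBall_eq _ (by positivity)
  have h2 : ∑ j : Fin n, ∫⁻ y in cube l, (if dist y (x j) ≤ 2 * a then (1 : ENNReal) else 0)
      ≤ n * ENNReal.ofReal (vb (2 * a)) := by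
    calc _ ≤ ∑ _j : Fin n, ENNReal.ofReal (vb (2 * a)) := Finset.sum_le_sum fun j _ => h1 j
      _ = n * ENNReal.ofReal (vb (2 * a)) := by simp
  have h3 : ENNReal.ofReal (Real.exp Lam) * (n * ENNReal.ofReal (vb (2 * a))) ≤ n := by
    calc ENNReal.ofReal (Real.exp Lam) * (n * ENNReal.ofReal (vb (2 * a)))
        = n * (ENNReal.ofReal (Real.exp Lam) * ENNReal.ofReal (vb (2 * a))) := by ring
      _ ≤ n * 1 := by gcongr
      _ = n := mul_one _
  rw [lintegral_const, one_mul, Measure.restrict_apply_univ, Ins.volume_cube hl.le,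
    ENNReal.ofReal_add (by positivity) (Nat.cast_nonneg _), ENNReal.ofReal_natCast]
  gcongr
  exact (mul_le_mul_right h2 _).trans h3


theorem lintegral_attW_succ_le {a l Lam : ℝ} (ha : 0 < a) (hl : 0 < l)
    (hLam : Lam ≤ -Real.log (vb (2 * a))) (n : ℕ) :
    ∫⁻ x in Set.pi Set.univ (fun _ : Fin (n + 1) => cube l), attW a Lam x
      ≤ ENNReal.ofReal (l ^ 3 + n) *
        ∫⁻ x in Set.pi Set.univ (fun _ : Fin n => cube l), attW a Lam x := by
  set e := MeasurableEquiv.piFinSuccAbove (fun _ : Fin (n + 1) => Pt) 0 with he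
  have hmp : MeasurePreserving e := volume_preserving_piFinSuccAbove (fun _ : Fin (n + 1) => Pt) 0
  set S : Set (Pt × (Fin n → Pt)) := cube l ×ˢ Set.pi Set.univ fun _ : Fin n => cube l with hS
  have hpre : (Set.pi Set.univ fun _ : Fin (n + 1) => cube l) = e ⁻¹' S := by
    ext x
    simp [hS, he, MeasurableEquiv.piFinSuccAbove, Fin.forall_fin_succ, Fin.insertNthEquiv, Fin.tail]
  set g : Pt × (Fin n → Pt) → ENNReal := fun z => fac a Lam z.1 z.2 * attW a Lam z.2 with hg
  have hgm : Measurable g :=
    (measurable_fac a Lam n).mul ((measurable_attW a Lam n).comp measurable_snd)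
  have hge : ∀ x : Fin (n + 1) → Pt, attW a Lam x = g (e x) := by
    intro x
    have hx : x = Fin.cons (x 0) (fun i => x i.succ) := (Fin.cons_self_tail x).symm
    have h1 : e x = (x 0, fun i => x i.succ) := by
      simp [he, MeasurableEquiv.piFinSuccAbove, Fin.insertNthEquiv]
      rfl
    rw [h1, hg]
    simp only
    conv_lhs => rw [hx, attW_cons]
  have hZ : ∫⁻ x in Set.pi Set.univ fun _ : Fin (n + 1) => cube l, attW a Lam x
      = ∫⁻ z in S, g z := by
    rw [hpre]; simp_rw [hge]; exact hmp.setLIntegral_comp_preimage_emb e.measurableEmbedding g S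
  have hF : ∫⁻ z in S, g z
      = ∫⁻ x in Set.pi Set.univ fun _ : Fin n => cube l, ∫⁻ y in cube l, g (y, x) := by
    rw [hS, Measure.volume_eq_prod, ← Measure.prod_restrict]
    exact lintegral_prod_symm g hgm.aemeasurable
  rw [hZ, hF]
  have hpt : ∀ x : Fin n → Pt, ∫⁻ y in cube l, g (y, x)
      ≤ ENNReal.ofReal (l ^ 3 + n) * attW a Lam x := by
    intro x
    have hm : Measurable (fun y : Pt => fac a Lam y x) := measurable_fac_left a Lam x
    have h1 : ∫⁻ y in cube l, g (y, x) = (∫⁻ y in cube l, fac a Lam y x) * attW a Lam x :=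
      lintegral_mul_const (attW a Lam x) hm
    rw [h1]
    exact mul_le_mul_left (lintegral_fac_le ha hl hLam x) _
  calc ∫⁻ x in Set.pi Set.univ fun _ : Fin n => cube l, ∫⁻ y in cube l, g (y, x)
      ≤ ∫⁻ x in Set.pi Set.univ fun _ : Fin n => cube l,
          ENNReal.ofReal (l ^ 3 + n) * attW a Lam x := lintegral_mono hpt
    _ = _ := lintegral_const_mul _ (measurable_attW a Lam n)

theorem lintegral_attW_le {a l Lam : ℝ} (ha : 0 < a) (hl : 0 < l)
    (hLam : Lam ≤ -Real.log (vb (2 * a))) (n : ℕ) :
    ∫⁻ x in Set.pi Set.univ (fun _ : Fin n => cube l), attW a Lam x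
      ≤ ENNReal.ofReal ((l ^ 3 + n) ^ n) := by
  induction n with
  | zero =>
    simp only [attW, Finset.univ_eq_empty, Finset.prod_empty, lintegral_const, one_mul,
      Measure.restrict_apply_univ, volume_pi_pi]
    simp
  | succ n ih =>
    refine (lintegral_attW_succ_le ha hl hLam n).trans ?_
    calc ENNReal.ofReal (l ^ 3 + n) * ∫⁻ x in Set.pi Set.univ (fun _ : Fin n => cube l), attW a Lam x
        ≤ ENNReal.ofReal (l ^ 3 + n) * ENNReal.ofReal ((l ^ 3 + n) ^ n) := by gcongr
      _ = ENNReal.ofReal ((l ^ 3 + n) ^ (n + 1)) := by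
          rw [← ENNReal.ofReal_mul (by positivity)]; congr 1; ring
      _ ≤ ENNReal.ofReal ((l ^ 3 + (n + 1 : ℕ)) ^ (n + 1)) := by
          apply ENNReal.ofReal_le_ofReal
          apply pow_le_pow_left₀ (by positivity)
          push_cast; linarith

end BaseLow
end Crest.Agent.S0209
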