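import Crest.Agent.S0209_BaseLowB
import Crest.Agent.S0209_BaseLowInt
import Crest.Agent.S0209_Basic

/-!
# ROW 149, package E: the base lower bound `base_lower`
-/

set_option autoImplicit false
namespace Crest.Agent.S0209
open Crest.ProbabilityR.Continuum MeasureTheory

namespace BaseLow

/-- `exp (Lam * #non-roots) ≤ attW`. -/
lemma exp_le_attW {a Lam : ℝ} {n : ℕ} (x : Fin n → Pt) (R : Finset (Fin n))
    (hR : ∀ i, i ∉ R → ∃ j, i < j ∧ dist (x i) (x j) ≤ 2 * a) :
    ENNReal.ofReal (Real.exp (Lam * ((n : ℝ) - R.card))) ≤ attW a Lam x := by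
  classical
  have hcard : ((n : ℝ) - R.card) = (Rᶜ.card : ℕ) := by
    rw [Finset.card_compl, Fintype.card_fin, Nat.cast_sub]
    simpa using Finset.card_le_univ R
  rw [hcard, mul_comm, Real.exp_nat_mul, ENNReal.ofReal_pow (Real.exp_pos _).le,
    ← Finset.prod_const]
  unfold attW
  refine le_trans (Finset.prod_le_prod' (s := Rᶜ) (g := fun i => (1 + ENNReal.ofReal (Real.exp Lam) *
    ∑ j : Fin n, if i < j ∧ dist (x i) (x j) ≤ 2 * a then (1 : ENNReal) else 0)) ?_)
    (Finset.prod_le_prod_of_subset_of_one_le' (Finset.subset_univ _) fun i _ _ => le_self_add)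
  intro i hi
  obtain ⟨j, hij, hd⟩ := hR i (Finset.mem_compl.1 hi)
  have h1 : (1 : ENNReal) ≤ ∑ j : Fin n, if i < j ∧ dist (x i) (x j) ≤ 2 * a then (1 : ENNReal) else 0 := by
    have := Finset.single_le_sum (f := fun j : Fin n =>
      if i < j ∧ dist (x i) (x j) ≤ 2 * a then (1 : ENNReal) else 0) (fun _ _ => zero_le)
      (Finset.mem_univ j)
    simpa [hij, hd] using this
  calc ENNReal.ofReal (Real.exp Lam) = ENNReal.ofReal (Real.exp Lam) * 1 := (mul_one _).symm
    _ ≤ ENNReal.ofReal (Real.exp Lam) *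
        ∑ j : Fin n, if i < j ∧ dist (x i) (x j) ≤ 2 * a then (1 : ENNReal) else 0 := by gcongr
    _ ≤ _ := le_add_self

end BaseLow

open BaseLow in
theorem base_lower {q0 : ℝ → ℝ} {e0 e1 a b1 : ℝ} (hmeas : Measurable q0) (h0 : ∀ r, 0 ≤ q0 r)
    (h1 : ∀ r, 0 ≤ r → r ≤ b1 → e0 ≤ q0 r) (h2 : ∀ r, a < r → r ≤ b1 → e1 ≤ q0 r)
    (he : 0 ≤ e0) (he01 : e0 ≤ e1) (ha : 0 < a) (hab : 4 * a < b1)
    {β Lam : ℝ} (hβ : 0 ≤ β) (hLam0 : 0 ≤ Lam) (hLam : Lam ≤ -Real.log (vb (2 * a)))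
    (hcond : Lam ≤ 3 / 2 * (β * (e1 - e0)))
    {ν P l : ℝ} (hl : 0 < l) (hP0 : 0 ≤ P)
    (hP : ∀ j : ℕ, 1 ≤ j → ν * j - hmin (β * e1) (β * e0) Lam j ≤ P) (n : ℕ) :
    Real.log (partitionFn q0 l n β) ≤ -ν * n + packingNumber (l / (b1 - 4 * a)) * P + n + l ^ 3 := by
  have hgood : Good q0 0 := ⟨hmeas, fun N x => by
    simp only [neg_zero, zero_mul]
    exact Finset.sum_nonneg fun p _ => h0 _⟩
  have hZpos := Z_pos hgood hl hβ n
  rw [Real.log_le_iff_le_exp hZpos]
  set S : Set (Fin n → Pt) := Set.pi Set.univ (fun _ : Fin n => cube l) with hS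
  have hSm : MeasurableSet S := MeasurableSet.univ_pi fun _ => Ins.measurableSet_cube l
  set K : ℝ := Real.exp (-ν * n + packingNumber (l / (b1 - 4 * a)) * P) with hK
  have hK0 : 0 ≤ K := (Real.exp_pos _).le
  -- pointwise bound
  have hpt : ∀ x ∈ S, ENNReal.ofReal (Real.exp (-β * energy q0 x))
      ≤ ENNReal.ofReal K * attW a Lam x := by
    intro x hx
    have hx' : ∀ i, x i ∈ cube l := fun i => hx i (Set.mem_univ i)
    obtain ⟨R, hR, hE⟩ := exists_roots_energy h0 h1 h2 he01 ha hab hβ hcond hP0 hP x hx'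
    have h3 : Real.exp (-β * energy q0 x) ≤ K * Real.exp (Lam * ((n : ℝ) - R.card)) := by
      rw [hK, ← Real.exp_add]
      exact Real.exp_le_exp.2 (by linarith)
    calc ENNReal.ofReal (Real.exp (-β * energy q0 x))
        ≤ ENNReal.ofReal (K * Real.exp (Lam * ((n : ℝ) - R.card))) := ENNReal.ofReal_le_ofReal h3
      _ = ENNReal.ofReal K * ENNReal.ofReal (Real.exp (Lam * ((n : ℝ) - R.card))) :=
          ENNReal.ofReal_mul hK0
      _ ≤ _ := by gcongr; exact exp_le_attW x R hR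
  have hlint : ∫⁻ x in S, ENNReal.ofReal (Real.exp (-β * energy q0 x))
      ≤ ENNReal.ofReal (K * (l ^ 3 + n) ^ n) := by
    calc ∫⁻ x in S, ENNReal.ofReal (Real.exp (-β * energy q0 x))
        ≤ ∫⁻ x in S, ENNReal.ofReal K * attW a Lam x := setLIntegral_mono' hSm hpt
      _ = ENNReal.ofReal K * ∫⁻ x in S, attW a Lam x :=
          lintegral_const_mul' _ _ ENNReal.ofReal_ne_top
      _ ≤ ENNReal.ofReal K * ENNReal.ofReal ((l ^ 3 + n) ^ n) := by
          gcongr; exact lintegral_attW_le ha hl hLam n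
      _ = _ := (ENNReal.ofReal_mul hK0).symm
  have hint : ∫ x in S, Real.exp (-β * energy q0 x) ≤ K * (l ^ 3 + n) ^ n := by
    rw [integral_eq_lintegral_of_nonneg_ae (Filter.Eventually.of_forall fun x => (Real.exp_pos _).le)
      (Real.measurable_exp.comp ((Ins.measurable_energy hmeas n).const_mul (-β))).aestronglyMeasurable]
    exact ENNReal.toReal_le_of_le_ofReal (by positivity) hlint
  have hfac : (l ^ 3 + n) ^ n / (n.factorial : ℝ) ≤ Real.exp (l ^ 3 + n) :=
    Real.pow_div_factorial_le_exp _ (by positivity) n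
  have hfpos : (0 : ℝ) < n.factorial := by positivity
  unfold partitionFn
  calc 1 / (n.factorial : ℝ) * ∫ x in S, Real.exp (-β * energy q0 x)
      ≤ 1 / (n.factorial : ℝ) * (K * (l ^ 3 + n) ^ n) :=
        mul_le_mul_of_nonneg_left hint (by positivity)
    _ = K * ((l ^ 3 + n) ^ n / (n.factorial : ℝ)) := by ring
    _ ≤ K * Real.exp (l ^ 3 + n) := mul_le_mul_of_nonneg_left hfac hK0
    _ = _ := by rw [hK, ← Real.exp_add]; congr 1; ring

end Crest.Agent.S0209
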