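import Mathlib

/-!
# ROW 149, package CW : weighted Caro–Wei inequality
-/

set_option autoImplicit false
namespace Crest.Agent.S0209
open Finset

namespace CW

variable {V : Type*} (G : SimpleGraph V) [DecidableRel G.Adj] (k : V → ℝ)

/-- weight of the closed neighbourhood of `v` inside `W`. -/
noncomputable def K (W : Finset V) (v : V) : ℝ := k v + ∑ u ∈ W.filter (G.Adj v), k u

variable {k}

lemma K_pos (hk : ∀ v, 0 < k v) (W : Finset V) (v : V) : 0 < K G k W v :=
  add_pos_of_pos_of_nonneg (hk v) (sum_nonneg fun u _ => (hk u).le)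

lemma K_mono (hk : ∀ v, 0 < k v) {W W' : Finset V} (h : W' ⊆ W) (v : V) :
    K G k W' v ≤ K G k W v := by
  unfold K
  have : ∑ u ∈ W'.filter (G.Adj v), k u ≤ ∑ u ∈ W.filter (G.Adj v), k u :=
    sum_le_sum_of_subset_of_nonneg (filter_subset_filter _ h) fun u _ _ => (hk u).le
  linarith

theorem exists_indep [DecidableEq V] (hk : ∀ v, 0 < k v) (W : Finset V) :
    ∃ S : Finset V, S ⊆ W ∧ (∀ u ∈ S, ∀ v ∈ S, u ≠ v → ¬ G.Adj u v) ∧
      ∑ v ∈ W, k v / K G k W v ≤ S.card := by
  induction W using Finset.strongInduction with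
  | H W ih =>
    rcases W.eq_empty_or_nonempty with rfl | hne
    · exact ⟨∅, subset_rfl, by simp, by simp⟩
    obtain ⟨v₀, hv₀, hmin⟩ := exists_min_image W (K G k W) hne
    set N : Finset V := insert v₀ (W.filter (G.Adj v₀)) with hN
    have hNW : N ⊆ W := insert_subset hv₀ (filter_subset _ _)
    have hW' : W \ N ⊂ W := by
      refine ⟨sdiff_subset, fun h => ?_⟩
      have := h hv₀
      rw [mem_sdiff] at this
      exact this.2 (mem_insert_self _ _)
    obtain ⟨S', hS'W, hS'ind, hS'⟩ := ih (W \ N) hW'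
    have hv₀S' : v₀ ∉ S' := fun h => (mem_sdiff.1 (hS'W h)).2 (mem_insert_self _ _)
    have hnadj : ∀ u ∈ S', ¬ G.Adj v₀ u := by
      intro u hu hadj
      have h1 := mem_sdiff.1 (hS'W hu)
      exact h1.2 (mem_insert_of_mem (mem_filter.2 ⟨h1.1, hadj⟩))
    refine ⟨insert v₀ S', insert_subset hv₀ (hS'W.trans sdiff_subset), ?_, ?_⟩
    · intro u hu v hv huv
      rcases mem_insert.1 hu with hu1 | hu1
      · rcases mem_insert.1 hv with hv1 | hv1
        · exact absurd (hu1.trans hv1.symm) huv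
        · rw [hu1]; exact hnadj v hv1
      · rcases mem_insert.1 hv with hv1 | hv1
        · rw [hv1]; exact fun h => hnadj u hu1 h.symm
        · exact hS'ind u hu1 v hv1 huv
    · rw [card_insert_of_notMem hv₀S', ← sum_sdiff hNW]
      have h1 : ∑ v ∈ N, k v / K G k W v ≤ 1 := by
        have hsum : ∑ v ∈ N, k v = K G k W v₀ := by
          rw [hN, sum_insert (by simp)]; rfl
        calc ∑ v ∈ N, k v / K G k W v ≤ ∑ v ∈ N, k v / K G k W v₀ :=
              sum_le_sum fun v hv =>
                div_le_div_of_nonneg_left (hk v).le (K_pos G hk W v₀) (hmin v (hNW hv))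
          _ = 1 := by
              rw [← sum_div, hsum, div_self (K_pos G hk W v₀).ne']
      have h2 : ∑ v ∈ W \ N, k v / K G k W v ≤ ∑ v ∈ W \ N, k v / K G k (W \ N) v :=
        sum_le_sum fun v _ =>
          div_le_div_of_nonneg_left (hk v).le (K_pos G hk _ v) (K_mono G hk sdiff_subset v)
      push_cast
      linarith

end CW

theorem caro_wei {V : Type*} [Fintype V] [DecidableEq V] (G : SimpleGraph V) [DecidableRel G.Adj]
    (k : V → ℝ) (hk : ∀ v, 0 < k v) (α : ℕ)
    (hα : ∀ S : Finset V, (∀ u ∈ S, ∀ v ∈ S, u ≠ v → ¬ G.Adj u v) → S.card ≤ α) :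
    ∑ v, k v / (k v + ∑ u ∈ G.neighborFinset v, k u) ≤ α := by
  obtain ⟨S, -, hS, hle⟩ := CW.exists_indep G hk univ
  have h1 : ∑ v, k v / (k v + ∑ u ∈ G.neighborFinset v, k u) = ∑ v, k v / CW.K G k univ v := by
    refine sum_congr rfl fun v _ => ?_
    rw [CW.K, SimpleGraph.neighborFinset_eq_filter]
  rw [h1]
  exact hle.trans (by exact_mod_cast hα S hS)

end Crest.Agent.S0209
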