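import Crest.Agent.S0209_BaseLowDefs
import Crest.Agent.S0209_CaroWei

/-!
# ROW 149, package E (base lower bound), part A: abstract combinatorics

Particles `I`, roots `R`, attachment map `ρ`, graph `G` on the roots, pair costs `c`.
-/

set_option autoImplicit false
namespace Crest.Agent.S0209
namespace BaseLow
open Finset

/-- the local inequality `C_ρ / k ≥ hmin_j / j`. -/
lemma local_ineq {z y Lam : ℝ} (hy : 0 ≤ y)
    (hcond : Lam ≤ 3 / 2 * y) (k m j : ℕ) (hk : 1 ≤ k) (hj : k + m ≤ j) (hm : m = 0 → j = k) :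
    (k : ℝ) * hmin (z + y) z Lam j ≤
      j * (z * k * (j - 1) / 2 + Lam * (k - 1) + y / 2 * (m * (k - 1) + (j - k))) := by
  unfold hmin
  rcases Nat.lt_or_ge 1 k with hk2 | hk1
  · -- `k ≥ 2` : tight branch
    have hkR : (2 : ℝ) ≤ k := by exact_mod_cast hk2
    have hjR : (k : ℝ) + m ≤ j := by exact_mod_cast hj
    have hmR : (0 : ℝ) ≤ m := Nat.cast_nonneg _
    refine le_trans (mul_le_mul_of_nonneg_left (min_le_right _ _) (by positivity)) ?_
    rcases Nat.eq_zero_or_pos m with hm0 | hmpos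
    · have hjk : (j : ℝ) = k := by exact_mod_cast hm hm0
      have hm0R : (m : ℝ) = 0 := by exact_mod_cast hm0
      rw [hjk, hm0R]
      nlinarith
    · have hm1 : (1 : ℝ) ≤ m := by exact_mod_cast hmpos
      -- need `Lam (j-k) ≤ j (y/2) (m(k-1)+(j-k))`
      have h1 : Lam * ((j : ℝ) - k) ≤ 3 / 2 * y * ((j : ℝ) - k) :=
        mul_le_mul_of_nonneg_right hcond (by linarith)
      have h2 : (j : ℝ) - 1 ≤ m * ((k : ℝ) - 1) + ((j : ℝ) - k) := by nlinarith
      have h3 : 3 * ((j : ℝ) - k) ≤ j * ((j : ℝ) - 1) := by nlinarith [sq_nonneg ((j : ℝ) - 2)]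
      have hj0 : (0 : ℝ) ≤ j := Nat.cast_nonneg _
      have h4 : 3 / 2 * y * ((j : ℝ) - k) ≤ j * (y / 2 * (m * ((k : ℝ) - 1) + ((j : ℝ) - k))) := by
        have h5 : y / 2 * (3 * ((j : ℝ) - k)) ≤ y / 2 * (j * ((j : ℝ) - 1)) :=
          mul_le_mul_of_nonneg_left h3 (by positivity)
        have h6 : y / 2 * (j * ((j : ℝ) - 1)) ≤ y / 2 * (j * (m * ((k : ℝ) - 1) + ((j : ℝ) - k))) :=
          mul_le_mul_of_nonneg_left (mul_le_mul_of_nonneg_left h2 hj0) (by positivity)
        nlinarith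
      nlinarith
  · -- `k = 1` : loose branch
    have hk1' : k = 1 := le_antisymm hk1 hk
    subst hk1'
    refine le_trans (mul_le_mul_of_nonneg_left (min_le_left _ _) (by positivity)) ?_
    push_cast
    nlinarith

section Count

variable {I : Type*} [Fintype I] [DecidableEq I] (R : Finset I) (ρ : I → I)
  (G : SimpleGraph I) [DecidableRel G.Adj]

/-- cluster size. -/
def kN (r : I) : ℕ := (univ.filter fun i => ρ i = r).card

/-- degree in the graph on the roots. -/
def mN (r : I) : ℕ := (R.filter (G.Adj r)).card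

/-- weight of the closed neighbourhood. -/
def jN (r : I) : ℕ := kN ρ r + ∑ u ∈ R.filter (G.Adj r), kN ρ u

variable {R ρ}

/-- summation over the particles, cluster by cluster. -/
lemma sum_comp_rho (hρR : ∀ i, ρ i ∈ R) (F : I → ℝ) :
    ∑ i, F (ρ i) = ∑ r ∈ R, (kN ρ r : ℝ) * F r := by
  rw [← Finset.sum_fiberwise_of_maps_to (s := univ) (t := R) (g := ρ) (fun i _ => hρR i)]
  refine Finset.sum_congr rfl fun r _ => ?_
  rw [Finset.sum_congr rfl (g := fun _ => F r) (fun i hi => by rw [(mem_filter.1 hi).2])]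
  rw [Finset.sum_const, nsmul_eq_mul, kN]

lemma sum_kN (hρR : ∀ i, ρ i ∈ R) : ∑ r ∈ R, (kN ρ r : ℝ) = Fintype.card I := by
  have := sum_comp_rho hρR (fun _ => (1 : ℝ))
  simp only [mul_one, sum_const, card_univ, nsmul_eq_mul] at this
  exact this.symm

lemma one_le_kN (hρr : ∀ r ∈ R, ρ r = r) {r : I} (hr : r ∈ R) : 1 ≤ kN ρ r :=
  Finset.card_pos.2 ⟨r, by simp [hρr r hr]⟩

lemma kN_add_mN_le_jN (hρr : ∀ r ∈ R, ρ r = r) (r : I) : kN ρ r + mN R G r ≤ jN R ρ G r := by
  unfold jN mN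
  refine Nat.add_le_add_left ?_ _
  rw [Finset.card_eq_sum_ones]
  exact Finset.sum_le_sum fun u hu => one_le_kN hρr (mem_filter.1 hu).1

lemma jN_eq_of_mN_eq_zero {r : I} (h : mN R G r = 0) : jN R ρ G r = kN ρ r := by
  unfold jN
  rw [mN, Finset.card_eq_zero] at h
  rw [h]; simp

/-- symmetric resummation. -/
lemma sum_jN_sub_kN : ∑ r ∈ R, ((jN R ρ G r : ℝ) - kN ρ r) = ∑ r ∈ R, (mN R G r : ℝ) * kN ρ r := by
  have h1 : ∀ r ∈ R, ((jN R ρ G r : ℝ) - kN ρ r) = ∑ u ∈ R, if G.Adj r u then (kN ρ u : ℝ) else 0 := by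
    intro r _
    unfold jN
    push_cast
    rw [Finset.sum_filter]
    ring
  have h2 : ∀ u ∈ R, (mN R G u : ℝ) * kN ρ u = ∑ r ∈ R, if G.Adj r u then (kN ρ u : ℝ) else 0 := by
    intro u _
    unfold mN
    rw [← Finset.sum_filter, Finset.sum_const, nsmul_eq_mul]
    congr 2
    refine congrArg _ (Finset.filter_congr fun r _ => ?_)
    exact ⟨fun h => h.symm, fun h => h.symm⟩
  rw [Finset.sum_congr rfl h1, Finset.sum_congr rfl h2, Finset.sum_comm]

/-- closeness of two particles: same cluster or adjacent clusters. -/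
def close (ρ : I → I) (G : SimpleGraph I) (i j : I) : Prop := ρ i = ρ j ∨ G.Adj (ρ i) (ρ j)

instance (i j : I) : Decidable (close ρ G i j) := by unfold close; infer_instance

omit [Fintype I] [DecidableEq I] [DecidableRel G.Adj] in
lemma close_symm {i j : I} (h : close ρ G i j) : close ρ G j i :=
  h.elim (fun h => Or.inl h.symm) fun h => Or.inr h.symm

/-- number of particles close to `i`. -/
lemma sum_close (hρR : ∀ i, ρ i ∈ R) (i : I) :
    ∑ j, (if close ρ G i j then (1 : ℝ) else 0) = jN R ρ G (ρ i) := by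
  have h := sum_comp_rho hρR (fun u => if ρ i = u ∨ G.Adj (ρ i) u then (1 : ℝ) else 0)
  unfold close
  rw [h]
  unfold jN
  push_cast
  rw [Finset.sum_filter]
  have h3 : ∀ u ∈ R, (kN ρ u : ℝ) * (if ρ i = u ∨ G.Adj (ρ i) u then (1 : ℝ) else 0)
      = (if u = ρ i then (kN ρ u : ℝ) else 0) + (if G.Adj (ρ i) u then (kN ρ u : ℝ) else 0) := by
    intro u _
    by_cases h1 : u = ρ i
    · subst h1; simp
    · have h1' : ¬ ρ i = u := fun h => h1 h.symm
      by_cases h2 : G.Adj (ρ i) u <;> simp [h1, h1', h2]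
  rw [Finset.sum_congr rfl h3, Finset.sum_add_distrib, Finset.sum_ite_eq' R (ρ i), if_pos (hρR i)]

lemma sum_close_ne (hρR : ∀ i, ρ i ∈ R) :
    ∑ i, ∑ j, (if i ≠ j ∧ close ρ G i j then (1 : ℝ) else 0)
      = ∑ r ∈ R, (kN ρ r : ℝ) * ((jN R ρ G r : ℝ) - 1) := by
  rw [← sum_comp_rho hρR (fun r => (jN R ρ G r : ℝ) - 1)]
  refine Finset.sum_congr rfl fun i _ => ?_
  rw [← sum_close G hρR i]
  have h : ∀ j ∈ (univ : Finset I), (if i ≠ j ∧ close ρ G i j then (1 : ℝ) else 0)
      = (if close ρ G i j then (1 : ℝ) else 0) - (if j = i then (1 : ℝ) else 0) := by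
    intro j _
    by_cases h1 : j = i
    · subst h1; simp [close]
    · have h1' : i ≠ j := fun h => h1 h.symm
      simp [h1, h1']
  rw [Finset.sum_congr rfl h, Finset.sum_sub_distrib, Finset.sum_ite_eq' univ i, if_pos (mem_univ i)]

variable (far : I → I → Prop) [DecidableRel far]

/-- for every particle `p`: at least `m` of the `1 + m` roots in the closed neighbourhood of its
root are far from `p`. -/
lemma far_roots (hρR : ∀ i, ρ i ∈ R) (hρr : ∀ r ∈ R, ρ r = r)
    (hone : ∀ p, ∀ r ∈ R, ∀ r' ∈ R, ¬ far p r → ¬ far p r' → r = r') (p : I) :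
    (mN R G (ρ p) : ℝ) ≤ ∑ j, (if j ∈ R ∧ close ρ G p j ∧ far p j then (1 : ℝ) else 0) := by
  rw [Finset.sum_boole]
  set A : Finset I := insert (ρ p) (R.filter (G.Adj (ρ p))) with hA
  have hcardA : A.card = mN R G (ρ p) + 1 := by
    rw [hA, Finset.card_insert_of_notMem (by simp), mN]
  have hsplit := Finset.card_filter_add_card_filter_not (s := A) (fun u => far p u)
  have hle1 : (A.filter fun u => ¬ far p u).card ≤ 1 := by
    refine Finset.card_le_one.2 fun u hu u' hu' => ?_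
    rw [mem_filter] at hu hu'
    have hmem : ∀ w ∈ A, w ∈ R := by
      intro w hw
      rcases mem_insert.1 hw with h | h
      · rw [h]; exact hρR p
      · exact (mem_filter.1 h).1
    exact hone p u (hmem u hu.1) u' (hmem u' hu'.1) hu.2 hu'.2
  have hsub : (A.filter fun u => far p u) ⊆ univ.filter fun j => j ∈ R ∧ close ρ G p j ∧ far p j := by
    intro u hu
    rw [mem_filter] at hu
    rw [mem_filter]
    refine ⟨mem_univ _, ?_⟩
    rcases mem_insert.1 hu.1 with h | h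
    · refine ⟨h ▸ hρR p, Or.inl ?_, hu.2⟩
      rw [h, hρr _ (hρR p)]
    · rw [mem_filter] at h
      refine ⟨h.1, Or.inr ?_, hu.2⟩
      rw [hρr u h.1]; exact h.2
  have hc := Finset.card_le_card hsub
  have : mN R G (ρ p) ≤ (univ.filter fun j => j ∈ R ∧ close ρ G p j ∧ far p j).card := by omega
  exact_mod_cast this

/-- the energy inequality (sum over ordered pairs). -/
theorem energy_ineq {z y : ℝ} (hy : 0 ≤ y) (c : I → I → ℝ)
    (hρR : ∀ i, ρ i ∈ R) (hρr : ∀ r ∈ R, ρ r = r)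
    (hc0 : ∀ i j, 0 ≤ c i j) (hcs : ∀ i j, c i j = c j i)
    (hz : ∀ i j, i ≠ j → close ρ G i j → z ≤ c i j)
    (hx : ∀ i j, i ≠ j → close ρ G i j → far i j → z + y ≤ c i j)
    (hfarR : ∀ r ∈ R, ∀ r' ∈ R, r ≠ r' → far r r')
    (hone : ∀ p, ∀ r ∈ R, ∀ r' ∈ R, ¬ far p r → ¬ far p r' → r = r') :
    ∑ r ∈ R, (z * (kN ρ r * ((jN R ρ G r : ℝ) - 1))
        + y * (mN R G r * ((kN ρ r : ℝ) - 1) + ((jN R ρ G r : ℝ) - kN ρ r)))
      ≤ ∑ i, ∑ j, (if i ≠ j then c i j else 0) := by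
  set g1 : I → I → ℝ := fun i j => if i ≠ j ∧ close ρ G i j then 1 else 0 with hg1
  set e1 : I → I → ℝ := fun i j => if i ∈ R ∧ j ∈ R ∧ G.Adj i j then 1 else 0 with he1
  set e2 : I → I → ℝ := fun i j => if i ∉ R then
    (if j ∈ R ∧ close ρ G i j ∧ far i j then 1 else 0) else 0 with he2
  have hpt : ∀ i j, z * g1 i j + y * (e1 i j + e2 i j + e2 j i) ≤ (if i ≠ j then c i j else 0) := by
    intro i j
    simp only [hg1, he1, he2]
    by_cases hi : i ∈ R <;> by_cases hj : j ∈ R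
    · by_cases hadj : G.Adj i j
      · have hne : i ≠ j := hadj.ne
        have hcl : close ρ G i j := Or.inr (by rw [hρr i hi, hρr j hj]; exact hadj)
        have := hx i j hne hcl (hfarR i hi j hj hne)
        simp [hi, hj, hadj, hne, hcl]
        linarith
      · by_cases h : i ≠ j ∧ close ρ G i j
        · have := hz i j h.1 h.2
          simp [hi, hj, hadj, h.1, h.2]
          linarith
        · by_cases hne : i ≠ j
          · have := hc0 i j
            have hcl : ¬ close ρ G i j := fun hc => h ⟨hne, hc⟩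
            simp [hi, hj, hadj, hcl, hne]
            linarith
          · simp [hi, hj, hadj, hne]
    · have hne : i ≠ j := fun h => hj (h ▸ hi)
      by_cases hcl : close ρ G i j
      · have hcl' := close_symm G hcl
        by_cases hf : far j i
        · have := hx j i hne.symm hcl' hf
          rw [hcs j i] at this
          simp [hi, hj, hne, hcl, hcl', hf]
          linarith
        · have := hz i j hne hcl
          simp [hi, hj, hne, hcl, hcl', hf]
          linarith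
      · have hcl' : ¬ close ρ G j i := fun h => hcl (close_symm G h)
        have := hc0 i j
        simp [hi, hj, hne, hcl, hcl']
        linarith
    · have hne : i ≠ j := fun h => hi (h ▸ hj)
      by_cases hcl : close ρ G i j
      · by_cases hf : far i j
        · have := hx i j hne hcl hf
          simp [hi, hj, hne, hcl, hf]
          linarith
        · have := hz i j hne hcl
          simp [hi, hj, hne, hcl, hf]
          linarith
      · have := hc0 i j
        simp [hi, hj, hne, hcl]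
        linarith
    · by_cases h : i ≠ j ∧ close ρ G i j
      · have := hz i j h.1 h.2
        simp [hi, hj, h.1, h.2]
        linarith
      · by_cases hne : i ≠ j
        · have := hc0 i j
          have hcl : ¬ close ρ G i j := fun hc => h ⟨hne, hc⟩
          simp [hi, hj, hcl, hne]
          linarith
        · simp [hi, hj, hne]
  have hS1 : ∑ i, ∑ j, g1 i j = ∑ r ∈ R, (kN ρ r : ℝ) * ((jN R ρ G r : ℝ) - 1) :=
    sum_close_ne G hρR
  have hS2 : ∑ i, ∑ j, e1 i j = ∑ r ∈ R, (mN R G r : ℝ) := by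
    have h : ∀ i ∈ (univ : Finset I), ∑ j, e1 i j = if i ∈ R then (mN R G i : ℝ) else 0 := by
      intro i _
      simp only [he1]
      by_cases hi : i ∈ R
      · simp only [hi, true_and, if_true]
        rw [Finset.sum_boole, mN]
        congr 2
        ext u; simp
      · simp [hi]
    rw [Finset.sum_congr rfl h, Finset.sum_ite_mem, Finset.univ_inter]
  have hS3 : ∑ r ∈ R, (mN R G r : ℝ) * ((kN ρ r : ℝ) - 1) ≤ ∑ i, ∑ j, e2 i j := by
    have h : ∀ i ∈ (univ : Finset I),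
        (mN R G (ρ i) : ℝ) - (if i ∈ R then (mN R G i : ℝ) else 0) ≤ ∑ j, e2 i j := by
      intro i _
      simp only [he2]
      by_cases hi : i ∈ R
      · simp [hi, hρr i hi]
      · simp only [hi, not_false_eq_true, if_true, if_false, sub_zero]
        exact far_roots G far hρR hρr hone i
    refine le_trans (le_of_eq ?_) (Finset.sum_le_sum h)
    rw [Finset.sum_sub_distrib, sum_comp_rho hρR (fun r => (mN R G r : ℝ)), Finset.sum_ite_mem,
      Finset.univ_inter, ← Finset.sum_sub_distrib]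
    exact Finset.sum_congr rfl fun r _ => by ring
  have hS4 : ∑ i, ∑ j, e2 j i = ∑ i, ∑ j, e2 i j := Finset.sum_comm
  have hsum : ∑ i, ∑ j, (z * g1 i j + y * (e1 i j + e2 i j + e2 j i))
      ≤ ∑ i, ∑ j, (if i ≠ j then c i j else 0) :=
    Finset.sum_le_sum fun i _ => Finset.sum_le_sum fun j _ => hpt i j
  refine le_trans ?_ hsum
  have hexp : ∑ i, ∑ j, (z * g1 i j + y * (e1 i j + e2 i j + e2 j i))
      = z * ∑ i, ∑ j, g1 i j + y * (∑ i, ∑ j, e1 i j + ∑ i, ∑ j, e2 i j + ∑ i, ∑ j, e2 j i) := by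
    simp only [mul_add, Finset.sum_add_distrib, Finset.mul_sum]
  rw [hexp, hS1, hS2, hS4]
  have hres := sum_jN_sub_kN (R := R) (ρ := ρ) G
  have hL : ∑ r ∈ R, (z * (kN ρ r * ((jN R ρ G r : ℝ) - 1))
        + y * (mN R G r * ((kN ρ r : ℝ) - 1) + ((jN R ρ G r : ℝ) - kN ρ r)))
      = z * ∑ r ∈ R, (kN ρ r : ℝ) * ((jN R ρ G r : ℝ) - 1)
        + y * (∑ r ∈ R, (mN R G r : ℝ) + 2 * ∑ r ∈ R, (mN R G r : ℝ) * ((kN ρ r : ℝ) - 1)) := by
    have h5 : ∑ r ∈ R, (mN R G r : ℝ) * kN ρ r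
        = ∑ r ∈ R, (mN R G r : ℝ) + ∑ r ∈ R, (mN R G r : ℝ) * ((kN ρ r : ℝ) - 1) := by
      rw [← Finset.sum_add_distrib]
      exact Finset.sum_congr rfl fun r _ => by ring
    simp only [Finset.sum_add_distrib, ← Finset.mul_sum]
    rw [hres, h5]
    ring
  rw [hL]
  nlinarith

/-- the abstract form of the pointwise bound (E1). -/
theorem abstract_main {z y Lam ν P : ℝ} (hy : 0 ≤ y) (hcond : Lam ≤ 3 / 2 * y) (hP0 : 0 ≤ P)
    (hP : ∀ j : ℕ, 1 ≤ j → ν * j - hmin (z + y) z Lam j ≤ P) (c : I → I → ℝ)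
    (hρR : ∀ i, ρ i ∈ R) (hρr : ∀ r ∈ R, ρ r = r)
    (hc0 : ∀ i j, 0 ≤ c i j) (hcs : ∀ i j, c i j = c j i)
    (hz : ∀ i j, i ≠ j → close ρ G i j → z ≤ c i j)
    (hx : ∀ i j, i ≠ j → close ρ G i j → far i j → z + y ≤ c i j)
    (hfarR : ∀ r ∈ R, ∀ r' ∈ R, r ≠ r' → far r r')
    (hone : ∀ p, ∀ r ∈ R, ∀ r' ∈ R, ¬ far p r → ¬ far p r' → r = r')
    (α : ℕ) (hα : ∀ S : Finset I, S ⊆ R → (∀ u ∈ S, ∀ v ∈ S, u ≠ v → ¬ G.Adj u v) → S.card ≤ α) :
    ν * (Fintype.card I : ℝ) - α * P ≤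
      (1 / 2) * ∑ i, ∑ j, (if i ≠ j then c i j else 0) + Lam * ((Fintype.card I : ℝ) - R.card) := by
  have hE := energy_ineq G far hy c hρR hρr hc0 hcs hz hx hfarR hone
  -- the shares
  set C : I → ℝ := fun r => z * (kN ρ r * ((jN R ρ G r : ℝ) - 1)) / 2 + Lam * ((kN ρ r : ℝ) - 1)
    + y / 2 * (mN R G r * ((kN ρ r : ℝ) - 1) + ((jN R ρ G r : ℝ) - kN ρ r)) with hC
  have key : ∀ r ∈ R, ν * kN ρ r - C r ≤ (kN ρ r : ℝ) / jN R ρ G r * P := by
    intro r hr
    have hk : 1 ≤ kN ρ r := one_le_kN hρr hr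
    have hj : kN ρ r + mN R G r ≤ jN R ρ G r := kN_add_mN_le_jN G hρr r
    have hm : mN R G r = 0 → jN R ρ G r = kN ρ r := jN_eq_of_mN_eq_zero G
    have loc := local_ineq (z := z) hy hcond (kN ρ r) (mN R G r) (jN R ρ G r) hk hj hm
    have hPj := hP (jN R ρ G r) (by omega)
    have hjpos : (0 : ℝ) < jN R ρ G r := by
      have : 0 < jN R ρ G r := by omega
      exact_mod_cast this
    have hk0 : (0 : ℝ) ≤ kN ρ r := Nat.cast_nonneg _
    rw [div_mul_eq_mul_div, le_div_iff₀ hjpos]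
    have h1 := mul_le_mul_of_nonneg_left hPj hk0
    simp only [hC]
    nlinarith
  have hsumC : ∑ r ∈ R, C r ≤
      (1 / 2) * ∑ i, ∑ j, (if i ≠ j then c i j else 0) + Lam * ((Fintype.card I : ℝ) - R.card) := by
    have h1 : ∑ r ∈ R, C r = (1 / 2) * ∑ r ∈ R, (z * (kN ρ r * ((jN R ρ G r : ℝ) - 1))
        + y * (mN R G r * ((kN ρ r : ℝ) - 1) + ((jN R ρ G r : ℝ) - kN ρ r)))
        + Lam * ∑ r ∈ R, ((kN ρ r : ℝ) - 1) := by
      rw [Finset.mul_sum, Finset.mul_sum, ← Finset.sum_add_distrib]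
      exact Finset.sum_congr rfl fun r _ => by simp only [hC]; ring
    have h2 : ∑ r ∈ R, ((kN ρ r : ℝ) - 1) = (Fintype.card I : ℝ) - R.card := by
      rw [Finset.sum_sub_distrib, sum_kN hρR]; simp
    rw [h1, h2]
    linarith
  -- Caro-Wei
  set kk : I → ℝ := fun v => if v ∈ R then (kN ρ v : ℝ) else 1 with hkk
  have hkkpos : ∀ v, 0 < kk v := by
    intro v
    simp only [hkk]
    split_ifs with hv
    · have := one_le_kN hρr hv
      exact_mod_cast this
    · exact one_pos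
  obtain ⟨S, hSR, hSind, hScard⟩ := CW.exists_indep G hkkpos R
  have hCW : ∑ r ∈ R, (kN ρ r : ℝ) / jN R ρ G r ≤ α := by
    have h1 : ∑ r ∈ R, (kN ρ r : ℝ) / jN R ρ G r = ∑ v ∈ R, kk v / CW.K G kk R v := by
      refine Finset.sum_congr rfl fun r hr => ?_
      have e1 : kk r = kN ρ r := by simp [hkk, hr]
      have e2 : CW.K G kk R r = jN R ρ G r := by
        unfold CW.K jN
        push_cast
        rw [e1]
        congr 1
        refine Finset.sum_congr rfl fun u hu => ?_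
        simp [hkk, (mem_filter.1 hu).1]
      rw [e1, e2]
    rw [h1]
    refine hScard.trans ?_
    exact_mod_cast hα S hSR hSind
  have hsum : ∑ r ∈ R, (ν * kN ρ r - C r) ≤ ∑ r ∈ R, (kN ρ r : ℝ) / jN R ρ G r * P :=
    Finset.sum_le_sum key
  rw [Finset.sum_sub_distrib, ← Finset.mul_sum, sum_kN hρR, ← Finset.sum_mul] at hsum
  have h3 : (∑ r ∈ R, (kN ρ r : ℝ) / jN R ρ G r) * P ≤ α * P := mul_le_mul_of_nonneg_right hCW hP0
  linarith

end Count

end BaseLow
end Crest.Agent.S0209
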