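import Crest.Agent.S0209_Defs

/-!
# ROW 149, package G : unit packings of the cube
-/

set_option autoImplicit false
namespace Crest.Agent.S0209
open Crest.ProbabilityR.Continuum MeasureTheory

namespace Pack

/-- coordinate bound for the distance. -/
theorem abs_coord_le_dist (x y : Pt) (i : Fin 3) : |x i - y i| ≤ dist x y := by
  have h := EuclideanSpace.dist_eq x y
  rw [h]
  apply Real.le_sqrt_of_sq_le
  have : (|x i - y i|) ^ 2 = dist (x i) (y i) ^ 2 := by rw [Real.dist_eq]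
  rw [this]
  exact Finset.single_le_sum (f := fun j => dist (x j) (y j) ^ 2)
    (fun j _ => sq_nonneg _) (Finset.mem_univ i)

theorem dist_sq_eq (x y : Pt) :
    dist x y ^ 2 = (x 0 - y 0) ^ 2 + (x 1 - y 1) ^ 2 + (x 2 - y 2) ^ 2 := by
  rw [EuclideanSpace.dist_eq, Real.sq_sqrt (Finset.sum_nonneg fun j _ => sq_nonneg _),
    Fin.sum_univ_three]
  simp only [Real.dist_eq, sq_abs]

/-- the admissible point sets. -/
def IsPack (s L : ℝ) (X : Finset Pt) : Prop :=
  (∀ x ∈ X, x ∈ cube L) ∧ ∀ x ∈ X, ∀ y ∈ X, x ≠ y → s ≤ dist x y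

theorem mem_packingSet {L : ℝ} {n : ℕ} :
    n ∈ packingSet L ↔ ∃ X : Finset Pt, X.card = n ∧ IsPack 1 L X := by
  simp only [packingSet, IsPack, Set.mem_ofPred_eq]

/-- the half-grid pigeonhole bound. -/
theorem card_le_grid {L : ℝ} {X : Finset Pt} (h : IsPack 1 L X) :
    X.card ≤ ((⌊2 * L⌋ + 1).toNat) ^ 3 := by
  classical
  have hinj : Set.InjOn (fun x : Pt => (fun i : Fin 3 => ⌊2 * x i⌋)) (X : Set Pt) := by
    intro x hx y hy hxy
    by_contra hne
    have h1 := h.2 x hx y hy hne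
    have hc : ∀ i : Fin 3, |x i - y i| < 1 / 2 := by
      intro i
      have hi : ⌊2 * x i⌋ = ⌊2 * y i⌋ := congrFun hxy i
      have := Int.abs_sub_lt_one_of_floor_eq_floor hi
      rw [abs_lt] at this ⊢
      constructor <;> linarith [this.1, this.2]
    have h2 := dist_sq_eq x y
    have hs : ∀ i : Fin 3, (x i - y i) ^ 2 < 1 / 4 := by
      intro i
      have := hc i
      rw [abs_lt] at this
      nlinarith [this.1, this.2]
    have h3 : dist x y ^ 2 < 1 := by
      rw [h2]; linarith [hs 0, hs 1, hs 2]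
    nlinarith [h1, h3]
  have hmaps : ∀ x ∈ X, (fun x : Pt => (fun i : Fin 3 => ⌊2 * x i⌋)) x ∈
      Fintype.piFinset (fun _ : Fin 3 => Finset.Icc (0 : ℤ) ⌊2 * L⌋) := by
    intro x hx
    rw [Fintype.mem_piFinset]
    intro i
    have hxc := h.1 x hx i
    rw [Finset.mem_Icc]
    constructor
    · apply Int.floor_nonneg.mpr; linarith [hxc.1]
    · apply Int.floor_le_floor; linarith [hxc.2]
  have := Finset.card_le_card_of_injOn _ hmaps hinj
  rw [Fintype.card_piFinset] at this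
  simpa using this

theorem bddAbove_packingSet (L : ℝ) : BddAbove (packingSet L) := by
  refine ⟨((⌊2 * L⌋ + 1).toNat) ^ 3, ?_⟩
  intro n hn
  obtain ⟨X, rfl, hX⟩ := mem_packingSet.mp hn
  exact card_le_grid hX

theorem zero_mem_packingSet (L : ℝ) : 0 ∈ packingSet L :=
  mem_packingSet.mpr ⟨∅, rfl, by simp [IsPack]⟩

theorem card_le_packingNumber {L : ℝ} {X : Finset Pt} (h : IsPack 1 L X) :
    X.card ≤ packingNumber L :=
  le_csSup (bddAbove_packingSet L) (mem_packingSet.mpr ⟨X, rfl, h⟩)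

theorem exists_isPack (L : ℝ) : ∃ X : Finset Pt, X.card = packingNumber L ∧ IsPack 1 L X :=
  mem_packingSet.mp (Nat.sSup_mem ⟨0, zero_mem_packingSet L⟩ (bddAbove_packingSet L))

theorem packingNumber_le_grid (L : ℝ) : packingNumber L ≤ ((⌊2 * L⌋ + 1).toNat) ^ 3 := by
  obtain ⟨X, hc, hX⟩ := exists_isPack L
  rw [← hc]; exact card_le_grid hX

/-- scaling of packings. -/
theorem IsPack.smul {s L : ℝ} {X : Finset Pt} (h : IsPack s L X) {c : ℝ} (hc : 0 < c) :
    ∃ X' : Finset Pt, X'.card = X.card ∧ IsPack (c * s) (c * L) X' := by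
  classical
  refine ⟨X.image (fun x => c • x), ?_, ?_, ?_⟩
  · apply Finset.card_image_of_injective
    intro x y hxy
    exact smul_right_injective Pt hc.ne' hxy
  · intro x hx
    obtain ⟨y, hy, rfl⟩ := Finset.mem_image.mp hx
    intro k
    have := h.1 y hy k
    simp only [PiLp.smul_apply, smul_eq_mul]
    exact ⟨mul_nonneg hc.le this.1, mul_le_mul_of_nonneg_left this.2 hc.le⟩
  · intro x hx y hy hne
    obtain ⟨x', hx', rfl⟩ := Finset.mem_image.mp hx
    obtain ⟨y', hy', rfl⟩ := Finset.mem_image.mp hy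
    have hne' : x' ≠ y' := fun h => hne (by rw [h])
    rw [dist_smul₀, Real.norm_of_nonneg hc.le]
    exact mul_le_mul_of_nonneg_left (h.2 x' hx' y' hy' hne') hc.le

/-- the corner of the block `b` (blocks of side `l`, corridors of width `1`). -/
noncomputable def shift (l : ℝ) {m : ℕ} (b : Fin 3 → Fin m) : Pt :=
  WithLp.toLp 2 (fun i => ((b i : ℕ) : ℝ) * (l + 1))

theorem shift_apply (l : ℝ) {m : ℕ} (b : Fin 3 → Fin m) (i : Fin 3) :
    shift l b i = ((b i : ℕ) : ℝ) * (l + 1) := rfl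

theorem one_le_dist_shift {l : ℝ} (hl : 0 ≤ l) {m : ℕ} {b b' : Fin 3 → Fin m} (hb : b ≠ b')
    {x y : Pt} (hx : x ∈ cube l) (hy : y ∈ cube l) :
    1 ≤ dist (x + shift l b) (y + shift l b') := by
  obtain ⟨i, hi⟩ : ∃ i, b i ≠ b' i := by
    by_contra hcon
    push Not at hcon
    exact hb (funext hcon)
  refine le_trans ?_ (abs_coord_le_dist _ _ i)
  simp only [PiLp.add_apply, shift_apply]
  have hx' := hx i
  have hy' := hy i
  have hne : ((b i : ℕ)) ≠ ((b' i : ℕ)) := fun h => hi (Fin.ext h)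
  rcases Nat.lt_or_gt_of_ne hne with h | h
  · have h1 : ((b i : ℕ) : ℝ) + 1 ≤ ((b' i : ℕ) : ℝ) := by exact_mod_cast h
    rw [abs_sub_comm]
    refine le_trans ?_ (le_abs_self _)
    nlinarith [hx'.1, hx'.2, hy'.1, hy'.2]
  · have h1 : ((b' i : ℕ) : ℝ) + 1 ≤ ((b i : ℕ) : ℝ) := by exact_mod_cast h
    refine le_trans ?_ (le_abs_self _)
    nlinarith [hx'.1, hx'.2, hy'.1, hy'.2]

/-- `m³` blocks of side `l` separated by corridors of width `1` fit in the cube of side `L`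
when `m (l+1) ≤ L + 1`. -/
theorem packing_blocks {l L : ℝ} (hl : 0 ≤ l) (m : ℕ) (hm : m * (l + 1) ≤ L + 1) :
    m ^ 3 * packingNumber l ≤ packingNumber L := by
  classical
  obtain ⟨X, hc, hX⟩ := exists_isPack l
  set F : Pt × (Fin 3 → Fin m) → Pt := fun p => p.1 + shift l p.2 with hF
  have hinj : Set.InjOn F ((X ×ˢ (Finset.univ : Finset (Fin 3 → Fin m)) : Finset _) : Set _) := by
    rintro ⟨x, b⟩ hxb ⟨y, b'⟩ hyb hxy
    simp only [Finset.coe_product, Set.mem_prod, Finset.mem_coe, Finset.mem_univ, and_true]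
      at hxb hyb
    have hbb : b = b' := by
      by_contra hne
      have := one_le_dist_shift hl hne (hX.1 x hxb) (hX.1 y hyb)
      simp only [hF] at hxy
      rw [hxy, dist_self] at this
      linarith
    subst hbb
    simp only [hF, add_left_inj] at hxy
    rw [hxy]
  have hcard : ((X ×ˢ (Finset.univ : Finset (Fin 3 → Fin m))).image F).card
      = m ^ 3 * packingNumber l := by
    rw [Finset.card_image_of_injOn hinj, Finset.card_product, hc]
    simp [mul_comm]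
  rw [← hcard]
  apply card_le_packingNumber
  constructor
  · intro z hz
    obtain ⟨⟨x, b⟩, hxb, rfl⟩ := Finset.mem_image.mp hz
    simp only [Finset.mem_product, Finset.mem_univ, and_true] at hxb
    intro k
    have hx := hX.1 x hxb k
    simp only [hF, PiLp.add_apply, shift_apply]
    have hb : ((b k : ℕ) : ℝ) + 1 ≤ (m : ℝ) := by exact_mod_cast (b k).2
    have hb0 : (0 : ℝ) ≤ ((b k : ℕ) : ℝ) := Nat.cast_nonneg _
    constructor
    · have : 0 ≤ ((b k : ℕ) : ℝ) * (l + 1) := by positivity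
      linarith [hx.1]
    · nlinarith [hx.2]
  · intro z hz z' hz' hne
    obtain ⟨⟨x, b⟩, hxb, rfl⟩ := Finset.mem_image.mp hz
    obtain ⟨⟨y, b'⟩, hyb, rfl⟩ := Finset.mem_image.mp hz'
    simp only [Finset.mem_product, Finset.mem_univ, and_true] at hxb hyb
    by_cases hbb : b = b'
    · subst hbb
      simp only [hF, dist_add_right]
      apply hX.2 x hxb y hyb
      intro h; apply hne; rw [h]
    · exact one_le_dist_shift hl hbb (hX.1 x hxb) (hX.1 y hyb)

theorem one_le_packingNumber_zero : 1 ≤ packingNumber 0 := by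
  have : IsPack 1 0 ({0} : Finset Pt) := by
    constructor
    · intro x hx
      rw [Finset.mem_singleton] at hx
      subst hx
      intro k
      simp
    · intro x hx y hy hne
      rw [Finset.mem_singleton] at hx hy
      exact absurd (hx.trans hy.symm) hne
  simpa using card_le_packingNumber this

theorem packingNumber_mono {L L' : ℝ} (h : L ≤ L') : packingNumber L ≤ packingNumber L' := by
  obtain ⟨X, hc, hX⟩ := exists_isPack L
  rw [← hc]
  apply card_le_packingNumber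
  exact ⟨fun x hx k => ⟨(hX.1 x hx k).1, (hX.1 x hx k).2.trans h⟩, hX.2⟩

/-- the integer grid. -/
theorem grid_le_packingNumber {L : ℝ} (m : ℕ) (hm : (m : ℝ) ≤ L + 1) : m ^ 3 ≤ packingNumber L := by
  have := packing_blocks (l := 0) (L := L) le_rfl m (by simpa using hm)
  calc m ^ 3 = m ^ 3 * 1 := by ring
    _ ≤ m ^ 3 * packingNumber 0 := Nat.mul_le_mul_left _ one_le_packingNumber_zero
    _ ≤ _ := this

/-- the normalised packing number `N(L)/(L+1)³`. -/
noncomputable def aa (L : ℝ) : ℝ := (packingNumber L : ℝ) / (L + 1) ^ 3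

theorem aa_le_eight {L : ℝ} (hL : 0 ≤ L) : aa L ≤ 8 := by
  have h1 := packingNumber_le_grid L
  have h2 : ((packingNumber L : ℕ) : ℝ) ≤ (((⌊2 * L⌋ + 1).toNat : ℕ) : ℝ) ^ 3 := by exact_mod_cast h1
  have h3 : (0 : ℤ) ≤ ⌊2 * L⌋ + 1 := by
    have : (0 : ℤ) ≤ ⌊2 * L⌋ := Int.floor_nonneg.mpr (by linarith)
    linarith
  have h4 : (((⌊2 * L⌋ + 1).toNat : ℕ) : ℝ) = (⌊2 * L⌋ : ℝ) + 1 := by
    have : (((⌊2 * L⌋ + 1).toNat : ℕ) : ℤ) = ⌊2 * L⌋ + 1 := Int.toNat_of_nonneg h3
    have h5 : ((((⌊2 * L⌋ + 1).toNat : ℕ) : ℤ) : ℝ) = ((⌊2 * L⌋ + 1 : ℤ) : ℝ) := by rw [this]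
    push_cast at h5
    exact h5
  have h5 : (⌊2 * L⌋ : ℝ) + 1 ≤ 2 * (L + 1) := by
    have := Int.floor_le (2 * L); linarith
  have h6 : (0 : ℝ) ≤ (⌊2 * L⌋ : ℝ) + 1 := by exact_mod_cast h3
  have h7 : ((⌊2 * L⌋ : ℝ) + 1) ^ 3 ≤ (2 * (L + 1)) ^ 3 := pow_le_pow_left₀ h6 h5 3
  unfold aa
  rw [div_le_iff₀ (by positivity)]
  rw [h4] at h2
  calc ((packingNumber L : ℕ) : ℝ) ≤ (2 * (L + 1)) ^ 3 := h2.trans h7
    _ = 8 * (L + 1) ^ 3 := by ring

theorem aa_nonneg {L : ℝ} (hL : 0 ≤ L) : 0 ≤ aa L := by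
  unfold aa; positivity

/-- the key lower bound. -/
theorem aa_lower {l L : ℝ} (hl : 0 ≤ l) (hL : l ≤ L) :
    ((L - l) / (L + 1)) ^ 3 * aa l ≤ aa L := by
  set m : ℕ := ⌊(L + 1) / (l + 1)⌋₊ with hm
  have hl1 : 0 < l + 1 := by linarith
  have hL1 : 0 < L + 1 := by linarith
  have h1 : (m : ℝ) ≤ (L + 1) / (l + 1) := Nat.floor_le (by positivity)
  have h2 : (L + 1) / (l + 1) < (m : ℝ) + 1 := Nat.lt_floor_add_one _
  have h1' : (m : ℝ) * (l + 1) ≤ L + 1 := by rwa [le_div_iff₀ hl1] at h1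
  have h2' : L + 1 < ((m : ℝ) + 1) * (l + 1) := by rwa [div_lt_iff₀ hl1] at h2
  have h3 := packing_blocks hl m h1'
  have h3' : (m : ℝ) ^ 3 * (packingNumber l : ℝ) ≤ (packingNumber L : ℝ) := by exact_mod_cast h3
  have h4 : L - l ≤ (m : ℝ) * (l + 1) := by linarith
  have h5 : (L - l) ^ 3 ≤ ((m : ℝ) * (l + 1)) ^ 3 := pow_le_pow_left₀ (by linarith) h4 3
  unfold aa
  rw [div_pow, div_mul_div_comm, div_le_div_iff₀ (by positivity) (by positivity)]
  have hN : (0 : ℝ) ≤ (packingNumber l : ℝ) := Nat.cast_nonneg _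
  calc (L - l) ^ 3 * (packingNumber l : ℝ) * (L + 1) ^ 3
      ≤ ((m : ℝ) * (l + 1)) ^ 3 * (packingNumber l : ℝ) * (L + 1) ^ 3 := by
        apply mul_le_mul_of_nonneg_right _ (by positivity)
        exact mul_le_mul_of_nonneg_right h5 hN
    _ = ((m : ℝ) ^ 3 * (packingNumber l : ℝ)) * ((L + 1) ^ 3 * (l + 1) ^ 3) := by ring
    _ ≤ (packingNumber L : ℝ) * ((L + 1) ^ 3 * (l + 1) ^ 3) :=
        mul_le_mul_of_nonneg_right h3' (by positivity)

theorem tendsto_ratio (l : ℝ) :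
    Filter.Tendsto (fun L : ℝ => (L - l) / (L + 1)) Filter.atTop (nhds 1) := by
  have h1 : Filter.Tendsto (fun L : ℝ => (L + 1)⁻¹) Filter.atTop (nhds 0) :=
    tendsto_inv_atTop_zero.comp (Filter.tendsto_atTop_add_const_right _ 1 Filter.tendsto_id)
  have h2 : Filter.Tendsto (fun L : ℝ => 1 - (l + 1) * (L + 1)⁻¹) Filter.atTop
      (nhds (1 - (l + 1) * 0)) := tendsto_const_nhds.sub (h1.const_mul _)
  rw [mul_zero, sub_zero] at h2
  refine h2.congr' ?_
  filter_upwards [Filter.eventually_gt_atTop (0 : ℝ)] with L hL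
  have : L + 1 ≠ 0 := by linarith
  field_simp
  ring

/-- the packing density. -/
noncomputable def pdens : ℝ := sSup (aa '' Set.Ici 0)

theorem bdd_aa : BddAbove (aa '' Set.Ici 0) := by
  refine ⟨8, ?_⟩
  rintro _ ⟨L, hL, rfl⟩
  exact aa_le_eight hL

theorem aa_le_pdens {L : ℝ} (hL : 0 ≤ L) : aa L ≤ pdens :=
  le_csSup bdd_aa ⟨L, hL, rfl⟩

theorem one_le_pdens : 1 ≤ pdens := by
  refine le_trans ?_ (aa_le_pdens (le_refl 0))
  unfold aa
  have : (1 : ℝ) ≤ (packingNumber 0 : ℝ) := by exact_mod_cast one_le_packingNumber_zero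
  simpa using this

theorem tendsto_aa : Filter.Tendsto aa Filter.atTop (nhds pdens) := by
  rw [tendsto_order]
  constructor
  · intro q hq
    have hne : (aa '' Set.Ici 0).Nonempty := ⟨aa 0, 0, le_refl (0 : ℝ), rfl⟩
    obtain ⟨_, ⟨l, hl, rfl⟩, hql⟩ := exists_lt_of_lt_csSup hne hq
    have hl' : (0 : ℝ) ≤ l := hl
    have h1 : Filter.Tendsto (fun L : ℝ => ((L - l) / (L + 1)) ^ 3 * aa l) Filter.atTop
        (nhds (1 ^ 3 * aa l)) := ((tendsto_ratio l).pow 3).mul_const _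
    rw [one_pow, one_mul] at h1
    filter_upwards [(tendsto_order.1 h1).1 q hql, Filter.eventually_ge_atTop l] with L h2 h3
    exact lt_of_lt_of_le h2 (aa_lower hl' h3)
  · intro q hq
    filter_upwards [Filter.eventually_ge_atTop (0 : ℝ)] with L hL
    exact lt_of_le_of_lt (aa_le_pdens hL) hq

theorem tendsto_packing :
    Filter.Tendsto (fun L : ℝ => (packingNumber L : ℝ) / L ^ 3) Filter.atTop (nhds pdens) := by
  have h1 : Filter.Tendsto (fun L : ℝ => 1 + L⁻¹) Filter.atTop (nhds 1) := by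
    have h0 : Filter.Tendsto (fun L : ℝ => L⁻¹) Filter.atTop (nhds 0) := tendsto_inv_atTop_zero
    have h2 : Filter.Tendsto (fun L : ℝ => 1 + L⁻¹) Filter.atTop (nhds (1 + 0)) :=
      tendsto_const_nhds.add h0
    rwa [add_zero] at h2
  have h2 : Filter.Tendsto (fun L : ℝ => aa L * (1 + L⁻¹) ^ 3) Filter.atTop
      (nhds (pdens * 1 ^ 3)) := tendsto_aa.mul (h1.pow 3)
  rw [one_pow, mul_one] at h2
  refine h2.congr' ?_
  filter_upwards [Filter.eventually_gt_atTop (0 : ℝ)] with L hL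
  have h3 : L ≠ 0 := hL.ne'
  have h4 : L + 1 ≠ 0 := by linarith
  have h5 : 1 + L⁻¹ = (L + 1) / L := by field_simp
  unfold aa
  rw [h5, div_pow]
  have h6 : (L + 1) ^ 3 ≠ 0 := pow_ne_zero 3 h4
  have h7 : L ^ 3 ≠ 0 := pow_ne_zero 3 h3
  field_simp

/-- `N(L) ≤ p (L+1)³`. -/
theorem packingNumber_le_pdens {L : ℝ} (hL : 0 ≤ L) :
    (packingNumber L : ℝ) ≤ pdens * (L + 1) ^ 3 := by
  have := aa_le_pdens hL
  unfold aa at this
  rwa [div_le_iff₀ (by positivity)] at this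

end Pack

open Pack

theorem packing_limit : ∃ p : ℝ, 1 ≤ p ∧
    Filter.Tendsto (fun L : ℝ => (packingNumber L : ℝ) / L ^ 3) Filter.atTop (nhds p) :=
  ⟨pdens, one_le_pdens, tendsto_packing⟩

/-- separated point sets at separation `s` in the cube of side `L` have at most
`packingNumber (L/s)` points -/
theorem card_le_packing {s L : ℝ} (hs : 0 < s) (X : Finset Pt) (hX : ∀ x ∈ X, x ∈ cube L)
    (hsep : ∀ x ∈ X, ∀ y ∈ X, x ≠ y → s ≤ dist x y) : X.card ≤ packingNumber (L / s) := by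
  have h : IsPack s L X := ⟨hX, hsep⟩
  obtain ⟨X', hc, hX'⟩ := h.smul (inv_pos.mpr hs)
  rw [inv_mul_cancel₀ hs.ne', inv_mul_eq_div] at hX'
  rw [← hc]
  exact card_le_packingNumber hX'

theorem exists_packing {s L : ℝ} (hs : 0 < s) (_hL : 0 ≤ L) : ∃ X : Finset Pt,
    X.card = packingNumber (L / s) ∧ (∀ x ∈ X, x ∈ cube L) ∧
    ∀ x ∈ X, ∀ y ∈ X, x ≠ y → s ≤ dist x y := by
  obtain ⟨X, hc, hX⟩ := exists_isPack (L / s)
  obtain ⟨X', hc', hX'⟩ := hX.smul hs
  rw [mul_one, mul_div_cancel₀ _ hs.ne'] at hX'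
  exact ⟨X', hc'.trans hc, hX'.1, hX'.2⟩

end Crest.Agent.S0209

/-- Realise the auto-generated equation lemmas once, in this (defining / root) module, so that
sibling modules of one import closure do not each create their own copy of the same name. -/
theorem Crest.Agent.S0209.eqns_realised_Packing : True := by
  have := @Crest.Agent.S0209.Pack.IsPack.eq_1
  have := @Crest.Agent.S0209.Pack.aa.eq_1
  have := @Crest.Agent.S0209.Pack.shift.eq_1
  have := @Crest.Agent.S0209.Pack.pdens.eq_1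
  trivial
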