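import Crest.Agent.S0209_BaseLowA
import Crest.Agent.S0209_Packing
import Crest.Agent.S0209_Insert

/-!
# ROW 149, package E (base lower bound), part B: greedy roots and the pointwise bound (E1)
-/

set_option autoImplicit false
namespace Crest.Agent.S0209
namespace BaseLow
open Crest.ProbabilityR.Continuum Finset

/-- greedy roots, from the top index downwards. -/
lemma exists_roots_aux {ι : Type*} [LinearOrder ι] {X : Type*} [PseudoMetricSpace X]
    (x : ι → X) (t : ℝ) (ht : 0 ≤ t) (s : Finset ι) :
    ∃ (R : Finset ι) (ρ : ι → ι), R ⊆ s ∧ (∀ i ∈ s, ρ i ∈ R) ∧ (∀ r ∈ R, ρ r = r) ∧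
      (∀ i ∈ s, dist (x i) (x (ρ i)) ≤ t) ∧
      (∀ r ∈ R, ∀ r' ∈ R, r ≠ r' → t < dist (x r) (x r')) ∧ (∀ i ∈ s, i ∉ R → i < ρ i) := by
  classical
  induction s using Finset.induction_on_min with
  | empty => exact ⟨∅, id, by simp, by simp, by simp, by simp, by simp, by simp⟩
  | insert a s has ih =>
    obtain ⟨R, ρ, hRs, h1, h2, h3, h4, h5⟩ := ih
    have hane : ∀ i ∈ s, i ≠ a := fun i hi => (has i hi).ne'
    by_cases hex : ∃ r ∈ R, dist (x a) (x r) ≤ t
    · obtain ⟨r, hr, hdr⟩ := hex
      refine ⟨R, Function.update ρ a r, hRs.trans (subset_insert _ _), ?_, ?_, ?_, h4, ?_⟩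
      · intro i hi
        rcases mem_insert.1 hi with rfl | hi
        · simpa using hr
        · rw [Function.update_of_ne (hane i hi)]; exact h1 i hi
      · intro r' hr'
        rw [Function.update_of_ne (hane r' (hRs hr'))]; exact h2 r' hr'
      · intro i hi
        rcases mem_insert.1 hi with rfl | hi
        · simpa using hdr
        · rw [Function.update_of_ne (hane i hi)]; exact h3 i hi
      · intro i hi hiR
        rcases mem_insert.1 hi with rfl | hi
        · simpa using has r (hRs hr)
        · rw [Function.update_of_ne (hane i hi)]; exact h5 i hi hiR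
    · push Not at hex
      refine ⟨insert a R, Function.update ρ a a, insert_subset_insert _ hRs, ?_, ?_, ?_, ?_, ?_⟩
      · intro i hi
        rcases mem_insert.1 hi with rfl | hi
        · simp
        · rw [Function.update_of_ne (hane i hi)]; exact mem_insert_of_mem (h1 i hi)
      · intro r' hr'
        rcases mem_insert.1 hr' with rfl | hr'
        · simp
        · rw [Function.update_of_ne (hane r' (hRs hr'))]; exact h2 r' hr'
      · intro i hi
        rcases mem_insert.1 hi with rfl | hi
        · simpa using ht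
        · rw [Function.update_of_ne (hane i hi)]; exact h3 i hi
      · intro r hr r' hr' hne
        rcases mem_insert.1 hr with hra | hrR
        · rcases mem_insert.1 hr' with hra' | hrR'
          · exact absurd (hra.trans hra'.symm) hne
          · rw [hra]; exact hex r' hrR'
        · rcases mem_insert.1 hr' with hra' | hrR'
          · rw [hra', dist_comm]; exact hex r hrR
          · exact h4 r hrR r' hrR' hne
      · intro i hi hiR
        rcases mem_insert.1 hi with rfl | hi
        · exact absurd (mem_insert_self _ _) hiR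
        · rw [Function.update_of_ne (hane i hi)]
          exact h5 i hi fun h => hiR (mem_insert_of_mem h)

lemma exists_roots {ι : Type*} [LinearOrder ι] [Fintype ι] {X : Type*} [PseudoMetricSpace X]
    (x : ι → X) (t : ℝ) (ht : 0 ≤ t) :
    ∃ (R : Finset ι) (ρ : ι → ι), (∀ i, ρ i ∈ R) ∧ (∀ r ∈ R, ρ r = r) ∧
      (∀ i, dist (x i) (x (ρ i)) ≤ t) ∧
      (∀ r ∈ R, ∀ r' ∈ R, r ≠ r' → t < dist (x r) (x r')) ∧ (∀ i, i ∉ R → i < ρ i) := by
  obtain ⟨R, ρ, -, h1, h2, h3, h4, h5⟩ := exists_roots_aux x t ht univ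
  exact ⟨R, ρ, fun i => h1 i (mem_univ _), h2, fun i => h3 i (mem_univ _), h4,
    fun i => h5 i (mem_univ _)⟩

/-- the energy as half the sum over ordered pairs. -/
lemma energy_eq_half (φ : ℝ → ℝ) {n : ℕ} (x : Fin n → Pt) :
    energy φ x = (1 / 2) * ∑ i : Fin n, ∑ j : Fin n, (if i ≠ j then φ (dist (x i) (x j)) else 0) := by
  have h1 := Ins.energy_eq_double φ x
  have h2 : energy φ x = ∑ i : Fin n, ∑ j : Fin n, if j < i then φ (dist (x i) (x j)) else 0 := by
    rw [h1, Finset.sum_comm]
    refine Finset.sum_congr rfl fun i _ => Finset.sum_congr rfl fun j _ => ?_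
    rw [dist_comm]
  have h3 : ∑ i : Fin n, ∑ j : Fin n, (if i ≠ j then φ (dist (x i) (x j)) else 0)
      = energy φ x + energy φ x := by
    nth_rewrite 1 [h1]
    rw [h2, ← Finset.sum_add_distrib]
    refine Finset.sum_congr rfl fun i _ => ?_
    rw [← Finset.sum_add_distrib]
    refine Finset.sum_congr rfl fun j _ => ?_
    rcases lt_trichotomy i j with h | h | h
    · simp [h, h.ne, h.le.not_gt]
    · simp [h]
    · simp [h, h.ne', h.le.not_gt]
  rw [h3]; ring

/-- (E1), real form: for every configuration in the cube there is a set `R` of roots such that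
every non-root has a later particle within `2a` and the energy bound holds. -/
theorem exists_roots_energy {q0 : ℝ → ℝ} {e0 e1 a b1 : ℝ} (h0 : ∀ r, 0 ≤ q0 r)
    (h1 : ∀ r, 0 ≤ r → r ≤ b1 → e0 ≤ q0 r) (h2 : ∀ r, a < r → r ≤ b1 → e1 ≤ q0 r)
    (he01 : e0 ≤ e1) (ha : 0 < a) (hab : 4 * a < b1)
    {β Lam : ℝ} (hβ : 0 ≤ β) (hcond : Lam ≤ 3 / 2 * (β * (e1 - e0)))
    {ν P l : ℝ} (hP0 : 0 ≤ P)
    (hP : ∀ j : ℕ, 1 ≤ j → ν * j - hmin (β * e1) (β * e0) Lam j ≤ P) {n : ℕ}
    (x : Fin n → Pt) (hx : ∀ i, x i ∈ cube l) :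
    ∃ R : Finset (Fin n), (∀ i, i ∉ R → ∃ j, i < j ∧ dist (x i) (x j) ≤ 2 * a) ∧
      ν * n - packingNumber (l / (b1 - 4 * a)) * P ≤
        β * energy q0 x + Lam * ((n : ℝ) - R.card) := by
  classical
  obtain ⟨R, ρ, hρR, hρr, hd, hsep, hlt⟩ := exists_roots x (2 * a) (by positivity)
  refine ⟨R, fun i hi => ⟨ρ i, hlt i hi, hd i⟩, ?_⟩
  have hb2 : 0 < b1 - 4 * a := by linarith
  let G : SimpleGraph (Fin n) :=
    { Adj := fun i j => i ≠ j ∧ dist (x i) (x j) ≤ b1 - 4 * a
      symm := ⟨fun i j h => ⟨h.1.symm, by rw [dist_comm]; exact h.2⟩⟩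
      loopless := ⟨fun i h => h.1 rfl⟩ }
  have hcl : ∀ i j, close ρ G i j → dist (x i) (x j) ≤ b1 := by
    intro i j h
    have hi := hd i
    have hj := hd j
    rw [dist_comm] at hj
    rcases h with h | h
    · have := dist_triangle (x i) (x (ρ i)) (x j)
      rw [h] at this hi
      linarith
    · have t1 := dist_triangle (x i) (x (ρ i)) (x j)
      have t2 := dist_triangle (x (ρ i)) (x (ρ j)) (x j)
      have := h.2
      linarith
  have hzy : β * e0 + β * (e1 - e0) = β * e1 := by ring
  have hP' : ∀ j : ℕ, 1 ≤ j → ν * j - hmin (β * e0 + β * (e1 - e0)) (β * e0) Lam j ≤ P := by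
    rw [hzy]; exact hP
  have main := abstract_main (R := R) (ρ := ρ) G (fun i j => a < dist (x i) (x j))
    (z := β * e0) (y := β * (e1 - e0)) (Lam := Lam) (ν := ν) (P := P)
    (mul_nonneg hβ (by linarith)) hcond hP0 hP' (fun i j => β * q0 (dist (x i) (x j)))
    hρR hρr (fun i j => mul_nonneg hβ (h0 _)) (fun i j => by rw [dist_comm])
    (fun i j _ h => mul_le_mul_of_nonneg_left (h1 _ dist_nonneg (hcl i j h)) hβ)
    (fun i j _ h hf => by
      rw [hzy]; exact mul_le_mul_of_nonneg_left (h2 _ hf (hcl i j h)) hβ)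
    (fun r hr r' hr' hne => by have := hsep r hr r' hr' hne; linarith)
    (fun p r hr r' hr' hf hf' => by
      by_contra hne
      have := hsep r hr r' hr' hne
      have t := dist_triangle (x r) (x p) (x r')
      rw [dist_comm (x r) (x p)] at t
      simp only [not_lt] at hf hf'
      linarith)
    (packingNumber (l / (b1 - 4 * a)))
    (fun S hSR hind => by
      have hinj : Set.InjOn x (S : Set (Fin n)) := by
        intro u hu v hv huv
        by_contra hne
        have := hsep u (hSR hu) v (hSR hv) hne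
        rw [huv, dist_self] at this
        linarith
      rw [← Finset.card_image_of_injOn hinj]
      refine card_le_packing hb2 (S.image x) ?_ ?_
      · intro p hp
        obtain ⟨u, _, rfl⟩ := Finset.mem_image.1 hp
        exact hx u
      · intro p hp p' hp' hne
        obtain ⟨u, hu, rfl⟩ := Finset.mem_image.1 hp
        obtain ⟨v, hv, rfl⟩ := Finset.mem_image.1 hp'
        have huv : u ≠ v := fun h => hne (by rw [h])
        have := hind u hu v hv huv
        by_contra hlt'
        exact this ⟨huv, (not_le.1 hlt').le⟩)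
  rw [Fintype.card_fin] at main
  have hen : (1 / 2 : ℝ) * ∑ i : Fin n, ∑ j : Fin n,
      (if i ≠ j then β * q0 (dist (x i) (x j)) else 0) = β * energy q0 x := by
    rw [energy_eq_half]
    have : ∀ i j : Fin n, (if i ≠ j then β * q0 (dist (x i) (x j)) else 0)
        = β * (if i ≠ j then q0 (dist (x i) (x j)) else 0) := by
      intro i j; split_ifs <;> simp
    simp only [this, ← Finset.mul_sum]
    ring
  rw [hen] at main
  exact main

end BaseLow
end Crest.Agent.S0209
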