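import Crest.Agent.S0209_Defs

/-!
# ROW 149, package E (base lower bound): definitions
-/

set_option autoImplicit false
namespace Crest.Agent.S0209
open Crest.ProbabilityR.Continuum MeasureTheory

/-- per-site cost: min(loose, tight) -/
noncomputable def hmin (x z Lam : ℝ) (j : ℕ) : ℝ :=
  min (x * (j * (j - 1) / 2)) (z * (j * (j - 1) / 2) + Lam * (j - 1))

namespace BaseLow

/-- weight dominating `exp (Lam * #attached)`: particle `i` pays
`1 + e^Lam * #{j > i : |x_i - x_j| ≤ 2a}`. -/
noncomputable def attW (a Lam : ℝ) {n : ℕ} (x : Fin n → Pt) : ENNReal :=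
  ∏ i : Fin n, (1 + ENNReal.ofReal (Real.exp Lam) *
    ∑ j : Fin n, if i < j ∧ dist (x i) (x j) ≤ 2 * a then (1 : ENNReal) else 0)

end BaseLow
end Crest.Agent.S0209

/-- Realise the auto-generated equation lemmas once, in this (defining / root) module, so that
sibling modules of one import closure do not each create their own copy of the same name. -/
theorem Crest.Agent.S0209.eqns_realised_BaseLowDefs : True := by
  have := @Crest.Agent.S0209.hmin.eq_1
  have := @Crest.Agent.S0209.BaseLow.attW.eq_1
  trivial
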