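import Crest.Agent.S0209_Blocks

/-!
# ROW 149, package F (common part): product of partition functions of small balls
-/

set_option autoImplicit false
namespace Crest.Agent.S0209
open Crest.ProbabilityR.Continuum MeasureTheory

namespace BUp

theorem abs_coord_sub_le (x y : Pt) (i : Fin 3) : |x i - y i| ≤ dist x y := by
  rw [dist_eq_norm, ← Real.norm_eq_abs]
  exact PiLp.norm_apply_le (x - y) i

theorem volume_closedBall_eq (x : Pt) {r : ℝ} (hr : 0 ≤ r) :
    volume (Metric.closedBall x r) = ENNReal.ofReal (vb r) := by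
  rw [EuclideanSpace.volume_closedBall_fin_three, ← ENNReal.ofReal_pow hr,
    ← ENNReal.ofReal_mul (by positivity)]
  congr 1
  unfold vb
  ring

theorem vb_pos {r : ℝ} (hr : 0 < r) : 0 < vb r := by
  unfold vb
  positivity

end BUp

/-- Common step of the base upper bounds: balls of radius `δ` around `(1+2δ)`-separated centres. -/
theorem Z_ge_prod_balls {q0 : ℝ → ℝ} {B δ l β : ℝ} (hq : Good q0 B)
    (hzero : ∀ r, 1 ≤ r → q0 r ≤ 0) (hβ : 0 ≤ β)
    (X : Finset Pt) (hX : ∀ y ∈ X, ∀ i, δ ≤ y i ∧ y i ≤ l - δ)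
    (hsep : ∀ y ∈ X, ∀ y' ∈ X, y ≠ y' → 1 + 2 * δ ≤ dist y y') (j : ℕ) :
    ∏ y ∈ X, Zg (rad q0) (Metric.closedBall y δ) j β ≤ partitionFn q0 l (j * X.card) β := by
  classical
  have hfar : ∀ c c' : X, c ≠ c' → ∀ x ∈ Metric.closedBall (c : Pt) δ,
      ∀ x' ∈ Metric.closedBall (c' : Pt) δ, 1 ≤ dist x x' := by
    intro c c' hc x hx x' hx'
    have h1 := hsep c c.2 c' c'.2 (fun h => hc (Subtype.ext h))
    have h2 : dist (c : Pt) c' ≤ dist (c : Pt) x + dist x x' + dist x' c' := dist_triangle4 _ _ _ _
    rw [Metric.mem_closedBall] at hx hx'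
    rw [dist_comm] at hx
    linarith
  have key := Zg_cells_pair (C := X) (fun _ => j) (rad q0) (Blk.rad_symm q0) (fun _ => rad q0)
    (fun _ => Blk.rad_symm q0) (fun _ _ => 0) (fun c => Metric.closedBall (c : Pt) δ) (cube l)
    (fun c => measurableSet_closedBall)
    (fun c c' hc => Set.disjoint_left.2 fun x hx hx' => by
      have := hfar c c' hc x hx x hx'
      rw [dist_self] at this
      linarith)
    (fun c x hx i => by
      have h1 := hX c c.2 i
      have h2 := BUp.abs_coord_sub_le x c i
      rw [Metric.mem_closedBall] at hx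
      have h3 := abs_le.1 (h2.trans hx)
      constructor <;> linarith [h3.1, h3.2])
    (Blk.measurableSet_cube l) hβ
    (fun _ _ _ _ _ => le_rfl)
    (fun c c' hc x hx y hy => hzero _ (hfar c c' hc x hx y hy))
    (Blk.integrableOn_exp_En (Blk.measurable_rad hq.meas) (Blk.volume_cube_ne_top l) _ hβ
      (B * (∑ _c : X, j : ℕ)) (fun x => by
        have := hq.stable _ x
        rw [energy_eq_En] at this
        linarith))
  simp only [mul_zero, ite_self, Finset.sum_const_zero, neg_zero, Real.exp_zero, one_mul] at key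
  have hN : ∑ _c : X, j = j * X.card := by simp [mul_comm]
  rw [hN] at key
  rw [partitionFn_eq_Zg]
  refine le_trans (le_of_eq ?_) key
  exact (Finset.prod_coe_sort X (fun y => Zg (rad q0) (Metric.closedBall y δ) j β)).symm

end Crest.Agent.S0209
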