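import Crest.Agent.S0209_BaseUpT

/-!
# ROW 149, package F: `base_upper_loose`
-/

set_option autoImplicit false
namespace Crest.Agent.S0209
open Crest.ProbabilityR.Continuum MeasureTheory

namespace BUp

/-- centres of the two small balls of the loose pair -/
noncomputable def lvec (δ : ℝ) (i : Fin 2) : Pt :=
  EuclideanSpace.single (0 : Fin 3) (if i = 0 then -(δ / 2) else δ / 2)

theorem norm_lvec {δ : ℝ} (hδ : 0 ≤ δ) (i : Fin 2) : ‖lvec δ i‖ = δ / 2 := by
  unfold lvec
  rw [EuclideanSpace.norm_single, Real.norm_eq_abs]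
  split_ifs
  · rw [abs_neg, abs_of_nonneg (by linarith)]
  · rw [abs_of_nonneg (by linarith)]

theorem norm_lvec_sub {δ : ℝ} (hδ : 0 ≤ δ) {i i' : Fin 2} (h : i ≠ i') :
    δ ≤ ‖lvec δ i - lvec δ i'‖ := by
  have h1 := PiLp.norm_apply_le (lvec δ i - lvec δ i') 0
  rw [Real.norm_eq_abs] at h1
  refine le_trans ?_ h1
  have h2 : ∀ k : Fin 2, lvec δ k 0 = if k = 0 then -(δ / 2) else δ / 2 := by
    intro k; simp [lvec]
  rw [PiLp.sub_apply, h2, h2]
  by_cases hi : i = 0
  · have hi' : i' ≠ 0 := fun e => h (hi.trans e.symm)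
    rw [if_pos hi, if_neg hi', abs_sub_comm]
    refine le_trans ?_ (le_abs_self _)
    linarith
  · have hi' : i' = 0 := by omega
    rw [if_neg hi, if_pos hi']
    refine le_trans ?_ (le_abs_self _)
    linarith

/-- one-ball loose bound -/
theorem Zg_ball_loose {q0 : ℝ → ℝ} {B e1 r0 δ β : ℝ} (hq : Good q0 B)
    (hup : ∀ r, r0 ≤ r → q0 r ≤ e1)
    (hδ : 0 < δ) (hr0 : r0 ≤ δ / 2) (hβ : 0 ≤ β) (y : Pt) :
    Real.exp (-(β * e1)) * (1 / (Nat.factorial 2 : ℝ)) * (vb (δ / 8) ^ 2)
      ≤ Zg (rad q0) (Metric.closedBall y δ) 2 β := by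
  have hv := vb_pos (r := δ / 8) (by linarith)
  refine Zg_ge_of_trial hβ ?_
    (Set.pi Set.univ fun i : Fin 2 => Metric.closedBall (y + lvec δ i) (δ / 8))
    (MeasurableSet.univ_pi fun i => measurableSet_closedBall) ?_ (by positivity) ?_ ?_
  · refine Blk.integrableOn_exp_En (Blk.measurable_rad hq.meas) ?_ _ hβ (B * (2 : ℕ))
      (fun x => by
        have := hq.stable _ x
        rw [energy_eq_En] at this
        linarith)
    rw [volume_closedBall_eq _ hδ.le]
    exact ENNReal.ofReal_ne_top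
  · intro x hx i _
    have h1 := hx i (Set.mem_univ i)
    rw [Metric.mem_closedBall] at h1 ⊢
    have h2 : dist (y + lvec δ i) y = δ / 2 := by
      rw [dist_self_add_left, norm_lvec hδ.le]
    have h3 := dist_triangle (x i) (y + lvec δ i) y
    linarith
  · rw [volume_pi_pi]
    simp only [volume_closedBall_eq _ (by linarith : (0:ℝ) ≤ δ / 8), Finset.prod_const,
      Finset.card_univ, Fintype.card_fin]
    rw [ENNReal.ofReal_pow hv.le]
  · intro x hx
    rw [Blk.En_eq_Eo _ (Blk.rad_symm q0)]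
    have := Eo_le_const (V := rad q0) (e := e1) x (fun i i' hii => by
      refine hup _ ?_
      have h1 := hx i (Set.mem_univ i)
      have h1' := hx i' (Set.mem_univ i')
      rw [Metric.mem_closedBall] at h1 h1'
      have h2 : dist (y + lvec δ i) (y + lvec δ i') = ‖lvec δ i - lvec δ i'‖ := by
        rw [dist_add_left, dist_eq_norm]
      have h3 := norm_lvec_sub hδ.le hii
      have h4 := dist_triangle4 (y + lvec δ i) (x i) (x i') (y + lvec δ i')
      rw [dist_comm (y + lvec δ i) (x i)] at h4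
      linarith)
    simp only [Fintype.card_fin] at this
    norm_num at this
    exact this

end BUp

theorem base_upper_loose {q0 : ℝ → ℝ} {B e1 r0 δ l β : ℝ} (hq : Good q0 B)
    (hup : ∀ r, r0 ≤ r → q0 r ≤ e1) (hzero : ∀ r, 1 ≤ r → q0 r ≤ 0)
    (hδ : 0 < δ) (hr0 : r0 ≤ δ / 2) (hβ : 0 ≤ β)
    (X : Finset Pt) (hX : ∀ y ∈ X, ∀ i, δ ≤ y i ∧ y i ≤ l - δ)
    (hsep : ∀ y ∈ X, ∀ y' ∈ X, y ≠ y' → 1 + 2 * δ ≤ dist y y') :
    -(X.card : ℝ) * (β * e1 + Real.log 2 - 2 * Real.log (vb (δ / 8)))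
      ≤ Real.log (partitionFn q0 l (2 * X.card) β) := by
  have hv := BUp.vb_pos (r := δ / 8) (by linarith)
  set c : ℝ := Real.exp (-(β * e1)) * (1 / (Nat.factorial 2 : ℝ)) * (vb (δ / 8) ^ 2) with hc
  have hcpos : 0 < c := by positivity
  have h1 : c ^ X.card ≤ partitionFn q0 l (2 * X.card) β := by
    refine le_trans ?_ (Z_ge_prod_balls hq hzero hβ X hX hsep 2)
    rw [← Finset.prod_const]
    exact Finset.prod_le_prod (fun _ _ => hcpos.le)
      (fun y _ => BUp.Zg_ball_loose hq hup hδ hr0 hβ y)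
  have h2 := Real.log_le_log (pow_pos hcpos _) h1
  refine le_trans (le_of_eq ?_) h2
  rw [Real.log_pow, hc, Real.log_mul (by positivity) (by positivity),
    Real.log_mul (by positivity) (by positivity), Real.log_exp,
    Real.log_pow, one_div, Real.log_inv]
  norm_num
  ring

end Crest.Agent.S0209
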