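import Crest.Agent.S0209_BaseUpC

/-!
# ROW 149, package F: `base_upper_tight`
-/

set_option autoImplicit false
namespace Crest.Agent.S0209
open Crest.ProbabilityR.Continuum MeasureTheory

namespace BUp

/-- volume of a "comb": first particle in a ball, the others in balls around shifted copies of the
first one -/
theorem volume_comb (y : Pt) {ρ r : ℝ} (hρ : 0 ≤ ρ) (hr : 0 ≤ r) (k : ℕ) (c : Fin k → Pt) :
    volume {x : Fin (k + 1) → Pt | x 0 ∈ Metric.closedBall y ρ ∧
        ∀ m : Fin k, x m.succ ∈ Metric.closedBall (x 0 + c m) r}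
      = ENNReal.ofReal (vb ρ) * ENNReal.ofReal (vb r) ^ k := by
  set S' : Set (Pt × (Fin k → Pt)) := {p | p.1 ∈ Metric.closedBall y ρ ∧
        ∀ m : Fin k, p.2 m ∈ Metric.closedBall (p.1 + c m) r} with hS'
  have hpre : {x : Fin (k + 1) → Pt | x 0 ∈ Metric.closedBall y ρ ∧
        ∀ m : Fin k, x m.succ ∈ Metric.closedBall (x 0 + c m) r}
      = (MeasurableEquiv.piFinSuccAbove (fun _ : Fin (k + 1) => Pt) 0) ⁻¹' S' := by
    ext x
    simp [hS', MeasurableEquiv.piFinSuccAbove, Fin.insertNthEquiv, Fin.tail]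
  rw [hpre, (volume_preserving_piFinSuccAbove (fun _ : Fin (k + 1) => Pt) 0).measure_preimage_equiv]
  have hcl : IsClosed S' := by
    have : S' = {p : Pt × (Fin k → Pt) | dist p.1 y ≤ ρ} ∩
        ⋂ m : Fin k, {p : Pt × (Fin k → Pt) | dist (p.2 m) (p.1 + c m) ≤ r} := by
      ext p; simp [hS', Metric.mem_closedBall]
    rw [this]
    refine IsClosed.inter (isClosed_le (by fun_prop) continuous_const)
      (isClosed_iInter fun m => isClosed_le (by fun_prop) continuous_const)
  rw [show (volume : Measure (Pt × (Fin k → Pt))) = (volume : Measure Pt).prod volume from rfl,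
    Measure.prod_apply hcl.measurableSet]
  have hsec : ∀ x : Pt, volume (Prod.mk x ⁻¹' S')
      = (Metric.closedBall y ρ).indicator (fun _ => ENNReal.ofReal (vb r) ^ k) x := by
    intro x
    by_cases hx : x ∈ Metric.closedBall y ρ
    · rw [Set.indicator_of_mem hx]
      have : Prod.mk x ⁻¹' S' = Set.pi Set.univ fun m : Fin k => Metric.closedBall (x + c m) r := by
        ext z; simp [hS', Set.mem_pi, Metric.mem_closedBall.1 hx]
      rw [this, volume_pi_pi]
      simp [volume_closedBall_eq _ hr]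
    · rw [Set.indicator_of_notMem hx]
      have : Prod.mk x ⁻¹' S' = ∅ := by
        ext z
        simp only [hS', Set.mem_preimage, Set.mem_ofPred_eq, Set.mem_empty_iff_false, iff_false,
          not_and]
        exact fun h => absurd h hx
      rw [this, measure_empty]
  simp_rw [hsec]
  rw [lintegral_indicator_const measurableSet_closedBall, volume_closedBall_eq _ hρ, mul_comm]

/-- displacement vectors of the tight cluster -/
noncomputable def cvec (a0 : ℝ) (m : Fin 3) : Pt := EuclideanSpace.single m (a0 / 4)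

theorem norm_cvec {a0 : ℝ} (ha0 : 0 ≤ a0) (m : Fin 3) : ‖cvec a0 m‖ = a0 / 4 := by
  unfold cvec
  rw [EuclideanSpace.single, PiLp.norm_single, Real.norm_eq_abs, abs_of_nonneg (by linarith)]

theorem norm_cvec_sub_ge {a0 : ℝ} (ha0 : 0 ≤ a0) {m m' : Fin 3} (h : m ≠ m') :
    a0 / 4 ≤ ‖cvec a0 m - cvec a0 m'‖ := by
  have h1 := PiLp.norm_apply_le (cvec a0 m - cvec a0 m') m
  have h2 : (cvec a0 m - cvec a0 m') m = a0 / 4 := by
    simp [cvec, h]
  rw [h2, Real.norm_eq_abs, abs_of_nonneg (by linarith)] at h1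
  exact h1

theorem norm_cvec_sub_le {a0 : ℝ} (ha0 : 0 ≤ a0) (m m' : Fin 3) :
    ‖cvec a0 m - cvec a0 m'‖ ≤ a0 / 2 := by
  have := norm_sub_le (cvec a0 m) (cvec a0 m')
  rw [norm_cvec ha0, norm_cvec ha0] at this
  linarith

/-- the tight trial set -/
def Tset (y : Pt) (δ a0 : ℝ) (k : ℕ) (hk : k ≤ 3) : Set (Fin (k + 1) → Pt) :=
  {x | x 0 ∈ Metric.closedBall y (δ / 2) ∧
    ∀ m : Fin k, x m.succ ∈ Metric.closedBall (x 0 + cvec a0 (Fin.castLE hk m)) (a0 / 16)}

theorem Tset_dist {y : Pt} {δ a0 : ℝ} (ha0 : 0 < a0) {k : ℕ} {hk : k ≤ 3}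
    {x : Fin (k + 1) → Pt} (hx : x ∈ Tset y δ a0 k hk) {i i' : Fin (k + 1)} (h : i ≠ i') :
    a0 / 8 ≤ dist (x i) (x i') ∧ dist (x i) (x i') ≤ a0 := by
  have h0 : ∀ m : Fin k, a0 / 8 ≤ dist (x 0) (x m.succ) ∧ dist (x 0) (x m.succ) ≤ a0 := by
    intro m
    have h1 := Metric.mem_closedBall.1 (hx.2 m)
    have h2 : dist (x 0) (x 0 + cvec a0 (Fin.castLE hk m)) = a0 / 4 := by
      rw [dist_self_add_right, norm_cvec ha0.le]
    have h3 := dist_triangle (x 0) (x 0 + cvec a0 (Fin.castLE hk m)) (x m.succ)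
    have h4 := dist_triangle (x 0) (x m.succ) (x 0 + cvec a0 (Fin.castLE hk m))
    rw [dist_comm (x 0 + cvec a0 (Fin.castLE hk m)) (x m.succ)] at h3
    constructor <;> linarith
  induction i using Fin.cases with
  | zero =>
    induction i' using Fin.cases with
    | zero => exact absurd rfl h
    | succ m' => exact h0 m'
  | succ m =>
    induction i' using Fin.cases with
    | zero => rw [dist_comm]; exact h0 m
    | succ m' =>
      have hmm : Fin.castLE hk m ≠ Fin.castLE hk m' := by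
        intro hc
        exact h (congrArg Fin.succ (Fin.castLE_injective hk hc))
      have h1 := Metric.mem_closedBall.1 (hx.2 m)
      have h1' := Metric.mem_closedBall.1 (hx.2 m')
      have h2 : dist (x 0 + cvec a0 (Fin.castLE hk m)) (x 0 + cvec a0 (Fin.castLE hk m'))
          = ‖cvec a0 (Fin.castLE hk m) - cvec a0 (Fin.castLE hk m')‖ := by
        rw [dist_add_left, dist_eq_norm]
      have h3 := norm_cvec_sub_ge ha0.le hmm
      have h4 := norm_cvec_sub_le ha0.le (Fin.castLE hk m) (Fin.castLE hk m')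
      have h5 := dist_triangle4 (x m.succ) (x 0 + cvec a0 (Fin.castLE hk m))
        (x 0 + cvec a0 (Fin.castLE hk m')) (x m'.succ)
      have h6 := dist_triangle4 (x 0 + cvec a0 (Fin.castLE hk m)) (x m.succ) (x m'.succ)
        (x 0 + cvec a0 (Fin.castLE hk m'))
      rw [dist_comm (x 0 + cvec a0 (Fin.castLE hk m')) (x m'.succ)] at h5
      rw [dist_comm (x 0 + cvec a0 (Fin.castLE hk m)) (x m.succ)] at h6
      constructor <;> linarith

theorem Tset_subset {y : Pt} {δ a0 : ℝ} (ha0 : 0 < a0) (ha0δ : a0 ≤ δ / 2) {k : ℕ} {hk : k ≤ 3} :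
    Tset y δ a0 k hk ⊆ Set.pi Set.univ fun _ => Metric.closedBall y δ := by
  intro x hx i _
  have h0 := Metric.mem_closedBall.1 hx.1
  rw [Metric.mem_closedBall]
  by_cases hi : i = 0
  · subst hi; linarith
  · have h1 := (Tset_dist ha0 hx hi).2
    have h2 := dist_triangle (x i) (x 0) y
    linarith

theorem Eo_le_const {ι : Type*} [Fintype ι] [DecidableEq ι] {V : Pt → Pt → ℝ} {e : ℝ}
    (x : ι → Pt) (h : ∀ i i', i ≠ i' → V (x i) (x i') ≤ e) :
    Blk.Eo V x ≤ e * ((Fintype.card ι : ℝ) * ((Fintype.card ι : ℝ) - 1) / 2) := by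
  unfold Blk.Eo
  have h1 : ∑ i, ∑ i', (if i = i' then 0 else V (x i) (x i'))
      ≤ ∑ i : ι, ∑ i' : ι, (if i = i' then 0 else e) := by
    refine Finset.sum_le_sum fun i _ => Finset.sum_le_sum fun i' _ => ?_
    split_ifs with hh
    · exact le_rfl
    · exact h i i' hh
  have h2 : ∑ i : ι, ∑ i' : ι, (if i = i' then 0 else e)
      = e * ((Fintype.card ι : ℝ) * ((Fintype.card ι : ℝ) - 1)) := by
    have : ∀ i : ι, ∑ i' : ι, (if i = i' then 0 else e) = ((Fintype.card ι : ℝ) - 1) * e := by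
      intro i
      have h3 : ∑ i' : ι, (if i = i' then 0 else e) = ∑ i' : ι, (e - if i = i' then e else 0) := by
        refine Finset.sum_congr rfl fun i' _ => ?_
        split_ifs <;> simp
      rw [h3, Finset.sum_sub_distrib]
      simp
      ring
    simp_rw [this]
    simp
    ring
  rw [h2] at h1
  linarith

/-- generic lower bound of `Zg` by a trial set on which the energy is at most `E`. -/
theorem Zg_ge_of_trial {V : Pt → Pt → ℝ} {D : Set Pt} {N : ℕ} {β E v : ℝ} (hβ : 0 ≤ β)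
    (hint : IntegrableOn (fun x : Fin N → Pt => Real.exp (-β * En V x))
      (Set.pi Set.univ fun _ => D))
    (S : Set (Fin N → Pt)) (hSm : MeasurableSet S) (hS : S ⊆ Set.pi Set.univ fun _ => D)
    (hv0 : 0 ≤ v) (hvol : volume S = ENNReal.ofReal v) (hE : ∀ x ∈ S, En V x ≤ E) :
    Real.exp (-(β * E)) * (1 / (N.factorial : ℝ)) * v ≤ Zg V D N β := by
  unfold Zg
  have h1 : ∫ x in S, Real.exp (-β * En V x) ≤
      ∫ x in Set.pi Set.univ (fun _ : Fin N => D), Real.exp (-β * En V x) :=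
    setIntegral_mono_set hint (Filter.Eventually.of_forall fun x => (Real.exp_pos _).le)
      hS.eventuallyLE
  have hfin : volume S ≠ ⊤ := by rw [hvol]; exact ENNReal.ofReal_ne_top
  have h2 : ∫ _x in S, Real.exp (-(β * E)) ≤ ∫ x in S, Real.exp (-β * En V x) := by
    refine setIntegral_mono_on (integrableOn_const hfin) (hint.mono_set hS) hSm fun x hx => ?_
    refine Real.exp_le_exp.2 ?_
    have := mul_le_mul_of_nonneg_left (hE x hx) hβ
    linarith
  rw [setIntegral_const, Measure.real, hvol, ENNReal.toReal_ofReal hv0, smul_eq_mul] at h2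
  have h3 : (0 : ℝ) ≤ 1 / (N.factorial : ℝ) := by positivity
  calc Real.exp (-(β * E)) * (1 / (N.factorial : ℝ)) * v
      = 1 / (N.factorial : ℝ) * (v * Real.exp (-(β * E))) := by ring
    _ ≤ _ := mul_le_mul_of_nonneg_left (h2.trans h1) h3

theorem isClosed_Tset (y : Pt) (δ a0 : ℝ) (k : ℕ) (hk : k ≤ 3) : IsClosed (Tset y δ a0 k hk) := by
  have : Tset y δ a0 k hk = {x : Fin (k + 1) → Pt | dist (x 0) y ≤ δ / 2} ∩
      ⋂ m : Fin k, {x : Fin (k + 1) → Pt |
        dist (x m.succ) (x 0 + cvec a0 (Fin.castLE hk m)) ≤ a0 / 16} := by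
    ext x; simp [Tset, Metric.mem_closedBall]
  rw [this]
  refine IsClosed.inter (isClosed_le (by fun_prop) continuous_const)
    (isClosed_iInter fun m => isClosed_le (by fun_prop) continuous_const)

/-- one-ball tight bound -/
theorem Zg_ball_tight {q0 : ℝ → ℝ} {B e0 r0 a0 δ β : ℝ} (hq : Good q0 B)
    (hup : ∀ r, r0 ≤ r → r ≤ a0 → q0 r ≤ e0)
    (hδ : 0 < δ) (ha0 : 0 < a0) (ha0δ : a0 ≤ δ / 2) (hr0 : r0 ≤ a0 / 8) (hβ : 0 ≤ β)
    (y : Pt) (k : ℕ) (hk : k ≤ 3) :
    Real.exp (-(β * (e0 * (((k + 1 : ℕ) : ℝ) * (((k + 1 : ℕ) : ℝ) - 1) / 2))))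
        * (1 / ((k + 1).factorial : ℝ)) * (vb (δ / 2) * vb (a0 / 16) ^ k)
      ≤ Zg (rad q0) (Metric.closedBall y δ) (k + 1) β := by
  refine Zg_ge_of_trial hβ ?_ (Tset y δ a0 k hk) (isClosed_Tset y δ a0 k hk).measurableSet
    (Tset_subset ha0 ha0δ) (by have := vb_pos (half_pos hδ); have := vb_pos (r := a0 / 16)
                                (by linarith); positivity) ?_ ?_
  · refine Blk.integrableOn_exp_En (Blk.measurable_rad hq.meas) ?_ _ hβ (B * (k + 1 : ℕ))
      (fun x => by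
        have := hq.stable _ x
        rw [energy_eq_En] at this
        linarith)
    rw [volume_closedBall_eq _ hδ.le]
    exact ENNReal.ofReal_ne_top
  · have := volume_comb y (ρ := δ / 2) (r := a0 / 16) (by linarith) (by linarith) k
      (fun m => cvec a0 (Fin.castLE hk m))
    unfold Tset
    rw [this, ENNReal.ofReal_mul (vb_pos (half_pos hδ)).le,
      ENNReal.ofReal_pow (vb_pos (r := a0 / 16) (by linarith)).le]
  · intro x hx
    rw [Blk.En_eq_Eo _ (Blk.rad_symm q0)]
    have := Eo_le_const (V := rad q0) (e := e0) x (fun i i' hii => by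
      have hd := Tset_dist ha0 hx hii
      exact hup _ (by linarith [hd.1]) hd.2)
    simpa using this

end BUp

theorem base_upper_tight {q0 : ℝ → ℝ} {B e0 r0 a0 δ l β : ℝ} (hq : Good q0 B)
    (hup : ∀ r, r0 ≤ r → r ≤ a0 → q0 r ≤ e0) (hzero : ∀ r, 1 ≤ r → q0 r ≤ 0)
    (hδ : 0 < δ) (ha0 : 0 < a0) (ha0δ : a0 ≤ δ / 2) (hr0 : r0 ≤ a0 / 8) (hβ : 0 ≤ β)
    (X : Finset Pt) (hX : ∀ y ∈ X, ∀ i, δ ≤ y i ∧ y i ≤ l - δ)
    (hsep : ∀ y ∈ X, ∀ y' ∈ X, y ≠ y' → 1 + 2 * δ ≤ dist y y')
    (j : ℕ) (hj1 : 1 ≤ j) (hj : j ≤ 4) :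
    -(X.card : ℝ) * (β * e0 * (j * (j - 1) / 2) + Real.log (j.factorial)
        - Real.log (vb (δ / 2)) - (j - 1) * Real.log (vb (a0 / 16)))
      ≤ Real.log (partitionFn q0 l (j * X.card) β) := by
  obtain ⟨k, rfl⟩ : ∃ k, j = k + 1 := ⟨j - 1, by omega⟩
  have hk : k ≤ 3 := by omega
  have hv1 := BUp.vb_pos (half_pos hδ)
  have hv2 := BUp.vb_pos (r := a0 / 16) (by linarith)
  set c : ℝ := Real.exp (-(β * (e0 * (((k + 1 : ℕ) : ℝ) * (((k + 1 : ℕ) : ℝ) - 1) / 2))))
        * (1 / ((k + 1).factorial : ℝ)) * (vb (δ / 2) * vb (a0 / 16) ^ k) with hc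
  have hcpos : 0 < c := by positivity
  have h1 : c ^ X.card ≤ partitionFn q0 l ((k + 1) * X.card) β := by
    refine le_trans ?_ (Z_ge_prod_balls hq hzero hβ X hX hsep (k + 1))
    rw [← Finset.prod_const]
    exact Finset.prod_le_prod (fun _ _ => hcpos.le)
      (fun y _ => BUp.Zg_ball_tight hq hup hδ ha0 ha0δ hr0 hβ y k hk)
  have h2 := Real.log_le_log (pow_pos hcpos _) h1
  refine le_trans (le_of_eq ?_) h2
  rw [Real.log_pow, hc, Real.log_mul (by positivity) (by positivity),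
    Real.log_mul (by positivity) (by positivity), Real.log_exp,
    Real.log_mul hv1.ne' (by positivity), Real.log_pow, one_div, Real.log_inv]
  push_cast
  ring

end Crest.Agent.S0209
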