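import Crest.Agent.S0209_ScaleArith

/-!
# ROW 149, package I2: site densities `lamA`, `lamB`
-/

set_option autoImplicit false
namespace Crest.Agent.S0209
open Crest.ProbabilityR.Continuum MeasureTheory

namespace Par
variable {P : Par}

namespace Lam

theorem l_succ_eq (P : Par) {k : ℕ} (hk : 1 ≤ k) : P.l (k + 1) = (P.l k) ^ 4 := by
  rw [l_succ, R_eq_l_sq P hk, ← pow_mul]

/-- `l k ≥ Q * 16^(k-1)`. -/
theorem l_ge (h : P.OK) (j : ℕ) : P.Q * 16 ^ j ≤ P.l (j + 1) := by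
  rw [l_succ]
  have h1 := R_ge h j
  have h2 : 0 < P.R j := R_pos h j
  nlinarith [h1, h2]

theorem l_geR (h : P.OK) (j : ℕ) : (10 : ℝ) ^ 60 * 16 ^ j ≤ (P.l (j + 1) : ℝ) := by
  have h1 : ((P.Q * 16 ^ j : ℕ) : ℝ) ≤ (P.l (j + 1) : ℝ) := by exact_mod_cast l_ge h j
  have h2 : ((10 ^ 60 : ℕ) : ℝ) ≤ (P.Q : ℝ) := by exact_mod_cast h.Q_ge
  push_cast at h1 h2
  have h3 : (0 : ℝ) < 16 ^ j := by positivity
  nlinarith [h1, h2, h3]

theorem M_succ (P : Par) (j : ℕ) : P.M (j + 2) = (P.ms (j + 1)) ^ 3 * P.M (j + 1) := rfl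

theorem ms_pos (h : P.OK) {k : ℕ} (hk : 1 ≤ k) : 0 < P.ms k := by
  unfold ms
  apply Nat.div_pos _ (by positivity)
  rw [l_succ_eq P hk]
  have : 0 < P.l k := l_pos h k
  have h2 : P.l k ≤ P.l k ^ 4 := by
    calc P.l k = P.l k ^ 1 := (pow_one _).symm
      _ ≤ P.l k ^ 4 := Nat.pow_le_pow_right this (by norm_num)
  omega

theorem M_one_pos (h : P.OK) : 0 < P.M 1 := by
  have h1 := h.M1_lo
  have h2 : (0 : ℝ) < (P.l 1 : ℝ) := by exact_mod_cast l_pos h 1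
  have h3 := Pack.one_le_pdens
  have h4 : (0 : ℝ) < 0.995 * Pack.pdens * (P.l 1 : ℝ) ^ 3 := by positivity
  have h5 : (0 : ℝ) < (P.M 1 : ℝ) := lt_of_lt_of_le h4 h1
  exact_mod_cast h5

end Lam

open Lam

theorem M_pos (h : P.OK) {k : ℕ} (hk : 1 ≤ k) : 0 < P.M k := by
  obtain ⟨j, rfl⟩ : ∃ j, k = j + 1 := ⟨k - 1, by omega⟩
  induction j with
  | zero => exact M_one_pos h
  | succ n ih =>
    rw [M_succ]
    exact Nat.mul_pos (pow_pos (ms_pos h (by omega)) _) (ih (by omega))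

namespace Lam

theorem lamA_nonneg (P : Par) (k : ℕ) : 0 ≤ P.lamA k := by
  unfold lamA; positivity

/-- the ratio `ms k * l k / l (k+1)`. -/
theorem lamA_succ (h : P.OK) (j : ℕ) :
    P.lamA (j + 2) = P.lamA (j + 1) * ((P.ms (j + 1) : ℝ) * P.l (j + 1) / P.l (j + 2)) ^ 3 := by
  unfold lamA
  rw [M_succ]
  have h1 : (0 : ℝ) < (P.l (j + 1) : ℝ) := by exact_mod_cast l_pos h _
  have h2 : (0 : ℝ) < (P.l (j + 2) : ℝ) := by exact_mod_cast l_pos h _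
  push_cast
  field_simp

theorem ratio_le (h : P.OK) (j : ℕ) :
    (P.ms (j + 1) : ℝ) * P.l (j + 1) / P.l (j + 2) ≤ 1 := by
  have h1 : (0 : ℝ) < (P.l (j + 1) : ℝ) := by exact_mod_cast l_pos h _
  have h2 : (0 : ℝ) < (P.l (j + 2) : ℝ) := by exact_mod_cast l_pos h _
  rw [div_le_one h2]
  have h3 := ms_le P (j + 1)
  have h4 : (P.l (j + 2) : ℝ) = (P.l (j + 1) : ℝ) ^ 4 := by
    exact_mod_cast l_succ_eq P (k := j + 1) (by omega)
  have h5 : (1 : ℝ) ≤ (P.l (j + 1) : ℝ) := by exact_mod_cast l_pos h (j + 1)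
  have h6 : (P.l (j + 1) : ℝ) ≤ (P.l (j + 2) : ℝ) := by
    rw [h4]
    calc (P.l (j + 1) : ℝ) = (P.l (j + 1) : ℝ) ^ 1 := (pow_one _).symm
      _ ≤ (P.l (j + 1) : ℝ) ^ 4 := pow_le_pow_right₀ h5 (by norm_num)
  -- ms * (l+1) ≤ l' + 1, so ms * l * (l+1) ≤ (l'+1) * l ≤ l' * (l + 1)
  have h7 : (P.ms (j + 1) : ℝ) * P.l (j + 1) * (P.l (j + 1) + 1) ≤ P.l (j + 2) * (P.l (j + 1) + 1) := by
    have : (P.ms (j + 1) : ℝ) * (P.l (j + 1) + 1) * P.l (j + 1) ≤ (P.l (j + 1 + 1) + 1) * P.l (j + 1) :=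
      mul_le_mul_of_nonneg_right h3 h1.le
    have e : j + 1 + 1 = j + 2 := rfl
    rw [e] at this
    nlinarith [this, h6]
  exact le_of_mul_le_mul_right h7 (by positivity)

theorem ratio_ge (h : P.OK) (j : ℕ) :
    1 - 2 / (P.l (j + 1) : ℝ) ≤ (P.ms (j + 1) : ℝ) * P.l (j + 1) / P.l (j + 2) := by
  have h1 : (0 : ℝ) < (P.l (j + 1) : ℝ) := by exact_mod_cast l_pos h _
  have h2 : (0 : ℝ) < (P.l (j + 2) : ℝ) := by exact_mod_cast l_pos h _
  have h3 := ms_ge h (k := j + 1) (by omega)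
  have h4 : (P.l (j + 2) : ℝ) = (P.l (j + 1) : ℝ) ^ 4 := by
    exact_mod_cast l_succ_eq P (k := j + 1) (by omega)
  have h5 : (1 : ℝ) ≤ (P.l (j + 1) : ℝ) := by exact_mod_cast l_pos h (j + 1)
  have e : j + 1 + 1 = j + 2 := rfl
  rw [e] at h3
  set x : ℝ := (P.l (j + 1) : ℝ) with hx
  rw [h4] at h3 ⊢
  have h6 : (x ^ 4 - x) / (x + 1) * x / x ^ 4 ≤ (P.ms (j + 1) : ℝ) * x / x ^ 4 := by
    apply div_le_div_of_nonneg_right _ (by positivity)
    exact mul_le_mul_of_nonneg_right h3 h1.le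
  refine le_trans ?_ h6
  rw [div_mul_eq_mul_div, div_div, le_div_iff₀ (by positivity), sub_mul, div_mul_eq_mul_div,
    sub_le_iff_le_add, ← sub_le_iff_le_add', le_div_iff₀ h1]
  have h7 : (0:ℝ) ≤ x ^ 2 := by positivity
  have h8 : (0:ℝ) ≤ x ^ 4 := by positivity
  have h9 : (0:ℝ) ≤ x ^ 5 := by positivity
  nlinarith [h7, h8, h9, h1]

theorem ratio3_ge (h : P.OK) (j : ℕ) :
    1 - 6 / (P.l (j + 1) : ℝ) ≤ ((P.ms (j + 1) : ℝ) * P.l (j + 1) / P.l (j + 2)) ^ 3 := by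
  have h1 : (0 : ℝ) < (P.l (j + 1) : ℝ) := by exact_mod_cast l_pos h _
  have hl := l_geR h j
  have h16 : (1 : ℝ) ≤ 16 ^ j := one_le_pow₀ (by norm_num)
  have hbig : (2 : ℝ) ≤ (P.l (j + 1) : ℝ) := by nlinarith [hl, h16]
  have h2 := ratio_ge h j
  set t : ℝ := 2 / (P.l (j + 1) : ℝ) with ht
  have ht0 : 0 ≤ t := by positivity
  have ht1 : t ≤ 1 := by rw [ht, div_le_one h1]; exact hbig
  have h3 : (1 - t) ^ 3 ≤ ((P.ms (j + 1) : ℝ) * P.l (j + 1) / P.l (j + 2)) ^ 3 :=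
    pow_le_pow_left₀ (by linarith) h2 3
  have h4 : 6 / (P.l (j + 1) : ℝ) = 3 * t := by rw [ht]; ring
  rw [h4]
  refine le_trans ?_ h3
  nlinarith [mul_nonneg ht0 ht0, mul_nonneg (mul_nonneg ht0 ht0) (sub_nonneg.2 ht1)]

theorem lamA_anti (h : P.OK) (j : ℕ) : P.lamA (j + 2) ≤ P.lamA (j + 1) := by
  rw [lamA_succ h]
  have h1 := ratio_le h j
  have h0 : 0 ≤ (P.ms (j + 1) : ℝ) * P.l (j + 1) / P.l (j + 2) := by positivity
  have h2 : ((P.ms (j + 1) : ℝ) * P.l (j + 1) / P.l (j + 2)) ^ 3 ≤ 1 := pow_le_one₀ h0 h1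
  exact mul_le_of_le_one_right (lamA_nonneg P _) h2

theorem lamA_one_le (h : P.OK) : P.lamA 1 ≤ 1.01 * Pack.pdens := by
  have h1 : (0 : ℝ) < (P.l 1 : ℝ) := by exact_mod_cast l_pos h _
  have hl := l_geR h 0
  simp only [pow_zero, mul_one, zero_add] at hl
  have hδ := h.δ_pos
  have hM : (P.M 1 : ℝ) ≤ Pack.pdens * ((P.l 1 : ℝ) + 1) ^ 3 := by
    refine le_trans ?_ (Pack.packingNumber_le_pdens h1.le)
    have : P.M 1 ≤ packingNumber (P.l 1 : ℝ) := by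
      change packingNumber (((P.l 1 : ℝ) - 2 * P.δ) / (1 + 2 * P.δ)) ≤ _
      apply Pack.packingNumber_mono
      rw [div_le_iff₀ (by positivity)]
      nlinarith
    exact_mod_cast this
  unfold lamA
  rw [div_le_iff₀ (by positivity)]
  refine le_trans hM ?_
  have hp := Pack.one_le_pdens
  have h3 : ((P.l 1 : ℝ) + 1) ^ 3 ≤ 1.01 * (P.l 1 : ℝ) ^ 3 := by
    have h4 : (P.l 1 : ℝ) + 1 ≤ 1.001 * (P.l 1 : ℝ) := by
      have : (1000 : ℝ) ≤ (P.l 1 : ℝ) := le_trans (by norm_num) hl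
      linarith
    calc ((P.l 1 : ℝ) + 1) ^ 3 ≤ (1.001 * (P.l 1 : ℝ)) ^ 3 := pow_le_pow_left₀ (by positivity) h4 3
      _ = 1.001 ^ 3 * (P.l 1 : ℝ) ^ 3 := by ring
      _ ≤ 1.01 * (P.l 1 : ℝ) ^ 3 := by
        apply mul_le_mul_of_nonneg_right (by norm_num) (by positivity)
  calc Pack.pdens * ((P.l 1 : ℝ) + 1) ^ 3 ≤ Pack.pdens * (1.01 * (P.l 1 : ℝ) ^ 3) :=
        mul_le_mul_of_nonneg_left h3 (by linarith)
    _ = 1.01 * Pack.pdens * (P.l 1 : ℝ) ^ 3 := by ring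

theorem lamA_le (h : P.OK) (j : ℕ) : P.lamA (j + 1) ≤ 1.01 * Pack.pdens := by
  induction j with
  | zero => exact lamA_one_le h
  | succ n ih => exact (lamA_anti h n).trans ih

theorem lamA_ge (h : P.OK) (j : ℕ) :
    Pack.pdens * (0.99 + 0.005 / 2 ^ j) ≤ P.lamA (j + 1) := by
  have hp := Pack.one_le_pdens
  induction j with
  | zero =>
    have h1 : (0 : ℝ) < (P.l 1 : ℝ) := by exact_mod_cast l_pos h _
    have := h.M1_lo
    unfold lamA
    rw [le_div_iff₀ (by positivity)]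
    simp only [pow_zero, zero_add]
    refine le_trans (le_of_eq ?_) this
    ring
  | succ n ih =>
    rw [lamA_succ h]
    have h1 : (0 : ℝ) < (P.l (n + 1) : ℝ) := by exact_mod_cast l_pos h _
    have h3 := ratio3_ge h n
    have h4 := lamA_le h n
    have h5 := lamA_nonneg P (n + 1)
    have hl := l_geR h n
    have h6 : P.lamA (n + 1) * (1 - 6 / (P.l (n + 1) : ℝ)) ≤
        P.lamA (n + 1) * ((P.ms (n + 1) : ℝ) * P.l (n + 1) / P.l (n + 2)) ^ 3 :=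
      mul_le_mul_of_nonneg_left h3 h5
    refine le_trans ?_ h6
    -- 6 / l ≤ 0.002 / 2^(n+1)
    have h2n : (0 : ℝ) < 2 ^ n := by positivity
    have h7 : 6 / (P.l (n + 1) : ℝ) ≤ 0.002 / 2 ^ (n + 1) := by
      rw [div_le_div_iff₀ h1 (by positivity)]
      have h8 : (2 : ℝ) ^ n ≤ 16 ^ n := pow_le_pow_left₀ (by norm_num) (by norm_num) n
      rw [pow_succ]
      nlinarith [hl, h8, h2n]
    have h9 : P.lamA (n + 1) * (6 / (P.l (n + 1) : ℝ)) ≤ 1.01 * Pack.pdens * (0.002 / 2 ^ (n + 1)) :=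
      mul_le_mul h4 h7 (by positivity) (by positivity)
    have h10 : (0.005 : ℝ) / 2 ^ n = 2 * (0.005 / 2 ^ (n + 1)) := by
      rw [pow_succ]; field_simp
    have h11 : (0.002 : ℝ) / 2 ^ (n + 1) = 0.4 * (0.005 / 2 ^ (n + 1)) := by
      ring
    rw [h10] at ih
    rw [h11] at h9
    have h12 : (0 : ℝ) ≤ 0.005 / 2 ^ (n + 1) := by positivity
    nlinarith [mul_nonneg (by linarith : (0:ℝ) ≤ Pack.pdens) h12]

theorem tendsto_l (h : P.OK) :
    Filter.Tendsto (fun k => (P.l (k + 1) : ℝ)) Filter.atTop Filter.atTop := by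
  apply Filter.tendsto_atTop_mono (f := fun k : ℕ => (k : ℝ)) _ tendsto_natCast_atTop_atTop
  intro k
  have hl := l_geR h k
  have h1 : (k : ℝ) ≤ 16 ^ k := by
    have : k < 16 ^ k := Nat.lt_pow_self (by norm_num)
    exact_mod_cast this.le
  have h2 : (0 : ℝ) < 16 ^ k := by positivity
  nlinarith [hl, h1, h2]

end Lam

theorem lamA_mem (h : P.OK) {k : ℕ} (hk : 1 ≤ k) :
    P.lamA k ∈ Set.Icc (0.99 * Pack.pdens) (1.01 * Pack.pdens) := by
  obtain ⟨j, rfl⟩ : ∃ j, k = j + 1 := ⟨k - 1, by omega⟩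
  refine ⟨le_trans ?_ (lamA_ge h j), lamA_le h j⟩
  have hp := Pack.one_le_pdens
  have : (0 : ℝ) ≤ 0.005 / 2 ^ j := by positivity
  nlinarith

theorem lam_tendsto (h : P.OK) : ∃ lam ∈ Set.Icc (0.99 * Pack.pdens) (1.01 * Pack.pdens),
    Filter.Tendsto P.lamA Filter.atTop (nhds lam) ∧ Filter.Tendsto P.lamB Filter.atTop (nhds lam) := by
  have hanti : Antitone (fun j => P.lamA (j + 1)) := antitone_nat_of_succ_le (fun n => lamA_anti h n)
  have hbdd : BddBelow (Set.range (fun j => P.lamA (j + 1))) :=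
    ⟨0, by rintro _ ⟨j, rfl⟩; exact lamA_nonneg P _⟩
  have ht := tendsto_atTop_ciInf hanti hbdd
  set lam := ⨅ j, P.lamA (j + 1) with hlam
  have hmem : lam ∈ Set.Icc (0.99 * Pack.pdens) (1.01 * Pack.pdens) :=
    isClosed_Icc.mem_of_tendsto ht (Filter.Eventually.of_forall fun j => lamA_mem h (by omega))
  refine ⟨lam, hmem, (Filter.tendsto_add_atTop_iff_nat 1).1 ht, ?_⟩
  have hB : P.lamB = fun k => P.lamA (k + 1) * (1 - 1 / ((P.l (k + 1) : ℝ) + 1)) ^ 3 := by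
    funext k
    unfold lamB lamA
    have h1 : (0 : ℝ) < (P.l (k + 1) : ℝ) := by exact_mod_cast l_pos h _
    field_simp
    ring
  rw [hB]
  have h1 : Filter.Tendsto (fun k => 1 / ((P.l (k + 1) : ℝ) + 1)) Filter.atTop (nhds 0) := by
    have := Filter.tendsto_atTop_add_const_right Filter.atTop (1 : ℝ) (tendsto_l h)
    have h' := this.inv_tendsto_atTop
    refine h'.congr fun k => ?_
    simp
  have h2 : Filter.Tendsto (fun k => (1 - 1 / ((P.l (k + 1) : ℝ) + 1)) ^ 3) Filter.atTop (nhds 1) := by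
    have := (tendsto_const_nhds (x := (1 : ℝ))).sub h1
    simpa using this.pow 3
  simpa using ht.mul h2

end Par
end Crest.Agent.S0209
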