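import Crest.Agent.S0209_Kernel
import Crest.Agent.S0209_Packing
/-!
ROW 149: explicit bounds `0.26 ≤ kap ≤ 4.2` and `pdens ≤ 8`.
-/
set_option autoImplicit false
namespace Crest.Agent.S0209
open Crest.ProbabilityR.Continuum MeasureTheory

theorem kap_le : kap ≤ 4.2 := by
  have h1 : kap ≤ ∫ x : Pt, (Metric.closedBall (0 : Pt) 1).indicator (fun _ => (1 : ℝ)) x := by
    unfold kap
    apply integral_mono Ker.integrable_prof
    · exact (integrable_indicator_iff measurableSet_closedBall).2
        (integrableOn_const (measure_closedBall_lt_top.ne))
    · intro x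
      by_cases hx : x ∈ Metric.closedBall (0 : Pt) 1
      · simp only [Set.indicator_of_mem hx]
        exact max_le zero_le_one (by linarith [norm_nonneg x])
      · simp only [Set.indicator_of_notMem hx]
        have : 1 < ‖x‖ := by simpa [Metric.mem_closedBall, dist_zero_right] using hx
        exact max_le le_rfl (by linarith)
  rw [integral_indicator measurableSet_closedBall, setIntegral_const] at h1
  simp only [Measure.real, EuclideanSpace.volume_closedBall_fin_three, smul_eq_mul, mul_one] at h1
  rw [ENNReal.toReal_mul, ENNReal.toReal_pow, ENNReal.toReal_ofReal (by positivity),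
    ENNReal.toReal_ofReal (by positivity)] at h1
  have := Real.pi_lt_d2
  linarith

theorem kap_ge : 0.26 ≤ kap := by
  have h1 : ∫ x : Pt, (Metric.closedBall (0 : Pt) (1 / 2)).indicator (fun _ => (1 / 2 : ℝ)) x
      ≤ kap := by
    unfold kap
    apply integral_mono _ Ker.integrable_prof
    · intro x
      by_cases hx : x ∈ Metric.closedBall (0 : Pt) (1 / 2)
      · simp only [Set.indicator_of_mem hx]
        have : ‖x‖ ≤ 1 / 2 := by simpa [Metric.mem_closedBall, dist_zero_right] using hx
        exact le_max_of_le_right (by linarith)
      · simp only [Set.indicator_of_notMem hx]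
        exact le_max_left _ _
    · exact (integrable_indicator_iff measurableSet_closedBall).2
        (integrableOn_const (measure_closedBall_lt_top.ne))
  rw [integral_indicator measurableSet_closedBall, setIntegral_const] at h1
  simp only [Measure.real, EuclideanSpace.volume_closedBall_fin_three, smul_eq_mul] at h1
  rw [ENNReal.toReal_mul, ENNReal.toReal_pow, ENNReal.toReal_ofReal (by positivity),
    ENNReal.toReal_ofReal (by positivity)] at h1
  have := Real.pi_gt_d2
  linarith

theorem pdens_le_eight : Pack.pdens ≤ 8 := by
  unfold Pack.pdens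
  apply csSup_le (Set.Nonempty.image _ ⟨0, Set.mem_Ici.2 le_rfl⟩)
  rintro _ ⟨L, hL, rfl⟩
  exact Pack.aa_le_eight hL

/-- weak forms (helper18's post 682). -/
theorem kap_ge_quarter : (1 / 4 : ℝ) ≤ kap := by have := kap_ge; linarith

theorem kap_le_five : kap ≤ 5 := by have := kap_le; linarith

end Crest.Agent.S0209
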