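import Crest.Agent.S0209_Scales

/-!
# ROW 149, package I0: arithmetic of the scales
-/

set_option autoImplicit false
namespace Crest.Agent.S0209
namespace Par
variable {P : Par}

theorem R_succ (P : Par) (k : ℕ) : P.R (k + 1) = (P.R k) ^ 4 := by
  unfold R
  rw [← pow_mul, pow_succ]

theorem l_succ (P : Par) (k : ℕ) : P.l (k + 1) = (P.R k) ^ 2 := by
  unfold l
  simp

theorem R_eq_l_sq (P : Par) {k : ℕ} (hk : 1 ≤ k) : P.R k = (P.l k) ^ 2 := by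
  obtain ⟨j, rfl⟩ : ∃ j, k = j + 1 := ⟨k - 1, by omega⟩
  rw [R_succ, l_succ, ← pow_mul]

theorem Q_pos (h : P.OK) : 0 < P.Q := lt_of_lt_of_le (by positivity) h.Q_ge

theorem Q_ge16 (h : P.OK) : 16 ≤ P.Q := le_trans (by norm_num) h.Q_ge

theorem R_pos (h : P.OK) (k : ℕ) : 0 < P.R k := pow_pos (Q_pos h) _

theorem R_zero (P : Par) : P.R 0 = P.Q := by simp [R]

theorem R_even (h : P.OK) (k : ℕ) : 2 ∣ P.R k :=
  dvd_pow h.Q_even (by positivity)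

theorem l_pos (h : P.OK) (k : ℕ) : 0 < P.l k := pow_pos (R_pos h _) _

theorem l_eq (h : P.OK) {k : ℕ} (hk : 1 ≤ k) : P.l k = 2 * P.w k * P.mt k := by
  unfold mt
  have hdvd : 2 * P.w k ∣ P.l k := by
    unfold w l
    split_ifs with h1
    · obtain ⟨c, hc⟩ := R_even h (k - 1)
      rw [hc]
      exact ⟨c * (2 * c), by ring⟩
    · obtain ⟨c, hc⟩ := R_even h (k - 1)
      refine ⟨c, ?_⟩
      rw [pow_two]
      nth_rewrite 2 [hc]
      ring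
  exact (Nat.mul_div_cancel' hdvd).symm

theorem mt_eq (h : P.OK) {k : ℕ} (hk : 2 ≤ k) : 2 * P.mt k = P.R (k - 1) := by
  have h1 := l_eq h (k := k) (by omega)
  have hw : P.w k = P.R (k - 1) := by
    unfold w
    rw [if_neg (by omega)]
  rw [hw] at h1
  have h2 : P.l k = P.R (k - 1) * P.R (k - 1) := by unfold l; ring
  have h3 : P.R (k - 1) * P.R (k - 1) = P.R (k - 1) * (2 * P.mt k) := by rw [← h2, h1]; ring
  exact (Nat.eq_of_mul_eq_mul_left (R_pos h _) h3).symm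

theorem R_ge (h : P.OK) (k : ℕ) : P.Q * 16 ^ k ≤ P.R k := by
  induction k with
  | zero => simp [R]
  | succ n ih =>
    rw [R_succ]
    have h16 : 16 ≤ P.R n := by
      calc 16 ≤ P.Q := Q_ge16 h
        _ = P.Q * 1 := (mul_one _).symm
        _ ≤ P.Q * 16 ^ n := Nat.mul_le_mul_left _ (Nat.one_le_pow _ _ (by norm_num))
        _ ≤ P.R n := ih
    calc P.Q * 16 ^ (n + 1) = (P.Q * 16 ^ n) * 16 := by ring
      _ ≤ P.R n * P.R n := Nat.mul_le_mul ih h16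
      _ = P.R n ^ 2 * 1 := by ring
      _ ≤ P.R n ^ 2 * P.R n ^ 2 := Nat.mul_le_mul_left _ (Nat.one_le_pow _ _ (R_pos h n))
      _ = P.R n ^ 4 := by ring

theorem R_mono (h : P.OK) : Monotone P.R := by
  intro a b hab
  unfold R
  exact Nat.pow_le_pow_right (Q_pos h) (Nat.pow_le_pow_right (by norm_num) hab)

theorem Q_le_R (h : P.OK) (k : ℕ) : P.Q ≤ P.R k := by
  have := R_mono h (Nat.zero_le k)
  rwa [R_zero] at this

theorem ms_le (P : Par) (k : ℕ) : (P.ms k : ℝ) * (P.l k + 1) ≤ P.l (k + 1) + 1 := by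
  have : P.ms k * (P.l k + 1) ≤ P.l (k + 1) + 1 := Nat.div_mul_le_self _ _
  exact_mod_cast this

theorem ms_ge (h : P.OK) {k : ℕ} (hk : 1 ≤ k) :
    ((P.l (k + 1) : ℝ) - P.l k) / (P.l k + 1) ≤ P.ms k := by
  have hpos : (0 : ℝ) < (P.l k : ℝ) + 1 := by positivity
  rw [div_le_iff₀ hpos]
  have h1 : P.l (k + 1) + 1 < (P.ms k + 1) * (P.l k + 1) := by
    unfold ms
    have := Nat.lt_mul_div_succ (P.l (k + 1) + 1) (Nat.succ_pos (P.l k))
    simpa [Nat.succ_eq_add_one, mul_comm] using this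
  have h2 : ((P.l (k + 1) : ℝ) + 1) < ((P.ms k : ℝ) + 1) * ((P.l k : ℝ) + 1) := by exact_mod_cast h1
  nlinarith

/-- `(l_{k+1}/l_k + 2)^3 ≤ (1+η_k) ms_k^3` -/
theorem eta_bound (h : P.OK) {k : ℕ} (hk : 1 ≤ k) :
    ((P.l (k + 1) : ℝ) / P.l k + 2) ^ 3 ≤ (1 + 20 / (P.R (k - 1) : ℝ) ^ 2) * (P.ms k : ℝ) ^ 3 := by
  obtain ⟨j, rfl⟩ : ∃ j, k = j + 1 := ⟨k - 1, by omega⟩
  have hms := ms_ge h (k := j + 1) (by omega)
  simp only [Nat.add_sub_cancel]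
  set r : ℝ := (P.R j : ℝ) with hr
  have hr16 : (16 : ℝ) ≤ r := by
    have : 16 ≤ P.R j := le_trans (Q_ge16 h) (Q_le_R h j)
    rw [hr]
    exact_mod_cast this
  have hl : (P.l (j + 1) : ℝ) = r ^ 2 := by rw [l_succ]; push_cast; rfl
  have hl' : (P.l (j + 1 + 1) : ℝ) = r ^ 8 := by
    rw [l_succ, R_succ]; push_cast; rw [← hr]; ring
  rw [hl, hl'] at hms ⊢
  have hr0 : (0 : ℝ) < r := by linarith
  have hx : r ^ 8 / r ^ 2 + 2 = r ^ 6 + 2 := by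
    field_simp
  rw [hx]
  set y : ℝ := (P.ms (j + 1) : ℝ) with hy
  set c : ℝ := 2.8 / r ^ 2 with hc
  have hc0 : 0 < c := by positivity
  have hr2 : (256 : ℝ) ≤ r ^ 2 := by nlinarith
  have hc1 : c ≤ 1 := by
    rw [hc, div_le_one (by positivity)]; linarith
  have hy0 : 0 ≤ y := Nat.cast_nonneg _
  -- x ≤ (1+c) y
  have h1 : r ^ 6 + 2 ≤ (1 + c) * ((r ^ 8 - r ^ 2) / (r ^ 2 + 1)) := by
    rw [hc, ← mul_div_assoc, le_div_iff₀ (by positivity)]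
    have : (1 + 2.8 / r ^ 2) * (r ^ 8 - r ^ 2) = r ^ 8 - r ^ 2 + 2.8 * r ^ 6 - 2.8 := by
      field_simp
      ring
    rw [this]
    have h6 : (256 : ℝ) * r ^ 2 ≤ r ^ 6 := by
      have : r ^ 6 = r ^ 2 * r ^ 2 * r ^ 2 := by ring
      nlinarith [mul_nonneg (by positivity : (0:ℝ) ≤ r ^ 2) (by positivity : (0:ℝ) ≤ r ^ 2)]
    nlinarith
  have h2 : r ^ 6 + 2 ≤ (1 + c) * y :=
    le_trans h1 (mul_le_mul_of_nonneg_left hms (by positivity))
  have h3 : (r ^ 6 + 2) ^ 3 ≤ ((1 + c) * y) ^ 3 := pow_le_pow_left₀ (by positivity) h2 3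
  have h4 : (1 + c) ^ 3 ≤ 1 + 20 / r ^ 2 := by
    have : 20 / r ^ 2 = (20 / 2.8) * c := by rw [hc]; field_simp
    rw [this]
    nlinarith [mul_nonneg hc0.le hc0.le, mul_le_mul_of_nonneg_left hc1 hc0.le,
      mul_le_mul_of_nonneg_left hc1 (mul_nonneg hc0.le hc0.le)]
  calc (r ^ 6 + 2) ^ 3 ≤ ((1 + c) * y) ^ 3 := h3
    _ = (1 + c) ^ 3 * y ^ 3 := by ring
    _ ≤ (1 + 20 / r ^ 2) * y ^ 3 := mul_le_mul_of_nonneg_right h4 (by positivity)

end Par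
end Crest.Agent.S0209
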