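import Crest.Agent.S0209_Kernel
import Crest.Agent.S0209_Blocks
/-!
ROW 149, package S: superstability (statements verbatim from `notes/ROW149_Iface2.lean.txt`),
plus the general-grid version `Kac_energy_le_grid` of (S1).
Private helpers live in the sub-namespace `Sup`.
-/
set_option autoImplicit false
namespace Crest.Agent.S0209
open Crest.ProbabilityR.Continuum MeasureTheory

namespace Sup

variable {ι κ : Type*} [Fintype ι] [DecidableEq κ]

/-- occupation number of the class `a` -/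
noncomputable def occ (c : ι → κ) (a : κ) : ℝ := ((Finset.univ.filter (fun j => c j = a)).card : ℝ)

theorem occ_nonneg (c : ι → κ) (a : κ) : 0 ≤ occ c a := Nat.cast_nonneg _

theorem sum_comp' (c : ι → κ) (f : κ → ℝ) :
    ∑ i, f (c i) = ∑ a ∈ Finset.univ.image c, occ c a * f a := by
  rw [Finset.sum_comp f c]
  exact Finset.sum_congr rfl (fun a _ => by rw [nsmul_eq_mul]; rfl)

theorem sum_ite_eq_occ (c : ι → κ) (a : κ) :
    ∑ j, (if a = c j then (1 : ℝ) else 0) = occ c a := by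
  rw [Finset.sum_boole, occ]
  congr 2
  ext j
  simp [eq_comm]

/-- number of ordered pairs in the same class -/
theorem pairs_eq (c : ι → κ) :
    ∑ i, ∑ j, (if c i = c j then (1 : ℝ) else 0) = ∑ a ∈ Finset.univ.image c, occ c a ^ 2 := by
  have : ∀ i, ∑ j, (if c i = c j then (1 : ℝ) else 0) = occ c (c i) := fun i => sum_ite_eq_occ c (c i)
  simp_rw [this]
  rw [sum_comp' c (fun a => occ c a)]
  exact Finset.sum_congr rfl (fun a _ => by ring)

theorem card_eq (c : ι → κ) : (Fintype.card ι : ℝ) = ∑ a ∈ Finset.univ.image c, occ c a := by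
  have := sum_comp' c (fun _ => (1 : ℝ))
  simp only [Finset.sum_const, Finset.card_univ, nsmul_eq_mul, mul_one] at this
  exact this

/-- grouping + `ν ν' ≤ (ν² + ν'²)/2` -/
theorem group_bound (c : ι → κ) (k : κ → κ → ℝ) (hk0 : ∀ a b, 0 ≤ k a b)
    (hsymm : ∀ a b, k a b = k b a) (K : ℝ) (hK : ∀ a, ∀ I : Finset κ, ∑ b ∈ I, k a b ≤ K) :
    ∑ i, ∑ j, k (c i) (c j) ≤ K * ∑ i, ∑ j, (if c i = c j then (1 : ℝ) else 0) := by
  set I := Finset.univ.image c with hI
  have h1 : ∑ i, ∑ j, k (c i) (c j) = ∑ a ∈ I, ∑ b ∈ I, occ c a * occ c b * k a b := by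
    have : ∀ i, ∑ j, k (c i) (c j) = ∑ b ∈ I, occ c b * k (c i) b := fun i =>
      sum_comp' c (fun b => k (c i) b)
    simp_rw [this]
    rw [sum_comp' c (fun a => ∑ b ∈ I, occ c b * k a b)]
    refine Finset.sum_congr rfl (fun a _ => ?_)
    rw [Finset.mul_sum]
    exact Finset.sum_congr rfl (fun b _ => by ring)
  have h2 : ∀ a ∈ I, ∀ b ∈ I, occ c a * occ c b * k a b
      ≤ (1 / 2) * (occ c a ^ 2 * k a b) + (1 / 2) * (occ c b ^ 2 * k b a) := by
    intro a _ b _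
    rw [hsymm b a]
    nlinarith [hk0 a b, sq_nonneg (occ c a - occ c b),
      mul_nonneg (hk0 a b) (sq_nonneg (occ c a - occ c b))]
  have h3 : ∑ a ∈ I, ∑ b ∈ I, occ c a ^ 2 * k a b ≤ K * ∑ a ∈ I, occ c a ^ 2 := by
    rw [Finset.mul_sum]
    refine Finset.sum_le_sum (fun a _ => ?_)
    rw [← Finset.mul_sum, mul_comm K]
    exact mul_le_mul_of_nonneg_left (hK a I) (sq_nonneg _)
  rw [h1, pairs_eq]
  calc ∑ a ∈ I, ∑ b ∈ I, occ c a * occ c b * k a b
      ≤ ∑ a ∈ I, ∑ b ∈ I, ((1 / 2) * (occ c a ^ 2 * k a b) + (1 / 2) * (occ c b ^ 2 * k b a)) :=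
        Finset.sum_le_sum (fun a ha => Finset.sum_le_sum (fun b hb => h2 a ha b hb))
    _ = (1 / 2) * ∑ a ∈ I, ∑ b ∈ I, occ c a ^ 2 * k a b
        + (1 / 2) * ∑ a ∈ I, ∑ b ∈ I, occ c a ^ 2 * k a b := by
        have hc : ∑ a ∈ I, ∑ b ∈ I, occ c b ^ 2 * k b a = ∑ a ∈ I, ∑ b ∈ I, occ c a ^ 2 * k a b :=
          Finset.sum_comm
        nth_rewrite 2 [← hc]
        rw [Finset.mul_sum, Finset.mul_sum, ← Finset.sum_add_distrib]
        refine Finset.sum_congr rfl (fun a _ => ?_)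
        rw [Finset.mul_sum, Finset.mul_sum, ← Finset.sum_add_distrib]
    _ = ∑ a ∈ I, ∑ b ∈ I, occ c a ^ 2 * k a b := by ring
    _ ≤ K * ∑ a ∈ I, occ c a ^ 2 := h3

theorem energy_eq (φ : ℝ → ℝ) {N : ℕ} (x : Fin N → Pt) :
    energy φ x = (1 / 2) * ∑ i, ∑ j, if i = j then 0 else φ (dist (x i) (x j)) := by
  rw [energy_eq_En, Blk.En_eq_Eo _ (fun a b => by simp [rad, dist_comm])]
  rfl

theorem nrm_neg (d : Fin 3 → ℤ) : nrm (-d) = nrm d := by
  unfold nrm
  simp

/-- the upper kernel on integer vectors -/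
noncomputable def kp (s R : ℝ) (d : Fin 3 → ℤ) : ℝ := Kac R (max 0 (s * nrm d - Real.sqrt 3 * s))

theorem sum_kp_le {s R : ℝ} (hs : 0 < s) (hsR : s ≤ R) (a : Fin 3 → ℤ) (I : Finset (Fin 3 → ℤ)) :
    ∑ b ∈ I, kp s R (a - b) ≤ (kap + CB * s / R) / s ^ 3 := by
  have h := kernel_upper hs hsR (I.image (fun b => a - b))
  rw [Finset.sum_image (fun b _ b' _ hbb => by simpa using hbb), ← Finset.mul_sum] at h
  rw [le_div_iff₀ (pow_pos hs 3), mul_comm]
  exact h

theorem sq_eq_cellIdx (x : Pt) : sq x = cellIdx (1 / 2) 0 x := by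
  funext i
  simp only [sq, cellIdx, Pi.zero_apply, sub_zero]
  congr 1
  ring

end Sup

/-- (S1) for a general grid of side `s ≤ R` through the point `o`. -/
theorem Kac_energy_le_grid {s R : ℝ} (hs : 0 < s) (hsR : s ≤ R) (o : Fin 3 → ℝ) {N : ℕ}
    (x : Fin N → Pt) :
    energy (Kac R) x ≤ (kap + CB * s / R) / (2 * s ^ 3) *
      ∑ i, ∑ j, (if cellIdx s o (x i) = cellIdx s o (x j) then (1 : ℝ) else 0) := by
  have hR : 0 < R := hs.trans_le hsR
  have h1 : ∀ i j, (if i = j then 0 else Kac R (dist (x i) (x j)))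
      ≤ Sup.kp s R (cellIdx s o (x i) - cellIdx s o (x j)) := by
    intro i j
    split_ifs
    · exact Kac_nonneg hR _
    · exact Kac_anti hR (max_le dist_nonneg (dist_ge_of_cellIdx hs o (x i) (x j)))
  have h2 := Sup.group_bound (fun i => cellIdx s o (x i)) (fun a b => Sup.kp s R (a - b))
    (fun a b => Kac_nonneg hR _)
    (fun a b => by
      show Sup.kp s R (a - b) = Sup.kp s R (b - a)
      unfold Sup.kp
      rw [← neg_sub b a, Sup.nrm_neg])
    ((kap + CB * s / R) / s ^ 3) (Sup.sum_kp_le hs hsR)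
  rw [Sup.energy_eq]
  calc (1 / 2) * ∑ i, ∑ j, (if i = j then 0 else Kac R (dist (x i) (x j)))
      ≤ (1 / 2) * ∑ i, ∑ j, Sup.kp s R (cellIdx s o (x i) - cellIdx s o (x j)) :=
        mul_le_mul_of_nonneg_left
          (Finset.sum_le_sum (fun i _ => Finset.sum_le_sum (fun j _ => h1 i j))) (by norm_num)
    _ ≤ (1 / 2) * ((kap + CB * s / R) / s ^ 3 *
          ∑ i, ∑ j, (if cellIdx s o (x i) = cellIdx s o (x j) then (1 : ℝ) else 0)) :=
        mul_le_mul_of_nonneg_left h2 (by norm_num)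
    _ = _ := by
        rw [← mul_assoc]
        congr 1
        field_simp

/-- (S1) Kac attraction is controlled by `Qf`. -/
theorem Kac_energy_le {R : ℝ} (hR : 1 ≤ R) {N : ℕ} (x : Fin N → Pt) :
    energy (Kac R) x ≤ (4 * kap + 2 * CB / R) * Qf x := by
  have h := Kac_energy_le_grid (s := 1 / 2) (R := R) (by norm_num) (by linarith) 0 x
  have e : (kap + CB * (1 / 2) / R) / (2 * (1 / 2 : ℝ) ^ 3) = 4 * kap + 2 * CB / R := by
    have : R ≠ 0 := by positivity
    field_simp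
    ring
  rw [e] at h
  simpa only [Qf, Sup.sq_eq_cellIdx] using h

theorem Qf_ge_N {N : ℕ} (x : Fin N → Pt) : (N : ℝ) ≤ Qf x := by
  unfold Qf
  have : ∀ i : Fin N, (1 : ℝ) ≤ ∑ j : Fin N, if sq (x i) = sq (x j) then (1 : ℝ) else 0 := by
    intro i
    have := Finset.single_le_sum (f := fun j : Fin N => if sq (x i) = sq (x j) then (1 : ℝ) else 0)
      (fun j _ => by positivity) (Finset.mem_univ i)
    simpa using this
  calc (N : ℝ) = ∑ _i : Fin N, (1 : ℝ) := by simp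
    _ ≤ _ := Finset.sum_le_sum (fun i _ => this i)

/-- (S2) the core controls `Qf`. -/
theorem core_energy_ge {q0 : ℝ → ℝ} {e0 : ℝ} (h0 : ∀ r, 0 ≤ q0 r)
    (h1 : ∀ r, 0 ≤ r → r ≤ 7 / 8 → e0 ≤ q0 r) {N : ℕ} (x : Fin N → Pt) :
    e0 / 2 * (Qf x - N) ≤ energy q0 x := by
  have hp : ∀ i j : Fin N, (if i = j then 0 else e0 * (if sq (x i) = sq (x j) then (1 : ℝ) else 0))
      ≤ (if i = j then 0 else q0 (dist (x i) (x j))) := by
    intro i j
    by_cases hij : i = j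
    · simp [hij]
    · simp only [hij, if_false]
      by_cases hs : sq (x i) = sq (x j)
      · simp only [hs, if_true, mul_one]
        apply h1 _ dist_nonneg
        have hd := dist_le_of_cellIdx (s := 1 / 2) (by norm_num) 0 (x i) (x j)
        rw [← Sup.sq_eq_cellIdx, ← Sup.sq_eq_cellIdx, hs, sub_self] at hd
        have h00 : nrm 0 = 0 := by simp [nrm]
        rw [h00] at hd
        have := Ker.sqrt3_lt
        linarith
      · simp only [hs, if_false, mul_zero]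
        exact h0 _
  have hsum : ∑ i : Fin N, ∑ j : Fin N,
      (if i = j then 0 else e0 * (if sq (x i) = sq (x j) then (1 : ℝ) else 0)) = e0 * (Qf x - N) := by
    have : ∀ i j : Fin N, (if i = j then 0 else e0 * (if sq (x i) = sq (x j) then (1 : ℝ) else 0))
        = e0 * (if sq (x i) = sq (x j) then (1 : ℝ) else 0) - (if i = j then e0 else 0) := by
      intro i j
      by_cases hij : i = j
      · simp [hij]
      · simp [hij]
    simp_rw [this, Finset.sum_sub_distrib, ← Finset.mul_sum]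
    simp [Qf]
    ring
  rw [Sup.energy_eq]
  calc e0 / 2 * (Qf x - N) = (1 / 2) * (e0 * (Qf x - N)) := by ring
    _ ≤ _ := by
      rw [← hsum]
      exact mul_le_mul_of_nonneg_left
        (Finset.sum_le_sum (fun i _ => Finset.sum_le_sum (fun j _ => hp i j))) (by norm_num)

/-- (S3) Cauchy-Schwarz. -/
theorem Qf_ge {L : ℝ} (hL : 0 ≤ L) {N : ℕ} (x : Fin N → Pt) (hx : ∀ i, x i ∈ cube L) :
    (N : ℝ) ^ 2 / (2 * L + 1) ^ 3 ≤ Qf x := by
  set c : Fin N → (Fin 3 → ℤ) := fun i => sq (x i) with hc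
  set I := Finset.univ.image c with hI
  have hQ : Qf x = ∑ a ∈ I, Sup.occ c a ^ 2 := Sup.pairs_eq c
  have hN : (N : ℝ) = ∑ a ∈ I, Sup.occ c a := by
    have := Sup.card_eq c
    simpa using this
  have hcs : (∑ a ∈ I, Sup.occ c a) ^ 2 ≤ (I.card : ℝ) * ∑ a ∈ I, Sup.occ c a ^ 2 :=
    sq_sum_le_card_mul_sum_sq
  have hsub : I ⊆ Fintype.piFinset (fun _ : Fin 3 => Finset.Icc (0 : ℤ) ⌊2 * L⌋) := by
    intro a ha
    rw [hI, Finset.mem_image] at ha
    obtain ⟨i, _, rfl⟩ := ha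
    rw [Fintype.mem_piFinset]
    intro k
    rw [Finset.mem_Icc]
    obtain ⟨h1, h2⟩ := hx i k
    constructor
    · exact Int.floor_nonneg.2 (by linarith)
    · exact Int.floor_le_floor (by linarith)
  have hcard : (I.card : ℝ) ≤ (2 * L + 1) ^ 3 := by
    have h1 := Finset.card_le_card hsub
    rw [Fintype.card_piFinset] at h1
    simp only [Int.card_Icc, sub_zero, Finset.prod_const, Finset.card_univ, Fintype.card_fin] at h1
    have h2 : ((⌊2 * L⌋ + 1).toNat : ℝ) ≤ 2 * L + 1 := by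
      have h0 : 0 ≤ ⌊2 * L⌋ + 1 := by
        have : 0 ≤ ⌊2 * L⌋ := Int.floor_nonneg.2 (by linarith)
        linarith
      have : ((⌊2 * L⌋ + 1).toNat : ℝ) = ((⌊2 * L⌋ + 1 : ℤ) : ℝ) := by
        exact_mod_cast Int.toNat_of_nonneg h0
      rw [this]
      push_cast
      linarith [Int.floor_le (2 * L)]
    calc (I.card : ℝ) ≤ (((⌊2 * L⌋ + 1).toNat ^ 3 : ℕ) : ℝ) := by exact_mod_cast h1
      _ = ((⌊2 * L⌋ + 1).toNat : ℝ) ^ 3 := by push_cast; ring
      _ ≤ (2 * L + 1) ^ 3 := pow_le_pow_left₀ (Nat.cast_nonneg _) h2 3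
  have hQ0 : 0 ≤ ∑ a ∈ I, Sup.occ c a ^ 2 := Finset.sum_nonneg (fun a _ => sq_nonneg _)
  rw [div_le_iff₀ (by positivity), hQ, hN]
  calc (∑ a ∈ I, Sup.occ c a) ^ 2 ≤ (I.card : ℝ) * ∑ a ∈ I, Sup.occ c a ^ 2 := hcs
    _ ≤ (2 * L + 1) ^ 3 * ∑ a ∈ I, Sup.occ c a ^ 2 := mul_le_mul_of_nonneg_right hcard hQ0
    _ = _ := by ring

end Crest.Agent.S0209
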