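import Crest.Agent.S0209_Pot
import Crest.Agent.S0209_Super
import Crest.Agent.S0209_ScaleArith
import Crest.Agent.S0209_KapBounds
import Crest.Agent.S0209_PotProps

/-!
# ROW 149, package I1(c): the full potential `potInf`

Statements verbatim from `notes/ROW149_Iface4.lean.txt` (section I1), except `tail_energy`, which is
false for `k = 0` and gets the hypothesis `1 ≤ k`.
-/

set_option autoImplicit false
namespace Crest.Agent.S0209
open Crest.ProbabilityR.Continuum MeasureTheory Filter Topology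
namespace Par
variable {P : Par}

namespace PI

/-- shifted strengths -/
noncomputable def as (P : Par) (j : ℕ) : ℝ := P.α (j + 1)
/-- shifted ranges -/
noncomputable def Rs (P : Par) (j : ℕ) : ℝ := (P.R (j + 1) : ℝ)

theorem potInf_eq (P : Par) (q0 : ℝ → ℝ) (r : ℝ) :
    P.potInf q0 r = q0 r - Wsum (as P) (Rs P) r := rfl

theorem as_nonneg (h : P.OK) (j : ℕ) : 0 ≤ as P j := (α_pos h _).le

theorem one_le_R (h : P.OK) (j : ℕ) : (1 : ℝ) ≤ P.R j := by
  have := R_pos h j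
  exact_mod_cast this

theorem one_le_Rs (h : P.OK) (j : ℕ) : 1 ≤ Rs P j := one_le_R h _

theorem T_pos (h : P.OK) : 0 < P.T := lt_of_lt_of_le (by norm_num) h.T_ge

theorem c_pos (h : P.OK) : 0 < P.c := by rw [h.c_eq]; norm_num

theorem as_mul (h : P.OK) (j : ℕ) :
    as P (j + 1) * Rs P (j + 1) ^ (1 / 32 : ℝ) = P.c * P.T * (1 / 2) ^ (j + 2) := by
  unfold as Rs α
  rw [if_neg (by omega)]
  have hR : (0 : ℝ) < P.R (j + 1 + 1) := by exact_mod_cast R_pos h _
  rw [mul_assoc, ← Real.rpow_add hR]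
  norm_num

theorem summ (h : P.OK) : Summable fun j => as P j * Rs P j ^ (1 / 32 : ℝ) := by
  rw [← summable_nat_add_iff 1]
  simp_rw [as_mul h]
  exact ((summable_nat_add_iff 2).2 summable_geometric_two).mul_left _

theorem Wk_eq (P : Par) (k : ℕ) (r : ℝ) :
    P.Wk k r = ∑ j ∈ Finset.range k, as P j * Kac (Rs P j) r := by
  induction k with
  | zero => simp [Wk]
  | succ n ih =>
    unfold Wk at ih ⊢
    rw [Finset.sum_Icc_succ_top (by omega), ih, Finset.sum_range_succ]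
    rfl

/-- the tail of the attraction -/
noncomputable def tl (P : Par) (k : ℕ) (r : ℝ) : ℝ :=
  ∑' j : ℕ, as P (j + k) * Kac (Rs P (j + k)) r

theorem potInf_eq_pot_sub (h : P.OK) (q0 : ℝ → ℝ) (k : ℕ) {r : ℝ} (hr : 0 ≤ r) :
    P.potInf q0 r = P.pot q0 k r - tl P k r := by
  have hs := Wsum_summable (as_nonneg h) (one_le_Rs h) (summ h) hr
  have := hs.sum_add_tsum_nat_add k
  rw [potInf_eq, pot, Wk_eq, tl, Wsum, ← this]
  ring

theorem energy_sub (f g : ℝ → ℝ) {N : ℕ} (x : Fin N → Pt) :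
    energy (fun r => f r - g r) x = energy f x - energy g x := by
  unfold energy
  rw [Finset.sum_sub_distrib]

theorem energy_const_mul (a : ℝ) (g : ℝ → ℝ) {N : ℕ} (x : Fin N → Pt) :
    energy (fun r => a * g r) x = a * energy g x := by
  unfold energy
  rw [Finset.mul_sum]

theorem hasSum_energy {f : ℕ → ℝ → ℝ} (hf : ∀ r, 0 ≤ r → Summable fun j => f j r) {N : ℕ}
    (x : Fin N → Pt) :
    HasSum (fun j => energy (f j) x) (energy (fun r => ∑' j, f j r) x) := by
  unfold energy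
  exact hasSum_sum fun p _ => (hf _ dist_nonneg).hasSum

theorem Qf_nonneg {N : ℕ} (x : Fin N → Pt) : 0 ≤ Qf x :=
  le_trans (Nat.cast_nonneg N) (Qf_ge_N x)

theorem CB_pos : 0 < CB := by unfold CB; norm_num

theorem hasSum_geom (k : ℕ) : HasSum (fun j : ℕ => ((1 : ℝ) / 2) ^ (j + k + 1)) ((1 / 2) ^ k) := by
  have h := (hasSum_geometric_two).mul_right (((1 : ℝ) / 2) ^ (k + 1))
  have e1 : (fun j : ℕ => ((1 : ℝ) / 2) ^ (j + k + 1))
      = fun j : ℕ => ((1 : ℝ) / 2) ^ j * (1 / 2) ^ (k + 1) := by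
    funext j
    rw [add_assoc, pow_add]
  have e2 : ((1 : ℝ) / 2) ^ k = 2 * (1 / 2) ^ (k + 1) := by
    rw [pow_succ]
    ring
  rw [e1, e2]
  exact h

theorem tl_energy_le (h : P.OK) {k : ℕ} (hk : 1 ≤ k) {N : ℕ} (x : Fin N → Pt) :
    energy (tl P k) x ≤ P.Ct k * Qf x := by
  have hsum : ∀ r, 0 ≤ r → Summable fun j => as P (j + k) * Kac (Rs P (j + k)) r := fun r hr =>
    (summable_nat_add_iff k).2 (Wsum_summable (as_nonneg h) (one_le_Rs h) (summ h) hr)
  have h1 := hasSum_energy (f := fun j r => as P (j + k) * Kac (Rs P (j + k)) r) hsum x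
  have h2 : HasSum (fun j : ℕ => ((4 * kap + 2 * CB) * P.c * P.T * Qf x) * (1 / 2) ^ (j + k + 1))
      (((4 * kap + 2 * CB) * P.c * P.T * Qf x) * (1 / 2) ^ k) := (hasSum_geom k).mul_left _
  have h3 : P.Ct k * Qf x = ((4 * kap + 2 * CB) * P.c * P.T * Qf x) * (1 / 2) ^ k := by
    unfold Ct
    ring
  rw [h3]
  refine hasSum_le (fun j => ?_) h1 h2
  rw [energy_const_mul]
  have hQ := Qf_nonneg x
  have hR := one_le_Rs h (j + k)
  have hK := Kac_energy_le hR x
  have ha : as P (j + k) ≤ P.c * P.T * (1 / 2) ^ (j + k + 1) := α_le h (by omega)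
  have ha0 := as_nonneg h (j + k)
  have hkap := kap_pos
  have hCB := CB_pos
  have h4 : 2 * CB / Rs P (j + k) ≤ 2 * CB := div_le_self (by positivity) hR
  have h5 : (4 * kap + 2 * CB / Rs P (j + k)) * Qf x ≤ (4 * kap + 2 * CB) * Qf x :=
    mul_le_mul_of_nonneg_right (by linarith) hQ
  calc as P (j + k) * energy (Kac (Rs P (j + k))) x
      ≤ as P (j + k) * ((4 * kap + 2 * CB) * Qf x) :=
        mul_le_mul_of_nonneg_left (hK.trans h5) ha0
    _ ≤ (P.c * P.T * (1 / 2) ^ (j + k + 1)) * ((4 * kap + 2 * CB) * Qf x) :=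
        mul_le_mul_of_nonneg_right ha (by positivity)
    _ = _ := by ring

end PI

open PI

theorem potInf_summable (h : P.OK) (r : ℝ) (hr : 0 ≤ r) :
    Summable (fun j : ℕ => P.α (j + 1) * Kac (P.R (j + 1)) r) :=
  Wsum_summable (as_nonneg h) (one_le_Rs h) (summ h) hr

theorem potInf_le_pot (h : P.OK) (q0 : ℝ → ℝ) (k : ℕ) :
    ∀ r, 0 ≤ r → P.potInf q0 r ≤ P.pot q0 k r := by
  intro r hr
  rw [potInf_eq_pot_sub h q0 k hr]
  have : 0 ≤ tl P k r := tsum_nonneg fun j =>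
    mul_nonneg (as_nonneg h _) (Kac_nonneg (by linarith [one_le_Rs h (j + k)]) r)
  linarith

theorem χt_nonneg (h : P.OK) (k : ℕ) : 0 ≤ P.χt k := by
  have := T_pos h
  have := c_pos h
  have := kap_pos
  have := CB_pos
  unfold χt Ct
  positivity

theorem χt_le (h : P.OK) (k : ℕ) : P.χt k ≤ 1e-9 * (1 / 2) ^ k := by
  have hT := T_pos h
  have hk := kap_le
  have hp : (0 : ℝ) < (1 / 2) ^ k := by positivity
  unfold χt Ct CB
  rw [h.c_eq, div_le_iff₀ (by positivity)]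
  have : (4 * kap + 2 * 2000) * 1e-13 ≤ 1e-9 * 5 := by linarith
  have h2 := mul_le_mul_of_nonneg_right this (mul_pos hT hp).le
  nlinarith [h2]

theorem χt_le_one (h : P.OK) (k : ℕ) : P.χt k ≤ 1 := by
  have h1 := χt_le h k
  have h2 : ((1 : ℝ) / 2) ^ k ≤ 1 := pow_le_one₀ (by norm_num) (by norm_num)
  linarith

variable {q0 : ℝ → ℝ} {I0 : ℝ}

/-- tail comparison, `Qf` form -/
theorem tail_energy' (h : P.OK) (q0 : ℝ → ℝ) {k : ℕ} (hk : 1 ≤ k) {N : ℕ} (x : Fin N → Pt) :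
    energy (P.pot q0 k) x - P.Ct k * Qf x ≤ energy (P.potInf q0) x := by
  have h1 : energy (P.potInf q0) x = energy (fun r => P.pot q0 k r - tl P k r) x :=
    energy_congr (fun r hr => potInf_eq_pot_sub h q0 k hr) x
  rw [h1, energy_sub]
  linarith [tl_energy_le h hk x]

/-- tail comparison (false for `k = 0`, hence the hypothesis `1 ≤ k`) -/
theorem tail_energy (h : P.OK) (hq : CoreP q0 P.T P.a P.b1 P.r0 I0) {k : ℕ} (hk : 1 ≤ k) {N : ℕ}
    (x : Fin N → Pt) :
    (1 - P.χt k) * energy (P.pot q0 k) x - P.χt k * (10 * P.T) * N ≤ energy (P.potInf q0) x := by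
  have hT := T_pos h
  have h1 := tail_energy' h q0 hk x
  have h2 := pot_super h hq k x
  have h3 : P.Ct k = P.χt k * (5 * P.T) := by
    unfold χt
    field_simp
  have h4 := mul_le_mul_of_nonneg_left h2 (χt_nonneg h k)
  rw [h3] at h1
  nlinarith [h1, h4]

theorem potInf_thermo (h : P.OK) (hq : CoreP q0 P.T P.a P.b1 P.r0 I0) :
    Thermo (P.potInf q0) (10 * P.T) I0 := by
  have hmeas : Measurable (P.potInf q0) := hq.meas.sub (measurable_Wsum (as P) (Rs P))
  have hle : ∀ r, P.potInf q0 r ≤ q0 r := fun r => by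
    rw [potInf_eq]
    linarith [Wsum_nonneg (as_nonneg h) (one_le_Rs h) r]
  have hmax : ∀ x : Pt, max (P.potInf q0 ‖x‖) 0 ≤ q0 ‖x‖ := fun x =>
    max_le (hle _) (hq.nonneg _)
  have hint : Integrable (fun x : Pt => max (P.potInf q0 ‖x‖) 0) := by
    refine Integrable.mono' hq.int ?_ (Eventually.of_forall fun x => ?_)
    · exact ((hmeas.comp measurable_norm).max measurable_const).aestronglyMeasurable
    · rw [Real.norm_eq_abs, abs_of_nonneg (le_max_right _ _)]
      exact hmax x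
  refine ⟨⟨hmeas, fun N x => ?_⟩, fun r hr => ?_, hint, ?_⟩
  · have h1 := tail_energy h hq (le_refl 1) x
    have h2 := (pot_good h hq 1).stable N x
    have h3 := mul_le_mul_of_nonneg_left h2 (sub_nonneg.2 (χt_le_one h 1))
    nlinarith [h1, h3]
  · have := hle r
    rw [hq.zero r hr] at this
    exact this
  · exact le_trans (integral_mono hint hq.int hmax) hq.int_le

theorem potInf_decay (h : P.OK) (hq : CoreP q0 P.T P.a P.b1 P.r0 I0) :
    ∃ C : ℝ, ∀ r : ℝ, 1 ≤ r → |P.potInf q0 r| ≤ C * r ^ (-(3 + 1 / 32 : ℝ)) := by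
  refine ⟨∑' j, as P j * Rs P j ^ (1 / 32 : ℝ), fun r hr => ?_⟩
  rw [potInf_eq, hq.zero r hr, zero_sub, abs_neg,
    abs_of_nonneg (Wsum_nonneg (as_nonneg h) (one_le_Rs h) r)]
  exact Wsum_tail (as_nonneg h) (one_le_Rs h) (summ h) hr

theorem potInf_attr (h : P.OK) (hq : CoreP q0 P.T P.a P.b1 P.r0 I0) :
    ∃ a : ℝ, 0 < a ∧ ∀ r : ℝ, 1 ≤ r → r ≤ 2 → P.potInf q0 r ≤ -a := by
  have hR : (16 : ℝ) ≤ Rs P 0 := by
    have h1 := Q_ge16 h
    have h2 := Q_le_R h 1
    have : 16 ≤ P.R (0 + 1) := le_trans h1 h2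
    unfold Rs
    exact_mod_cast this
  have hR0 : 0 < Rs P 0 := by linarith
  refine ⟨as P 0 * Kac (Rs P 0) 2, mul_pos (α_pos h _) ?_, fun r hr1 hr2 => ?_⟩
  · unfold Kac
    have : 2 / Rs P 0 < 1 := by
      rw [div_lt_one hR0]
      linarith
    have h2 : 0 < max 0 (1 - 2 / Rs P 0) := lt_max_of_lt_right (by linarith)
    positivity
  · rw [potInf_eq, hq.zero r hr1, zero_sub, neg_le_neg_iff]
    refine le_trans ?_ (Wsum_ge_term (as_nonneg h) (one_le_Rs h) (summ h) (by linarith) 0)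
    exact mul_le_mul_of_nonneg_left (Kac_anti hR0 hr2) (as_nonneg h 0)

/-- the attraction alone is continuous and bounded on `[0,∞)` -/
theorem Winf_cont (h : P.OK) :
    ContinuousOn (fun r => ∑' j : ℕ, P.α (j + 1) * Kac (P.R (j + 1)) r) (Set.Ici 0) := by
  have hc := continuous_evn_Wsum (as_nonneg h) (one_le_Rs h) (summ h)
  refine hc.continuousOn.congr fun r hr => ?_
  exact evn_eq (Wsum (as P) (Rs P)) r hr

theorem Winf_bdd (h : P.OK) : ∃ C : ℝ, ∀ r, 0 ≤ r →
    |∑' j : ℕ, P.α (j + 1) * Kac (P.R (j + 1)) r| ≤ C := by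
  refine ⟨∑' j, as P j * Rs P j ^ (1 / 32 : ℝ), fun r hr => ?_⟩
  have h0 := Wsum_nonneg (as_nonneg h) (one_le_Rs h) r
  have h1 := Wsum_le (as_nonneg h) (one_le_Rs h) (summ h) hr
  change |Wsum (as P) (Rs P) r| ≤ _
  rw [abs_of_nonneg h0]
  exact h1

end Par
end Crest.Agent.S0209
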