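import Crest.Agent.S0209_BridgeADefs
import Crest.Agent.S0209_PotInf
import Crest.Agent.S0209_Lam

/-!
# ROW 149, package I5 (assistant): the error sequence of `bridge_A` tends to `0`
-/

set_option autoImplicit false
namespace Crest.Agent.S0209
namespace Par
namespace BrA
open Filter Topology

variable {P : Par}

theorem succ_le_l (h : P.OK) (j : ℕ) : ((j : ℝ) + 1) + 1 ≤ (P.l (j + 1) : ℝ) := by
  have h1 := Lam.l_geR h j
  have h2 : ((j : ℝ) + 1) ≤ 16 ^ j := by
    have := one_add_mul_le_pow (a := (15 : ℝ)) (by norm_num) j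
    have h3 : (1 : ℝ) + 15 = 16 := by norm_num
    rw [h3] at this
    have hj : (0 : ℝ) ≤ j := Nat.cast_nonneg j
    linarith
  have h4 : (0 : ℝ) < 16 ^ j := by positivity
  nlinarith

theorem succ_le_R (h : P.OK) (j : ℕ) : ((j : ℝ) + 1) ≤ (P.R j : ℝ) := by
  have h1 : ((P.Q * 16 ^ j : ℕ) : ℝ) ≤ (P.R j : ℝ) := by exact_mod_cast R_ge h j
  have hQ : (1 : ℝ) ≤ P.Q := by
    have := Q_pos h
    exact_mod_cast this
  have h2 : ((j : ℝ) + 1) ≤ 16 ^ j := by
    have := one_add_mul_le_pow (a := (15 : ℝ)) (by norm_num) j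
    have h3 : (1 : ℝ) + 15 = 16 := by norm_num
    rw [h3] at this
    have hj : (0 : ℝ) ≤ j := Nat.cast_nonneg j
    linarith
  have h4 : (0 : ℝ) < 16 ^ j := by positivity
  push_cast at h1
  nlinarith

theorem tendsto_θ : Tendsto θ atTop (𝓝 0) := tendsto_one_div_add_atTop_nhds_zero_nat

theorem tendsto_χ (h : P.OK) : Tendsto P.χ atTop (𝓝 0) := by
  rw [← tendsto_add_atTop_iff_nat 1]
  have h6 : Tendsto (fun j : ℕ => 6 * θ j) atTop (𝓝 0) := by
    simpa using tendsto_θ.const_mul 6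
  refine squeeze_zero (fun j => χ_nonneg h _) (fun j => ?_) h6
  refine (χ_le h (by omega : 1 ≤ j + 1)).trans ?_
  simp only [Nat.add_sub_cancel]
  unfold θ
  have h1 := succ_le_R h j
  have h2 : (0 : ℝ) < (j : ℝ) + 1 := by positivity
  rw [mul_one_div]
  exact div_le_div_of_nonneg_left (by norm_num) h2 h1

theorem tendsto_half : Tendsto (fun k : ℕ => ((1 : ℝ) / 2) ^ k) atTop (𝓝 0) :=
  tendsto_pow_atTop_nhds_zero_of_lt_one (by norm_num) (by norm_num)

theorem tendsto_χt (h : P.OK) : Tendsto P.χt atTop (𝓝 0) := by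
  have h6 : Tendsto (fun k : ℕ => (1e-9 : ℝ) * (1 / 2) ^ k) atTop (𝓝 0) := by
    simpa using tendsto_half.const_mul (1e-9 : ℝ)
  exact squeeze_zero (fun k => χt_nonneg h k) (fun k => χt_le h k) h6

theorem tendsto_χ2 (h : P.OK) : Tendsto (χ2 P) atTop (𝓝 0) := by
  have h1 := ((tendsto_χ h).const_sub 1).mul ((tendsto_χt h).const_sub 1)
  have h2 := h1.const_sub 1
  have e : (1 : ℝ) - (1 - 0) * (1 - 0) = 0 := by norm_num
  rw [e] at h2
  exact h2

theorem κp_le (h : P.OK) {k : ℕ} (hk : 1 ≤ k) : P.κp k ≤ kap + CB := by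
  unfold κp
  have hl : (2 * (P.w k : ℝ) * P.mt k) = P.l k := by exact_mod_cast (l_eq h hk).symm
  have hR : (P.R k : ℝ) = (P.l k : ℝ) ^ 2 := by exact_mod_cast R_eq_l_sq P hk
  rw [hl, hR]
  obtain ⟨j, rfl⟩ : ∃ j, k = j + 1 := ⟨k - 1, by omega⟩
  have h1 := succ_le_l h j
  have hj : (0 : ℝ) ≤ j := Nat.cast_nonneg j
  have hl1 : (1 : ℝ) ≤ P.l (j + 1) := by linarith
  have hCB : (0 : ℝ) < CB := by unfold CB; norm_num
  have : CB * (P.l (j + 1) : ℝ) / (P.l (j + 1) : ℝ) ^ 2 ≤ CB := by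
    rw [div_le_iff₀ (by positivity)]
    have : (P.l (j + 1) : ℝ) * 1 ≤ (P.l (j + 1) : ℝ) * (P.l (j + 1) : ℝ) :=
      mul_le_mul_of_nonneg_left hl1 (by linarith)
    nlinarith
  linarith

theorem κp_nonneg (P : Par) (k : ℕ) : 0 ≤ P.κp k := by
  unfold κp
  have hCB : (0 : ℝ) < CB := by unfold CB; norm_num
  have := kap_pos
  positivity

theorem tendsto_αterm (h : P.OK) :
    Tendsto (fun k => P.α k * P.κp k / (2 * (P.l k : ℝ) ^ 3)) atTop (𝓝 0) := by
  have hT : 0 < P.T := lt_of_lt_of_le (by norm_num) h.T_ge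
  have hc : 0 < P.c := by rw [h.c_eq]; norm_num
  have hCB : (0 : ℝ) < CB := by unfold CB; norm_num
  have hkap := kap_pos
  have h6 : Tendsto (fun k : ℕ => (P.c * P.T * (kap + CB)) * (1 / 2 : ℝ) ^ k) atTop (𝓝 0) := by
    simpa using tendsto_half.const_mul (P.c * P.T * (kap + CB))
  refine squeeze_zero' (Eventually.of_forall fun k => ?_) ?_ h6
  · have := (α_pos h k).le
    have := κp_nonneg P k
    positivity
  · filter_upwards [eventually_ge_atTop 2] with k hk
    have h1 := α_le h hk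
    have h2 := κp_le h (by omega : 1 ≤ k)
    have h3 := (α_pos h k).le
    have h4 := κp_nonneg P k
    obtain ⟨j, rfl⟩ : ∃ j, k = j + 1 := ⟨k - 1, by omega⟩
    have h5 := succ_le_l h j
    have hj : (0 : ℝ) ≤ j := Nat.cast_nonneg j
    have hl1 : (1 : ℝ) ≤ P.l (j + 1) := by linarith
    have hl3 : (1 : ℝ) ≤ (P.l (j + 1) : ℝ) ^ 3 := one_le_pow₀ hl1
    rw [div_le_iff₀ (by positivity)]
    have hp : (0 : ℝ) < (1 / 2 : ℝ) ^ (j + 1) := by positivity
    calc P.α (j + 1) * P.κp (j + 1) ≤ (P.c * P.T * (1 / 2) ^ (j + 1)) * (kap + CB) :=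
          mul_le_mul h1 h2 h4 (by positivity)
      _ = (P.c * P.T * (kap + CB) * (1 / 2) ^ (j + 1)) * 1 := by ring
      _ ≤ (P.c * P.T * (kap + CB) * (1 / 2) ^ (j + 1)) * (2 * (P.l (j + 1) : ℝ) ^ 3) :=
          mul_le_mul_of_nonneg_left (by linarith) (by positivity)

theorem log_term_bounds (k : ℕ) :
    0 ≤ Real.log (1 / (1 - Real.exp (-θ k))) ∧
      Real.log (1 / (1 - Real.exp (-θ k))) ≤ (k : ℝ) + 1 := by
  have hk : (0 : ℝ) ≤ k := Nat.cast_nonneg k
  have hθ : 0 < θ k := by unfold θ; positivity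
  have h1 : Real.exp (-θ k) < 1 := by
    rw [Real.exp_lt_one_iff]; linarith
  have h2 : 0 < 1 - Real.exp (-θ k) := by linarith
  have h3 : 1 - Real.exp (-θ k) ≤ 1 := by linarith [Real.exp_pos (-θ k)]
  have h4 : 1 / ((k : ℝ) + 2) ≤ 1 - Real.exp (-θ k) := by
    have h5 : 1 + θ k ≤ Real.exp (θ k) := by linarith [Real.add_one_le_exp (θ k)]
    have h6 : Real.exp (-θ k) ≤ 1 / (1 + θ k) := by
      rw [Real.exp_neg, ← one_div]
      exact one_div_le_one_div_of_le (by linarith) h5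
    have h7 : 1 / (1 + θ k) = 1 - 1 / ((k : ℝ) + 2) := by
      unfold θ
      field_simp
      ring
    linarith
  constructor
  · apply Real.log_nonneg
    rw [le_div_iff₀ h2]
    linarith
  · have h8 : 1 / (1 - Real.exp (-θ k)) ≤ (k : ℝ) + 2 := by
      rw [div_le_iff₀ h2]
      have h9 : ((k : ℝ) + 2) * (1 / ((k : ℝ) + 2)) ≤ ((k : ℝ) + 2) * (1 - Real.exp (-θ k)) :=
        mul_le_mul_of_nonneg_left h4 (by positivity)
      rw [mul_one_div_cancel (by positivity)] at h9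
      exact h9
    have h10 : Real.log (1 / (1 - Real.exp (-θ k))) ≤ Real.log ((k : ℝ) + 2) :=
      Real.log_le_log (by positivity) h8
    have h11 := Real.log_le_sub_one_of_pos (by positivity : (0 : ℝ) < (k : ℝ) + 2)
    linarith

theorem tendsto_logterm (h : P.OK) :
    Tendsto (fun k => Real.log (1 / (1 - Real.exp (-θ k))) / (P.l k : ℝ) ^ 3) atTop (𝓝 0) := by
  refine squeeze_zero' (Eventually.of_forall fun k => ?_) ?_ tendsto_θ
  · have := (log_term_bounds k).1
    positivity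
  · filter_upwards [eventually_ge_atTop 1] with k hk
    obtain ⟨j, rfl⟩ : ∃ j, k = j + 1 := ⟨k - 1, by omega⟩
    have h1 := (log_term_bounds (j + 1)).2
    have h5 := succ_le_l h j
    have hj : (0 : ℝ) ≤ j := Nat.cast_nonneg j
    set l : ℝ := (P.l (j + 1) : ℝ) with hl
    have hl0 : 0 < l := by linarith
    unfold θ at *
    push_cast at *
    rw [div_le_iff₀ (by positivity), one_div_mul_eq_div, le_div_iff₀ (by positivity)]
    have h6 : ((j : ℝ) + 1 + 1) * ((j : ℝ) + 1 + 1) ≤ l * l := mul_le_mul h5 h5 (by positivity) hl0.le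
    have h7 : l * l * 1 ≤ l * l * l := mul_le_mul_of_nonneg_left (by linarith) (by positivity)
    have h8 : Real.log (1 / (1 - Real.exp (-(1 / ((j : ℝ) + 1 + 1))))) * ((j : ℝ) + 1 + 1)
        ≤ ((j : ℝ) + 1 + 1) * ((j : ℝ) + 1 + 1) :=
      mul_le_mul_of_nonneg_right h1 (by positivity)
    nlinarith

theorem tendsto_err (h : P.OK) : Tendsto (err P) atTop (𝓝 0) := by
  have h1 := (tendsto_χ2 h).const_mul (15000 * P.T)
  have h2 := ((tendsto_χ h).mul_const (20 * P.T)).div_const 2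
  have h3 := (h2.add (tendsto_αterm h)).const_mul 1.01
  have h4 := ((tendsto_χt h).mul_const (10 * P.T)).const_mul 1.01
  have h5 := ((tendsto_θ.add h3).add h4).const_mul 100
  have h6 := ((h1.add h5).add (tendsto_χ2 h)).add (tendsto_logterm h)
  have e : 15000 * P.T * 0 + 100 * (0 + 1.01 * (0 * (20 * P.T) / 2 + 0) + 1.01 * (0 * (10 * P.T)))
      + 0 + 0 = (0 : ℝ) := by ring
  rw [e] at h6
  exact h6

end BrA
end Par
end Crest.Agent.S0209
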