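import Crest.Agent.S0209_BridgeACore
import Crest.Agent.S0209_BridgeAErr

/-!
# ROW 149, package I5 (assistant): `bridge_A` (verbatim from `notes/ROW149_Iface4.lean.txt`)
-/

set_option autoImplicit false
namespace Crest.Agent.S0209
open Crest.ProbabilityR.Continuum MeasureTheory
namespace Par

variable {P : Par} {q0 : ℝ → ℝ} {I0 : ℝ}

theorem bridge_A (h : P.OK) (hq : CoreP q0 P.T P.a P.b1 P.r0 I0) :
    ∃ e : ℕ → ℝ, Filter.Tendsto e Filter.atTop (nhds 0) ∧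
    ∀ k, 1 ≤ k → ∀ β ∈ Set.Icc (0.99 : ℝ) 1.01, ∀ ρ : ℝ, 0 < ρ → ρ ≤ 100 →
      ∀ μ ∈ Set.Icc (125 : ℝ) 150, ∀ Pp : ℝ,
      (∀ n : ℕ, μ * ((n : ℝ) / (P.hier q0).M k) - (P.hier q0).psi k β n ≤ Pp) →
      P.T * (μ * ρ - P.lamA k * Pp) - e k ≤ Glim (P.potInf q0) β ρ :=
  ⟨BrA.err P, BrA.tendsto_err h, BrA.bridge_A_core h hq⟩

end Par
end Crest.Agent.S0209
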