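import Mathlib

/-!
# ROW 149, package KD: from two-sided linear bounds for a concave function to a kink of `g β / β`
-/

set_option autoImplicit false
namespace Crest.Agent.S0209
open Set Filter Topology

/-- `g` concave on `(0,∞)`, with `g β' - g βc ≤ uA (β'-βc)` and `≤ uB (β'-βc)` near `βc`, `uA < uB`.
Then `f = g/β` has one-sided derivatives at `βc`, left strictly above right. -/
theorem kink_of_bounds {g : ℝ → ℝ} (hg : ConcaveOn ℝ (Set.Ioi 0) g) {βc r uA uB : ℝ} (hβc : 0 < βc)
    (hr : 0 < r) (hAB : uA < uB)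
    (hA : ∀ β, |β - βc| < r → g β - g βc ≤ uA * (β - βc))
    (hB : ∀ β, |β - βc| < r → g β - g βc ≤ uB * (β - βc)) :
    ∃ Dl Dr : ℝ, HasDerivWithinAt (fun β => g β / β) Dl (Set.Iio βc) βc ∧
      HasDerivWithinAt (fun β => g β / β) Dr (Set.Ioi βc) βc ∧ Dr < Dl := by
  have hint : βc ∈ interior (Set.Ioi (0 : ℝ)) := by
    rw [interior_Ioi]; exact hβc
  have hconv : ConvexOn ℝ (Set.Ioi 0) (-g) := hg.neg
  -- one-sided derivatives of g
  obtain ⟨gr, hgr⟩ : ∃ gr, HasDerivWithinAt g gr (Set.Ioi βc) βc := by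
    have h := (hconv.hasDerivWithinAt_rightDeriv_of_mem_interior hint).neg
    simp only [neg_neg] at h
    exact ⟨_, h⟩
  obtain ⟨gl, hgl⟩ : ∃ gl, HasDerivWithinAt g gl (Set.Iio βc) βc := by
    have h := (hconv.hasDerivWithinAt_leftDeriv_of_mem_interior hint).neg
    simp only [neg_neg] at h
    exact ⟨_, h⟩
  have hgrA : gr ≤ uA := by
    have ht := (hasDerivWithinAt_iff_tendsto_slope' (by simp)).1 hgr
    refine le_of_tendsto ht ?_
    have hmem : Set.Ioo βc (βc + r) ∈ 𝓝[>] βc := Ioo_mem_nhdsGT (by linarith)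
    filter_upwards [hmem] with β hβ
    have hpos : 0 < β - βc := by linarith [hβ.1]
    have h1 := hA β (by rw [abs_of_pos hpos]; linarith [hβ.2])
    rw [slope_def_field, div_le_iff₀ hpos]
    exact h1
  have hglB : uB ≤ gl := by
    have ht := (hasDerivWithinAt_iff_tendsto_slope' (by simp)).1 hgl
    refine ge_of_tendsto ht ?_
    have hmem : Set.Ioo (βc - r) βc ∈ 𝓝[<] βc := Ioo_mem_nhdsLT (by linarith)
    filter_upwards [hmem] with β hβ
    have hneg : β - βc < 0 := by linarith [hβ.2]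
    have h1 := hB β (by rw [abs_of_neg hneg]; linarith [hβ.1])
    rw [slope_def_field, le_div_iff_of_neg hneg]
    exact h1
  have hl := hgl.div (hasDerivWithinAt_id βc (Set.Iio βc)) hβc.ne'
  have hr' := hgr.div (hasDerivWithinAt_id βc (Set.Ioi βc)) hβc.ne'
  refine ⟨_, _, hl, hr', ?_⟩
  simp only [id]
  have h2 : 0 < βc ^ 2 := by positivity
  rw [div_lt_div_iff_of_pos_right h2]
  have : gr * βc < gl * βc := by
    apply mul_lt_mul_of_pos_right _ hβc
    linarith
  linarith

end Crest.Agent.S0209
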