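import Crest.Agent.S0209_Basic
import Crest.Agent.S0209_KinkDeriv

/-!
# ROW 149, package K (part 1): from a two-sided linear bound for the limiting `β f` to the
clauses of the frozen statements (existence of the free energy, kink), including length scaling.
-/

set_option autoImplicit false
namespace Crest.Agent.S0209
open Crest.ProbabilityR.Continuum MeasureTheory Filter Topology

/-- The thermodynamic limit exists for all `β, ρ > 0`. -/
def HasLim (φ : ℝ → ℝ) : Prop :=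
  ∀ β ρ : ℝ, 0 < β → 0 < ρ →
    ∃ F : ℝ, Tendsto (fun L : ℝ => Phi φ L ⌊ρ * L ^ 3⌋₊ β / L ^ 3) atTop (𝓝 F)

/-- The limiting `β f(β,ρ)` (junk if the limit does not exist). -/
noncomputable def Glim (φ : ℝ → ℝ) (β ρ : ℝ) : ℝ :=
  limUnder atTop (fun L : ℝ => Phi φ L ⌊ρ * L ^ 3⌋₊ β / L ^ 3)

theorem tendsto_Glim {φ : ℝ → ℝ} (h : HasLim φ) {β ρ : ℝ} (hβ : 0 < β) (hρ : 0 < ρ) :
    Tendsto (fun L : ℝ => Phi φ L ⌊ρ * L ^ 3⌋₊ β / L ^ 3) atTop (𝓝 (Glim φ β ρ)) :=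
  tendsto_nhds_limUnder (h β ρ hβ hρ)

theorem Glim_eq {φ : ℝ → ℝ} {β ρ F : ℝ}
    (hF : Tendsto (fun L : ℝ => Phi φ L ⌊ρ * L ^ 3⌋₊ β / L ^ 3) atTop (𝓝 F)) :
    Glim φ β ρ = F := hF.limUnder_eq

theorem Glim_concave {φ : ℝ → ℝ} {B : ℝ} (hg : Good φ B) (h : HasLim φ) {ρ : ℝ} (hρ : 0 < ρ) :
    ConcaveOn ℝ (Set.Ioi 0) (fun β => Glim φ β ρ) := by
  refine ⟨convex_Ioi 0, ?_⟩
  intro x hx y hy a b ha hb hab
  have hx' : (0 : ℝ) < x := hx
  have hy' : (0 : ℝ) < y := hy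
  have hz : (0 : ℝ) < a • x + b • y := (convex_Ioi (0 : ℝ)) hx hy ha hb hab
  have h1 := ((tendsto_Glim h hx' hρ).const_mul a).add ((tendsto_Glim h hy' hρ).const_mul b)
  have h2 := tendsto_Glim h hz hρ
  refine le_of_tendsto_of_tendsto h1 h2 ?_
  filter_upwards [eventually_gt_atTop (0 : ℝ)] with L hL
  have hc := (Phi_concave hg hL ⌊ρ * L ^ 3⌋₊).2 (Set.mem_Ici.2 hx'.le) (Set.mem_Ici.2 hy'.le)
    ha hb hab
  simp only [smul_eq_mul] at hc ⊢
  have hL3 : (0 : ℝ) < L ^ 3 := by positivity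
  rw [← mul_div_assoc, ← mul_div_assoc, ← add_div]
  exact div_le_div_of_nonneg_right hc hL3.le

/-- The two-sided linear bound (output of the main theorem). -/
def HasKink (φ : ℝ → ℝ) (βc ρ : ℝ) : Prop :=
  ∃ uA uB r : ℝ, uA < uB ∧ 0 < r ∧ ∀ β : ℝ, |β - βc| < r →
    Glim φ β ρ - Glim φ βc ρ ≤ uA * (β - βc) ∧ Glim φ β ρ - Glim φ βc ρ ≤ uB * (β - βc)

/-- The rescaled potential. -/
noncomputable def scl (φ : ℝ → ℝ) (b : ℝ) : ℝ → ℝ := fun r => φ (r / b)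

/-- `β f` for the rescaled potential. -/
noncomputable def Gscl (φ : ℝ → ℝ) (b β ρ : ℝ) : ℝ :=
  Glim φ β (ρ * b ^ 3) / b ^ 3 - 3 * ρ * Real.log b

theorem tendsto_floor_div {ρ : ℝ} (hρ : 0 ≤ ρ) :
    Tendsto (fun L : ℝ => ((⌊ρ * L ^ 3⌋₊ : ℕ) : ℝ) / L ^ 3) atTop (𝓝 ρ) := by
  have h3 : Tendsto (fun L : ℝ => L ^ 3) atTop atTop := tendsto_pow_atTop (by norm_num)
  have h1 : Tendsto (fun L : ℝ => ρ - 1 / L ^ 3) atTop (𝓝 (ρ - 0)) :=
    tendsto_const_nhds.sub (h3.const_div_atTop 1)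
  rw [sub_zero] at h1
  refine tendsto_of_tendsto_of_tendsto_of_le_of_le' h1 tendsto_const_nhds ?_ ?_
  · filter_upwards [eventually_gt_atTop (0 : ℝ)] with L hL
    have hL3 : (0 : ℝ) < L ^ 3 := by positivity
    have := Nat.lt_floor_add_one (ρ * L ^ 3)
    rw [le_div_iff₀ hL3, sub_mul, div_mul_cancel₀ _ hL3.ne']
    linarith
  · filter_upwards [eventually_gt_atTop (0 : ℝ)] with L hL
    have hL3 : (0 : ℝ) < L ^ 3 := by positivity
    rw [div_le_iff₀ hL3]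
    exact Nat.floor_le (by positivity)

theorem tendsto_scl {φ : ℝ → ℝ} {B : ℝ} (hg : Good φ B) (h : HasLim φ) {b : ℝ} (hb : 0 < b)
    {β ρ : ℝ} (hβ : 0 < β) (hρ : 0 < ρ) :
    Tendsto (fun L : ℝ => -(1 / (β * L ^ 3)) *
        Real.log (partitionFn (scl φ b) L ⌊ρ * L ^ 3⌋₊ β)) atTop (𝓝 (Gscl φ b β ρ / β)) := by
  have hb3 : (0 : ℝ) < b ^ 3 := by positivity
  have hρ' : 0 < ρ * b ^ 3 := by positivity
  have hdiv : Tendsto (fun L : ℝ => L / b) atTop atTop := tendsto_id.atTop_div_const hb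
  have h1 := (tendsto_Glim h hβ hρ').comp hdiv
  have h2 := tendsto_floor_div hρ.le
  have h3 : Tendsto (fun L : ℝ =>
      ((Phi φ (L / b) ⌊ρ * b ^ 3 * (L / b) ^ 3⌋₊ β / (L / b) ^ 3) / b ^ 3
        - 3 * (((⌊ρ * L ^ 3⌋₊ : ℕ) : ℝ) / L ^ 3) * Real.log b) / β) atTop
      (𝓝 (Gscl φ b β ρ / β)) :=
    (((h1.div_const (b ^ 3)).sub ((h2.const_mul 3).mul_const (Real.log b)))).div_const β
  refine h3.congr' ?_
  filter_upwards [eventually_gt_atTop (0 : ℝ)] with L hL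
  have hL3 : (0 : ℝ) < L ^ 3 := by positivity
  have e1 : ρ * b ^ 3 * (L / b) ^ 3 = ρ * L ^ 3 := by field_simp
  have e2 : partitionFn (scl φ b) L ⌊ρ * L ^ 3⌋₊ β
      = b ^ (3 * ⌊ρ * L ^ 3⌋₊) * partitionFn φ (L / b) ⌊ρ * L ^ 3⌋₊ β := by
    have := Z_scale φ hb (L / b) ⌊ρ * L ^ 3⌋₊ β
    rw [mul_div_cancel₀ _ hb.ne'] at this
    exact this
  have hZ : 0 < partitionFn φ (L / b) ⌊ρ * L ^ 3⌋₊ β := Z_pos hg (by positivity) hβ.le _
  rw [e1, e2, Real.log_mul (by positivity) hZ.ne', Real.log_pow]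
  unfold Phi
  push_cast
  field_simp
  ring

/-- Generic final step: existence of the free energy of the rescaled potential for all `β,ρ>0`,
and the kink wherever the unscaled potential has the two-sided linear bound. -/
theorem final_generic {φ : ℝ → ℝ} {B : ℝ} (hg : Good φ B) (h : HasLim φ) {b : ℝ} (hb : 0 < b)
    {βc : ℝ} (hβc : 0 < βc) :
    ∃ f : ℝ → ℝ → ℝ,
      (∀ ρ : ℝ, 0 < ρ → ∀ β : ℝ, 0 < β →
        Tendsto (fun L : ℝ => -(1 / (β * L ^ 3)) *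
          Real.log (partitionFn (scl φ b) L ⌊ρ * L ^ 3⌋₊ β)) atTop (𝓝 (f β ρ))) ∧
      (∀ ρ : ℝ, 0 < ρ → HasKink φ βc (ρ * b ^ 3) → ∃ Dl Dr : ℝ,
        HasDerivWithinAt (fun β => f β ρ) Dl (Set.Iio βc) βc ∧
        HasDerivWithinAt (fun β => f β ρ) Dr (Set.Ioi βc) βc ∧ Dr < Dl) := by
  refine ⟨fun β ρ => Gscl φ b β ρ / β, fun ρ hρ β hβ => tendsto_scl hg h hb hβ hρ, ?_⟩
  intro ρ hρ hk
  obtain ⟨uA, uB, r, hAB, hr, hbd⟩ := hk
  have hb3 : (0 : ℝ) < b ^ 3 := by positivity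
  have hρ' : 0 < ρ * b ^ 3 := by positivity
  have hconc : ConcaveOn ℝ (Set.Ioi 0) (fun β => Gscl φ b β ρ) := by
    have h0 := Glim_concave hg h hρ'
    have h1 : ConcaveOn ℝ (Set.Ioi 0) (fun β => (1 / b ^ 3) • Glim φ β (ρ * b ^ 3)) :=
      h0.smul (by positivity)
    have h2 := h1.add_const (-(3 * ρ * Real.log b))
    refine h2.congr ?_
    intro β _
    simp only [Gscl, smul_eq_mul, Pi.add_apply]
    ring
  refine kink_of_bounds hconc hβc hr (uA := uA / b ^ 3) (uB := uB / b ^ 3)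
    (div_lt_div_of_pos_right hAB hb3) ?_ ?_
  · intro β hβ
    have := (hbd β hβ).1
    simp only [Gscl]
    have e : Glim φ β (ρ * b ^ 3) / b ^ 3 - 3 * ρ * Real.log b
        - (Glim φ βc (ρ * b ^ 3) / b ^ 3 - 3 * ρ * Real.log b)
        = (Glim φ β (ρ * b ^ 3) - Glim φ βc (ρ * b ^ 3)) / b ^ 3 := by ring
    rw [e, div_mul_eq_mul_div]
    exact div_le_div_of_nonneg_right this hb3.le
  · intro β hβ
    have := (hbd β hβ).2
    simp only [Gscl]
    have e : Glim φ β (ρ * b ^ 3) / b ^ 3 - 3 * ρ * Real.log b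
        - (Glim φ βc (ρ * b ^ 3) / b ^ 3 - 3 * ρ * Real.log b)
        = (Glim φ β (ρ * b ^ 3) - Glim φ βc (ρ * b ^ 3)) / b ^ 3 := by ring
    rw [e, div_mul_eq_mul_div]
    exact div_le_div_of_nonneg_right this hb3.le

end Crest.Agent.S0209

/-- Realise the auto-generated equation lemmas once, in this (defining / root) module, so that
sibling modules of one import closure do not each create their own copy of the same name. -/
theorem Crest.Agent.S0209.eqns_realised_Final : True := by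
  have := @Crest.Agent.S0209.HasLim.eq_1
  have := @Crest.Agent.S0209.Glim.eq_1
  have := @Crest.Agent.S0209.HasKink.eq_1
  have := @Crest.Agent.S0209.scl.eq_1
  have := @Crest.Agent.S0209.Gscl.eq_1
  trivial
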