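import Crest.Agent.S0209_Defs

/-!
# ROW 149, package AB, part 1: basic facts on `En`, `Zg`, `cube`
-/

set_option autoImplicit false
namespace Crest.Agent.S0209
open Crest.ProbabilityR.Continuum MeasureTheory

/-! ## measurability -/

theorem measurable_En {V : Pt → Pt → ℝ} (hV : Measurable (Function.uncurry V)) (N : ℕ) :
    Measurable (fun x : Fin N → Pt => En V x) := by
  unfold En
  refine Finset.measurable_sum _ (fun p _ => ?_)
  have h1 : Measurable (fun x : Fin N → Pt => x p.1.1) := measurable_pi_apply _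
  have h2 : Measurable (fun x : Fin N → Pt => x p.1.2) := measurable_pi_apply _
  exact hV.comp (h1.prodMk h2)

theorem measurable_rad {φ : ℝ → ℝ} (hφ : Measurable φ) :
    Measurable (Function.uncurry (rad φ)) := by
  unfold rad Function.uncurry
  exact hφ.comp (measurable_fst.dist measurable_snd)

theorem measurable_energy {φ : ℝ → ℝ} (hφ : Measurable φ) (N : ℕ) :
    Measurable (fun x : Fin N → Pt => energy φ x) :=
  measurable_En (measurable_rad hφ) N

theorem measurable_exp_En {V : Pt → Pt → ℝ} (hV : Measurable (Function.uncurry V)) (N : ℕ)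
    (β : ℝ) : Measurable (fun x : Fin N → Pt => Real.exp (-β * En V x)) :=
  Real.measurable_exp.comp ((measurable_En hV N).const_mul _)

/-! ## the cube -/

theorem cube_eq_preimage (L : ℝ) :
    cube L = (WithLp.ofLp : Pt → (Fin 3 → ℝ)) ⁻¹' (Set.Icc (fun _ => 0) (fun _ => L)) := by
  ext x
  simp only [cube, Set.mem_ofPred_eq, Set.mem_preimage, Set.mem_Icc, Pi.le_def]
  exact forall_and

theorem measurableSet_cube (L : ℝ) : MeasurableSet (cube L) := by
  rw [cube_eq_preimage]
  exact (PiLp.volume_preserving_ofLp (Fin 3)).measurable measurableSet_Icc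

theorem volume_cube {L : ℝ} (hL : 0 ≤ L) : volume (cube L) = ENNReal.ofReal (L ^ 3) := by
  rw [cube_eq_preimage, (PiLp.volume_preserving_ofLp (Fin 3)).measure_preimage
    measurableSet_Icc.nullMeasurableSet, Real.volume_Icc_pi]
  simp [ENNReal.ofReal_pow hL]

theorem volume_cube_lt_top (L : ℝ) : volume (cube L) < ⊤ := by
  rcases le_or_gt 0 L with hL | hL
  · rw [volume_cube hL]; exact ENNReal.ofReal_lt_top
  · have : cube L = ∅ := by
      ext x
      simp only [cube, Set.mem_ofPred_eq, Set.mem_empty_iff_false, iff_false, not_forall]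
      exact ⟨0, fun h => by linarith [h.1, h.2]⟩
    rw [this]; simp

theorem cube_mono {L L' : ℝ} (h : L ≤ L') : cube L ⊆ cube L' :=
  fun _ hx k => ⟨(hx k).1, (hx k).2.trans h⟩

/-- The box of configurations. -/
theorem measurableSet_box {Λ : Set Pt} (hΛ : MeasurableSet Λ) (N : ℕ) :
    MeasurableSet (Set.pi Set.univ (fun _ : Fin N => Λ)) :=
  MeasurableSet.univ_pi (fun _ => hΛ)

theorem volume_box (Λ : Set Pt) (N : ℕ) :
    volume (Set.pi Set.univ (fun _ : Fin N => Λ)) = volume Λ ^ N := by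
  rw [volume_pi_pi]; simp

theorem volume_box_lt_top {Λ : Set Pt} (hΛ : volume Λ < ⊤) (N : ℕ) :
    volume (Set.pi Set.univ (fun _ : Fin N => Λ)) < ⊤ := by
  rw [volume_box]; exact ENNReal.pow_lt_top hΛ

/-! ## integrability -/

/-- If the energy is bounded below on the box then the Boltzmann factor is integrable there. -/
theorem integrableOn_exp_En {V : Pt → Pt → ℝ} (hV : Measurable (Function.uncurry V))
    {Λ : Set Pt} (hΛm : MeasurableSet Λ) (hΛ : volume Λ < ⊤) {N : ℕ} {β c : ℝ} (hβ : 0 ≤ β)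
    (hc : ∀ x : Fin N → Pt, (∀ i, x i ∈ Λ) → -c ≤ En V x) :
    IntegrableOn (fun x : Fin N → Pt => Real.exp (-β * En V x))
      (Set.pi Set.univ (fun _ : Fin N => Λ)) := by
  refine Measure.integrableOn_of_bounded (M := Real.exp (β * c)) (volume_box_lt_top hΛ N).ne
    (measurable_exp_En hV N β).aestronglyMeasurable ?_
  refine ae_restrict_of_forall_mem (measurableSet_box hΛm N) (fun x hx => ?_)
  rw [Real.norm_eq_abs, abs_of_pos (Real.exp_pos _)]
  apply Real.exp_le_exp.mpr
  have := hc x (fun i => hx i (Set.mem_univ i))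
  nlinarith

/-! ## `Zg` -/

theorem Zg_nonneg (V : Pt → Pt → ℝ) (Λ : Set Pt) (N : ℕ) (β : ℝ) : 0 ≤ Zg V Λ N β := by
  unfold Zg
  exact mul_nonneg (by positivity) (integral_nonneg (fun _ => (Real.exp_pos _).le))

theorem Zg_zero (V : Pt → Pt → ℝ) (Λ : Set Pt) (β : ℝ) : Zg V Λ 0 β = 1 := by
  unfold Zg
  have h1 : Set.pi Set.univ (fun _ : Fin 0 => Λ) = Set.univ := by
    ext x; simp
  rw [h1, Measure.restrict_univ, volume_pi, Measure.pi_of_empty (x := fun i => i.elim0),
    integral_dirac]
  simp [En]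

/-- Monotone in the domain. -/
theorem Zg_mono_set {V : Pt → Pt → ℝ} {Λ Λ' : Set Pt} (hsub : Λ ⊆ Λ') {N : ℕ} {β : ℝ}
    (hint : IntegrableOn (fun x : Fin N → Pt => Real.exp (-β * En V x))
      (Set.pi Set.univ (fun _ : Fin N => Λ'))) :
    Zg V Λ N β ≤ Zg V Λ' N β := by
  unfold Zg
  refine mul_le_mul_of_nonneg_left ?_ (by positivity)
  refine setIntegral_mono_set hint (Filter.Eventually.of_forall (fun _ => (Real.exp_pos _).le)) ?_
  exact (Set.pi_mono (fun _ _ => hsub)).eventuallyLE

/-- Monotone (decreasing) in the energy. -/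
theorem Zg_le_Zg_of_En_le {V V' : Pt → Pt → ℝ} {Λ : Set Pt} (hΛm : MeasurableSet Λ) {N : ℕ}
    {β β' a : ℝ}
    (hint : IntegrableOn (fun x : Fin N → Pt => Real.exp (-β * En V x))
      (Set.pi Set.univ (fun _ : Fin N => Λ)))
    (hint' : IntegrableOn (fun x : Fin N → Pt => Real.exp (-β' * En V' x))
      (Set.pi Set.univ (fun _ : Fin N => Λ)))
    (hle : ∀ x : Fin N → Pt, (∀ i, x i ∈ Λ) → -β * En V x ≤ a + -β' * En V' x) :
    Zg V Λ N β ≤ Real.exp a * Zg V' Λ N β' := by
  unfold Zg
  rw [mul_left_comm]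
  refine mul_le_mul_of_nonneg_left ?_ (by positivity)
  rw [← integral_const_mul]
  refine setIntegral_mono_on hint (hint'.const_mul _) (measurableSet_box hΛm N) (fun x hx => ?_)
  rw [← Real.exp_add]
  exact Real.exp_le_exp.mpr (hle x (fun i => hx i (Set.mem_univ i)))

theorem Zg_pos {V : Pt → Pt → ℝ} {Λ : Set Pt} (hΛ0 : 0 < volume Λ) {N : ℕ} {β : ℝ}
    (hint : IntegrableOn (fun x : Fin N → Pt => Real.exp (-β * En V x))
      (Set.pi Set.univ (fun _ : Fin N => Λ))) :
    0 < Zg V Λ N β := by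
  unfold Zg
  refine mul_pos (by positivity) ?_
  rw [integral_pos_iff_support_of_nonneg (fun _ => (Real.exp_pos _).le) hint]
  have : Function.support (fun x : Fin N → Pt => Real.exp (-β * En V x)) = Set.univ := by
    ext x; simp [(Real.exp_pos _).ne']
  rw [this, Measure.restrict_apply_univ, volume_box]
  exact ENNReal.pow_pos hΛ0 N

theorem Zg_le {V : Pt → Pt → ℝ} {Λ : Set Pt} (hΛm : MeasurableSet Λ) (hΛ : volume Λ < ⊤)
    {N : ℕ} {β c : ℝ} (hβ : 0 ≤ β)
    (hc : ∀ x : Fin N → Pt, (∀ i, x i ∈ Λ) → -c ≤ En V x) :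
    Zg V Λ N β ≤ Real.exp (β * c) * (volume Λ).toReal ^ N / N.factorial := by
  unfold Zg
  rw [one_div, mul_comm, ← div_eq_mul_inv]
  refine div_le_div_of_nonneg_right ?_ (by positivity)
  have h := setIntegral_mono_on (μ := volume) (s := Set.pi Set.univ (fun _ : Fin N => Λ))
    (f := fun x : Fin N → Pt => Real.exp (-β * En V x)) (g := fun _ => Real.exp (β * c))
  by_cases hint : IntegrableOn (fun x : Fin N → Pt => Real.exp (-β * En V x))
      (Set.pi Set.univ (fun _ : Fin N => Λ))
  · refine (h hint (integrableOn_const (volume_box_lt_top hΛ N).ne) (measurableSet_box hΛm N)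
      (fun x hx => ?_)).trans (le_of_eq ?_)
    · apply Real.exp_le_exp.mpr
      have := hc x (fun i => hx i (Set.mem_univ i))
      nlinarith
    · rw [setIntegral_const, smul_eq_mul, mul_comm, Measure.real, volume_box, ENNReal.toReal_pow]
  · rw [integral_undef hint]; positivity

theorem Zg_beta_zero (V : Pt → Pt → ℝ) (Λ : Set Pt) (N : ℕ) :
    Zg V Λ N 0 = (volume Λ).toReal ^ N / N.factorial := by
  unfold Zg
  simp only [neg_zero, zero_mul, Real.exp_zero]
  rw [setIntegral_const, smul_eq_mul, mul_one, Measure.real, volume_box, ENNReal.toReal_pow]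
  ring

/-- Translation invariance (no measurability needed). -/
theorem Zg_translate {V : Pt → Pt → ℝ} (a : Pt) (hV : ∀ x y, V (x + a) (y + a) = V x y)
    (Λ : Set Pt) (N : ℕ) (β : ℝ) :
    Zg V ((fun x => x + a) ⁻¹' Λ) N β = Zg V Λ N β := by
  unfold Zg
  congr 1
  have hmp : MeasurePreserving (fun x : Fin N → Pt => x + fun _ => a) volume volume :=
    measurePreserving_add_right volume _
  have hemb : MeasurableEmbedding (fun x : Fin N → Pt => x + fun _ => a) :=
    (MeasurableEquiv.addRight (fun _ : Fin N => a)).measurableEmbedding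
  have h1 : (fun x : Fin N → Pt => x + fun _ => a) ⁻¹' (Set.pi Set.univ (fun _ : Fin N => Λ))
      = Set.pi Set.univ (fun _ : Fin N => (fun x => x + a) ⁻¹' Λ) := by
    ext x; simp [Set.mem_pi]
  have h2 := hmp.setIntegral_preimage_emb hemb (fun x => Real.exp (-β * En V x))
    (Set.pi Set.univ fun _ => Λ)
  rw [h1] at h2
  rw [← h2]
  congr 1
  ext x
  congr 2
  unfold En
  exact Finset.sum_congr rfl (fun p _ => (hV _ _).symm)

theorem rad_translate (φ : ℝ → ℝ) (a x y : Pt) : rad φ (x + a) (y + a) = rad φ x y := by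
  simp [rad]

end Crest.Agent.S0209
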