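import Crest.Agent.S0209_Kernel
import Crest.Agent.S0209_ZgBasic

/-!
# ROW 149, Lemma L: elementary facts on the grid cells `cellIdx s o`
-/

set_option autoImplicit false
namespace Crest.Agent.S0209
open Crest.ProbabilityR.Continuum MeasureTheory

theorem measurable_cellIdx (s : ℝ) (o : Fin 3 → ℝ) : Measurable (cellIdx s o) := by
  unfold cellIdx
  refine measurable_pi_lambda _ (fun i => ?_)
  refine Int.measurable_floor.comp ?_
  have hi : Measurable (fun x : Pt => x i) := (PiLp.continuous_apply 2 _ i).measurable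
  exact (hi.sub_const _).div_const _

theorem cell_subset {s : ℝ} (hs : 0 < s) (o : Fin 3 → ℝ) (c : Fin 3 → ℤ) :
    ∃ a : Pt, ∀ x, cellIdx s o x = c → x + a ∈ cube s := by
  refine ⟨WithLp.toLp 2 (fun i => -(o i + s * c i)), fun x hx k => ?_⟩
  have hk : ⌊(x k - o k) / s⌋ = c k := congrFun hx k
  have h1 : (c k : ℝ) ≤ (x k - o k) / s := by rw [← hk]; exact Int.floor_le _
  have h2 : (x k - o k) / s < c k + 1 := by rw [← hk]; exact Int.lt_floor_add_one _
  rw [le_div_iff₀ hs] at h1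
  rw [div_lt_iff₀ hs] at h2
  have e : (x + WithLp.toLp 2 (fun i => -(o i + s * c i))) k = x k - (o k + s * c k) := by
    simp [sub_eq_add_neg]
  rw [e]
  constructor <;> nlinarith

theorem cells_cover {s : ℝ} (hs : 0 < s) (o : Fin 3 → ℝ) {L : ℝ} (hL : 0 ≤ L) :
    ∃ I : Finset (Fin 3 → ℤ), (∀ x ∈ cube L, cellIdx s o x ∈ I) ∧
      (I.card : ℝ) ≤ (L / s + 2) ^ 3 := by
  refine ⟨Fintype.piFinset (fun i => Finset.Icc ⌊(0 - o i) / s⌋ ⌊(L - o i) / s⌋), ?_, ?_⟩
  · intro x hx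
    rw [Fintype.mem_piFinset]
    intro i
    rw [Finset.mem_Icc]
    unfold cellIdx
    constructor
    · exact Int.floor_le_floor (div_le_div_of_nonneg_right (by linarith [(hx i).1]) hs.le)
    · exact Int.floor_le_floor (div_le_div_of_nonneg_right (by linarith [(hx i).2]) hs.le)
  · rw [Fintype.card_piFinset]
    push_cast
    have hb : ∀ i : Fin 3, ((Finset.Icc ⌊(0 - o i) / s⌋ ⌊(L - o i) / s⌋).card : ℝ) ≤ L / s + 2 := by
      intro i
      rw [Int.card_Icc]
      have h1 : ⌊(0 - o i) / s⌋ ≤ ⌊(L - o i) / s⌋ :=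
        Int.floor_le_floor (div_le_div_of_nonneg_right (by linarith) hs.le)
      have h2 : ((⌊(L - o i) / s⌋ + 1 - ⌊(0 - o i) / s⌋).toNat : ℝ)
          = (⌊(L - o i) / s⌋ : ℝ) + 1 - ⌊(0 - o i) / s⌋ := by
        have : ((⌊(L - o i) / s⌋ + 1 - ⌊(0 - o i) / s⌋).toNat : ℤ)
            = ⌊(L - o i) / s⌋ + 1 - ⌊(0 - o i) / s⌋ := Int.toNat_of_nonneg (by omega)
        exact_mod_cast this
      rw [h2]
      have h3 := Int.floor_le ((L - o i) / s)
      have h4 := Int.lt_floor_add_one ((0 - o i) / s)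
      have h5 : (L - o i) / s - (0 - o i) / s = L / s := by field_simp; ring
      linarith
    calc ∏ i : Fin 3, ((Finset.Icc ⌊(0 - o i) / s⌋ ⌊(L - o i) / s⌋).card : ℝ)
        ≤ ∏ _i : Fin 3, (L / s + 2) :=
          Finset.prod_le_prod (fun i _ => Nat.cast_nonneg _) (fun i _ => hb i)
      _ = (L / s + 2) ^ 3 := by simp

end Crest.Agent.S0209
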