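import Crest.Agent.S0209_LdetDefs

/-!
# ROW 149, Lemma L, deterministic part, package D3 : geometry of slabs, small cubes and τ-cells
-/

set_option autoImplicit false
namespace Crest.Agent.S0209
open Crest.ProbabilityR.Continuum MeasureTheory
namespace Ldet

namespace Geo

/-- `⌊u / n⌋` only depends on `⌊2 u⌋`. -/
theorem floor_div_eq (u : ℝ) (n : ℕ) : ⌊u / n⌋ = ⌊2 * u⌋ / ((2 * n : ℕ) : ℤ) := by
  rw [← Int.floor_div_natCast]
  congr 1
  push_cast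
  rcases Nat.eq_zero_or_pos n with rfl | hn
  · simp
  · have : (n : ℝ) ≠ 0 := by positivity
    field_simp

/-- `⌊(u - o) / n⌋` (`o` an integer) only depends on `⌊2 u⌋`. -/
theorem floor_sub_div_eq (u : ℝ) (o : ℤ) (n : ℕ) :
    ⌊(u - o) / n⌋ = (⌊2 * u⌋ - 2 * o) / ((2 * n : ℕ) : ℤ) := by
  rw [floor_div_eq]
  congr 1
  have : 2 * (u - (o : ℝ)) = 2 * u - ((2 * o : ℤ) : ℝ) := by push_cast; ring
  rw [this, Int.floor_sub_intCast]

/-- scalar version of `slab_of_cross` -/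
theorem cross_scalar {w mt : ℕ} (hw : 1 ≤ w) (hmt : 1 ≤ mt) (t : ℕ) (ht : t < mt) (u v : ℝ)
    (hlt : ⌊(u - (2 * w * t + w)) / (2 * w * mt)⌋ < ⌊(v - (2 * w * t + w)) / (2 * w * mt)⌋)
    (hd : |u - v| < w) :
    ⌊u / (2 * w)⌋ % (mt : ℤ) = t ∧ ⌊v / (2 * w)⌋ % (mt : ℤ) = t := by
  set b : ℤ := ⌊(v - (2 * w * t + w)) / (2 * w * mt)⌋ with hb
  have hwR : (1 : ℝ) ≤ w := by exact_mod_cast hw
  have hmR : (1 : ℝ) ≤ mt := by exact_mod_cast hmt
  have hl : (0 : ℝ) < 2 * w * mt := by positivity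
  have h2w : (0 : ℝ) < 2 * w := by positivity
  have hv : (b : ℝ) * (2 * w * mt) + (2 * w * t + w) ≤ v := by
    have := Int.floor_le ((v - (2 * w * t + w)) / (2 * w * mt))
    rw [← hb, le_div_iff₀ hl] at this
    linarith
  have hu : u < (b : ℝ) * (2 * w * mt) + (2 * w * t + w) := by
    have h1 := Int.lt_floor_add_one ((u - (2 * w * t + w)) / (2 * w * mt))
    have h2 : ((⌊(u - (2 * w * t + w)) / (2 * w * mt)⌋ : ℤ) : ℝ) + 1 ≤ b := by
      exact_mod_cast hlt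
    have h3 : (u - (2 * w * t + w)) / (2 * w * mt) < b := lt_of_lt_of_le h1 h2
    rw [div_lt_iff₀ hl] at h3
    linarith
  obtain ⟨hd1, hd2⟩ := abs_lt.mp hd
  have hmod : ((mt : ℤ) * b + t) % (mt : ℤ) = t := by
    rw [Int.add_comm, Int.add_mul_emod_self_left]
    exact Int.emod_eq_of_lt (by positivity) (by exact_mod_cast ht)
  have fu : ⌊u / (2 * w)⌋ = (mt : ℤ) * b + t := by
    rw [Int.floor_eq_iff]
    constructor
    · rw [le_div_iff₀ h2w]; push_cast; nlinarith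
    · rw [div_lt_iff₀ h2w]; push_cast; nlinarith
  have fv : ⌊v / (2 * w)⌋ = (mt : ℤ) * b + t := by
    rw [Int.floor_eq_iff]
    constructor
    · rw [le_div_iff₀ h2w]; push_cast; nlinarith
    · rw [div_lt_iff₀ h2w]; push_cast; nlinarith
  rw [fu, fv]
  exact ⟨hmod, hmod⟩

theorem abs_coord_le (y z : Pt) (i : Fin 3) : |y i - z i| ≤ dist y z := by
  have := PiLp.norm_apply_le (y - z) i
  rw [dist_eq_norm]
  simpa [Real.norm_eq_abs] using this

end Geo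

theorem slab_nonneg {w mt : ℕ} (hmt : 1 ≤ mt) (i : Fin 3) (y : Pt) : 0 ≤ slab w mt i y := by
  unfold slab
  exact Int.emod_nonneg _ (by positivity)

theorem slab_lt {w mt : ℕ} (hmt : 1 ≤ mt) (i : Fin 3) (y : Pt) : slab w mt i y < mt := by
  unfold slab
  exact Int.emod_lt_of_pos _ (by positivity)

theorem slab_eq_of_sq {w mt : ℕ} (hw : 1 ≤ w) {y z : Pt} (h : sq y = sq z) (i : Fin 3) :
    slab w mt i y = slab w mt i z := by
  have hi : ⌊2 * y i⌋ = ⌊2 * z i⌋ := congrFun h i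
  unfold slab
  have e : ∀ u : ℝ, u / (2 * (w : ℝ)) = u / ((2 * w : ℕ) : ℝ) := by intro u; push_cast; rfl
  rw [e, e, Geo.floor_div_eq, Geo.floor_div_eq, hi]

theorem cell_eq_of_sq {w mt : ℕ} (hw : 1 ≤ w) (hmt : 1 ≤ mt) (τ : Fin 3 → ℕ) {y z : Pt}
    (h : sq y = sq z) :
    cellIdx (2 * w * mt) (gridO w τ) y = cellIdx (2 * w * mt) (gridO w τ) z := by
  funext i
  have hi : ⌊2 * y i⌋ = ⌊2 * z i⌋ := congrFun h i
  unfold cellIdx gridO
  have e : ∀ u : ℝ, (u - (2 * (w : ℝ) * (τ i : ℝ) + (w : ℝ))) / (2 * (w : ℝ) * (mt : ℝ))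
      = (u - ((2 * w * τ i + w : ℤ) : ℝ)) / ((2 * w * mt : ℕ) : ℝ) := by
    intro u; push_cast; rfl
  rw [e, e, Geo.floor_sub_div_eq, Geo.floor_sub_div_eq, hi]

theorem slab_of_cross {w mt : ℕ} (hw : 1 ≤ w) (hmt : 1 ≤ mt) (τ : Fin 3 → ℕ)
    (hτ : ∀ i, τ i < mt) {y z : Pt}
    (hne : cellIdx (2 * w * mt) (gridO w τ) y ≠ cellIdx (2 * w * mt) (gridO w τ) z)
    (hd : dist y z < w) : ∃ i, slab w mt i y = τ i ∧ slab w mt i z = τ i := by
  obtain ⟨i, hi⟩ := Function.ne_iff.mp hne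
  refine ⟨i, ?_⟩
  have hdi : |y i - z i| < w := lt_of_le_of_lt (Geo.abs_coord_le y z i) hd
  unfold cellIdx gridO at hi
  unfold slab
  rcases lt_or_gt_of_ne hi with hlt | hlt
  · exact Geo.cross_scalar hw hmt (τ i) (hτ i) (y i) (z i) hlt hdi
  · have hdi' : |z i - y i| < w := by rwa [abs_sub_comm]
    exact (Geo.cross_scalar hw hmt (τ i) (hτ i) (z i) (y i) hlt hdi').symm

end Ldet
end Crest.Agent.S0209
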