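import Crest.Agent.S0209_LdetDefs

/-!
# ROW 149, Lemma L, deterministic part, package D4: pigeonhole over the slabs

`exists_slab`: among the `mt` slab classes orthogonal to the axis `i` there is one whose particles
carry at most the fraction `1 / mt` of `Qf x`.  (Only `∑_j QS (slab j) ≤ Qf` is needed, so the proof
does not use the geometry lemmas of D3.)
-/

set_option autoImplicit false
namespace Crest.Agent.S0209
open Crest.ProbabilityR.Continuum MeasureTheory
namespace Ldet

namespace Slab

/-- at most one `j` matches. -/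
theorem sum_ite_le (m : ℕ) (k l : ℤ) (c : ℝ) (hc : 0 ≤ c) :
    ∑ j ∈ Finset.range m, (if k = (j : ℤ) then (if l = (j : ℤ) then c else 0) else 0) ≤ c := by
  classical
  by_cases h : ∃ j0 ∈ Finset.range m, k = (j0 : ℤ)
  · obtain ⟨j0, hj0, hk⟩ := h
    rw [Finset.sum_eq_single j0]
    · rw [if_pos hk]
      split_ifs
      · exact le_rfl
      · exact hc
    · intro b _ hb
      rw [if_neg]
      intro hkb
      apply hb
      have : (b : ℤ) = (j0 : ℤ) := by rw [← hkb, hk]
      exact_mod_cast this
    · intro hn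
      exact absurd hj0 hn
  · rw [Finset.sum_eq_zero]
    · exact hc
    · intro j hj
      rw [if_neg]
      intro hk
      exact h ⟨j, hj, hk⟩

theorem sum_QS_le (w mt : ℕ) {N : ℕ} (x : Fin N → Pt) (i : Fin 3) :
    ∑ j ∈ Finset.range mt, QS x (Finset.univ.filter (fun a => slab w mt i (x a) = (j : ℤ)))
      ≤ Qf x := by
  classical
  have h1 : ∀ j : ℕ, QS x (Finset.univ.filter (fun a => slab w mt i (x a) = (j : ℤ))) =
      ∑ a : Fin N, ∑ b : Fin N, (if slab w mt i (x a) = (j : ℤ) then
        (if slab w mt i (x b) = (j : ℤ) then (if sq (x a) = sq (x b) then (1 : ℝ) else 0) else 0)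
        else 0) := by
    intro j
    unfold QS
    rw [Finset.sum_filter]
    refine Finset.sum_congr rfl fun a _ => ?_
    by_cases ha : slab w mt i (x a) = (j : ℤ)
    · simp only [if_pos ha]
      rw [Finset.sum_filter]
    · simp only [if_neg ha]
      simp
  simp only [h1]
  rw [Finset.sum_comm]
  unfold Qf
  refine Finset.sum_le_sum fun a _ => ?_
  rw [Finset.sum_comm]
  refine Finset.sum_le_sum fun b _ => ?_
  refine sum_ite_le mt _ _ _ ?_
  split_ifs <;> norm_num

end Slab

theorem exists_slab {w mt : ℕ} (hw : 1 ≤ w) (hmt : 1 ≤ mt) {N : ℕ} (x : Fin N → Pt) (i : Fin 3) :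
    ∃ j : ℕ, j < mt ∧
      (mt : ℝ) * QS x (Finset.univ.filter (fun a => slab w mt i (x a) = j)) ≤ Qf x := by
  classical
  have hmt0 : (0 : ℝ) < mt := by exact_mod_cast hmt
  have hne : (Finset.range mt).Nonempty := Finset.nonempty_range_iff.mpr (by omega)
  have hsum : ∑ j ∈ Finset.range mt,
      QS x (Finset.univ.filter (fun a => slab w mt i (x a) = (j : ℤ)))
        ≤ ∑ _j ∈ Finset.range mt, Qf x / mt := by
    rw [Finset.sum_const, Finset.card_range, nsmul_eq_mul, mul_div_cancel₀ _ hmt0.ne']
    exact Slab.sum_QS_le w mt x i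
  obtain ⟨j, hj, hle⟩ := Finset.exists_le_of_sum_le hne hsum
  refine ⟨j, Finset.mem_range.mp hj, ?_⟩
  rw [le_div_iff₀ hmt0] at hle
  linarith

end Ldet
end Crest.Agent.S0209
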