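import Crest.Agent.S0209_ZgBasic

/-!
# ROW 149: splitting the configuration integral over `(A ∪ B)^N`

General (linearly ordered, finite) index types and `ℝ≥0∞`-valued integrals, so that no integrability
and no symmetry of the pair interaction is needed.
-/

set_option autoImplicit false
namespace Crest.Agent.S0209
open Crest.ProbabilityR.Continuum MeasureTheory Finset
open scoped ENNReal


noncomputable def EnO (V : Pt → Pt → ℝ) {ι : Type*} [Fintype ι] [LinearOrder ι] (x : ι → Pt) : ℝ :=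
  ∑ p ∈ (univ : Finset (ι × ι)).filter (fun p => p.1 < p.2), V (x p.1) (x p.2)

theorem measurable_EnO {V : Pt → Pt → ℝ} (hV : Measurable (Function.uncurry V))
    {ι : Type*} [Fintype ι] [LinearOrder ι] : Measurable (fun x : ι → Pt => EnO V x) := by
  unfold EnO
  refine Finset.measurable_sum _ (fun p _ => ?_)
  have h : Measurable (fun x : ι → Pt => (x p.1, x p.2)) :=
    (measurable_pi_apply p.1).prodMk (measurable_pi_apply p.2)
  exact hV.comp h

theorem EnO_comp_orderIso (V : Pt → Pt → ℝ) {ι ι' : Type*} [Fintype ι] [LinearOrder ι]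
    [Fintype ι'] [LinearOrder ι'] (e : ι ≃o ι') (x : ι' → Pt) :
    EnO V (fun i => x (e i)) = EnO V x := by
  unfold EnO
  refine Finset.sum_equiv (e.toEquiv.prodCongr e.toEquiv) ?_ ?_
  · intro p
    simp
  · intro p _
    simp

noncomputable def JO (V : Pt → Pt → ℝ) (Λ : Set Pt) (ι : Type*) [Fintype ι] [LinearOrder ι]
    (β : ℝ) : ℝ≥0∞ :=
  ∫⁻ x in Set.pi Set.univ (fun _ : ι => Λ), ENNReal.ofReal (Real.exp (-β * EnO V x))

theorem JO_congr (V : Pt → Pt → ℝ) (Λ : Set Pt) {ι ι' : Type*} [Fintype ι] [LinearOrder ι]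
    [Fintype ι'] [LinearOrder ι'] (e : ι ≃o ι') (β : ℝ) : JO V Λ ι β = JO V Λ ι' β := by
  unfold JO
  have hmp := volume_measurePreserving_piCongrLeft (fun _ : ι' => Pt) e.toEquiv
  have := hmp.setLIntegral_comp_preimage_emb (MeasurableEquiv.measurableEmbedding _)
    (fun x : ι' → Pt => ENNReal.ofReal (Real.exp (-β * EnO V x)))
    (Set.pi Set.univ (fun _ : ι' => Λ))
  rw [← this]
  have hset : (MeasurableEquiv.piCongrLeft (fun _ : ι' => Pt) e.toEquiv) ⁻¹'
      (Set.pi Set.univ (fun _ : ι' => Λ)) = Set.pi Set.univ (fun _ : ι => Λ) := by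
    rw [MeasurableEquiv.coe_piCongrLeft, Equiv.piCongrLeft_preimage_univ_pi]
  rw [hset]
  refine lintegral_congr (fun x => ?_)
  congr 3
  rw [← EnO_comp_orderIso V e]
  congr 1
  funext i
  have := Equiv.piCongrLeft_apply_apply (fun _ : ι' => Pt) e.toEquiv x i
  exact this.symm

theorem EnO_eq_sum_sum (V : Pt → Pt → ℝ) {ι : Type*} [Fintype ι] [LinearOrder ι] (x : ι → Pt) :
    EnO V x = ∑ i, ∑ j, if i < j then V (x i) (x j) else 0 := by
  unfold EnO
  rw [Finset.sum_filter, Fintype.sum_prod_type]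

/-- the interaction energy between the particles with index satisfying `p` and the others. -/
noncomputable def crossO (V : Pt → Pt → ℝ) {ι : Type*} [Fintype ι] [LinearOrder ι] (p : ι → Prop)
    [DecidablePred p] (x : ι → Pt) : ℝ :=
  ∑ i : {i // p i}, ∑ j : {j // ¬ p j},
    ((if i.1 < j.1 then V (x i) (x j) else 0) + (if j.1 < i.1 then V (x j) (x i) else 0))

theorem EnO_split (V : Pt → Pt → ℝ) {ι : Type*} [Fintype ι] [LinearOrder ι] (p : ι → Prop)
    [DecidablePred p] (x : ι → Pt) :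
    EnO V x = EnO V (fun i : {i // p i} => x i) + EnO V (fun i : {i // ¬ p i} => x i)
      + crossO V p x := by
  rw [EnO_eq_sum_sum, EnO_eq_sum_sum, EnO_eq_sum_sum, crossO]
  rw [← Fintype.sum_subtype_add_sum_subtype p]
  have h1 : ∀ i : ι, ∑ j, (if i < j then V (x i) (x j) else 0)
      = ∑ j : {j // p j}, (if i < j.1 then V (x i) (x j) else 0)
        + ∑ j : {j // ¬ p j}, (if i < j.1 then V (x i) (x j) else 0) := fun i =>
    (Fintype.sum_subtype_add_sum_subtype p
      (fun j => if i < j then V (x i) (x j) else 0)).symm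
  simp only [h1, Finset.sum_add_distrib, Subtype.coe_lt_coe]
  rw [Finset.sum_comm (f := fun (i : {j // p j}) (j : {j // ¬ p j}) =>
    if j.1 < i.1 then V (x j) (x i) else 0)]
  ring



/-- the piece of `(A ∪ B)^ι` where exactly the particles with `p i` are in `A`. -/
def piece {ι : Type*} (p : ι → Prop) [DecidablePred p] (A B : Set Pt) : Set (ι → Pt) :=
  Set.pi Set.univ (fun i => if p i then A else B)

theorem measurableSet_piece {ι : Type*} [Fintype ι] (p : ι → Prop) [DecidablePred p] {A B : Set Pt}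
    (hA : MeasurableSet A) (hB : MeasurableSet B) : MeasurableSet (piece p A B) := by
  refine MeasurableSet.univ_pi (fun i => ?_)
  split_ifs <;> assumption

theorem lintegral_piece {ι : Type*} [Fintype ι] (p : ι → Prop) [DecidablePred p] (A B : Set Pt)
    {G : ({i // p i} → Pt) → ℝ≥0∞} {H : ({i // ¬ p i} → Pt) → ℝ≥0∞}
    (hG : Measurable G) (hH : Measurable H) :
    ∫⁻ x in piece p A B, G (fun i => x i) * H (fun i => x i)
      = (∫⁻ y in Set.pi Set.univ (fun _ => A), G y) * ∫⁻ z in Set.pi Set.univ (fun _ => B), H z := by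
  have hmp := volume_preserving_piEquivPiSubtypeProd (fun _ : ι => Pt) p
  have h1 := hmp.setLIntegral_comp_preimage_emb (MeasurableEquiv.measurableEmbedding _)
    (fun q : ({i // p i} → Pt) × ({i // ¬ p i} → Pt) => G q.1 * H q.2)
    ((Set.pi Set.univ (fun _ => A)) ×ˢ (Set.pi Set.univ (fun _ => B)))
  have hset : (MeasurableEquiv.piEquivPiSubtypeProd (fun _ : ι => Pt) p) ⁻¹'
      ((Set.pi Set.univ (fun _ => A)) ×ˢ (Set.pi Set.univ (fun _ => B))) = piece p A B := by
    ext x
    simp only [piece, Set.mem_preimage, Set.mem_prod, Set.mem_pi, Set.mem_univ, forall_true_left]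
    constructor
    · rintro ⟨h1, h2⟩ i
      by_cases hi : p i
      · simpa [hi] using h1 ⟨i, hi⟩
      · simpa [hi] using h2 ⟨i, hi⟩
    · intro h
      refine ⟨fun i => ?_, fun i => ?_⟩
      · have := h i.1
        simpa [i.2] using this
      · have := h i.1
        simpa [i.2] using this
  rw [hset] at h1
  have h2 : ∫⁻ x in piece p A B, G (fun i => x i) * H (fun i => x i)
      = ∫⁻ x in piece p A B, (fun q : ({i // p i} → Pt) × ({i // ¬ p i} → Pt) => G q.1 * H q.2)
        ((MeasurableEquiv.piEquivPiSubtypeProd (fun _ : ι => Pt) p) x) := rfl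
  rw [h2, h1]
  rw [show (volume : Measure (({i // p i} → Pt) × ({i // ¬ p i} → Pt))) = volume.prod volume from rfl,
    ← Measure.prod_restrict]
  exact lintegral_prod_mul hG.aemeasurable hH.aemeasurable

theorem pi_union_eq_iUnion {ι : Type*} [Fintype ι] [DecidableEq ι] (A B : Set Pt) :
    Set.pi Set.univ (fun _ : ι => A ∪ B) = ⋃ S : Finset ι, piece (· ∈ S) A B := by
  classical
  ext x
  simp only [piece, Set.mem_pi, Set.mem_univ, forall_true_left, Set.mem_iUnion]
  constructor
  · intro h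
    refine ⟨univ.filter (fun i => x i ∈ A), fun i => ?_⟩
    by_cases hi : x i ∈ A
    · simp [hi]
    · have := (h i).resolve_left hi
      simpa [hi] using this
  · rintro ⟨S, hS⟩ i
    have := hS i
    by_cases hi : i ∈ S
    · left; simpa [hi] using this
    · right; simpa [hi] using this

theorem pairwise_disjoint_piece {ι : Type*} [Fintype ι] [DecidableEq ι] {A B : Set Pt}
    (hAB : Disjoint A B) :
    Pairwise (Function.onFun Disjoint (fun S : Finset ι => piece (· ∈ S) A B)) := by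
  intro S T hST
  rw [Function.onFun, Set.disjoint_left]
  intro x hxS hxT
  apply hST
  ext i
  have h1 := hxS i (Set.mem_univ i)
  have h2 := hxT i (Set.mem_univ i)
  by_cases hS : i ∈ S <;> by_cases hT : i ∈ T <;> simp only [hS, hT, if_true, if_false] at h1 h2 ⊢
  · exact (Set.disjoint_left.1 hAB h1 h2).elim
  · exact (Set.disjoint_left.1 hAB h2 h1).elim

theorem lintegral_pi_union {ι : Type*} [Fintype ι] [DecidableEq ι] {A B : Set Pt}
    (hA : MeasurableSet A) (hB : MeasurableSet B) (hAB : Disjoint A B) (F : (ι → Pt) → ℝ≥0∞) :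
    ∫⁻ x in Set.pi Set.univ (fun _ : ι => A ∪ B), F x
      = ∑ S : Finset ι, ∫⁻ x in piece (· ∈ S) A B, F x := by
  rw [pi_union_eq_iUnion, lintegral_iUnion (fun S => measurableSet_piece _ hA hB)
    (pairwise_disjoint_piece hAB), tsum_fintype]


theorem En_eq_EnO (V : Pt → Pt → ℝ) {N : ℕ} (x : Fin N → Pt) : En V x = EnO V x := by
  unfold En EnO
  exact (Finset.sum_subtype _ (by simp) (fun p : Fin N × Fin N => V (x p.1) (x p.2))).symm

section cross
variable {V : Pt → Pt → ℝ} {ι : Type*} {p : ι → Prop} [DecidablePred p]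
  {A B : Set Pt} {x : ι → Pt}

theorem mem_piece_left (hx : x ∈ piece p A B) {i : ι} (hi : p i) : x i ∈ A := by
  have := hx i (Set.mem_univ i)
  simpa [hi] using this

theorem mem_piece_right (hx : x ∈ piece p A B) {i : ι} (hi : ¬ p i) : x i ∈ B := by
  have := hx i (Set.mem_univ i)
  simpa [hi] using this

variable [Fintype ι] [LinearOrder ι]

theorem le_crossO {w : ℝ} (h : ∀ a ∈ A, ∀ b ∈ B, w ≤ V a b ∧ w ≤ V b a) (hx : x ∈ piece p A B) :
    w * (Fintype.card {i // p i} * Fintype.card {i // ¬ p i}) ≤ crossO V p x := by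
  unfold crossO
  have : ∀ i : {i // p i}, ∀ j : {j // ¬ p j}, w ≤
      ((if i.1 < j.1 then V (x i) (x j) else 0) + (if j.1 < i.1 then V (x j) (x i) else 0)) := by
    intro i j
    have hij : i.1 ≠ j.1 := fun h => j.2 (h ▸ i.2)
    have hh := h _ (mem_piece_left hx i.2) _ (mem_piece_right hx j.2)
    rcases lt_or_gt_of_ne hij with h1 | h1
    · simp [h1, not_lt.2 h1.le, hh.1]
    · simp [h1, not_lt.2 h1.le, hh.2]
  calc w * (Fintype.card {i // p i} * Fintype.card {i // ¬ p i})
      = ∑ _i : {i // p i}, ∑ _j : {j // ¬ p j}, w := by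
        simp only [Finset.sum_const, Finset.card_univ, nsmul_eq_mul]; ring
    _ ≤ _ := Finset.sum_le_sum (fun i _ => Finset.sum_le_sum (fun j _ => this i j))

theorem crossO_le {w : ℝ} (h : ∀ a ∈ A, ∀ b ∈ B, V a b ≤ w ∧ V b a ≤ w) (hx : x ∈ piece p A B) :
    crossO V p x ≤ w * (Fintype.card {i // p i} * Fintype.card {i // ¬ p i}) := by
  unfold crossO
  have : ∀ i : {i // p i}, ∀ j : {j // ¬ p j},
      ((if i.1 < j.1 then V (x i) (x j) else 0) + (if j.1 < i.1 then V (x j) (x i) else 0)) ≤ w := by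
    intro i j
    have hij : i.1 ≠ j.1 := fun h => j.2 (h ▸ i.2)
    have hh := h _ (mem_piece_left hx i.2) _ (mem_piece_right hx j.2)
    rcases lt_or_gt_of_ne hij with h1 | h1
    · simp [h1, not_lt.2 h1.le, hh.1]
    · simp [h1, not_lt.2 h1.le, hh.2]
  calc _ ≤ ∑ _i : {i // p i}, ∑ _j : {j // ¬ p j}, w :=
        Finset.sum_le_sum (fun i _ => Finset.sum_le_sum (fun j _ => this i j))
    _ = w * (Fintype.card {i // p i} * Fintype.card {i // ¬ p i}) := by
        simp only [Finset.sum_const, Finset.card_univ, nsmul_eq_mul]; ring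

end cross

/-- the Boltzmann weight, `ℝ≥0∞`-valued. -/
noncomputable def bw (V : Pt → Pt → ℝ) (β : ℝ) {ι : Type*} [Fintype ι] [LinearOrder ι]
    (x : ι → Pt) : ℝ≥0∞ := ENNReal.ofReal (Real.exp (-β * EnO V x))

theorem measurable_bw {V : Pt → Pt → ℝ} (hV : Measurable (Function.uncurry V)) (β : ℝ)
    {ι : Type*} [Fintype ι] [LinearOrder ι] : Measurable (fun x : ι → Pt => bw V β x) := by
  unfold bw
  exact ENNReal.measurable_ofReal.comp (Real.measurable_exp.comp ((measurable_EnO hV).const_mul _))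

theorem bw_split (V : Pt → Pt → ℝ) (β : ℝ) {ι : Type*} [Fintype ι] [LinearOrder ι] (p : ι → Prop)
    [DecidablePred p] (x : ι → Pt) :
    bw V β x = ENNReal.ofReal (Real.exp (-β * crossO V p x)) *
      (bw V β (fun i : {i // p i} => x i) * bw V β (fun i : {i // ¬ p i} => x i)) := by
  unfold bw
  rw [← ENNReal.ofReal_mul (Real.exp_pos _).le, ← ENNReal.ofReal_mul (Real.exp_pos _).le,
    ← Real.exp_add, ← Real.exp_add, EnO_split V p x]
  congr 2
  ring

section JOpiece
variable {V : Pt → Pt → ℝ} (hV : Measurable (Function.uncurry V))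
  {ι : Type*} [Fintype ι] [LinearOrder ι] (p : ι → Prop) [DecidablePred p]
  {A B : Set Pt} (hA : MeasurableSet A) (hB : MeasurableSet B) {β : ℝ}
include hV hA hB

theorem lintegral_piece_bw_le (hβ : 0 ≤ β) {w : ℝ} (h : ∀ a ∈ A, ∀ b ∈ B, w ≤ V a b ∧ w ≤ V b a) :
    ∫⁻ x in piece p A B, bw V β x ≤
      ENNReal.ofReal (Real.exp (-β * (w * (Fintype.card {i // p i} * Fintype.card {i // ¬ p i})))) *
        (JO V A {i // p i} β * JO V B {i // ¬ p i} β) := by
  have h1 : JO V A {i // p i} β * JO V B {i // ¬ p i} β = _ :=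
    (lintegral_piece p A B (measurable_bw hV β) (measurable_bw hV β)).symm
  rw [h1, ← lintegral_const_mul']
  · refine setLIntegral_mono' (measurableSet_piece p hA hB) (fun x hx => ?_)
    rw [bw_split V β p x]
    refine mul_le_mul_left (ENNReal.ofReal_le_ofReal (Real.exp_le_exp.2 ?_)) _
    exact mul_le_mul_of_nonpos_left (le_crossO h hx) (neg_nonpos.2 hβ)
  · exact ENNReal.ofReal_ne_top

theorem le_lintegral_piece_bw (hβ : 0 ≤ β) {w : ℝ} (h : ∀ a ∈ A, ∀ b ∈ B, V a b ≤ w ∧ V b a ≤ w) :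
      ENNReal.ofReal (Real.exp (-β * (w * (Fintype.card {i // p i} * Fintype.card {i // ¬ p i})))) *
        (JO V A {i // p i} β * JO V B {i // ¬ p i} β) ≤ ∫⁻ x in piece p A B, bw V β x := by
  have h1 : JO V A {i // p i} β * JO V B {i // ¬ p i} β = _ :=
    (lintegral_piece p A B (measurable_bw hV β) (measurable_bw hV β)).symm
  rw [h1, ← lintegral_const_mul']
  · refine setLIntegral_mono' (measurableSet_piece p hA hB) (fun x hx => ?_)
    rw [bw_split V β p x]
    refine mul_le_mul_left (ENNReal.ofReal_le_ofReal (Real.exp_le_exp.2 ?_)) _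
    exact mul_le_mul_of_nonpos_left (crossO_le h hx) (neg_nonpos.2 hβ)
  · exact ENNReal.ofReal_ne_top

theorem lintegral_piece_bw_eq (h : ∀ a ∈ A, ∀ b ∈ B, V a b = 0 ∧ V b a = 0) :
    ∫⁻ x in piece p A B, bw V β x = JO V A {i // p i} β * JO V B {i // ¬ p i} β := by
  have h1 : JO V A {i // p i} β * JO V B {i // ¬ p i} β = _ :=
    (lintegral_piece p A B (measurable_bw hV β) (measurable_bw hV β)).symm
  rw [h1]
  refine setLIntegral_congr_fun (measurableSet_piece p hA hB) (fun x hx => ?_)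
  have e1 : crossO V p x = 0 := by
    refine le_antisymm ?_ ?_
    · simpa using crossO_le (w := 0) (fun a ha b hb => ⟨(h a ha b hb).1.le, (h a ha b hb).2.le⟩) hx
    · simpa using le_crossO (w := 0) (fun a ha b hb => ⟨(h a ha b hb).1.ge, (h a ha b hb).2.ge⟩) hx
  rw [bw_split V β p x, e1]
  simp

end JOpiece



theorem JO_eq_fin (V : Pt → Pt → ℝ) (Λ : Set Pt) (β : ℝ) {ι : Type*} [Fintype ι] [LinearOrder ι]
    {k : ℕ} (h : Fintype.card ι = k) : JO V Λ ι β = JO V Λ (Fin k) β :=
  (JO_congr V Λ (monoEquivOfFin ι h) β).symm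

theorem sum_finset_fin_card {M : Type*} [AddCommMonoid M] (N : ℕ) (g : ℕ → M) :
    ∑ S : Finset (Fin N), g S.card = ∑ k ∈ range (N + 1), N.choose k • g k := by
  have := Finset.sum_powerset_apply_card g (x := (univ : Finset (Fin N)))
  rw [Finset.powerset_univ, Finset.card_univ, Fintype.card_fin] at this
  exact this

theorem card_aux1 {N : ℕ} (S : Finset (Fin N)) [Fintype {i // i ∈ S}] :
    Fintype.card {i // i ∈ S} = S.card := by simp

theorem card_aux2 {N : ℕ} (S : Finset (Fin N)) [Fintype {i // ¬ i ∈ S}] :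
    Fintype.card {i // ¬ i ∈ S} = N - S.card := by
  classical
  rw [Fintype.card_subtype_compl]; simp

theorem JO_mem_eq (V : Pt → Pt → ℝ) (Λ : Set Pt) (β : ℝ) {N : ℕ} (S : Finset (Fin N))
    (inst : Fintype {i // i ∈ S}) :
    @JO V Λ {i // i ∈ S} inst _ β = JO V Λ (Fin S.card) β :=
  JO_eq_fin V Λ β (card_aux1 S)

theorem JO_not_mem_eq (V : Pt → Pt → ℝ) (Λ : Set Pt) (β : ℝ) {N : ℕ} (S : Finset (Fin N))
    (inst : Fintype {i // ¬ i ∈ S}) :
    @JO V Λ {i // ¬ i ∈ S} inst _ β = JO V Λ (Fin (N - S.card)) β :=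
  JO_eq_fin V Λ β (card_aux2 S)

theorem card_aux1' {N : ℕ} (S : Finset (Fin N)) (inst : Fintype {i // i ∈ S}) :
    @Fintype.card {i // i ∈ S} inst = S.card := card_aux1 S

theorem card_aux2' {N : ℕ} (S : Finset (Fin N)) (inst : Fintype {i // ¬ i ∈ S}) :
    @Fintype.card {i // ¬ i ∈ S} inst = N - S.card := card_aux2 S

section JOunion
variable {V : Pt → Pt → ℝ} (hV : Measurable (Function.uncurry V))
  {A B : Set Pt} (hA : MeasurableSet A) (hB : MeasurableSet B) (hAB : Disjoint A B) {β : ℝ} (N : ℕ)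
include hV hA hB hAB

/-- exact convolution identity in `ℝ≥0∞` (no interaction between `A` and `B`). -/
theorem JO_union_eq (h : ∀ a ∈ A, ∀ b ∈ B, V a b = 0 ∧ V b a = 0) :
    JO V (A ∪ B) (Fin N) β =
      ∑ k ∈ range (N + 1), N.choose k • (JO V A (Fin k) β * JO V B (Fin (N - k)) β) := by
  rw [← sum_finset_fin_card N (fun k => JO V A (Fin k) β * JO V B (Fin (N - k)) β)]
  rw [JO, lintegral_pi_union hA hB hAB]
  refine Finset.sum_congr rfl (fun S _ => ?_)
  have := lintegral_piece_bw_eq hV (· ∈ S) hA hB (β := β) h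
  unfold bw at this
  rw [this, JO_mem_eq V A β S _, JO_not_mem_eq V B β S _]

/-- upper bound: the interaction between `A` and `B` is `≥ w`. -/
theorem JO_union_le (hβ : 0 ≤ β) {w : ℝ} (h : ∀ a ∈ A, ∀ b ∈ B, w ≤ V a b ∧ w ≤ V b a) :
    JO V (A ∪ B) (Fin N) β ≤
      ∑ k ∈ range (N + 1), N.choose k • (ENNReal.ofReal (Real.exp (-β * (w * (k * (N - k : ℕ))))) *
        (JO V A (Fin k) β * JO V B (Fin (N - k)) β)) := by
  rw [← sum_finset_fin_card N (fun k => ENNReal.ofReal (Real.exp (-β * (w * (k * (N - k : ℕ))))) *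
        (JO V A (Fin k) β * JO V B (Fin (N - k)) β))]
  rw [JO, lintegral_pi_union hA hB hAB]
  refine Finset.sum_le_sum (fun S _ => ?_)
  have := lintegral_piece_bw_le hV (· ∈ S) hA hB (β := β) hβ h
  unfold bw at this
  rw [JO_mem_eq V A β S _, JO_not_mem_eq V B β S _, card_aux1' S _, card_aux2' S _] at this
  exact this

/-- lower bound: the interaction between `A` and `B` is `≤ w`. -/
theorem le_JO_union (hβ : 0 ≤ β) {w : ℝ} (h : ∀ a ∈ A, ∀ b ∈ B, V a b ≤ w ∧ V b a ≤ w) :
      ∑ k ∈ range (N + 1), N.choose k • (ENNReal.ofReal (Real.exp (-β * (w * (k * (N - k : ℕ))))) *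
        (JO V A (Fin k) β * JO V B (Fin (N - k)) β)) ≤ JO V (A ∪ B) (Fin N) β := by
  rw [← sum_finset_fin_card N (fun k => ENNReal.ofReal (Real.exp (-β * (w * (k * (N - k : ℕ))))) *
        (JO V A (Fin k) β * JO V B (Fin (N - k)) β))]
  rw [JO, lintegral_pi_union hA hB hAB]
  refine Finset.sum_le_sum (fun S _ => ?_)
  have := le_lintegral_piece_bw hV (· ∈ S) hA hB (β := β) hβ h
  unfold bw at this
  rw [JO_mem_eq V A β S _, JO_not_mem_eq V B β S _, card_aux1' S _, card_aux2' S _] at this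
  exact this

end JOunion

/-! ### back to real numbers -/

theorem Zg_eq_toReal {V : Pt → Pt → ℝ} (hV : Measurable (Function.uncurry V)) (Λ : Set Pt) (N : ℕ)
    (β : ℝ) : Zg V Λ N β = (1 / (N.factorial : ℝ)) * (JO V Λ (Fin N) β).toReal := by
  unfold Zg JO
  congr 1
  rw [integral_eq_lintegral_of_nonneg_ae]
  · simp only [En_eq_EnO]
  · exact Filter.Eventually.of_forall (fun x => (Real.exp_pos _).le)
  · simp only [En_eq_EnO]
    exact (Real.measurable_exp.comp ((measurable_EnO hV).const_mul _)).aestronglyMeasurable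

theorem JO_ne_top_iff {V : Pt → Pt → ℝ} (hV : Measurable (Function.uncurry V)) (Λ : Set Pt) (N : ℕ)
    (β : ℝ) : JO V Λ (Fin N) β ≠ ⊤ ↔
      IntegrableOn (fun x : Fin N → Pt => Real.exp (-β * En V x))
        (Set.pi Set.univ (fun _ : Fin N => Λ)) := by
  unfold JO IntegrableOn
  simp only [En_eq_EnO]
  exact lintegral_ofReal_ne_top_iff_integrable
    (Real.measurable_exp.comp ((measurable_EnO hV).const_mul _)).aestronglyMeasurable
    (Filter.Eventually.of_forall (fun x => (Real.exp_pos _).le))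

theorem choose_div_factorial {N k : ℕ} (hk : k ≤ N) :
    (1 / (N.factorial : ℝ)) * (N.choose k : ℝ) =
      (1 / (k.factorial : ℝ)) * (1 / ((N - k).factorial : ℝ)) := by
  have h := Nat.choose_mul_factorial_mul_factorial hk
  have h' : (N.choose k : ℝ) * k.factorial * (N - k).factorial = N.factorial := by exact_mod_cast h
  have h1 : (N.factorial : ℝ) ≠ 0 := by positivity
  have h2 : (k.factorial : ℝ) ≠ 0 := by positivity
  have h3 : ((N - k).factorial : ℝ) ≠ 0 := by positivity
  field_simp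
  linarith



/-- conversion of the `ℝ≥0∞` convolution sum to real numbers. -/
theorem toReal_conv {V : Pt → Pt → ℝ} (hV : Measurable (Function.uncurry V)) (A B : Set Pt) (β : ℝ)
    (N : ℕ) (c : ℕ → ℝ) (hc : ∀ k, 0 ≤ c k)
    (hne : ∑ k ∈ range (N + 1), N.choose k • (ENNReal.ofReal (c k) *
        (JO V A (Fin k) β * JO V B (Fin (N - k)) β)) ≠ ⊤) :
    (1 / (N.factorial : ℝ)) * (∑ k ∈ range (N + 1), N.choose k • (ENNReal.ofReal (c k) *
        (JO V A (Fin k) β * JO V B (Fin (N - k)) β))).toReal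
      = ∑ k ∈ range (N + 1), c k * (Zg V A k β * Zg V B (N - k) β) := by
  rw [ENNReal.toReal_sum (fun k hk => (ENNReal.sum_ne_top.1 hne) k hk), Finset.mul_sum]
  refine Finset.sum_congr rfl (fun k hk => ?_)
  have hk' : k ≤ N := Nat.lt_succ_iff.1 (Finset.mem_range.1 hk)
  rw [ENNReal.toReal_nsmul, ENNReal.toReal_mul, ENNReal.toReal_mul, ENNReal.toReal_ofReal (hc k),
    Zg_eq_toReal hV, Zg_eq_toReal hV, nsmul_eq_mul, ← mul_assoc, choose_div_factorial hk']
  ring

section Zunion
variable {V : Pt → Pt → ℝ} (hV : Measurable (Function.uncurry V))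
  {A B : Set Pt} (hA : MeasurableSet A) (hB : MeasurableSet B) (hAB : Disjoint A B) (β : ℝ) (N : ℕ)
include hV hA hB hAB

/-- two non-interacting cells: exact convolution identity. -/
theorem Zg_union_eq (h : ∀ a ∈ A, ∀ b ∈ B, V a b = 0 ∧ V b a = 0)
    (hint : IntegrableOn (fun x : Fin N → Pt => Real.exp (-β * En V x))
        (Set.pi Set.univ (fun _ : Fin N => A ∪ B))) :
    Zg V (A ∪ B) N β = ∑ k ∈ range (N + 1), Zg V A k β * Zg V B (N - k) β := by
  have hne := (JO_ne_top_iff hV (A ∪ B) N β).2 hint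
  have e := JO_union_eq hV hA hB hAB (β := β) N h
  have e' : JO V (A ∪ B) (Fin N) β = ∑ k ∈ range (N + 1), N.choose k • (ENNReal.ofReal 1 *
        (JO V A (Fin k) β * JO V B (Fin (N - k)) β)) := by simpa using e
  rw [e'] at hne
  rw [Zg_eq_toReal hV, e', toReal_conv hV A B β N (fun _ => 1) (fun _ => zero_le_one) hne]
  simp

/-- two non-interacting cells: upper bound (only measurability is needed). -/
theorem Zg_union_le (h : ∀ a ∈ A, ∀ b ∈ B, V a b = 0 ∧ V b a = 0) :
    Zg V (A ∪ B) N β ≤ ∑ k ∈ range (N + 1), Zg V A k β * Zg V B (N - k) β := by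
  by_cases hint : IntegrableOn (fun x : Fin N → Pt => Real.exp (-β * En V x))
        (Set.pi Set.univ (fun _ : Fin N => A ∪ B))
  · exact (Zg_union_eq hV hA hB hAB β N h hint).le
  · have : Zg V (A ∪ B) N β = 0 := by
      unfold Zg
      rw [integral_undef hint, mul_zero]
    rw [this]
    exact Finset.sum_nonneg (fun k _ => mul_nonneg (Zg_nonneg _ _ _ _) (Zg_nonneg _ _ _ _))

/-- lower bound: the interaction between `A` and `B` is `≤ w`. -/
theorem le_Zg_union (hβ : 0 ≤ β) {w : ℝ} (h : ∀ a ∈ A, ∀ b ∈ B, V a b ≤ w ∧ V b a ≤ w)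
    (hint : IntegrableOn (fun x : Fin N → Pt => Real.exp (-β * En V x))
        (Set.pi Set.univ (fun _ : Fin N => A ∪ B))) :
    ∑ k ∈ range (N + 1), Real.exp (-β * (w * (k * (N - k : ℕ)))) *
      (Zg V A k β * Zg V B (N - k) β) ≤ Zg V (A ∪ B) N β := by
  have hne := (JO_ne_top_iff hV (A ∪ B) N β).2 hint
  have e := le_JO_union hV hA hB hAB (β := β) N hβ h
  have hne' := ne_top_of_le_ne_top hne e
  rw [Zg_eq_toReal hV (A ∪ B), ← toReal_conv hV A B β N
    (fun k => Real.exp (-β * (w * (k * (N - k : ℕ))))) (fun _ => (Real.exp_pos _).le) hne']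
  exact mul_le_mul_of_nonneg_left (ENNReal.toReal_mono hne e) (by positivity)

/-- lower bound, one term, non-positive interaction between `A` and `B`. -/
theorem Zg_mul_le_Zg_union (hβ : 0 ≤ β) (h : ∀ a ∈ A, ∀ b ∈ B, V a b ≤ 0 ∧ V b a ≤ 0) (k l : ℕ)
    (hint : IntegrableOn (fun x : Fin (k + l) → Pt => Real.exp (-β * En V x))
        (Set.pi Set.univ (fun _ : Fin (k + l) => A ∪ B))) :
    Zg V A k β * Zg V B l β ≤ Zg V (A ∪ B) (k + l) β := by
  have := le_Zg_union hV hA hB hAB β (k + l) hβ h hint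
  refine le_trans ?_ this
  have h1 : k ∈ range (k + l + 1) := Finset.mem_range.2 (by omega)
  refine le_trans ?_ (Finset.single_le_sum (f := fun k' => Real.exp (-β * (0 * (k' * (k + l - k' : ℕ)))) *
      (Zg V A k' β * Zg V B (k + l - k') β)) (fun i _ => ?_) h1)
  · simp
  · exact mul_nonneg (Real.exp_pos _).le (mul_nonneg (Zg_nonneg _ _ _ _) (Zg_nonneg _ _ _ _))

/-- upper bound: the interaction between `A` and `B` is `≥ w`. -/
theorem Zg_union_le_of_le (hβ : 0 ≤ β) {w : ℝ} (h : ∀ a ∈ A, ∀ b ∈ B, w ≤ V a b ∧ w ≤ V b a)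
    (hintA : ∀ k ≤ N, IntegrableOn (fun x : Fin k → Pt => Real.exp (-β * En V x))
        (Set.pi Set.univ (fun _ : Fin k => A)))
    (hintB : ∀ k ≤ N, IntegrableOn (fun x : Fin k → Pt => Real.exp (-β * En V x))
        (Set.pi Set.univ (fun _ : Fin k => B))) :
    Zg V (A ∪ B) N β ≤ ∑ k ∈ range (N + 1), Real.exp (-β * (w * (k * (N - k : ℕ)))) *
      (Zg V A k β * Zg V B (N - k) β) := by
  have e := JO_union_le hV hA hB hAB (β := β) N hβ h
  have hne' : ∑ k ∈ range (N + 1), N.choose k •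
      (ENNReal.ofReal (Real.exp (-β * (w * (k * (N - k : ℕ))))) *
        (JO V A (Fin k) β * JO V B (Fin (N - k)) β)) ≠ ⊤ := by
    refine ENNReal.sum_ne_top.2 (fun k hk => ?_)
    have hk' : k ≤ N := Nat.lt_succ_iff.1 (Finset.mem_range.1 hk)
    rw [nsmul_eq_mul]
    refine ENNReal.mul_ne_top (ENNReal.natCast_ne_top _) (ENNReal.mul_ne_top ENNReal.ofReal_ne_top
      (ENNReal.mul_ne_top ((JO_ne_top_iff hV A k β).2 (hintA k hk'))
        ((JO_ne_top_iff hV B (N - k) β).2 (hintB _ (Nat.sub_le _ _)))))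
  rw [Zg_eq_toReal hV (A ∪ B), ← toReal_conv hV A B β N
    (fun k => Real.exp (-β * (w * (k * (N - k : ℕ))))) (fun _ => (Real.exp_pos _).le) hne']
  exact mul_le_mul_of_nonneg_left (ENNReal.toReal_mono hne' e) (by positivity)

end Zunion

end Crest.Agent.S0209
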