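import Crest.Agent.S0209_LDefs
import Crest.Agent.S0209_Split
import Crest.Agent.S0209_LdetGeo
import Crest.Agent.S0209_LdetSlab
import Crest.Agent.S0209_Super

/-!
# ROW 149, Lemma L, steps 1-4: the deterministic inequality
-/

set_option autoImplicit false
namespace Crest.Agent.S0209
open Crest.ProbabilityR.Continuum MeasureTheory Finset

namespace LD

/-- sum over pairs `a < b`. -/
noncomputable def PS {N : ℕ} (f : Fin N → Fin N → ℝ) : ℝ :=
  ∑ p : {p : Fin N × Fin N // p.1 < p.2}, f p.1.1 p.1.2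

theorem PS_eq {N : ℕ} (f : Fin N → Fin N → ℝ) :
    PS f = ∑ a, ∑ b, if a < b then f a b else 0 := by
  unfold PS
  rw [← Finset.sum_subtype (univ.filter (fun p : Fin N × Fin N => p.1 < p.2)) (by simp)
    (fun p : Fin N × Fin N => f p.1 p.2), Finset.sum_filter, Fintype.sum_prod_type]

theorem PS_mono {N : ℕ} {f g : Fin N → Fin N → ℝ} (h : ∀ a b, a < b → f a b ≤ g a b) :
    PS f ≤ PS g :=
  Finset.sum_le_sum (fun p _ => h _ _ p.2)

theorem PS_congr {N : ℕ} {f g : Fin N → Fin N → ℝ} (h : ∀ a b, a < b → f a b = g a b) :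
    PS f = PS g :=
  Finset.sum_congr rfl (fun p _ => h _ _ p.2)

theorem PS_add {N : ℕ} (f g : Fin N → Fin N → ℝ) : PS (fun a b => f a b + g a b) = PS f + PS g :=
  Finset.sum_add_distrib

theorem PS_sub {N : ℕ} (f g : Fin N → Fin N → ℝ) : PS (fun a b => f a b - g a b) = PS f - PS g :=
  Finset.sum_sub_distrib _ _

theorem PS_smul {N : ℕ} (c : ℝ) (f : Fin N → Fin N → ℝ) : PS (fun a b => c * f a b) = c * PS f :=
  (Finset.mul_sum _ _ _).symm

/-- symmetric double sums. -/
theorem sum_sum_symm {N : ℕ} (f : Fin N → Fin N → ℝ) (hf : ∀ a b, f a b = f b a) :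
    ∑ a, ∑ b, f a b = ∑ a, f a a + 2 * PS f := by
  rw [PS_eq]
  have h1 : ∀ a b : Fin N, f a b = (if a < b then f a b else 0) + (if b < a then f b a else 0)
      + (if a = b then f a a else 0) := by
    intro a b
    rcases lt_trichotomy a b with h | h | h
    · simp [h, h.le.not_gt, h.ne]
    · subst h; simp
    · simp [h, h.le.not_gt, h.ne', hf a b]
  calc ∑ a, ∑ b, f a b
      = ∑ a, ∑ b, ((if a < b then f a b else 0) + (if b < a then f b a else 0)
        + (if a = b then f a a else 0)) :=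
        Finset.sum_congr rfl (fun a _ => Finset.sum_congr rfl (fun b _ => h1 a b))
    _ = ∑ a, ∑ b, (if a < b then f a b else 0) + ∑ a, ∑ b, (if b < a then f b a else 0)
        + ∑ a, ∑ b, (if a = b then f a a else 0) := by
        simp only [Finset.sum_add_distrib]
    _ = _ := by
        rw [Finset.sum_comm (f := fun a b : Fin N => if b < a then f b a else 0)]
        simp only [Finset.sum_ite_eq, Finset.mem_univ, if_true]
        ring

theorem sum_subtype_ite {ι : Type*} [Fintype ι] (p : ι → Prop) [DecidablePred p] (f : ι → ℝ) :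
    ∑ a : {a // p a}, f a = ∑ a, if p a then f a else 0 := by
  rw [← Finset.sum_subtype (univ.filter p) (by simp) f, Finset.sum_filter]

/-- (D3) the `W`-bound for sub-configurations. -/
theorem W_le_sub {W : ℝ → ℝ} {C' : ℝ} (hW : ∀ (N : ℕ) (x : Fin N → Pt), energy W x ≤ C' * Qf x)
    {N : ℕ} (p : Fin N → Prop) [DecidablePred p] (x : Fin N → Pt) :
    PS (fun a b => if p a ∧ p b then W (dist (x a) (x b)) else 0) ≤
      C' * ∑ a, ∑ b, if p a ∧ p b ∧ sq (x a) = sq (x b) then (1 : ℝ) else 0 := by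
  set e : Fin (Fintype.card {a // p a}) ≃o {a // p a} := monoEquivOfFin _ rfl with he
  have h := hW _ (fun i => x (e i))
  have h1 : energy W (fun i => x (e i)) =
      PS (fun a b => if p a ∧ p b then W (dist (x a) (x b)) else 0) := by
    rw [energy_eq_En, En_eq_EnO, EnO_comp_orderIso (rad W) e (fun a : {a // p a} => x a),
      EnO_eq_sum_sum, PS_eq]
    simp only [← Subtype.coe_lt_coe]
    refine (sum_subtype_ite p
        (fun a => ∑ j : {a // p a}, if a < j.1 then rad W (x a) (x j) else 0)).trans ?_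
    refine Finset.sum_congr rfl (fun a _ => ?_)
    by_cases ha : p a
    · simp only [ha, if_true, true_and]
      refine (sum_subtype_ite p (fun b => if a < b then rad W (x a) (x b) else 0)).trans ?_
      refine Finset.sum_congr rfl (fun b _ => ?_)
      by_cases hb : p b <;> by_cases hab : a < b <;> simp [hb, hab, rad]
    · simp [ha]
  have h2 : Qf (fun i => x (e i)) =
      ∑ a, ∑ b, if p a ∧ p b ∧ sq (x a) = sq (x b) then (1 : ℝ) else 0 := by
    unfold Qf
    refine (Equiv.sum_comp e.toEquiv (fun a : {a // p a} =>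
      ∑ j, if sq (x a) = sq (x (e j)) then (1 : ℝ) else 0)).trans ?_
    refine (sum_subtype_ite p
      (fun a => ∑ j, if sq (x a) = sq (x (e j)) then (1 : ℝ) else 0)).trans ?_
    refine Finset.sum_congr rfl (fun a _ => ?_)
    by_cases ha : p a
    · simp only [ha, if_true, true_and]
      refine (Equiv.sum_comp e.toEquiv (fun b : {a // p a} =>
        if sq (x a) = sq (x b) then (1 : ℝ) else 0)).trans ?_
      refine (sum_subtype_ite p (fun b => if sq (x a) = sq (x b) then (1 : ℝ) else 0)).trans ?_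
      refine Finset.sum_congr rfl (fun b _ => ?_)
      by_cases hb : p b <;> simp [hb]
    · simp [ha]
  rw [h1, h2] at h
  exact h

theorem sq_eq_cellIdx (y : Pt) : sq y = cellIdx (1 / 2) 0 y := by
  funext i
  unfold sq cellIdx
  congr 1
  simp only [Pi.zero_apply, sub_zero]
  ring

theorem dist_le_of_sq_eq {y z : Pt} (h : sq y = sq z) : dist y z ≤ 7 / 8 := by
  have h1 := dist_le_of_cellIdx (s := 1 / 2) (by norm_num) 0 y z
  rw [← sq_eq_cellIdx, ← sq_eq_cellIdx, h, sub_self] at h1
  have h2 : nrm 0 = 0 := by simp [nrm]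
  rw [h2] at h1
  have h3 : Real.sqrt 3 ≤ 7 / 4 := by
    rw [show (7 / 4 : ℝ) = Real.sqrt ((7 / 4) ^ 2) from (Real.sqrt_sq (by norm_num)).symm]
    exact Real.sqrt_le_sqrt (by norm_num)
  linarith

theorem Qf_eq {N : ℕ} (x : Fin N → Pt) :
    Qf x = N + 2 * PS (fun a b => if sq (x a) = sq (x b) then (1 : ℝ) else 0) := by
  unfold Qf
  rw [sum_sum_symm (fun a b => if sq (x a) = sq (x b) then (1 : ℝ) else 0)
    (fun a b => by simp only [eq_comm])]
  simp

theorem Qf_nonneg {N : ℕ} (x : Fin N → Pt) : 0 ≤ Qf x := by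
  unfold Qf
  exact Finset.sum_nonneg (fun a _ => Finset.sum_nonneg (fun b _ => by split_ifs <;> norm_num))

end LD

open LD in
/-- Lemma L, steps 1-4. -/
theorem lemmaL_det {q0 W : ℝ → ℝ} {e0 C' : ℝ} {w : ℕ} (h : Short q0 W e0 C' w) {α R : ℝ}
    (hα : 0 ≤ α) (mt : ℕ) (hmt : 1 ≤ mt) (hR : (2 * w * mt : ℝ) ≤ R) {χ : ℝ}
    (hχ : χ = 3 * C' / (mt * (e0 / 2 - C'))) {N : ℕ} (x : Fin N → Pt) :
    ∃ τ : Fin 3 → ℕ, (∀ i, τ i < mt) ∧
      En (Vcell (cellIdx (2 * w * mt) (gridO w τ)) (fun r => q0 r - W r) χ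
          (α * (kap + CB * (2 * w * mt) / R) / (2 * w * mt : ℝ) ^ 3)) x
        - (χ * e0 / 2 + α * (kap + CB * (2 * w * mt) / R) / (2 * (2 * w * mt : ℝ) ^ 3)) * N
      ≤ energy (fun r => q0 r - W r - α * Kac R r) x := by
  classical
  choose τ hτ1 hτ2 using fun i => Ldet.exists_slab h.w_pos hmt x i
  refine ⟨τ, hτ1, ?_⟩
  have hw0 : (0 : ℝ) < w := by exact_mod_cast h.w_pos
  have hmt0 : (0 : ℝ) < mt := by exact_mod_cast hmt
  have hl : (0 : ℝ) < 2 * w * mt := by positivity
  set l : ℝ := 2 * w * mt with hldef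
  set idx := cellIdx l (gridO w τ) with hidx
  set κp : ℝ := kap + CB * l / R with hκp
  set c : ℝ := α * κp / l ^ 3 with hc
  set d : Fin N → Fin N → ℝ := fun a b => dist (x a) (x b) with hd
  set As := PS (fun a b => if idx (x a) = idx (x b) then q0 (d a b) else 0) with hAs
  set Ws := PS (fun a b => if idx (x a) = idx (x b) then W (d a b) else 0) with hWs
  set Wd := PS (fun a b => if idx (x a) = idx (x b) then 0 else W (d a b)) with hWd
  set Pin := PS (fun a b => if idx (x a) = idx (x b) then (1 : ℝ) else 0) with hPin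
  set A0 := PS (fun a b => q0 (d a b)) with hA0
  set Wt := PS (fun a b => W (d a b)) with hWt
  set Kt := PS (fun a b => Kac R (d a b)) with hKt
  have E1 : energy (fun r => q0 r - W r - α * Kac R r) x = A0 - Wt - α * Kt := by
    rw [hA0, hWt, hKt, ← PS_smul, ← PS_sub, ← PS_sub]
    rfl
  have E2 : En (Vcell idx (fun r => q0 r - W r) χ c) x = (1 - χ) * (As - Ws) - c * Pin := by
    rw [hAs, hWs, hPin, ← PS_sub, ← PS_smul, ← PS_smul, ← PS_sub]
    have : En (Vcell idx (fun r => q0 r - W r) χ c) x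
        = PS (fun a b => Vcell idx (fun r => q0 r - W r) χ c (x a) (x b)) := rfl
    rw [this]
    refine PS_congr (fun a b _ => ?_)
    unfold Vcell
    split_ifs <;> simp [hd]
  have E3 : Wt = Ws + Wd := by
    rw [hWt, hWs, hWd, ← PS_add]
    refine PS_congr (fun a b _ => ?_)
    split_ifs <;> simp
  have I1 : As ≤ A0 := PS_mono (fun a b _ => by
    split_ifs
    · exact le_rfl
    · exact h.q0_nonneg _)
  have I2a : 0 ≤ Wd := by
    have : PS (fun _ _ : Fin N => (0 : ℝ)) ≤ Wd := PS_mono (fun a b _ => by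
      split_ifs
      · exact le_rfl
      · exact h.W_nonneg _)
    simpa [PS] using this
  have I2 : Wt ≤ C' * Qf x := h.W_le N x
  have I3 : Wd ≤ 3 * (C' * (Qf x / mt)) := by
    have s1 : Wd ≤ PS (fun a b => ∑ i : Fin 3,
        if Ldet.slab w mt i (x a) = τ i ∧ Ldet.slab w mt i (x b) = τ i then W (d a b) else 0) := by
      refine PS_mono (fun a b _ => ?_)
      have hnn : ∀ i ∈ (univ : Finset (Fin 3)), 0 ≤
          (if Ldet.slab w mt i (x a) = τ i ∧ Ldet.slab w mt i (x b) = τ i then W (d a b) else 0) := by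
        intro i _
        split_ifs
        · exact h.W_nonneg _
        · exact le_rfl
      split_ifs with hs
      · exact Finset.sum_nonneg hnn
      · by_cases hdw : d a b < w
        · obtain ⟨i, hi⟩ := Ldet.slab_of_cross h.w_pos hmt τ hτ1 hs hdw
          refine le_trans ?_ (Finset.single_le_sum hnn (Finset.mem_univ i))
          rw [if_pos hi]
        · have h0 : W (d a b) = 0 := h.W_range _ (not_lt.1 hdw)
          calc W (d a b) = 0 := h0
            _ ≤ _ := Finset.sum_nonneg hnn
    have s2 : PS (fun a b => ∑ i : Fin 3,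
        if Ldet.slab w mt i (x a) = τ i ∧ Ldet.slab w mt i (x b) = τ i then W (d a b) else 0)
        = ∑ i : Fin 3, PS (fun a b =>
          if Ldet.slab w mt i (x a) = τ i ∧ Ldet.slab w mt i (x b) = τ i then W (d a b) else 0) :=
      Finset.sum_comm
    have s3 : ∀ i : Fin 3, PS (fun a b =>
          if Ldet.slab w mt i (x a) = τ i ∧ Ldet.slab w mt i (x b) = τ i then W (d a b) else 0)
          ≤ C' * (Qf x / mt) := by
      intro i
      refine (W_le_sub h.W_le (fun a => Ldet.slab w mt i (x a) = τ i) x).trans ?_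
      refine mul_le_mul_of_nonneg_left ?_ h.C'_nonneg
      rw [le_div_iff₀ hmt0, mul_comm]
      refine le_trans (mul_le_mul_of_nonneg_left (le_of_eq ?_) hmt0.le) (hτ2 i)
      unfold Ldet.QS
      rw [Finset.sum_filter]
      refine Finset.sum_congr rfl (fun a _ => ?_)
      by_cases h1 : Ldet.slab w mt i (x a) = τ i
      · simp only [h1, if_true, true_and]
        rw [Finset.sum_filter]
        refine Finset.sum_congr rfl (fun b _ => ?_)
        by_cases h2 : Ldet.slab w mt i (x b) = τ i <;> simp [h2]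
      · simp [h1]
    rw [s2] at s1
    refine s1.trans ?_
    calc ∑ i : Fin 3, PS (fun a b =>
          if Ldet.slab w mt i (x a) = τ i ∧ Ldet.slab w mt i (x b) = τ i then W (d a b) else 0)
        ≤ ∑ _i : Fin 3, C' * (Qf x / mt) := Finset.sum_le_sum (fun i _ => s3 i)
      _ = 3 * (C' * (Qf x / mt)) := by simp
  have I4 : e0 / 2 * (Qf x - N) ≤ As := by
    rw [Qf_eq x]
    have : e0 / 2 * (N + 2 * PS (fun a b => if sq (x a) = sq (x b) then (1 : ℝ) else 0) - N)
        = PS (fun a b => e0 * (if sq (x a) = sq (x b) then (1 : ℝ) else 0)) := by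
      rw [PS_smul]; ring
    rw [this]
    refine PS_mono (fun a b _ => ?_)
    by_cases hs : sq (x a) = sq (x b)
    · have h1 : idx (x a) = idx (x b) := Ldet.cell_eq_of_sq h.w_pos hmt τ hs
      simp only [hs, h1, if_true, mul_one]
      exact h.q0_ge _ dist_nonneg (dist_le_of_sq_eq hs)
    · simp only [hs, if_false, mul_zero]
      split_ifs
      · exact h.q0_nonneg _
      · exact le_rfl
  have I5 : Kt ≤ κp / (2 * l ^ 3) * (N + 2 * Pin) := by
    have := Kac_energy_le_grid hl hR (gridO w τ) x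
    rw [sum_sum_symm (fun a b => if cellIdx l (gridO w τ) (x a) = cellIdx l (gridO w τ) (x b)
      then (1 : ℝ) else 0) (fun a b => by simp only [eq_comm])] at this
    simp only [if_true, Finset.sum_const, Finset.card_univ, Fintype.card_fin, nsmul_eq_mul,
      mul_one] at this
    exact this
  -- arithmetic
  have hδ : 0 < e0 / 2 - C' := by linarith [h.C'_lt]
  have hQ := Qf_nonneg x
  have hχ0 : 0 ≤ χ := by
    rw [hχ]
    exact div_nonneg (mul_nonneg (by norm_num) h.C'_nonneg) (mul_nonneg hmt0.le hδ.le)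
  have a1 : (e0 / 2 - C') * Qf x ≤ (As - Ws) + e0 / 2 * N := by
    have : Ws ≤ C' * Qf x := by linarith
    linarith
  have a2 : 3 * (C' * (Qf x / mt)) = χ * ((e0 / 2 - C') * Qf x) := by
    rw [hχ]
    generalize e0 / 2 - C' = δ at hδ
    have h1 := hδ.ne'
    have h2 := hmt0.ne'
    field_simp
  have a3 : χ * ((e0 / 2 - C') * Qf x) ≤ χ * ((As - Ws) + e0 / 2 * N) :=
    mul_le_mul_of_nonneg_left a1 hχ0
  have a4 : α * Kt ≤ c * Pin + α * κp / (2 * l ^ 3) * N := by
    have := mul_le_mul_of_nonneg_left I5 hα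
    have e : α * (κp / (2 * l ^ 3) * (N + 2 * Pin)) = c * Pin + α * κp / (2 * l ^ 3) * N := by
      rw [hc]
      field_simp
      ring
    linarith
  rw [E1, E2]
  nlinarith

end Crest.Agent.S0209
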