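import Crest.Agent.S0209_LemmaL56
import Crest.Agent.S0209_LemmaLdet
import Crest.Agent.S0209_Grid

/-!
# ROW 149, package L: `lemmaL` (verbatim from `notes/ROW149_Iface2.lean.txt`)
-/

set_option autoImplicit false
namespace Crest.Agent.S0209
open Crest.ProbabilityR.Continuum MeasureTheory

namespace LL

theorem energy_sub (f g : ℝ → ℝ) {N : ℕ} (x : Fin N → Pt) :
    energy (fun r => f r - g r) x = energy f x - energy g x := by
  unfold energy
  rw [← Finset.sum_sub_distrib]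

theorem energy_smul (a : ℝ) (f : ℝ → ℝ) {N : ℕ} (x : Fin N → Pt) :
    energy (fun r => a * f r) x = a * energy f x := by
  unfold energy
  rw [Finset.mul_sum]

theorem measurable_Kac (R : ℝ) : Measurable (Kac R) := by
  unfold Kac
  fun_prop

theorem good_short {q0 W : ℝ → ℝ} {e0 C' : ℝ} {w : ℕ} (h : Short q0 W e0 C' w) :
    Good (fun r => q0 r - W r) (e0 / 2) where
  meas := h.meas0.sub h.measW
  stable := by
    intro N x
    rw [energy_sub]
    have h1 := core_energy_ge h.q0_nonneg h.q0_ge x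
    have h2 := h.W_le N x
    have h3 := LD.Qf_nonneg x
    have h4 := h.C'_lt
    nlinarith

theorem good_full {q0 W : ℝ → ℝ} {e0 C' : ℝ} {w : ℕ} (h : Short q0 W e0 C' w) {α R : ℝ}
    (hα : 0 ≤ α) (hR : 1 ≤ R) (hstab : α * (4 * kap + 2 * CB / R) + C' ≤ e0 / 2) :
    Good (fun r => q0 r - W r - α * Kac R r) (e0 / 2) where
  meas := (h.meas0.sub h.measW).sub ((measurable_Kac R).const_mul α)
  stable := by
    intro N x
    rw [energy_sub (fun r => q0 r - W r), energy_sub, energy_smul]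
    have h1 := core_energy_ge h.q0_nonneg h.q0_ge x
    have h2 := h.W_le N x
    have h3 := LD.Qf_nonneg x
    have h5 := mul_le_mul_of_nonneg_left (Kac_energy_le hR x) hα
    have h6 := mul_le_mul_of_nonneg_right hstab h3
    nlinarith

end LL

/-- Lemma L.  `l = 2 w mt`, `χ = 3 C' / (mt (e0/2 - C'))`, `κ⁺ = kap + CB l / R`. -/
theorem lemmaL {q0 W : ℝ → ℝ} {e0 C' : ℝ} {w : ℕ} (h : Short q0 W e0 C' w)
    {α R : ℝ} (hα : 0 ≤ α) (mt : ℕ) (hmt : 1 ≤ mt) (hR : (2 * w * mt : ℝ) ≤ R)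
    (hstab : α * (4 * kap + 2 * CB / R) + C' ≤ e0 / 2)
    {χ : ℝ} (hχ : χ = 3 * C' / (mt * (e0 / 2 - C'))) (hχ1 : χ < 1)
    {L β μ θ S : ℝ} (hL : 0 < L) (hβ : 0 ≤ β) (hθ : 0 < θ)
    (hS : ∀ n : ℕ, (μ + θ) * n
        + Real.log (partitionFn (fun r => q0 r - W r) (2 * w * mt) n ((1 - χ) * β))
        + β * α * (kap + CB * (2 * w * mt) / R) * (n : ℝ) ^ 2 / (2 * (2 * w * mt : ℝ) ^ 3) ≤ S)
    (N : ℕ) :
    Real.log (partitionFn (fun r => q0 r - W r - α * Kac R r) L N β) ≤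
      -μ * N + (L / (2 * w * mt) + 2) ^ 3 * (S + Real.log (1 / (1 - Real.exp (-θ))))
      + β * (χ * e0 / 2 + α * (kap + CB * (2 * w * mt) / R) / (2 * (2 * w * mt : ℝ) ^ 3)) * N
      + 3 * Real.log mt := by
  have hw0 : (1 : ℝ) ≤ w := by exact_mod_cast h.w_pos
  have hmt0 : (1 : ℝ) ≤ mt := by exact_mod_cast hmt
  have hl : (0 : ℝ) < 2 * w * mt := by positivity
  have hl2 : (2 : ℝ) ≤ 2 * w * mt := by nlinarith
  have hR0 : 0 < R := by linarith
  have hκ : 0 ≤ kap + CB * (2 * w * mt) / R := by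
    have := kap_pos
    have : 0 ≤ CB * (2 * w * mt) / R := by unfold CB; positivity
    linarith
  have hc : 0 ≤ α * (kap + CB * (2 * w * mt) / R) / (2 * w * mt : ℝ) ^ 3 := by positivity
  set T : Finset (Fin 3 → ℕ) := Fintype.piFinset (fun _ : Fin 3 => Finset.range mt) with hT
  have hTcard : Real.log T.card = 3 * Real.log mt := by
    rw [hT, Fintype.card_piFinset]
    simp
  have key := lemmaL_abstract (ι := Fin 3 → ℤ) T (fun τ => cellIdx (2 * w * mt) (gridO w τ))
    (fun τ _ => measurable_cellIdx _ _) (LL.good_short h)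
    (LL.good_full h hα (by linarith) hstab) hχ1.le hc
    (K := χ * e0 / 2 + α * (kap + CB * (2 * w * mt) / R) / (2 * (2 * w * mt : ℝ) ^ 3))
    (μ := μ) (S := S) (D := (L / (2 * w * mt) + 2) ^ 3) hl hL hβ hθ
    (fun τ _ c₀ => cell_subset hl _ c₀) (fun τ _ => cells_cover hl _ hL.le)
    (by
      intro n
      refine le_trans (le_of_eq ?_) (hS n)
      congr 1
      field_simp) N
    (by
      intro x
      obtain ⟨τ, hτ, hx⟩ := lemmaL_det h hα mt hmt hR hχ x
      exact ⟨τ, by simpa [hT, Fintype.mem_piFinset] using hτ, hx⟩)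
  rw [hTcard] at key
  linarith

end Crest.Agent.S0209
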