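import Crest.Agent.S0209_Basic

/-!
# ROW 149, package L2 (core): Lemma L + concavity in `β`

`L2.core` is the abstract step from the conclusion of Lemma L (taken as a hypothesis `hLem`) to the
conclusion of Lemma L2.  The verbatim `lemmaL2` is in `S0209_LemmaL2.lean`.
-/

set_option autoImplicit false
namespace Crest.Agent.S0209
open Crest.ProbabilityR.Continuum MeasureTheory

namespace L2

/-- `Phi(cβ) ≥ c Phi(β) - (1-c) l³` for `0 ≤ c ≤ 1` (concavity in `β` and `Z(β=0) ≤ exp(l³)`). -/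
theorem Phi_scale_ge {q : ℝ → ℝ} {B : ℝ} (hq : Good q B) {l : ℝ} (hl : 0 < l) (n : ℕ)
    {β c : ℝ} (hβ : 0 ≤ β) (hc0 : 0 ≤ c) (hc1 : c ≤ 1) :
    c * Phi q l n β - (1 - c) * l ^ 3 ≤ Phi q l n (c * β) := by
  have hcc := (Phi_concave hq hl n).2 (x := β) (y := 0) hβ (le_refl (0 : ℝ)) hc0
    (by linarith : (0 : ℝ) ≤ 1 - c) (by ring)
  simp only [smul_eq_mul, mul_zero, add_zero] at hcc
  have h0 : -(l ^ 3) ≤ Phi q l n 0 := by
    unfold Phi
    rw [Z_beta_zero q hl.le n, neg_le_neg_iff, pow_mul]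
    have hpos : 0 < (l ^ 3) ^ n / (n.factorial : ℝ) := by positivity
    calc Real.log ((l ^ 3) ^ n / (n.factorial : ℝ)) ≤ Real.log (Real.exp (l ^ 3)) :=
          Real.log_le_log hpos (Real.pow_div_factorial_le_exp _ (by positivity) n)
      _ = l ^ 3 := Real.log_exp _
  have : (1 - c) * -(l ^ 3) ≤ (1 - c) * Phi q l n 0 :=
    mul_le_mul_of_nonneg_left h0 (by linarith)
  linarith

/-- abstract form of Lemma L2: `hLem` is the conclusion of Lemma L for the pair `(q, φ)`. -/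
theorem core {q φ : ℝ → ℝ} {B : ℝ} (hq : Good q B) {l L α κ e0 G χ χ' : ℝ} (hl : 0 < l)
    (hχ0 : 0 ≤ χ) (hχ1 : χ < 1) (hχ'0 : 0 ≤ χ') (hχ'1 : χ' < 1)
    (hLem : ∀ {β μ θ S : ℝ}, 0 ≤ β → 0 < θ →
      (∀ n : ℕ, (μ + θ) * n + Real.log (partitionFn q l n ((1 - χ) * β))
        + β * α * κ * (n : ℝ) ^ 2 / (2 * l ^ 3) ≤ S) →
      ∀ N : ℕ, Real.log (partitionFn φ L N β) ≤
        -μ * N + (L / l + 2) ^ 3 * (S + Real.log (1 / (1 - Real.exp (-θ))))
        + β * (χ * e0 / 2 + α * κ / (2 * l ^ 3)) * N + G)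
    {β μ θ P : ℝ} (hβ : 0 ≤ β) (hθ : 0 < θ)
    (hP : ∀ n : ℕ, μ * n - Phi q l n β
        + β * α * κ * (n : ℝ) ^ 2 / (2 * l ^ 3 * (1 - χ)) ≤ P)
    (N : ℕ) :
    ((1 - χ) * (1 - χ') * μ - θ) * N
      - (L / l + 2) ^ 3 * ((1 - χ) * (1 - χ') * P + (1 - (1 - χ) * (1 - χ')) * l ^ 3
          + Real.log (1 / (1 - Real.exp (-θ))))
      - (1 - χ') * β * (χ * e0 / 2 + α * κ / (2 * l ^ 3)) * N
      - G
      ≤ Phi φ L N ((1 - χ') * β) := by
  have h1 : 0 < 1 - χ := by linarith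
  have h2 : 0 < 1 - χ' := by linarith
  have hc0 : 0 ≤ (1 - χ) * (1 - χ') := by positivity
  have hc1 : (1 - χ) * (1 - χ') ≤ 1 := by nlinarith
  have hβ' : 0 ≤ (1 - χ') * β := by positivity
  have key := hLem (β := (1 - χ') * β) (μ := (1 - χ) * (1 - χ') * μ - θ) (θ := θ)
    (S := (1 - χ) * (1 - χ') * P + (1 - (1 - χ) * (1 - χ')) * l ^ 3) hβ' hθ ?_ N
  · unfold Phi
    linarith
  · intro n
    have hs := Phi_scale_ge hq hl n hβ hc0 hc1
    have hp := mul_le_mul_of_nonneg_left (hP n) hc0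
    have e1 : (1 - χ) * ((1 - χ') * β) = (1 - χ) * (1 - χ') * β := by ring
    have e2 : (1 - χ) * (1 - χ') * (β * α * κ * (n : ℝ) ^ 2 / (2 * l ^ 3 * (1 - χ))) =
        (1 - χ') * β * α * κ * (n : ℝ) ^ 2 / (2 * l ^ 3) := by
      field_simp
    rw [e1]
    have e3 : Real.log (partitionFn q l n ((1 - χ) * (1 - χ') * β)) =
        -Phi q l n ((1 - χ) * (1 - χ') * β) := by unfold Phi; ring
    rw [e3]
    have e4 : (1 - χ) * (1 - χ') * (μ * n - Phi q l n β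
        + β * α * κ * (n : ℝ) ^ 2 / (2 * l ^ 3 * (1 - χ))) =
        (1 - χ) * (1 - χ') * μ * n - (1 - χ) * (1 - χ') * Phi q l n β +
        (1 - χ) * (1 - χ') * (β * α * κ * (n : ℝ) ^ 2 / (2 * l ^ 3 * (1 - χ))) := by ring
    rw [e4, e2] at hp
    linarith

end L2

end Crest.Agent.S0209
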