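import Mathlib

/-!
# ROW 149: abstract limit step of `bridge_A`
-/

set_option autoImplicit false
namespace Crest.Agent.S0209
namespace BrA0
open Filter Topology

theorem tendsto_floor_div {ρ : ℝ} (hρ : 0 < ρ) :
    Tendsto (fun L : ℝ => ((⌊ρ * L ^ 3⌋₊ : ℕ) : ℝ) / L ^ 3) atTop (𝓝 ρ) := by
  have hpow : Tendsto (fun L : ℝ => L ^ 3) atTop atTop := tendsto_pow_atTop (by norm_num)
  have h1 : Tendsto (fun x : ℝ => ((⌊ρ * x⌋₊ : ℕ) : ℝ) / x) atTop (𝓝 ρ) :=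
    tendsto_nat_floor_mul_div_atTop hρ.le
  exact h1.comp hpow

theorem tendsto_cells {l : ℝ} (hl : 0 < l) :
    Tendsto (fun L : ℝ => (L / l + 2) ^ 3 / L ^ 3) atTop (𝓝 (1 / l ^ 3)) := by
  have h1 : Tendsto (fun L : ℝ => 1 / l + 2 * L⁻¹) atTop (𝓝 (1 / l + 2 * 0)) :=
    tendsto_const_nhds.add (tendsto_inv_atTop_zero.const_mul 2)
  have h2 := h1.pow 3
  have h3 : (1 / l + 2 * 0) ^ 3 = 1 / l ^ 3 := by
    rw [mul_zero, add_zero, div_pow, one_pow]
  rw [h3] at h2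
  refine h2.congr' ?_
  filter_upwards [eventually_gt_atTop 0] with L hL
  rw [← div_pow]
  congr 1
  field_simp

theorem limit_lower {f : ℝ → ℝ} {F ρ l A B D : ℝ} (hl : 0 < l) (hρ : 0 < ρ)
    (hF : Tendsto (fun L : ℝ => f L / L ^ 3) atTop (𝓝 F))
    (hf : ∀ L : ℝ, 0 < L → A * (⌊ρ * L ^ 3⌋₊ : ℝ) - (L / l + 2) ^ 3 * B - D ≤ f L) :
    A * ρ - B / l ^ 3 ≤ F := by
  have hpow : Tendsto (fun L : ℝ => L ^ 3) atTop atTop := tendsto_pow_atTop (by norm_num)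
  have h1 := (tendsto_floor_div hρ).const_mul A
  have h2 := (tendsto_cells hl).mul_const B
  have h3 : Tendsto (fun L : ℝ => D / L ^ 3) atTop (𝓝 0) := hpow.const_div_atTop D
  have h4 := (h1.sub h2).sub h3
  have h5 : A * ρ - 1 / l ^ 3 * B - 0 = A * ρ - B / l ^ 3 := by ring
  rw [h5] at h4
  refine le_of_tendsto_of_tendsto h4 hF ?_
  filter_upwards [eventually_gt_atTop 0] with L hL
  have hL3 : 0 < L ^ 3 := by positivity
  have := div_le_div_of_nonneg_right (hf L hL) hL3.le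
  refine le_trans (le_of_eq ?_) this
  field_simp

end BrA0
end Crest.Agent.S0209
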