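import Crest.Agent.S0209_BridgeADefs
import Crest.Agent.S0209_LimLower
import Crest.Agent.S0209_LemmaL2Core
import Crest.Agent.S0209_LemmaL
import Crest.Agent.S0209_PotInf
import Crest.Agent.S0209_Lam
import Crest.Agent.S0209_Limit
import Crest.Agent.S0209_Final

/-!
# ROW 149, package I5 (assistant): `bridge_A` up to the convergence `err → 0`

`BrA.bridge_A_core`: the inequality of `bridge_A` with the explicit error `BrA.err P k`.
-/

set_option autoImplicit false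
namespace Crest.Agent.S0209
open Crest.ProbabilityR.Continuum MeasureTheory
namespace Par
namespace BrA

variable {P : Par} {q0 : ℝ → ℝ} {I0 : ℝ}

/-- Lemma L2 (Lemma L + concavity in `β`), private copy built from `L2.core` and `lemmaL`. -/
theorem lemL2 {q0 W : ℝ → ℝ} {e0 C' : ℝ} {w : ℕ} (h : Short q0 W e0 C' w)
    {α R : ℝ} (hα : 0 ≤ α) (mt : ℕ) (hmt : 1 ≤ mt) (hR : (2 * w * mt : ℝ) ≤ R)
    (hstab : α * (4 * kap + 2 * CB / R) + C' ≤ e0 / 2)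
    {χ χ' : ℝ} (hχ : χ = 3 * C' / (mt * (e0 / 2 - C'))) (hχ1 : χ < 1) (hχ'0 : 0 ≤ χ') (hχ'1 : χ' < 1)
    {L β μ θ P : ℝ} (hL : 0 < L) (hβ : 0 ≤ β) (hθ : 0 < θ)
    (hP : ∀ n : ℕ, μ * n - Phi (fun r => q0 r - W r) (2 * w * mt) n β
        + β * α * (kap + CB * (2 * w * mt) / R) * (n : ℝ) ^ 2 / (2 * (2 * w * mt : ℝ) ^ 3 * (1 - χ)) ≤ P)
    (N : ℕ) :
    ((1 - χ) * (1 - χ') * μ - θ) * N
      - (L / (2 * w * mt) + 2) ^ 3 * ((1 - χ) * (1 - χ') * P + (1 - (1 - χ) * (1 - χ')) * (2 * w * mt : ℝ) ^ 3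
          + Real.log (1 / (1 - Real.exp (-θ))))
      - (1 - χ') * β * (χ * e0 / 2 + α * (kap + CB * (2 * w * mt) / R) / (2 * (2 * w * mt : ℝ) ^ 3)) * N
      - 3 * Real.log mt
      ≤ Phi (fun r => q0 r - W r - α * Kac R r) L N ((1 - χ') * β) := by
  have hw : (1 : ℝ) ≤ w := by exact_mod_cast h.w_pos
  have hm : (1 : ℝ) ≤ mt := by exact_mod_cast hmt
  have hl : (0 : ℝ) < 2 * w * mt := by positivity
  have hχ0 : 0 ≤ χ := by
    rw [hχ]
    have := h.C'_nonneg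
    have := h.C'_lt
    have : 0 < e0 / 2 - C' := by linarith
    positivity
  exact L2.core (LL.good_short h) hl hχ0 hχ1 hχ'0 hχ'1
    (fun hβ' hθ' hS N => lemmaL h hα mt hmt hR hstab hχ hχ1 hL hβ' hθ' hS N) hβ hθ hP N

/-- the short range part at level `j+1` -/
theorem short (h : P.OK) (hq : CoreP q0 P.T P.a P.b1 P.r0 I0) (j : ℕ) :
    Short q0 (P.Wk j) (20 * P.T) (P.Cp j) (P.w (j + 1)) where
  meas0 := hq.meas
  measW := measurable_Wk P j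
  q0_nonneg := hq.nonneg
  q0_ge := fun r hr hr' => hq.low1 r hr (by
    unfold Par.b1
    have := h.δ_le
    linarith)
  W_nonneg := Wk_nonneg h j
  W_range := by
    intro r hr
    unfold Par.Wk
    refine Finset.sum_eq_zero fun i hi => ?_
    rw [Finset.mem_Icc] at hi
    have hj : ¬ (j + 1 ≤ 1) := by omega
    have hw : P.w (j + 1) = P.R j := by
      unfold Par.w
      rw [if_neg hj]
      rfl
    rw [hw] at hr
    have h1 : (P.R i : ℝ) ≤ P.R j := by exact_mod_cast R_mono h hi.2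
    rw [Kac_eq_zero (R_pos_real h i) (h1.trans hr), mul_zero]
  W_le := fun N x => Wk_energy_le h j x
  w_pos := by
    unfold Par.w
    split_ifs
    · exact le_refl 1
    · exact R_pos h _
  C'_nonneg := Cp_nonneg h j
  C'_lt := by
    have := Cp_le h j
    have := T_pos h
    linarith

theorem l_cast (h : P.OK) (j : ℕ) :
    (P.l (j + 1) : ℝ) = 2 * (P.w (j + 1) : ℝ) * (P.mt (j + 1) : ℝ) := by
  exact_mod_cast l_eq h (by omega : 1 ≤ j + 1)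

theorem one_le_l (h : P.OK) (j : ℕ) : (1 : ℝ) ≤ P.l (j + 1) := by
  exact_mod_cast l_pos h (j + 1)

theorem mt_pos (h : P.OK) (j : ℕ) : 1 ≤ P.mt (j + 1) := by
  have h1 := l_eq h (by omega : 1 ≤ j + 1)
  have h2 := l_pos h (j + 1)
  rcases Nat.eq_zero_or_pos (P.mt (j + 1)) with h0 | h0
  · rw [h0, mul_zero] at h1
    omega
  · exact h0

theorem χ_lt_one (h : P.OK) (j : ℕ) : P.χ (j + 1) < 1 := by
  have h1 := χ_le h (by omega : 1 ≤ j + 1)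
  have h2 : (10 : ℝ) ^ 60 ≤ P.R (j + 1 - 1) := R_ge_real h _
  have h3 : (6 : ℝ) / P.R (j + 1 - 1) ≤ 6 / 10 ^ 60 := by gcongr
  have h4 : (6 : ℝ) / 10 ^ 60 < 1 := by norm_num
  linarith

theorem χt_lt_one (h : P.OK) (k : ℕ) : P.χt k < 1 := by
  have h1 := χt_le h k
  have h2 : ((1 : ℝ) / 2) ^ k ≤ 1 := pow_le_one₀ (by norm_num) (by norm_num)
  linarith

/-- the hypothesis of `bridge_A` in the normalisation of Lemma L2 -/
theorem hP_of (h : P.OK) (j : ℕ) {β μ Pp : ℝ}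
    (hP : ∀ n : ℕ, μ * ((n : ℝ) / (P.hier q0).M (j + 1)) - (P.hier q0).psi (j + 1) β n ≤ Pp)
    (n : ℕ) :
    (P.T * μ) * n - Phi (fun r => q0 r - P.Wk j r) (2 * (P.w (j + 1) : ℝ) * (P.mt (j + 1) : ℝ)) n β
      + β * P.α (j + 1) * (kap + CB * (2 * (P.w (j + 1) : ℝ) * (P.mt (j + 1) : ℝ)) / (P.R (j + 1) : ℝ))
          * (n : ℝ) ^ 2
        / (2 * (2 * (P.w (j + 1) : ℝ) * (P.mt (j + 1) : ℝ)) ^ 3 * (1 - P.χ (j + 1)))
      ≤ P.T * P.M (j + 1) * Pp := by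
  have hT := T_pos h
  have hM : (0 : ℝ) < P.M (j + 1) := by exact_mod_cast M_pos h (by omega : 1 ≤ j + 1)
  have hχ : 0 < 1 - P.χ (j + 1) := by linarith [χ_lt_one h j]
  have hl : (0 : ℝ) < 2 * (P.w (j + 1) : ℝ) * (P.mt (j + 1) : ℝ) := by
    rw [← l_cast h j]; linarith [one_le_l h j]
  have h1 := hP n
  have e1 : (P.hier q0).psi (j + 1) β n =
      Phi (fun r => q0 r - P.Wk j r) (2 * (P.w (j + 1) : ℝ) * (P.mt (j + 1) : ℝ)) n β
          / (P.T * P.M (j + 1))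
        - β * (P.α (j + 1) * (kap + CB * (2 * (P.w (j + 1) : ℝ) * (P.mt (j + 1) : ℝ)) / (P.R (j + 1) : ℝ))
            * P.M (j + 1) / (P.T * (2 * (P.w (j + 1) : ℝ) * (P.mt (j + 1) : ℝ)) ^ 3 * (1 - P.χ (j + 1))))
          * ((n : ℝ) / P.M (j + 1)) ^ 2 / 2 := by
    have e0 : Phi (fun r => q0 r - P.Wk j r) (2 * (P.w (j + 1) : ℝ) * (P.mt (j + 1) : ℝ)) n β
        = Phi (fun r => q0 r - P.Wk j r) (P.l (j + 1) : ℝ) n β := by rw [l_cast h j]
    rw [e0]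
    rfl
  have e2 : (P.hier q0).M (j + 1) = P.M (j + 1) := rfl
  rw [e1, e2] at h1
  have h2 := mul_le_mul_of_nonneg_left h1 (by positivity : (0 : ℝ) ≤ P.T * P.M (j + 1))
  refine le_trans (le_of_eq ?_) h2
  field_simp
  ring

/-- the tail comparison on the level of `Phi` -/
theorem Phi_tail (h : P.OK) (hq : CoreP q0 P.T P.a P.b1 P.r0 I0) (j : ℕ) {β L : ℝ} (hβ : 0 ≤ β)
    (hL : 0 < L) (N : ℕ) :
    Phi (P.pot q0 (j + 1)) L N ((1 - P.χt (j + 1)) * β) - β * (P.χt (j + 1) * (10 * P.T)) * N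
      ≤ Phi (P.potInf q0) L N β := by
  have hg := (potInf_thermo h hq).toGood
  have hg' := pot_good h hq (j + 1)
  have h0 := χt_nonneg h (j + 1)
  have h1 := χt_le_one h (j + 1)
  have hZ := Z_le_of_energy hg hg' h0 h1
    (fun N x => tail_energy h hq (by omega : 1 ≤ j + 1) x) hβ L N
  have hp := Z_pos hg hL hβ N
  have hp' := Z_pos hg' hL (mul_nonneg (by linarith : 0 ≤ 1 - P.χt (j + 1)) hβ) N
  have hlog := Real.log_le_log hp hZ
  rw [Real.log_mul (Real.exp_pos _).ne' hp'.ne', Real.log_exp] at hlog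
  unfold Phi
  linarith

/-- the finite volume inequality -/
theorem finite_vol (h : P.OK) (hq : CoreP q0 P.T P.a P.b1 P.r0 I0) (j : ℕ) {β μ Pp : ℝ}
    (hβ : 0 ≤ β)
    (hP : ∀ n : ℕ, μ * ((n : ℝ) / (P.hier q0).M (j + 1)) - (P.hier q0).psi (j + 1) β n ≤ Pp)
    {L : ℝ} (hL : 0 < L) (N : ℕ) :
    ((1 - P.χ (j + 1)) * (1 - P.χt (j + 1)) * (P.T * μ) - θ (j + 1)
        - (1 - P.χt (j + 1)) * β * (P.χ (j + 1) * (20 * P.T) / 2
            + P.α (j + 1) * P.κp (j + 1) / (2 * (P.l (j + 1) : ℝ) ^ 3))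
        - β * (P.χt (j + 1) * (10 * P.T))) * (N : ℝ)
      - (L / (P.l (j + 1) : ℝ) + 2) ^ 3 *
          ((1 - P.χ (j + 1)) * (1 - P.χt (j + 1)) * (P.T * P.M (j + 1) * Pp)
            + χ2 P (j + 1) * (P.l (j + 1) : ℝ) ^ 3
            + Real.log (1 / (1 - Real.exp (-θ (j + 1)))))
      - 3 * Real.log (P.mt (j + 1))
      ≤ Phi (P.potInf q0) L N β := by
  have hl1 := one_le_l h j
  have hR : (2 * (P.w (j + 1) : ℝ) * (P.mt (j + 1) : ℝ)) ≤ (P.R (j + 1) : ℝ) := by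
    rw [← l_cast h j]
    have h1 : (P.R (j + 1) : ℝ) = (P.l (j + 1) : ℝ) ^ 2 := by
      exact_mod_cast R_eq_l_sq P (by omega : 1 ≤ j + 1)
    rw [h1]
    nlinarith
  have hstab : P.α (j + 1) * (4 * kap + 2 * CB / (P.R (j + 1) : ℝ)) + P.Cp j ≤ 20 * P.T / 2 := by
    have h1 := Cp_succ P j
    have h2 := Cp_le h (j + 1)
    have h3 := T_pos h
    linarith
  have hχ : P.χ (j + 1) = 3 * P.Cp j / ((P.mt (j + 1) : ℝ) * (20 * P.T / 2 - P.Cp j)) := rfl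
  have hθ : 0 < θ (j + 1) := by unfold θ; positivity
  have key := lemL2 (short h hq j) (α_pos h (j + 1)).le (P.mt (j + 1)) (mt_pos h j) hR hstab hχ
    (χ_lt_one h j) (χt_nonneg h (j + 1)) (χt_lt_one h (j + 1)) hL hβ hθ (hP_of h j hP) N
  rw [← pot_succ, ← l_cast h j] at key
  have h2 := Phi_tail h hq j hβ hL N
  have eκ : P.κp (j + 1) = kap + CB * (P.l (j + 1) : ℝ) / (P.R (j + 1) : ℝ) := by
    rw [l_cast h j]; rfl
  rw [eκ]
  unfold χ2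
  linarith

theorem Pp_nonneg (j : ℕ) {β μ Pp : ℝ}
    (hP : ∀ n : ℕ, μ * ((n : ℝ) / (P.hier q0).M (j + 1)) - (P.hier q0).psi (j + 1) β n ≤ Pp) :
    0 ≤ Pp := by
  have h0 := hP 0
  have e : (P.hier q0).psi (j + 1) β 0 = 0 := by
    have e1 : (P.hier q0).φ (j + 1) β 0 = 0 := by
      show Phi (P.pot q0 (j + 1 - 1)) (P.l (j + 1)) 0 β / (P.T * P.M (j + 1)) = 0
      unfold Phi
      rw [Z_zero, Real.log_one, neg_zero, zero_div]
    unfold Hier.psi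
    rw [e1]
    simp
  rw [e] at h0
  simpa using h0

/-- pure arithmetic behind `bridge_A_core` -/
theorem arith {T μ ρ β X Y th G lam Pp lg : ℝ} (hT : 0 ≤ T) (hμ0 : 0 ≤ μ) (hμ : μ ≤ 150)
    (hρ0 : 0 ≤ ρ) (hρ : ρ ≤ 100) (hβ0 : 0 ≤ β) (hβ : β ≤ 1.01) (hX0 : 0 ≤ X) (_hX1 : X ≤ 1)
    (hY0 : 0 ≤ Y) (hY1 : Y ≤ 1) (hth : 0 ≤ th) (hG : 0 ≤ G) (hlam : 0 ≤ lam) (hPp : 0 ≤ Pp) :
    T * (μ * ρ - lam * Pp)
      - (15000 * T * (1 - (1 - X) * (1 - Y))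
          + 100 * (th + 1.01 * (X * (20 * T) / 2 + G) + 1.01 * (Y * (10 * T)))
          + (1 - (1 - X) * (1 - Y)) + lg)
      ≤ ((1 - X) * (1 - Y) * (T * μ) - th - (1 - Y) * β * (X * (20 * T) / 2 + G)
            - β * (Y * (10 * T))) * ρ
        - ((1 - X) * (1 - Y) * (T * lam * Pp) + (1 - (1 - X) * (1 - Y)) + lg) := by
  have hc0 : 0 ≤ 1 - (1 - X) * (1 - Y) := by nlinarith
  set c2 := 1 - (1 - X) * (1 - Y) with hc2
  have e1 : (1 - X) * (1 - Y) = 1 - c2 := by rw [hc2]; ring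
  rw [e1]
  have hμρ : μ * ρ ≤ 15000 := by nlinarith
  have h1 : c2 * T * (μ * ρ) ≤ c2 * T * 15000 :=
    mul_le_mul_of_nonneg_left hμρ (mul_nonneg hc0 hT)
  have h2 : th * ρ ≤ th * 100 := mul_le_mul_of_nonneg_left hρ hth
  have hD : 0 ≤ X * (20 * T) / 2 + G := by positivity
  have hβρ : β * ρ ≤ 1.01 * 100 := mul_le_mul hβ hρ hρ0 (by norm_num)
  have hβρ0 : 0 ≤ β * ρ := mul_nonneg hβ0 hρ0
  have h3 : (1 - Y) * (β * ρ) ≤ 1.01 * 100 := by nlinarith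
  have h3' : (X * (20 * T) / 2 + G) * ((1 - Y) * (β * ρ)) ≤ (X * (20 * T) / 2 + G) * (1.01 * 100) :=
    mul_le_mul_of_nonneg_left h3 hD
  have h4 : (Y * (10 * T)) * (β * ρ) ≤ (Y * (10 * T)) * (1.01 * 100) :=
    mul_le_mul_of_nonneg_left hβρ (by positivity)
  have h5 : 0 ≤ c2 * (T * lam * Pp) := by positivity
  nlinarith [h1, h2, h3', h4, h5]

/-- `bridge_A` with the explicit error sequence `err P` -/
theorem bridge_A_core (h : P.OK) (hq : CoreP q0 P.T P.a P.b1 P.r0 I0) :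
    ∀ k, 1 ≤ k → ∀ β ∈ Set.Icc (0.99 : ℝ) 1.01, ∀ ρ : ℝ, 0 < ρ → ρ ≤ 100 →
      ∀ μ ∈ Set.Icc (125 : ℝ) 150, ∀ Pp : ℝ,
      (∀ n : ℕ, μ * ((n : ℝ) / (P.hier q0).M k) - (P.hier q0).psi k β n ≤ Pp) →
      P.T * (μ * ρ - P.lamA k * Pp) - err P k ≤ Glim (P.potInf q0) β ρ := by
  intro k hk β hβ ρ hρ hρ' μ hμ Pp hP
  obtain ⟨j, rfl⟩ : ∃ j, k = j + 1 := ⟨k - 1, by omega⟩
  have hβ0 : (0 : ℝ) < β := by linarith [hβ.1]
  have hT := T_pos h
  have hth := potInf_thermo h hq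
  have hlim : HasLim (P.potInf q0) := fun β ρ hβ hρ => thermo_limit hth hβ hρ
  have hF := tendsto_Glim hlim hβ0 hρ
  have hl1 := one_le_l h j
  have hl : (0 : ℝ) < P.l (j + 1) := by linarith
  have hl3 : (0 : ℝ) < (P.l (j + 1) : ℝ) ^ 3 := by positivity
  have key := BrA0.limit_lower (f := fun L => Phi (P.potInf q0) L ⌊ρ * L ^ 3⌋₊ β) hl hρ hF
    (fun L hL => finite_vol h hq j hβ0.le hP hL _)
  refine le_trans ?_ key
  have hκ : 0 ≤ P.κp (j + 1) := by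
    unfold Par.κp CB
    have := kap_pos
    positivity
  have hG : 0 ≤ P.α (j + 1) * P.κp (j + 1) / (2 * (P.l (j + 1) : ℝ) ^ 3) := by
    have := (α_pos h (j + 1)).le
    positivity
  have hθ : 0 ≤ θ (j + 1) := by unfold θ; positivity
  have ha := arith (lg := Real.log (1 / (1 - Real.exp (-θ (j + 1)))) / (P.l (j + 1) : ℝ) ^ 3)
    hT.le (by linarith [hμ.1] : 0 ≤ μ) hμ.2 hρ.le hρ' hβ0.le hβ.2 (χ_nonneg h (j + 1))
    (χ_lt_one h j).le (χt_nonneg h (j + 1)) (χt_le_one h (j + 1)) hθ hG (Lam.lamA_nonneg P (j + 1))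
    (Pp_nonneg j hP)
  refine le_trans (le_of_eq ?_) (le_trans ha (le_of_eq ?_))
  · unfold err χ2
    ring
  · unfold χ2 Par.lamA
    field_simp

end BrA
end Par
end Crest.Agent.S0209
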