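import Crest.Agent.S0209_Scales

/-!
# ROW 149, package I5 (assistant): the error sequence of `bridge_A`
-/

set_option autoImplicit false
namespace Crest.Agent.S0209
namespace Par
namespace BrA

/-- `1 - χ'' = (1-χ_k)(1-χ'_k)` -/
noncomputable def χ2 (P : Par) (k : ℕ) : ℝ := 1 - (1 - P.χ k) * (1 - P.χt k)

/-- the auxiliary `θ` of Lemma L at level `k` -/
noncomputable def θ (k : ℕ) : ℝ := 1 / ((k : ℝ) + 1)

/-- the error `e k` of `bridge_A` -/
noncomputable def err (P : Par) (k : ℕ) : ℝ :=
  15000 * P.T * χ2 P k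
    + 100 * (θ k + 1.01 * (P.χ k * (20 * P.T) / 2 + P.α k * P.κp k / (2 * (P.l k : ℝ) ^ 3))
        + 1.01 * (P.χt k * (10 * P.T)))
    + χ2 P k + Real.log (1 / (1 - Real.exp (-θ k))) / (P.l k : ℝ) ^ 3

end BrA
end Par
end Crest.Agent.S0209

/-- Realise the auto-generated equation lemmas once, in this (defining / root) module, so that
sibling modules of one import closure do not each create their own copy of the same name. -/
theorem Crest.Agent.S0209.eqns_realised_BridgeADefs : True := by
  have := @Crest.Agent.S0209.Par.BrA.χ2.eq_1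
  have := @Crest.Agent.S0209.Par.BrA.θ.eq_1
  have := @Crest.Agent.S0209.Par.BrA.err.eq_1
  trivial
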