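import Crest.Agent.S0209_PotInf
import Crest.Agent.S0209_Lam
import Crest.Agent.S0209_Limit
import Crest.Agent.S0209_Final

/-!
# ROW 149, package I4 (assistant): `bridge_B` with the statement of `hyp_stepU` as hypothesis
-/

set_option autoImplicit false
namespace Crest.Agent.S0209
open Crest.ProbabilityR.Continuum MeasureTheory
namespace Par
namespace BrB

variable {P : Par} {q0 : ℝ → ℝ} {I0 : ℝ}

/-- the statement of `hyp_stepU` -/
def StepU (P : Par) (q0 : ℝ → ℝ) : Prop :=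
    ∀ k, 1 ≤ k → ∀ β ∈ Set.Icc (0.99 : ℝ) 1.01, ∀ n : ℕ, n ≤ 15 * (P.hier q0).M k →
    (P.hier q0).φ (k + 1) β ((P.hier q0).m k * n) ≤ (P.hier q0).psi k β n + (P.hier q0).E k

theorem bridge_B_core (hU : StepU P q0) (h : P.OK) (hq : CoreP q0 P.T P.a P.b1 P.r0 I0) :
    ∀ k, 1 ≤ k → ∀ β ∈ Set.Icc (0.99 : ℝ) 1.01, ∀ (w : Fin 3 → ℝ) (n : Fin 3 → ℕ),
      (∀ i, 0 ≤ w i) → ∑ i, w i = 1 → (∀ i, n i ≤ 15 * (P.hier q0).M k) → ∀ ρ : ℝ, 0 < ρ →
      ρ = P.lamB k * ∑ i, w i * ((n i : ℝ) / (P.hier q0).M k) →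
      Glim (P.potInf q0) β ρ ≤ P.T * P.lamB k * ∑ i, w i * (P.hier q0).psi k β (n i)
        + P.T * P.lamB k * (P.hier q0).E k := by
  intro k hk β hβ w n hw hw1 hn ρ hρ hρe
  have hβ0 : (0:ℝ) < β := by linarith [hβ.1]
  have hT : 0 < P.T := lt_of_lt_of_le (by norm_num) h.T_ge
  have hth := potInf_thermo h hq
  have hlim : HasLim (P.potInf q0) := fun β ρ hβ hρ => thermo_limit hth hβ hρ
  have hF := tendsto_Glim hlim hβ0 hρ
  have hMk : (0:ℝ) < P.M k := by exact_mod_cast M_pos h hk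
  have hMk1 : (0:ℝ) < P.M (k + 1) := by exact_mod_cast M_pos h (by omega : 1 ≤ k + 1)
  have hMs : P.M (k + 1) = (P.ms k) ^ 3 * P.M k := by
    obtain ⟨j, rfl⟩ : ∃ j, k = j + 1 := ⟨k - 1, by omega⟩
    rfl
  have hl : (0:ℝ) < P.l (k + 1) := by
    have := Lam.l_geR h k
    have h2 : (0:ℝ) < (10:ℝ) ^ 60 * 16 ^ k := by positivity
    linarith
  have hl1 : (0:ℝ) < ((P.l (k + 1) : ℝ) + 1) ^ 3 := by positivity
  have hMM : (P.hier q0).M k = P.M k := rfl
  -- density identity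
  have hρn : ρ = ∑ i, w i * (((P.ms k) ^ 3 * n i : ℕ) : ℝ) / ((P.l (k + 1) : ℝ) + 1) ^ 3 := by
    rw [hρe, Finset.mul_sum]
    refine Finset.sum_congr rfl fun i _ => ?_
    rw [hMM]
    unfold Par.lamB
    rw [hMs]
    push_cast
    field_simp
  have h1 := mixture_bound hth hβ0 hρ hF hl w hw hw1 (fun i => (P.ms k) ^ 3 * n i) hρn
  refine h1.trans ?_
  have hterm : ∀ i, w i * Phi (P.potInf q0) (P.l (k + 1)) ((P.ms k) ^ 3 * n i) β
        / ((P.l (k + 1) : ℝ) + 1) ^ 3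
      ≤ P.T * P.lamB k * (w i * (P.hier q0).psi k β (n i)) + P.T * P.lamB k * (P.hier q0).E k * w i := by
    intro i
    have hZ := Z_mono_phi hth.toGood (pot_good h hq k) (potInf_le_pot h q0 k) hβ0.le
      (P.l (k + 1)) ((P.ms k) ^ 3 * n i)
    have hZpos := Z_pos (pot_good h hq k) hl hβ0.le ((P.ms k) ^ 3 * n i)
    have hPhi : Phi (P.potInf q0) (P.l (k + 1)) ((P.ms k) ^ 3 * n i) β
        ≤ Phi (P.pot q0 k) (P.l (k + 1)) ((P.ms k) ^ 3 * n i) β := by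
      unfold Phi
      exact neg_le_neg (Real.log_le_log hZpos hZ)
    have hu := hU k hk β hβ (n i) (hn i)
    have hφ : (P.hier q0).φ (k + 1) β ((P.hier q0).m k * n i)
        = Phi (P.pot q0 k) (P.l (k + 1)) ((P.ms k) ^ 3 * n i) β / (P.T * P.M (k + 1)) := by
      simp only [Par.hier, Nat.add_sub_cancel]
    rw [hφ, div_le_iff₀ (by positivity)] at hu
    have h3 : Phi (P.potInf q0) (P.l (k + 1)) ((P.ms k) ^ 3 * n i) β
        ≤ ((P.hier q0).psi k β (n i) + (P.hier q0).E k) * (P.T * P.M (k + 1)) := hPhi.trans hu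
    have h4 : w i * Phi (P.potInf q0) (P.l (k + 1)) ((P.ms k) ^ 3 * n i) β
        ≤ w i * (((P.hier q0).psi k β (n i) + (P.hier q0).E k) * (P.T * P.M (k + 1))) :=
      mul_le_mul_of_nonneg_left h3 (hw i)
    rw [div_le_iff₀ hl1]
    refine h4.trans (le_of_eq ?_)
    unfold Par.lamB
    field_simp
  calc ∑ i, w i * Phi (P.potInf q0) (P.l (k + 1)) ((P.ms k) ^ 3 * n i) β
        / ((P.l (k + 1) : ℝ) + 1) ^ 3
      ≤ ∑ i, (P.T * P.lamB k * (w i * (P.hier q0).psi k β (n i))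
          + P.T * P.lamB k * (P.hier q0).E k * w i) := Finset.sum_le_sum fun i _ => hterm i
    _ = _ := by
      rw [Finset.sum_add_distrib, ← Finset.mul_sum, ← Finset.mul_sum, hw1, mul_one]

end BrB
end Par
end Crest.Agent.S0209
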