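import Crest.Agent.S0209_Split

/-!
# ROW 149, package AC: multi-cell upper bound for `Zg`

If the pair interaction `V` vanishes between different cells of a finite family of pairwise disjoint
measurable cells, the grand-canonical type bound
`exp (μ N) * Zg V (⋃ c, L c) N β ≤ ∏ c, ∑ n ≤ N, exp (μ n) * Zg V (L c) n β` holds.
Only measurability of `V` is needed.
-/

set_option autoImplicit false
namespace Crest.Agent.S0209
open Crest.ProbabilityR.Continuum MeasureTheory Finset

theorem Zg_empty (V : Pt → Pt → ℝ) {N : ℕ} (hN : 0 < N) (β : ℝ) : Zg V ∅ N β = 0 := by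
  unfold Zg
  have : Set.pi Set.univ (fun _ : Fin N => (∅ : Set Pt)) = ∅ := by
    ext x
    simp only [Set.mem_pi, Set.mem_univ, forall_true_left, Set.mem_empty_iff_false, iff_false,
      not_forall, not_false_eq_true, exists_const_iff, and_true]
    exact ⟨⟨0, hN⟩⟩
  rw [this]
  simp

section
variable {V : Pt → Pt → ℝ} (hV : Measurable (Function.uncurry V)) {C : Type*}
include hV

/-- multi-cell upper bound (cells indexed by a finset). -/
theorem Zg_biUnion_le (s : Finset C) (L : C → Set Pt) (hL : ∀ c ∈ s, MeasurableSet (L c))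
    (hdisj : ∀ c ∈ s, ∀ c' ∈ s, c ≠ c' → Disjoint (L c) (L c'))
    (hcross : ∀ c ∈ s, ∀ c' ∈ s, c ≠ c' → ∀ a ∈ L c, ∀ b ∈ L c', V a b = 0) (μ β : ℝ) (N : ℕ) :
    Real.exp (μ * N) * Zg V (⋃ c ∈ s, L c) N β ≤
      ∏ c ∈ s, ∑ n ∈ range (N + 1), Real.exp (μ * n) * Zg V (L c) n β := by
  classical
  induction s using Finset.induction_on generalizing N with
  | empty =>
    simp only [Finset.notMem_empty, Set.iUnion_of_empty, Set.iUnion_empty, Finset.prod_empty]
    rcases Nat.eq_zero_or_pos N with rfl | hN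
    · simp [Zg_zero]
    · simp [Zg_empty V hN]
  | insert c₀ s hc₀ ih =>
    have hL' : ∀ c ∈ s, MeasurableSet (L c) := fun c hc => hL c (Finset.mem_insert_of_mem hc)
    have ih' := ih hL'
      (fun c hc c' hc' => hdisj c (Finset.mem_insert_of_mem hc) c' (Finset.mem_insert_of_mem hc'))
      (fun c hc c' hc' => hcross c (Finset.mem_insert_of_mem hc) c' (Finset.mem_insert_of_mem hc'))
    rw [Finset.set_biUnion_insert, Finset.prod_insert hc₀]
    have hne : ∀ c ∈ s, c₀ ≠ c := fun c hc h => hc₀ (h ▸ hc)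
    have hU : MeasurableSet (⋃ c ∈ s, L c) := Finset.measurableSet_biUnion s hL'
    have hd : Disjoint (L c₀) (⋃ c ∈ s, L c) := by
      rw [Set.disjoint_iUnion₂_right]
      exact fun c hc => hdisj c₀ (Finset.mem_insert_self _ _) c (Finset.mem_insert_of_mem hc) (hne c hc)
    have hx : ∀ a ∈ L c₀, ∀ b ∈ ⋃ c ∈ s, L c, V a b = 0 ∧ V b a = 0 := by
      intro a ha b hb
      simp only [Set.mem_iUnion, exists_prop] at hb
      obtain ⟨c, hc, hbc⟩ := hb
      exact ⟨hcross c₀ (Finset.mem_insert_self _ _) c (Finset.mem_insert_of_mem hc) (hne c hc) a ha b hbc,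
        hcross c (Finset.mem_insert_of_mem hc) c₀ (Finset.mem_insert_self _ _) (hne c hc).symm b hbc a ha⟩
    have h2 := Zg_union_le hV (hL c₀ (Finset.mem_insert_self _ _)) hU hd β N hx
    have hterm : ∀ c ∈ s, ∀ n : ℕ, 0 ≤ Real.exp (μ * n) * Zg V (L c) n β := fun c _ n =>
      mul_nonneg (Real.exp_pos _).le (Zg_nonneg _ _ _ _)
    calc Real.exp (μ * N) * Zg V (L c₀ ∪ ⋃ c ∈ s, L c) N β
        ≤ Real.exp (μ * N) * ∑ k ∈ range (N + 1), Zg V (L c₀) k β * Zg V (⋃ c ∈ s, L c) (N - k) β :=
          mul_le_mul_of_nonneg_left h2 (Real.exp_pos _).le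
      _ = ∑ k ∈ range (N + 1), (Real.exp (μ * k) * Zg V (L c₀) k β) *
            (Real.exp (μ * (N - k : ℕ)) * Zg V (⋃ c ∈ s, L c) (N - k) β) := by
          rw [Finset.mul_sum]
          refine Finset.sum_congr rfl (fun k hk => ?_)
          have hk' : k ≤ N := Nat.lt_succ_iff.1 (Finset.mem_range.1 hk)
          have : Real.exp (μ * N) = Real.exp (μ * k) * Real.exp (μ * (N - k : ℕ)) := by
            rw [← Real.exp_add, Nat.cast_sub hk']
            congr 1
            ring
          rw [this]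
          ring
      _ ≤ ∑ k ∈ range (N + 1), (Real.exp (μ * k) * Zg V (L c₀) k β) *
            ∏ c ∈ s, ∑ n ∈ range (N + 1), Real.exp (μ * n) * Zg V (L c) n β := by
          refine Finset.sum_le_sum (fun k _ => ?_)
          refine mul_le_mul_of_nonneg_left ?_ (mul_nonneg (Real.exp_pos _).le (Zg_nonneg _ _ _ _))
          refine (ih' (N - k)).trans ?_
          refine Finset.prod_le_prod (fun c hc => Finset.sum_nonneg (fun n _ => hterm c hc n))
            (fun c hc => ?_)
          refine Finset.sum_le_sum_of_subset_of_nonneg ?_ (fun n _ _ => hterm c hc n)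
          exact Finset.range_subset_range.2 (by omega)
      _ = _ := by rw [Finset.sum_mul]

/-- multi-cell upper bound (cells indexed by a fintype). -/
theorem Zg_iUnion_le [Fintype C] (L : C → Set Pt) (hL : ∀ c, MeasurableSet (L c))
    (hdisj : ∀ c c', c ≠ c' → Disjoint (L c) (L c'))
    (hcross : ∀ c c', c ≠ c' → ∀ a ∈ L c, ∀ b ∈ L c', V a b = 0) (μ β : ℝ) (N : ℕ) :
    Real.exp (μ * N) * Zg V (⋃ c, L c) N β ≤
      ∏ c, ∑ n ∈ range (N + 1), Real.exp (μ * n) * Zg V (L c) n β := by
  have := Zg_biUnion_le hV univ L (fun c _ => hL c) (fun c _ c' _ => hdisj c c')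
    (fun c _ c' _ => hcross c c') μ β N
  simpa using this

end

end Crest.Agent.S0209
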