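import Crest.Prelude.Def_PairPotential
import Crest.Prelude.Def_UnitPacking

/-!
# ROW 149 (S0209 + S0210): common definitions

Blueprint: `notes/ROW149_blueprint.md`; interface (statements of all packages):
`notes/ROW149_Iface.lean.txt`.
-/

set_option autoImplicit false
namespace Crest.Agent.S0209
open Crest.ProbabilityR.Continuum MeasureTheory

/-- Energy of a general (not necessarily radial) pair interaction `V`. -/
noncomputable def En (V : Pt → Pt → ℝ) {N : ℕ} (x : Fin N → Pt) : ℝ :=
  ∑ p : {p : Fin N × Fin N // p.1 < p.2}, V (x p.1.1) (x p.1.2)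

/-- Canonical partition function of a general pair interaction in a general domain `Λ`. -/
noncomputable def Zg (V : Pt → Pt → ℝ) (Λ : Set Pt) (N : ℕ) (β : ℝ) : ℝ :=
  (1 / (N.factorial : ℝ)) *
    ∫ x in Set.pi Set.univ (fun _ : Fin N => Λ), Real.exp (-β * En V x)

/-- The radial interaction attached to `φ`. -/
noncomputable def rad (φ : ℝ → ℝ) : Pt → Pt → ℝ := fun x y => φ (dist x y)

theorem energy_eq_En (φ : ℝ → ℝ) {N : ℕ} (x : Fin N → Pt) : energy φ x = En (rad φ) x := rfl

theorem partitionFn_eq_Zg (φ : ℝ → ℝ) (L : ℝ) (N : ℕ) (β : ℝ) :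
    partitionFn φ L N β = Zg (rad φ) (cube L) N β := rfl

/-- Measurable and stable (for all configurations, coinciding points allowed). -/
structure Good (φ : ℝ → ℝ) (B : ℝ) : Prop where
  meas : Measurable φ
  stable : ∀ (N : ℕ) (x : Fin N → Pt), -B * N ≤ energy φ x

/-- `-log Z`. -/
noncomputable def Phi (φ : ℝ → ℝ) (L : ℝ) (N : ℕ) (β : ℝ) : ℝ :=
  -Real.log (partitionFn φ L N β)

/-- Hypotheses under which the thermodynamic limit is proved: stable, nonpositive beyond
distance `1`, positive part integrable over `ℝ³`. -/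
structure Thermo (φ : ℝ → ℝ) (B I : ℝ) : Prop extends Good φ B where
  neg : ∀ r, 1 ≤ r → φ r ≤ 0
  int : Integrable (fun x : Pt => max (φ ‖x‖) 0)
  int_le : ∫ x : Pt, max (φ ‖x‖) 0 ≤ I

/-- The Kac kernel of range `R`: `R⁻³ (1 - r/R)₊`. -/
noncomputable def Kac (R r : ℝ) : ℝ := max 0 (1 - r / R) / R ^ 3

/-- `κ = ∫_{ℝ³} (1-|x|)₊ dx` (`= π/3`, the value is never used). -/
noncomputable def kap : ℝ := ∫ x : Pt, max 0 (1 - ‖x‖)

/-- Index of the small cube (side `1/2`, aligned with the half-integer grid) containing `x`. -/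
noncomputable def sq (x : Pt) : Fin 3 → ℤ := fun i => ⌊2 * x i⌋

/-- `Q(x) = ∑_q ν_q²` = number of ordered pairs `(i,j)` (with `i = j` allowed) in the same small
cube. -/
noncomputable def Qf {N : ℕ} (x : Fin N → Pt) : ℝ :=
  ∑ i : Fin N, ∑ j : Fin N, if sq (x i) = sq (x j) then (1 : ℝ) else 0

/-- Volume of the ball of radius `r` in `ℝ³`. -/
noncomputable def vb (r : ℝ) : ℝ := 4 / 3 * Real.pi * r ^ 3

end Crest.Agent.S0209

/-- Realise the auto-generated equation lemmas once, in this (defining / root) module, so that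
sibling modules of one import closure do not each create their own copy of the same name. -/
theorem Crest.Agent.S0209.eqns_realised_Defs : True := by
  have := @Crest.ProbabilityR.Continuum.cube.eq_1
  have := @Crest.ProbabilityR.Continuum.energy.eq_1
  have := @Crest.ProbabilityR.Continuum.partitionFn.eq_1
  have := @Crest.ProbabilityR.Continuum.packingSet.eq_1
  have := @Crest.ProbabilityR.Continuum.packingNumber.eq_1
  have := @MeasurableEquiv.piFinSuccAbove.eq_1.{0}
  have := @EuclideanSpace.single.eq_1.{0, 0}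
  have := @Crest.Agent.S0209.En.eq_1
  have := @Crest.Agent.S0209.Zg.eq_1
  have := @Crest.Agent.S0209.rad.eq_1
  have := @Crest.Agent.S0209.Phi.eq_1
  have := @Crest.Agent.S0209.Kac.eq_1
  have := @Crest.Agent.S0209.kap.eq_1
  have := @Crest.Agent.S0209.sq.eq_1
  have := @Crest.Agent.S0209.Qf.eq_1
  have := @Crest.Agent.S0209.vb.eq_1
  trivial
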