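import Crest.Agent.S0209_Final
import Crest.Agent.S0209_Packing

/-!
# ROW 149, package K (part 2): reduction of the two frozen statements to properties of the
potential and the two-sided linear bound `HasKink`.
-/

set_option autoImplicit false
namespace Crest.Agent.S0209
open Crest.ProbabilityR.Continuum MeasureTheory Filter Topology

theorem scl_stable {φ : ℝ → ℝ} {B : ℝ} (hg : Good φ B) {b : ℝ} (hb : 0 < b) (N : ℕ)
    (x : Fin N → Pt) : -B * N ≤ energy (scl φ b) x := by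
  have h := Basic2.energy_scale φ hb (b⁻¹ • x)
  rw [smul_smul, mul_inv_cancel₀ hb.ne', one_smul] at h
  have h2 := hg.stable N (b⁻¹ • x)
  unfold scl
  rw [h]
  exact h2

theorem scl_decay {φ : ℝ → ℝ} {M C : ℝ} (hM : ∀ r, |φ r| ≤ M)
    (hC : ∀ r : ℝ, 1 ≤ r → |φ r| ≤ C * r ^ (-(3 + 1 / 32 : ℝ))) {b : ℝ} (hb : 1 ≤ b) :
    ∀ r : ℝ, 1 ≤ r → |scl φ b r| ≤ (max C M * b ^ (3 + 1 / 32 : ℝ)) * r ^ (-(3 + 1 / 32 : ℝ)) := by
  intro r hr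
  have hb0 : 0 < b := by linarith
  have hr0 : 0 < r := by linarith
  have hM0 : 0 ≤ M := (abs_nonneg _).trans (hM 0)
  unfold scl
  rcases le_total b r with h | h
  · have h1 : 1 ≤ r / b := by rwa [one_le_div hb0]
    have h2 := hC (r / b) h1
    have h3 : (r / b) ^ (-(3 + 1 / 32 : ℝ)) = b ^ (3 + 1 / 32 : ℝ) * r ^ (-(3 + 1 / 32 : ℝ)) := by
      rw [Real.div_rpow hr0.le hb0.le, Real.rpow_neg hb0.le, div_inv_eq_mul, mul_comm]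
    rw [h3] at h2
    have h4 : 0 ≤ b ^ (3 + 1 / 32 : ℝ) * r ^ (-(3 + 1 / 32 : ℝ)) := by positivity
    calc |φ (r / b)| ≤ C * (b ^ (3 + 1 / 32 : ℝ) * r ^ (-(3 + 1 / 32 : ℝ))) := h2
      _ ≤ max C M * (b ^ (3 + 1 / 32 : ℝ) * r ^ (-(3 + 1 / 32 : ℝ))) :=
          mul_le_mul_of_nonneg_right (le_max_left _ _) h4
      _ = _ := by ring
  · have h3 : 1 ≤ b ^ (3 + 1 / 32 : ℝ) * r ^ (-(3 + 1 / 32 : ℝ)) := by
      rw [Real.rpow_neg hr0.le, ← div_eq_mul_inv, one_le_div (by positivity)]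
      exact Real.rpow_le_rpow hr0.le h (by norm_num)
    calc |φ (r / b)| ≤ M := hM _
      _ ≤ max C M := le_max_right _ _
      _ ≤ max C M * (b ^ (3 + 1 / 32 : ℝ) * r ^ (-(3 + 1 / 32 : ℝ))) :=
          le_mul_of_one_le_right (hM0.trans (le_max_right _ _)) h3
      _ = _ := by ring

/-- Reduction of the frozen statement S0209. -/
theorem S0209_reduction {φ : ℝ → ℝ} {B : ℝ} (hg : Good φ B) (hL : HasLim φ) (hc : Continuous φ)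
    {M : ℝ} (hM : ∀ r, |φ r| ≤ M) {C : ℝ}
    (hC : ∀ r : ℝ, 1 ≤ r → |φ r| ≤ C * r ^ (-(3 + 1 / 32 : ℝ)))
    {βc : ℝ} (h1 : 7 / 8 ≤ βc) (h2 : βc ≤ 9 / 8)
    (hk : ∀ ρ : ℝ, 2.1 * Pack.pdens < ρ → ρ < 3.9 * Pack.pdens → HasKink φ βc ρ) :
    ∃ φ : ℝ → ℝ, Continuous φ ∧ (∃ M : ℝ, ∀ r : ℝ, |φ r| ≤ M) ∧
      (∃ B : ℝ, ∀ (N : ℕ) (x : Fin N → Crest.ProbabilityR.Continuum.Pt), -B * N ≤ Crest.ProbabilityR.Continuum.energy φ x) ∧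
      (∃ C : ℝ, ∀ r : ℝ, 1 ≤ r → |φ r| ≤ C * r ^ (-(3 + 1 / 32 : ℝ))) ∧
      ∃ p η βc : ℝ, 0 < p ∧
        Filter.Tendsto (fun L : ℝ => (Crest.ProbabilityR.Continuum.packingNumber L : ℝ) / L ^ 3)
          Filter.atTop (nhds p) ∧
        0 < η ∧ η ≤ 5 * p / 3 ∧ 7 / 8 ≤ βc ∧ βc ≤ 9 / 8 ∧
        ∃ f : ℝ → ℝ → ℝ,
          (∀ ρ : ℝ, 5 * p / 3 - η < ρ → ρ < 5 * p / 3 + η → ∀ β : ℝ, 0 < β →
            Filter.Tendsto (fun L : ℝ => -(1 / (β * L ^ 3)) *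
                Real.log (Crest.ProbabilityR.Continuum.partitionFn φ L ⌊ρ * L ^ 3⌋₊ β))
              Filter.atTop (nhds (f β ρ))) ∧
          (∀ ρ : ℝ, 5 * p / 3 - η < ρ → ρ < 5 * p / 3 + η → ∃ Dl Dr : ℝ,
            HasDerivWithinAt (fun β => f β ρ) Dl (Set.Iio βc) βc ∧
            HasDerivWithinAt (fun β => f β ρ) Dr (Set.Ioi βc) βc ∧ Dr < Dl) := by
  set b : ℝ := (9 / 5 : ℝ) ^ (1 / 3 : ℝ) with hbdef
  have hb3 : b ^ 3 = 9 / 5 := by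
    rw [hbdef, ← Real.rpow_natCast, ← Real.rpow_mul (by norm_num)]
    norm_num
  have hb1 : 1 ≤ b := Real.one_le_rpow (by norm_num) (by norm_num)
  have hb0 : 0 < b := by linarith
  have hp : 1 ≤ Pack.pdens := Pack.one_le_pdens
  obtain ⟨f, hf1, hf2⟩ := final_generic hg hL hb0 (βc := βc) (by linarith)
  refine ⟨scl φ b, hc.comp (continuous_id.div_const b), ⟨M, fun r => hM _⟩,
    ⟨B, fun N x => scl_stable hg hb0 N x⟩, ⟨_, scl_decay hM hC hb1⟩,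
    Pack.pdens, Pack.pdens / 2, βc, by linarith, Pack.tendsto_packing, by linarith, by linarith,
    h1, h2, f, ?_, ?_⟩
  · intro ρ hρ1 _ β hβ
    exact hf1 ρ (by linarith) β hβ
  · intro ρ hρ1 hρ2
    refine hf2 ρ (by linarith) (hk _ ?_ ?_)
    · rw [hb3]; linarith
    · rw [hb3]; linarith

theorem scl_one (φ : ℝ → ℝ) : scl φ 1 = φ := by
  funext r
  simp [scl]

/-- Reduction of the frozen statement S0210. -/
theorem S0210_reduction {φ : ℝ → ℝ} {B : ℝ} (hg : Good φ B) (hL : HasLim φ)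
    (hlb : ∀ a b : ℝ, 0 < a → a ≤ b → ∃ M : ℝ, ∀ r : ℝ, a ≤ r → r ≤ b → |φ r| ≤ M)
    (hdiv : Filter.Tendsto φ (nhdsWithin 0 (Set.Ioi 0)) Filter.atTop)
    (hattr : ∃ r₁ r₂ a : ℝ, 0 < r₁ ∧ r₁ < r₂ ∧ 0 < a ∧ ∀ r : ℝ, r₁ ≤ r → r ≤ r₂ → φ r ≤ -a)
    {C : ℝ} (hC : ∀ r : ℝ, 1 ≤ r → |φ r| ≤ C * r ^ (-(3 + 1 / 32 : ℝ)))
    {βc ρ₁ ρ₂ : ℝ} (h1 : 1 / 2 < βc) (h2 : βc < 3 / 2) (hρ1 : 0 ≤ ρ₁) (hρ12 : ρ₁ < ρ₂)
    (hk : ∀ ρ : ℝ, ρ₁ < ρ → ρ < ρ₂ → HasKink φ βc ρ) :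
    ∃ φ : ℝ → ℝ, Measurable φ ∧
      (∀ a b : ℝ, 0 < a → a ≤ b → ∃ M : ℝ, ∀ r : ℝ, a ≤ r → r ≤ b → |φ r| ≤ M) ∧
      Filter.Tendsto φ (nhdsWithin 0 (Set.Ioi 0)) Filter.atTop ∧
      (∃ r₁ r₂ a : ℝ, 0 < r₁ ∧ r₁ < r₂ ∧ 0 < a ∧ ∀ r : ℝ, r₁ ≤ r → r ≤ r₂ → φ r ≤ -a) ∧
      (∃ R : ℝ, 0 < R ∧ MeasureTheory.IntegrableOn (fun r : ℝ => r ^ 2 * |φ r|) (Set.Ioi R)) ∧
      Filter.Tendsto (fun r : ℝ => r ^ 3 * φ r) Filter.atTop (nhds 0) ∧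
      (∃ B : ℝ, ∀ (N : ℕ) (x : Fin N → Crest.ProbabilityR.Continuum.Pt), Function.Injective x →
        -B * N ≤ Crest.ProbabilityR.Continuum.energy φ x) ∧
      ∃ f : ℝ → ℝ → ℝ,
        (∀ ρ : ℝ, 0 < ρ → ∀ β : ℝ, 0 < β →
          Filter.Tendsto (fun L : ℝ => -(1 / (β * L ^ 3)) *
              Real.log (Crest.ProbabilityR.Continuum.partitionFn φ L ⌊ρ * L ^ 3⌋₊ β))
            Filter.atTop (nhds (f β ρ))) ∧
        ∃ ρ₁ ρ₂ βc : ℝ, 0 ≤ ρ₁ ∧ ρ₁ < ρ₂ ∧ 1 / 2 < βc ∧ βc < 3 / 2 ∧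
          ∀ ρ : ℝ, ρ₁ < ρ → ρ < ρ₂ → ∃ Dl Dr : ℝ,
            HasDerivWithinAt (fun β => f β ρ) Dl (Set.Iio βc) βc ∧
            HasDerivWithinAt (fun β => f β ρ) Dr (Set.Ioi βc) βc ∧ Dr < Dl := by
  obtain ⟨f, hf1, hf2⟩ := final_generic hg hL one_pos (βc := βc) (by linarith)
  rw [scl_one] at hf1
  have hC0 : 0 ≤ C := by
    have := (abs_nonneg _).trans (hC 1 le_rfl)
    simpa using this
  refine ⟨φ, hg.meas, hlb, hdiv, hattr, ⟨1, one_pos, ?_⟩, ?_, ⟨B, fun N x _ => hg.stable N x⟩, f,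
    hf1, ρ₁, ρ₂, βc, hρ1, hρ12, h1, h2, ?_⟩
  · have hi : IntegrableOn (fun t : ℝ => C * t ^ (-(1 + 1 / 32 : ℝ))) (Set.Ioi 1) :=
      (integrableOn_Ioi_rpow_of_lt (by norm_num) one_pos).const_mul C
    refine Integrable.mono' hi ?_ ?_
    · exact ((measurable_id.pow_const 2).mul hg.meas.abs).aestronglyMeasurable
    · refine (ae_restrict_iff' measurableSet_Ioi).2 (Eventually.of_forall fun r hr => ?_)
      have hr1 : (1 : ℝ) < r := hr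
      have hr0 : 0 < r := by linarith
      rw [Real.norm_eq_abs, abs_mul, abs_abs, abs_of_nonneg (by positivity)]
      have h3 := hC r hr1.le
      have h4 : r ^ 2 * r ^ (-(3 + 1 / 32 : ℝ)) = r ^ (-(1 + 1 / 32 : ℝ)) := by
        rw [← Real.rpow_natCast, ← Real.rpow_add hr0]
        norm_num
      calc r ^ 2 * |φ r| ≤ r ^ 2 * (C * r ^ (-(3 + 1 / 32 : ℝ))) :=
            mul_le_mul_of_nonneg_left h3 (by positivity)
        _ = C * (r ^ 2 * r ^ (-(3 + 1 / 32 : ℝ))) := by ring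
        _ = _ := by rw [h4]
  · have hz : Tendsto (fun r : ℝ => C * r ^ (-(1 / 32 : ℝ))) atTop (𝓝 (C * 0)) :=
      (tendsto_rpow_neg_atTop (by norm_num)).const_mul C
    rw [mul_zero] at hz
    refine squeeze_zero_norm' ?_ hz
    filter_upwards [eventually_ge_atTop (1 : ℝ)] with r hr
    have hr0 : 0 < r := by linarith
    rw [Real.norm_eq_abs, abs_mul, abs_of_nonneg (by positivity)]
    have h3 := hC r hr
    have h4 : r ^ 3 * r ^ (-(3 + 1 / 32 : ℝ)) = r ^ (-(1 / 32 : ℝ)) := by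
      rw [← Real.rpow_natCast, ← Real.rpow_add hr0]
      norm_num
    calc r ^ 3 * |φ r| ≤ r ^ 3 * (C * r ^ (-(3 + 1 / 32 : ℝ))) :=
          mul_le_mul_of_nonneg_left h3 (by positivity)
      _ = C * (r ^ 3 * r ^ (-(3 + 1 / 32 : ℝ))) := by ring
      _ = _ := by rw [h4]
  · intro ρ hρa hρb
    refine hf2 ρ (by linarith) ?_
    simpa using hk ρ hρa hρb

end Crest.Agent.S0209
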