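import Mathlib

/-!
# ROW 149, package KF : the final kink lemma (abstract; blueprint section KF)

`TriplePt` is the conclusion of theorem H (abstract induction) at one level; the index `i : Fin 3`
stands for the occupancy `i + 2 ∈ {2,3,4}`.
-/

set_option autoImplicit false
namespace Crest.Agent.S0209
open Filter Topology

/-- Conclusion (a)-(d) of theorem H at one level. -/
structure TriplePt (M : ℝ) (ψ : ℝ → ℕ → ℝ) (b μ P : ℝ) (n : Fin 3 → ℕ) (u : Fin 3 → ℝ) : Prop where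
  b_mem : b ∈ Set.Icc (0.995 : ℝ) 1.005
  mu_mem : μ ∈ Set.Icc (130 : ℝ) 142
  P_mem : P ∈ Set.Icc (0 : ℝ) 300
  near : ∀ i : Fin 3, |(n i : ℝ) / M - ((i : ℕ) + 2)| ≤ 1e-3
  eqP : ∀ i, μ * ((n i : ℝ) / M) - ψ b (n i) = P
  leP : ∀ (m : ℕ) (b' : ℝ), b' ∈ Set.Icc (0.994 : ℝ) 1.006 →
    μ * ((m : ℝ) / M) - ψ b' m ≤ P + 4500 * |b' - b|
  slope : ∀ i, ∀ b' ∈ Set.Icc (0.99 : ℝ) 1.01, ψ b' (n i) ≤ ψ b (n i) + u i * (b' - b)
  u2 : 75 ≤ u 0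
  u3 : u 1 ≤ 57
  u4 : 107 ≤ u 2
  u_abs : ∀ i, |u i| ≤ 200

namespace KF

/-- weight of occupancy `4`. -/
noncomputable def W4 (r s t2 t3 t4 : ℝ) : ℝ := (r - s * t3 - (1 - s) * t2) / (t4 - t2)

/-- the mixed slope. -/
noncomputable def U (r s t2 t3 t4 u2 u3 u4 : ℝ) : ℝ :=
  (1 - s - W4 r s t2 t3 t4) * u2 + s * u3 + W4 r s t2 t3 t4 * u4

/-- the bound at one level. -/
lemma step_bound (F : ℝ → ℝ → ℝ) {T lam : ℝ} (hT : 0 < T) {lamA lamB e M : ℝ} (hM : 0 < M)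
    (hlamB : 0 < lamB) {ψ : ℝ → ℕ → ℝ} {bk μ P : ℝ} {n : Fin 3 → ℕ} {u : Fin 3 → ℝ}
    (h : TriplePt M ψ bk μ P n u)
    (hA : ∀ b ∈ Set.Icc (0.995 : ℝ) 1.005, ∀ ρ, 2.01 * lam < ρ → ρ < 3.99 * lam →
      ∀ μ ∈ Set.Icc (130 : ℝ) 142, ∀ P, (∀ m : ℕ, μ * ((m : ℝ) / M) - ψ b m ≤ P) →
        T * (μ * ρ - lamA * P) - e ≤ F b ρ)
    (hB : ∀ b ∈ Set.Icc (0.99 : ℝ) 1.01, ∀ (w : Fin 3 → ℝ) (n : Fin 3 → ℕ) (ρ : ℝ),
      (∀ i, 0 ≤ w i) → ∑ i, w i = 1 → (∀ i, (n i : ℝ) ≤ 15 * M) →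
      ρ = lamB * ∑ i, w i * ((n i : ℝ) / M) → 0 < ρ →
        F b ρ ≤ T * lamB * ∑ i, w i * ψ b (n i) + e)
    {ρ : ℝ} (hρ1 : 2.01 * lam < ρ) (hρ2 : ρ < 3.99 * lam) (hρ0 : 0 < ρ)
    (hr1 : 2.01 < ρ / lamB) (hr2 : ρ / lamB < 3.99)
    {s : ℝ} (hs0 : 0 ≤ s) (hs1 : s ≤ 0.008) {bc : ℝ} (hbc : bc ∈ Set.Icc (0.995 : ℝ) 1.005)
    {b : ℝ} (hb : |b - bc| < 0.004) :
    F b ρ - F bc ρ ≤ T * ((lamA - lamB) * P + lamA * (4500 * |bc - bk|)
      + lamB * (U (ρ / lamB) s ((n 0 : ℝ) / M) ((n 1 : ℝ) / M) ((n 2 : ℝ) / M) (u 0) (u 1) (u 2)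
          * (b - bk))) + 2 * e := by
  set r := ρ / lamB with hr
  set t2 := (n 0 : ℝ) / M with ht2
  set t3 := (n 1 : ℝ) / M with ht3
  set t4 := (n 2 : ℝ) / M with ht4
  have hn0 := abs_le.1 (h.near 0)
  have hn1 := abs_le.1 (h.near 1)
  have hn2 := abs_le.1 (h.near 2)
  simp only [Fin.val_zero, Fin.val_one, Fin.val_two, Nat.cast_zero, Nat.cast_one, Nat.cast_ofNat]
    at hn0 hn1 hn2
  rw [← ht2] at hn0
  rw [← ht3] at hn1
  rw [← ht4] at hn2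
  have hD : 0 < t4 - t2 := by linarith [hn0.2, hn2.1]
  set w4 := W4 r s t2 t3 t4 with hw4
  have hw4D : w4 * (t4 - t2) = r - s * t3 - (1 - s) * t2 := by
    rw [hw4, W4, div_mul_cancel₀ _ hD.ne']
  have hw4nn : 0 ≤ w4 := by
    rw [hw4, W4]
    apply div_nonneg _ hD.le
    nlinarith [hn0.2, hn1.2, hn0.1, hn1.1]
  have hw2nn : 0 ≤ 1 - s - w4 := by
    have : w4 * (t4 - t2) ≤ (1 - s) * (t4 - t2) := by
      rw [hw4D]; nlinarith [hn2.1, hn1.1, hn2.2, hn1.2]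
    have := le_of_mul_le_mul_right this hD
    linarith
  have hbJ : b ∈ Set.Icc (0.99 : ℝ) 1.01 := by
    have := abs_lt.1 hb
    exact ⟨by linarith [hbc.1, this.1], by linarith [hbc.2, this.2]⟩
  -- upper bound
  have hsumt : (1 - s - w4) * t2 + s * t3 + w4 * t4 = r := by
    have : (1 - s - w4) * t2 + s * t3 + w4 * t4 = (1 - s) * t2 + s * t3 + w4 * (t4 - t2) := by ring
    rw [this, hw4D]; ring
  have hup := hB b hbJ ![1 - s - w4, s, w4] n ρ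
    (by intro i; fin_cases i <;> simp [hw2nn, hs0, hw4nn])
    (by simp only [Fin.sum_univ_three, Matrix.cons_val_zero, Matrix.cons_val_one, Matrix.cons_val]; ring)
    (by
      intro i
      have hi : (n i : ℝ) / M ≤ 15 := by
        fin_cases i
        · show (n 0 : ℝ) / M ≤ 15
          linarith [hn0.2]
        · show (n 1 : ℝ) / M ≤ 15
          linarith [hn1.2]
        · show (n 2 : ℝ) / M ≤ 15
          linarith [hn2.2]
      exact (div_le_iff₀ hM).1 hi)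
    (by
      simp only [Fin.sum_univ_three, Matrix.cons_val_zero, Matrix.cons_val_one, Matrix.cons_val]
      rw [← ht2, ← ht3, ← ht4, hsumt, hr, mul_div_cancel₀ _ hlamB.ne'])
    hρ0
  simp only [Fin.sum_univ_three, Matrix.cons_val_zero, Matrix.cons_val_one, Matrix.cons_val] at hup
  have hs2 := h.slope 0 b hbJ
  have hs3 := h.slope 1 b hbJ
  have hs4 := h.slope 2 b hbJ
  have he2 := h.eqP 0
  have he3 := h.eqP 1
  have he4 := h.eqP 2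
  rw [← ht2] at he2
  rw [← ht3] at he3
  rw [← ht4] at he4
  have hmix : (1 - s - w4) * ψ b (n 0) + s * ψ b (n 1) + w4 * ψ b (n 2)
      ≤ μ * r - P + U r s t2 t3 t4 (u 0) (u 1) (u 2) * (b - bk) := by
    have h2 := mul_le_mul_of_nonneg_left hs2 hw2nn
    have h3 := mul_le_mul_of_nonneg_left hs3 hs0
    have h4 := mul_le_mul_of_nonneg_left hs4 hw4nn
    have hU : U r s t2 t3 t4 (u 0) (u 1) (u 2) = (1 - s - w4) * u 0 + s * u 1 + w4 * u 2 := rfl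
    rw [hU, ← hsumt]
    have e2 : ψ bk (n 0) = μ * t2 - P := by linarith
    have e3 : ψ bk (n 1) = μ * t3 - P := by linarith
    have e4 : ψ bk (n 2) = μ * t4 - P := by linarith
    rw [e2] at h2
    rw [e3] at h3
    rw [e4] at h4
    calc (1 - s - w4) * ψ b (n 0) + s * ψ b (n 1) + w4 * ψ b (n 2)
        ≤ (1 - s - w4) * (μ * t2 - P + u 0 * (b - bk)) + s * (μ * t3 - P + u 1 * (b - bk))
          + w4 * (μ * t4 - P + u 2 * (b - bk)) := by linarith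
      _ = _ := by ring
  have hTl : 0 < T * lamB := mul_pos hT hlamB
  have hup2 : F b ρ ≤ T * lamB * (μ * r - P + U r s t2 t3 t4 (u 0) (u 1) (u 2) * (b - bk)) + e :=
    hup.trans (by linarith [mul_le_mul_of_nonneg_left hmix hTl.le])
  have hlr : lamB * r = ρ := by rw [hr, mul_div_cancel₀ _ hlamB.ne']
  -- lower bound
  have hlow := hA bc hbc ρ hρ1 hρ2 μ h.mu_mem (P + 4500 * |bc - bk|)
    (fun m => h.leP m bc ⟨by linarith [hbc.1], by linarith [hbc.2]⟩)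
  have : T * lamB * (μ * r - P + U r s t2 t3 t4 (u 0) (u 1) (u 2) * (b - bk))
      = T * (μ * ρ - lamB * P + lamB * (U r s t2 t3 t4 (u 0) (u 1) (u 2) * (b - bk))) := by
    rw [← hlr]; ring
  rw [this] at hup2
  have h3 : F b ρ - F bc ρ ≤ T * (μ * ρ - lamB * P
      + lamB * (U r s t2 t3 t4 (u 0) (u 1) (u 2) * (b - bk))) + e
      - (T * (μ * ρ - lamA * (P + 4500 * |bc - bk|)) - e) := by linarith
  refine h3.trans (le_of_eq ?_)
  ring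


lemma U_diff {r s t2 t3 t4 u2 u3 u4 : ℝ} (hs : 0 < s) (h23 : t2 < t3) (h34 : t3 < t4)
    (hu2 : 75 ≤ u2) (hu3 : u3 ≤ 57) (hu4 : 107 ≤ u4) :
    U r s t2 t3 t4 u2 u3 u4 < U r 0 t2 t3 t4 u2 u3 u4 := by
  have hD : 0 < t4 - t2 := by linarith
  have h1 : W4 r s t2 t3 t4 = W4 r 0 t2 t3 t4 - s * ((t3 - t2) / (t4 - t2)) := by
    unfold W4; field_simp; ring
  set x := (t3 - t2) / (t4 - t2) with hx
  have hx0 : 0 ≤ x := div_nonneg (by linarith) hD.le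
  have hx1 : x ≤ 1 := (div_le_one hD).2 (by linarith)
  unfold U
  rw [h1]
  set w := W4 r 0 t2 t3 t4
  have : (1 - s - (w - s * x)) * u2 + s * u3 + (w - s * x) * u4
      = ((1 - 0 - w) * u2 + 0 * u3 + w * u4) + s * (u3 - ((1 - x) * u2 + x * u4)) := by ring
  rw [this]
  have h2 : 75 ≤ (1 - x) * u2 + x * u4 := by nlinarith
  have : s * (u3 - ((1 - x) * u2 + x * u4)) < 0 := mul_neg_of_pos_of_neg hs (by linarith)
  linarith

end KF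

open KF in
/-- **Final kink lemma** (blueprint section KF). -/
theorem kink_final (F : ℝ → ℝ → ℝ) {T lam : ℝ} (hT : 0 < T) (hlam : 0 < lam)
    (lamA lamB e : ℕ → ℝ) (hlamA : Tendsto lamA atTop (𝓝 lam)) (hlamB : Tendsto lamB atTop (𝓝 lam))
    (he : Tendsto e atTop (𝓝 0))
    (M : ℕ → ℝ) (hM : ∀ k, 0 < M k) (ψ : ℕ → ℝ → ℕ → ℝ)
    (hH : ∀ k, ∃ (b μ P : ℝ) (n : Fin 3 → ℕ) (u : Fin 3 → ℝ), TriplePt (M k) (ψ k) b μ P n u)
    (hA : ∀ k, ∀ b ∈ Set.Icc (0.995 : ℝ) 1.005, ∀ ρ, 2.01 * lam < ρ → ρ < 3.99 * lam →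
      ∀ μ ∈ Set.Icc (130 : ℝ) 142, ∀ P, (∀ m : ℕ, μ * ((m : ℝ) / M k) - ψ k b m ≤ P) →
        T * (μ * ρ - lamA k * P) - e k ≤ F b ρ)
    (hB : ∀ k, ∀ b ∈ Set.Icc (0.99 : ℝ) 1.01, ∀ (w : Fin 3 → ℝ) (n : Fin 3 → ℕ) (ρ : ℝ),
      (∀ i, 0 ≤ w i) → ∑ i, w i = 1 → (∀ i, (n i : ℝ) ≤ 15 * M k) →
      ρ = lamB k * ∑ i, w i * ((n i : ℝ) / M k) → 0 < ρ →
        F b ρ ≤ T * lamB k * ∑ i, w i * ψ k b (n i) + e k) :
    ∃ bc ∈ Set.Icc (0.995 : ℝ) 1.005, ∀ ρ, 2.01 * lam < ρ → ρ < 3.99 * lam →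
      ∃ uA uB : ℝ, uA < uB ∧ (∀ b, |b - bc| < 0.004 → F b ρ - F bc ρ ≤ uA * (b - bc)) ∧
        (∀ b, |b - bc| < 0.004 → F b ρ - F bc ρ ≤ uB * (b - bc)) := by
  choose b μ P n u hTP using hH
  -- compactness
  let x : ℕ → ℝ × ℝ × (Fin 3 → ℝ) × (Fin 3 → ℝ) :=
    fun k => (b k, P k, (fun i => (n k i : ℝ) / M k), u k)
  let lo : ℝ × ℝ × (Fin 3 → ℝ) × (Fin 3 → ℝ) :=
    (0.995, 0, (fun i => ((i : ℕ) : ℝ) + 2 - 1e-3), ![75, -200, 107])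
  let hi : ℝ × ℝ × (Fin 3 → ℝ) × (Fin 3 → ℝ) :=
    (1.005, 300, (fun i => ((i : ℕ) : ℝ) + 2 + 1e-3), ![200, 57, 200])
  have hx : ∀ k, x k ∈ Set.Icc lo hi := by
    intro k
    have h := hTP k
    refine ⟨⟨h.b_mem.1, h.P_mem.1, ?_, ?_⟩, ⟨h.b_mem.2, h.P_mem.2, ?_, ?_⟩⟩
    · intro i
      have := (abs_le.1 (h.near i)).1
      show ((i : ℕ) : ℝ) + 2 - 1e-3 ≤ (n k i : ℝ) / M k
      linarith
    · intro i
      fin_cases i
      · exact h.u2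
      · exact (abs_le.1 (h.u_abs 1)).1
      · exact h.u4
    · intro i
      have := (abs_le.1 (h.near i)).2
      show (n k i : ℝ) / M k ≤ ((i : ℕ) : ℝ) + 2 + 1e-3
      linarith
    · intro i
      fin_cases i
      · exact (abs_le.1 (h.u_abs 0)).2
      · exact h.u3
      · exact (abs_le.1 (h.u_abs 2)).2
  obtain ⟨⟨bc, Pc, t, uu⟩, hmem, φ, hφ, hlim⟩ := isCompact_Icc.tendsto_subseq hx
  have hφt : Tendsto φ atTop atTop := hφ.tendsto_atTop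
  have hb_lim : Tendsto (fun k => b (φ k)) atTop (𝓝 bc) := hlim.fst_nhds
  have hP_lim : Tendsto (fun k => P (φ k)) atTop (𝓝 Pc) := hlim.snd_nhds.fst_nhds
  have ht_lim : ∀ i, Tendsto (fun k => (n (φ k) i : ℝ) / M (φ k)) atTop (𝓝 (t i)) :=
    fun i => tendsto_pi_nhds.1 hlim.snd_nhds.snd_nhds.fst_nhds i
  have hu_lim : ∀ i, Tendsto (fun k => u (φ k) i) atTop (𝓝 (uu i)) :=
    fun i => tendsto_pi_nhds.1 hlim.snd_nhds.snd_nhds.snd_nhds i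
  obtain ⟨⟨hbc1, -, ht1, hu1⟩, ⟨hbc2, -, ht2, hu2⟩⟩ := hmem
  have hbc : bc ∈ Set.Icc (0.995 : ℝ) 1.005 := ⟨hbc1, hbc2⟩
  have ht0l : (2 : ℝ) - 1e-3 ≤ t 0 := by have := ht1 0; simpa [lo] using this
  have ht0u : t 0 ≤ (2 : ℝ) + 1e-3 := by have := ht2 0; simpa [hi] using this
  have ht1l : (1 : ℝ) + 2 - 1e-3 ≤ t 1 := by have := ht1 1; simpa [lo] using this
  have ht1u : t 1 ≤ (1 : ℝ) + 2 + 1e-3 := by have := ht2 1; simpa [hi] using this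
  have ht2l : (2 : ℝ) + 2 - 1e-3 ≤ t 2 := by have := ht1 2; simpa [lo] using this
  have huu2 : 75 ≤ uu 0 := hu1 0
  have huu3 : uu 1 ≤ 57 := hu2 1
  have huu4 : 107 ≤ uu 2 := hu1 2
  refine ⟨bc, hbc, fun ρ hρ1 hρ2 => ?_⟩
  have hρ0 : 0 < ρ := lt_trans (by positivity) hρ1
  have hlamAφ := hlamA.comp hφt
  have hlamBφ := hlamB.comp hφt
  have heφ := he.comp hφt
  have hr_lim : Tendsto (fun k => ρ / lamB (φ k)) atTop (𝓝 (ρ / lam)) :=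
    tendsto_const_nhds.div hlamBφ hlam.ne'
  have hr1 : 2.01 < ρ / lam := (lt_div_iff₀ hlam).2 hρ1
  have hr2 : ρ / lam < 3.99 := (div_lt_iff₀ hlam).2 hρ2
  have hD : t 2 - t 0 ≠ 0 := by
    have : 0 < t 2 - t 0 := by linarith
    exact this.ne'
  -- the key bound for each `s`
  have key : ∀ s : ℝ, 0 ≤ s → s ≤ 0.008 → ∀ b', |b' - bc| < 0.004 →
      F b' ρ - F bc ρ ≤ (T * lam * U (ρ / lam) s (t 0) (t 1) (t 2) (uu 0) (uu 1) (uu 2))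
        * (b' - bc) := by
    intro s hs0 hs1 b' hb'
    have hev : ∀ᶠ k in atTop, F b' ρ - F bc ρ ≤ T * ((lamA (φ k) - lamB (φ k)) * P (φ k)
        + lamA (φ k) * (4500 * |bc - b (φ k)|)
        + lamB (φ k) * (U (ρ / lamB (φ k)) s ((n (φ k) 0 : ℝ) / M (φ k)) ((n (φ k) 1 : ℝ) / M (φ k))
            ((n (φ k) 2 : ℝ) / M (φ k)) (u (φ k) 0) (u (φ k) 1) (u (φ k) 2)
          * (b' - b (φ k)))) + 2 * e (φ k) := by
      filter_upwards [hlamBφ.eventually (lt_mem_nhds hlam), hr_lim.eventually (lt_mem_nhds hr1),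
        hr_lim.eventually (gt_mem_nhds hr2)] with k hk1 hk2 hk3
      exact step_bound F hT (hM (φ k)) hk1 (hTP (φ k)) (hA (φ k)) (hB (φ k)) hρ1 hρ2 hρ0 hk2 hk3
        hs0 hs1 hbc hb'
    have hW : Tendsto (fun k => W4 (ρ / lamB (φ k)) s ((n (φ k) 0 : ℝ) / M (φ k))
        ((n (φ k) 1 : ℝ) / M (φ k)) ((n (φ k) 2 : ℝ) / M (φ k))) atTop
        (𝓝 (W4 (ρ / lam) s (t 0) (t 1) (t 2))) := by
      unfold W4
      exact ((hr_lim.sub ((ht_lim 1).const_mul s)).sub ((ht_lim 0).const_mul (1 - s))).div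
        ((ht_lim 2).sub (ht_lim 0)) hD
    have hU : Tendsto (fun k => U (ρ / lamB (φ k)) s ((n (φ k) 0 : ℝ) / M (φ k))
        ((n (φ k) 1 : ℝ) / M (φ k)) ((n (φ k) 2 : ℝ) / M (φ k)) (u (φ k) 0) (u (φ k) 1) (u (φ k) 2))
        atTop (𝓝 (U (ρ / lam) s (t 0) (t 1) (t 2) (uu 0) (uu 1) (uu 2))) := by
      unfold U
      exact (((tendsto_const_nhds.sub hW).mul (hu_lim 0)).add ((hu_lim 1).const_mul s)).add
        (hW.mul (hu_lim 2))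
    have habs : Tendsto (fun k => |bc - b (φ k)|) atTop (𝓝 0) := by
      have : Tendsto (fun k => bc - b (φ k)) atTop (𝓝 (bc - bc)) := tendsto_const_nhds.sub hb_lim
      simpa using this.abs
    have hRHS := ((((hlamAφ.sub hlamBφ).mul hP_lim).add (hlamAφ.mul (habs.const_mul 4500))).add
      (hlamBφ.mul (hU.mul (tendsto_const_nhds (x := b').sub hb_lim)))).const_mul T |>.add
      (heφ.const_mul 2)
    have hfin := ge_of_tendsto hRHS hev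
    refine hfin.trans (le_of_eq ?_)
    ring
  refine ⟨T * lam * U (ρ / lam) 0.008 (t 0) (t 1) (t 2) (uu 0) (uu 1) (uu 2),
    T * lam * U (ρ / lam) 0 (t 0) (t 1) (t 2) (uu 0) (uu 1) (uu 2), ?_,
    key 0.008 (by norm_num) le_rfl, key 0 le_rfl (by norm_num)⟩
  exact mul_lt_mul_of_pos_left
    (U_diff (by norm_num) (by linarith) (by linarith) huu2 huu3 huu4) (mul_pos hT hlam)

end Crest.Agent.S0209
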