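import Crest.Agent.S0209_AbsDefs
import Crest.Agent.S0209_KinkFinal

/-!
# ROW 149, package KF : `final_kink` in the form of `notes/ROW149_Iface3.lean.txt`
(wrapper around `kink_final` of `S0209_KinkFinal.lean`).
-/

set_option autoImplicit false
namespace Crest.Agent.S0209

lemma Hier.Triple.toTriplePt {H : Hier} {k : ℕ} {βk μk Ps : ℝ} {n : Fin 3 → ℕ} {u : Fin 3 → ℝ}
    (h : H.Triple k βk μk Ps n u) : TriplePt (H.M k : ℝ) (H.psi k) βk μk Ps n u where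
  b_mem := h.β_mem
  mu_mem := h.μ_mem
  P_mem := h.Ps_mem
  near := h.window
  eqP := h.isMax
  leP := fun m b' hb' => h.le_Ps b' hb' m
  slope := h.slope
  u2 := h.u0
  u3 := h.u1
  u4 := h.u2
  u_abs := h.u_bdd

/-- FINAL KINK LEMMA (KF) -/
theorem final_kink (H : Hier) (hT : ∀ k, 1 ≤ k →
      ∃ (βk μk Ps : ℝ) (n : Fin 3 → ℕ) (u : Fin 3 → ℝ), H.Triple k βk μk Ps n u)
    (hM : ∀ k, 1 ≤ k → 0 < H.M k)
    (F : ℝ → ℝ → ℝ) (T lam : ℝ) (hTpos : 0 < T) (hlam : 0 < lam) (lk lk' e : ℕ → ℝ)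
    (hlk : Filter.Tendsto lk Filter.atTop (nhds lam))
    (hlk' : Filter.Tendsto lk' Filter.atTop (nhds lam))
    (he : Filter.Tendsto e Filter.atTop (nhds 0))
    (hA : ∀ k, 1 ≤ k → ∀ β ∈ Set.Icc (0.99 : ℝ) 1.01, ∀ ρ : ℝ, 0 < ρ → ρ ≤ 10 * lam →
      ∀ μ ∈ Set.Icc (125 : ℝ) 150, ∀ P : ℝ,
      (∀ n : ℕ, μ * ((n : ℝ) / H.M k) - H.psi k β n ≤ P) →
      T * (μ * ρ - lk k * P) - e k ≤ F β ρ)
    (hB : ∀ k, 1 ≤ k → ∀ β ∈ Set.Icc (0.99 : ℝ) 1.01, ∀ (w : Fin 3 → ℝ) (n : Fin 3 → ℕ),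
      (∀ i, 0 ≤ w i) → ∑ i, w i = 1 → (∀ i, n i ≤ 15 * H.M k) → ∀ ρ : ℝ, 0 < ρ →
      ρ = lk' k * ∑ i, w i * ((n i : ℝ) / H.M k) →
      F β ρ ≤ T * lk' k * ∑ i, w i * H.psi k β (n i) + e k) :
    ∃ βc ∈ Set.Icc (0.995 : ℝ) 1.005, ∀ ρ : ℝ, 2.01 * lam < ρ → ρ < 3.99 * lam →
      ∃ uA uB : ℝ, uA < uB ∧ ∀ β : ℝ, |β - βc| < 0.004 →
        F β ρ - F βc ρ ≤ uA * (β - βc) ∧ F β ρ - F βc ρ ≤ uB * (β - βc) := by
  have hk1 : ∀ k : ℕ, 1 ≤ k + 1 := fun k => Nat.le_add_left 1 k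
  obtain ⟨βc, hβc, hmain⟩ := kink_final F hTpos hlam (fun k => lk (k + 1)) (fun k => lk' (k + 1))
    (fun k => e (k + 1)) ((Filter.tendsto_add_atTop_iff_nat 1).2 hlk)
    ((Filter.tendsto_add_atTop_iff_nat 1).2 hlk') ((Filter.tendsto_add_atTop_iff_nat 1).2 he)
    (fun k => (H.M (k + 1) : ℝ)) (fun k => by exact_mod_cast hM (k + 1) (hk1 k))
    (fun k => H.psi (k + 1))
    (fun k => by
      obtain ⟨βk, μk, Ps, n, u, h⟩ := hT (k + 1) (hk1 k)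
      exact ⟨βk, μk, Ps, n, u, h.toTriplePt⟩)
    (fun k b hb ρ hρ1 hρ2 μ hμ P hP =>
      hA (k + 1) (hk1 k) b ⟨by linarith [hb.1], by linarith [hb.2]⟩ ρ
        (lt_trans (by positivity) hρ1) (by linarith) μ
        ⟨by linarith [hμ.1], by linarith [hμ.2]⟩ P hP)
    (fun k b hb w n ρ hw hw1 hn hρ hρ0 =>
      hB (k + 1) (hk1 k) b hb w n hw hw1 (fun i => by exact_mod_cast hn i) ρ hρ0 hρ)
  refine ⟨βc, hβc, fun ρ hρ1 hρ2 => ?_⟩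
  obtain ⟨uA, uB, hAB, h1, h2⟩ := hmain ρ hρ1 hρ2
  exact ⟨uA, uB, hAB, fun β hβ => ⟨h1 β hβ, h2 β hβ⟩⟩

end Crest.Agent.S0209
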