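import Crest.Agent.S0209_HDefs

/-!
# ROW 149, section H, package HA : arithmetic of `hJ`, `gS`, `vS`, `Vm`
-/

set_option autoImplicit false
namespace Crest.Agent.S0209.H

theorem hJ_zero (b : ℝ) : hJ 0 b = 0 := by simp [hJ]
theorem hJ_one (b : ℝ) : hJ 1 b = 0 := by simp [hJ]
theorem hJ_two (b : ℝ) : hJ 2 b = 81 * b := by simp [hJ]
theorem hJ_of_three_le {j : ℕ} (hj : 3 ≤ j) (b : ℝ) :
    hJ j b = 10 * b * j * (j - 1) + 80 * (j - 1) := by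
  have h1 : ¬ j ≤ 1 := by omega
  have h2 : ¬ j = 2 := by omega
  simp [hJ, h1, h2]
theorem hJ_three (b : ℝ) : hJ 3 b = 60 * b + 160 := by
  rw [hJ_of_three_le (le_refl 3)]; push_cast; ring
theorem hJ_four (b : ℝ) : hJ 4 b = 120 * b + 240 := by
  rw [hJ_of_three_le (by norm_num)]; push_cast; ring

theorem gS_two (s b : ℝ) : gS s 2 b = 81 * b - 2 * s * b := by
  unfold gS; rw [hJ_two]; push_cast; ring
theorem gS_three (s b : ℝ) : gS s 3 b = 60 * b + 160 - 4.5 * s * b := by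
  unfold gS; rw [hJ_three]; push_cast; ring
theorem gS_four (s b : ℝ) : gS s 4 b = 120 * b + 240 - 8 * s * b := by
  unfold gS; rw [hJ_four]; push_cast; ring
theorem vS_two (s b mu : ℝ) : vS s 2 b mu = 2 * mu - 81 * b + 2 * s * b := by
  unfold vS; rw [gS_two]; push_cast; ring
theorem vS_three (s b mu : ℝ) : vS s 3 b mu = 3 * mu - 60 * b - 160 + 4.5 * s * b := by
  unfold vS; rw [gS_three]; push_cast; ring
theorem vS_four (s b mu : ℝ) : vS s 4 b mu = 4 * mu - 120 * b - 240 + 8 * s * b := by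
  unfold vS; rw [gS_four]; push_cast; ring
theorem vS_zero (s b mu : ℝ) : vS s 0 b mu = 0 := by
  unfold vS gS; rw [hJ_zero]; simp
theorem vS_one (s b mu : ℝ) : vS s 1 b mu = mu + s * b / 2 := by
  unfold vS gS; rw [hJ_one]; push_cast; ring
theorem vS_three_sub_two (s b mu : ℝ) : vS s 3 b mu - vS s 2 b mu = mu - mu23 s b := by
  rw [vS_three, vS_two]; unfold mu23; ring
theorem vS_four_sub_three (s b mu : ℝ) : vS s 4 b mu - vS s 3 b mu = mu - mu34 s b := by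
  rw [vS_four, vS_three]; unfold mu34; ring
theorem D3_eq (s b : ℝ) : D3 s b = mu34 s b - mu23 s b := by
  unfold D3 mu34 mu23; ring

theorem mu23_mem {s b : ℝ} (hs : 0.94 ≤ s) (hs' : s ≤ 1.06) (hb : b ∈ J) :
    135.5 ≤ mu23 s b ∧ mu23 s b ≤ 137.5 := by
  obtain ⟨h1, h2⟩ := hb
  unfold mu23
  constructor <;> nlinarith
theorem mu34_mem {s b : ℝ} (hs : 0.94 ≤ s) (hs' : s ≤ 1.06) (hb : b ∈ J) :
    135.5 ≤ mu34 s b ∧ mu34 s b ≤ 137.5 := by
  obtain ⟨h1, h2⟩ := hb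
  unfold mu34
  constructor <;> nlinarith
theorem D3_hi {s : ℝ} (hs' : s ≤ 1.06) : 0.3 ≤ D3 s 1.005 := by
  unfold D3; nlinarith
theorem D3_lo {s : ℝ} (hs : 0.94 ≤ s) : D3 s 0.995 ≤ -0.3 := by
  unfold D3; nlinarith
theorem D3_abs {s b : ℝ} (hs : 0.94 ≤ s) (hs' : s ≤ 1.06) (hb : b ∈ J) : |D3 s b| ≤ 1.1 := by
  obtain ⟨h1, h2⟩ := hb
  unfold D3
  rw [abs_le]
  constructor <;> nlinarith

theorem vS_le_Vm2 (s b mu : ℝ) : vS s 2 b mu ≤ Vm s b mu := le_max_left _ _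
theorem vS_le_Vm3 (s b mu : ℝ) : vS s 3 b mu ≤ Vm s b mu :=
  le_max_of_le_right (le_max_left _ _)
theorem vS_le_Vm4 (s b mu : ℝ) : vS s 4 b mu ≤ Vm s b mu :=
  le_max_of_le_right (le_max_right _ _)

theorem Vm_le_iff {s b mu c : ℝ} :
    Vm s b mu ≤ c ↔ vS s 2 b mu ≤ c ∧ vS s 3 b mu ≤ c ∧ vS s 4 b mu ≤ c := by
  unfold Vm; rw [max_le_iff, max_le_iff]

theorem Vm_eq_two {s b mu : ℝ} (h1 : mu ≤ mu23 s b) (h2 : mu ≤ mu34 s b) :
    Vm s b mu = vS s 2 b mu := by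
  have e1 := vS_three_sub_two s b mu
  have e2 := vS_four_sub_three s b mu
  refine le_antisymm (Vm_le_iff.mpr ⟨le_refl _, ?_, ?_⟩) (vS_le_Vm2 _ _ _) <;> linarith
theorem Vm_eq_four {s b mu : ℝ} (h1 : mu23 s b ≤ mu) (h2 : mu34 s b ≤ mu) :
    Vm s b mu = vS s 4 b mu := by
  have e1 := vS_three_sub_two s b mu
  have e2 := vS_four_sub_three s b mu
  refine le_antisymm (Vm_le_iff.mpr ⟨?_, ?_, le_refl _⟩) (vS_le_Vm4 _ _ _) <;> linarith
theorem Vm_eq_three {s b mu : ℝ} (h1 : mu23 s b ≤ mu) (h2 : mu ≤ mu34 s b) :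
    Vm s b mu = vS s 3 b mu := by
  have e1 := vS_three_sub_two s b mu
  have e2 := vS_four_sub_three s b mu
  refine le_antisymm (Vm_le_iff.mpr ⟨?_, le_refl _, ?_⟩) (vS_le_Vm3 _ _ _) <;> linarith

/-- at `μ = (μ23+μ34)/2`: `Vm = v_3 + max 0 (-D3/2)` -/
theorem Vm_mid (s b : ℝ) :
    Vm s b ((mu23 s b + mu34 s b) / 2) = vS s 3 b ((mu23 s b + mu34 s b) / 2) + max 0 (-D3 s b / 2) := by
  set mu := (mu23 s b + mu34 s b) / 2 with hmu
  have e1 := vS_three_sub_two s b mu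
  have e2 := vS_four_sub_three s b mu
  have e3 := D3_eq s b
  rcases le_total 0 (D3 s b) with h | h
  · rw [max_eq_left (by linarith), add_zero]
    exact Vm_eq_three (by linarith) (by linarith)
  · rw [max_eq_right (by linarith)]
    refine le_antisymm (Vm_le_iff.mpr ⟨?_, ?_, ?_⟩) ?_
    · linarith
    · linarith
    · linarith
    · have := vS_le_Vm2 s b mu
      linarith

theorem vS_succ_sub {s b mu : ℝ} {j : ℕ} (hj : 3 ≤ j) :
    vS s (j + 1) b mu - vS s j b mu = mu - (20 * b * j + 80) + s * b * (j + 0.5) := by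
  unfold vS gS
  rw [hJ_of_three_le hj, hJ_of_three_le (by omega : 3 ≤ j + 1)]
  push_cast
  ring

theorem vS_succ_sub_le {s b mu : ℝ} (hs : 0.94 ≤ s) (hs' : s ≤ 1.06) (hb : b ∈ J) (h2 : mu ≤ 150)
    {j : ℕ} (hj : 4 ≤ j) : vS s (j + 1) b mu - vS s j b mu ≤ -4.2 - 18.7 * ((j : ℝ) - 4) := by
  obtain ⟨hb1, hb2⟩ := hb
  rw [vS_succ_sub (by omega)]
  have hj' : (4 : ℝ) ≤ j := by exact_mod_cast hj
  -- `b (20 - s) ≥ 18.7`
  have k1 : 18.7 ≤ b * (20 - s) := by nlinarith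
  have k2 : 18.7 * ((j : ℝ) - 4) ≤ b * (20 - s) * ((j : ℝ) - 4) :=
    mul_le_mul_of_nonneg_right k1 (by linarith)
  nlinarith

/-- all occupations are dominated by 2,3,4 -/
theorem vS_le_Vm {s b mu : ℝ} (hs : 0.94 ≤ s) (hs' : s ≤ 1.06) (hb : b ∈ J) (h1 : 125 ≤ mu)
    (h2 : mu ≤ 150) (j : ℕ) : vS s j b mu ≤ Vm s b mu := by
  have hb' := hb
  obtain ⟨hb1, hb2⟩ := hb'
  have key : ∀ i : ℕ, vS s (4 + i) b mu ≤ vS s 4 b mu := by
    intro i
    induction i with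
    | zero => simp
    | succ i ih =>
      have := vS_succ_sub_le hs hs' hb h2 (j := 4 + i) (by omega)
      have hi : (0 : ℝ) ≤ ((4 + i : ℕ) : ℝ) - 4 := by push_cast; linarith [Nat.cast_nonneg (α := ℝ) i]
      have e : 4 + (i + 1) = 4 + i + 1 := by ring
      rw [e]
      linarith
  rcases Nat.lt_or_ge j 4 with hj | hj
  · interval_cases j
    · rw [vS_zero]
      have := vS_le_Vm2 s b mu
      rw [vS_two] at this
      nlinarith
    · rw [vS_one]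
      have := vS_le_Vm2 s b mu
      rw [vS_two] at this
      nlinarith
    · exact vS_le_Vm2 _ _ _
    · exact vS_le_Vm3 _ _ _
  · obtain ⟨i, rfl⟩ := Nat.exists_eq_add_of_le hj
    exact (key i).trans (vS_le_Vm4 _ _ _)

theorem Vm_le {s b mu : ℝ} (hs : 0.94 ≤ s) (hs' : s ≤ 1.06) (hb : b ∈ J) (h2 : mu ≤ 150) :
    Vm s b mu ≤ 251 := by
  obtain ⟨hb1, hb2⟩ := hb
  rw [Vm_le_iff, vS_two, vS_three, vS_four]
  refine ⟨?_, ?_, ?_⟩ <;> nlinarith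
theorem vS_two_ge {s b mu : ℝ} (hs : 0.94 ≤ s) (hb : b ∈ J) (h1 : 130 ≤ mu) :
    179 ≤ vS s 2 b mu := by
  obtain ⟨hb1, hb2⟩ := hb
  rw [vS_two]
  nlinarith
theorem Vm_add_le (s b mu : ℝ) {d : ℝ} (hd : 0 ≤ d) : Vm s b (mu + d) ≤ Vm s b mu + 4 * d := by
  have a2 := vS_le_Vm2 s b mu
  have a3 := vS_le_Vm3 s b mu
  have a4 := vS_le_Vm4 s b mu
  rw [vS_two] at a2
  rw [vS_three] at a3
  rw [vS_four] at a4
  rw [Vm_le_iff, vS_two, vS_three, vS_four]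
  refine ⟨?_, ?_, ?_⟩ <;> linarith
theorem Vm_mono_s {s s' b : ℝ} (hs : s ≤ s') (hb : 0 ≤ b) (mu : ℝ) : Vm s b mu ≤ Vm s' b mu := by
  have a2 := vS_le_Vm2 s' b mu
  have a3 := vS_le_Vm3 s' b mu
  have a4 := vS_le_Vm4 s' b mu
  rw [vS_two] at a2
  rw [vS_three] at a3
  rw [vS_four] at a4
  have hsb : s * b ≤ s' * b := mul_le_mul_of_nonneg_right hs hb
  rw [Vm_le_iff, vS_two, vS_three, vS_four]
  refine ⟨?_, ?_, ?_⟩ <;> linarith
/-- the mean-field shift: `v_j^s(μ + b a t) - b a t²/2 ≤ v_j^{s+a}(μ)` -/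
theorem Vm_shift_le {s a b : ℝ} (ha : 0 ≤ a) (hb : 0 ≤ b) (mu t : ℝ) :
    Vm s b (mu + b * a * t) - b * a * t ^ 2 / 2 ≤ Vm (s + a) b mu := by
  have a2 := vS_le_Vm2 (s + a) b mu
  have a3 := vS_le_Vm3 (s + a) b mu
  have a4 := vS_le_Vm4 (s + a) b mu
  rw [vS_two] at a2
  rw [vS_three] at a3
  rw [vS_four] at a4
  have hab : 0 ≤ b * a := mul_nonneg hb ha
  rw [sub_le_iff_le_add, Vm_le_iff, vS_two, vS_three, vS_four]
  refine ⟨?_, ?_, ?_⟩
  · nlinarith [mul_nonneg hab (sq_nonneg (t - 2))]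
  · nlinarith [mul_nonneg hab (sq_nonneg (t - 3))]
  · nlinarith [mul_nonneg hab (sq_nonneg (t - 4))]

end Crest.Agent.S0209.H
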