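import Crest.Agent.S0209_HDefs

/-!
# ROW 149, section H, package HP : (p1), (p2) for the restricted pressures
-/

set_option autoImplicit false
namespace Crest.Agent.S0209.H

theorem Lvl.val_add (L : Lvl) (b mu d : ℝ) (n : ℕ) :
    L.val b (mu + d) n = L.val b mu n + d * tt L.M n := by
  unfold Lvl.val; ring

theorem Lvl.tt_le_of_mem {L : Lvl} {w : ℝ} {i n : ℕ} (hn : n ∈ L.Win w i) : tt L.M n ≤ i + w := by
  have := (abs_le.mp (Lvl.mem_Win.mp hn)).2; linarith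

theorem Lvl.le_tt_of_mem {L : Lvl} {w : ℝ} {i n : ℕ} (hn : n ∈ L.Win w i) : i - w ≤ tt L.M n := by
  have := (abs_le.mp (Lvl.mem_Win.mp hn)).1; linarith

theorem Lvl.p_convex (L : Lvl) (hM : 1 ≤ L.M) (hc : ∀ n : ℕ, ConcaveOn ℝ J (fun b => L.ψ b n))
    {w : ℝ} (hw : 0 ≤ w) (i : ℕ) (mu : ℝ) : ConvexOn ℝ J (fun b => L.p w i b mu) := by
  refine ⟨convex_Icc _ _, ?_⟩
  intro x hx y hy α β hα hβ hαβ
  obtain ⟨n, hn, e⟩ := L.exists_p hM hw i (α • x + β • y) mu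
  have h1 := (hc n).2 hx hy hα hβ hαβ
  have hx' := L.le_p hM hn x mu
  have hy' := L.le_p hM hn y mu
  simp only [smul_eq_mul] at h1 ⊢
  simp only [smul_eq_mul] at e
  rw [e]
  unfold Lvl.val at hx' hy' ⊢
  have e1 : mu * tt L.M n = α * (mu * tt L.M n) + β * (mu * tt L.M n) := by
    rw [← add_mul, hαβ, one_mul]
  have h2 : α * (mu * tt L.M n - L.ψ x n) ≤ α * L.p w i x mu := mul_le_mul_of_nonneg_left hx' hα
  have h3 : β * (mu * tt L.M n - L.ψ y n) ≤ β * L.p w i y mu := mul_le_mul_of_nonneg_left hy' hβ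
  linarith

theorem Lvl.p_add_le (L : Lvl) (hM : 1 ≤ L.M) {w : ℝ} (hw : 0 ≤ w) (i : ℕ) (b mu : ℝ) {d : ℝ}
    (hd : 0 ≤ d) : L.p w i b (mu + d) ≤ L.p w i b mu + (i + w) * d := by
  obtain ⟨n, hn, e⟩ := L.exists_p hM hw i b (mu + d)
  rw [e, L.val_add]
  have h1 := L.le_p hM hn b mu
  have h2 : d * tt L.M n ≤ d * (i + w) := mul_le_mul_of_nonneg_left (Lvl.tt_le_of_mem hn) hd
  linarith

theorem Lvl.le_p_add (L : Lvl) (hM : 1 ≤ L.M) {w : ℝ} (hw : 0 ≤ w) (i : ℕ) (b mu : ℝ) {d : ℝ}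
    (hd : 0 ≤ d) : L.p w i b mu + (i - w) * d ≤ L.p w i b (mu + d) := by
  obtain ⟨n, hn, e⟩ := L.exists_p hM hw i b mu
  have h1 := L.le_p hM hn b (mu + d)
  rw [L.val_add] at h1
  rw [e]
  have h2 : d * (i - w) ≤ d * tt L.M n := mul_le_mul_of_nonneg_left (Lvl.le_tt_of_mem hn) hd
  linarith

/-- two-sided form of (p2) -/
theorem Lvl.abs_p_sub_le (L : Lvl) (hM : 1 ≤ L.M) {w : ℝ} (hw : 0 ≤ w) (i : ℕ) (b mu mu' : ℝ) :
    |L.p w i b mu' - L.p w i b mu - i * (mu' - mu)| ≤ w * |mu' - mu| := by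
  rcases le_total mu mu' with h | h
  · have hd : 0 ≤ mu' - mu := sub_nonneg.mpr h
    have h1 := L.p_add_le hM hw i b mu hd
    have h2 := L.le_p_add hM hw i b mu hd
    rw [add_sub_cancel] at h1 h2
    rw [abs_of_nonneg hd, abs_le]
    constructor <;> nlinarith
  · have hd : 0 ≤ mu - mu' := sub_nonneg.mpr h
    have h1 := L.p_add_le hM hw i b mu' hd
    have h2 := L.le_p_add hM hw i b mu' hd
    rw [add_sub_cancel] at h1 h2
    rw [abs_of_nonpos (sub_nonpos.mpr h), abs_le]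
    constructor <;> nlinarith

theorem Lvl.p_mono_w (L : Lvl) (hM : 1 ≤ L.M) {w w' : ℝ} (hw : 0 ≤ w) (hww : w ≤ w') (i : ℕ)
    (b mu : ℝ) : L.p w i b mu ≤ L.p w' i b mu := by
  obtain ⟨n, hn, e⟩ := L.exists_p hM hw i b mu
  rw [e]
  exact L.le_p hM (L.Win_mono hww i hn) b mu

end Crest.Agent.S0209.H
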