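import Crest.Agent.S0209_HDefs2
import Crest.Agent.S0209_HP
import Crest.Agent.S0209_HArith

/-!
# ROW 149, section H, package HB: the base of the induction, `Inv(1)`
-/

set_option autoImplicit false
namespace Crest.Agent.S0209.H

namespace HB

/-- closed form of `v_j` for `j ≥ 3` -/
theorem vS_closed {j : ℕ} (hj : 3 ≤ j) (s b mu : ℝ) :
    vS s j b mu = mu * j - (10 * b * j * (j - 1) + 80 * (j - 1)) + s * b * (j : ℝ) ^ 2 / 2 := by
  unfold vS gS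
  rw [hJ_of_three_le hj]
  ring

theorem vS_five (s b mu : ℝ) : vS s 5 b mu = 5 * mu - 200 * b - 320 + 12.5 * s * b := by
  rw [vS_closed (by norm_num)]; push_cast; ring

/-- far away: `j ≥ 5`. -/
theorem far {a b mu E0 s t : ℝ} {j : ℕ} (ha : 0.95 ≤ a) (ha' : a ≤ 1.05) (hb : b ∈ J)
    (hmu : mu ≤ 150) (hE0 : 0 ≤ E0) (hE0' : E0 ≤ 1e-7) (hj : 5 ≤ j) (hs : 0 ≤ s) (hs' : s < 1)
    (ht : t = j + s) :
    (1 - s) * vS a j b mu + s * vS a (j + 1) b mu + E0 * (1 + t ^ 2) ≤ vS a 4 b mu - E0 := by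
  have hb' := hb
  obtain ⟨hb1, hb2⟩ := hb'
  have hx : (5 : ℝ) ≤ j := by exact_mod_cast hj
  set x : ℝ := (j : ℝ) with hxdef
  have h0 : vS a (j + 1) b mu ≤ vS a j b mu := by
    have := vS_succ_sub_le (s := a) (b := b) (mu := mu) (by linarith) (by linarith) hb hmu
      (j := j) (by omega)
    have h4 : (0:ℝ) ≤ (j : ℝ) - 4 := by linarith
    nlinarith
  have h1 : vS a j b mu - vS a 4 b mu
      = (x - 4) * (mu - 80 - 10 * b * (x + 3) + a * b * (x + 4) / 2) := by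
    rw [vS_closed (by omega : 3 ≤ j), vS_four]; ring
  have hc : 9.38 ≤ b * (10 - a / 2) := by nlinarith
  have hd : 27.62 ≤ b * (30 - 2 * a) := by nlinarith
  have h2 : mu - 80 - 10 * b * (x + 3) + a * b * (x + 4) / 2 ≤ 42.43 - 9.38 * x := by
    have e : mu - 80 - 10 * b * (x + 3) + a * b * (x + 4) / 2
        = mu - 80 - (b * (10 - a / 2)) * x - b * (30 - 2 * a) := by ring
    rw [e]
    have : 9.38 * x ≤ (b * (10 - a / 2)) * x := mul_le_mul_of_nonneg_right hc (by linarith)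
    linarith
  have h3 : vS a j b mu - vS a 4 b mu ≤ (x - 4) * (42.43 - 9.38 * x) := by
    rw [h1]
    exact mul_le_mul_of_nonneg_left h2 (by linarith)
  have h4 : E0 * (2 + t ^ 2) ≤ 1e-7 * (2 + (x + 1) ^ 2) := by
    have ht2 : t ^ 2 ≤ (x + 1) ^ 2 := by
      rw [ht]; nlinarith
    calc E0 * (2 + t ^ 2) ≤ E0 * (2 + (x + 1) ^ 2) :=
          mul_le_mul_of_nonneg_left (by linarith) hE0
      _ ≤ 1e-7 * (2 + (x + 1) ^ 2) := mul_le_mul_of_nonneg_right hE0' (by positivity)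
  have h5 : 1e-7 * (2 + (x + 1) ^ 2) ≤ -((x - 4) * (42.43 - 9.38 * x)) := by
    nlinarith [mul_nonneg (sub_nonneg.2 hx) (sub_nonneg.2 hx)]
  have h6 : (1 - s) * vS a j b mu + s * vS a (j + 1) b mu ≤ vS a j b mu := by
    nlinarith
  nlinarith

theorem case0 {a b mu E0 s t : ℝ} (ha : 0.95 ≤ a) (ha' : a ≤ 1.05) (hb : b ∈ J)
    (hmu : 130 ≤ mu) (hmu' : mu ≤ 143) (hE0 : 0 ≤ E0) (hE0' : E0 ≤ 1e-7) (hs : 0 ≤ s) (hs' : s < 1)
    (ht : t = s) :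
    (1 - s) * vS a 0 b mu + s * vS a 1 b mu - b * a * s * (1 - s) / 2 + E0 * (1 + t ^ 2)
      ≤ Vm a b mu - E0 := by
  obtain ⟨hb1, hb2⟩ := hb
  have hs1 : 0 ≤ 1 - s := by linarith
  have hbas : 0 ≤ b * a * s * (1 - s) / 2 := by
    have hb0 : 0 ≤ b := by linarith
    have ha0 : 0 ≤ a := by linarith
    positivity
  have V2 := vS_le_Vm2 a b mu
  have hab : 0.94 ≤ a * b := by nlinarith
  have hab' : a * b ≤ 1.0605 := by nlinarith
  rw [vS_zero, vS_one]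
  rw [vS_two] at V2
  have ht2 : t ^ 2 ≤ 1 := by rw [ht]; nlinarith
  have h2 : E0 * (1 + t ^ 2) ≤ E0 * 2 := mul_le_mul_of_nonneg_left (by linarith) hE0
  have h3 : s * (mu + a * b / 2) ≤ mu + a * b / 2 := by nlinarith
  nlinarith

theorem case1 {a b mu E0 s t : ℝ} (ha : 0.95 ≤ a) (ha' : a ≤ 1.05) (hb : b ∈ J)
    (hmu : 130 ≤ mu) (hmu' : mu ≤ 143) (hE0 : 0 ≤ E0) (hE0' : E0 ≤ 1e-7) (hs : 0 ≤ s) (hs' : s < 1)
    (ht : t = 1 + s) (o : 130 * E0 < 1 - s) :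
    (1 - s) * vS a 1 b mu + s * vS a 2 b mu - b * a * s * (1 - s) / 2 + E0 * (1 + t ^ 2)
      ≤ Vm a b mu - E0 := by
  obtain ⟨hb1, hb2⟩ := hb
  have hs1 : 0 ≤ 1 - s := by linarith
  have hbas : 0 ≤ b * a * s * (1 - s) / 2 := by
    have hb0 : 0 ≤ b := by linarith
    have ha0 : 0 ≤ a := by linarith
    positivity
  have V2 := vS_le_Vm2 a b mu
  have hab : 0.94 ≤ a * b := by nlinarith
  have hab' : a * b ≤ 1.0605 := by nlinarith
  rw [vS_one, vS_two]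
  rw [vS_two] at V2
  have ht2 : t ^ 2 ≤ 4 := by rw [ht]; nlinarith
  have h2 : E0 * (1 + t ^ 2) ≤ E0 * 5 := mul_le_mul_of_nonneg_left (by linarith) hE0
  have hd : 48 ≤ (2 * mu - 81 * b + 2 * a * b) - (mu + a * b / 2) := by linarith
  have h3 : 48 * (1 - s) ≤ (1 - s) * ((2 * mu - 81 * b + 2 * a * b) - (mu + a * b / 2)) := by
    nlinarith
  nlinarith

/-- the two cases `j = 2, 3`: between two of the three good values -/
theorem case23 {a b E0 s t v v' V : ℝ} (ha : 0.95 ≤ a) (hb : b ∈ J)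
    (hE0 : 0 ≤ E0) (hE0' : E0 ≤ 1e-7) (hs : 0 ≤ s) (hs' : s < 1)
    (ht2 : t ^ 2 ≤ 16) (oa : 130 * E0 < s) (ob : 130 * E0 < 1 - s) (hv : v ≤ V) (hv' : v' ≤ V) :
    (1 - s) * v + s * v' - b * a * s * (1 - s) / 2 + E0 * (1 + t ^ 2) ≤ V - E0 := by
  obtain ⟨hb1, hb2⟩ := hb
  have hs1 : 0 ≤ 1 - s := by linarith
  have hab : 0.94 ≤ b * a := by nlinarith
  have h2 : E0 * (1 + t ^ 2) ≤ E0 * 17 := mul_le_mul_of_nonneg_left (by linarith) hE0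
  have hss : 130 * E0 * (1 - 130 * E0) ≤ s * (1 - s) := by nlinarith
  have hss' : 128 * E0 ≤ 130 * E0 * (1 - 130 * E0) := by nlinarith
  have h1 : (1 - s) * v + s * v' ≤ V := by nlinarith
  have h3 : 0.47 * (s * (1 - s)) ≤ b * a * s * (1 - s) / 2 := by
    have := mul_le_mul_of_nonneg_right hab (mul_nonneg hs hs1)
    nlinarith
  linarith

theorem case4 {a b mu E0 s t : ℝ} (ha : 0.95 ≤ a) (ha' : a ≤ 1.05) (hb : b ∈ J)
    (hmu : 130 ≤ mu) (hmu' : mu ≤ 143) (hE0 : 0 ≤ E0) (hE0' : E0 ≤ 1e-7) (hs : 0 ≤ s) (hs' : s < 1)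
    (ht : t = 4 + s) (oa : 130 * E0 < s) :
    (1 - s) * vS a 4 b mu + s * vS a 5 b mu - b * a * s * (1 - s) / 2 + E0 * (1 + t ^ 2)
      ≤ Vm a b mu - E0 := by
  obtain ⟨hb1, hb2⟩ := hb
  have hs1 : 0 ≤ 1 - s := by linarith
  have hbas : 0 ≤ b * a * s * (1 - s) / 2 := by
    have hb0 : 0 ≤ b := by linarith
    have ha0 : 0 ≤ a := by linarith
    positivity
  have V4 := vS_le_Vm4 a b mu
  have hab : 0.94 ≤ a * b := by nlinarith
  have hab' : a * b ≤ 1.0605 := by nlinarith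
  have ht2 : t ^ 2 ≤ 25 := by rw [ht]; nlinarith
  have h2 : E0 * (1 + t ^ 2) ≤ E0 * 26 := mul_le_mul_of_nonneg_left (by linarith) hE0
  have hd : 11 ≤ vS a 4 b mu - vS a 5 b mu := by
    rw [vS_four, vS_five]; linarith
  have h3 : 11 * s ≤ s * (vS a 4 b mu - vS a 5 b mu) := by nlinarith
  nlinarith

end HB

section
variable (L : Lvl) (ph : ℝ → ℕ → ℝ) (a E0 : ℝ)

namespace HB

/-- the inequality `(*)` of the blueprint -/
theorem star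
    (hpsi : ∀ (b : ℝ) (n : ℕ), L.ψ b n = ph b n - b * a * tt L.M n ^ 2 / 2)
    (hBm : ∀ b ∈ J, ∀ n : ℕ,
      (1 - (tt L.M n - ⌊tt L.M n⌋₊)) * hJ ⌊tt L.M n⌋₊ b
        + (tt L.M n - ⌊tt L.M n⌋₊) * hJ (⌊tt L.M n⌋₊ + 1) b - E0 * (1 + tt L.M n ^ 2) ≤ ph b n)
    {b : ℝ} (hb : b ∈ J) (mu : ℝ) (n : ℕ) :
    ∃ (j : ℕ) (s : ℝ), 0 ≤ s ∧ s < 1 ∧ tt L.M n = j + s ∧
      L.val b mu n ≤ (1 - s) * vS a j b mu + s * vS a (j + 1) b mu - b * a * s * (1 - s) / 2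
        + E0 * (1 + tt L.M n ^ 2) := by
  have h := hBm b hb n
  set t := tt L.M n with ht
  have ht0 : 0 ≤ t := tt_nonneg _ _
  refine ⟨⌊t⌋₊, t - ⌊t⌋₊, ?_, ?_, by ring, ?_⟩
  · have := Nat.floor_le ht0; linarith
  · have := Nat.lt_floor_add_one t; linarith
  · unfold Lvl.val
    rw [hpsi, ← ht]
    unfold vS gS
    set j : ℝ := (⌊t⌋₊ : ℝ) with hj
    set s := t - j with hs
    have e : t = j + s := by rw [hs]; ring
    push_cast
    rw [← hj]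
    generalize hJ ⌊t⌋₊ b = A at *
    generalize hJ (⌊t⌋₊ + 1) b = B at *
    have key : (1 - s) * (mu * j - (A - a * b * j ^ 2 / 2))
        + s * (mu * (j + 1) - (B - a * b * (j + 1) ^ 2 / 2)) - b * a * s * (1 - s) / 2
        = mu * t + b * a * t ^ 2 / 2 - ((1 - s) * A + s * B) := by
      rw [e]; ring
    linarith

/-- `ψ(b, i M) ≤ g_i + E0` -/
theorem psi_center (hM : 1 ≤ L.M)
    (hpsi : ∀ (b : ℝ) (n : ℕ), L.ψ b n = ph b n - b * a * tt L.M n ^ 2 / 2)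
    (hBp : ∀ b ∈ J, ∀ i : ℕ, 2 ≤ i → i ≤ 4 → ph b (i * L.M) ≤ hJ i b + E0)
    {b : ℝ} (hb : b ∈ J) {i : ℕ} (h2 : 2 ≤ i) (h4 : i ≤ 4) :
    L.ψ b (i * L.M) ≤ gS a i b + E0 := by
  have := hBp b hb i h2 h4
  rw [hpsi, tt_mul _ _ hM]
  unfold gS
  linarith

/-- `v_i - E0 ≤ p_i` -/
theorem v_le_p (hM : 1 ≤ L.M)
    (hpsi : ∀ (b : ℝ) (n : ℕ), L.ψ b n = ph b n - b * a * tt L.M n ^ 2 / 2)
    (hBp : ∀ b ∈ J, ∀ i : ℕ, 2 ≤ i → i ≤ 4 → ph b (i * L.M) ≤ hJ i b + E0)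
    {w : ℝ} (hw : 0 ≤ w)
    {b : ℝ} (hb : b ∈ J) {i : ℕ} (h2 : 2 ≤ i) (h4 : i ≤ 4) (mu : ℝ) :
    vS a i b mu - E0 ≤ L.p w i b mu := by
  have h := psi_center L ph a E0 hM hpsi hBp hb h2 h4
  have h' := L.le_p hM (L.center_mem_Win hM hw i) b mu
  unfold Lvl.val at h'
  rw [tt_mul _ _ hM] at h'
  unfold vS
  linarith

theorem Vm_le_Pk (hM : 1 ≤ L.M)
    (hpsi : ∀ (b : ℝ) (n : ℕ), L.ψ b n = ph b n - b * a * tt L.M n ^ 2 / 2)
    (hBp : ∀ b ∈ J, ∀ i : ℕ, 2 ≤ i → i ≤ 4 → ph b (i * L.M) ≤ hJ i b + E0)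
    {w : ℝ} (hw : 0 ≤ w) {b : ℝ} (hb : b ∈ J) (mu : ℝ) :
    Vm a b mu - E0 ≤ L.Pk w b mu := by
  have h2 := v_le_p L ph a E0 hM hpsi hBp hw hb (le_refl 2) (by norm_num) mu
  have h3 := v_le_p L ph a E0 hM hpsi hBp hw hb (by norm_num : 2 ≤ 3) (by norm_num) mu
  have h4 := v_le_p L ph a E0 hM hpsi hBp hw hb (by norm_num : 2 ≤ 4) (le_refl 4) mu
  have k2 := L.p_le_Pk w b mu (le_refl 2) (by norm_num)
  have k3 := L.p_le_Pk w b mu (by norm_num : 2 ≤ 3) (by norm_num)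
  have k4 := L.p_le_Pk w b mu (by norm_num : 2 ≤ 4) (le_refl 4)
  have : Vm a b mu ≤ L.Pk w b mu + E0 := by
    rw [Vm_le_iff]
    refine ⟨?_, ?_, ?_⟩ <;> linarith
  linarith

theorem k1
    (hpsi : ∀ (b : ℝ) (n : ℕ), L.ψ b n = ph b n - b * a * tt L.M n ^ 2 / 2)
    (ha : 0.95 ≤ a) (ha' : a ≤ 1.05) (hE0 : 0 ≤ E0) (hE0' : E0 ≤ 1e-7)
    (hBm : ∀ b ∈ J, ∀ n : ℕ,
      (1 - (tt L.M n - ⌊tt L.M n⌋₊)) * hJ ⌊tt L.M n⌋₊ b
        + (tt L.M n - ⌊tt L.M n⌋₊) * hJ (⌊tt L.M n⌋₊ + 1) b - E0 * (1 + tt L.M n ^ 2) ≤ ph b n)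
    {b : ℝ} (hb : b ∈ J) {mu : ℝ} (hmu : 125 ≤ mu) (hmu' : mu ≤ 150) (n : ℕ) :
    L.val b mu n ≤ Vm a b mu + 40 * E0 := by
  obtain ⟨j, s, hs, hs', ht, h⟩ := star L ph a E0 hpsi hBm hb mu n
  have hb' := hb
  obtain ⟨hb1, hb2⟩ := hb'
  have hbas : 0 ≤ b * a * s * (1 - s) / 2 := by
    have : 0 ≤ 1 - s := by linarith
    have hb0 : 0 ≤ b := by linarith
    have ha0 : 0 ≤ a := by linarith
    positivity
  rcases le_or_gt 5 j with hj | hj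
  · have := far ha ha' hb hmu' hE0 hE0' hj hs hs' ht
    have h4 := vS_le_Vm4 a b mu
    linarith
  · have v1 := vS_le_Vm (s := a) (by linarith) (by linarith) hb hmu hmu' j
    have v2 := vS_le_Vm (s := a) (by linarith) (by linarith) hb hmu hmu' (j + 1)
    have hjr : (j : ℝ) ≤ 4 := by exact_mod_cast (by omega : j ≤ 4)
    have hj0 : (0 : ℝ) ≤ j := Nat.cast_nonneg _
    have ht2 : tt L.M n ^ 2 ≤ 25 := by rw [ht]; nlinarith
    have h1 : (1 - s) * vS a j b mu + s * vS a (j + 1) b mu ≤ Vm a b mu := by nlinarith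
    have h2 : E0 * (1 + tt L.M n ^ 2) ≤ E0 * 26 := mul_le_mul_of_nonneg_left (by linarith) hE0
    linarith

theorem h1 (hM : 1 ≤ L.M)
    (hpsi : ∀ (b : ℝ) (n : ℕ), L.ψ b n = ph b n - b * a * tt L.M n ^ 2 / 2)
    (ha : 0.95 ≤ a) (ha' : a ≤ 1.05) (hE0 : 0 ≤ E0) (hE0' : E0 ≤ 1e-7)
    (hBm : ∀ b ∈ J, ∀ n : ℕ,
      (1 - (tt L.M n - ⌊tt L.M n⌋₊)) * hJ ⌊tt L.M n⌋₊ b
        + (tt L.M n - ⌊tt L.M n⌋₊) * hJ (⌊tt L.M n⌋₊ + 1) b - E0 * (1 + tt L.M n ^ 2) ≤ ph b n)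
    (hBp : ∀ b ∈ J, ∀ i : ℕ, 2 ≤ i → i ≤ 4 → ph b (i * L.M) ≤ hJ i b + E0)
    {b : ℝ} (hb : b ∈ J) {mu : ℝ} (hmu : 130 ≤ mu) (hmu' : mu ≤ 143) (n : ℕ) :
    L.val b mu n ≤ L.Pk (130 * E0) b mu := by
  have hw : 0 ≤ 130 * E0 := by linarith
  have hPk := Vm_le_Pk L ph a E0 hM hpsi hBp hw hb mu
  -- inside a window: trivial
  by_cases hin : ∃ i : ℕ, 2 ≤ i ∧ i ≤ 4 ∧ n ∈ L.Win (130 * E0) i
  · obtain ⟨i, h2, h4, hn⟩ := hin
    exact (L.le_p hM hn b mu).trans (L.p_le_Pk _ b mu h2 h4)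
  have hout : ∀ i : ℕ, 2 ≤ i → i ≤ 4 → 130 * E0 < |tt L.M n - i| := by
    intro i h2 h4
    by_contra hc
    exact hin ⟨i, h2, h4, Lvl.mem_Win.mpr (not_lt.mp hc)⟩
  suffices hh : L.val b mu n ≤ Vm a b mu - E0 by linarith
  obtain ⟨j, s, hs, hs', ht, h⟩ := star L ph a E0 hpsi hBm hb mu n
  have hb' := hb
  obtain ⟨hb1, hb2⟩ := hb'
  have hs1 : 0 ≤ 1 - s := by linarith
  have hbas : 0 ≤ b * a * s * (1 - s) / 2 := by
    have hb0 : 0 ≤ b := by linarith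
    have ha0 : 0 ≤ a := by linarith
    positivity
  have V2 := vS_le_Vm2 a b mu
  have V3 := vS_le_Vm3 a b mu
  have V4 := vS_le_Vm4 a b mu
  have o2 := hout 2 (le_refl 2) (by norm_num)
  have o3 := hout 3 (by norm_num) (by norm_num)
  have o4 := hout 4 (by norm_num) (le_refl 4)
  rw [ht] at o2 o3 o4
  simp only [Nat.cast_ofNat] at o2 o3 o4
  rcases le_or_gt 5 j with hj | hj
  · have := far ha ha' hb (by linarith : mu ≤ 150) hE0 hE0' hj hs hs' ht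
    linarith
  · interval_cases j
    · -- j = 0
      have := case0 ha ha' hb hmu hmu' hE0 hE0' hs hs' (t := tt L.M n) (by rw [ht]; simp)
      exact h.trans this
    · -- j = 1
      have o : 130 * E0 < 1 - s := by
        have : |((1 : ℕ) : ℝ) + s - 2| = 1 - s := by
          rw [abs_of_nonpos (by push_cast; linarith)]; push_cast; ring
        rw [this] at o2; exact o2
      have := case1 ha ha' hb hmu hmu' hE0 hE0' hs hs' (t := tt L.M n) (by rw [ht]; simp) o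
      exact h.trans this
    · -- j = 2
      have oa : 130 * E0 < s := by
        have : |((2 : ℕ) : ℝ) + s - 2| = s := by
          rw [abs_of_nonneg (by push_cast; linarith)]; push_cast; ring
        rw [this] at o2; exact o2
      have ob : 130 * E0 < 1 - s := by
        have : |((2 : ℕ) : ℝ) + s - 3| = 1 - s := by
          rw [abs_of_nonpos (by push_cast; linarith)]; push_cast; ring
        rw [this] at o3; exact o3
      have ht2 : tt L.M n ^ 2 ≤ 16 := by rw [ht]; push_cast; nlinarith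
      exact h.trans (case23 ha hb hE0 hE0' hs hs' ht2 oa ob V2 V3)
    · -- j = 3
      have oa : 130 * E0 < s := by
        have : |((3 : ℕ) : ℝ) + s - 3| = s := by
          rw [abs_of_nonneg (by push_cast; linarith)]; push_cast; ring
        rw [this] at o3; exact o3
      have ob : 130 * E0 < 1 - s := by
        have : |((3 : ℕ) : ℝ) + s - 4| = 1 - s := by
          rw [abs_of_nonpos (by push_cast; linarith)]; push_cast; ring
        rw [this] at o4; exact o4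
      have ht2 : tt L.M n ^ 2 ≤ 16 := by rw [ht]; push_cast; nlinarith
      exact h.trans (case23 ha hb hE0 hE0' hs hs' ht2 oa ob V3 V4)
    · -- j = 4
      have oa : 130 * E0 < s := by
        have : |((4 : ℕ) : ℝ) + s - 4| = s := by
          rw [abs_of_nonneg (by push_cast; linarith)]; push_cast; ring
        rw [this] at o4; exact o4
      have := case4 ha ha' hb hmu hmu' hE0 hE0' hs hs' (t := tt L.M n) (by rw [ht]; simp) oa
      exact h.trans this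

theorem p3_le (hM : 1 ≤ L.M)
    (hpsi : ∀ (b : ℝ) (n : ℕ), L.ψ b n = ph b n - b * a * tt L.M n ^ 2 / 2)
    (ha : 0.95 ≤ a) (ha' : a ≤ 1.05) (hE0 : 0 ≤ E0) (hE0' : E0 ≤ 1e-7)
    (hBm : ∀ b ∈ J, ∀ n : ℕ,
      (1 - (tt L.M n - ⌊tt L.M n⌋₊)) * hJ ⌊tt L.M n⌋₊ b
        + (tt L.M n - ⌊tt L.M n⌋₊) * hJ (⌊tt L.M n⌋₊ + 1) b - E0 * (1 + tt L.M n ^ 2) ≤ ph b n)
    {b : ℝ} (hb : b ∈ J) {mu : ℝ} (hmu : 130 ≤ mu) (hmu' : mu ≤ 143) :
    L.p (130 * E0) 3 b mu ≤ vS a 3 b mu + 1001 * E0 := by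
  have hw : 0 ≤ 130 * E0 := by linarith
  refine L.p_le hM hw ?_
  intro n hn
  obtain ⟨j, s, hs, hs', ht, h⟩ := star L ph a E0 hpsi hBm hb mu n
  have hlo := Lvl.le_tt_of_mem hn
  have hhi := Lvl.tt_le_of_mem hn
  rw [ht] at hlo hhi
  push_cast at hlo hhi
  have m23 := mu23_mem (s := a) (by linarith) (by linarith) hb
  have m34 := mu34_mem (s := a) (by linarith) (by linarith) hb
  have e32 := vS_three_sub_two a b mu
  have e43 := vS_four_sub_three a b mu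
  have hb' := hb
  obtain ⟨hb1, hb2⟩ := hb'
  have hs1 : 0 ≤ 1 - s := by linarith
  have hbas : 0 ≤ b * a * s * (1 - s) / 2 := by
    have hb0 : 0 ≤ b := by linarith
    have ha0 : 0 ≤ a := by linarith
    positivity
  have hj3 : j ≤ 3 := by
    have : (j : ℝ) < 4 := by linarith
    have : j < 4 := by exact_mod_cast this
    omega
  have hj2 : 2 ≤ j := by
    have : (1 : ℝ) < j := by linarith
    have : 1 < j := by exact_mod_cast this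
    omega
  have ht2 : tt L.M n ^ 2 ≤ 16 := by
    have hjr : (j : ℝ) ≤ 3 := by exact_mod_cast hj3
    have hj0 : (0 : ℝ) ≤ j := Nat.cast_nonneg _
    rw [ht]; nlinarith
  have h2 : E0 * (1 + tt L.M n ^ 2) ≤ E0 * 17 := mul_le_mul_of_nonneg_left (by linarith) hE0
  interval_cases j
  · -- j = 2
    push_cast at hlo
    have h1s : 1 - s ≤ 130 * E0 := by linarith
    have h3 : (1 - s) * (vS a 2 b mu - vS a 3 b mu) ≤ (130 * E0) * 7.5 := by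
      have hd : vS a 2 b mu - vS a 3 b mu ≤ 7.5 := by linarith [m23.2]
      calc (1 - s) * (vS a 2 b mu - vS a 3 b mu) ≤ (1 - s) * 7.5 :=
            mul_le_mul_of_nonneg_left hd hs1
        _ ≤ (130 * E0) * 7.5 := mul_le_mul_of_nonneg_right h1s (by norm_num)
    have h' : L.val b mu n ≤ (1 - s) * vS a 2 b mu + s * vS a 3 b mu - b * a * s * (1 - s) / 2
        + E0 * (1 + tt L.M n ^ 2) := h
    nlinarith
  · -- j = 3
    push_cast at hhi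
    have h1s : s ≤ 130 * E0 := by linarith
    have h3 : s * (vS a 4 b mu - vS a 3 b mu) ≤ (130 * E0) * 7.5 := by
      have hd : vS a 4 b mu - vS a 3 b mu ≤ 7.5 := by linarith [m34.1]
      calc s * (vS a 4 b mu - vS a 3 b mu) ≤ s * 7.5 :=
            mul_le_mul_of_nonneg_left hd hs
        _ ≤ (130 * E0) * 7.5 := mul_le_mul_of_nonneg_right h1s (by norm_num)
    have h' : L.val b mu n ≤ (1 - s) * vS a 3 b mu + s * vS a 4 b mu - b * a * s * (1 - s) / 2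
        + E0 * (1 + tt L.M n ^ 2) := h
    nlinarith

theorem ll (hM : 1 ≤ L.M)
    (hpsi : ∀ (b : ℝ) (n : ℕ), L.ψ b n = ph b n - b * a * tt L.M n ^ 2 / 2)
    (hc : ∀ n : ℕ, ConcaveOn ℝ J (fun b => L.ψ b n))
    (ha : 0.95 ≤ a) (ha' : a ≤ 1.05) (hE0 : 0 ≤ E0) (hE0' : E0 ≤ 1e-7)
    (hBm : ∀ b ∈ J, ∀ n : ℕ,
      (1 - (tt L.M n - ⌊tt L.M n⌋₊)) * hJ ⌊tt L.M n⌋₊ b
        + (tt L.M n - ⌊tt L.M n⌋₊) * hJ (⌊tt L.M n⌋₊ + 1) b - E0 * (1 + tt L.M n ^ 2) ≤ ph b n)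
    (hBp : ∀ b ∈ J, ∀ i : ℕ, 2 ≤ i → i ≤ 4 → ph b (i * L.M) ≤ hJ i b + E0)
    {b : ℝ} (hb : b ∈ J') {mu : ℝ} (hmu : 130 ≤ mu) (hmu' : mu ≤ 143) {h : ℝ} (hh : 0 ≤ h)
    (hh' : h ≤ 0.005) :
    L.p (130 * E0) 3 (b - h) mu ≤ L.p (130 * E0) 3 b mu + (60 - 4.5 * a + 2.1e5 * E0) * h := by
  have hw : 0 ≤ 130 * E0 := by linarith
  obtain ⟨hb1, hb2⟩ := hb
  have hbJ : b ∈ J := ⟨by linarith, by linarith⟩
  have hbJ' : b - 0.005 ∈ J := ⟨by linarith, by linarith⟩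
  have hup := p3_le L ph a E0 hM hpsi ha ha' hE0 hE0' hBm hbJ' hmu hmu'
  have hlo := v_le_p L ph a E0 hM hpsi hBp hw hbJ (by norm_num : 2 ≤ 3) (by norm_num) mu
  rw [vS_three] at hup hlo
  have hend : L.p (130 * E0) 3 (b - 0.005) mu
      ≤ L.p (130 * E0) 3 b mu + (60 - 4.5 * a + 2.1e5 * E0) * 0.005 := by
    nlinarith
  have hα : (0 : ℝ) ≤ 1 - h / 0.005 := by
    rw [sub_nonneg, div_le_one (by norm_num)]; exact hh'
  have hβ : (0 : ℝ) ≤ h / 0.005 := by positivity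
  have hαβ : (1 - h / 0.005) + h / 0.005 = (1 : ℝ) := by ring
  have hcv := (L.p_convex hM hc hw 3 mu).2 hbJ hbJ' hα hβ hαβ
  simp only [smul_eq_mul] at hcv
  have e : (1 - h / 0.005) * b + h / 0.005 * (b - 0.005) = b - h := by
    field_simp; ring
  rw [e] at hcv
  have hq : 0 ≤ h / 0.005 := by positivity
  have h3 : h / 0.005 * L.p (130 * E0) 3 (b - 0.005) mu
      ≤ h / 0.005 * (L.p (130 * E0) 3 b mu + (60 - 4.5 * a + 2.1e5 * E0) * 0.005) :=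
    mul_le_mul_of_nonneg_left hend hq
  have e2 : h / 0.005 * ((60 - 4.5 * a + 2.1e5 * E0) * 0.005) = (60 - 4.5 * a + 2.1e5 * E0) * h := by
    field_simp
  nlinarith

end HB

theorem base_inv (hM : 1 ≤ L.M)
    (hpsi : ∀ (b : ℝ) (n : ℕ), L.ψ b n = ph b n - b * a * tt L.M n ^ 2 / 2)
    (hc : ∀ n : ℕ, ConcaveOn ℝ J (fun b => L.ψ b n))
    (ha : |a - 1| ≤ 0.05) (hE0 : 0 ≤ E0) (hE0' : E0 ≤ 1e-7)
    (hBm : ∀ b ∈ J, ∀ n : ℕ,
      (1 - (tt L.M n - ⌊tt L.M n⌋₊)) * hJ ⌊tt L.M n⌋₊ b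
        + (tt L.M n - ⌊tt L.M n⌋₊) * hJ (⌊tt L.M n⌋₊ + 1) b - E0 * (1 + tt L.M n ^ 2) ≤ ph b n)
    (hBp : ∀ b ∈ J, ∀ i : ℕ, 2 ≤ i → i ≤ 4 → ph b (i * L.M) ≤ hJ i b + E0) :
    Inv L (Prm.base a E0) := by
  obtain ⟨ha1, ha2⟩ := abs_le.mp ha
  have ha1' : 0.95 ≤ a := by linarith
  have ha2' : a ≤ 1.05 := by linarith
  refine ⟨?_, ?_, ?_, ?_⟩
  · intro b hb mu hmu hmu' n
    exact HB.k1 L ph a E0 hpsi ha1' ha2' hE0 hE0' hBm hb hmu hmu' n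
  · intro b hb i h2 h4
    have := HB.psi_center L ph a E0 hM hpsi hBp hb h2 h4
    show L.ψ b (i * L.M) ≤ gS a i b + 40 * E0
    linarith
  · intro b hb mu hmu hmu' n
    exact HB.h1 L ph a E0 hM hpsi ha1' ha2' hE0 hE0' hBm hBp hb hmu hmu' n
  · intro b hb mu hmu hmu' _ _ h hh hh'
    exact HB.ll L ph a E0 hM hpsi hc ha1' ha2' hE0 hE0' hBm hBp hb hmu hmu' hh hh'

end

end Crest.Agent.S0209.H
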