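import Crest.Agent.S0209_HP

/-!
# ROW 149, section H, package HC : crude closeness (c2)(c3)(c4)(cL)(cT)

Consequences of (K1), (K2).  Private arithmetic helpers live in `Crest.Agent.S0209.H.HC`
(so that this file only depends on `S0209_HDefs` and `S0209_HP`).
-/

set_option autoImplicit false
namespace Crest.Agent.S0209.H

namespace HC

theorem vS2 (s b mu : ℝ) : vS s 2 b mu = 2 * mu - 81 * b + 2 * s * b := by
  simp only [vS, gS, hJ]; norm_num; ring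

theorem vS3 (s b mu : ℝ) : vS s 3 b mu = 3 * mu - 60 * b - 160 + 4.5 * s * b := by
  simp only [vS, gS, hJ]; norm_num; ring

theorem vS4 (s b mu : ℝ) : vS s 4 b mu = 4 * mu - 120 * b - 240 + 8 * s * b := by
  simp only [vS, gS, hJ]; norm_num; ring

/-- bounds for the product `s * b`. -/
theorem sb_bounds {s b : ℝ} (hs : 0.94 ≤ s) (hs' : s ≤ 1.06) (hb : b ∈ J) :
    0.9306 ≤ s * b ∧ s * b ≤ 1.0706 := by
  obtain ⟨h1, h2⟩ := hb
  constructor <;> nlinarith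

theorem val_shift (L : Lvl) (b mu mu' : ℝ) (n : ℕ) :
    L.val b mu n = L.val b mu' n + (mu - mu') * tt L.M n := by
  unfold Lvl.val; ring

theorem Vm_130 {s b : ℝ} (hs : 0.94 ≤ s) (hs' : s ≤ 1.06) (hb : b ∈ J) :
    Vm s b 130 = vS s 2 b 130 := by
  obtain ⟨h3, h4⟩ := sb_bounds hs hs' hb
  obtain ⟨h1, h2⟩ := hb
  unfold Vm
  rw [vS2, vS3, vS4]
  apply max_eq_left
  apply max_le <;> nlinarith

theorem Vm_143 {s b : ℝ} (hs : 0.94 ≤ s) (hs' : s ≤ 1.06) (hb : b ∈ J) :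
    Vm s b 143 = vS s 4 b 143 := by
  obtain ⟨h3, h4⟩ := sb_bounds hs hs' hb
  obtain ⟨h1, h2⟩ := hb
  unfold Vm
  rw [vS2, vS3, vS4]
  rw [max_eq_right, max_eq_right]
  · nlinarith
  · apply le_max_of_le_right; nlinarith

theorem Vm_mid (s b : ℝ) :
    Vm s b ((mu23 s b + mu34 s b) / 2)
      = vS s 3 b ((mu23 s b + mu34 s b) / 2) + max 0 (-D3 s b / 2) := by
  unfold Vm
  rw [vS2, vS3, vS4]
  unfold mu23 mu34 D3
  rcases le_total 0 ((81 - s) * b - 80) with h | h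
  · rw [max_eq_left (by linarith : -((81 - s) * b - 80) / 2 ≤ 0)]
    rw [max_eq_right, max_eq_left] <;> [skip; nlinarith; (apply le_max_of_le_left; nlinarith)]
    ring
  · rw [max_eq_right (by linarith : 0 ≤ -((81 - s) * b - 80) / 2)]
    rw [max_eq_left]
    · ring
    · apply max_le <;> nlinarith

theorem mid_mem {s b : ℝ} (hs : 0.94 ≤ s) (hs' : s ≤ 1.06) (hb : b ∈ J) :
    135.5 ≤ (mu23 s b + mu34 s b) / 2 ∧ (mu23 s b + mu34 s b) / 2 ≤ 137.5 := by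
  obtain ⟨h3, h4⟩ := sb_bounds hs hs' hb
  obtain ⟨h1, h2⟩ := hb
  unfold mu23 mu34
  constructor <;> nlinarith

theorem Vm_le {s b mu : ℝ} (hs : 0.94 ≤ s) (hs' : s ≤ 1.06) (hb : b ∈ J) (h2 : mu ≤ 150) :
    Vm s b mu ≤ 251 := by
  obtain ⟨h3, h4⟩ := sb_bounds hs hs' hb
  obtain ⟨h1, h2'⟩ := hb
  unfold Vm
  rw [vS2, vS3, vS4]
  refine max_le ?_ (max_le ?_ ?_) <;> nlinarith

theorem vS2_ge {s b mu : ℝ} (hs : 0.94 ≤ s) (hs' : s ≤ 1.06) (hb : b ∈ J) (h1 : 130 ≤ mu) :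
    179 ≤ vS s 2 b mu := by
  obtain ⟨h3, h4⟩ := sb_bounds hs hs' hb
  obtain ⟨h1', h2'⟩ := hb
  rw [vS2]; nlinarith

/-- oscillation: `Vm(b,μ) - v_i(b',μ) ≤ 17` on `J × J × [130,143]`. -/
theorem Vm_sub_vS_le {s b b' mu : ℝ} (hs : 0.94 ≤ s) (hs' : s ≤ 1.06) (hb : b ∈ J) (hb' : b' ∈ J)
    (hmu : 130 ≤ mu) (hmu' : mu ≤ 143) {i : ℕ} (hi2 : 2 ≤ i) (hi4 : i ≤ 4) :
    Vm s b mu - vS s i b' mu ≤ 17 := by
  obtain ⟨h3, h4⟩ := sb_bounds hs hs' hb
  obtain ⟨h5, h6⟩ := sb_bounds hs hs' hb'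
  obtain ⟨h1, h2⟩ := hb
  obtain ⟨h1', h2'⟩ := hb'
  have key : ∀ c : ℝ, vS s 2 b mu ≤ c → vS s 3 b mu ≤ c → vS s 4 b mu ≤ c → Vm s b mu ≤ c :=
    fun c a1 a2 a3 => max_le a1 (max_le a2 a3)
  rw [sub_le_iff_le_add]
  apply key <;> interval_cases i <;> simp only [vS2, vS3, vS4] <;> nlinarith

/-- A convex function on `[α, β]` with oscillation at most `Ω` is `Ω/δ`-Lipschitz on
`[α+δ, β-δ]`. -/
theorem lip_of_convex {f : ℝ → ℝ} {α β δ Ω : ℝ} (hf : ConvexOn ℝ (Set.Icc α β) f) (hδ : 0 < δ)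
    (hosc : ∀ x ∈ Set.Icc α β, ∀ y ∈ Set.Icc α β, f x - f y ≤ Ω)
    {x y : ℝ} (hx : x ∈ Set.Icc (α + δ) (β - δ)) (hy : y ∈ Set.Icc (α + δ) (β - δ)) :
    |f x - f y| ≤ Ω / δ * |x - y| := by
  have hΩ : 0 ≤ Ω := by
    have hxm : x ∈ Set.Icc α β := ⟨by linarith [hx.1], by linarith [hx.2]⟩
    simpa using hosc x hxm x hxm
  -- one-sided statement for `x < y`
  have main : ∀ {x y : ℝ}, x ∈ Set.Icc (α + δ) (β - δ) → y ∈ Set.Icc (α + δ) (β - δ) → x < y →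
      |f x - f y| ≤ Ω / δ * |x - y| := by
    intro x y hx hy hxy
    have hxm : x ∈ Set.Icc α β := ⟨by linarith [hx.1], by linarith [hx.2]⟩
    have hym : y ∈ Set.Icc α β := ⟨by linarith [hy.1], by linarith [hy.2]⟩
    have hαβ : α ≤ β := hxm.1.trans hxm.2
    have hαm : α ∈ Set.Icc α β := ⟨le_refl _, hαβ⟩
    have hβm : β ∈ Set.Icc α β := ⟨hαβ, le_refl _⟩
    have hαx : α < x := by linarith [hx.1]
    have hyβ : y < β := by linarith [hy.2]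
    have s1 := hf.slope_mono_adjacent hαm hym hαx hxy
    have s2 := hf.slope_mono_adjacent hxm hβm hxy hyβ
    have hd : 0 < y - x := sub_pos.mpr hxy
    -- upper bound of the slope
    have u1 : (f β - f y) / (β - y) ≤ Ω / δ := by
      have a1 : f β - f y ≤ Ω := hosc β hβm y hym
      have a2 : δ ≤ β - y := by linarith [hy.2]
      calc (f β - f y) / (β - y) ≤ Ω / (β - y) := by
            apply div_le_div_of_nonneg_right a1; linarith
        _ ≤ Ω / δ := div_le_div_of_nonneg_left hΩ hδ a2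
    have l1 : -(Ω / δ) ≤ (f x - f α) / (x - α) := by
      have a1 : f α - f x ≤ Ω := hosc α hαm x hxm
      have a2 : δ ≤ x - α := by linarith [hx.1]
      have : (f α - f x) / (x - α) ≤ Ω / δ := by
        calc (f α - f x) / (x - α) ≤ Ω / (x - α) := by
              apply div_le_div_of_nonneg_right a1; linarith
          _ ≤ Ω / δ := div_le_div_of_nonneg_left hΩ hδ a2
      have e : (f x - f α) / (x - α) = -((f α - f x) / (x - α)) := by ring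
      rw [e]; linarith
    have hs_hi : (f y - f x) / (y - x) ≤ Ω / δ := s2.trans u1
    have hs_lo : -(Ω / δ) ≤ (f y - f x) / (y - x) := l1.trans s1
    rw [div_le_iff₀ hd] at hs_hi
    rw [le_div_iff₀ hd] at hs_lo
    have e2 : |x - y| = y - x := by rw [abs_sub_comm]; exact abs_of_pos hd
    rw [e2, abs_le]
    constructor <;> linarith
  rcases lt_trichotomy x y with h | h | h
  · exact main hx hy h
  · subst h; simp
  · rw [abs_sub_comm (f x), abs_sub_comm x]; exact main hy hx h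

end HC

/-! ## HC : crude closeness (consequences of (K1), (K2)) -/

theorem v_le_p {L : Lvl} {q : Prm} (hP : Par L q) (h2 : K2 L q) {b : ℝ} (hb : b ∈ J) {i : ℕ}
    (hi2 : 2 ≤ i) (hi4 : i ≤ 4) (mu : ℝ) : vS q.s i b mu - q.eps ≤ L.p q.w i b mu := by
  have h := L.le_p hP.M_pos (L.center_mem_Win hP.M_pos hP.w_nonneg i) b mu
  have h' := h2 b hb i hi2 hi4
  unfold Lvl.val at h
  rw [tt_mul _ _ hP.M_pos] at h
  unfold vS
  linarith

theorem p_le_Vm {L : Lvl} {q : Prm} (hP : Par L q) (h1 : K1 L q) {b : ℝ} (hb : b ∈ J) (i : ℕ)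
    {mu : ℝ} (hmu : 125 ≤ mu) (hmu' : mu ≤ q.hi) : L.p q.w i b mu ≤ Vm q.s b mu + q.eps :=
  L.p_le hP.M_pos hP.w_nonneg (fun n _ => h1 b hb mu hmu hmu' n)

theorem c2 {L : Lvl} {q : Prm} (hP : Par L q) (h1 : K1 L q) {b : ℝ} (hb : b ∈ J) {mu : ℝ}
    (hmu : 130 ≤ mu) (hmu' : mu ≤ 143) : L.p q.w 2 b mu ≤ vS q.s 2 b mu + 13 * q.w + q.eps := by
  refine L.p_le hP.M_pos hP.w_nonneg (fun n hn => ?_)
  have hk := h1 b hb 130 (by norm_num) (by linarith [hP.hi_lo]) n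
  rw [HC.Vm_130 hP.s_lo hP.s_hi hb] at hk
  rw [HC.val_shift L b mu 130 n]
  have ht := Lvl.tt_le_of_mem hn
  have hw := hP.w_nonneg
  push_cast at ht
  rw [HC.vS2] at hk ⊢
  have : (mu - 130) * (tt L.M n - 2) ≤ 13 * q.w := by
    calc (mu - 130) * (tt L.M n - 2) ≤ (mu - 130) * q.w :=
          mul_le_mul_of_nonneg_left (by linarith) (by linarith)
      _ ≤ 13 * q.w := mul_le_mul_of_nonneg_right (by linarith) hw
  nlinarith

theorem c4 {L : Lvl} {q : Prm} (hP : Par L q) (h1 : K1 L q) {b : ℝ} (hb : b ∈ J) {mu : ℝ}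
    (hmu : 130 ≤ mu) (hmu' : mu ≤ 143) : L.p q.w 4 b mu ≤ vS q.s 4 b mu + 13 * q.w + q.eps := by
  refine L.p_le hP.M_pos hP.w_nonneg (fun n hn => ?_)
  have hk := h1 b hb 143 (by norm_num) (by linarith [hP.hi_lo]) n
  rw [HC.Vm_143 hP.s_lo hP.s_hi hb] at hk
  rw [HC.val_shift L b mu 143 n]
  have ht := Lvl.le_tt_of_mem hn
  have hw := hP.w_nonneg
  push_cast at ht
  rw [HC.vS4] at hk ⊢
  have : (143 - mu) * (4 - tt L.M n) ≤ 13 * q.w := by
    calc (143 - mu) * (4 - tt L.M n) ≤ (143 - mu) * q.w :=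
          mul_le_mul_of_nonneg_left (by linarith) (by linarith)
      _ ≤ 13 * q.w := mul_le_mul_of_nonneg_right (by linarith) hw
  nlinarith

theorem c3 {L : Lvl} {q : Prm} (hP : Par L q) (h1 : K1 L q) {b : ℝ} (hb : b ∈ J) {mu : ℝ}
    (hmu : 130 ≤ mu) (hmu' : mu ≤ 143) :
    L.p q.w 3 b mu ≤ vS q.s 3 b mu + max 0 (-D3 q.s b / 2) + 13 * q.w + q.eps := by
  refine L.p_le hP.M_pos hP.w_nonneg (fun n hn => ?_)
  obtain ⟨hm1, hm2⟩ := HC.mid_mem hP.s_lo hP.s_hi hb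
  set ms := (mu23 q.s b + mu34 q.s b) / 2 with hms
  have hk := h1 b hb ms (by linarith) (by linarith [hP.hi_lo]) n
  rw [hms, HC.Vm_mid, ← hms] at hk
  rw [HC.val_shift L b mu ms n]
  have ht := abs_le.mp (Lvl.mem_Win.mp hn)
  have hw := hP.w_nonneg
  push_cast at ht
  rw [HC.vS3] at hk ⊢
  have : (mu - ms) * (tt L.M n - 3) ≤ 13 * q.w := by
    have a1 : |mu - ms| ≤ 13 := by rw [abs_le]; constructor <;> linarith
    have a2 : |tt L.M n - 3| ≤ q.w := abs_le.mpr ht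
    calc (mu - ms) * (tt L.M n - 3) ≤ |(mu - ms) * (tt L.M n - 3)| := le_abs_self _
      _ = |mu - ms| * |tt L.M n - 3| := abs_mul _ _
      _ ≤ 13 * q.w := mul_le_mul a1 a2 (abs_nonneg _) (by norm_num)
  nlinarith

theorem cL {L : Lvl} {q : Prm} (hP : Par L q) (h1 : K1 L q) (h2 : K2 L q) {i : ℕ} (hi2 : 2 ≤ i)
    (hi4 : i ≤ 4) {mu : ℝ} (hmu : 130 ≤ mu) (hmu' : mu ≤ 143) {b b' : ℝ} (hb : b ∈ J'')
    (hb' : b' ∈ J'') : |L.p q.w i b mu - L.p q.w i b' mu| ≤ 4500 * |b - b'| := by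
  have hconv : ConvexOn ℝ (Set.Icc (0.99 : ℝ) 1.01) (fun b => L.p q.w i b mu) :=
    L.p_convex hP.M_pos hP.conc hP.w_nonneg i mu
  have hosc : ∀ x ∈ Set.Icc (0.99 : ℝ) 1.01, ∀ y ∈ Set.Icc (0.99 : ℝ) 1.01,
      (fun b => L.p q.w i b mu) x - (fun b => L.p q.w i b mu) y ≤ 18 := by
    intro x hx y hy
    have a1 := p_le_Vm hP h1 (b := x) hx i (by linarith : (125 : ℝ) ≤ mu)
      (by linarith [hP.hi_lo])
    have a2 := v_le_p hP h2 (b := y) hy hi2 hi4 mu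
    have a3 := HC.Vm_sub_vS_le hP.s_lo hP.s_hi (b := x) (b' := y) hx hy hmu hmu' hi2 hi4
    have a4 := hP.eps_le
    simp only
    linarith
  have hb1 : b ∈ Set.Icc ((0.99 : ℝ) + 0.004) (1.01 - 0.004) := by
    obtain ⟨c1, c2⟩ := hb; constructor <;> norm_num <;> linarith
  have hb2 : b' ∈ Set.Icc ((0.99 : ℝ) + 0.004) (1.01 - 0.004) := by
    obtain ⟨c1, c2⟩ := hb'; constructor <;> norm_num <;> linarith
  have := HC.lip_of_convex hconv (by norm_num : (0 : ℝ) < 0.004) hosc hb1 hb2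
  have e : (18 : ℝ) / 0.004 = 4500 := by norm_num
  rw [e] at this
  exact this

theorem cL_Pk {L : Lvl} {q : Prm} (hP : Par L q) (h1 : K1 L q) (h2 : K2 L q)
    {mu : ℝ} (hmu : 130 ≤ mu) (hmu' : mu ≤ 143) {b b' : ℝ} (hb : b ∈ J'')
    (hb' : b' ∈ J'') : |L.Pk q.w b mu - L.Pk q.w b' mu| ≤ 4500 * |b - b'| := by
  have a2 := cL hP h1 h2 (i := 2) (le_refl _) (by norm_num) hmu hmu' hb hb'
  have a3 := cL hP h1 h2 (i := 3) (by norm_num) (by norm_num) hmu hmu' hb hb'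
  have a4 := cL hP h1 h2 (i := 4) (by norm_num) (le_refl _) hmu hmu' hb hb'
  unfold Lvl.Pk
  refine (abs_max_sub_max_le_max _ _ _ _).trans (max_le a2 ?_)
  exact (abs_max_sub_max_le_max _ _ _ _).trans (max_le a3 a4)

theorem cT {L : Lvl} {q : Prm} (hP : Par L q) (h1 : K1 L q) {b : ℝ} (hb : b ∈ J) {mu : ℝ}
    (hmu : 130 ≤ mu) (hmu' : mu ≤ 143) {n : ℕ} (hn : 15 < tt L.M n) :
    L.val b mu n < vS q.s 2 b mu - q.eps := by
  have hk := h1 b hb q.hi (by linarith [hP.hi_lo]) (le_refl _) n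
  have hV := HC.Vm_le hP.s_lo hP.s_hi hb hP.hi_hi
  have hv := HC.vS2_ge hP.s_lo hP.s_hi hb hmu
  rw [HC.val_shift L b mu q.hi n]
  have h6 : 6 ≤ q.hi - mu := by linarith [hP.hi_lo]
  have : 90 ≤ (q.hi - mu) * tt L.M n := by nlinarith
  have := hP.eps_le
  nlinarith

theorem Pk_le {L : Lvl} {q : Prm} (hP : Par L q) (h1 : K1 L q) {b : ℝ} (hb : b ∈ J) {mu : ℝ}
    (hmu : 125 ≤ mu) (hmu' : mu ≤ q.hi) : L.Pk q.w b mu ≤ 252 := by
  have hV := HC.Vm_le hP.s_lo hP.s_hi hb (hmu'.trans hP.hi_hi)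
  have he := hP.eps_le
  have a : ∀ i : ℕ, L.p q.w i b mu ≤ 252 := fun i => by
    have := p_le_Vm hP h1 hb i hmu hmu'
    linarith
  exact max_le (a 2) (max_le (a 3) (a 4))

theorem Pk_ge {L : Lvl} {q : Prm} (hP : Par L q) (h2 : K2 L q) {b : ℝ} (hb : b ∈ J) {mu : ℝ}
    (hmu : 130 ≤ mu) : 178 ≤ L.Pk q.w b mu := by
  have a1 := v_le_p hP h2 hb (le_refl 2) (by norm_num) mu
  have a2 := HC.vS2_ge hP.s_lo hP.s_hi hb hmu
  have a3 := L.p_le_Pk q.w b mu (le_refl 2) (by norm_num)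
  have := hP.eps_le
  linarith

end Crest.Agent.S0209.H
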