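import Mathlib

/-!
# ROW 149, section H (abstract induction): definitions and the basic API of restricted pressures

Blueprint: `notes/ROW149_blueprint.md`, section H.  Interface: `notes/ROW149_IfaceH.lean.txt`.
Everything lives in `Crest.Agent.S0209.H`.
-/

set_option autoImplicit false
namespace Crest.Agent.S0209.H

/-- `J = [0.99, 1.01]`. -/
def J : Set ℝ := Set.Icc 0.99 1.01
/-- `J' = [0.995, 1.005]`. -/
def J' : Set ℝ := Set.Icc 0.995 1.005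
/-- `J'' = [0.994, 1.006]` (where the restricted pressures are `4500`-Lipschitz in `b`). -/
def J'' : Set ℝ := Set.Icc 0.994 1.006

/-- `h_0 = h_1 = 0`, `h_2 = 81 b`, `h_j = 10 b j (j-1) + 80 (j-1)` for `j ≥ 3`. -/
noncomputable def hJ (j : ℕ) (b : ℝ) : ℝ :=
  if j ≤ 1 then 0 else if j = 2 then 81 * b else 10 * b * j * (j - 1) + 80 * (j - 1)

/-- `g^s_j(b) = h_j(b) - s b j²/2`. -/
noncomputable def gS (s : ℝ) (j : ℕ) (b : ℝ) : ℝ := hJ j b - s * b * (j : ℝ) ^ 2 / 2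

/-- `v^s_j(b,μ) = μ j - g^s_j(b)`. -/
noncomputable def vS (s : ℝ) (j : ℕ) (b mu : ℝ) : ℝ := mu * j - gS s j b

/-- `Vm^s = max (v_2, v_3, v_4)`. -/
noncomputable def Vm (s b mu : ℝ) : ℝ := max (vS s 2 b mu) (max (vS s 3 b mu) (vS s 4 b mu))

/-- `μ23 = g_3 - g_2`. -/
noncomputable def mu23 (s b : ℝ) : ℝ := 160 - 21 * b - 2.5 * s * b
/-- `μ34 = g_4 - g_3`. -/
noncomputable def mu34 (s b : ℝ) : ℝ := 80 + 60 * b - 3.5 * s * b
/-- `D3 = μ34 - μ23 = (81 - s) b - 80`. -/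
noncomputable def D3 (s b : ℝ) : ℝ := (81 - s) * b - 80

/-- `t = n / M`. -/
noncomputable def tt (M n : ℕ) : ℝ := (n : ℝ) / M

/-- A level: number of sites `M` and the function `ψ(b,n)`. -/
structure Lvl where
  M : ℕ
  ψ : ℝ → ℕ → ℝ

/-- `μ t - ψ(b,n)`. -/
noncomputable def Lvl.val (L : Lvl) (b mu : ℝ) (n : ℕ) : ℝ := mu * tt L.M n - L.ψ b n

/-- The window `W_i = {n : |n/M - i| ≤ w}`. -/
def Lvl.Win (L : Lvl) (w : ℝ) (i : ℕ) : Set ℕ := {n : ℕ | |tt L.M n - i| ≤ w}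

/-- restricted pressure `p_i(b,μ) = max {μ t - ψ(b,n) : |t - i| ≤ w}`. -/
noncomputable def Lvl.p (L : Lvl) (w : ℝ) (i : ℕ) (b mu : ℝ) : ℝ :=
  sSup ((fun n : ℕ => L.val b mu n) '' L.Win w i)

/-- `Pk = max (p_2, p_3, p_4)`. -/
noncomputable def Lvl.Pk (L : Lvl) (w b mu : ℝ) : ℝ :=
  max (L.p w 2 b mu) (max (L.p w 3 b mu) (L.p w 4 b mu))

/-- The parameters of the invariant. -/
structure Prm where
  s : ℝ
  w : ℝ
  eps : ℝ
  Ub : ℝ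
  hh : ℝ
  hi : ℝ
  hi' : ℝ

/-- size conditions on a level and its parameters -/
structure Par (L : Lvl) (q : Prm) : Prop where
  M_pos : 1 ≤ L.M
  conc : ∀ n : ℕ, ConcaveOn ℝ J (fun b => L.ψ b n)
  s_lo : 0.94 ≤ q.s
  s_hi : q.s ≤ 1.06
  w_nonneg : 0 ≤ q.w
  w_le : q.w ≤ 1e-3
  eps_nonneg : 0 ≤ q.eps
  eps_le : q.eps ≤ 1e-5
  Ub_le : q.Ub ≤ 60 - 4.5 * q.s + 0.3
  hh_pos : 0 < q.hh
  hh_le : q.hh ≤ 0.005
  hi_lo : 149 ≤ q.hi
  hi_hi : q.hi ≤ 150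
  hi'_lo : 142 ≤ q.hi'
  hi'_hi : q.hi' ≤ 143

/-- (K1) -/
def K1 (L : Lvl) (q : Prm) : Prop :=
  ∀ b ∈ J, ∀ mu : ℝ, 125 ≤ mu → mu ≤ q.hi → ∀ n : ℕ, L.val b mu n ≤ Vm q.s b mu + q.eps

/-- (K2) -/
def K2 (L : Lvl) (q : Prm) : Prop :=
  ∀ b ∈ J, ∀ i : ℕ, 2 ≤ i → i ≤ 4 → L.ψ b (i * L.M) ≤ gS q.s i b + q.eps

/-- (H1) -/
def H1 (L : Lvl) (q : Prm) : Prop :=
  ∀ b ∈ J, ∀ mu : ℝ, 130 ≤ mu → mu ≤ q.hi' → ∀ n : ℕ, L.val b mu n ≤ L.Pk q.w b mu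

/-- (LL) -/
def LL (L : Lvl) (q : Prm) : Prop :=
  ∀ b ∈ J', ∀ mu : ℝ, 130 ≤ mu → mu ≤ q.hi' →
    L.p q.w 2 b mu ≤ L.p q.w 3 b mu → L.p q.w 4 b mu ≤ L.p q.w 3 b mu →
    ∀ h : ℝ, 0 ≤ h → h ≤ q.hh → L.p q.w 3 (b - h) mu ≤ L.p q.w 3 b mu + q.Ub * h

/-- The invariant `Inv(k)`. -/
structure Inv (L : Lvl) (q : Prm) : Prop where
  k1 : K1 L q
  k2 : K2 L q
  h1 : H1 L q
  ll : LL L q

/-- `θ = (300 η + 20 E) / a`. -/
noncomputable def th (a E eta : ℝ) : ℝ := (300 * eta + 20 * E) / a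

/-- The recursion of the parameters. -/
noncomputable def Prm.next (q : Prm) (a E eta : ℝ) : Prm where
  s := q.s + a
  w := q.w + Real.sqrt (3 * th a E eta)
  eps := q.eps + 300 * eta + 301 * E + 45450 * a
  Ub := q.Ub + 1e5 * th a E eta
  hh := 1e-5 * a
  hi := q.hi - 15.2 * a
  hi' := q.hi' - 15.2 * a

/-- One step `k → k+1`: `L = (M_k, ψ_k)`, `L' = (M_{k+1}, ψ_{k+1})`, `ph = φ_{k+1}`, `m = m_k`,
`a = a_{k+1}`, `E = E_k`, `eta = η_k`. -/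
structure Step (L L' : Lvl) (ph : ℝ → ℕ → ℝ) (m : ℕ) (a E eta : ℝ) : Prop where
  m_pos : 1 ≤ m
  M_eq : L'.M = m * L.M
  psi_eq : ∀ (b : ℝ) (n : ℕ), L'.ψ b n = ph b n - b * a * tt L'.M n ^ 2 / 2
  a_pos : 0 < a
  a_le : a ≤ 1e-11
  E_nonneg : 0 ≤ E
  eta_nonneg : 0 ≤ eta
  th_le : th a E eta ≤ 2e-6
  /-- (U_k) -/
  U : ∀ b ∈ J, ∀ n : ℕ, n ≤ 15 * L.M → ph b (m * n) ≤ L.ψ b n + E
  /-- (L_k) -/
  Lo : ∀ b ∈ J, ∀ mu : ℝ, 125 ≤ mu → mu ≤ 150 → ∀ P : ℝ, (∀ n : ℕ, L.val b mu n ≤ P) →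
    ∀ N : ℕ, mu * tt L'.M N - (1 + eta) * P - E * (1 + tt L'.M N) ≤ ph b N
  /-- (SS) -/
  SS : ∀ b ∈ J, ∀ n : ℕ, 0.6 * tt L'.M n ^ 2 - 11 * tt L'.M n - 1 ≤ ph b n

/-! ## Basic API of the restricted pressures -/

theorem tt_mul (M i : ℕ) (hM : 1 ≤ M) : tt M (i * M) = i := by
  have : (M : ℝ) ≠ 0 := by positivity
  simp [tt, this]

theorem tt_nonneg (M n : ℕ) : 0 ≤ tt M n := by unfold tt; positivity

theorem tt_mul_left (M m n : ℕ) (hm : 1 ≤ m) : tt (m * M) (m * n) = tt M n := by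
  have : (m : ℝ) ≠ 0 := by positivity
  unfold tt
  push_cast
  rw [mul_div_mul_left _ _ this]

theorem Lvl.mem_Win {L : Lvl} {w : ℝ} {i n : ℕ} : n ∈ L.Win w i ↔ |tt L.M n - i| ≤ w := Iff.rfl

theorem Lvl.center_mem_Win (L : Lvl) (hM : 1 ≤ L.M) {w : ℝ} (hw : 0 ≤ w) (i : ℕ) :
    i * L.M ∈ L.Win w i := by
  rw [Lvl.mem_Win, tt_mul _ _ hM]; simpa using hw

theorem Lvl.Win_finite (L : Lvl) (hM : 1 ≤ L.M) (w : ℝ) (i : ℕ) : (L.Win w i).Finite := by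
  obtain ⟨K, hK⟩ := exists_nat_ge ((i + w) * L.M)
  refine (Set.finite_Iic K).subset ?_
  intro n hn
  rw [Lvl.mem_Win] at hn
  have hMpos : (0 : ℝ) < L.M := by exact_mod_cast hM
  have h1 : tt L.M n ≤ i + w := by have := (abs_le.mp hn).2; linarith
  have h2 : (n : ℝ) ≤ (i + w) * L.M := by
    unfold tt at h1
    rwa [div_le_iff₀ hMpos] at h1
  have : (n : ℝ) ≤ K := h2.trans hK
  exact_mod_cast this

theorem Lvl.Win_mono (L : Lvl) {w w' : ℝ} (h : w ≤ w') (i : ℕ) : L.Win w i ⊆ L.Win w' i :=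
  fun _ hn => le_trans hn h

theorem Lvl.bddAbove_img (L : Lvl) (hM : 1 ≤ L.M) (w : ℝ) (i : ℕ) (b mu : ℝ) :
    BddAbove ((fun n : ℕ => L.val b mu n) '' L.Win w i) :=
  ((L.Win_finite hM w i).image _).bddAbove

/-- every admissible `n` is a lower bound for `p_i`. -/
theorem Lvl.le_p (L : Lvl) (hM : 1 ≤ L.M) {w : ℝ} {i n : ℕ} (hn : n ∈ L.Win w i) (b mu : ℝ) :
    L.val b mu n ≤ L.p w i b mu :=
  le_csSup (L.bddAbove_img hM w i b mu) ⟨n, hn, rfl⟩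

/-- the maximum is attained. -/
theorem Lvl.exists_p (L : Lvl) (hM : 1 ≤ L.M) {w : ℝ} (hw : 0 ≤ w) (i : ℕ) (b mu : ℝ) :
    ∃ n ∈ L.Win w i, L.p w i b mu = L.val b mu n := by
  have hne : ((fun n : ℕ => L.val b mu n) '' L.Win w i).Nonempty :=
    ⟨_, i * L.M, L.center_mem_Win hM hw i, rfl⟩
  have hfin : ((fun n : ℕ => L.val b mu n) '' L.Win w i).Finite := (L.Win_finite hM w i).image _
  obtain ⟨n, hn, h⟩ := hne.csSup_mem hfin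
  exact ⟨n, hn, h.symm⟩

/-- upper bounds for `p_i`. -/
theorem Lvl.p_le (L : Lvl) (hM : 1 ≤ L.M) {w : ℝ} (hw : 0 ≤ w) {i : ℕ} {b mu c : ℝ}
    (h : ∀ n ∈ L.Win w i, L.val b mu n ≤ c) : L.p w i b mu ≤ c := by
  obtain ⟨n, hn, e⟩ := L.exists_p hM hw i b mu
  rw [e]; exact h n hn

theorem Lvl.p_le_Pk (L : Lvl) (w b mu : ℝ) {i : ℕ} (h2 : 2 ≤ i) (h4 : i ≤ 4) :
    L.p w i b mu ≤ L.Pk w b mu := by
  unfold Lvl.Pk
  interval_cases i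
  · exact le_max_left _ _
  · exact le_max_of_le_right (le_max_left _ _)
  · exact le_max_of_le_right (le_max_right _ _)

theorem Lvl.exists_Pk (L : Lvl) (w b mu : ℝ) :
    ∃ i : ℕ, 2 ≤ i ∧ i ≤ 4 ∧ L.Pk w b mu = L.p w i b mu := by
  unfold Lvl.Pk
  rcases max_choice (L.p w 2 b mu) (max (L.p w 3 b mu) (L.p w 4 b mu)) with h | h
  · exact ⟨2, le_refl _, by norm_num, h⟩
  · rcases max_choice (L.p w 3 b mu) (L.p w 4 b mu) with h' | h'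
    · exact ⟨3, by norm_num, by norm_num, h.trans h'⟩
    · exact ⟨4, by norm_num, le_refl _, h.trans h'⟩

end Crest.Agent.S0209.H

/-- Realise the auto-generated equation lemmas once, in this (defining / root) module, so that
sibling modules of one import closure do not each create their own copy of the same name. -/
theorem Crest.Agent.S0209.eqns_realised_HDefs : True := by
  have := @Crest.Agent.S0209.H.J.eq_1
  have := @Crest.Agent.S0209.H.J'.eq_1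
  have := @Crest.Agent.S0209.H.J''.eq_1
  have := @Crest.Agent.S0209.H.hJ.eq_1
  have := @Crest.Agent.S0209.H.gS.eq_1
  have := @Crest.Agent.S0209.H.vS.eq_1
  have := @Crest.Agent.S0209.H.Vm.eq_1
  have := @Crest.Agent.S0209.H.mu23.eq_1
  have := @Crest.Agent.S0209.H.mu34.eq_1
  have := @Crest.Agent.S0209.H.D3.eq_1
  have := @Crest.Agent.S0209.H.tt.eq_1
  have := @Crest.Agent.S0209.H.Lvl.val.eq_1
  have := @Crest.Agent.S0209.H.Lvl.Win.eq_1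
  have := @Crest.Agent.S0209.H.Lvl.p.eq_1
  have := @Crest.Agent.S0209.H.Lvl.Pk.eq_1
  have := @Crest.Agent.S0209.H.K1.eq_1
  have := @Crest.Agent.S0209.H.K2.eq_1
  have := @Crest.Agent.S0209.H.H1.eq_1
  have := @Crest.Agent.S0209.H.LL.eq_1
  have := @Crest.Agent.S0209.H.th.eq_1
  have := @Crest.Agent.S0209.H.Prm.next.eq_1
  trivial
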