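import Crest.Agent.S0209_HDefs

/-!
# ROW 149, section H: remaining definitions (`Prm.base`, `TP`, `lvl`, `Hyp`)
-/

set_option autoImplicit false
namespace Crest.Agent.S0209.H

/-- parameters of level 1 -/
noncomputable def Prm.base (a E0 : ℝ) : Prm where
  s := a
  w := 130 * E0
  eps := 40 * E0
  Ub := 60 - 4.5 * a + 2.1e5 * E0
  hh := 0.005
  hi := 150
  hi' := 143

/-- Output of section H for one level (index `i : Fin 3` stands for the occupation `i + 2`). -/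
structure TP (L : Lvl) where
  b : ℝ
  mu : ℝ
  P : ℝ
  n : Fin 3 → ℕ
  u : Fin 3 → ℝ
  b_mem : b ∈ J'
  mu_lo : 130 ≤ mu
  mu_hi : mu ≤ 142
  P_nonneg : 0 ≤ P
  P_le : P ≤ 300
  n_near : ∀ i : Fin 3, |tt L.M (n i) - ((i : ℕ) + 2 : ℝ)| ≤ 1e-3
  val_eq : ∀ i : Fin 3, L.val b mu (n i) = P
  val_le : ∀ b' ∈ J'', ∀ n' : ℕ, L.val b' mu n' ≤ P + 4500 * |b' - b|
  super : ∀ i : Fin 3, ∀ b' ∈ J, L.ψ b' (n i) ≤ L.ψ b (n i) + u i * (b' - b)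
  u2 : 75 ≤ u 0
  u3 : u 1 ≤ 57
  u4 : 107 ≤ u 2
  u_abs : ∀ i : Fin 3, |u i| ≤ 200

/-- `ψ_k(b,n) = φ_k(b,n) - b a_k t²/2`. -/
noncomputable def lvl (M : ℕ → ℕ) (a : ℕ → ℝ) (ph : ℕ → ℝ → ℕ → ℝ) (k : ℕ) : Lvl where
  M := M k
  ψ := fun b n => ph k b n - b * a k * tt (M k) n ^ 2 / 2

/-- All hypotheses of section H.  Levels are `k ≥ 1` (index `0` is used only by `E 0`). -/
structure Hyp (M m : ℕ → ℕ) (a : ℕ → ℝ) (ph : ℕ → ℝ → ℕ → ℝ) (E eta : ℕ → ℝ) : Prop where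
  M_pos : 1 ≤ M 1
  m_pos : ∀ k, 1 ≤ k → 1 ≤ m k
  M_succ : ∀ k, 1 ≤ k → M (k + 1) = m k * M k
  a_pos : ∀ k, 1 ≤ k → 0 < a k
  E_nonneg : ∀ k, 0 ≤ E k
  eta_nonneg : ∀ k, 0 ≤ eta k
  /-- (C) -/
  C : ∀ k, 1 ≤ k → ∀ n : ℕ, ConcaveOn ℝ J (fun b => ph k b n)
  /-- (B-) -/
  Bm : ∀ b ∈ J, ∀ n : ℕ,
      (1 - (tt (M 1) n - ⌊tt (M 1) n⌋₊)) * hJ ⌊tt (M 1) n⌋₊ b
        + (tt (M 1) n - ⌊tt (M 1) n⌋₊) * hJ (⌊tt (M 1) n⌋₊ + 1) b - E 0 * (1 + tt (M 1) n ^ 2)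
      ≤ ph 1 b n
  /-- (B+) -/
  Bp : ∀ b ∈ J, ∀ i : ℕ, 2 ≤ i → i ≤ 4 → ph 1 b (i * M 1) ≤ hJ i b + E 0
  /-- (U_k) -/
  U : ∀ k, 1 ≤ k → ∀ b ∈ J, ∀ n : ℕ, n ≤ 15 * M k →
      ph (k + 1) b (m k * n) ≤ (lvl M a ph k).ψ b n + E k
  /-- (L_k) -/
  Lo : ∀ k, 1 ≤ k → ∀ b ∈ J, ∀ mu : ℝ, 125 ≤ mu → mu ≤ 150 → ∀ P : ℝ,
      (∀ n : ℕ, (lvl M a ph k).val b mu n ≤ P) →
      ∀ N : ℕ, mu * tt (M (k + 1)) N - (1 + eta k) * P - E k * (1 + tt (M (k + 1)) N) ≤ ph (k + 1) b N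
  /-- (SS) -/
  SS : ∀ k, 2 ≤ k → ∀ b ∈ J, ∀ n : ℕ, 0.6 * tt (M k) n ^ 2 - 11 * tt (M k) n - 1 ≤ ph k b n
  /-- (sz) -/
  a_one : |a 1 - 1| ≤ 0.05
  a_sum : ∀ K : ℕ, ∑ k ∈ Finset.Icc 2 K, a k ≤ 1e-11
  a_anti : ∀ k, 1 ≤ k → a (k + 1) ≤ a k
  E_zero : E 0 ≤ 1e-7
  sum_sqrt : ∀ K : ℕ, ∑ k ∈ Finset.Icc 1 K, Real.sqrt (3 * th (a (k + 1)) (E k) (eta k)) ≤ 1e-4
  sum_th : ∀ K : ℕ, ∑ k ∈ Finset.Icc 1 K, 1e5 * th (a (k + 1)) (E k) (eta k) ≤ 0.2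
  sum_err : ∀ K : ℕ, ∑ k ∈ Finset.Icc 1 K, (300 * eta k + 251 * E k) ≤ 1e-6

end Crest.Agent.S0209.H

/-- Realise the auto-generated equation lemmas once, in this (defining / root) module, so that
sibling modules of one import closure do not each create their own copy of the same name. -/
theorem Crest.Agent.S0209.eqns_realised_HDefs2 : True := by
  have := @Crest.Agent.S0209.H.Prm.base.eq_1
  have := @Crest.Agent.S0209.H.lvl.eq_1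
  trivial
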