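import Crest.Agent.S0209_HArith
import Crest.Agent.S0209_HCrude

/-!
# ROW 149, section H, package HT : the triple point of one level
-/

set_option autoImplicit false
namespace Crest.Agent.S0209.H

namespace Triple

variable {L : Lvl} {q : Prm}

lemma J'_sub_J'' {b : ℝ} (hb : b ∈ J') : b ∈ J'' := by
  unfold J' at hb; unfold J''
  constructor <;> [linarith [hb.1]; linarith [hb.2]]

lemma J'_sub_J {b : ℝ} (hb : b ∈ J') : b ∈ J := by
  unfold J' at hb; unfold J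
  constructor <;> [linarith [hb.1]; linarith [hb.2]]

/-- joint Lipschitz estimate. -/
lemma abs_p_sub (hP : Par L q) (hI : Inv L q) {i : ℕ} (hi2 : 2 ≤ i) (hi4 : i ≤ 4)
    {b b' mu mu' : ℝ} (hb : b ∈ J'') (hb' : b' ∈ J'') (hmu : 130 ≤ mu) (hmu2 : mu ≤ 143) :
    |L.p q.w i b mu - L.p q.w i b' mu'| ≤ 4500 * |b - b'| + 5 * |mu - mu'| := by
  have h1 := cL hP hI.k1 hI.k2 hi2 hi4 hmu hmu2 hb hb'
  have h2 := L.abs_p_sub_le hP.M_pos hP.w_nonneg i b' mu mu'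
  have hi : (i : ℝ) ≤ 4 := by exact_mod_cast hi4
  have hi0 : (0 : ℝ) ≤ i := Nat.cast_nonneg i
  have hw := hP.w_le
  have h3 : |L.p q.w i b' mu' - L.p q.w i b' mu| ≤ 5 * |mu - mu'| := by
    have h4 : |(i : ℝ) * (mu' - mu)| ≤ 4 * |mu' - mu| := by
      rw [abs_mul, abs_of_nonneg hi0]
      exact mul_le_mul_of_nonneg_right hi (abs_nonneg _)
    have h5 : q.w * |mu' - mu| ≤ 1 * |mu' - mu| :=
      mul_le_mul_of_nonneg_right (by linarith) (abs_nonneg _)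
    have h6 : |L.p q.w i b' mu' - L.p q.w i b' mu|
        ≤ |L.p q.w i b' mu' - L.p q.w i b' mu - i * (mu' - mu)| + |(i : ℝ) * (mu' - mu)| := by
      have := abs_add_le (L.p q.w i b' mu' - L.p q.w i b' mu - i * (mu' - mu)) ((i : ℝ) * (mu' - mu))
      simpa using this
    rw [abs_sub_comm mu mu']
    linarith
  have h7 : |L.p q.w i b mu - L.p q.w i b' mu'|
      ≤ |L.p q.w i b mu - L.p q.w i b' mu| + |L.p q.w i b' mu' - L.p q.w i b' mu| := by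
    rw [abs_sub_comm (L.p q.w i b' mu') (L.p q.w i b' mu)]
    exact abs_sub_le _ _ _
  linarith

/-- the rectangle. -/
def Rect : Set (ℝ × ℝ) := J' ×ˢ Set.Icc (130 : ℝ) 142

lemma isCompact_Rect : IsCompact Rect := isCompact_Icc.prod isCompact_Icc

lemma continuousOn_p (hP : Par L q) (hI : Inv L q) {i : ℕ} (hi2 : 2 ≤ i) (hi4 : i ≤ 4) :
    ContinuousOn (fun x : ℝ × ℝ => L.p q.w i x.1 x.2) Rect := by
  have : LipschitzOnWith 4505 (fun x : ℝ × ℝ => L.p q.w i x.1 x.2) Rect := by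
    refine LipschitzOnWith.of_dist_le_mul ?_
    intro x hx y hy
    have h := abs_p_sub hP hI hi2 hi4 (J'_sub_J'' hx.1) (J'_sub_J'' hy.1) hx.2.1
      (by linarith [hx.2.2]) (mu' := y.2)
    have h1 : |x.1 - y.1| ≤ dist x y := by
      rw [← Real.dist_eq, Prod.dist_eq]; exact le_max_left _ _
    have h2 : |x.2 - y.2| ≤ dist x y := by
      rw [← Real.dist_eq, Prod.dist_eq]; exact le_max_right _ _
    rw [Real.dist_eq]
    have : ((4505 : NNReal) : ℝ) = 4505 := by norm_num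
    rw [this]
    linarith
  exact this.continuousOn

/-- `p_3` cannot dominate at `b = 0.995`. -/
lemma not_left (hP : Par L q) (hI : Inv L q) {mu : ℝ} (hmu : 130 ≤ mu) (hmu' : mu ≤ 142)
    (h32 : L.p q.w 2 0.995 mu ≤ L.p q.w 3 0.995 mu)
    (h34 : L.p q.w 4 0.995 mu ≤ L.p q.w 3 0.995 mu) : False := by
  have hb : (0.995 : ℝ) ∈ J' := by unfold J'; constructor <;> norm_num
  have hbJ : (0.995 : ℝ) ∈ J := J'_sub_J hb
  have hzJ : (1.005 : ℝ) ∈ J := by unfold J; constructor <;> norm_num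
  have hhh := hP.hh_pos
  have hhh' := hP.hh_le
  have hxJ : (0.995 - q.hh : ℝ) ∈ J := by unfold J; constructor <;> linarith
  have hll := hI.ll 0.995 hb mu hmu (by linarith [hP.hi'_lo]) h32 h34 q.hh hhh.le le_rfl
  have hconv := L.p_convex hP.M_pos hP.conc hP.w_nonneg 3 mu
  have hslope := hconv.slope_mono_adjacent hxJ hzJ (by linarith : (0.995 - q.hh : ℝ) < 0.995)
    (by norm_num : (0.995 : ℝ) < 1.005)
  have e1 : (0.995 : ℝ) - (0.995 - q.hh) = q.hh := by ring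
  have e2 : (1.005 : ℝ) - 0.995 = 0.01 := by norm_num
  rw [e1, e2] at hslope
  have h1 : - q.Ub ≤ (L.p q.w 3 0.995 mu - L.p q.w 3 (0.995 - q.hh) mu) / q.hh := by
    rw [le_div_iff₀ hhh]; linarith
  have h2 : - q.Ub ≤ (L.p q.w 3 1.005 mu - L.p q.w 3 0.995 mu) / 0.01 := h1.trans hslope
  rw [le_div_iff₀ (by norm_num : (0 : ℝ) < 0.01)] at h2
  have hv2 := v_le_p hP hI.k2 hbJ (le_refl 2) (by norm_num : 2 ≤ 4) mu
  have hv4 := v_le_p hP hI.k2 hbJ (by norm_num : 2 ≤ 4) (le_refl 4) mu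
  have hc3 := c3 hP hI.k1 hzJ hmu (by linarith : mu ≤ 143)
  have hD := D3_hi hP.s_hi
  rw [max_eq_left (by linarith : - D3 q.s 1.005 / 2 ≤ 0)] at hc3
  rw [vS_two] at hv2
  rw [vS_four] at hv4
  rw [vS_three] at hc3
  have := hP.s_lo
  have := hP.w_le
  have := hP.eps_le
  have := hP.Ub_le
  linarith

/-- at `μ = 142` the occupation `4` wins. -/
lemma not_top (hP : Par L q) (hI : Inv L q) {b : ℝ} (hb : b ∈ J)
    (h34 : L.p q.w 4 b 142 ≤ L.p q.w 3 b 142) : False := by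
  have hv4 := v_le_p hP hI.k2 hb (by norm_num : 2 ≤ 4) (le_refl 4) 142
  have hc3 := c3 hP hI.k1 hb (by norm_num : (130 : ℝ) ≤ 142) (by norm_num : (142 : ℝ) ≤ 143)
  have hD := abs_le.1 (D3_abs hP.s_lo hP.s_hi hb)
  have hmax : max 0 (- D3 q.s b / 2) ≤ 0.55 := max_le (by norm_num) (by linarith [hD.1])
  have h43 := vS_four_sub_three q.s b 142
  have hm := (mu34_mem hP.s_lo hP.s_hi hb).2
  have := hP.w_le
  have := hP.eps_le
  linarith

/-- at `μ = 130` the occupation `2` wins. -/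
lemma not_bot (hP : Par L q) (hI : Inv L q) {b : ℝ} (hb : b ∈ J)
    (h32 : L.p q.w 2 b 130 ≤ L.p q.w 3 b 130) : False := by
  have hv2 := v_le_p hP hI.k2 hb (le_refl 2) (by norm_num : 2 ≤ 4) 130
  have hc3 := c3 hP hI.k1 hb (le_refl (130 : ℝ)) (by norm_num : (130 : ℝ) ≤ 143)
  have hD := abs_le.1 (D3_abs hP.s_lo hP.s_hi hb)
  have hmax : max 0 (- D3 q.s b / 2) ≤ 0.55 := max_le (by norm_num) (by linarith [hD.1])
  have h32' := vS_three_sub_two q.s b 130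
  have hm := (mu23_mem hP.s_lo hP.s_hi hb).1
  have := hP.w_le
  have := hP.eps_le
  linarith

/-- strict domination persists for slightly smaller `b`. -/
lemma strict_descend (hP : Par L q) (hI : Inv L q) {b mu : ℝ} (hb : b ∈ J') (hb0 : 0.995 < b)
    (hmu : 130 ≤ mu) (hmu' : mu ≤ 142)
    (h32 : L.p q.w 2 b mu < L.p q.w 3 b mu) (h34 : L.p q.w 4 b mu < L.p q.w 3 b mu) :
    ∃ b1 ∈ J', b1 < b ∧ L.p q.w 2 b1 mu ≤ L.p q.w 3 b1 mu ∧
      L.p q.w 4 b1 mu ≤ L.p q.w 3 b1 mu := by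
  obtain ⟨g, hg0, hg2, hg4⟩ : ∃ g : ℝ, 0 < g ∧ g ≤ L.p q.w 3 b mu - L.p q.w 2 b mu ∧
      g ≤ L.p q.w 3 b mu - L.p q.w 4 b mu :=
    ⟨min (L.p q.w 3 b mu - L.p q.w 2 b mu) (L.p q.w 3 b mu - L.p q.w 4 b mu),
      lt_min (by linarith) (by linarith), min_le_left _ _, min_le_right _ _⟩
  obtain ⟨δ, hδ0, hδ1, hδ2⟩ : ∃ δ : ℝ, 0 < δ ∧ δ ≤ b - 0.995 ∧ δ ≤ g / 9000 :=
    ⟨min (b - 0.995) (g / 9000), lt_min (by linarith) (by positivity), min_le_left _ _,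
      min_le_right _ _⟩
  have hb1 : b - δ ∈ J' := by
    unfold J' at hb ⊢
    constructor <;> [linarith; linarith [hb.2]]
  refine ⟨b - δ, hb1, by linarith, ?_, ?_⟩
  all_goals
    have hmu3 : mu ≤ 143 := by linarith
    have e : |b - (b - δ)| = δ := by
      rw [show b - (b - δ) = δ by ring, abs_of_pos hδ0]
    have k2 := abs_le.1 (cL hP hI.k1 hI.k2 (le_refl 2) (by norm_num : 2 ≤ 4) hmu hmu3
      (J'_sub_J'' hb) (J'_sub_J'' hb1))
    have k3 := abs_le.1 (cL hP hI.k1 hI.k2 (by norm_num : 2 ≤ 3) (by norm_num : 3 ≤ 4) hmu hmu3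
      (J'_sub_J'' hb) (J'_sub_J'' hb1))
    have k4 := abs_le.1 (cL hP hI.k1 hI.k2 (by norm_num : 2 ≤ 4) (le_refl 4) hmu hmu3
      (J'_sub_J'' hb) (J'_sub_J'' hb1))
    rw [e] at k2 k3 k4
    have : 9000 * δ ≤ g := by
      rw [le_div_iff₀ (by norm_num : (0 : ℝ) < 9000)] at hδ2; linarith
    linarith [k2.1, k2.2, k3.1, k3.2, k4.1, k4.2]

end Triple

open Triple in
theorem triple_point {L : Lvl} {q : Prm} (hP : Par L q) (hI : Inv L q) :
    ∃ b ∈ J', ∃ mu : ℝ, 130 ≤ mu ∧ mu ≤ 142 ∧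
      L.p q.w 2 b mu = L.p q.w 3 b mu ∧ L.p q.w 4 b mu = L.p q.w 3 b mu := by
  have hM := hP.M_pos
  have hw := hP.w_nonneg
  have hw' := hP.w_le
  have heps := hP.eps_le
  have c2' := continuousOn_p hP hI (le_refl 2) (by norm_num : 2 ≤ 4)
  have c3' := continuousOn_p hP hI (by norm_num : 2 ≤ 3) (by norm_num : 3 ≤ 4)
  have c4' := continuousOn_p hP hI (by norm_num : 2 ≤ 4) (le_refl 4)
  have hclosed : IsClosed Rect := isCompact_Rect.isClosed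
  have hK2 := hclosed.isClosed_le c2' c3'
  have hK4 := hclosed.isClosed_le c4' c3'
  have hKc : IsCompact ({x | x ∈ Rect ∧ L.p q.w 2 x.1 x.2 ≤ L.p q.w 3 x.1 x.2} ∩
      {x | x ∈ Rect ∧ L.p q.w 4 x.1 x.2 ≤ L.p q.w 3 x.1 x.2}) :=
    isCompact_Rect.of_isClosed_subset (hK2.inter hK4) (fun x hx => hx.1.1)
  -- non-empty
  have hne : ({x | x ∈ Rect ∧ L.p q.w 2 x.1 x.2 ≤ L.p q.w 3 x.1 x.2} ∩
      {x | x ∈ Rect ∧ L.p q.w 4 x.1 x.2 ≤ L.p q.w 3 x.1 x.2}).Nonempty := by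
    have hzJ' : (1.005 : ℝ) ∈ J' := by unfold J'; constructor <;> norm_num
    have hzJ : (1.005 : ℝ) ∈ J := J'_sub_J hzJ'
    have m23 := mu23_mem hP.s_lo hP.s_hi hzJ
    have m34 := mu34_mem hP.s_lo hP.s_hi hzJ
    have hmid1 : 130 ≤ (mu23 q.s 1.005 + mu34 q.s 1.005) / 2 := by linarith [m23.1, m34.1]
    have hmid2 : (mu23 q.s 1.005 + mu34 q.s 1.005) / 2 ≤ 142 := by linarith [m23.2, m34.2]
    have hR : ((1.005 : ℝ), (mu23 q.s 1.005 + mu34 q.s 1.005) / 2) ∈ Rect :=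
      ⟨hzJ', hmid1, hmid2⟩
    have hv3 := v_le_p hP hI.k2 hzJ (by norm_num : 2 ≤ 3) (by norm_num : 3 ≤ 4)
      ((mu23 q.s 1.005 + mu34 q.s 1.005) / 2)
    have hc2 := c2 hP hI.k1 hzJ hmid1 (by linarith)
    have hc4 := c4 hP hI.k1 hzJ hmid1 (by linarith)
    have hD := D3_hi hP.s_hi
    have hDe := D3_eq q.s 1.005
    have e32 := vS_three_sub_two q.s 1.005 ((mu23 q.s 1.005 + mu34 q.s 1.005) / 2)
    have e43 := vS_four_sub_three q.s 1.005 ((mu23 q.s 1.005 + mu34 q.s 1.005) / 2)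
    refine ⟨_, ⟨hR, ?_⟩, ⟨hR, ?_⟩⟩
    · show L.p q.w 2 1.005 _ ≤ L.p q.w 3 1.005 _
      linarith
    · show L.p q.w 4 1.005 _ ≤ L.p q.w 3 1.005 _
      linarith
  obtain ⟨x0, hx0, hmin⟩ := hKc.exists_isMinOn hne continuous_fst.continuousOn
  obtain ⟨b0, mu0⟩ := x0
  obtain ⟨⟨⟨hb0, hmu0, hmu0'⟩, h32⟩, ⟨-, h34⟩⟩ := hx0
  simp only at hb0 hmu0 hmu0' h32 h34
  have hbJ : b0 ∈ J := J'_sub_J hb0
  -- minimality
  have hminb : ∀ b mu : ℝ, b ∈ J' → 130 ≤ mu → mu ≤ 142 → L.p q.w 2 b mu ≤ L.p q.w 3 b mu →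
      L.p q.w 4 b mu ≤ L.p q.w 3 b mu → b0 ≤ b := by
    intro b mu hb h1 h2 h3 h4
    exact hmin (a := (b, mu)) ⟨⟨⟨hb, h1, h2⟩, h3⟩, ⟨⟨hb, h1, h2⟩, h4⟩⟩
  have hb0pos : 0.995 < b0 := by
    rcases lt_or_eq_of_le hb0.1 with h | h
    · exact h
    · exfalso
      rw [← h] at h32 h34
      exact not_left hP hI hmu0 hmu0' h32 h34
  -- no strict domination on the line `b = b0`
  have hNS : ∀ mu : ℝ, 130 ≤ mu → mu ≤ 142 → L.p q.w 2 b0 mu < L.p q.w 3 b0 mu →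
      L.p q.w 4 b0 mu < L.p q.w 3 b0 mu → False := by
    intro mu h1 h2 h3 h4
    obtain ⟨b1, hb1, hlt, h5, h6⟩ := strict_descend hP hI hb0 hb0pos h1 h2 h3 h4
    have := hminb b1 mu hb1 h1 h2 h5 h6
    linarith
  have hmu_gt : 130 < mu0 := by
    rcases lt_or_eq_of_le hmu0 with h | h
    · exact h
    · exfalso
      rw [← h] at h32
      exact not_bot hP hI hbJ h32
  have hmu_lt : mu0 < 142 := by
    rcases lt_or_eq_of_le hmu0' with h | h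
    · exact h
    · exfalso
      rw [h] at h34
      exact not_top hP hI hbJ h34
  have key2 : L.p q.w 2 b0 mu0 = L.p q.w 3 b0 mu0 := by
    by_contra hne2
    have hlt2 : L.p q.w 2 b0 mu0 < L.p q.w 3 b0 mu0 := lt_of_le_of_ne h32 hne2
    -- lower `mu`
    obtain ⟨d, hd0, hd1, hd2⟩ : ∃ d : ℝ, 0 < d ∧ d ≤ mu0 - 130 ∧
        d ≤ (L.p q.w 3 b0 mu0 - L.p q.w 2 b0 mu0) / 2 :=
      ⟨min (mu0 - 130) ((L.p q.w 3 b0 mu0 - L.p q.w 2 b0 mu0) / 2),
        lt_min (by linarith) (by linarith), min_le_left _ _, min_le_right _ _⟩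
    have a2 := L.le_p_add hM hw 2 b0 (mu0 - d) hd0.le
    have a3 := L.p_add_le hM hw 3 b0 (mu0 - d) hd0.le
    have a4 := L.le_p_add hM hw 4 b0 (mu0 - d) hd0.le
    rw [sub_add_cancel] at a2 a3 a4
    push_cast at a2 a3 a4
    have hwd : q.w * d ≤ 1e-3 * d := mul_le_mul_of_nonneg_right hw' hd0.le
    have hwd0 : 0 ≤ q.w * d := mul_nonneg hw hd0.le
    refine hNS (mu0 - d) (by linarith) (by linarith) ?_ ?_
    · nlinarith
    · nlinarith
  have key4 : L.p q.w 4 b0 mu0 = L.p q.w 3 b0 mu0 := by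
    by_contra hne4
    have hlt4 : L.p q.w 4 b0 mu0 < L.p q.w 3 b0 mu0 := lt_of_le_of_ne h34 hne4
    obtain ⟨d, hd0, hd1, hd2⟩ : ∃ d : ℝ, 0 < d ∧ d ≤ 142 - mu0 ∧
        d ≤ (L.p q.w 3 b0 mu0 - L.p q.w 4 b0 mu0) / 2 :=
      ⟨min (142 - mu0) ((L.p q.w 3 b0 mu0 - L.p q.w 4 b0 mu0) / 2),
        lt_min (by linarith) (by linarith), min_le_left _ _, min_le_right _ _⟩
    have a2 := L.p_add_le hM hw 2 b0 mu0 hd0.le
    have a3 := L.le_p_add hM hw 3 b0 mu0 hd0.le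
    have a4 := L.p_add_le hM hw 4 b0 mu0 hd0.le
    push_cast at a2 a3 a4
    have hwd : q.w * d ≤ 1e-3 * d := mul_le_mul_of_nonneg_right hw' hd0.le
    have hwd0 : 0 ≤ q.w * d := mul_nonneg hw hd0.le
    refine hNS (mu0 + d) (by linarith) (by linarith) ?_ ?_
    · nlinarith
    · nlinarith
  exact ⟨b0, hb0, mu0, hmu0, hmu0', key2, key4⟩

end Crest.Agent.S0209.H
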