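import Crest.Agent.S0209_HDefs2
import Crest.Agent.S0209_HTriple

/-!
# ROW 149, section H, package HU : slopes at the triple point, conclusion for one level
-/

set_option autoImplicit false
namespace Crest.Agent.S0209.H

namespace Slopes

variable {L : Lvl} {q : Prm}

/-- a concave function on `J` has a supergradient at every point of `J'`. -/
lemma exists_supergradient {f : ℝ → ℝ} (hf : ConcaveOn ℝ J f) {b : ℝ} (hb : b ∈ J') :
    ∃ u : ℝ, ∀ b' ∈ J, f b' ≤ f b + u * (b' - b) := by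
  have hb1 : (0.995 : ℝ) ≤ b := hb.1
  have hb2 : b ≤ (1.005 : ℝ) := hb.2
  have hbJ : b ∈ J := Triple.J'_sub_J hb
  have hbd : ∀ x ∈ J, x < b → ∀ r ∈ {r : ℝ | ∃ y ∈ J, b < y ∧ r = (f y - f b) / (y - b)},
      r ≤ (f b - f x) / (b - x) := by
    rintro x hx hxb r ⟨y, hy, hby, rfl⟩
    exact hf.slope_anti_adjacent hx hy hxb hby
  have h0 : (0.99 : ℝ) ∈ J := by unfold J; constructor <;> norm_num
  have h1 : (1.01 : ℝ) ∈ J := by unfold J; constructor <;> norm_num
  have hbdd : BddAbove {r : ℝ | ∃ y ∈ J, b < y ∧ r = (f y - f b) / (y - b)} :=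
    ⟨_, hbd 0.99 h0 (by linarith)⟩
  have hne : {r : ℝ | ∃ y ∈ J, b < y ∧ r = (f y - f b) / (y - b)}.Nonempty :=
    ⟨_, 1.01, h1, by linarith, rfl⟩
  refine ⟨sSup {r : ℝ | ∃ y ∈ J, b < y ∧ r = (f y - f b) / (y - b)}, ?_⟩
  intro b' hb'
  rcases lt_trichotomy b' b with h | h | h
  · have h2 := csSup_le hne (hbd b' hb' h)
    rw [le_div_iff₀ (by linarith : (0 : ℝ) < b - b')] at h2
    linarith
  · rw [h]; simp
  · have h2 := le_csSup hbdd ⟨b', hb', h, rfl⟩
    rw [div_le_iff₀ (by linarith : (0 : ℝ) < b' - b)] at h2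
    linarith

lemma add_mem_J {b : ℝ} (hb : b ∈ J') : b + 0.004 ∈ J := by
  unfold J' at hb; unfold J
  constructor <;> [linarith [hb.1]; linarith [hb.2]]

lemma sub_mem_J {b : ℝ} (hb : b ∈ J') : b - 0.004 ∈ J := by
  unfold J' at hb; unfold J
  constructor <;> [linarith [hb.1]; linarith [hb.2]]

/-- lower bound for `ψ` coming from (K1) at `μ = 130`. -/
lemma psi_ge_130 (hP : Par L q) (hI : Inv L q) {b : ℝ} (hb : b ∈ J) (n : ℕ) :
    130 * tt L.M n - (2 * 130 - 81 * b + 2 * q.s * b) - q.eps ≤ L.ψ b n := by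
  have h := hI.k1 b hb 130 (by norm_num) (by linarith [hP.hi_lo]) n
  have m23 := (mu23_mem hP.s_lo hP.s_hi hb).1
  have m34 := (mu34_mem hP.s_lo hP.s_hi hb).1
  rw [Vm_eq_two (by linarith) (by linarith), vS_two] at h
  unfold Lvl.val at h
  linarith

/-- lower bound for `ψ` coming from (K1) at `μ = 143`. -/
lemma psi_ge_143 (hP : Par L q) (hI : Inv L q) {b : ℝ} (hb : b ∈ J) (n : ℕ) :
    143 * tt L.M n - (4 * 143 - 120 * b - 240 + 8 * q.s * b) - q.eps ≤ L.ψ b n := by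
  have h := hI.k1 b hb 143 (by norm_num) (by linarith [hP.hi_lo]) n
  have m23 := (mu23_mem hP.s_lo hP.s_hi hb).2
  have m34 := (mu34_mem hP.s_lo hP.s_hi hb).2
  rw [Vm_eq_four (by linarith) (by linarith), vS_four] at h
  unfold Lvl.val at h
  linarith

lemma u2_bounds (hP : Par L q) (hI : Inv L q) {b mu : ℝ} (hb : b ∈ J') (hmu : 130 ≤ mu)
    (hmu' : mu ≤ 142) {n : ℕ} (hn : n ∈ L.Win q.w 2) (hval : L.p q.w 2 b mu = L.val b mu n)
    {u : ℝ} (hu : ∀ b' ∈ J, L.ψ b' n ≤ L.ψ b n + u * (b' - b)) : 75 ≤ u ∧ u ≤ 200 := by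
  have hbJ := Triple.J'_sub_J hb
  have hv := v_le_p hP hI.k2 hbJ (le_refl 2) (by norm_num : 2 ≤ 4) mu
  rw [hval, vS_two] at hv
  unfold Lvl.val at hv
  have ht := abs_le.1 (Lvl.mem_Win.1 hn)
  push_cast at ht
  have hw := hP.w_nonneg
  have hw' := hP.w_le
  have heps := hP.eps_le
  have hs1 := hP.s_lo
  have hs2 := hP.s_hi
  have ha : (mu - 130) * (tt L.M n - 2) ≤ 12 * q.w :=
    (mul_le_mul_of_nonneg_left (by linarith [ht.2]) (by linarith)).trans
      (mul_le_mul_of_nonneg_right (by linarith) hw)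
  have hb' : -(12 * q.w) ≤ (mu - 130) * (tt L.M n - 2) := by
    have h1 : (mu - 130) * (-q.w) ≤ (mu - 130) * (tt L.M n - 2) :=
      mul_le_mul_of_nonneg_left (by linarith [ht.1]) (by linarith)
    have h2 : (mu - 130) * q.w ≤ 12 * q.w := mul_le_mul_of_nonneg_right (by linarith) hw
    linarith
  constructor
  · have h1 := hu _ (add_mem_J hb)
    have h2 := psi_ge_130 hP hI (add_mem_J hb) n
    have e : b + 0.004 - b = 0.004 := by ring
    rw [e] at h1
    nlinarith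
  · have h1 := hu _ (sub_mem_J hb)
    have h2 := psi_ge_130 hP hI (sub_mem_J hb) n
    have e : b - 0.004 - b = -0.004 := by ring
    rw [e] at h1
    nlinarith

lemma u4_bounds (hP : Par L q) (hI : Inv L q) {b mu : ℝ} (hb : b ∈ J') (hmu : 130 ≤ mu)
    (hmu' : mu ≤ 142) {n : ℕ} (hn : n ∈ L.Win q.w 4) (hval : L.p q.w 4 b mu = L.val b mu n)
    {u : ℝ} (hu : ∀ b' ∈ J, L.ψ b' n ≤ L.ψ b n + u * (b' - b)) : 107 ≤ u ∧ u ≤ 200 := by
  have hbJ := Triple.J'_sub_J hb
  have hv := v_le_p hP hI.k2 hbJ (by norm_num : 2 ≤ 4) (le_refl 4) mu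
  rw [hval, vS_four] at hv
  unfold Lvl.val at hv
  have ht := abs_le.1 (Lvl.mem_Win.1 hn)
  push_cast at ht
  have hw := hP.w_nonneg
  have hw' := hP.w_le
  have heps := hP.eps_le
  have hs1 := hP.s_lo
  have hs2 := hP.s_hi
  have ha : (143 - mu) * (tt L.M n - 4) ≤ 13 * q.w :=
    (mul_le_mul_of_nonneg_left (by linarith [ht.2]) (by linarith)).trans
      (mul_le_mul_of_nonneg_right (by linarith) hw)
  have hb' : -(13 * q.w) ≤ (143 - mu) * (tt L.M n - 4) := by
    have h1 : (143 - mu) * (-q.w) ≤ (143 - mu) * (tt L.M n - 4) :=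
      mul_le_mul_of_nonneg_left (by linarith [ht.1]) (by linarith)
    have h2 : (143 - mu) * q.w ≤ 13 * q.w := mul_le_mul_of_nonneg_right (by linarith) hw
    linarith
  constructor
  · have h1 := hu _ (add_mem_J hb)
    have h2 := psi_ge_143 hP hI (add_mem_J hb) n
    have e : b + 0.004 - b = 0.004 := by ring
    rw [e] at h1
    nlinarith
  · have h1 := hu _ (sub_mem_J hb)
    have h2 := psi_ge_143 hP hI (sub_mem_J hb) n
    have e : b - 0.004 - b = -0.004 := by ring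
    rw [e] at h1
    nlinarith

lemma u3_bounds (hP : Par L q) (hI : Inv L q) {b mu : ℝ} (hb : b ∈ J') (hmu : 130 ≤ mu)
    (hmu' : mu ≤ 142) (h2 : L.p q.w 2 b mu = L.p q.w 3 b mu)
    (h4 : L.p q.w 4 b mu = L.p q.w 3 b mu)
    {n : ℕ} (hn : n ∈ L.Win q.w 3) (hval : L.p q.w 3 b mu = L.val b mu n)
    {u : ℝ} (hu : ∀ b' ∈ J, L.ψ b' n ≤ L.ψ b n + u * (b' - b)) : -200 ≤ u ∧ u ≤ 57 := by
  have hbJ := Triple.J'_sub_J hb
  have hw := hP.w_nonneg
  have hw' := hP.w_le
  have heps := hP.eps_le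
  have heps0 := hP.eps_nonneg
  have hs1 := hP.s_lo
  have hs2 := hP.s_hi
  constructor
  · -- lower bound
    have hv2 := v_le_p hP hI.k2 hbJ (le_refl 2) (by norm_num : 2 ≤ 4) mu
    have hv3 := v_le_p hP hI.k2 hbJ (by norm_num : 2 ≤ 3) (by norm_num : 3 ≤ 4) mu
    have hv4 := v_le_p hP hI.k2 hbJ (by norm_num : 2 ≤ 4) (le_refl 4) mu
    rw [h2] at hv2
    rw [h4] at hv4
    have hk := hI.k1 _ (add_mem_J hb) mu (by linarith) (by linarith [hP.hi_lo]) n
    have hVm : Vm q.s (b + 0.004) mu ≤ L.p q.w 3 b mu + q.eps := by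
      unfold Vm
      rw [vS_two] at hv2 ⊢
      rw [vS_three] at hv3 ⊢
      rw [vS_four] at hv4 ⊢
      refine max_le ?_ (max_le ?_ ?_) <;> nlinarith
    have h1 := hu _ (add_mem_J hb)
    have e : b + 0.004 - b = 0.004 := by ring
    rw [e] at h1
    rw [hval] at hVm
    unfold Lvl.val at hk hVm
    linarith
  · -- upper bound, from (LL)
    have hhh := hP.hh_pos
    have hhh' := hP.hh_le
    have hxJ : b - q.hh ∈ J := by
      unfold J' at hb; unfold J
      constructor <;> [linarith [hb.1]; linarith [hb.2]]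
    have hll := hI.ll b hb mu hmu (by linarith [hP.hi'_lo]) h2.le h4.le q.hh hhh.le le_rfl
    have hle := L.le_p hP.M_pos hn (b - q.hh) mu
    have h1 := hu _ hxJ
    have e : b - q.hh - b = - q.hh := by ring
    rw [e] at h1
    rw [hval] at hll
    unfold Lvl.val at hll hle
    have h3 : u * q.hh ≤ q.Ub * q.hh := by linarith
    have h5 : u ≤ q.Ub := le_of_mul_le_mul_right h3 hhh
    linarith [hP.Ub_le]

end Slopes

open Slopes in
theorem level_concl {L : Lvl} {q : Prm} (hP : Par L q) (hI : Inv L q) : Nonempty (TP L) := by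
  obtain ⟨b, hb, mu, hmu, hmu', h2, h4⟩ := triple_point hP hI
  have hbJ := Triple.J'_sub_J hb
  have hM := hP.M_pos
  have hw := hP.w_nonneg
  have hPi : ∀ i : Fin 3, L.p q.w ((i : ℕ) + 2) b mu = L.p q.w 3 b mu := by
    intro i
    fin_cases i
    · exact h2
    · rfl
    · exact h4
  choose n hn hval using fun i : Fin 3 => L.exists_p hM hw ((i : ℕ) + 2) b mu
  choose u hu using fun i : Fin 3 => exists_supergradient (hP.conc (n i)) hb
  have b2 := u2_bounds hP hI hb hmu hmu' (hn 0) (hval 0) (hu 0)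
  have b3 := u3_bounds hP hI hb hmu hmu' h2 h4 (hn 1) (hval 1) (hu 1)
  have b4 := u4_bounds hP hI hb hmu hmu' (hn 2) (hval 2) (hu 2)
  have hPk : L.Pk q.w b mu = L.p q.w 3 b mu := by
    unfold Lvl.Pk
    rw [h2, h4, max_self, max_self]
  refine ⟨{ b := b, mu := mu, P := L.p q.w 3 b mu, n := n, u := u, b_mem := hb, mu_lo := hmu,
            mu_hi := hmu', P_nonneg := ?_, P_le := ?_, n_near := ?_, val_eq := ?_, val_le := ?_,
            super := hu, u2 := b2.1, u3 := b3.2, u4 := b4.1, u_abs := ?_ }⟩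
  · have := Pk_ge hP hI.k2 hbJ hmu
    rw [hPk] at this
    linarith
  · have := Pk_le hP hI.k1 hbJ (by linarith : (125 : ℝ) ≤ mu) (by linarith [hP.hi_lo])
    rw [hPk] at this
    linarith
  · intro i
    have := Lvl.mem_Win.1 (hn i)
    push_cast at this
    linarith [hP.w_le]
  · intro i
    rw [← hval i, hPi i]
  · intro b' hb' n'
    have hb'J : b' ∈ J := by
      unfold J'' at hb'; unfold J
      constructor <;> [linarith [hb'.1]; linarith [hb'.2]]
    have h1 := hI.h1 b' hb'J mu hmu (by linarith [hP.hi'_lo]) n'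
    have h3 := (abs_le.1 (cL_Pk hP hI.k1 hI.k2 hmu (by linarith : mu ≤ 143) hb'
      (Triple.J'_sub_J'' hb))).2
    rw [hPk] at h3
    linarith
  · intro i
    rw [abs_le]
    fin_cases i
    · show -200 ≤ u 0 ∧ u 0 ≤ 200
      exact ⟨by linarith [b2.1], b2.2⟩
    · show -200 ≤ u 1 ∧ u 1 ≤ 200
      exact ⟨b3.1, by linarith [b3.2]⟩
    · show -200 ≤ u 2 ∧ u 2 ≤ 200
      exact ⟨by linarith [b4.1], b4.2⟩

end Crest.Agent.S0209.H
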