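import Crest.Agent.S0209_HArith

/-! # ROW 149, section H, package HS1 : the step for (K1) and (K2) -/

set_option autoImplicit false
namespace Crest.Agent.S0209.H

theorem step_K2 {L L' : Lvl} {ph : ℝ → ℕ → ℝ} {m : ℕ} {a E eta : ℝ} {q : Prm}
    (hS : Step L L' ph m a E eta) (hP : Par L q) (h2 : K2 L q) : K2 L' (q.next a E eta) := by
  intro b hb i hi2 hi4
  have hM' : 1 ≤ L'.M := by
    rw [hS.M_eq]; exact Nat.mul_pos hS.m_pos hP.M_pos
  have e1 : i * L'.M = m * (i * L.M) := by rw [hS.M_eq]; ring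
  have hU := hS.U b hb (i * L.M) (Nat.mul_le_mul_right _ (by omega))
  have hK := h2 b hb i hi2 hi4
  rw [hS.psi_eq, tt_mul _ _ hM', e1]
  have e2 : gS (q.next a E eta).s i b = gS q.s i b - a * b * (i : ℝ) ^ 2 / 2 := by
    simp only [gS, Prm.next]; ring
  have e3 : (q.next a E eta).eps = q.eps + 300 * eta + 301 * E + 45450 * a := rfl
  rw [e2, e3]
  have := hS.a_pos
  have := hS.E_nonneg
  have := hS.eta_nonneg
  nlinarith

set_option maxHeartbeats 1000000 in
theorem step_K1 {L L' : Lvl} {ph : ℝ → ℕ → ℝ} {m : ℕ} {a E eta : ℝ} {q : Prm}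
    (hS : Step L L' ph m a E eta) (hP : Par L q) (h1 : K1 L q) : K1 L' (q.next a E eta) := by
  intro b hb mu hmu hmu' N
  have hs : (q.next a E eta).s = q.s + a := rfl
  have he : (q.next a E eta).eps = q.eps + 300 * eta + 301 * E + 45450 * a := rfl
  have hhi : (q.next a E eta).hi = q.hi - 15.2 * a := rfl
  rw [hhi] at hmu'
  rw [hs, he]
  have ha := hS.a_pos
  have ha' := hS.a_le
  have hE := hS.E_nonneg
  have heta := hS.eta_nonneg
  have hb1 : 0.99 ≤ b := hb.1
  have hb2 : b ≤ 1.01 := hb.2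
  have hb0 : 0 ≤ b := by linarith
  have hslo := hP.s_lo
  have hshi := hP.s_hi
  have heps0 := hP.eps_nonneg
  have heps := hP.eps_le
  have hhi1 := hP.hi_lo
  have hhi2 := hP.hi_hi
  set t := tt L'.M N with ht
  have ht0 : 0 ≤ t := tt_nonneg _ _
  have hval : L'.val b mu N = mu * t - ph b N + b * a * t ^ 2 / 2 := by
    unfold Lvl.val
    rw [hS.psi_eq, ← ht]; ring
  rw [hval]
  -- the general consequence of (L_k) and (K1)
  have hLo : ∀ mu' : ℝ, 125 ≤ mu' → mu' ≤ q.hi →
      mu' * t - (1 + eta) * (Vm q.s b mu' + q.eps) - E * (1 + t) ≤ ph b N := by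
    intro mu' h h'
    exact hS.Lo b hb mu' h (h'.trans hhi2) _ (fun n => h1 b hb mu' h h' n) N
  rcases le_or_gt t 15 with ht15 | ht15
  · -- t ≤ 15
    have hbat : 0 ≤ b * a * t := by positivity
    have hbat' : b * a * t ≤ 15.2 * a := by nlinarith [mul_nonneg ha.le ht0, mul_nonneg ha.le hb0]
    have h := hLo (mu + b * a * t) (by linarith) (by linarith)
    have hsh := Vm_shift_le (s := q.s) ha.le hb0 mu t
    have hV := Vm_le hslo hshi hb (mu := mu + b * a * t) (by linarith)
    nlinarith [mul_nonneg heta (sub_nonneg.2 hV), mul_nonneg hE (sub_nonneg.2 ht15),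
      mul_nonneg heta (sub_nonneg.2 heps)]
  · rcases le_or_gt t 300 with ht250 | ht250
    · -- 15 < t ≤ 300
      have h := hLo q.hi (by linarith) le_rfl
      have hd : 0 ≤ q.hi - mu := by linarith
      have hadd := Vm_add_le q.s b mu hd
      rw [add_sub_cancel] at hadd
      have hV := Vm_le hslo hshi hb (mu := q.hi) hhi2
      have hmono := Vm_mono_s (s := q.s) (s' := q.s + a) (by linarith) hb0 mu
      have h3 : b * a * t ^ 2 / 2 ≤ 45450 * a := by
        have : t ^ 2 ≤ 90000 := by nlinarith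
        have : b * t ^ 2 ≤ 1.01 * 90000 := by nlinarith [sq_nonneg t]
        nlinarith
      have h4 : (mu - q.hi) * t ≤ (mu - q.hi) * 15 := by nlinarith
      nlinarith [mul_nonneg heta (sub_nonneg.2 hV), mul_nonneg hE (sub_nonneg.2 ht250),
        mul_nonneg heta (sub_nonneg.2 heps)]
    · -- t > 300
      have hSS := hS.SS b hb N
      rw [← ht] at hSS
      have hV2 := vS_le_Vm2 (q.s + a) b mu
      rw [vS_two] at hV2
      have h3 : b * a * t ^ 2 / 2 ≤ 0.01 * t ^ 2 := by
        have hba : b * a ≤ 0.02 := by nlinarith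
        have := mul_le_mul_of_nonneg_right hba (sq_nonneg t)
        linarith
      have h5 : 0 ≤ (q.s + a) * b := by
        have : 0 ≤ q.s + a := by linarith
        positivity
      have k1 : mu * t ≤ 150 * t := mul_le_mul_of_nonneg_right (by linarith) ht0
      have k2 : 300 * t ≤ t ^ 2 := by nlinarith
      linarith

end Crest.Agent.S0209.H
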