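import Crest.Agent.S0209_HCrude

/-! # ROW 149, section H, package HS2 : (Sa), (Sb) and the step for (H1) -/

set_option autoImplicit false
namespace Crest.Agent.S0209.H

namespace StepS

/-- transport of a site number `n` of level `k` to level `k+1`. -/
theorem val_lift {L L' : Lvl} {ph : ℝ → ℕ → ℝ} {m : ℕ} {a E eta : ℝ}
    (hS : Step L L' ph m a E eta) {b : ℝ} (hb : b ∈ J) (mu s : ℝ) {n : ℕ} (hn : n ≤ 15 * L.M) :
    L.val b (mu + b * a * s) n - b * a * s * tt L.M n + b * a * tt L.M n ^ 2 / 2 - E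
      ≤ L'.val b mu (m * n) := by
  have hU := hS.U b hb n hn
  have ht : tt L'.M (m * n) = tt L.M n := by rw [hS.M_eq]; exact tt_mul_left _ _ _ hS.m_pos
  unfold Lvl.val
  rw [hS.psi_eq, ht]
  nlinarith

theorem le_of_mem_Win {L : Lvl} (hM : 1 ≤ L.M) {w : ℝ} (hw : w ≤ 1e-3) {i n : ℕ} (hi : i ≤ 4)
    (hn : n ∈ L.Win w i) : n ≤ 15 * L.M := by
  have h1 := Lvl.tt_le_of_mem hn
  have hMpos : (0 : ℝ) < L.M := by exact_mod_cast hM
  have hi' : (i : ℝ) ≤ 4 := by exact_mod_cast hi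
  have h2 : tt L.M n ≤ 15 := by linarith
  unfold tt at h2
  rw [div_le_iff₀ hMpos] at h2
  exact_mod_cast h2

theorem lift_mem_Win {L L' : Lvl} {ph : ℝ → ℕ → ℝ} {m : ℕ} {a E eta : ℝ} {q : Prm}
    (hS : Step L L' ph m a E eta) {i n : ℕ} (hn : n ∈ L.Win q.w i) :
    m * n ∈ L'.Win (q.next a E eta).w i := by
  have ht : tt L'.M (m * n) = tt L.M n := by rw [hS.M_eq]; exact tt_mul_left _ _ _ hS.m_pos
  rw [Lvl.mem_Win, ht]
  rw [Lvl.mem_Win] at hn
  have : (q.next a E eta).w = q.w + Real.sqrt (3 * th a E eta) := rfl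
  rw [this]
  have := Real.sqrt_nonneg (3 * th a E eta)
  linarith

theorem M'_pos {L L' : Lvl} {ph : ℝ → ℕ → ℝ} {m : ℕ} {a E eta : ℝ} {q : Prm}
    (hS : Step L L' ph m a E eta) (hP : Par L q) : 1 ≤ L'.M := by
  rw [hS.M_eq]; exact Nat.mul_pos hS.m_pos hP.M_pos

end StepS

open StepS

theorem step_Sa {L L' : Lvl} {ph : ℝ → ℕ → ℝ} {m : ℕ} {a E eta : ℝ} {q : Prm}
    (hS : Step L L' ph m a E eta) (hP : Par L q) {b : ℝ} (hb : b ∈ J) {i : ℕ} (hi2 : 2 ≤ i)
    (hi4 : i ≤ 4) (mu s : ℝ) :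
    L.p q.w i b (mu + b * a * s) - b * a * s ^ 2 / 2 - E ≤ L'.p (q.next a E eta).w i b mu := by
  obtain ⟨n, hn, hmax⟩ := L.exists_p hP.M_pos hP.w_nonneg i b (mu + b * a * s)
  have h1 := val_lift hS hb mu s (le_of_mem_Win hP.M_pos hP.w_le hi4 hn)
  have h2 := L'.le_p (M'_pos hS hP) (lift_mem_Win (q := q) hS hn) b mu
  rw [hmax]
  have hb0 : 0 ≤ b := by have := hb.1; linarith
  have hba : 0 ≤ b * a := mul_nonneg hb0 hS.a_pos.le
  nlinarith [mul_nonneg hba (sq_nonneg (tt L.M n - s))]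

theorem step_Sb {L L' : Lvl} {ph : ℝ → ℕ → ℝ} {m : ℕ} {a E eta : ℝ} {q : Prm}
    (hS : Step L L' ph m a E eta) (hP : Par L q) (hH : H1 L q) {b : ℝ} (hb : b ∈ J) {mu : ℝ}
    (hmu : 130 ≤ mu) (hmu' : mu ≤ (q.next a E eta).hi') {N : ℕ} (hN : tt L'.M N ≤ 15) :
    L'.val b mu N ≤ (1 + eta) * L.Pk q.w b (mu + b * a * tt L'.M N)
      - b * a * tt L'.M N ^ 2 / 2 + 16 * E := by
  have hhi : (q.next a E eta).hi' = q.hi' - 15.2 * a := rfl
  rw [hhi] at hmu'
  set t := tt L'.M N with ht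
  have ht0 : 0 ≤ t := tt_nonneg _ _
  have ha := hS.a_pos
  have hb1 : 0.99 ≤ b := hb.1
  have hb2 : b ≤ 1.01 := hb.2
  have hb0 : 0 ≤ b := by linarith
  have hbat : 0 ≤ b * a * t := by positivity
  have hbat' : b * a * t ≤ 15.2 * a := by nlinarith [mul_nonneg ha.le ht0, mul_nonneg ha.le hb0]
  have hhi' := hP.hi'_hi
  have hLo := hS.Lo b hb (mu + b * a * t) (by linarith) (by linarith) _
    (fun n => hH b hb (mu + b * a * t) (by linarith) (by linarith) n) N
  rw [← ht] at hLo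
  have hval : L'.val b mu N = mu * t - ph b N + b * a * t ^ 2 / 2 := by
    unfold Lvl.val
    rw [hS.psi_eq, ← ht]; ring
  rw [hval]
  nlinarith [mul_nonneg hS.E_nonneg (sub_nonneg.2 hN)]

theorem step_H1 {L L' : Lvl} {ph : ℝ → ℕ → ℝ} {m : ℕ} {a E eta : ℝ} {q : Prm}
    (hS : Step L L' ph m a E eta) (hP : Par L q) (hP' : Par L' (q.next a E eta))
    (h1 : K1 L q) (hH : H1 L q) (h1' : K1 L' (q.next a E eta)) (h2' : K2 L' (q.next a E eta)) :
    H1 L' (q.next a E eta) := by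
  intro b hb mu hmu hmu' N
  rcases lt_or_ge 15 (tt L'.M N) with ht15 | ht15
  · -- large `t`
    have hc := cT hP' h1' hb hmu (hmu'.trans hP'.hi'_hi) ht15
    have hv := v_le_p hP' h2' hb (le_refl 2) (by norm_num) mu
    have hp := L'.p_le_Pk (q.next a E eta).w b mu (le_refl 2) (by norm_num)
    linarith
  · -- `t ≤ 15`
    have hSb := step_Sb hS hP hH hb hmu hmu' ht15
    have hhi : (q.next a E eta).hi' = q.hi' - 15.2 * a := rfl
    have hw' : (q.next a E eta).w = q.w + Real.sqrt (3 * th a E eta) := rfl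
    set t := tt L'.M N with ht
    have ht0 : 0 ≤ t := tt_nonneg _ _
    have ha := hS.a_pos
    have hb1 : 0.99 ≤ b := hb.1
    have hb2 : b ≤ 1.01 := hb.2
    have hb0 : 0 ≤ b := by linarith
    have hbat : 0 ≤ b * a * t := by positivity
    have hbat' : b * a * t ≤ 15.2 * a := by
      nlinarith [mul_nonneg ha.le ht0, mul_nonneg ha.le hb0]
    obtain ⟨i, hi2, hi4, hPk⟩ := L.exists_Pk q.w b (mu + b * a * t)
    obtain ⟨n, hn, hmax⟩ := L.exists_p hP.M_pos hP.w_nonneg i b (mu + b * a * t)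
    by_cases hNw : N ∈ L'.Win (q.next a E eta).w i
    · exact (L'.le_p hP'.M_pos hNw b mu).trans (L'.p_le_Pk _ b mu hi2 hi4)
    · have hlift := val_lift hS hb mu t (le_of_mem_Win hP.M_pos hP.w_le hi4 hn)
      have hle := (L'.le_p hP'.M_pos (lift_mem_Win (q := q) hS hn) b mu).trans
        (L'.p_le_Pk _ b mu hi2 hi4)
      refine le_trans ?_ hle
      refine le_trans ?_ hlift
      rw [← hmax, ← hPk]
      refine hSb.trans ?_
      have hPkle : L.Pk q.w b (mu + b * a * t) ≤ 252 := by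
        rw [hhi] at hmu'
        have := hP.hi'_hi
        have := hP.hi_lo
        exact Pk_le hP h1 hb (by linarith) (by linarith)
      set τ := tt L.M n with hτ
      -- `|t - τ| > sqrt (3 θ)`
      rw [Lvl.mem_Win, ← ht, hw', not_le] at hNw
      rw [Lvl.mem_Win, ← hτ] at hn
      have hsq : Real.sqrt (3 * th a E eta) < |t - τ| := by
        have h3 : |t - (i : ℝ)| ≤ |t - τ| + |τ - i| := by
          have := abs_add_le (t - τ) (τ - i)
          simpa using this
        linarith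
      have hth0 : 0 ≤ 3 * th a E eta := by
        have := hS.E_nonneg
        have := hS.eta_nonneg
        unfold th
        positivity
      have hsq2 : 3 * th a E eta ≤ (t - τ) ^ 2 := by
        rw [← Real.sq_sqrt hth0, ← sq_abs (t - τ)]
        exact pow_le_pow_left₀ (Real.sqrt_nonneg _) hsq.le 2
      have hth : a * th a E eta = 300 * eta + 20 * E := by
        unfold th
        field_simp
      have h5 : 3 * (300 * eta + 20 * E) ≤ a * (t - τ) ^ 2 := by
        rw [← hth]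
        nlinarith
      have h6 : 0.99 * (a * (t - τ) ^ 2) ≤ b * (a * (t - τ) ^ 2) :=
        mul_le_mul_of_nonneg_right hb1 (by positivity)
      have h7 : eta * L.Pk q.w b (mu + b * a * t) ≤ eta * 252 :=
        mul_le_mul_of_nonneg_left hPkle hS.eta_nonneg
      have := hS.E_nonneg
      have := hS.eta_nonneg
      nlinarith

end Crest.Agent.S0209.H
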