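import Crest.Agent.S0209_HP
import Crest.Agent.S0209_HCrude
import Crest.Agent.S0209_HStepK
import Crest.Agent.S0209_HStepS

/-! # ROW 149, section H, package HS3 : (Dom) and the step of (LL) -/

set_option autoImplicit false
namespace Crest.Agent.S0209.H

namespace HS3

lemma J'_sub_J {b : ℝ} (hb : b ∈ J') : b ∈ J :=
  ⟨by have := hb.1; norm_num at this ⊢; linarith, by have := hb.2; norm_num at this ⊢; linarith⟩

lemma th_mul {a E eta : ℝ} (ha : 0 < a) : th a E eta * a = 300 * eta + 20 * E := by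
  unfold th; field_simp

/-- the quantitative form of (Dom) at the point `(b, μ + b a t*)`. -/
theorem dom_center {L L' : Lvl} {ph : ℝ → ℕ → ℝ} {m : ℕ} {a E eta : ℝ} {q : Prm}
    (hS : Step L L' ph m a E eta) (hP : Par L q) (hP' : Par L' (q.next a E eta))
    (h1 : K1 L q) (hH : H1 L q) {b : ℝ} (hb : b ∈ J') {mu : ℝ}
    (hmu : 130 ≤ mu) (hmu' : mu ≤ (q.next a E eta).hi')
    (h32 : L'.p (q.next a E eta).w 2 b mu ≤ L'.p (q.next a E eta).w 3 b mu)
    (h34 : L'.p (q.next a E eta).w 4 b mu ≤ L'.p (q.next a E eta).w 3 b mu)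
    {N : ℕ} (hN : N ∈ L'.Win (q.next a E eta).w 3)
    (hNmax : L'.p (q.next a E eta).w 3 b mu = L'.val b mu N) :
    L.p q.w 2 b (mu + b * a * tt L'.M N) + 0.49 * a ≤ L.p q.w 3 b (mu + b * a * tt L'.M N) ∧
    L.p q.w 4 b (mu + b * a * tt L'.M N) + 0.49 * a ≤ L.p q.w 3 b (mu + b * a * tt L'.M N) := by
  have hw' : (q.next a E eta).w ≤ 1e-3 := hP'.w_le
  have hw : q.w ≤ 1e-3 := hP.w_le
  have hw0 : 0 ≤ q.w := hP.w_nonneg
  have ha := hS.a_pos
  have ha' := hS.a_le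
  have hE := hS.E_nonneg
  have heta := hS.eta_nonneg
  have hth : 300 * eta + 20 * E ≤ 2e-6 * a := by
    rw [← th_mul ha]; exact mul_le_mul_of_nonneg_right hS.th_le ha.le
  have hhi' : (q.next a E eta).hi' = q.hi' - 15.2 * a := rfl
  have hbJ : b ∈ J := J'_sub_J hb
  have hb1 : (0.995 : ℝ) ≤ b := hb.1
  have hb2 : b ≤ (1.005 : ℝ) := hb.2
  set t := tt L'.M N with ht
  have ht3 : |t - 3| ≤ (q.next a E eta).w := by
    have := hN
    rw [Lvl.mem_Win] at this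
    simpa using this
  obtain ⟨ht_lo, ht_hi⟩ := abs_le.1 ht3
  set c := b * a with hc
  have hc0 : 0 < c := by positivity
  have hc1 : 0.995 * a ≤ c := mul_le_mul_of_nonneg_right hb1 ha.le
  have hc2 : c ≤ 1.005 * a := mul_le_mul_of_nonneg_right hb2 ha.le
  have hct : c * t ≤ 3.1 * a := by nlinarith
  have hct0 : 0 ≤ c * t := by
    have : 0 ≤ t := by linarith
    positivity
  have hq_hi' := hP.hi'_hi
  have hq_hi := hP.hi_lo
  -- (Sb)
  have hSb := step_Sb hS hP hH hbJ hmu hmu' (N := N) (by rw [← ht]; linarith)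
  rw [← ht, ← hNmax, ← hc] at hSb
  have hPk := Pk_le hP h1 hbJ (mu := mu + c * t) (by linarith) (by rw [hhi'] at hmu'; linarith)
  have hetaPk : eta * L.Pk q.w b (mu + c * t) ≤ eta * 252 := mul_le_mul_of_nonneg_left hPk heta
  -- (Sa), i = 2, s = 2
  have hSa2 := step_Sa hS hP hbJ (i := 2) (le_refl _) (by norm_num) mu 2
  rw [← hc] at hSa2
  have hp2 := L.p_add_le hP.M_pos hw0 2 b (mu + c * 2) (d := c * (t - 2))
    (mul_nonneg hc0.le (by linarith))
  have e2 : mu + c * 2 + c * (t - 2) = mu + c * t := by ring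
  rw [e2] at hp2
  -- (Sa), i = 4, s = 4
  have hSa4 := step_Sa hS hP hbJ (i := 4) (by norm_num) (le_refl _) mu 4
  rw [← hc] at hSa4
  have hp4 := L.le_p_add hP.M_pos hw0 4 b (mu + c * t) (d := c * (4 - t))
    (mul_nonneg hc0.le (by linarith))
  have e4 : mu + c * t + c * (4 - t) = mu + c * 4 := by ring
  rw [e4] at hp4
  push_cast at hp2 hp4
  -- the two brackets
  have hew : (t - 3) * q.w ≤ 1e-3 * q.w := mul_le_mul_of_nonneg_right (by linarith) hw0
  have hew' : -(1e-3 * q.w) ≤ (t - 3) * q.w := by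
    have : (-1e-3) * q.w ≤ (t - 3) * q.w := mul_le_mul_of_nonneg_right (by linarith) hw0
    linarith
  have hB2 : (t - 2) * (2 + q.w) + 2 - t ^ 2 / 2 ≤ -0.4979 := by
    nlinarith [sq_nonneg (t - 3)]
  have hB4 : 0.4979 ≤ (4 - t) * (4 - q.w) - 8 + t ^ 2 / 2 := by
    nlinarith [sq_nonneg (t - 3)]
  have hcB2 : c * ((t - 2) * (2 + q.w) + 2 - t ^ 2 / 2) ≤ c * (-0.4979) :=
    mul_le_mul_of_nonneg_left hB2 hc0.le
  have hcB4 : c * 0.4979 ≤ c * ((4 - t) * (4 - q.w) - 8 + t ^ 2 / 2) :=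
    mul_le_mul_of_nonneg_left hB4 hc0.le
  have k2 : L.p q.w 2 b (mu + c * t) + 0.49 * a ≤ L.Pk q.w b (mu + c * t) := by
    linarith
  have k4 : L.p q.w 4 b (mu + c * t) + 0.49 * a ≤ L.Pk q.w b (mu + c * t) := by
    linarith
  obtain ⟨i, hi2, hi4, hi⟩ := L.exists_Pk q.w b (mu + c * t)
  have hi3 : i = 3 := by
    interval_cases i
    · exfalso; rw [hi] at k2; linarith
    · rfl
    · exfalso; rw [hi] at k4; linarith
  subst hi3
  rw [hi] at k2 k4
  exact ⟨k2, k4⟩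

end HS3

open HS3

/-- DOMINANCE: if `p_3` dominates at level `k+1` at `(b,μ)` and `N` is a maximiser of `p_3^{k+1}`,
then `p_3` strictly dominates at level `k` in a neighbourhood of `(b, μ + b a t*)`. -/
theorem step_Dom {L L' : Lvl} {ph : ℝ → ℕ → ℝ} {m : ℕ} {a E eta : ℝ} {q : Prm}
    (hS : Step L L' ph m a E eta) (hP : Par L q) (hP' : Par L' (q.next a E eta))
    (h1 : K1 L q) (h2 : K2 L q) (hH : H1 L q) {b : ℝ} (hb : b ∈ J') {mu : ℝ}
    (hmu : 130 ≤ mu) (hmu' : mu ≤ (q.next a E eta).hi')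
    (h32 : L'.p (q.next a E eta).w 2 b mu ≤ L'.p (q.next a E eta).w 3 b mu)
    (h34 : L'.p (q.next a E eta).w 4 b mu ≤ L'.p (q.next a E eta).w 3 b mu)
    {N : ℕ} (hN : N ∈ L'.Win (q.next a E eta).w 3)
    (hNmax : L'.p (q.next a E eta).w 3 b mu = L'.val b mu N)
    {b' mu' : ℝ} (hb' : |b' - b| ≤ 1e-5 * a) (hmu'' : |mu' - (mu + b * a * tt L'.M N)| ≤ 0.03 * a) :
    L.p q.w 2 b' mu' < L.p q.w 3 b' mu' ∧ L.p q.w 4 b' mu' < L.p q.w 3 b' mu' := by
  obtain ⟨d2, d4⟩ := dom_center hS hP hP' h1 hH hb hmu hmu' h32 h34 hN hNmax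
  have hw' : (q.next a E eta).w ≤ 1e-3 := hP'.w_le
  have hw : q.w ≤ 1e-3 := hP.w_le
  have hw0 : 0 ≤ q.w := hP.w_nonneg
  have ha := hS.a_pos
  have ha' := hS.a_le
  have hhi' : (q.next a E eta).hi' = q.hi' - 15.2 * a := rfl
  have hb1 : (0.995 : ℝ) ≤ b := hb.1
  have hb2 : b ≤ (1.005 : ℝ) := hb.2
  set t := tt L'.M N with ht
  have ht3 : |t - 3| ≤ (q.next a E eta).w := by
    have := hN
    rw [Lvl.mem_Win] at this
    simpa using this
  obtain ⟨ht_lo, ht_hi⟩ := abs_le.1 ht3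
  set c := b * a with hc
  have hc0 : 0 < c := by positivity
  have hc1 : 0.995 * a ≤ c := mul_le_mul_of_nonneg_right hb1 ha.le
  have hc2 : c ≤ 1.005 * a := mul_le_mul_of_nonneg_right hb2 ha.le
  have hct : c * t ≤ 3.1 * a := by nlinarith
  have hct0 : 2.9 * a ≤ c * t := by nlinarith
  set mup := mu + c * t with hmup
  obtain ⟨hm_lo, hm_hi⟩ := abs_le.1 hmu''
  obtain ⟨hb_lo, hb_hi⟩ := abs_le.1 hb'
  have hq_hi' := hP.hi'_hi
  have hmu1 : 130 ≤ mu' := by linarith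
  have hmu2 : mu' ≤ 143 := by rw [hhi'] at hmu'; linarith
  have hbJ'' : b ∈ J'' := ⟨by norm_num; linarith, by norm_num; linarith⟩
  have hb'J'' : b' ∈ J'' := ⟨by norm_num; linarith, by norm_num; linarith⟩
  have hbb : |b - b'| ≤ 1e-5 * a := by rw [abs_sub_comm]; exact hb'
  have L2 := cL hP h1 h2 (i := 2) (le_refl _) (by norm_num) hmu1 hmu2 hbJ'' hb'J''
  have L3 := cL hP h1 h2 (i := 3) (by norm_num) (by norm_num) hmu1 hmu2 hbJ'' hb'J''
  have L4 := cL hP h1 h2 (i := 4) (by norm_num) (le_refl _) hmu1 hmu2 hbJ'' hb'J''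
  have A2 := L.abs_p_sub_le hP.M_pos hw0 2 b mup mu'
  have A3 := L.abs_p_sub_le hP.M_pos hw0 3 b mup mu'
  have A4 := L.abs_p_sub_le hP.M_pos hw0 4 b mup mu'
  push_cast at A2 A3 A4
  have hwm : q.w * |mu' - mup| ≤ 1e-3 * (0.03 * a) :=
    mul_le_mul hw hmu'' (abs_nonneg _) (by norm_num)
  have hLb : 4500 * |b - b'| ≤ 0.045 * a := by linarith
  obtain ⟨L2a, L2b⟩ := abs_le.1 (L2.trans hLb)
  obtain ⟨L3a, L3b⟩ := abs_le.1 (L3.trans hLb)
  obtain ⟨L4a, L4b⟩ := abs_le.1 (L4.trans hLb)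
  obtain ⟨A2a, A2b⟩ := abs_le.1 (A2.trans hwm)
  obtain ⟨A3a, A3b⟩ := abs_le.1 (A3.trans hwm)
  obtain ⟨A4a, A4b⟩ := abs_le.1 (A4.trans hwm)
  constructor <;> linarith

namespace HS3

lemma Pk_eq_p3 (L : Lvl) (w b mu : ℝ) (h2 : L.p w 2 b mu ≤ L.p w 3 b mu)
    (h4 : L.p w 4 b mu ≤ L.p w 3 b mu) : L.Pk w b mu = L.p w 3 b mu := by
  unfold Lvl.Pk
  rw [max_eq_left h4, max_eq_right h2]

/-- (LL) at the full step `h = 1e-5 a`. -/
theorem LL_full {L L' : Lvl} {ph : ℝ → ℕ → ℝ} {m : ℕ} {a E eta : ℝ} {q : Prm}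
    (hS : Step L L' ph m a E eta) (hP : Par L q) (hP' : Par L' (q.next a E eta))
    (hhh : 1e-5 * a ≤ q.hh) (hI : Inv L q) {b : ℝ} (hb : b ∈ J') {mu : ℝ}
    (hmu : 130 ≤ mu) (hmu' : mu ≤ (q.next a E eta).hi')
    (h32 : L'.p (q.next a E eta).w 2 b mu ≤ L'.p (q.next a E eta).w 3 b mu)
    (h34 : L'.p (q.next a E eta).w 4 b mu ≤ L'.p (q.next a E eta).w 3 b mu) :
    L'.p (q.next a E eta).w 3 (b - 1e-5 * a) mu
      ≤ L'.p (q.next a E eta).w 3 b mu + (q.next a E eta).Ub * (1e-5 * a) := by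
  have hw' : (q.next a E eta).w ≤ 1e-3 := hP'.w_le
  have hw'0 : 0 ≤ (q.next a E eta).w := hP'.w_nonneg
  have hw : q.w ≤ 1e-3 := hP.w_le
  have hw0 : 0 ≤ q.w := hP.w_nonneg
  have ha := hS.a_pos
  have ha' := hS.a_le
  have hE := hS.E_nonneg
  have heta := hS.eta_nonneg
  have hhi' : (q.next a E eta).hi' = q.hi' - 15.2 * a := rfl
  have hUb' : (q.next a E eta).Ub = q.Ub + 1e5 * th a E eta := rfl
  have hb1 : (0.995 : ℝ) ≤ b := hb.1
  have hb2 : b ≤ (1.005 : ℝ) := hb.2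
  have hbJ : b ∈ J := J'_sub_J hb
  set h0 : ℝ := 1e-5 * a with hh0
  have hh0pos : 0 < h0 := by positivity
  have hh0le : h0 ≤ 1e-16 := by rw [hh0]; linarith
  have hbh : b - h0 ∈ J := ⟨by norm_num; linarith, by norm_num; linarith⟩
  obtain ⟨Ns, hNs, hNsmax⟩ := L'.exists_p hP'.M_pos hw'0 3 b mu
  obtain ⟨N, hN, hNmax⟩ := L'.exists_p hP'.M_pos hw'0 3 (b - h0) mu
  set ts := tt L'.M Ns with hts
  set t := tt L'.M N with ht
  have hts3 : |ts - 3| ≤ (q.next a E eta).w := by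
    have := hNs
    rw [Lvl.mem_Win] at this
    simpa using this
  have ht3 : |t - 3| ≤ (q.next a E eta).w := by
    have := hN
    rw [Lvl.mem_Win] at this
    simpa using this
  obtain ⟨hts_lo, hts_hi⟩ := abs_le.1 hts3
  obtain ⟨ht_lo, ht_hi⟩ := abs_le.1 ht3
  have ht0 : 0 ≤ t := by linarith
  set muT := mu + (b - h0) * a * t with hmuT
  -- size of `muT`
  have hbat0 : 0 ≤ (b - h0) * a * t := by
    have : 0 ≤ b - h0 := by linarith
    positivity
  have hbat1 : (b - h0) * a * t ≤ 3.1 * a := by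
    have h1 : (b - h0) * t ≤ 1.005 * 3.001 :=
      mul_le_mul (by linarith) (by linarith) ht0 (by norm_num)
    have : (b - h0) * a * t = ((b - h0) * t) * a := by ring
    rw [this]
    have := mul_le_mul_of_nonneg_right h1 ha.le
    linarith
  have hq_hi' := hP.hi'_hi
  have hq_hi := hP.hi_lo
  have hmuT1 : 130 ≤ muT := by linarith
  have hmuT2 : muT ≤ q.hi' := by rw [hhi'] at hmu'; linarith
  -- closeness of `muT` to the centre
  have hclose : |muT - (mu + b * a * ts)| ≤ 0.03 * a := by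
    have e0 : muT - (mu + b * a * ts) = (b * (t - ts) - h0 * t) * a := by rw [hmuT]; ring
    have e1 : |b * (t - ts)| ≤ 1.005 * 0.002 := by
      rw [abs_mul]
      exact mul_le_mul (abs_le.2 ⟨by linarith, by linarith⟩)
        (abs_le.2 ⟨by linarith, by linarith⟩) (abs_nonneg _) (by norm_num)
    have e2 : h0 * t ≤ 1e-16 * 3.001 := mul_le_mul hh0le (by linarith) ht0 (by norm_num)
    have e3 : 0 ≤ h0 * t := by positivity
    obtain ⟨e1a, e1b⟩ := abs_le.1 e1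
    have e4 : |b * (t - ts) - h0 * t| ≤ 0.03 := abs_le.2 ⟨by linarith, by linarith⟩
    rw [e0, abs_mul, abs_of_pos ha]
    exact mul_le_mul_of_nonneg_right e4 ha.le
  have hD1 := step_Dom hS hP hP' hI.k1 hI.k2 hI.h1 hb hmu hmu' h32 h34 hNs hNsmax
    (b' := b - h0) (mu' := muT)
    (by rw [show b - h0 - b = -h0 by ring, abs_neg, abs_of_pos hh0pos]) hclose
  have hD2 := step_Dom hS hP hP' hI.k1 hI.k2 hI.h1 hb hmu hmu' h32 h34 hNs hNsmax
    (b' := b) (mu' := muT) (by rw [sub_self, abs_zero]; positivity) hclose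
  -- (Sb)
  have hSb := step_Sb hS hP hI.h1 hbh hmu hmu' (N := N) (by rw [← ht]; linarith)
  rw [← ht, ← hNmax, ← hmuT, Pk_eq_p3 L q.w (b - h0) muT hD1.1.le hD1.2.le] at hSb
  have hPk := Pk_le hP hI.k1 hbh (mu := muT) (by linarith) (by linarith)
  rw [Pk_eq_p3 L q.w (b - h0) muT hD1.1.le hD1.2.le] at hPk
  have hetaPk : eta * L.p q.w 3 (b - h0) muT ≤ eta * 252 := mul_le_mul_of_nonneg_left hPk heta
  -- (LL_k)
  have hLL := hI.ll b hb muT hmuT1 hmuT2 hD2.1.le hD2.2.le h0 hh0pos.le hhh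
  -- (p2)
  have hp := L.le_p_add hP.M_pos hw0 3 b muT (d := h0 * a * t) (by positivity)
  have e5 : muT + h0 * a * t = mu + b * a * t := by rw [hmuT]; ring
  rw [e5] at hp
  push_cast at hp
  -- (Sa)
  have hSa := step_Sa hS hP hbJ (i := 3) (by norm_num) (by norm_num) mu t
  -- the sign of the remaining term
  have hneg : h0 * a * t * (t / 2 - 3 + q.w) ≤ 0 :=
    mul_nonpos_of_nonneg_of_nonpos (by positivity) (by linarith)
  have hth : th a E eta * a = 300 * eta + 20 * E := th_mul ha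
  have hUbh : (q.next a E eta).Ub * h0 = q.Ub * h0 + (300 * eta + 20 * E) := by
    rw [hUb', ← hth, hh0]; ring
  rw [hUbh]
  nlinarith

end HS3

theorem step_LL {L L' : Lvl} {ph : ℝ → ℕ → ℝ} {m : ℕ} {a E eta : ℝ} {q : Prm}
    (hS : Step L L' ph m a E eta) (hP : Par L q) (hP' : Par L' (q.next a E eta))
    (hhh : 1e-5 * a ≤ q.hh) (hI : Inv L q) : LL L' (q.next a E eta) := by
  intro b hb mu hmu hmu' h32 h34 h hh0 hh1
  have main := LL_full hS hP hP' hhh hI hb hmu hmu' h32 h34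
  have ha := hS.a_pos
  have ha' := hS.a_le
  have hhh' : (q.next a E eta).hh = 1e-5 * a := rfl
  rw [hhh'] at hh1
  set h0 : ℝ := 1e-5 * a with hh0def
  have hh0pos : 0 < h0 := by positivity
  have hb1 : (0.995 : ℝ) ≤ b := hb.1
  have hb2 : b ≤ (1.005 : ℝ) := hb.2
  have hbJ : b ∈ J := J'_sub_J hb
  have hbh : b - h0 ∈ J := ⟨by norm_num; linarith, by norm_num; linarith⟩
  have hconv := L'.p_convex hP'.M_pos hP'.conc hP'.w_nonneg 3 mu
  have hl0 : 0 ≤ h / h0 := div_nonneg hh0 hh0pos.le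
  have hl1 : h / h0 ≤ 1 := (div_le_one hh0pos).2 hh1
  have := hconv.2 hbJ hbh (by linarith : 0 ≤ 1 - h / h0) hl0 (by ring)
  simp only [smul_eq_mul] at this
  have e1 : (1 - h / h0) * b + h / h0 * (b - h0) = b - h := by
    field_simp; ring
  rw [e1] at this
  have e2 : h / h0 * ((q.next a E eta).Ub * h0) = (q.next a E eta).Ub * h := by
    field_simp
  have e3 := mul_le_mul_of_nonneg_left main hl0
  rw [mul_add, e2] at e3
  linarith

/-- the whole step (5 lines from the above) -/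
theorem inv_step {L L' : Lvl} {ph : ℝ → ℕ → ℝ} {m : ℕ} {a E eta : ℝ} {q : Prm}
    (hS : Step L L' ph m a E eta) (hP : Par L q) (hP' : Par L' (q.next a E eta))
    (hhh : 1e-5 * a ≤ q.hh) (hI : Inv L q) : Inv L' (q.next a E eta) :=
  have k1 := step_K1 hS hP hI.k1
  have k2 := step_K2 hS hP hI.k2
  ⟨k1, k2, step_H1 hS hP hP' hI.k1 hI.h1 k1 k2, step_LL hS hP hP' hhh hI⟩

end Crest.Agent.S0209.H
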