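import Crest.Agent.S0209_HDefs2
import Crest.Agent.S0209_HBase
import Crest.Agent.S0209_HStepK
import Crest.Agent.S0209_HStepS
import Crest.Agent.S0209_HStepL
import Crest.Agent.S0209_HSlopes

/-!
# ROW 149, section H, package HF : parameter sequences, induction, theorem H
-/

set_option autoImplicit false
namespace Crest.Agent.S0209.H

namespace HF

variable {M m : ℕ → ℕ} {a : ℕ → ℝ} {ph : ℕ → ℝ → ℕ → ℝ} {E eta : ℕ → ℝ}

/-- the parameters of level `j + 1` -/
noncomputable def qs (a E eta : ℕ → ℝ) : ℕ → Prm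
  | 0 => Prm.base (a 1) (E 0)
  | j + 1 => (qs a E eta j).next (a (j + 2)) (E (j + 1)) (eta (j + 1))

theorem th_nonneg (h : Hyp M m a ph E eta) (k : ℕ) : 0 ≤ th (a (k + 1)) (E k) (eta k) := by
  unfold th
  have h1 := h.a_pos (k + 1) (by omega)
  have h2 := h.E_nonneg k
  have h3 := h.eta_nonneg k
  positivity

theorem qs_s (a E eta : ℕ → ℝ) (j : ℕ) :
    (qs a E eta j).s = a 1 + ∑ k ∈ Finset.Icc 2 (j + 1), a k := by
  induction j with
  | zero => simp [qs, Prm.base]
  | succ j ih =>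
    rw [Finset.sum_Icc_succ_top (by omega)]
    simp only [qs, Prm.next, ih]
    ring

theorem qs_w (a E eta : ℕ → ℝ) (j : ℕ) :
    (qs a E eta j).w = 130 * E 0
      + ∑ k ∈ Finset.Icc 1 j, Real.sqrt (3 * th (a (k + 1)) (E k) (eta k)) := by
  induction j with
  | zero => simp [qs, Prm.base]
  | succ j ih =>
    rw [Finset.sum_Icc_succ_top (by omega)]
    simp only [qs, Prm.next, ih]
    ring

theorem qs_eps (a E eta : ℕ → ℝ) (j : ℕ) :
    (qs a E eta j).eps = 40 * E 0 + ∑ k ∈ Finset.Icc 1 j, (300 * eta k + 301 * E k)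
      + 45450 * ∑ k ∈ Finset.Icc 2 (j + 1), a k := by
  induction j with
  | zero => simp [qs, Prm.base]
  | succ j ih =>
    rw [Finset.sum_Icc_succ_top (by omega), Finset.sum_Icc_succ_top (by omega : 2 ≤ j + 1 + 1)]
    simp only [qs, Prm.next, ih]
    ring

theorem qs_Ub (a E eta : ℕ → ℝ) (j : ℕ) :
    (qs a E eta j).Ub = 60 - 4.5 * a 1 + 2.1e5 * E 0
      + ∑ k ∈ Finset.Icc 1 j, 1e5 * th (a (k + 1)) (E k) (eta k) := by
  induction j with
  | zero => simp [qs, Prm.base]
  | succ j ih =>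
    rw [Finset.sum_Icc_succ_top (by omega)]
    simp only [qs, Prm.next, ih]
    ring

theorem qs_hi (a E eta : ℕ → ℝ) (j : ℕ) :
    (qs a E eta j).hi = 150 - 15.2 * ∑ k ∈ Finset.Icc 2 (j + 1), a k := by
  induction j with
  | zero => simp [qs, Prm.base]
  | succ j ih =>
    rw [Finset.sum_Icc_succ_top (by omega)]
    simp only [qs, Prm.next, ih]
    ring

theorem qs_hi' (a E eta : ℕ → ℝ) (j : ℕ) :
    (qs a E eta j).hi' = 143 - 15.2 * ∑ k ∈ Finset.Icc 2 (j + 1), a k := by
  induction j with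
  | zero => simp [qs, Prm.base]
  | succ j ih =>
    rw [Finset.sum_Icc_succ_top (by omega)]
    simp only [qs, Prm.next, ih]
    ring

theorem sum_a_nonneg (h : Hyp M m a ph E eta) (K : ℕ) : 0 ≤ ∑ k ∈ Finset.Icc 2 K, a k :=
  Finset.sum_nonneg fun k hk => (h.a_pos k (by have := (Finset.mem_Icc.mp hk).1; omega)).le

theorem a_le (h : Hyp M m a ph E eta) (j : ℕ) : a (j + 2) ≤ 1e-11 := by
  refine le_trans ?_ (h.a_sum (j + 2))
  exact Finset.single_le_sum (f := a)
    (fun k hk => (h.a_pos k (by have := (Finset.mem_Icc.mp hk).1; omega)).le)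
    (Finset.mem_Icc.mpr ⟨by omega, le_refl _⟩)

theorem th_le (h : Hyp M m a ph E eta) (j : ℕ) :
    th (a (j + 2)) (E (j + 1)) (eta (j + 1)) ≤ 2e-6 := by
  have h1 : 1e5 * th (a (j + 1 + 1)) (E (j + 1)) (eta (j + 1)) ≤ 0.2 := by
    refine le_trans ?_ (h.sum_th (j + 1))
    exact Finset.single_le_sum (f := fun k => 1e5 * th (a (k + 1)) (E k) (eta k))
      (fun k _ => mul_nonneg (by norm_num) (th_nonneg h k))
      (Finset.mem_Icc.mpr ⟨by omega, le_refl _⟩)
  have e : j + 1 + 1 = j + 2 := rfl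
  rw [e] at h1
  linarith

theorem M_pos (h : Hyp M m a ph E eta) (j : ℕ) : 1 ≤ M (j + 1) := by
  induction j with
  | zero => exact h.M_pos
  | succ j ih =>
    rw [h.M_succ (j + 1) (by omega)]
    exact Nat.mul_pos (h.m_pos (j + 1) (by omega)) ih

theorem qs_hh_pos (h : Hyp M m a ph E eta) (j : ℕ) : 0 < (qs a E eta j).hh := by
  cases j with
  | zero => simp only [qs, Prm.base]; norm_num
  | succ j =>
    simp only [qs, Prm.next]
    have := h.a_pos (j + 2) (by omega)
    positivity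

theorem qs_hh_le (h : Hyp M m a ph E eta) (j : ℕ) : (qs a E eta j).hh ≤ 0.005 := by
  cases j with
  | zero => simp only [qs, Prm.base]; norm_num
  | succ j =>
    simp only [qs, Prm.next]
    have := a_le h j
    linarith

theorem conc (h : Hyp M m a ph E eta) (k : ℕ) (hk : 1 ≤ k) (n : ℕ) :
    ConcaveOn ℝ J (fun b => (lvl M a ph k).ψ b n) := by
  have h1 := h.C k hk n
  have h2 : ConcaveOn ℝ J (fun b : ℝ => -(a k * tt (M k) n ^ 2 / 2) * b) :=
    ⟨convex_Icc _ _, fun x _ y _ α β _ _ _ => by simp only [smul_eq_mul]; apply le_of_eq; ring⟩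
  have h3 := h1.add h2
  refine h3.congr ?_
  intro b _
  simp only [lvl, Pi.add_apply]
  ring

theorem par (h : Hyp M m a ph E eta) (j : ℕ) : Par (lvl M a ph (j + 1)) (qs a E eta j) := by
  have hA0 := sum_a_nonneg h (j + 1)
  have hA1 := h.a_sum (j + 1)
  have ha1 := abs_le.mp h.a_one
  have hE0 := h.E_nonneg 0
  have hE0' := h.E_zero
  have hw0 : 0 ≤ ∑ k ∈ Finset.Icc 1 j, Real.sqrt (3 * th (a (k + 1)) (E k) (eta k)) :=
    Finset.sum_nonneg fun k _ => Real.sqrt_nonneg _
  have hw1 := h.sum_sqrt j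
  have he0 : 0 ≤ ∑ k ∈ Finset.Icc 1 j, (300 * eta k + 301 * E k) :=
    Finset.sum_nonneg fun k _ => by
      have := h.E_nonneg k
      have := h.eta_nonneg k
      positivity
  have he1 : ∑ k ∈ Finset.Icc 1 j, (300 * eta k + 301 * E k) ≤ 1.2e-6 := by
    have h1 := h.sum_err j
    have h2 : ∑ k ∈ Finset.Icc 1 j, (300 * eta k + 301 * E k)
        ≤ ∑ k ∈ Finset.Icc 1 j, 1.2 * (300 * eta k + 251 * E k) :=
      Finset.sum_le_sum fun k _ => by
        have := h.E_nonneg k
        have := h.eta_nonneg k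
        linarith
    rw [← Finset.mul_sum] at h2
    linarith
  have ht1 := h.sum_th j
  refine
    { M_pos := M_pos h j
      conc := conc h (j + 1) (by omega)
      s_lo := ?_
      s_hi := ?_
      w_nonneg := ?_
      w_le := ?_
      eps_nonneg := ?_
      eps_le := ?_
      Ub_le := ?_
      hh_pos := qs_hh_pos h j
      hh_le := qs_hh_le h j
      hi_lo := ?_
      hi_hi := ?_
      hi'_lo := ?_
      hi'_hi := ?_ }
  · rw [qs_s]; linarith [ha1.1]
  · rw [qs_s]; linarith [ha1.2]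
  · rw [qs_w]; linarith
  · rw [qs_w]; linarith
  · rw [qs_eps]; linarith
  · rw [qs_eps]; linarith
  · rw [qs_Ub, qs_s]; linarith
  · rw [qs_hi]; linarith
  · rw [qs_hi]; linarith
  · rw [qs_hi']; linarith
  · rw [qs_hi']; linarith

theorem step (h : Hyp M m a ph E eta) (j : ℕ) :
    Step (lvl M a ph (j + 1)) (lvl M a ph (j + 2)) (ph (j + 2)) (m (j + 1)) (a (j + 2)) (E (j + 1))
      (eta (j + 1)) where
  m_pos := h.m_pos (j + 1) (by omega)
  M_eq := h.M_succ (j + 1) (by omega)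
  psi_eq := fun _ _ => rfl
  a_pos := h.a_pos (j + 2) (by omega)
  a_le := a_le h j
  E_nonneg := h.E_nonneg _
  eta_nonneg := h.eta_nonneg _
  th_le := th_le h j
  U := h.U (j + 1) (by omega)
  Lo := h.Lo (j + 1) (by omega)
  SS := h.SS (j + 2) (by omega)

theorem hh_le (h : Hyp M m a ph E eta) (j : ℕ) : 1e-5 * a (j + 2) ≤ (qs a E eta j).hh := by
  cases j with
  | zero =>
    simp only [qs, Prm.base]
    have := a_le h 0
    linarith
  | succ j =>
    simp only [qs, Prm.next]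
    have := h.a_anti (j + 2) (by omega)
    linarith

theorem inv (h : Hyp M m a ph E eta) (j : ℕ) : Inv (lvl M a ph (j + 1)) (qs a E eta j) := by
  induction j with
  | zero =>
    exact base_inv (lvl M a ph 1) (ph 1) (a 1) (E 0) h.M_pos (fun _ _ => rfl)
      (conc h 1 (le_refl 1)) h.a_one (h.E_nonneg 0) h.E_zero h.Bm h.Bp
  | succ j ih =>
    exact inv_step (step h j) (par h j) (par h (j + 1)) (hh_le h j) ih

end HF

/-- THEOREM H. -/
theorem thmH {M m : ℕ → ℕ} {a : ℕ → ℝ} {ph : ℕ → ℝ → ℕ → ℝ} {E eta : ℕ → ℝ}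
    (h : Hyp M m a ph E eta) (k : ℕ) (hk : 1 ≤ k) : Nonempty (TP (lvl M a ph k)) := by
  obtain ⟨j, rfl⟩ : ∃ j, k = j + 1 := ⟨k - 1, by omega⟩
  exact level_concl (HF.par h j) (HF.inv h j)

end Crest.Agent.S0209.H
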