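import Crest.Agent.S0209_AbsDefs
import Crest.Agent.S0209_BaseLowDefs

/-!
# ROW 149, package I3a : arithmetic of `hh` (discrete convexity) and `hmin`
-/

set_option autoImplicit false
namespace Crest.Agent.S0209.HB

theorem hh_zero (β : ℝ) : hh 0 β = 0 := by simp [hh]
theorem hh_one (β : ℝ) : hh 1 β = 0 := by simp [hh]
theorem hh_two (β : ℝ) : hh 2 β = 81 * β := by simp [hh]
theorem hh_of_three_le {j : ℕ} (hj : 3 ≤ j) (β : ℝ) :
    hh j β = 10 * β * j * (j - 1) + 80 * (j - 1) := by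
  have h1 : ¬ j ≤ 1 := by omega
  have h2 : ¬ j = 2 := by omega
  simp [hh, h1, h2]

/-- increments of `hh` are monotone on `J = [0.99, 1.01]` -/
theorem hh_incr {β : ℝ} (hβ : β ∈ Set.Icc (0.99:ℝ) 1.01) (k : ℕ) :
    hh (k+1) β - hh k β ≤ hh (k+2) β - hh (k+1) β := by
  obtain ⟨h1, h2⟩ := hβ
  rcases k with _ | _ | _ | k
  · rw [hh_zero, hh_one, hh_two]; linarith
  · rw [hh_one, hh_two, hh_of_three_le (le_refl 3)]; push_cast; linarith
  · rw [hh_two, hh_of_three_le (le_refl 3), hh_of_three_le (by norm_num : 3 ≤ 2 + 2)]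
    push_cast; linarith
  · rw [hh_of_three_le (by omega : 3 ≤ k + 1 + 1 + 1), hh_of_three_le (by omega : 3 ≤ k + 1 + 1 + 1 + 1),
      hh_of_three_le (by omega : 3 ≤ k + 1 + 1 + 1 + 2)]
    push_cast
    have hk : (0:ℝ) ≤ k := Nat.cast_nonneg k
    nlinarith

/-- generic: convex sequences lie above their "right tangents" -/
theorem support_of_incr (f : ℕ → ℝ) (hf : ∀ k, f (k+1) - f k ≤ f (k+2) - f (k+1)) (j i : ℕ) :
    f j + (f (j+1) - f j) * ((i:ℝ) - j) ≤ f i := by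
  have hmono : Monotone (fun k => f (k+1) - f k) := monotone_nat_of_le_succ hf
  rcases le_total j i with h | h
  · obtain ⟨n, rfl⟩ := Nat.exists_eq_add_of_le h
    induction n with
    | zero => simp
    | succ n ih =>
      have ih' := ih (Nat.le_add_right _ _)
      have hm : f (j+1) - f j ≤ f (j+n+1) - f (j+n) := hmono (Nat.le_add_right j n)
      have e : j + (n+1) = j + n + 1 := by ring
      rw [e]
      push_cast at ih' ⊢
      linarith
  · obtain ⟨n, rfl⟩ := Nat.exists_eq_add_of_le h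
    induction n with
    | zero => simp
    | succ n ih =>
      have ih' := ih (Nat.le_add_right _ _)
      have hm : f (i+n+1) - f (i+n) ≤ f (i+n+1+1) - f (i+n+1) := hmono (Nat.le_succ (i+n))
      have e : i + (n+1) = i + n + 1 := by ring
      rw [e]
      have hn : (0:ℝ) ≤ n := Nat.cast_nonneg n
      push_cast at ih' ⊢
      nlinarith

theorem hh_support {β : ℝ} (hβ : β ∈ Set.Icc (0.99:ℝ) 1.01) (j i : ℕ) :
    hh j β + (hh (j+1) β - hh j β) * ((i:ℝ) - j) ≤ hh i β :=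
  support_of_incr (fun k => hh k β) (hh_incr hβ) j i

theorem hmin_ge {T β : ℝ} (hT : 0 ≤ T) (hβ : β ∈ Set.Icc (0.99:ℝ) 1.01) (i : ℕ) (hi : 1 ≤ i) :
    T * hh i β ≤ hmin (β * (81 * T)) (β * (20 * T)) (80 * T) i := by
  obtain ⟨h1, h2⟩ := hβ
  unfold hmin
  rcases i with _ | _ | _ | k
  · omega
  · rw [hh_one]; simp
  · rw [hh_two]
    apply le_min
    · push_cast; nlinarith
    · push_cast; nlinarith
  · rw [hh_of_three_le (by omega : 3 ≤ k + 1 + 1 + 1)]
    have hk : (0:ℝ) ≤ k := Nat.cast_nonneg k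
    have hTb : 0 ≤ T * β := mul_nonneg hT (by linarith)
    have hTk : 0 ≤ T * k := mul_nonneg hT hk
    have hTbk : 0 ≤ T * β * k := mul_nonneg hTb hk
    have hTbkk : 0 ≤ T * β * k * k := mul_nonneg hTbk hk
    have hTb' : 0.99 * T ≤ T * β := by nlinarith
    have hTbk' : 0.99 * (T * k) ≤ T * β * k := by nlinarith
    apply le_min
    · push_cast; nlinarith
    · push_cast; nlinarith

theorem pp_nonneg {β : ℝ} (hβ : β ∈ Set.Icc (0.99:ℝ) 1.01) (j : ℕ) :
    0 ≤ (hh (j+1) β - hh j β) * j - hh j β := by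
  have h := hh_support hβ j 0
  rw [hh_zero] at h
  push_cast at h
  linarith

theorem pp_le {β : ℝ} (hβ : β ∈ Set.Icc (0.99:ℝ) 1.01) (j : ℕ) :
    (hh (j+1) β - hh j β) * j - hh j β ≤ 100 * (1 + (j:ℝ)^2) := by
  obtain ⟨h1, h2⟩ := hβ
  rcases j with _ | _ | _ | k
  · rw [hh_zero, hh_one]; norm_num
  · rw [hh_one, hh_two]; push_cast; linarith
  · rw [hh_two, hh_of_three_le (le_refl 3)]; push_cast; linarith
  · rw [hh_of_three_le (by omega : 3 ≤ k + 1 + 1 + 1), hh_of_three_le (by omega : 3 ≤ k + 1 + 1 + 1 + 1)]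
    have hk : (0:ℝ) ≤ k := Nat.cast_nonneg k
    have hkk : (0:ℝ) ≤ (k:ℝ) * k := mul_nonneg hk hk
    push_cast
    nlinarith

end Crest.Agent.S0209.HB
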