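import Crest.Agent.S0209_AbsDefs
import Crest.Agent.S0209_HFinal

/-!
# ROW 149 : THEOREM H (`hier_triple`), wrapper around `H.thmH`
-/

set_option autoImplicit false
namespace Crest.Agent.S0209

namespace HierMain

theorem hh_eq (j : ℕ) (β : ℝ) : hh j β = H.hJ j β := rfl

theorem psi_eq (X : Hier) (k : ℕ) (β : ℝ) (n : ℕ) :
    X.psi k β n = (H.lvl X.M X.a X.φ k).ψ β n := rfl

theorem th_eq (X : Hier) (k : ℕ) : X.th k = H.th (X.a (k + 1)) (X.E k) (X.η k) := rfl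

theorem toHyp (X : Hier) (h : X.Hyp) : H.Hyp X.M X.m X.a X.φ X.E X.η where
  M_pos := h.M_pos 1 (le_refl 1)
  m_pos := fun k hk => by
    have h1 := h.M_pos (k + 1) (by omega)
    rw [h.M_succ k hk] at h1
    exact Nat.pos_of_mul_pos_right h1
  M_succ := h.M_succ
  a_pos := h.a_pos
  E_nonneg := h.E_nonneg
  eta_nonneg := h.η_nonneg
  C := fun k hk n => h.conc k n hk
  Bm := fun b hb n => by
    have ht : 0 ≤ H.tt (X.M 1) n := H.tt_nonneg _ _
    have h1 := Nat.floor_le ht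
    have h2 := (Nat.lt_floor_add_one (H.tt (X.M 1) n)).le
    have := h.baseLow b hb n ⌊H.tt (X.M 1) n⌋₊ (H.tt (X.M 1) n - ⌊H.tt (X.M 1) n⌋₊)
      (by linarith) (by linarith) (by unfold H.tt; ring)
    exact this
  Bp := h.baseUp
  U := h.stepU
  Lo := fun k hk b hb mu h1 h2 P hP N => h.stepL k hk b hb mu ⟨h1, h2⟩ P hP N
  SS := h.ss
  a_one := h.a_one
  a_sum := h.a_sum
  a_anti := h.a_anti
  E_zero := h.E_zero
  sum_sqrt := h.th_sqrt
  sum_th := fun K => by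
    have := h.th_sum K
    rw [← Finset.mul_sum]
    have e : ∑ k ∈ Finset.Icc 1 K, H.th (X.a (k + 1)) (X.E k) (X.η k)
        = ∑ k ∈ Finset.Icc 1 K, X.th k := rfl
    rw [e]
    linarith
  sum_err := h.err_sum

end HierMain

/-- THEOREM H -/
theorem hier_triple (H : Hier) (h : H.Hyp) (k : ℕ) (hk : 1 ≤ k) :
    ∃ (βk μk Ps : ℝ) (n : Fin 3 → ℕ) (u : Fin 3 → ℝ), H.Triple k βk μk Ps n u := by
  obtain ⟨T⟩ := Crest.Agent.S0209.H.thmH (HierMain.toHyp H h) k hk
  exact ⟨T.b, T.mu, T.P, T.n, T.u,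
    { β_mem := T.b_mem
      μ_mem := ⟨T.mu_lo, T.mu_hi⟩
      Ps_mem := ⟨T.P_nonneg, T.P_le⟩
      window := T.n_near
      isMax := T.val_eq
      le_Ps := T.val_le
      slope := T.super
      u0 := T.u2
      u1 := T.u3
      u2 := T.u4
      u_bdd := T.u_abs }⟩

end Crest.Agent.S0209
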