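import Crest.Agent.S0209_HypBaseCore
import Crest.Agent.S0209_BaseUpL
import Crest.Agent.S0209_BaseLow

/-!
# ROW 149, package I3: `hyp_baseLow`, `hyp_baseUp` (verbatim from `notes/ROW149_Iface4.lean.txt`)
-/

set_option autoImplicit false
namespace Crest.Agent.S0209
open Crest.ProbabilityR.Continuum MeasureTheory
namespace Par
variable {P : Par} {q0 : ℝ → ℝ} {I0 : ℝ}

theorem hyp_baseLow (h : P.OK) (hq : CoreP q0 P.T P.a P.b1 P.r0 I0) :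
    ∀ β ∈ Set.Icc (0.99 : ℝ) 1.01, ∀ (n j : ℕ) (s : ℝ), 0 ≤ s → s ≤ 1 →
    (n : ℝ) / (P.hier q0).M 1 = j + s →
    (1 - s) * hh j β + s * hh (j + 1) β - (P.hier q0).E 0 * (1 + ((n : ℝ) / (P.hier q0).M 1) ^ 2)
      ≤ (P.hier q0).φ 1 β n :=
  HB.hyp_baseLow_core (fun hmeas h0 h1 h2 he he01 ha hab _ _ hβ hLam0 hLam hcond _ _ _ hl hP0 hP n =>
    base_lower hmeas h0 h1 h2 he he01 ha hab hβ hLam0 hLam hcond hl hP0 hP n) h hq

theorem hyp_baseUp (h : P.OK) (hq : CoreP q0 P.T P.a P.b1 P.r0 I0) :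
    ∀ β ∈ Set.Icc (0.99 : ℝ) 1.01, ∀ i : ℕ, 2 ≤ i → i ≤ 4 →
    (P.hier q0).φ 1 β (i * (P.hier q0).M 1) ≤ hh i β + (P.hier q0).E 0 :=
  HB.hyp_baseUp_core (fun hq hup hzero hδ hr0 hβ X hX hsep =>
    base_upper_loose hq hup hzero hδ hr0 hβ X hX hsep) h hq

end Par
end Crest.Agent.S0209
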