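import Crest.Agent.S0209_Scales
import Crest.Agent.S0209_BaseUpT
import Crest.Agent.S0209_HhArith

/-!
# ROW 149, package I3 (core): `baseLow`, `baseUp` of the concrete hierarchy, with the statements
of `base_lower` and `base_upper_loose` as hypotheses.
-/

set_option autoImplicit false
namespace Crest.Agent.S0209
open Crest.ProbabilityR.Continuum MeasureTheory
namespace HB

/-- the statement of `base_lower` -/
def BaseLower : Prop :=
  ∀ {q0 : ℝ → ℝ} {e0 e1 a b1 : ℝ} (_hmeas : Measurable q0) (_h0 : ∀ r, 0 ≤ q0 r)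
    (_h1 : ∀ r, 0 ≤ r → r ≤ b1 → e0 ≤ q0 r) (_h2 : ∀ r, a < r → r ≤ b1 → e1 ≤ q0 r)
    (_he : 0 ≤ e0) (_he01 : e0 ≤ e1) (_ha : 0 < a) (_hab : 4 * a < b1)
    {β Lam : ℝ} (_hβ : 0 ≤ β) (_hLam0 : 0 ≤ Lam) (_hLam : Lam ≤ -Real.log (vb (2 * a)))
    (_hcond : Lam ≤ 3 / 2 * (β * (e1 - e0)))
    {ν P l : ℝ} (_hl : 0 < l) (_hP0 : 0 ≤ P)
    (_hP : ∀ j : ℕ, 1 ≤ j → ν * j - hmin (β * e1) (β * e0) Lam j ≤ P) (n : ℕ),
    Real.log (partitionFn q0 l n β) ≤ -ν * n + packingNumber (l / (b1 - 4 * a)) * P + n + l ^ 3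

/-- the statement of `base_upper_loose` -/
def BaseUpperLoose : Prop :=
  ∀ {q0 : ℝ → ℝ} {B e1 r0 δ l β : ℝ} (_hq : Good q0 B)
    (_hup : ∀ r, r0 ≤ r → q0 r ≤ e1) (_hzero : ∀ r, 1 ≤ r → q0 r ≤ 0)
    (_hδ : 0 < δ) (_hr0 : r0 ≤ δ / 2) (_hβ : 0 ≤ β)
    (X : Finset Pt) (_hX : ∀ y ∈ X, ∀ i, δ ≤ y i ∧ y i ≤ l - δ)
    (_hsep : ∀ y ∈ X, ∀ y' ∈ X, y ≠ y' → 1 + 2 * δ ≤ dist y y'),
    -(X.card : ℝ) * (β * e1 + Real.log 2 - 2 * Real.log (vb (δ / 8)))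
      ≤ Real.log (partitionFn q0 l (2 * X.card) β)

variable {P : Par} {q0 : ℝ → ℝ} {I0 : ℝ}

theorem pot_zero (P : Par) (q0 : ℝ → ℝ) : P.pot q0 0 = q0 := by
  funext r; simp [Par.pot, Par.Wk]

theorem good_q0 {T a b1 r0 : ℝ} (hq : CoreP q0 T a b1 r0 I0) : Good q0 0 :=
  ⟨hq.meas, fun N x => by
    simp only [neg_zero, zero_mul]
    exact Finset.sum_nonneg (fun p _ => hq.nonneg _)⟩

theorem T_pos (h : P.OK) : 0 < P.T := lt_of_lt_of_le (by norm_num) h.T_ge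

theorem l1_ge (h : P.OK) : (1 : ℝ) ≤ P.l 1 := by
  have h1 : 1 ≤ P.Q := le_trans (Nat.one_le_pow _ _ (by norm_num)) h.Q_ge
  have h2 : 1 ≤ P.l 1 := by
    unfold Par.l Par.R
    exact Nat.one_le_pow _ _ (Nat.pow_pos h1)
  exact_mod_cast h2

theorem M1_ge (h : P.OK) : 0.995 * (P.l 1 : ℝ) ^ 3 ≤ P.M 1 := by
  have h1 := h.M1_lo
  have h2 := Pack.one_le_pdens
  have h3 : (0:ℝ) ≤ (P.l 1 : ℝ) ^ 3 := by positivity
  nlinarith

theorem M1_pos (h : P.OK) : (0 : ℝ) < P.M 1 := by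
  have h1 := M1_ge h
  have h2 := l1_ge h
  have h3 : (1:ℝ) ≤ (P.l 1 : ℝ) ^ 3 := one_le_pow₀ h2
  linarith

theorem hyp_baseLow_core (BL : BaseLower) (h : P.OK) (hq : CoreP q0 P.T P.a P.b1 P.r0 I0) :
    ∀ β ∈ Set.Icc (0.99 : ℝ) 1.01, ∀ (n j : ℕ) (s : ℝ), 0 ≤ s → s ≤ 1 →
    (n : ℝ) / (P.hier q0).M 1 = j + s →
    (1 - s) * hh j β + s * hh (j + 1) β - (P.hier q0).E 0 * (1 + ((n : ℝ) / (P.hier q0).M 1) ^ 2)
      ≤ (P.hier q0).φ 1 β n := by
  intro β hβ n j s hs0 hs1 hn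
  have hT := T_pos h
  have hT8 := h.T_ge
  have hM := M1_pos h
  have hl1 := l1_ge h
  have hE : (P.hier q0).E 0 = 1e-7 := by simp [Par.hier]
  have hφ : (P.hier q0).φ 1 β n = Phi q0 (P.l 1) n β / (P.T * P.M 1) := by
    simp only [Par.hier, Nat.sub_self, pot_zero]
  have hMM : (P.hier q0).M 1 = P.M 1 := rfl
  rw [hE, hφ, hn]
  rw [hMM] at hn
  have hn' : (n : ℝ) = (j + s) * P.M 1 := by
    rw [← hn]; field_simp
  set d : ℝ := hh (j + 1) β - hh j β with hd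
  set p : ℝ := d * j - hh j β with hp
  have hp0 : 0 ≤ p := pp_nonneg hβ j
  have hp1 : p ≤ 100 * (1 + (j:ℝ)^2) := pp_le hβ j
  have hδ := h.δ_pos
  have hδ1 := h.δ_le
  have ha := h.a_pos
  have ha1 := h.a_le
  have hab : 4 * P.a < P.b1 := by
    unfold Par.b1; linarith
  have hLam : 80 * P.T ≤ -Real.log (vb (2 * P.a)) := by
    rw [h.a_def, Real.log_exp]; linarith
  have hcond : 80 * P.T ≤ 3 / 2 * (β * (81 * P.T - 20 * P.T)) := by
    have := hβ.1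
    nlinarith
  have hP : ∀ i : ℕ, 1 ≤ i →
      (P.T * d) * i - hmin (β * (81 * P.T)) (β * (20 * P.T)) (80 * P.T) i ≤ P.T * p := by
    intro i hi
    have h1 := hmin_ge hT.le hβ i hi
    have h2 := hh_support hβ j i
    have h3 : P.T * (hh j β + d * ((i:ℝ) - j)) ≤ P.T * hh i β :=
      mul_le_mul_of_nonneg_left h2 hT.le
    have h4 : P.T * p = P.T * d * i - P.T * (hh j β + d * ((i:ℝ) - j)) := by
      rw [hp]; ring
    linarith
  have key := BL hq.meas hq.nonneg hq.low1 hq.low2 (by positivity : (0:ℝ) ≤ 20 * P.T)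
    (by linarith : 20 * P.T ≤ 81 * P.T) ha hab (by linarith [hβ.1] : (0:ℝ) ≤ β)
    (by positivity : (0:ℝ) ≤ 80 * P.T) hLam hcond (by linarith : (0:ℝ) < (P.l 1 : ℝ))
    (mul_nonneg hT.le hp0) hP n
  rw [le_div_iff₀ (by positivity)]
  unfold Phi
  set t : ℝ := j + s with ht
  have hj0 : (0:ℝ) ≤ j := Nat.cast_nonneg j
  have ht0 : 0 ≤ t := by positivity
  have hjt : (j:ℝ)^2 ≤ t^2 := by
    apply pow_le_pow_left₀ hj0; linarith
  have hM2 := h.pack_ratio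
  have hTp : 0 ≤ P.T * p := mul_nonneg hT.le hp0
  have e1 : (packingNumber (P.l 1 / (P.b1 - 4 * P.a)) : ℝ) * (P.T * p)
      ≤ (1 + 4e-10) * P.M 1 * (P.T * p) := mul_le_mul_of_nonneg_right hM2 hTp
  have hTM : 0 < P.T * P.M 1 := by positivity
  have e2 : P.T * P.M 1 * p ≤ P.T * P.M 1 * (100 * (1 + t^2)) :=
    mul_le_mul_of_nonneg_left (by linarith) hTM.le
  have e3 : (P.l 1 : ℝ)^3 ≤ 1.01 * P.M 1 := by
    have := M1_ge h
    linarith
  have e4 : t + 1.01 ≤ 2 * (1 + t^2) := by nlinarith [sq_nonneg (t - 1/4)]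
  have e5 : (P.M 1 : ℝ) * (t + 1.01) ≤ P.M 1 * (2 * (1 + t^2)) :=
    mul_le_mul_of_nonneg_left e4 hM.le
  have e6 : (1e8 : ℝ) * (P.M 1 * (1 + t^2)) ≤ P.T * (P.M 1 * (1 + t^2)) :=
    mul_le_mul_of_nonneg_right hT8 (by positivity)
  have e7 : ((1 - s) * hh j β + s * hh (j + 1) β) = d * t - p := by
    rw [hp, hd, ht]; ring
  rw [e7]
  rw [hn'] at key
  nlinarith

/-- the trial sites -/
theorem exists_sites (h : P.OK) : ∃ X : Finset Pt, X.card = P.M 1 ∧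
    (∀ y ∈ X, ∀ i, P.δ ≤ y i ∧ y i ≤ P.l 1 - P.δ) ∧
    (∀ y ∈ X, ∀ y' ∈ X, y ≠ y' → 1 + 2 * P.δ ≤ dist y y') := by
  have hδ := h.δ_pos
  have hδ1 := h.δ_le
  have hl1 := l1_ge h
  obtain ⟨X, hc, hX, hsep⟩ := exists_packing (s := 1 + 2 * P.δ) (L := P.l 1 - 2 * P.δ)
    (by linarith) (by linarith)
  let v : Pt := WithLp.toLp 2 (fun _ => P.δ)
  have hv : ∀ i, v i = P.δ := fun _ => rfl
  refine ⟨X.image (fun x => x + v), ?_, ?_, ?_⟩
  · rw [Finset.card_image_of_injective _ (add_left_injective v), hc]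
    rfl
  · intro y hy i
    obtain ⟨x, hx, rfl⟩ := Finset.mem_image.mp hy
    have := hX x hx i
    simp only [PiLp.add_apply, hv]
    constructor <;> linarith [this.1, this.2]
  · intro y hy y' hy' hne
    obtain ⟨x, hx, rfl⟩ := Finset.mem_image.mp hy
    obtain ⟨x', hx', rfl⟩ := Finset.mem_image.mp hy'
    rw [dist_add_right]
    exact hsep x hx x' hx' (fun e => hne (by rw [e]))

theorem log_vb_a32 (h : P.OK) :
    Real.log (vb (P.a / 2 / 16)) = -(80 * P.T) - 3 * Real.log 64 := by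
  have h1 : vb (P.a / 2 / 16) = vb (2 * P.a) / 64 ^ 3 := by
    unfold vb; ring
  rw [h1, h.a_def, Real.log_div (Real.exp_pos _).ne' (by norm_num), Real.log_exp, Real.log_pow]
  norm_num

theorem hyp_baseUp_core (BU : BaseUpperLoose) (h : P.OK) (hq : CoreP q0 P.T P.a P.b1 P.r0 I0) :
    ∀ β ∈ Set.Icc (0.99 : ℝ) 1.01, ∀ i : ℕ, 2 ≤ i → i ≤ 4 →
    (P.hier q0).φ 1 β (i * (P.hier q0).M 1) ≤ hh i β + (P.hier q0).E 0 := by
  intro β hβ i hi2 hi4
  have hT := T_pos h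
  have hM := M1_pos h
  have hE : (P.hier q0).E 0 = 1e-7 := by simp [Par.hier]
  have hMM : (P.hier q0).M 1 = P.M 1 := rfl
  have hφ : (P.hier q0).φ 1 β (i * P.M 1) = Phi q0 (P.l 1) (i * P.M 1) β / (P.T * P.M 1) := by
    simp only [Par.hier, Nat.sub_self, pot_zero]
  rw [hE, hMM, hφ, div_le_iff₀ (by positivity)]
  unfold Phi
  obtain ⟨X, hc, hX, hsep⟩ := exists_sites h
  have hδ := h.δ_pos
  have ha := h.a_pos
  have ha1 := h.a_le
  have hr := h.r0_le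
  have hβ0 : (0:ℝ) ≤ β := by linarith [hβ.1]
  have hzero : ∀ r, 1 ≤ r → q0 r ≤ 0 := fun r hr => (hq.zero r hr).le
  rcases Nat.lt_or_ge 2 i with hi3 | hi2'
  · -- tight
    have key := base_upper_tight (good_q0 hq) (e0 := 20 * P.T) (r0 := P.r0) (a0 := P.a / 2)
      (δ := P.δ) (l := P.l 1) (β := β) hq.up1 hzero hδ (by linarith) (by linarith) (by linarith)
      hβ0 X hX hsep i (by omega) hi4
    rw [hc, log_vb_a32 h] at key
    have hhi : hh i β = 10 * β * i * (i - 1) + 80 * (i - 1) := by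
      unfold hh
      rw [if_neg (by omega), if_neg (by omega)]
    rw [hhi]
    have hut := h.up_tight
    have hi1 : (3:ℝ) ≤ i := by exact_mod_cast hi3
    have hi4' : (i:ℝ) ≤ 4 := by exact_mod_cast hi4
    have hfac : Real.log (i.factorial) ≤ Real.log 24 := by
      apply Real.log_le_log (by exact_mod_cast Nat.factorial_pos i)
      have : i.factorial ≤ Nat.factorial 4 := Nat.factorial_le hi4
      exact_mod_cast this
    have hl64 : 0 ≤ Real.log 64 := Real.log_nonneg (by norm_num)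
    have h9 : ((i:ℝ) - 1) * (3 * Real.log 64) ≤ 9 * Real.log 64 := by nlinarith
    have e1 : Real.log (i.factorial) - Real.log (vb (P.δ / 2)) + ((i:ℝ) - 1) * (3 * Real.log 64)
        ≤ 5e-8 * P.T := by linarith
    have e2 := mul_le_mul_of_nonneg_left e1 hM.le
    nlinarith
  · -- loose
    have hi : i = 2 := by omega
    subst hi
    have key := BU (good_q0 hq) (e1 := 81 * P.T) (r0 := P.r0) (δ := P.δ) (l := P.l 1) (β := β)
      hq.up2 hzero hδ (by linarith) hβ0 X hX hsep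
    rw [hc] at key
    have hhi : hh 2 β = 81 * β := by
      unfold hh; norm_num
    rw [hhi]
    have e1 := h.up_loose
    have e2 := mul_le_mul_of_nonneg_left e1 hM.le
    nlinarith

end HB
end Crest.Agent.S0209
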