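import Crest.Agent.S0209_LemmaL2Core
import Crest.Agent.S0209_LemmaL

/-!
# ROW 149, package L2: `lemmaL2` (verbatim from the interface)
-/

set_option autoImplicit false
namespace Crest.Agent.S0209
open Crest.ProbabilityR.Continuum MeasureTheory

namespace L2

theorem Qf_nonneg {N : ℕ} (x : Fin N → Pt) : 0 ≤ Qf x := by
  unfold Qf
  refine Finset.sum_nonneg fun i _ => Finset.sum_nonneg fun j _ => ?_
  split_ifs <;> norm_num

theorem energy_sub (f g : ℝ → ℝ) {N : ℕ} (x : Fin N → Pt) :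
    energy (fun r => f r - g r) x = energy f x - energy g x := by
  unfold energy
  rw [← Finset.sum_sub_distrib]

theorem good_of_short {q0 W : ℝ → ℝ} {e0 C' : ℝ} {w : ℕ} (h : Short q0 W e0 C' w) :
    Good (fun r => q0 r - W r) (e0 / 2) where
  meas := h.meas0.sub h.measW
  stable := by
    intro N x
    rw [energy_sub]
    have h1 := core_energy_ge h.q0_nonneg h.q0_ge x
    have h2 := h.W_le N x
    have h3 := Qf_nonneg x
    have h4 := h.C'_lt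
    nlinarith

end L2

/-- Lemma L2 = Lemma L + concavity in `β` (`Phi((1-χ'')β) ≥ (1-χ'')Phi(β) - χ'' l³`).
`1-χ'' = (1-χ)(1-χ')`.  Used with `χ' = 0`, `L = l_{k+1}` for (L_k) and with the tail `χ'`, `L → ∞` for (A_k). -/
theorem lemmaL2 {q0 W : ℝ → ℝ} {e0 C' : ℝ} {w : ℕ} (h : Short q0 W e0 C' w)
    {α R : ℝ} (hα : 0 ≤ α) (mt : ℕ) (hmt : 1 ≤ mt) (hR : (2 * w * mt : ℝ) ≤ R)
    (hstab : α * (4 * kap + 2 * CB / R) + C' ≤ e0 / 2)
    {χ χ' : ℝ} (hχ : χ = 3 * C' / (mt * (e0 / 2 - C'))) (hχ1 : χ < 1) (hχ'0 : 0 ≤ χ') (hχ'1 : χ' < 1)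
    {L β μ θ P : ℝ} (hL : 0 < L) (hβ : 0 ≤ β) (hθ : 0 < θ)
    (hP : ∀ n : ℕ, μ * n - Phi (fun r => q0 r - W r) (2 * w * mt) n β
        + β * α * (kap + CB * (2 * w * mt) / R) * (n : ℝ) ^ 2 / (2 * (2 * w * mt : ℝ) ^ 3 * (1 - χ)) ≤ P)
    (N : ℕ) :
    ((1 - χ) * (1 - χ') * μ - θ) * N
      - (L / (2 * w * mt) + 2) ^ 3 * ((1 - χ) * (1 - χ') * P + (1 - (1 - χ) * (1 - χ')) * (2 * w * mt : ℝ) ^ 3
          + Real.log (1 / (1 - Real.exp (-θ))))
      - (1 - χ') * β * (χ * e0 / 2 + α * (kap + CB * (2 * w * mt) / R) / (2 * (2 * w * mt : ℝ) ^ 3)) * N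
      - 3 * Real.log mt
      ≤ Phi (fun r => q0 r - W r - α * Kac R r) L N ((1 - χ') * β) := by
  have hw : (1 : ℝ) ≤ w := by exact_mod_cast h.w_pos
  have hm : (1 : ℝ) ≤ mt := by exact_mod_cast hmt
  have hl : (0 : ℝ) < 2 * w * mt := by positivity
  have hχ0 : 0 ≤ χ := by
    rw [hχ]
    have := h.C'_nonneg
    have := h.C'_lt
    have : 0 < e0 / 2 - C' := by linarith
    positivity
  exact L2.core (L2.good_of_short h) hl hχ0 hχ1 hχ'0 hχ'1
    (fun hβ' hθ' hS N => lemmaL h hα mt hmt hR hstab hχ hχ1 hL hβ' hθ' hS N) hβ hθ hP N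

end Crest.Agent.S0209
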