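import Crest.Agent.S0209_Scales
import Crest.Agent.S0209_Super
import Crest.Agent.S0209_ScaleArith
import Crest.Agent.S0209_KapBounds
import Crest.Agent.S0209_PotProps

/-! # ROW 149, package I1 (a), (b) : the strengths `α`, the constants `Cp`, `χ`, and `pot k` -/

set_option autoImplicit false
namespace Crest.Agent.S0209
open Crest.ProbabilityR.Continuum MeasureTheory

namespace Pot

theorem energy_sub (f g : ℝ → ℝ) {N : ℕ} (x : Fin N → Pt) :
    energy (fun r => f r - g r) x = energy f x - energy g x := by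
  unfold energy
  rw [Finset.sum_sub_distrib]

theorem energy_sum {ι : Type*} (s : Finset ι) (c : ι → ℝ) (f : ι → ℝ → ℝ) {N : ℕ}
    (x : Fin N → Pt) :
    energy (fun r => ∑ j ∈ s, c j * f j r) x = ∑ j ∈ s, c j * energy (f j) x := by
  unfold energy
  rw [Finset.sum_comm]
  exact Finset.sum_congr rfl (fun j _ => by rw [Finset.mul_sum])

theorem Qf_nonneg {N : ℕ} (x : Fin N → Pt) : 0 ≤ Qf x :=
  le_trans (Nat.cast_nonneg N) (Qf_ge_N x)

end Pot

namespace Par
variable {P : Par}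

theorem T_pos (h : P.OK) : 0 < P.T := by have := h.T_ge; linarith

theorem Q_ge_real (h : P.OK) : (10 : ℝ) ^ 60 ≤ P.Q := by exact_mod_cast h.Q_ge

theorem R_ge_Q (h : P.OK) (k : ℕ) : P.Q ≤ P.R k := by
  have h1 : 1 ≤ P.Q := le_trans (Nat.one_le_pow _ _ (by norm_num)) h.Q_ge
  unfold Par.R
  calc P.Q = P.Q ^ 1 := (pow_one _).symm
    _ ≤ P.Q ^ (4 ^ k) := Nat.pow_le_pow_right h1 (Nat.one_le_pow _ _ (by norm_num))

theorem R_ge_real (h : P.OK) (k : ℕ) : (10 : ℝ) ^ 60 ≤ P.R k :=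
  le_trans (Q_ge_real h) (by exact_mod_cast R_ge_Q h k)

theorem R_pos_real (h : P.OK) (k : ℕ) : (0 : ℝ) < P.R k :=
  lt_of_lt_of_le (by positivity) (R_ge_real h k)

theorem one_le_R_real (h : P.OK) (k : ℕ) : (1 : ℝ) ≤ P.R k :=
  le_trans (by norm_num) (R_ge_real h k)

/-! ## I1 potentials -/
theorem α_pos (h : P.OK) (k : ℕ) : 0 < P.α k := by
  have hT := T_pos h
  have hp : 0 < Pack.pdens := lt_of_lt_of_le one_pos Pack.one_le_pdens
  unfold Par.α
  split_ifs with hk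
  · exact div_pos hT (mul_pos kap_pos hp)
  · have hc : 0 < P.c := by rw [h.c_eq]; norm_num
    have := Real.rpow_pos_of_pos (R_pos_real h k) (-(1 / 32 : ℝ))
    positivity

theorem α_le (h : P.OK) {k : ℕ} (hk : 2 ≤ k) : P.α k ≤ P.c * P.T * (1 / 2) ^ k := by
  have hT := T_pos h
  have hc : 0 < P.c := by rw [h.c_eq]; norm_num
  unfold Par.α
  rw [if_neg (by omega)]
  have h1 : (P.R k : ℝ) ^ (-(1 / 32 : ℝ)) ≤ 1 :=
    Real.rpow_le_one_of_one_le_of_nonpos (one_le_R_real h k) (by norm_num)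
  have h2 : 0 ≤ P.c * P.T * (1 / 2) ^ k := by positivity
  calc P.c * P.T * (1 / 2) ^ k * (P.R k : ℝ) ^ (-(1 / 32 : ℝ))
      ≤ P.c * P.T * (1 / 2) ^ k * 1 := mul_le_mul_of_nonneg_left h1 h2
    _ = _ := mul_one _

theorem term_nonneg (h : P.OK) (j : ℕ) : 0 ≤ P.α j * (4 * kap + 2 * CB / P.R j) := by
  have h1 := (α_pos h j).le
  have h2 := kap_pos
  have h3 := R_pos_real h j
  have h4 : (0 : ℝ) < CB := by unfold CB; norm_num
  positivity

theorem Cp_nonneg (h : P.OK) (k : ℕ) : 0 ≤ P.Cp k :=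
  Finset.sum_nonneg (fun j _ => term_nonneg h j)

theorem Cp_zero (P : Par) : P.Cp 0 = 0 := by
  unfold Par.Cp; simp

theorem Cp_succ (P : Par) (k : ℕ) :
    P.Cp (k + 1) = P.Cp k + P.α (k + 1) * (4 * kap + 2 * CB / P.R (k + 1)) := by
  unfold Par.Cp
  rw [Finset.sum_Icc_succ_top (by omega)]

theorem CB_div_le (h : P.OK) (j : ℕ) : 2 * CB / P.R j ≤ 1e-50 := by
  have h1 := R_ge_real h j
  have h3 := R_pos_real h j
  rw [div_le_iff₀ h3]
  unfold CB
  nlinarith

theorem term_one_le (h : P.OK) : P.α 1 * (4 * kap + 2 * CB / P.R 1) ≤ 4.05 * P.T := by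
  have hT := T_pos h
  have hp := Pack.one_le_pdens
  have hk := kap_ge
  have hk0 := kap_pos
  have hα : P.α 1 = P.T / (kap * Pack.pdens) := by unfold Par.α; rw [if_pos (le_refl _)]
  have hden : 0 < kap * Pack.pdens := by positivity
  rw [hα, div_mul_eq_mul_div, div_le_iff₀ hden]
  have h1 := CB_div_le h 1
  have h2 : kap ≤ kap * Pack.pdens := le_mul_of_one_le_right hk0.le hp
  have h3 : 4 * kap + 2 * CB / P.R 1 ≤ 4.05 * (kap * Pack.pdens) := by linarith
  calc P.T * (4 * kap + 2 * CB / P.R 1) ≤ P.T * (4.05 * (kap * Pack.pdens)) :=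
        mul_le_mul_of_nonneg_left h3 hT.le
    _ = _ := by ring

theorem term_le (h : P.OK) {j : ℕ} (hj : 2 ≤ j) :
    P.α j * (4 * kap + 2 * CB / P.R j) ≤ 20 * (P.c * P.T) * (1 / 2) ^ j := by
  have hT := T_pos h
  have hc : 0 < P.c := by rw [h.c_eq]; norm_num
  have h1 := α_le h hj
  have h2 := CB_div_le h j
  have h3 := kap_le
  have h4 : 4 * kap + 2 * CB / P.R j ≤ 20 := by linarith
  have h5 : 0 ≤ 4 * kap + 2 * CB / P.R j := by
    have := kap_pos
    have := R_pos_real h j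
    have : (0 : ℝ) < CB := by unfold CB; norm_num
    positivity
  have h6 : 0 ≤ P.c * P.T * (1 / 2) ^ j := by positivity
  calc P.α j * (4 * kap + 2 * CB / P.R j) ≤ (P.c * P.T * (1 / 2) ^ j) * 20 :=
        mul_le_mul h1 h4 h5 h6
    _ = _ := by ring

theorem Cp_le_aux (h : P.OK) (k : ℕ) :
    P.Cp (k + 1) ≤ 4.05 * P.T + 20 * (P.c * P.T) * (1 - (1 / 2) ^ (k + 1)) := by
  have hT := T_pos h
  have hc : 0 < P.c := by rw [h.c_eq]; norm_num
  induction k with
  | zero =>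
    rw [Cp_succ, Cp_zero]
    have := term_one_le h
    have h2 : 0 ≤ 20 * (P.c * P.T) * (1 - (1 / 2) ^ (0 + 1)) := by
      have : (0 : ℝ) ≤ 1 - (1 / 2) ^ (0 + 1) := by norm_num
      positivity
    simp only [zero_add] at *
    linarith
  | succ k ih =>
    rw [Cp_succ]
    have := term_le h (j := k + 1 + 1) (by omega)
    have e : (1 / 2 : ℝ) ^ (k + 1 + 1) = (1 / 2) ^ (k + 1) * (1 / 2) := pow_succ _ _
    rw [e] at this ⊢
    nlinarith

theorem Cp_le (h : P.OK) (k : ℕ) : P.Cp k ≤ 4.1 * P.T := by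
  have hT := T_pos h
  rcases k with _ | k
  · rw [Cp_zero]; positivity
  · have h1 := Cp_le_aux h k
    have h2 : (0 : ℝ) ≤ (1 / 2) ^ (k + 1) := by positivity
    have hc : P.c = 1e-13 := h.c_eq
    rw [hc] at h1
    nlinarith

theorem Wk_energy_le (h : P.OK) (k : ℕ) {N : ℕ} (x : Fin N → Pt) :
    energy (P.Wk k) x ≤ P.Cp k * Qf x := by
  have e : P.Wk k = fun r => ∑ j ∈ Finset.Icc 1 k, P.α j * Kac (P.R j) r := rfl
  rw [e, Pot.energy_sum]
  unfold Par.Cp
  rw [Finset.sum_mul]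
  refine Finset.sum_le_sum (fun j _ => ?_)
  rw [mul_assoc]
  exact mul_le_mul_of_nonneg_left (Kac_energy_le (one_le_R_real h j) x) (α_pos h j).le

theorem pot_succ (P : Par) (q0 : ℝ → ℝ) (k : ℕ) :
    P.pot q0 (k + 1) = fun r => q0 r - P.Wk k r - P.α (k + 1) * Kac (P.R (k + 1)) r := by
  funext r
  unfold Par.pot Par.Wk
  rw [Finset.sum_Icc_succ_top (by omega)]
  ring

theorem χ_nonneg (h : P.OK) (k : ℕ) : 0 ≤ P.χ k := by
  have hT := T_pos h
  have h1 := Cp_nonneg h (k - 1)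
  have h2 := Cp_le h (k - 1)
  unfold Par.χ
  have h3 : 0 ≤ 20 * P.T / 2 - P.Cp (k - 1) := by linarith
  positivity

set_option linter.unusedVariables false in
theorem χ_one (h : P.OK) : P.χ 1 = 0 := by
  unfold Par.χ
  simp [Cp_zero]

theorem χ_le (h : P.OK) {k : ℕ} (hk : 1 ≤ k) : P.χ k ≤ 6 / P.R (k - 1) := by
  have hT := T_pos h
  have hR := R_pos_real h (k - 1)
  rcases Nat.lt_or_ge k 2 with hk2 | hk2
  · have : k = 1 := by omega
    subst this
    rw [χ_one h]; positivity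
  · have h1 := Cp_nonneg h (k - 1)
    have h2 := Cp_le h (k - 1)
    have hmt : (2 : ℝ) * P.mt k = P.R (k - 1) := by exact_mod_cast mt_eq h hk2
    have hmt' : (P.mt k : ℝ) = P.R (k - 1) / 2 := by linarith
    unfold Par.χ
    rw [hmt']
    have h3 : 0 < 20 * P.T / 2 - P.Cp (k - 1) := by linarith
    rw [div_le_div_iff₀ (by positivity) hR]
    nlinarith

variable {q0 : ℝ → ℝ} {I0 : ℝ}

theorem Wk_nonneg (h : P.OK) (k : ℕ) (r : ℝ) : 0 ≤ P.Wk k r :=
  Finset.sum_nonneg (fun j _ => mul_nonneg (α_pos h j).le (Kac_nonneg (R_pos_real h j) r))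

theorem measurable_Wk (P : Par) (k : ℕ) : Measurable (P.Wk k) := by
  unfold Par.Wk
  exact Finset.measurable_sum _ (fun j _ => (PP.continuous_Kac _).measurable.const_mul _)

/-- superstability of every `pot k` -/
theorem pot_super (h : P.OK) (hq : CoreP q0 P.T P.a P.b1 P.r0 I0) (k : ℕ) {N : ℕ} (x : Fin N → Pt) :
    5 * P.T * Qf x - 10 * P.T * N ≤ energy (P.pot q0 k) x := by
  have hT := T_pos h
  have e : P.pot q0 k = fun r => q0 r - P.Wk k r := rfl
  rw [e, Pot.energy_sub]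
  have h1 := Wk_energy_le h k x
  have hb1 : (7 / 8 : ℝ) ≤ P.b1 := by
    unfold Par.b1
    have := h.δ_le
    linarith
  have h2 := core_energy_ge (q0 := q0) (e0 := 20 * P.T) hq.nonneg
    (fun r hr hr' => hq.low1 r hr (le_trans hr' hb1)) x
  have h3 := Pot.Qf_nonneg x
  have h4 := mul_le_mul_of_nonneg_right (Cp_le h k) h3
  nlinarith

theorem pot_good (h : P.OK) (hq : CoreP q0 P.T P.a P.b1 P.r0 I0) (k : ℕ) :
    Good (P.pot q0 k) (10 * P.T) := by
  refine ⟨hq.meas.sub (measurable_Wk P k), fun N x => ?_⟩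
  have hT := T_pos h
  have h1 := pot_super h hq k x
  have h3 := Pot.Qf_nonneg x
  nlinarith

theorem pot_neg (h : P.OK) (hq : CoreP q0 P.T P.a P.b1 P.r0 I0) (k : ℕ) :
    ∀ r, 1 ≤ r → P.pot q0 k r ≤ 0 := by
  intro r hr
  unfold Par.pot
  rw [hq.zero r hr]
  have := Wk_nonneg h k r
  linarith

end Par
end Crest.Agent.S0209
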