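import Crest.Agent.S0209_ScaleArith
import Crest.Agent.S0209_Pot
import Crest.Agent.S0209_PotInf
import Crest.Agent.S0209_Lam
import Crest.Agent.S0209_KapBounds
import Crest.Agent.S0209_LemmaL2
import Crest.Agent.S0209_Limit

/-!
# ROW 149, package I5: `hyp_stepL` and `bridge_A`
-/

set_option autoImplicit false
namespace Crest.Agent.S0209
open Crest.ProbabilityR.Continuum MeasureTheory
namespace Par
variable {P : Par} {q0 : ℝ → ℝ} {I0 : ℝ}

namespace HypL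

theorem T_pos (h : P.OK) : 0 < P.T := by have := h.T_ge; linarith

theorem R_pos (h : P.OK) (k : ℕ) : (0 : ℝ) < P.R k := by
  have h1 := R_ge h k
  have h2 := h.Q_ge
  have : 0 < P.R k := by
    refine lt_of_lt_of_le ?_ h1
    have : 0 < P.Q := lt_of_lt_of_le (by positivity) h2
    positivity
  exact_mod_cast this

theorem R_ge_big (h : P.OK) (k : ℕ) : (1e60 : ℝ) ≤ P.R k := by
  have h1 := R_ge h k
  have h2 := h.Q_ge
  have h3 : 10 ^ 60 ≤ P.R k := by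
    calc 10 ^ 60 ≤ P.Q := h2
      _ = P.Q * 1 := (mul_one _).symm
      _ ≤ P.Q * 16 ^ k := Nat.mul_le_mul_left _ (Nat.one_le_pow _ _ (by norm_num))
      _ ≤ P.R k := h1
  have : ((10 ^ 60 : ℕ) : ℝ) ≤ P.R k := by exact_mod_cast h3
  norm_num at this ⊢
  exact this

theorem measurable_Kac (R : ℝ) : Measurable (Kac R) := by
  unfold Kac
  fun_prop

theorem measurable_Wk (P : Par) (k : ℕ) : Measurable (P.Wk k) := by
  unfold Wk
  refine Finset.measurable_sum _ fun j _ => ?_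
  exact (measurable_Kac _).const_mul _

theorem Cp_succ (P : Par) (k : ℕ) :
    P.Cp (k + 1) = P.α (k + 1) * (4 * kap + 2 * CB / P.R (k + 1)) + P.Cp k := by
  unfold Cp
  rw [Finset.sum_Icc_succ_top (by omega), add_comm]

theorem w_pos' (h : P.OK) (k : ℕ) : 1 ≤ P.w (k + 1) := by
  unfold w
  split_ifs
  · exact le_refl 1
  · have := R_pos h (k + 1 - 1)
    exact_mod_cast this

theorem short_k (h : P.OK) (hq : CoreP q0 P.T P.a P.b1 P.r0 I0) (k : ℕ) :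
    Short q0 (P.Wk k) (20 * P.T) (P.Cp k) (P.w (k + 1)) where
  meas0 := hq.meas
  measW := measurable_Wk P k
  q0_nonneg := hq.nonneg
  q0_ge := by
    intro r h0 h1
    refine hq.low1 r h0 ?_
    have := h.δ_le
    unfold b1
    linarith
  W_nonneg := by
    intro r
    unfold Wk
    exact Finset.sum_nonneg fun j _ => mul_nonneg (α_pos h j).le (Kac_nonneg (R_pos h j) r)
  W_range := by
    intro r hr
    unfold Wk
    refine Finset.sum_eq_zero fun j hj => ?_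
    rw [Finset.mem_Icc] at hj
    have hk : ¬ (k + 1 ≤ 1) := by omega
    have hw : P.w (k + 1) = P.R k := by simp [w, hk]
    rw [hw] at hr
    have hjk : (P.R j : ℝ) ≤ P.R k := by exact_mod_cast R_mono h hj.2
    rw [Kac_eq_zero (R_pos h j) (hjk.trans hr), mul_zero]
  W_le := fun N x => Wk_energy_le h k x
  w_pos := w_pos' h k
  C'_nonneg := Cp_nonneg h k
  C'_lt := by
    have := Cp_le h k
    have := T_pos h
    linarith

theorem l_cast (h : P.OK) (k : ℕ) :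
    (2 * (P.w (k + 1) : ℝ) * (P.mt (k + 1) : ℝ)) = (P.l (k + 1) : ℝ) := by
  have := l_eq h (k := k + 1) (by omega)
  exact_mod_cast this.symm

theorem l_eq_sq (P : Par) (k : ℕ) : (P.l (k + 1) : ℝ) = (P.R k : ℝ) ^ 2 := by
  have := l_succ P k
  exact_mod_cast this

theorem R_eq_pow (P : Par) (k : ℕ) : (P.R (k + 1) : ℝ) = (P.R k : ℝ) ^ 4 := by
  have := R_succ P k
  exact_mod_cast this

theorem l_pos (h : P.OK) (k : ℕ) : (0 : ℝ) < P.l (k + 1) := by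
  rw [l_eq_sq]; have := R_pos h k; positivity

theorem mt_pos (h : P.OK) (k : ℕ) : 1 ≤ P.mt (k + 1) := by
  by_contra hc
  have h0 : P.mt (k + 1) = 0 := by omega
  have h1 := l_cast h k
  rw [h0] at h1
  have := l_pos h k
  simp at h1
  linarith

theorem χ_lt_one (h : P.OK) (k : ℕ) : P.χ (k + 1) < 1 := by
  have h1 := χ_le h (k := k + 1) (by omega)
  have h2 := R_ge_big h k
  simp only [Nat.add_sub_cancel] at h1
  have h3 : (6 : ℝ) / P.R k < 1 := by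
    rw [div_lt_one (R_pos h k)]
    linarith
  linarith

theorem M_pos' (h : P.OK) (k : ℕ) : (0 : ℝ) < P.M (k + 1) := by
  have := M_pos h (k := k + 1) (by omega)
  exact_mod_cast this

/-- Lemma L2 for the concrete data of level `k+1`. -/
theorem L2_applied (h : P.OK) (hq : CoreP q0 P.T P.a P.b1 P.r0 I0) (k : ℕ)
    {χ' : ℝ} (hχ'0 : 0 ≤ χ') (hχ'1 : χ' < 1)
    {L β μ θ Pp : ℝ} (hL : 0 < L) (hβ : 0 ≤ β) (hθ : 0 < θ)
    (hP : ∀ n : ℕ, μ * ((n : ℝ) / (P.hier q0).M (k + 1)) - (P.hier q0).psi (k + 1) β n ≤ Pp)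
    (N : ℕ) :
    ((1 - P.χ (k + 1)) * (1 - χ') * (P.T * μ) - θ) * N
      - (L / P.l (k + 1) + 2) ^ 3 * ((1 - P.χ (k + 1)) * (1 - χ') * (P.T * P.M (k + 1) * Pp)
          + (1 - (1 - P.χ (k + 1)) * (1 - χ')) * (P.l (k + 1) : ℝ) ^ 3
          + Real.log (1 / (1 - Real.exp (-θ))))
      - (1 - χ') * β * (P.χ (k + 1) * (20 * P.T) / 2
          + P.α (k + 1) * P.κp (k + 1) / (2 * (P.l (k + 1) : ℝ) ^ 3)) * N
      - 3 * Real.log (P.mt (k + 1))
      ≤ Phi (P.pot q0 (k + 1)) L N ((1 - χ') * β) := by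
  have hT := T_pos h
  have hM := M_pos' h k
  have hl := l_pos h k
  have hlc := l_cast h k
  have hχ1 := χ_lt_one h k
  have hR : (2 * (P.w (k + 1) : ℝ) * (P.mt (k + 1) : ℝ)) ≤ (P.R (k + 1) : ℝ) := by
    rw [hlc, l_eq_sq, R_eq_pow]
    have := R_ge_big h k
    have h1 : (1 : ℝ) ≤ (P.R k : ℝ) ^ 2 := by nlinarith
    nlinarith [sq_nonneg ((P.R k : ℝ) ^ 2)]
  have hstab : P.α (k + 1) * (4 * kap + 2 * CB / (P.R (k + 1) : ℝ)) + P.Cp k ≤ 20 * P.T / 2 := by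
    rw [← Cp_succ]
    have := Cp_le h (k + 1)
    linarith
  have key := lemmaL2 (short_k h hq k) (α_pos h (k + 1)).le (P.mt (k + 1)) (mt_pos h k) hR hstab
    (χ := P.χ (k + 1)) (χ' := χ') rfl hχ1 hχ'0 hχ'1 (L := L) (β := β) (μ := P.T * μ) (θ := θ)
    (P := P.T * P.M (k + 1) * Pp) hL hβ hθ ?_ N
  · rw [← pot_succ] at key
    have hκ : kap + CB * (2 * (P.w (k + 1) : ℝ) * (P.mt (k + 1) : ℝ)) / (P.R (k + 1) : ℝ)
        = P.κp (k + 1) := rfl
    rw [hκ, hlc] at key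
    exact key
  · intro n
    have e := hP n
    have hκ : kap + CB * (2 * (P.w (k + 1) : ℝ) * (P.mt (k + 1) : ℝ)) / (P.R (k + 1) : ℝ)
        = P.κp (k + 1) := rfl
    rw [hκ, hlc]
    have hψ : (P.hier q0).psi (k + 1) β n =
        Phi (fun r => q0 r - P.Wk k r) (P.l (k + 1)) n β / (P.T * P.M (k + 1))
          - β * P.aa (k + 1) * ((n : ℝ) / P.M (k + 1)) ^ 2 / 2 := rfl
    have hMM : (((P.hier q0).M (k + 1) : ℕ) : ℝ) = (P.M (k + 1) : ℝ) := rfl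
    rw [hψ, hMM] at e
    have haa : P.aa (k + 1) = P.α (k + 1) * P.κp (k + 1) * P.M (k + 1) /
        (P.T * (P.l (k + 1) : ℝ) ^ 3 * (1 - P.χ (k + 1))) := by
      unfold aa
      rw [hlc]
    rw [haa] at e
    have h1χ : 0 < 1 - P.χ (k + 1) := by linarith
    have e2 := mul_le_mul_of_nonneg_left e (by positivity : 0 ≤ P.T * (P.M (k + 1) : ℝ))
    have e3 : P.T * (P.M (k + 1) : ℝ) * (μ * ((n : ℝ) / P.M (k + 1)) -
        (Phi (fun r => q0 r - P.Wk k r) (P.l (k + 1)) n β / (P.T * P.M (k + 1))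
          - β * (P.α (k + 1) * P.κp (k + 1) * P.M (k + 1) /
        (P.T * (P.l (k + 1) : ℝ) ^ 3 * (1 - P.χ (k + 1)))) * ((n : ℝ) / P.M (k + 1)) ^ 2 / 2)) =
        P.T * μ * n - Phi (fun r => q0 r - P.Wk k r) (P.l (k + 1)) n β
        + β * P.α (k + 1) * P.κp (k + 1) * (n : ℝ) ^ 2 /
          (2 * (P.l (k + 1) : ℝ) ^ 3 * (1 - P.χ (k + 1))) := by
      field_simp
      ring
    rw [e3] at e2
    exact e2

theorem log_geom_nonneg {θ : ℝ} (hθ : 0 < θ) : 0 ≤ Real.log (1 / (1 - Real.exp (-θ))) := by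
  have h1 : Real.exp (-θ) < 1 := by rw [Real.exp_lt_one_iff]; linarith
  have h2 : 0 < Real.exp (-θ) := Real.exp_pos _
  refine Real.log_nonneg ?_
  rw [le_div_iff₀ (by linarith)]
  linarith

theorem log_geom_le {θ : ℝ} (hθ : 0 < θ) : Real.log (1 / (1 - Real.exp (-θ))) ≤ 1 / θ := by
  have h1 : Real.exp (-θ) < 1 := by rw [Real.exp_lt_one_iff]; linarith
  have h3 : Real.exp (-θ) ≤ 1 / (1 + θ) := by
    rw [Real.exp_neg, inv_eq_one_div]
    have := Real.add_one_le_exp θ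
    gcongr
    linarith
  have h4 : θ / (1 + θ) ≤ 1 - Real.exp (-θ) := by
    have : θ / (1 + θ) = 1 - 1 / (1 + θ) := by field_simp; ring
    linarith
  have h5 : 0 < θ / (1 + θ) := by positivity
  have h6 : 1 / (1 - Real.exp (-θ)) ≤ 1 / (θ / (1 + θ)) := by gcongr
  have h7 : 1 / (θ / (1 + θ)) = 1 + 1 / θ := by field_simp; ring
  have h8 : 0 < 1 / (1 - Real.exp (-θ)) := by
    have : 0 < 1 - Real.exp (-θ) := by linarith
    positivity
  have := Real.log_le_sub_one_of_pos h8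
  linarith

theorem A2_nonneg (h : P.OK) (k : ℕ) :
    0 ≤ P.α (k + 1) * P.κp (k + 1) / (2 * (P.l (k + 1) : ℝ) ^ 3) := by
  have h1 := (α_pos h (k + 1)).le
  have h2 := l_pos h k
  have h3 : 0 ≤ P.κp (k + 1) := by
    unfold κp
    have := kap_pos
    have := R_pos h (k + 1)
    unfold CB
    positivity
  positivity

theorem A2_le (h : P.OK) (k : ℕ) :
    P.α (k + 1) * P.κp (k + 1) / (2 * (P.l (k + 1) : ℝ) ^ 3) ≤ 1.025 * P.T / P.R k := by
  have hα := (α_pos h (k + 1)).le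
  have hl := l_pos h k
  have hr := R_pos h k
  have hR := R_pos h (k + 1)
  have hrb := R_ge_big h k
  have hT := T_pos h
  have hC : P.α (k + 1) * (4 * kap + 2 * CB / (P.R (k + 1) : ℝ)) ≤ 4.1 * P.T := by
    have h1 := Cp_succ P k
    have h2 := Cp_le h (k + 1)
    have h3 := Cp_nonneg h k
    linarith
  have hl1 : (1 : ℝ) ≤ P.l (k + 1) := by
    rw [l_eq_sq]
    exact one_le_pow₀ (by linarith)
  have hκ : P.κp (k + 1) = kap + CB * (P.l (k + 1) : ℝ) / (P.R (k + 1) : ℝ) := by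
    unfold κp; rw [l_cast h k]
  have hk := kap_pos
  have hCB : (0 : ℝ) ≤ CB / (P.R (k + 1) : ℝ) := by unfold CB; positivity
  have h4 : P.κp (k + 1) ≤ (P.l (k + 1) : ℝ) / 2 * (4 * kap + 2 * CB / (P.R (k + 1) : ℝ)) := by
    rw [hκ]
    have e : CB * (P.l (k + 1) : ℝ) / (P.R (k + 1) : ℝ) = (P.l (k + 1) : ℝ) * (CB / (P.R (k + 1) : ℝ)) := by
      ring
    rw [e]
    have h9 : kap * 1 ≤ kap * (P.l (k + 1) : ℝ) := by gcongr
    have e2 : (P.l (k + 1) : ℝ) / 2 * (4 * kap + 2 * CB / (P.R (k + 1) : ℝ)) =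
        2 * (kap * (P.l (k + 1) : ℝ)) + (P.l (k + 1) : ℝ) * (CB / (P.R (k + 1) : ℝ)) := by ring
    rw [e2]
    linarith
  have h5 : P.α (k + 1) * P.κp (k + 1) ≤ (P.l (k + 1) : ℝ) / 2 * (4.1 * P.T) := by
    calc P.α (k + 1) * P.κp (k + 1)
        ≤ P.α (k + 1) * ((P.l (k + 1) : ℝ) / 2 * (4 * kap + 2 * CB / (P.R (k + 1) : ℝ))) := by gcongr
      _ = (P.l (k + 1) : ℝ) / 2 * (P.α (k + 1) * (4 * kap + 2 * CB / (P.R (k + 1) : ℝ))) := by ring
      _ ≤ (P.l (k + 1) : ℝ) / 2 * (4.1 * P.T) := by gcongr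
  calc P.α (k + 1) * P.κp (k + 1) / (2 * (P.l (k + 1) : ℝ) ^ 3)
      ≤ (P.l (k + 1) : ℝ) / 2 * (4.1 * P.T) / (2 * (P.l (k + 1) : ℝ) ^ 3) := by gcongr
    _ = 1.025 * P.T / (P.l (k + 1) : ℝ) ^ 2 := by field_simp; ring
    _ ≤ 1.025 * P.T / P.R k := by
        gcongr
        rw [l_eq_sq]
        have h1 : (1 : ℝ) ≤ P.R k := by linarith
        calc (P.R k : ℝ) = (P.R k : ℝ) ^ 1 := (pow_one _).symm
          _ ≤ ((P.R k : ℝ) ^ 2) ^ 2 := by
            rw [← pow_mul]; exact pow_le_pow_right₀ h1 (by norm_num)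

theorem log_mt_le (h : P.OK) (k : ℕ) : Real.log (P.mt (k + 1)) ≤ P.l (k + 1) := by
  have h1 : (1 : ℝ) ≤ P.mt (k + 1) := by exact_mod_cast mt_pos h k
  have h2 := Real.log_le_sub_one_of_pos (by linarith : (0 : ℝ) < P.mt (k + 1))
  have h3 := l_cast h k
  have h4 : (1 : ℝ) ≤ P.w (k + 1) := by exact_mod_cast w_pos' h k
  have h5 : 1 * (P.mt (k + 1) : ℝ) ≤ (P.w (k + 1) : ℝ) * (P.mt (k + 1) : ℝ) := by gcongr
  linarith

theorem M_lower (h : P.OK) (k : ℕ) : 0.99 * (P.l (k + 1) : ℝ) ^ 3 ≤ P.M (k + 1) := by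
  have h1 := (lamA_mem h (k := k + 1) (by omega)).1
  have h2 := Pack.one_le_pdens
  have hl := l_pos h k
  unfold lamA at h1
  rw [le_div_iff₀ (by positivity)] at h1
  have h3 : 0.99 * 1 * (P.l (k + 1) : ℝ) ^ 3 ≤ 0.99 * Pack.pdens * (P.l (k + 1) : ℝ) ^ 3 := by gcongr
  linarith

theorem ms_ge_one (h : P.OK) (k : ℕ) : (1 : ℝ) ≤ P.ms (k + 1) := by
  have h1 := ms_ge h (k := k + 1) (by omega)
  refine le_trans ?_ h1
  have hl := l_pos h k
  rw [le_div_iff₀ (by linarith)]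
  have e1 : (P.l (k + 1 + 1) : ℝ) = ((P.R k : ℝ) ^ 2) ^ 4 := by
    rw [l_eq_sq, R_eq_pow]; ring
  rw [e1, l_eq_sq]
  have hr := R_ge_big h k
  have h2 : (3 : ℝ) ≤ (P.R k : ℝ) ^ 2 := by nlinarith
  set y := (P.R k : ℝ) ^ 2
  have h3 : y * 3 * 1 * 1 ≤ y * y * y * y := by gcongr <;> linarith
  have h4 : y ^ 4 = y * y * y * y := by ring
  rw [h4]
  linarith

theorem Pp_nonneg (k : ℕ) {β μ Pp : ℝ}
    (hP : ∀ n : ℕ, μ * ((n : ℝ) / (P.hier q0).M (k + 1)) - (P.hier q0).psi (k + 1) β n ≤ Pp) :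
    0 ≤ Pp := by
  have e := hP 0
  have hψ : (P.hier q0).psi (k + 1) β 0 =
        Phi (fun r => q0 r - P.Wk k r) (P.l (k + 1)) 0 β / (P.T * P.M (k + 1))
          - β * P.aa (k + 1) * (((0 : ℕ) : ℝ) / P.M (k + 1)) ^ 2 / 2 := rfl
  rw [hψ] at e
  simp only [Phi, Z_zero, Real.log_one, Nat.cast_zero, zero_div, neg_zero, mul_zero] at e
  norm_num at e
  exact e

theorem stepL_arith {r T M ms l χ η β μ Pp A2 Λ G3 lmt N Ph : ℝ}
    (hr : 1e60 ≤ r) (hT : 1e8 ≤ T) (hl : l = r ^ 2) (hM : 0.99 * l ^ 3 ≤ M) (hms : 1 ≤ ms)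
    (hχ0 : 0 ≤ χ) (hχ : χ ≤ 6 / r) (hη0 : 0 ≤ η) (hη1 : η ≤ 1)
    (hβ0 : 0.99 ≤ β) (hβ1 : β ≤ 1.01) (hμ0 : 125 ≤ μ) (hμ1 : μ ≤ 150) (hPp : 0 ≤ Pp)
    (hA0 : 0 ≤ A2) (hA : A2 ≤ 1.025 * T / r) (hΛ0 : 0 ≤ Λ) (hΛ : Λ ≤ r / T)
    (hG0 : 0 ≤ G3) (hG : G3 ≤ (1 + η) * ms ^ 3) (hlmt : lmt ≤ l) (hN : 0 ≤ N)
    (key : ((1 - χ) * (1 - 0) * (T * μ) - T / r) * N
      - G3 * ((1 - χ) * (1 - 0) * (T * M * Pp) + (1 - (1 - χ) * (1 - 0)) * l ^ 3 + Λ)
      - (1 - 0) * β * (χ * (20 * T) / 2 + A2) * N - 3 * lmt ≤ Ph) :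
    μ * (N / (ms ^ 3 * M)) - (1 + η) * Pp - 1e4 / r * (1 + N / (ms ^ 3 * M))
      ≤ Ph / (T * (ms ^ 3 * M)) := by
  have hr0 : 0 < r := by linarith
  have hT0 : 0 < T := by linarith
  have hr3 : r ^ 3 ≤ M := by
    have h6 : l ^ 3 = r ^ 6 := by rw [hl]; ring
    rw [h6] at hM
    have h3 : (2:ℝ) ≤ r ^ 3 := by
      have : (1:ℝ) ≤ r := by linarith
      have h2 : (2:ℝ) ≤ r := by linarith
      calc (2:ℝ) ≤ r := h2
        _ = r * 1 * 1 := by ring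
        _ ≤ r * r * r := by gcongr
        _ = r ^ 3 := by ring
    have h7 : r ^ 6 = r ^ 3 * r ^ 3 := by ring
    have h8 : r ^ 3 * 2 ≤ r ^ 3 * r ^ 3 := by gcongr
    have h9 : 0 < r ^ 3 := by positivity
    rw [h7] at hM
    linarith
  have hl0 : 0 < l := by rw [hl]; positivity
  have hM0 : 0 < M := lt_of_lt_of_le (by positivity) hr3
  have hms0 : 0 < ms := by linarith
  have hms3 : 1 ≤ ms ^ 3 := one_le_pow₀ hms
  set M' := ms ^ 3 * M with hM'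
  have hM'0 : 0 < M' := by positivity
  set u := T / r with hu
  have hu0 : 0 < u := by positivity
  have hχT : χ * T ≤ 6 * u := by
    have := mul_le_mul_of_nonneg_right hχ hT0.le
    calc χ * T ≤ 6 / r * T := this
      _ = 6 * u := by rw [hu]; ring
  have hA' : A2 ≤ 1.025 * u := by rw [hu]; linarith [hA, (by ring : 1.025 * T / r = 1.025 * (T / r))]
  -- (i)
  have h_i : χ * T * μ + u + β * (χ * (20 * T) / 2 + A2) ≤ 1e4 * u := by
    have a1 : χ * T * μ ≤ 6 * u * 150 := by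
      have : 0 ≤ χ * T := by positivity
      calc χ * T * μ ≤ χ * T * 150 := by gcongr
        _ ≤ 6 * u * 150 := by gcongr
    have a2 : β * (χ * (20 * T) / 2 + A2) ≤ 1.01 * (10 * (6 * u) + 1.025 * u) := by
      have : 0 ≤ χ * (20 * T) / 2 + A2 := by positivity
      have h2 : χ * (20 * T) / 2 + A2 ≤ 10 * (6 * u) + 1.025 * u := by linarith
      calc β * (χ * (20 * T) / 2 + A2) ≤ 1.01 * (χ * (20 * T) / 2 + A2) := by gcongr
        _ ≤ 1.01 * (10 * (6 * u) + 1.025 * u) := by gcongr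
    linarith
  -- (ii)
  have h_ii : G3 * ((1 - χ) * (T * M * Pp)) ≤ (1 + η) * Pp * T * M' := by
    have b1 : (1 - χ) * (T * M * Pp) ≤ T * M * Pp := by
      have : 0 ≤ T * M * Pp := by positivity
      have h2 : 0 ≤ χ * (T * M * Pp) := by positivity
      linarith
    have b0 : 0 ≤ T * M * Pp := by positivity
    calc G3 * ((1 - χ) * (T * M * Pp)) ≤ G3 * (T * M * Pp) := by gcongr
      _ ≤ (1 + η) * ms ^ 3 * (T * M * Pp) := by gcongr
      _ = (1 + η) * Pp * T * M' := by rw [hM']; ring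
  -- (iii)
  set v := M / r with hv
  have hv0 : 0 < v := by positivity
  have hG2 : G3 ≤ 2 * ms ^ 3 := by
    have : (1 + η) * ms ^ 3 ≤ 2 * ms ^ 3 := by gcongr; linarith
    linarith
  have c1 : χ * l ^ 3 ≤ 6.1 * v := by
    have : χ * l ^ 3 ≤ 6 / r * (M / 0.99) := by
      have h1 : l ^ 3 ≤ M / 0.99 := by rw [le_div_iff₀ (by norm_num)]; linarith
      have h0 : 0 ≤ l ^ 3 := by positivity
      calc χ * l ^ 3 ≤ 6 / r * l ^ 3 := by gcongr
        _ ≤ 6 / r * (M / 0.99) := by gcongr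
    calc χ * l ^ 3 ≤ 6 / r * (M / 0.99) := this
      _ = (6 / 0.99) * v := by rw [hv]; ring
      _ ≤ 6.1 * v := by gcongr; norm_num
  have hr2v : r ^ 2 ≤ v := by
    rw [hv, le_div_iff₀ hr0]
    calc r ^ 2 * r = r ^ 3 := by ring
      _ ≤ M := hr3
  have c2 : Λ ≤ v := by
    have : r / T ≤ r := by
      rw [div_le_iff₀ hT0]
      have : r * 1 ≤ r * T := by gcongr; linarith
      linarith
    have h2 : r ≤ r ^ 2 := by
      have : r * 1 ≤ r * r := by gcongr; linarith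
      calc r = r * 1 := by ring
        _ ≤ r * r := this
        _ = r ^ 2 := by ring
    linarith
  have c3 : lmt ≤ v := by rw [hl] at hlmt; linarith
  have h_iii : G3 * (χ * l ^ 3 + Λ) + 3 * lmt ≤ 1e4 * u * M' := by
    have d0 : 0 ≤ χ * l ^ 3 + Λ := by positivity
    have d1 : G3 * (χ * l ^ 3 + Λ) ≤ 2 * ms ^ 3 * (7.1 * v) := by
      calc G3 * (χ * l ^ 3 + Λ) ≤ 2 * ms ^ 3 * (χ * l ^ 3 + Λ) := by gcongr
        _ ≤ 2 * ms ^ 3 * (7.1 * v) := by gcongr; linarith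
    have d2 : 3 * lmt ≤ 3 * (ms ^ 3 * v) := by
      have : 1 * v ≤ ms ^ 3 * v := by gcongr
      linarith
    have d3 : u * M' = T * (ms ^ 3 * v) := by rw [hu, hv, hM']; ring
    have d4 : ms ^ 3 * v ≤ T * (ms ^ 3 * v) := by
      have : 0 < ms ^ 3 * v := by positivity
      have h2 : 1 * (ms ^ 3 * v) ≤ T * (ms ^ 3 * v) := by gcongr; linarith
      linarith
    have d5 : 0 < ms ^ 3 * v := by positivity
    have d6 : 1e4 * u * M' = 1e4 * (T * (ms ^ 3 * v)) := by rw [← d3]; ring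
    rw [d6]
    linarith
  -- assemble
  have hfin : T * μ * N - (1 + η) * Pp * T * M' - 1e4 * u * M' - 1e4 * u * N ≤ Ph := by
    have e1 : (χ * T * μ + u + β * (χ * (20 * T) / 2 + A2)) * N ≤ 1e4 * u * N := by gcongr
    have e2 : G3 * ((1 - χ) * (1 - 0) * (T * M * Pp) + (1 - (1 - χ) * (1 - 0)) * l ^ 3 + Λ) =
        G3 * ((1 - χ) * (T * M * Pp)) + G3 * (χ * l ^ 3 + Λ) := by ring
    have e3 : ((1 - χ) * (1 - 0) * (T * μ) - u) * N - (1 - 0) * β * (χ * (20 * T) / 2 + A2) * N =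
        T * μ * N - (χ * T * μ + u + β * (χ * (20 * T) / 2 + A2)) * N := by ring
    rw [e2] at key
    linarith
  have hgoal : μ * (N / M') - (1 + η) * Pp - 1e4 / r * (1 + N / M') =
      (T * μ * N - (1 + η) * Pp * T * M' - 1e4 * u * M' - 1e4 * u * N) / (T * M') := by
    rw [hu]; field_simp; ring
  rw [hgoal]
  gcongr

end HypL

open HypL in
theorem hyp_stepL (h : P.OK) (hq : CoreP q0 P.T P.a P.b1 P.r0 I0) :
    ∀ k, 1 ≤ k → ∀ β ∈ Set.Icc (0.99 : ℝ) 1.01, ∀ μ ∈ Set.Icc (125 : ℝ) 150, ∀ Pp : ℝ,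
    (∀ n : ℕ, μ * ((n : ℝ) / (P.hier q0).M k) - (P.hier q0).psi k β n ≤ Pp) → ∀ N : ℕ,
    μ * ((N : ℝ) / (P.hier q0).M (k + 1)) - (1 + (P.hier q0).η k) * Pp
      - (P.hier q0).E k * (1 + (N : ℝ) / (P.hier q0).M (k + 1)) ≤ (P.hier q0).φ (k + 1) β N := by
  intro k hk β hβ μ hμ Pp hP N
  obtain ⟨k, rfl⟩ : ∃ k', k = k' + 1 := ⟨k - 1, by omega⟩
  have hT := HypL.T_pos h
  have hr := HypL.R_pos h k
  have hrb := R_ge_big h k
  have hθ : 0 < P.T / (P.R k : ℝ) := by positivity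
  have key := L2_applied h hq k (χ' := 0) le_rfl one_pos (L := (P.l (k + 1 + 1) : ℝ)) (β := β)
    (μ := μ) (θ := P.T / (P.R k : ℝ)) (Pp := Pp) (HypL.l_pos h (k + 1)) (by linarith [hβ.1]) hθ hP N
  have hη : (P.hier q0).η (k + 1) = 20 / (P.R k : ℝ) ^ 2 := rfl
  have hE : (P.hier q0).E (k + 1) = 1e4 / (P.R k : ℝ) := by
    simp [hier]
  have hM2 : (((P.hier q0).M (k + 1 + 1) : ℕ) : ℝ) = (P.ms (k + 1) : ℝ) ^ 3 * (P.M (k + 1) : ℝ) := by
    have : (P.hier q0).M (k + 1 + 1) = (P.ms (k + 1)) ^ 3 * P.M (k + 1) := rfl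
    rw [this]; push_cast; ring
  have hφ : (P.hier q0).φ (k + 1 + 1) β N =
      Phi (P.pot q0 (k + 1)) (P.l (k + 1 + 1)) N β / (P.T * ((P.hier q0).M (k + 1 + 1) : ℕ)) := rfl
  rw [hη, hE, hφ, hM2]
  have hβ' : (1 - 0) * β = β := by ring
  have hχ := χ_le h (k := k + 1) (by omega)
  simp only [Nat.add_sub_cancel] at hχ
  have hG := eta_bound h (k := k + 1) (by omega)
  simp only [Nat.add_sub_cancel] at hG
  have hη1 : 20 / (P.R k : ℝ) ^ 2 ≤ 1 := by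
    rw [div_le_one (by positivity)]
    nlinarith
  have hΛ : Real.log (1 / (1 - Real.exp (-(P.T / (P.R k : ℝ))))) ≤ (P.R k : ℝ) / P.T := by
    have := log_geom_le hθ
    rwa [one_div_div] at this
  have hPh : Phi (P.pot q0 (k + 1)) (P.l (k + 1 + 1)) N ((1 - 0) * β) =
      Phi (P.pot q0 (k + 1)) (P.l (k + 1 + 1)) N β := by rw [hβ']
  rw [hPh] at key
  exact stepL_arith hrb h.T_ge (l_eq_sq P k) (M_lower h k) (ms_ge_one h k) (χ_nonneg h (k + 1)) hχ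
    (by positivity) hη1 hβ.1 hβ.2 hμ.1 hμ.2 (Pp_nonneg k hP) (A2_nonneg h k) (A2_le h k)
    (log_geom_nonneg hθ) hΛ (by have := l_pos h k; have := l_pos h (k + 1); positivity) hG
    (log_mt_le h k) (Nat.cast_nonneg N) key

end Par
end Crest.Agent.S0209
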