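import Crest.Agent.S0209_Pot
import Crest.Agent.S0209_Lam
import Crest.Agent.S0209_ScaleArith
import Crest.Agent.S0209_Super
import Crest.Agent.S0209_Basic

/-!
# ROW 149, package I6: the fields `M_succ`, `E_nonneg`, `η_nonneg`, `a_pos`, `conc`, `ss` of
`Hier.Hyp` for the concrete hierarchy `P.hier q0`.
-/

set_option autoImplicit false
namespace Crest.Agent.S0209
open Crest.ProbabilityR.Continuum MeasureTheory
namespace Par
variable {P : Par}

namespace HypSS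

theorem Q_le_R (h : P.OK) (k : ℕ) : (10 : ℝ) ^ 60 ≤ (P.R k : ℝ) := by
  have h1 := R_ge h k
  have h2 : P.Q ≤ P.Q * 16 ^ k := Nat.le_mul_of_pos_right _ (by positivity)
  have h3 : 10 ^ 60 ≤ P.R k := h.Q_ge.trans (h2.trans h1)
  exact_mod_cast h3

theorem l_ge (h : P.OK) (k : ℕ) : (10 : ℝ) ^ 60 ≤ (P.l k : ℝ) := by
  have h1 := Q_le_R h (k - 1)
  have : (P.l k : ℝ) = (P.R (k - 1) : ℝ) ^ 2 := by simp [Par.l]
  rw [this]
  nlinarith

theorem T_pos (h : P.OK) : 0 < P.T := lt_of_lt_of_le (by norm_num) h.T_ge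

/-- `Phi(pot_{k}, l, n, β) ≥ β (5 T n²/(2l+1)³ - 10 T n) - l³`. -/
theorem Phi_ge {q0 : ℝ → ℝ} {I0 : ℝ} (h : P.OK) (hq : CoreP q0 P.T P.a P.b1 P.r0 I0) (k : ℕ)
    {l β : ℝ} (hl : 0 < l) (hβ : 0 ≤ β) (n : ℕ) :
    β * (5 * P.T * ((n : ℝ) ^ 2 / (2 * l + 1) ^ 3) - 10 * P.T * n) - l ^ 3
      ≤ Phi (P.pot q0 k) l n β := by
  have hT := T_pos h
  have hZ := Zg_le (V := rad (P.pot q0 k)) (measurableSet_cube l) (volume_cube_lt_top l) (N := n)
    (c := -(5 * P.T * ((n : ℝ) ^ 2 / (2 * l + 1) ^ 3) - 10 * P.T * n)) hβ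
    (fun x hx => by
      have h1 := pot_super h hq k x
      have h2 := Qf_ge hl.le x hx
      rw [energy_eq_En] at h1
      have h3 : 5 * P.T * ((n : ℝ) ^ 2 / (2 * l + 1) ^ 3) ≤ 5 * P.T * Qf x :=
        mul_le_mul_of_nonneg_left h2 (by positivity)
      linarith)
  rw [← partitionFn_eq_Zg, volume_cube_toReal hl.le] at hZ
  have hpos := Z_pos (pot_good h hq k) hl hβ n
  have hfac : (l ^ 3) ^ n / (n.factorial : ℝ) ≤ Real.exp (l ^ 3) :=
    Real.pow_div_factorial_le_exp _ (by positivity) n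
  have hZ2 : partitionFn (P.pot q0 k) l n β ≤
      Real.exp (β * -(5 * P.T * ((n : ℝ) ^ 2 / (2 * l + 1) ^ 3) - 10 * P.T * n) + l ^ 3) := by
    rw [Real.exp_add]
    refine hZ.trans ?_
    rw [mul_div_assoc]
    exact mul_le_mul_of_nonneg_left hfac (Real.exp_pos _).le
  have hlog := Real.log_le_log hpos hZ2
  rw [Real.log_exp] at hlog
  unfold Phi
  linarith

end HypSS

theorem hyp_M_succ (P : Par) (q0 : ℝ → ℝ) :
    ∀ k, 1 ≤ k → (P.hier q0).M (k + 1) = (P.hier q0).m k * (P.hier q0).M k := by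
  intro k hk
  obtain ⟨j, rfl⟩ : ∃ j, k = j + 1 := ⟨k - 1, by omega⟩
  rfl

theorem hyp_E_nonneg (P : Par) (q0 : ℝ → ℝ) : ∀ k, 0 ≤ (P.hier q0).E k := by
  intro k
  simp only [Par.hier]
  split_ifs <;> positivity

theorem hyp_η_nonneg (P : Par) (q0 : ℝ → ℝ) : ∀ k, 0 ≤ (P.hier q0).η k := by
  intro k
  simp only [Par.hier]
  positivity

theorem hyp_a_pos (h : P.OK) (q0 : ℝ → ℝ) : ∀ k, 1 ≤ k → 0 < (P.hier q0).a k := by
  intro k hk
  simp only [Par.hier]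
  unfold Par.aa
  have hT := HypSS.T_pos h
  have hα := α_pos h k
  have hM : (0 : ℝ) < P.M k := by exact_mod_cast M_pos h hk
  have hl : (P.l k : ℝ) = 2 * P.w k * P.mt k := by exact_mod_cast l_eq h hk
  have hl0 : (0 : ℝ) < 2 * P.w k * P.mt k := by
    rw [← hl]; exact lt_of_lt_of_le (by positivity) (HypSS.l_ge h k)
  have hR : (0 : ℝ) < P.R k := lt_of_lt_of_le (by positivity) (HypSS.Q_le_R h k)
  have hκ : 0 < P.κp k := by
    unfold Par.κp
    have := kap_pos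
    have hCB : (0 : ℝ) < CB := by unfold CB; norm_num
    positivity
  have hχ : 0 < 1 - P.χ k := by
    have h1 := χ_le h hk
    have h2 := HypSS.Q_le_R h (k - 1)
    have h3 : (6 : ℝ) / P.R (k - 1) ≤ 6 / 10 ^ 60 :=
      div_le_div_of_nonneg_left (by norm_num) (by positivity) h2
    have h4 : (6 : ℝ) / 10 ^ 60 < 1 := by norm_num
    linarith
  positivity

variable {q0 : ℝ → ℝ} {I0 : ℝ}

theorem hyp_conc (h : P.OK) (hq : CoreP q0 P.T P.a P.b1 P.r0 I0) :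
    ∀ k n, 1 ≤ k → ConcaveOn ℝ (Set.Icc 0.99 1.01) (fun β => (P.hier q0).φ k β n) := by
  intro k n hk
  simp only [Par.hier]
  have hT := HypSS.T_pos h
  have hM : (0 : ℝ) < P.M k := by exact_mod_cast M_pos h hk
  have hl : (0 : ℝ) < P.l k := lt_of_lt_of_le (by positivity) (HypSS.l_ge h k)
  have hc := Phi_concave (pot_good h hq (k - 1)) hl n
  have hsub : Set.Icc (0.99 : ℝ) 1.01 ⊆ Set.Ici 0 := fun x hx => by
    have := hx.1; simp only [Set.mem_Ici]; linarith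
  have hc' := (hc.subset hsub (convex_Icc _ _)).smul (c := 1 / (P.T * P.M k)) (by positivity)
  refine hc'.congr ?_
  intro β _
  simp only [smul_eq_mul]
  ring

theorem hyp_ss (h : P.OK) (hq : CoreP q0 P.T P.a P.b1 P.r0 I0) :
    ∀ k, 2 ≤ k → ∀ β ∈ Set.Icc (0.99 : ℝ) 1.01, ∀ n : ℕ,
    0.6 * ((n : ℝ) / (P.hier q0).M k) ^ 2 - 11 * ((n : ℝ) / (P.hier q0).M k) - 1
      ≤ (P.hier q0).φ k β n := by
  intro k hk β hβ n
  simp only [Par.hier]
  have hk1 : 1 ≤ k := by omega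
  have hT := HypSS.T_pos h
  have hT8 := h.T_ge
  have hM : (0 : ℝ) < P.M k := by exact_mod_cast M_pos h hk1
  have hl60 := HypSS.l_ge h k
  have hl : (0 : ℝ) < P.l k := lt_of_lt_of_le (by positivity) hl60
  obtain ⟨hβ1, hβ2⟩ := hβ
  have hΦ := HypSS.Phi_ge h hq (k - 1) hl (by linarith : (0 : ℝ) ≤ β) n
  have hlam := (lamA_mem h hk1).1
  have hp := Pack.one_le_pdens
  unfold Par.lamA at hlam
  set l : ℝ := (P.l k : ℝ) with hldef
  set M : ℝ := (P.M k : ℝ) with hMdef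
  set t : ℝ := (n : ℝ) / M with htdef
  have hn : (n : ℝ) = t * M := by rw [htdef]; field_simp
  have ht0 : 0 ≤ t := by rw [htdef]; positivity
  -- `0.99 l³ ≤ M`
  have hMl : 0.99 * l ^ 3 ≤ M := by
    have h1 : 0.99 ≤ M / l ^ 3 := by linarith
    rwa [le_div_iff₀ (by positivity)] at h1
  -- `(2l+1)³ ≤ 8.1 l³`
  have hl1 : (1 : ℝ) ≤ l / 1000 := by
    have : (1000 : ℝ) ≤ 10 ^ 60 := by norm_num
    rw [le_div_iff₀ (by norm_num)]; linarith
  have h2l : (2 * l + 1) ^ 3 ≤ 8.1 * l ^ 3 := by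
    have h3 : 2 * l + 1 ≤ 2.001 * l := by linarith
    calc (2 * l + 1) ^ 3 ≤ (2.001 * l) ^ 3 := pow_le_pow_left₀ (by positivity) h3 3
      _ = 2.001 ^ 3 * l ^ 3 := by ring
      _ ≤ 8.1 * l ^ 3 := by
          apply mul_le_mul_of_nonneg_right (by norm_num) (by positivity)
  rw [le_div_iff₀ (by positivity)]
  refine le_trans ?_ hΦ
  -- main computation
  have hA : 0.122 * t ^ 2 * M ≤ (n : ℝ) ^ 2 / (2 * l + 1) ^ 3 := by
    rw [le_div_iff₀ (by positivity), hn]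
    have e1 : 0.122 * t ^ 2 * M * (2 * l + 1) ^ 3 ≤ 0.122 * t ^ 2 * M * (8.1 * l ^ 3) :=
      mul_le_mul_of_nonneg_left h2l (by positivity)
    have e2 : 0.122 * t ^ 2 * M * (8.1 * l ^ 3) ≤ t ^ 2 * M * M := by
      have : 0.122 * 8.1 * l ^ 3 ≤ M := by nlinarith
      have e3 : t ^ 2 * M * (0.122 * 8.1 * l ^ 3) ≤ t ^ 2 * M * M :=
        mul_le_mul_of_nonneg_left this (by positivity)
      nlinarith
    nlinarith
  have hB : l ^ 3 ≤ P.T * M := by
    have : l ^ 3 ≤ 2 * M := by nlinarith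
    nlinarith
  have hC : 0.6 * t ^ 2 * (P.T * M) ≤ β * (5 * P.T * ((n : ℝ) ^ 2 / (2 * l + 1) ^ 3)) := by
    have e1 : 5 * P.T * (0.122 * t ^ 2 * M) ≤ 5 * P.T * ((n : ℝ) ^ 2 / (2 * l + 1) ^ 3) :=
      mul_le_mul_of_nonneg_left hA (by positivity)
    have e2 : 0.99 * (5 * P.T * (0.122 * t ^ 2 * M)) ≤ β * (5 * P.T * (0.122 * t ^ 2 * M)) :=
      mul_le_mul_of_nonneg_right hβ1 (by positivity)
    have e3 : β * (5 * P.T * (0.122 * t ^ 2 * M))
        ≤ β * (5 * P.T * ((n : ℝ) ^ 2 / (2 * l + 1) ^ 3)) :=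
      mul_le_mul_of_nonneg_left e1 (by linarith)
    have e4 : 0.6 * t ^ 2 * (P.T * M) ≤ 0.99 * (5 * P.T * (0.122 * t ^ 2 * M)) := by
      have : 0 ≤ t ^ 2 * (P.T * M) := by positivity
      nlinarith
    linarith
  have hD : β * (10 * P.T * n) ≤ 11 * t * (P.T * M) := by
    rw [hn]
    have : 0 ≤ t * (P.T * M) := by positivity
    nlinarith
  nlinarith

end Par
end Crest.Agent.S0209
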