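import Crest.Agent.S0209_HypSizesCore
import Crest.Agent.S0209_Pot
import Crest.Agent.S0209_Lam
/-!
ROW 149, package I7: the "sizes" fields of `Hier.Hyp` for the concrete hierarchy `P.hier q0`.
-/
set_option autoImplicit false
namespace Crest.Agent.S0209
open Crest.ProbabilityR.Continuum MeasureTheory
namespace Par
variable {P : Par}

theorem Sz.in_of_OK (h : P.OK) : Sz.In P where
  χ_nonneg := χ_nonneg h
  χ_one := χ_one h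
  χ_le := fun _ hk => χ_le h hk
  lamA_mem := fun _ hk => lamA_mem h hk

theorem hyp_a_anti (h : P.OK) (q0 : ℝ → ℝ) :
    ∀ k, 1 ≤ k → (P.hier q0).a (k + 1) ≤ (P.hier q0).a k := Sz.a_anti h (Sz.in_of_OK h) q0

theorem hyp_a_one (h : P.OK) (q0 : ℝ → ℝ) : |(P.hier q0).a 1 - 1| ≤ 0.05 :=
  Sz.a_one h (Sz.in_of_OK h) q0

theorem hyp_a_sum (h : P.OK) (q0 : ℝ → ℝ) :
    ∀ K, ∑ k ∈ Finset.Icc 2 K, (P.hier q0).a k ≤ 1e-11 := Sz.a_sum h (Sz.in_of_OK h) q0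

theorem hyp_E_zero (P : Par) (q0 : ℝ → ℝ) : (P.hier q0).E 0 ≤ 1e-7 := Sz.E_zero P q0

theorem hyp_th_sqrt (h : P.OK) (q0 : ℝ → ℝ) :
    ∀ K, ∑ k ∈ Finset.Icc 1 K, Real.sqrt (3 * (P.hier q0).th k) ≤ 1e-4 :=
  Sz.th_sqrt h (Sz.in_of_OK h) q0

theorem hyp_th_sum (h : P.OK) (q0 : ℝ → ℝ) :
    ∀ K, ∑ k ∈ Finset.Icc 1 K, (P.hier q0).th k ≤ 2e-6 := Sz.th_sum h (Sz.in_of_OK h) q0

theorem hyp_err_sum (h : P.OK) (q0 : ℝ → ℝ) :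
    ∀ K, ∑ k ∈ Finset.Icc 1 K, (300 * (P.hier q0).η k + 251 * (P.hier q0).E k) ≤ 1e-6 :=
  Sz.err_sum h q0

end Par
end Crest.Agent.S0209
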