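import Crest.Agent.S0209_ScaleArith
import Crest.Agent.S0209_KapBounds
/-!
ROW 149, package I7 (core): the "sizes" fields of `Hier.Hyp` for the concrete hierarchy
`P.hier q0` (`a_anti`, `a_one`, `a_sum`, `E_zero`, `th_sqrt`, `th_sum`, `err_sum`, and `a_pos`),
with the four facts used from I1 (`χ_nonneg`, `χ_one`, `χ_le`) and I2 (`lamA_mem`) collected in the
hypothesis `Par.In P`.  The wrapper `S0209_HypSizes.lean` discharges `In P` from `P.OK`.
Everything lives in the sub-namespace `Par.Sz`.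
-/
set_option autoImplicit false
namespace Crest.Agent.S0209
open Crest.ProbabilityR.Continuum MeasureTheory
namespace Par
variable {P : Par}

namespace Sz

/-- what is used from the packages I1 and I2 -/
structure In (P : Par) : Prop where
  χ_nonneg : ∀ k, 0 ≤ P.χ k
  χ_one : P.χ 1 = 0
  χ_le : ∀ k, 1 ≤ k → P.χ k ≤ 6 / P.R (k - 1)
  lamA_mem : ∀ k, 1 ≤ k → P.lamA k ∈ Set.Icc (0.99 * Pack.pdens) (1.01 * Pack.pdens)

/-- geometric majorisation of a finite sum over `Icc a K` -/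
lemma sum_Icc_le_geom (f : ℕ → ℝ) (C x : ℝ) (hC : 0 ≤ C) (hx0 : 0 ≤ x) (hx1 : x < 1) (a : ℕ)
    (hf : ∀ j, f (a + j) ≤ C * x ^ j) (K : ℕ) : ∑ k ∈ Finset.Icc a K, f k ≤ C / (1 - x) := by
  have h1 : ∑ k ∈ Finset.Icc a K, f k = ∑ j ∈ Finset.range (K + 1 - a), f (a + j) := by
    rw [← Finset.sum_Ico_eq_sum_range]
    congr 1
  rw [h1]
  calc ∑ j ∈ Finset.range (K + 1 - a), f (a + j)
      ≤ ∑ j ∈ Finset.range (K + 1 - a), C * x ^ j := Finset.sum_le_sum (fun j _ => hf j)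
    _ = C * ∑ j ∈ Finset.range (K + 1 - a), x ^ j := by rw [Finset.mul_sum]
    _ ≤ C * (1 - x)⁻¹ := by
        apply mul_le_mul_of_nonneg_left _ hC
        rw [← tsum_geometric_of_lt_one hx0 hx1]
        exact (summable_geometric_of_lt_one hx0 hx1).sum_le_tsum _ (fun _ _ => pow_nonneg hx0 _)
    _ = C / (1 - x) := by rw [div_eq_mul_inv]

lemma Q_ge (h : P.OK) : (1e60 : ℝ) ≤ P.Q := by
  have h2 : ((10 ^ 60 : ℕ) : ℝ) ≤ (P.Q : ℝ) := by exact_mod_cast h.Q_ge
  have h3 : ((10 ^ 60 : ℕ) : ℝ) = 1e60 := by norm_num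
  rw [h3] at h2
  exact h2

lemma R_geR (h : P.OK) (k : ℕ) : (P.Q : ℝ) * 16 ^ k ≤ P.R k := by exact_mod_cast R_ge h k

lemma R_ge16 (h : P.OK) (k : ℕ) : (1e60 : ℝ) * 16 ^ k ≤ P.R k :=
  le_trans (mul_le_mul_of_nonneg_right (Q_ge h) (by positivity)) (R_geR h k)

lemma R_ge60 (h : P.OK) (k : ℕ) : (1e60 : ℝ) ≤ P.R k := by
  have h1 := R_ge16 h k
  have h2 : (1 : ℝ) ≤ 16 ^ k := one_le_pow₀ (by norm_num)
  nlinarith

lemma l_cast (P : Par) (k : ℕ) : (P.l k : ℝ) = (P.R (k - 1) : ℝ) ^ 2 := by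
  unfold l; push_cast; ring

lemma l_ge (h : P.OK) (k : ℕ) : (1e120 : ℝ) ≤ P.l k := by
  rw [l_cast]
  have := R_ge60 h (k - 1)
  nlinarith

lemma T_pos (h : P.OK) : 0 < P.T := lt_of_lt_of_le (by norm_num) h.T_ge

lemma χ_small (h : P.OK) (hi : In P) {k : ℕ} (hk : 1 ≤ k) : P.χ k ≤ 6e-60 := by
  refine le_trans (hi.χ_le _ hk) ?_
  have := R_ge60 h (k - 1)
  rw [div_le_iff₀ (by linarith)]
  nlinarith

/-- `κ⁺_k` in closed form -/
noncomputable def kk (P : Par) (k : ℕ) : ℝ := kap + CB / P.l k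

lemma kk_ge (h : P.OK) (k : ℕ) : kap ≤ kk P k := by
  unfold kk CB
  have := l_ge h k
  have : (0:ℝ) ≤ 2000 / P.l k := by positivity
  linarith

lemma kk_le (h : P.OK) (k : ℕ) : kk P k ≤ kap + 2e-117 := by
  unfold kk CB
  have := l_ge h k
  have : (2000:ℝ) / P.l k ≤ 2e-117 := by
    rw [div_le_iff₀ (by linarith)]
    nlinarith
  linarith

lemma aa_eq (h : P.OK) (hi : In P) {k : ℕ} (hk : 1 ≤ k) :
    P.aa k = P.α k / P.T * kk P k * P.lamA k / (1 - P.χ k) := by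
  unfold aa κp lamA kk
  have hl : (2 * (P.w k : ℝ) * P.mt k) = P.l k := by exact_mod_cast (l_eq h hk).symm
  have hR : (P.R k : ℝ) = (P.l k : ℝ) ^ 2 := by exact_mod_cast R_eq_l_sq P hk
  rw [hl, hR]
  have hlpos : 0 < (P.l k : ℝ) := lt_of_lt_of_le (by norm_num) (l_ge h k)
  have hT := T_pos h
  have hχ : 0 < 1 - P.χ k := by have := χ_small h hi hk; linarith
  field_simp

lemma aa_one_mem (h : P.OK) (hi : In P) : P.aa 1 ∈ Set.Icc (0.99 : ℝ) 1.02 := by
  rw [aa_eq h hi le_rfl, hi.χ_one]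
  have hα : P.α 1 / P.T = 1 / (kap * Pack.pdens) := by
    unfold α
    rw [if_pos le_rfl]
    have hT := T_pos h
    have := kap_pos
    have := Pack.one_le_pdens
    field_simp
  rw [hα]
  have hk1 := kk_ge h 1
  have hk2 := kk_le h 1
  have hl := hi.lamA_mem 1 le_rfl
  have hkap := kap_ge
  have hp := Pack.one_le_pdens
  have hpos : 0 < kap * Pack.pdens := by nlinarith
  have e : 1 / (kap * Pack.pdens) * kk P 1 * P.lamA 1 / (1 - 0)
      = (kk P 1 * P.lamA 1) / (kap * Pack.pdens) := by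
    rw [sub_zero, div_one]
    ring
  rw [e]
  have hl0 : 0 ≤ P.lamA 1 := by nlinarith [hl.1]
  constructor
  · rw [le_div_iff₀ hpos]
    calc 0.99 * (kap * Pack.pdens) = kap * (0.99 * Pack.pdens) := by ring
      _ ≤ kk P 1 * P.lamA 1 := mul_le_mul hk1 hl.1 (by nlinarith) (by linarith)
  · rw [div_le_iff₀ hpos]
    calc kk P 1 * P.lamA 1 ≤ (kap + 2e-117) * (1.01 * Pack.pdens) :=
          mul_le_mul hk2 hl.2 hl0 (by linarith)
      _ ≤ 1.02 * (kap * Pack.pdens) := by nlinarith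

/-- the decay factor `R_k^(-1/32)` -/
noncomputable def rho (P : Par) (k : ℕ) : ℝ := (P.R k : ℝ) ^ (-(1 / 32 : ℝ))

lemma rho_pos (h : P.OK) (k : ℕ) : 0 < rho P k :=
  Real.rpow_pos_of_pos (lt_of_lt_of_le (by norm_num) (R_ge60 h k)) _

lemma rho_le_one (h : P.OK) (k : ℕ) : rho P k ≤ 1 :=
  Real.rpow_le_one_of_one_le_of_nonpos (le_trans (by norm_num) (R_ge60 h k)) (by norm_num)

lemma rho_anti (h : P.OK) (k : ℕ) : rho P (k + 1) ≤ rho P k :=
  Real.rpow_le_rpow_of_nonpos (lt_of_lt_of_le (by norm_num) (R_ge60 h k))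
    (by exact_mod_cast R_mono h (Nat.le_succ k)) (by norm_num)

/-- `R_{j+2}^(-1/32) = R_j^(-1/2)` -/
lemma rho_add_two (h : P.OK) (j : ℕ) : rho P (j + 2) * Real.sqrt (P.R j) = 1 := by
  unfold rho
  have hpos : (0:ℝ) < P.R j := lt_of_lt_of_le (by norm_num) (R_ge60 h j)
  have e : (P.R (j + 2) : ℝ) = (P.R j : ℝ) ^ (16 : ℝ) := by
    rw [show j + 2 = (j + 1) + 1 from rfl, R_succ, R_succ]
    push_cast
    rw [← pow_mul, ← Real.rpow_natCast]
    norm_num
  rw [e, ← Real.rpow_mul hpos.le, Real.sqrt_eq_rpow, ← Real.rpow_add hpos]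
  norm_num

/-- the comparison sequence -/
noncomputable def uu (P : Par) (k : ℕ) : ℝ :=
  P.c * (1 / 2) ^ k * rho P k * kk P k * Pack.pdens

lemma c_pos (h : P.OK) : 0 < P.c := by rw [h.c_eq]; norm_num

lemma kk_pos (h : P.OK) (k : ℕ) : 0 < kk P k := lt_of_lt_of_le kap_pos (kk_ge h k)

lemma uu_pos (h : P.OK) (k : ℕ) : 0 < uu P k := by
  unfold uu
  have := c_pos h
  have := rho_pos h k
  have := kk_pos h k
  have : 0 < Pack.pdens := lt_of_lt_of_le one_pos Pack.one_le_pdens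
  positivity

lemma aa_eq' (h : P.OK) (hi : In P) {k : ℕ} (hk : 2 ≤ k) :
    P.aa k = P.c * (1 / 2) ^ k * rho P k * kk P k * P.lamA k / (1 - P.χ k) := by
  rw [aa_eq h hi (by omega)]
  have hα : P.α k / P.T = P.c * (1 / 2) ^ k * rho P k := by
    unfold α rho
    rw [if_neg (by omega)]
    have hT := T_pos h
    field_simp
  rw [hα]

lemma aa_lower (h : P.OK) (hi : In P) {k : ℕ} (hk : 2 ≤ k) : 0.99 * uu P k ≤ P.aa k := by
  rw [aa_eq' h hi hk]
  have hχ0 := hi.χ_nonneg k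
  have hχ1 := χ_small h hi (k := k) (by omega)
  have hl := hi.lamA_mem k (by omega)
  have hX : 0 < P.c * (1 / 2) ^ k * rho P k * kk P k := by
    have := c_pos h
    have := rho_pos h k
    have := kk_pos h k
    positivity
  have hp := Pack.one_le_pdens
  rw [le_div_iff₀ (by linarith)]
  unfold uu
  set X := P.c * (1 / 2) ^ k * rho P k * kk P k with hXdef
  have h1 : X * (0.99 * Pack.pdens) ≤ X * P.lamA k := mul_le_mul_of_nonneg_left hl.1 hX.le
  have h2 : 0 ≤ X * Pack.pdens * P.χ k := by positivity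
  nlinarith

lemma aa_upper (h : P.OK) (hi : In P) {k : ℕ} (hk : 2 ≤ k) : P.aa k ≤ 1.011 * uu P k := by
  rw [aa_eq' h hi hk]
  have hχ0 := hi.χ_nonneg k
  have hχ1 := χ_small h hi (k := k) (by omega)
  have hl := hi.lamA_mem k (by omega)
  have hX : 0 < P.c * (1 / 2) ^ k * rho P k * kk P k := by
    have := c_pos h
    have := rho_pos h k
    have := kk_pos h k
    positivity
  have hp := Pack.one_le_pdens
  rw [div_le_iff₀ (by linarith)]
  unfold uu
  set X := P.c * (1 / 2) ^ k * rho P k * kk P k with hXdef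
  have h1 : X * P.lamA k ≤ X * (1.01 * Pack.pdens) := mul_le_mul_of_nonneg_left hl.2 hX.le
  have h2 : X * Pack.pdens * P.χ k ≤ X * Pack.pdens * 6e-60 :=
    mul_le_mul_of_nonneg_left hχ1 (by positivity)
  have h3 : 0 < X * Pack.pdens := by positivity
  nlinarith

lemma kk_anti (h : P.OK) (k : ℕ) : kk P (k + 1) ≤ kk P k := by
  unfold kk CB
  have h1 : (P.l k : ℝ) ≤ P.l (k + 1) := by
    rw [l_cast, l_cast]
    have h2 : (P.R (k - 1) : ℝ) ≤ P.R (k + 1 - 1) := by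
      exact_mod_cast R_mono h (by omega : k - 1 ≤ k + 1 - 1)
    have h3 : (0:ℝ) ≤ P.R (k - 1) := by positivity
    exact pow_le_pow_left₀ h3 h2 2
  have h0 : (0:ℝ) < P.l k := lt_of_lt_of_le (by norm_num) (l_ge h k)
  have : (2000:ℝ) / P.l (k + 1) ≤ 2000 / P.l k :=
    div_le_div_of_nonneg_left (by norm_num) h0 h1
  linarith

lemma uu_succ_le (h : P.OK) (k : ℕ) : uu P (k + 1) ≤ uu P k / 2 := by
  unfold uu
  have hc := c_pos h
  have hp : 0 < Pack.pdens := lt_of_lt_of_le one_pos Pack.one_le_pdens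
  have h1 : rho P (k + 1) * kk P (k + 1) ≤ rho P k * kk P k :=
    mul_le_mul (rho_anti h k) (kk_anti h k) (kk_pos h _).le (rho_pos h _).le
  have h2 : (0:ℝ) < (1 / 2) ^ k := by positivity
  have h3 : P.c * (1 / 2) ^ k * Pack.pdens * (rho P (k + 1) * kk P (k + 1))
      ≤ P.c * (1 / 2) ^ k * Pack.pdens * (rho P k * kk P k) :=
    mul_le_mul_of_nonneg_left h1 (by positivity)
  rw [pow_succ]
  nlinarith

lemma uu_le (h : P.OK) (k : ℕ) : uu P k ≤ 34 * P.c * (1 / 2) ^ k := by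
  unfold uu
  have hc := c_pos h
  have h2 : (0:ℝ) < (1 / 2) ^ k := by positivity
  have hk : kk P k ≤ 4.21 := by
    have := kk_le h k
    have := kap_le
    linarith
  have h1 : rho P k * kk P k ≤ 1 * 4.21 :=
    mul_le_mul (rho_le_one h k) hk (kk_pos h _).le (by norm_num)
  have h3 : rho P k * kk P k * Pack.pdens ≤ 1 * 4.21 * 8 :=
    mul_le_mul h1 pdens_le_eight (le_trans zero_le_one Pack.one_le_pdens) (by norm_num)
  have h4 : P.c * (1 / 2) ^ k * (rho P k * kk P k * Pack.pdens)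
      ≤ P.c * (1 / 2) ^ k * (1 * 4.21 * 8) :=
    mul_le_mul_of_nonneg_left h3 (by positivity)
  have h5 : 0 < P.c * (1 / 2) ^ k := by positivity
  nlinarith

lemma uu_ge (h : P.OK) (k : ℕ) : 0.26 * P.c * (1 / 2) ^ k * rho P k ≤ uu P k := by
  unfold uu
  have hc := c_pos h
  have h2 : (0:ℝ) < (1 / 2) ^ k := by positivity
  have hr := rho_pos h k
  have hk : 0.26 ≤ kk P k := le_trans kap_ge (kk_ge h k)
  have h1 : (0.26:ℝ) * 1 ≤ kk P k * Pack.pdens :=
    mul_le_mul hk Pack.one_le_pdens zero_le_one (kk_pos h k).le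
  have h4 : P.c * (1 / 2) ^ k * rho P k * (0.26 * 1)
      ≤ P.c * (1 / 2) ^ k * rho P k * (kk P k * Pack.pdens) :=
    mul_le_mul_of_nonneg_left h1 (by positivity)
  nlinarith

lemma aa_le (h : P.OK) (hi : In P) {k : ℕ} (hk : 2 ≤ k) : P.aa k ≤ 35 * P.c * (1 / 2) ^ k := by
  have h1 := aa_upper h hi hk
  have h2 := uu_le h k
  have hc := c_pos h
  have h3 : 0 < P.c * (1 / 2) ^ k := by positivity
  nlinarith

lemma sqrt_R_ge (h : P.OK) (j : ℕ) : 1e30 * 4 ^ j ≤ Real.sqrt (P.R j) := by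
  apply Real.le_sqrt_of_sq_le
  have := R_ge16 h j
  have e : ((1e30:ℝ) * 4 ^ j) ^ 2 = 1e60 * 16 ^ j := by
    rw [mul_pow, ← pow_mul, mul_comm j 2, pow_mul]
    norm_num
  rw [e]
  exact this

/-- the key estimate on `th` -/
lemma th_le (h : P.OK) (hi : In P) (q0 : ℝ → ℝ) (j : ℕ) : (P.hier q0).th (j + 1) ≤ 4e-11 * (1 / 2) ^ j := by
  have hr := R_ge60 h j
  have hrpos : (0:ℝ) < P.R j := by linarith
  set r : ℝ := (P.R j : ℝ) with hrdef
  set s : ℝ := Real.sqrt r with hsdef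
  have hs := sqrt_R_ge h j
  have hs2 : s ^ 2 = r := Real.sq_sqrt hrpos.le
  have h4 : (0:ℝ) < 4 ^ j := by positivity
  have hspos : 0 < s := lt_of_lt_of_le (by positivity) hs
  have hρ : rho P (j + 2) = 1 / s := by
    have := rho_add_two h j
    rw [eq_div_iff hspos.ne']
    exact this
  have ha : 0.99 * (0.26 * P.c * (1 / 2) ^ (j + 2) * (1 / s)) ≤ P.aa (j + 2) := by
    have h1 := aa_lower h hi (k := j + 2) (by omega)
    have h2 := uu_ge h (j + 2)
    rw [hρ] at h2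
    linarith
  have hapos : 0 < P.aa (j + 2) := by
    refine lt_of_lt_of_le ?_ ha
    have := c_pos h
    positivity
  have e : (P.hier q0).th (j + 1) = (300 * (20 / r ^ 2) + 20 * (1e4 / r)) / P.aa (j + 2) := by
    unfold Hier.th hier
    simp
    rfl
  rw [e, div_le_iff₀ hapos]
  have hnum : 300 * (20 / r ^ 2) + 20 * (1e4 / r) ≤ 2.1e5 / r := by
    have e2 : 300 * (20 / r ^ 2) + 20 * (1e4 / r) = (6000 / r + 2e5) / r := by
      field_simp
      ring
    rw [e2]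
    apply div_le_div_of_nonneg_right _ hrpos.le
    have : 6000 / r ≤ 1 := by
      rw [div_le_one hrpos]; linarith
    linarith
  refine le_trans hnum ?_
  have hlow : 4e-11 * (1 / 2) ^ j * (0.99 * (0.26 * P.c * (1 / 2) ^ (j + 2) * (1 / s)))
      ≤ 4e-11 * (1 / 2) ^ j * P.aa (j + 2) :=
    mul_le_mul_of_nonneg_left ha (by positivity)
  refine le_trans ?_ hlow
  rw [h.c_eq, ← hs2, div_le_iff₀ (by positivity)]
  have e3 : (4e-11:ℝ) * (1 / 2) ^ j * (0.99 * (0.26 * 1e-13 * (1 / 2) ^ (j + 2) * (1 / s))) * s ^ 2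
      = 2.574e-25 * ((1 / 4) ^ j * s) := by
    have : ((1:ℝ) / 4) ^ j = (1 / 2) ^ j * (1 / 2) ^ j := by
      rw [← mul_pow]; norm_num
    rw [this, pow_add]
    field_simp
    ring
  rw [e3]
  have h5 : (1e30:ℝ) ≤ (1 / 4) ^ j * s := by
    have : (1 / 4 : ℝ) ^ j * (1e30 * 4 ^ j) ≤ (1 / 4) ^ j * s :=
      mul_le_mul_of_nonneg_left hs (by positivity)
    have e4 : (1 / 4 : ℝ) ^ j * (1e30 * 4 ^ j) = 1e30 := by
      rw [mul_comm (1e30:ℝ), ← mul_assoc, ← mul_pow]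
      norm_num
    linarith
  nlinarith

lemma th_nonneg (h : P.OK) (hi : In P) (q0 : ℝ → ℝ) (j : ℕ) : 0 ≤ (P.hier q0).th (j + 1) := by
  have hr := R_ge60 h j
  have hrpos : (0:ℝ) < P.R j := by linarith
  have hapos : 0 < P.aa (j + 2) :=
    lt_of_lt_of_le (by have := uu_pos h (j + 2); positivity) (aa_lower h hi (k := j + 2) (by omega))
  have e : (P.hier q0).th (j + 1)
      = (300 * (20 / (P.R j : ℝ) ^ 2) + 20 * (1e4 / (P.R j : ℝ))) / P.aa (j + 2) := by
    unfold Hier.th hier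
    simp
  rw [e]
  positivity

theorem a_one (h : P.OK) (hi : In P) (q0 : ℝ → ℝ) : |(P.hier q0).a 1 - 1| ≤ 0.05 := by
  have := aa_one_mem h hi
  show |P.aa 1 - 1| ≤ 0.05
  rw [abs_le]
  constructor <;> linarith [this.1, this.2]

theorem a_anti (h : P.OK) (hi : In P) (q0 : ℝ → ℝ) :
    ∀ k, 1 ≤ k → (P.hier q0).a (k + 1) ≤ (P.hier q0).a k := by
  intro k hk
  show P.aa (k + 1) ≤ P.aa k
  rcases Nat.eq_or_lt_of_le hk with rfl | hk2
  · have h1 := aa_le h hi (k := 1 + 1) (by omega)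
    have h2 := (aa_one_mem h hi).1
    rw [h.c_eq] at h1
    norm_num at h1 h2 ⊢
    linarith
  · have h1 := aa_upper h hi (k := k + 1) (by omega)
    have h2 := aa_lower h hi (k := k) hk2
    have h3 := uu_succ_le h k
    have h4 := uu_pos h k
    linarith

theorem a_sum (h : P.OK) (hi : In P) (q0 : ℝ → ℝ) :
    ∀ K, ∑ k ∈ Finset.Icc 2 K, (P.hier q0).a k ≤ 1e-11 := by
  intro K
  have := sum_Icc_le_geom (fun k => (P.hier q0).a k) (35 * 1e-13 / 4) (1 / 2) (by norm_num)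
    (by norm_num) (by norm_num) 2 (fun j => by
      show P.aa (2 + j) ≤ _
      have h1 := aa_le h hi (k := 2 + j) (by omega)
      rw [h.c_eq, pow_add] at h1
      refine le_trans h1 (le_of_eq ?_)
      ring) K
  refine le_trans this ?_
  norm_num

theorem E_zero (P : Par) (q0 : ℝ → ℝ) : (P.hier q0).E 0 ≤ 1e-7 := by
  show (if (0:ℕ) = 0 then (1e-7:ℝ) else 1e4 / P.R (0 - 1)) ≤ 1e-7
  rw [if_pos rfl]

theorem th_sum (h : P.OK) (hi : In P) (q0 : ℝ → ℝ) :
    ∀ K, ∑ k ∈ Finset.Icc 1 K, (P.hier q0).th k ≤ 2e-6 := by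
  intro K
  have := sum_Icc_le_geom (fun k => (P.hier q0).th k) 4e-11 (1 / 2) (by norm_num)
    (by norm_num) (by norm_num) 1 (fun j => by
      rw [add_comm 1 j]
      exact th_le h hi q0 j) K
  refine le_trans this ?_
  norm_num

theorem th_sqrt (h : P.OK) (hi : In P) (q0 : ℝ → ℝ) :
    ∀ K, ∑ k ∈ Finset.Icc 1 K, Real.sqrt (3 * (P.hier q0).th k) ≤ 1e-4 := by
  intro K
  have := sum_Icc_le_geom (fun k => Real.sqrt (3 * (P.hier q0).th k)) 1.1e-5 (3 / 4)
    (by norm_num) (by norm_num) (by norm_num) 1 (fun j => by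
      rw [add_comm 1 j]
      apply Real.sqrt_le_iff.2
      refine ⟨by positivity, ?_⟩
      have h1 := th_le h hi q0 j
      have h2 : ((1:ℝ) / 2) ^ j ≤ (9 / 16) ^ j := pow_le_pow_left₀ (by norm_num) (by norm_num) j
      have e : ((1.1e-5:ℝ) * (3 / 4) ^ j) ^ 2 = 1.21e-10 * (9 / 16) ^ j := by
        rw [mul_pow, ← pow_mul, mul_comm j 2, pow_mul]
        norm_num
      rw [e]
      have h3 : (0:ℝ) < (1 / 2) ^ j := by positivity
      nlinarith) K
  refine le_trans this ?_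
  norm_num

theorem err_sum (h : P.OK) (q0 : ℝ → ℝ) :
    ∀ K, ∑ k ∈ Finset.Icc 1 K, (300 * (P.hier q0).η k + 251 * (P.hier q0).E k) ≤ 1e-6 := by
  intro K
  have := sum_Icc_le_geom (fun k => 300 * (P.hier q0).η k + 251 * (P.hier q0).E k) 1e-50
    (1 / 16) (by norm_num) (by norm_num) (by norm_num) 1 (fun j => by
      rw [add_comm 1 j]
      have hr := R_ge60 h j
      have hr16 := R_ge16 h j
      have hrpos : (0:ℝ) < P.R j := by linarith
      have e : 300 * (P.hier q0).η (j + 1) + 251 * (P.hier q0).E (j + 1)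
          = 300 * (20 / (P.R j : ℝ) ^ 2) + 251 * (1e4 / (P.R j : ℝ)) := by
        unfold hier
        simp
      rw [e]
      have e2 : 300 * (20 / (P.R j : ℝ) ^ 2) + 251 * (1e4 / (P.R j : ℝ))
          = (6000 / (P.R j : ℝ) + 2.51e6) / (P.R j : ℝ) := by
        field_simp
        ring
      rw [e2, div_le_iff₀ hrpos]
      have h6 : 6000 / (P.R j : ℝ) ≤ 1 := by
        rw [div_le_one hrpos]; linarith
      have h16 : (0:ℝ) < (1 / 16) ^ j := by positivity
      have h7 : (1e-50:ℝ) * (1 / 16) ^ j * (1e60 * 16 ^ j) ≤ 1e-50 * (1 / 16) ^ j * (P.R j : ℝ) :=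
        mul_le_mul_of_nonneg_left hr16 (by positivity)
      have e4 : (1e-50:ℝ) * (1 / 16) ^ j * (1e60 * 16 ^ j) = 1e10 := by
        have : ((1:ℝ) / 16) ^ j * 16 ^ j = 1 := by
          rw [← mul_pow]; norm_num
        calc (1e-50:ℝ) * (1 / 16) ^ j * (1e60 * 16 ^ j)
            = 1e-50 * 1e60 * ((1 / 16) ^ j * 16 ^ j) := by ring
          _ = 1e10 := by rw [this]; norm_num
      linarith) K
  refine le_trans this ?_
  norm_num

theorem a_pos (h : P.OK) (hi : In P) (q0 : ℝ → ℝ) : ∀ k, 1 ≤ k → 0 < (P.hier q0).a k := by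
  intro k hk
  show 0 < P.aa k
  rcases Nat.eq_or_lt_of_le hk with rfl | hk2
  · have := (aa_one_mem h hi).1
    linarith
  · have h2 := aa_lower h hi (k := k) hk2
    have h4 := uu_pos h k
    linarith

end Sz

end Par
end Crest.Agent.S0209
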