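import Crest.Agent.S0209_LemmaUCore

/-!
# ROW 149, package U: `lemmaU` verbatim (core in `S0209_LemmaUCore.lean`, `kernel_lower` from package B)
-/

set_option autoImplicit false
namespace Crest.Agent.S0209
open Crest.ProbabilityR.Continuum MeasureTheory

theorem lemmaU {q : ℝ → ℝ} {B B' α R l L β : ℝ} (_hq : Good q B)
    (hφ : Good (fun r => q r - α * Kac R r) B') (hneg : ∀ r, 1 ≤ r → q r ≤ 0)
    (hα : 0 ≤ α) (hl : 0 < l) (hlR : l + 1 ≤ R) (hβ : 0 ≤ β) (m : ℕ) (hm : m * (l + 1) ≤ L + 1)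
    (n : ℕ) :
    (partitionFn q l n β) ^ (m ^ 3) *
      Real.exp (β * α * m ^ 3 * ((n : ℝ) ^ 2 / 2 *
          ((kap - CB * (l + 1) / R - 12 * kap * R / ((l + 1) * m)) / (l + 1) ^ 3)
          - n / (2 * R ^ 3)))
      ≤ partitionFn (fun r => q r - α * Kac R r) L (m ^ 3 * n) β :=
  LemU.lemmaU_core (fun hs hsR n hn => kernel_lower hs hsR n hn) hφ hneg hα hl hlR hβ m hm n

end Crest.Agent.S0209
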