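import Crest.Agent.S0209_ScaleArith
import Crest.Agent.S0209_Pot
import Crest.Agent.S0209_PotInf
import Crest.Agent.S0209_Lam
import Crest.Agent.S0209_LemmaU
import Crest.Agent.S0209_Limit
import Crest.Agent.S0209_KapBounds

/-!
# ROW 149, package I4: `hyp_stepU` (from `lemmaU`) and `bridge_B`
-/

set_option autoImplicit false
namespace Crest.Agent.S0209
open Crest.ProbabilityR.Continuum MeasureTheory

namespace HypU

/-- polynomial part of the error estimate -/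
theorem poly_bound {A K e : ℝ} (hA0 : 0 ≤ A) (hA : A ≤ 4.04) (hK : 0 ≤ K) (hAK : A * K ≤ 1.01)
    (he0 : 0 < e) (he : e ≤ 1e-60) :
    A * (K + 2000 * e ^ 2) * (1 + 12 * e)
      - A * ((1 - 3 * e ^ 2) * (K - 4000 * e ^ 2 - 24 * K * e ^ 4)) ≤ 13 * e := by
  have he1 : e ≤ 1 := by linarith
  have e2 : e ^ 2 ≤ 1e-60 * e := by nlinarith
  have e3 : e ^ 3 ≤ 1e-60 * e := by
    have : e ^ 3 = e ^ 2 * e := by ring
    nlinarith [sq_nonneg e]
  have e4 : e ^ 4 ≤ 1e-60 * e := by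
    have : e ^ 4 = e ^ 3 * e := by ring
    nlinarith [pow_pos he0 3]
  have hAK0 : 0 ≤ A * K := mul_nonneg hA0 hK
  have expand : A * (K + 2000 * e ^ 2) * (1 + 12 * e)
      - A * ((1 - 3 * e ^ 2) * (K - 4000 * e ^ 2 - 24 * K * e ^ 4))
      = (A * K) * (12 * e + 3 * e ^ 2 + 24 * e ^ 4) - (A * K) * (72 * e ^ 6)
        + A * (6000 * e ^ 2 + 24000 * e ^ 3) - A * (12000 * e ^ 4) := by ring
  rw [expand]
  have h1 : (A * K) * (12 * e + 3 * e ^ 2 + 24 * e ^ 4) ≤ 1.01 * (12.001 * e) := by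
    apply mul_le_mul hAK (by linarith) (by positivity) (by norm_num)
  have h2 : A * (6000 * e ^ 2 + 24000 * e ^ 3) ≤ 4.04 * (0.001 * e) := by
    apply mul_le_mul hA (by linarith) (by positivity) (by norm_num)
  have h3 : 0 ≤ (A * K) * (72 * e ^ 6) := by positivity
  have h4 : 0 ≤ A * (12000 * e ^ 4) := by positivity
  linarith

theorem inv_one_sub_le {χ e : ℝ} (hχ0 : 0 ≤ χ) (hχe : χ ≤ 6 * e) (he : e ≤ 1e-60) :
    1 / (1 - χ) ≤ 1 + 12 * e := by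
  have hχ12 : χ ≤ 1 / 2 := by linarith
  rw [div_le_iff₀ (by linarith)]
  nlinarith

theorem q_le_one {r : ℝ} (hr0 : 0 < r) : r ^ 6 / (r ^ 2 + 1) ^ 3 ≤ 1 := by
  rw [div_le_one (by positivity)]
  have : r ^ 6 = (r ^ 2) ^ 3 := by ring
  rw [this]
  exact pow_le_pow_left₀ (by positivity) (by linarith) 3

theorem q_ge {r e : ℝ} (hr0 : 0 < r) (hre : r * e = 1) :
    1 - 3 * e ^ 2 ≤ r ^ 6 / (r ^ 2 + 1) ^ 3 := by
  rw [le_div_iff₀ (by positivity)]
  have h1 : e ^ 2 * r ^ 2 = 1 := by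
    have : e ^ 2 * r ^ 2 = (r * e) ^ 2 := by ring
    rw [this, hre]; norm_num
  have h2 : (1 - 3 * e ^ 2) * (r ^ 2 + 1) ^ 3
      = r ^ 6 - 3 * (e ^ 2 * r ^ 2) * r ^ 4 + 3 * r ^ 4 + 3 * r ^ 2 + 1
        - 9 * (e ^ 2 * r ^ 2) * r ^ 2 - 9 * (e ^ 2 * r ^ 2) - 3 * e ^ 2 := by ring
  rw [h2, h1]
  nlinarith [sq_nonneg r, sq_nonneg e]

theorem den_ge {r ms : ℝ} (hr : 2 ≤ r) (hms : (r ^ 8 - r ^ 2) / (r ^ 2 + 1) ≤ ms) :
    r ^ 8 / 2 ≤ (r ^ 2 + 1) * ms := by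
  have hr1 : 1 ≤ r := by linarith
  have h1 : r ^ 8 - r ^ 2 ≤ ms * (r ^ 2 + 1) := by
    rwa [div_le_iff₀ (by positivity)] at hms
  have h2 : r ^ 2 ≤ r ^ 8 / 2 := by
    have : (2 : ℝ) ≤ r ^ 6 := by
      calc (2 : ℝ) ≤ r := hr
        _ = r ^ 1 := by ring
        _ ≤ r ^ 6 := pow_le_pow_right₀ hr1 (by norm_num)
    have h3 : r ^ 8 = r ^ 6 * r ^ 2 := by ring
    nlinarith [sq_nonneg r]
  linarith

theorem b4a {r : ℝ} (hr : 1 ≤ r) : 2000 * (r ^ 2 + 1) / r ^ 4 ≤ 4000 * (1 / r) ^ 2 := by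
  have hr0 : 0 < r := by linarith
  rw [div_le_iff₀ (by positivity)]
  have : 4000 * (1 / r) ^ 2 * r ^ 4 = 4000 * r ^ 2 := by field_simp
  rw [this]
  nlinarith

theorem b4b {r K D : ℝ} (hr0 : 0 < r) (hK : 0 ≤ K) (hden : r ^ 8 / 2 ≤ D) :
    12 * K * r ^ 4 / D ≤ 24 * K * (1 / r) ^ 4 := by
  have hden0 : 0 < D := lt_of_lt_of_le (by positivity) hden
  rw [div_le_iff₀ hden0]
  have h1 : 24 * K * (1 / r) ^ 4 * (r ^ 8 / 2) ≤ 24 * K * (1 / r) ^ 4 * D :=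
    mul_le_mul_of_nonneg_left hden (by positivity)
  have h2 : 24 * K * (1 / r) ^ 4 * (r ^ 8 / 2) = 12 * K * r ^ 4 := by field_simp; ring
  linarith

theorem lo_nonneg {K e : ℝ} (hK1 : 1 / 4 ≤ K) (he0 : 0 < e) (he : e ≤ 1e-60) :
    0 ≤ K - 4000 * e ^ 2 - 24 * K * e ^ 4 := by
  have e2 : e ^ 2 ≤ 1e-60 := by nlinarith
  have e4 : e ^ 4 ≤ 1e-60 := by
    have : e ^ 4 = e ^ 2 * e ^ 2 := by ring
    nlinarith [sq_nonneg e]
  have : 24 * K * e ^ 4 ≤ 24 * K * 1e-60 := mul_le_mul_of_nonneg_left e4 (by linarith)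
  linarith

theorem small_term {r αT t β : ℝ} (hr : 1e60 ≤ r) (hα0 : 0 ≤ αT) (hα : αT ≤ 4.1) (ht0 : 0 ≤ t)
    (ht : t ≤ 15) (hβ : β ≤ 1.01) : β * αT * t / (2 * (r ^ 4) ^ 3) ≤ 1 / r := by
  have hr0 : 0 < r := by linarith
  have hr1 : 1 ≤ r := by linarith
  rw [div_le_iff₀ (by positivity)]
  have h1 : 1 / r * (2 * (r ^ 4) ^ 3) = 2 * r ^ 11 := by field_simp
  rw [h1]
  have h2 : β * αT * t ≤ 1.01 * 4.1 * 15 := by
    apply mul_le_mul (mul_le_mul hβ hα hα0 (by norm_num)) ht ht0 (by norm_num)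
  have h3 : (1e60 : ℝ) ≤ r ^ 11 := by
    calc (1e60 : ℝ) ≤ r := hr
      _ = r ^ 1 := by ring
      _ ≤ r ^ 11 := pow_le_pow_right₀ hr1 (by norm_num)
  linarith

theorem bt_le {t β : ℝ} (ht0 : 0 ≤ t) (ht : t ≤ 15) (_hβ0 : 0 ≤ β) (hβ : β ≤ 1.01) :
    β * t ^ 2 / 2 ≤ 113.625 := by
  have h1 : t ^ 2 ≤ 15 ^ 2 := pow_le_pow_left₀ ht0 ht 2
  have h2 : β * t ^ 2 ≤ 1.01 * 15 ^ 2 := mul_le_mul hβ h1 (by positivity) (by norm_num)
  linarith

/-- the error of step U, pure arithmetic -/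
theorem arith {r K A αT χ ms t β : ℝ} (hr : 1e60 ≤ r) (hK1 : 1 / 4 ≤ K) (hA0 : 0 ≤ A)
    (hA : A ≤ 4.04) (hAK : A * K ≤ 1.01) (hα0 : 0 ≤ αT) (hα : αT ≤ 4.1) (hχ0 : 0 ≤ χ)
    (hχ : χ ≤ 6 / r) (hms : (r ^ 8 - r ^ 2) / (r ^ 2 + 1) ≤ ms) (ht0 : 0 ≤ t) (ht : t ≤ 15)
    (hβ0 : 0.99 ≤ β) (hβ : β ≤ 1.01) :
    β * (A * (K + 2000 * r ^ 2 / r ^ 4) / (1 - χ)) * t ^ 2 / 2
      - β * (A * (r ^ 6 * ((K - 2000 * (r ^ 2 + 1) / r ^ 4 - 12 * K * r ^ 4 / ((r ^ 2 + 1) * ms))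
          / (r ^ 2 + 1) ^ 3))) * t ^ 2 / 2
      + β * αT * t / (2 * (r ^ 4) ^ 3) ≤ 1e4 / r := by
  have hr0 : 0 < r := by linarith
  have hr1 : 1 ≤ r := by linarith
  have hK0 : 0 < K := by linarith
  have he0 : 0 < 1 / r := by positivity
  have hele : 1 / r ≤ 1e-60 := by
    rw [div_le_iff₀ hr0]
    have : (1e-60 : ℝ) * 1e60 ≤ 1e-60 * r := mul_le_mul_of_nonneg_left hr (by norm_num)
    have h2 : (1e-60 : ℝ) * 1e60 = 1 := by norm_num
    linarith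
  have hre : r * (1 / r) = 1 := by field_simp
  have b1 : 2000 * r ^ 2 / r ^ 4 = 2000 * (1 / r) ^ 2 := by field_simp
  have hχe : χ ≤ 6 * (1 / r) := by
    have : 6 / r = 6 * (1 / r) := by ring
    linarith
  have b2 := inv_one_sub_le hχ0 hχe hele
  have hq2 := q_ge hr0 hre
  have hden := den_ge (by linarith : (2 : ℝ) ≤ r) hms
  have h4a := b4a hr1
  have h4b := b4b hr0 hK0.le hden
  have hlo0 := lo_nonneg hK1 he0 hele
  have hD := poly_bound hA0 hA hK0.le hAK he0 hele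
  have m2 := small_term hr hα0 hα ht0 ht hβ
  have hbt2 := bt_le ht0 ht (by linarith) hβ
  generalize 1 / r = e at *
  generalize hkm : K - 2000 * (r ^ 2 + 1) / r ^ 4 - 12 * K * r ^ 4 / ((r ^ 2 + 1) * ms) = km
  have hkmlo : K - 4000 * e ^ 2 - 24 * K * e ^ 4 ≤ km := by rw [← hkm]; linarith
  have hq0 : 0 ≤ 1 - 3 * e ^ 2 := by
    have : e ^ 2 ≤ 1e-60 := by nlinarith
    linarith
  have t1 : A * (K + 2000 * r ^ 2 / r ^ 4) / (1 - χ) ≤ A * (K + 2000 * e ^ 2) * (1 + 12 * e) := by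
    rw [b1, div_eq_mul_one_div]
    exact mul_le_mul_of_nonneg_left b2 (by positivity)
  have t2 : A * ((1 - 3 * e ^ 2) * (K - 4000 * e ^ 2 - 24 * K * e ^ 4))
      ≤ A * (r ^ 6 * (km / (r ^ 2 + 1) ^ 3)) := by
    refine mul_le_mul_of_nonneg_left ?_ hA0
    have : r ^ 6 * (km / (r ^ 2 + 1) ^ 3) = r ^ 6 / (r ^ 2 + 1) ^ 3 * km := by ring
    rw [this]
    exact mul_le_mul hq2 hkmlo hlo0 (le_trans hq0 hq2)
  generalize A * (K + 2000 * r ^ 2 / r ^ 4) / (1 - χ) = X at *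
  generalize A * (r ^ 6 * (km / (r ^ 2 + 1) ^ 3)) = Y at *
  have hXY : X - Y ≤ 13 * e := by linarith
  have hbt : 0 ≤ β * t ^ 2 / 2 := by positivity
  have m1 : β * t ^ 2 / 2 * (X - Y) ≤ 113.625 * (13 * e) :=
    le_trans (mul_le_mul_of_nonneg_left hXY hbt) (mul_le_mul_of_nonneg_right hbt2 (by positivity))
  have fin : 1e4 / r = 1e4 * e := by
    have : e = 1 / r := by field_simp; linarith
    rw [this]; ring
  rw [fin]
  have : β * X * t ^ 2 / 2 - β * Y * t ^ 2 / 2 = β * t ^ 2 / 2 * (X - Y) := by ring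
  rw [this]
  linarith

theorem pdens_le : Pack.pdens ≤ 8 := by
  unfold Pack.pdens
  refine csSup_le ⟨_, ⟨0, Set.mem_Ici.2 le_rfl, rfl⟩⟩ ?_
  rintro _ ⟨L, hL, rfl⟩
  exact Pack.aa_le_eight hL

/-- bounds on `α_k / T` and `A_k = α_k M_k / (T l_k^3)` -/
theorem A_bounds {P : Par} (h : P.OK) (j : ℕ) :
    0 ≤ P.α (j + 1) / P.T ∧ P.α (j + 1) / P.T ≤ 4.1 ∧
    0 ≤ P.α (j + 1) / P.T * P.lamA (j + 1) ∧ P.α (j + 1) / P.T * P.lamA (j + 1) ≤ 4.04 ∧
    P.α (j + 1) / P.T * P.lamA (j + 1) * kap ≤ 1.01 := by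
  have hT : 0 < P.T := by have := h.T_ge; linarith
  have hα := Par.α_pos h (j + 1)
  have hlam := Par.lamA_mem h (k := j + 1) (by omega)
  have hp1 := Pack.one_le_pdens
  have hp8 := pdens_le
  have hk1 : 1 / 4 ≤ kap := by have := kap_ge; linarith
  have hk5 : kap ≤ 5 := by have := kap_le; linarith
  have hlam0 : 0 ≤ P.lamA (j + 1) := by nlinarith [hlam.1]
  have hαT0 : 0 ≤ P.α (j + 1) / P.T := by positivity
  rcases Nat.eq_zero_or_pos j with rfl | hj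
  · have hα1 : P.α (0 + 1) / P.T = 1 / (kap * Pack.pdens) := by
      unfold Par.α
      simp only [zero_add, le_refl, if_true]
      field_simp
    have hkp : 0 < kap * Pack.pdens := by positivity
    have hkp4 : 1 / 4 ≤ kap * Pack.pdens := by nlinarith
    rw [hα1]
    refine ⟨by positivity, ?_, by positivity, ?_, ?_⟩
    · rw [div_le_iff₀ hkp]; linarith
    · rw [div_mul_eq_mul_div, one_mul, div_le_iff₀ hkp]
      have : P.lamA (0 + 1) ≤ 1.01 * Pack.pdens := hlam.2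
      nlinarith
    · have : 1 / (kap * Pack.pdens) * P.lamA (0 + 1) * kap = P.lamA (0 + 1) / Pack.pdens := by
        field_simp
      rw [this, div_le_iff₀ (by linarith)]
      exact hlam.2
  · have hle := Par.α_le h (k := j + 1) (by omega)
    have hc : P.c = 1e-13 := h.c_eq
    have hpow : ((1 : ℝ) / 2) ^ (j + 1) ≤ 1 := pow_le_one₀ (by norm_num) (by norm_num)
    have hαT : P.α (j + 1) / P.T ≤ 1e-13 := by
      rw [div_le_iff₀ hT]
      calc P.α (j + 1) ≤ P.c * P.T * (1 / 2) ^ (j + 1) := hle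
        _ ≤ P.c * P.T * 1 := mul_le_mul_of_nonneg_left hpow (by rw [hc]; positivity)
        _ = 1e-13 * P.T := by rw [hc]; ring
    have hlam8 : P.lamA (j + 1) ≤ 8.08 := by have := hlam.2; linarith
    have hA : P.α (j + 1) / P.T * P.lamA (j + 1) ≤ 1e-13 * 8.08 :=
      mul_le_mul hαT hlam8 hlam0 (by norm_num)
    refine ⟨hαT0, by linarith, by positivity, by linarith, ?_⟩
    calc P.α (j + 1) / P.T * P.lamA (j + 1) * kap ≤ 1e-13 * 8.08 * 5 :=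
          mul_le_mul hA hk5 (by linarith) (by norm_num)
      _ ≤ 1.01 := by norm_num

/-- `-log` form of `lemmaU` -/
theorem phi_le_of_lemmaU {Zq Z' X : ℝ} {m3 : ℕ} (hZq : 0 < Zq) (hU : Zq ^ m3 * Real.exp X ≤ Z') :
    -Real.log Z' ≤ m3 * (-Real.log Zq) - X := by
  have h1 : 0 < Zq ^ m3 * Real.exp X := by positivity
  have h2 := Real.log_le_log h1 hU
  rw [Real.log_mul (by positivity) (by positivity), Real.log_pow, Real.log_exp] at h2
  linarith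

/-- final algebra of step U -/
theorem finish {Lq L' T ms M β α t r Kk X1 E : ℝ} (hT : 0 < T) (hms : 0 < ms) (hM : 0 < M)
    (hr : 0 < r)
    (hlog : L' ≤ ms ^ 3 * Lq - β * α * ms ^ 3 * ((t * M) ^ 2 / 2 * Kk - t * M / (2 * (r ^ 4) ^ 3)))
    (hAr : β * X1 * t ^ 2 / 2 - β * (α / T * (M / (r ^ 2) ^ 3) * (r ^ 6 * Kk)) * t ^ 2 / 2
      + β * (α / T) * t / (2 * (r ^ 4) ^ 3) ≤ E) :
    L' / (T * (ms ^ 3 * M)) ≤ Lq / (T * M) - β * X1 * t ^ 2 / 2 + E := by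
  have hden : 0 < T * (ms ^ 3 * M) := by positivity
  have key := div_le_div_of_nonneg_right hlog hden.le
  have eq : (ms ^ 3 * Lq - β * α * ms ^ 3 * ((t * M) ^ 2 / 2 * Kk - t * M / (2 * (r ^ 4) ^ 3)))
        / (T * (ms ^ 3 * M))
      = Lq / (T * M) - (β * (α / T * (M / (r ^ 2) ^ 3) * (r ^ 6 * Kk)) * t ^ 2 / 2
        - β * (α / T) * t / (2 * (r ^ 4) ^ 3)) := by
    field_simp
  rw [eq] at key
  linarith

end HypU

namespace Par
variable {P : Par} {q0 : ℝ → ℝ} {I0 : ℝ}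

open HypU in
theorem hyp_stepU (h : P.OK) (hq : CoreP q0 P.T P.a P.b1 P.r0 I0) :
    ∀ k, 1 ≤ k → ∀ β ∈ Set.Icc (0.99 : ℝ) 1.01, ∀ n : ℕ, n ≤ 15 * (P.hier q0).M k →
    (P.hier q0).φ (k + 1) β ((P.hier q0).m k * n) ≤ (P.hier q0).psi k β n + (P.hier q0).E k := by
  intro k hk β hβ n hn
  obtain ⟨j, rfl⟩ : ∃ j, k = j + 1 := ⟨k - 1, by omega⟩
  have hT : 0 < P.T := by have := h.T_ge; linarith
  have hβ0 : 0 ≤ β := by have := hβ.1; linarith
  -- the scales as real numbers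
  set r : ℝ := (P.R j : ℝ) with hr
  have hr60 : (1e60 : ℝ) ≤ r := by
    have h1 := R_ge h j
    have h2 := h.Q_ge
    have h3 : 10 ^ 60 ≤ P.R j := by
      calc 10 ^ 60 ≤ P.Q := h2
        _ = P.Q * 1 := by ring
        _ ≤ P.Q * 16 ^ j := Nat.mul_le_mul_left _ (Nat.one_le_pow _ _ (by norm_num))
        _ ≤ P.R j := h1
    have h4 : ((10 ^ 60 : ℕ) : ℝ) ≤ (P.R j : ℝ) := by exact_mod_cast h3
    rw [hr]
    refine le_trans ?_ h4
    norm_num
  have hr0 : 0 < r := by linarith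
  have hl : (P.l (j + 1) : ℝ) = r ^ 2 := by rw [l_succ]; push_cast; rfl
  have hR : (P.R (j + 1) : ℝ) = r ^ 4 := by rw [R_succ]; push_cast; rfl
  have hl' : (P.l (j + 1 + 1) : ℝ) = r ^ 8 := by
    rw [l_succ]; push_cast; rw [hR]; ring
  have hwm : (2 * (P.w (j + 1) : ℝ) * (P.mt (j + 1) : ℝ)) = r ^ 2 := by
    have h1 := l_eq h (k := j + 1) (by omega)
    have h2 : (P.l (j + 1) : ℝ) = 2 * P.w (j + 1) * P.mt (j + 1) := by exact_mod_cast h1
    rw [← h2, hl]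
  have hmsle := ms_le P (j + 1)
  have hmsge := ms_ge h (k := j + 1) (by omega)
  rw [hl, hl'] at hmsle hmsge
  set ms : ℝ := (P.ms (j + 1) : ℝ) with hms
  have hMpos : 0 < P.M (j + 1) := M_pos h (by omega)
  set M : ℝ := (P.M (j + 1) : ℝ) with hM
  have hM0 : 0 < M := by rw [hM]; exact_mod_cast hMpos
  have hM' : (P.M (j + 1 + 1) : ℝ) = ms ^ 3 * M := by
    have : P.M (j + 1 + 1) = (P.ms (j + 1)) ^ 3 * P.M (j + 1) := rfl
    rw [this]; push_cast; rfl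
  have hms0 : 0 < ms := by
    refine lt_of_lt_of_le ?_ hmsge
    apply div_pos _ (by positivity)
    have h1 : r ^ 8 = r ^ 6 * r ^ 2 := by ring
    have h2 : (1 : ℝ) < r ^ 6 := one_lt_pow₀ (by linarith) (by norm_num)
    nlinarith [sq_nonneg r, pow_pos hr0 2]
  -- lemma U
  have hgood := pot_good h hq j
  have hgood' := pot_good h hq (j + 1)
  have hpot : (fun x => P.pot q0 j x - P.α (j + 1) * Kac (P.R (j + 1)) x) = P.pot q0 (j + 1) := by
    rw [pot_succ]; rfl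
  have hlpos : (0 : ℝ) < (P.l (j + 1) : ℝ) := by rw [hl]; positivity
  have hU := lemmaU (q := P.pot q0 j) (B := 10 * P.T) (B' := 10 * P.T) (α := P.α (j + 1))
    (R := (P.R (j + 1) : ℝ)) (l := (P.l (j + 1) : ℝ)) (L := (P.l (j + 1 + 1) : ℝ)) (β := β)
    hgood (by rw [hpot]; exact hgood') (pot_neg h hq j) (α_pos h _).le hlpos
    (by rw [hl, hR]; nlinarith [sq_nonneg (r ^ 2 - 1), sq_nonneg r, pow_pos hr0 2])
    hβ0 (P.ms (j + 1)) (by rw [hl, hl']; exact hmsle) n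
  rw [hpot] at hU
  have hZq : 0 < partitionFn (P.pot q0 j) (P.l (j + 1)) n β := Z_pos hgood hlpos hβ0 n
  have hlog := phi_le_of_lemmaU hZq hU
  -- unfold the hierarchy
  have hE : (P.hier q0).E (j + 1) = 1e4 / r := by simp [hier, hr]
  have hφ' : (P.hier q0).φ (j + 1 + 1) β ((P.hier q0).m (j + 1) * n)
      = -Real.log (partitionFn (P.pot q0 (j + 1)) (P.l (j + 1 + 1)) (P.ms (j + 1) ^ 3 * n) β)
        / (P.T * (ms ^ 3 * M)) := by
    simp only [hier, Phi, Nat.add_sub_cancel]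
    rw [hM']
  have hψ : (P.hier q0).psi (j + 1) β n
      = -Real.log (partitionFn (P.pot q0 j) (P.l (j + 1)) n β) / (P.T * M)
        - β * P.aa (j + 1) * ((n : ℝ) / M) ^ 2 / 2 := by
    simp only [Hier.psi, hier, Phi, Nat.add_sub_cancel]
    rfl
  rw [hφ', hψ, hE]
  generalize -Real.log (partitionFn (P.pot q0 j) (P.l (j + 1)) n β) = Lq at hlog ⊢
  generalize -Real.log (partitionFn (P.pot q0 (j + 1)) (P.l (j + 1 + 1))
    (P.ms (j + 1) ^ 3 * n) β) = L' at hlog ⊢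
  rw [hl, hR] at hlog
  -- the arithmetic
  obtain ⟨a1, a2, a3, a4, a5⟩ := A_bounds h j
  set t : ℝ := (n : ℝ) / M with ht
  have ht0 : 0 ≤ t := by positivity
  have ht15 : t ≤ 15 := by
    rw [ht, div_le_iff₀ hM0]
    have : n ≤ 15 * P.M (j + 1) := hn
    rw [hM]; exact_mod_cast this
  have hn' : (n : ℝ) = t * M := by rw [ht]; field_simp
  have hχ0 := χ_nonneg h (j + 1)
  have hχ6 := χ_le h (k := j + 1) (by omega)
  simp only [Nat.add_sub_cancel] at hχ6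
  have hχ1 : P.χ (j + 1) < 1 := by
    have : 6 / r ≤ 6 / 1e60 := div_le_div_of_nonneg_left (by norm_num) (by norm_num) hr60
    have h2 : (6 : ℝ) / 1e60 < 1 := by norm_num
    linarith
  have hlamA : P.lamA (j + 1) = M / (r ^ 2) ^ 3 := by unfold lamA; rw [hl]
  have hAr := arith (r := r) (K := kap) (A := P.α (j + 1) / P.T * P.lamA (j + 1))
    (αT := P.α (j + 1) / P.T) (χ := P.χ (j + 1)) (ms := ms) (t := t) (β := β) hr60
    (by have := kap_ge; linarith) a3 a4 a5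
    a1 a2 hχ0 hχ6 hmsge ht0 ht15 hβ.1 hβ.2
  have haa : P.aa (j + 1)
      = P.α (j + 1) / P.T * P.lamA (j + 1) * (kap + 2000 * r ^ 2 / r ^ 4) / (1 - P.χ (j + 1)) := by
    unfold aa κp CB
    rw [hwm, hR, hlamA]
    have : 1 - P.χ (j + 1) ≠ 0 := by linarith
    field_simp
    rfl
  rw [haa]
  push_cast at hlog
  unfold CB at hlog
  rw [hn'] at hlog
  rw [hlamA] at hAr ⊢
  exact finish hT hms0 hM0 hr0 hlog hAr

theorem bridge_B (h : P.OK) (hq : CoreP q0 P.T P.a P.b1 P.r0 I0) :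
    ∀ k, 1 ≤ k → ∀ β ∈ Set.Icc (0.99 : ℝ) 1.01, ∀ (w : Fin 3 → ℝ) (n : Fin 3 → ℕ),
      (∀ i, 0 ≤ w i) → ∑ i, w i = 1 → (∀ i, n i ≤ 15 * (P.hier q0).M k) → ∀ ρ : ℝ, 0 < ρ →
      ρ = P.lamB k * ∑ i, w i * ((n i : ℝ) / (P.hier q0).M k) →
      Glim (P.potInf q0) β ρ ≤ P.T * P.lamB k * ∑ i, w i * (P.hier q0).psi k β (n i)
        + P.T * P.lamB k * (P.hier q0).E k := by
  intro k hk β hβ w n hw hw1 hn ρ hρ hρeq
  have hT : 0 < P.T := by have := h.T_ge; linarith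
  have hβ0 : 0 < β := by have := hβ.1; linarith
  have hth := potInf_thermo h hq
  obtain ⟨F, hF⟩ := thermo_limit hth hβ0 hρ
  rw [Glim_eq hF]
  have hMk : 0 < P.M k := M_pos h hk
  have hMk' : (0 : ℝ) < (P.M k : ℝ) := by exact_mod_cast hMk
  have hMk1 : 0 < P.M (k + 1) := M_pos h (by omega)
  have hMk1' : (0 : ℝ) < (P.M (k + 1) : ℝ) := by exact_mod_cast hMk1
  have hMs : (P.M (k + 1) : ℝ) = (P.ms k : ℝ) ^ 3 * P.M k := by
    obtain ⟨j, rfl⟩ : ∃ j, k = j + 1 := ⟨k - 1, by omega⟩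
    have : P.M (j + 1 + 1) = (P.ms (j + 1)) ^ 3 * P.M (j + 1) := rfl
    rw [this]; push_cast; rfl
  have hl0 : (0 : ℝ) < (P.l (k + 1) : ℝ) := by
    have h1 := R_ge h k
    have h2 := h.Q_ge
    have h3 : 0 < P.R k := by
      refine lt_of_lt_of_le ?_ h1
      have : 0 < P.Q := lt_of_lt_of_le (by norm_num) h2
      positivity
    rw [l_succ]
    have : 0 < (P.R k) ^ 2 := by positivity
    exact_mod_cast this
  have hl1 : (0 : ℝ) < ((P.l (k + 1) : ℝ) + 1) ^ 3 := by positivity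
  have hmix := mixture_bound hth hβ0 hρ hF hl0 w hw hw1 (fun i => (P.ms k) ^ 3 * n i) (by
    rw [hρeq, Finset.mul_sum]
    refine Finset.sum_congr rfl fun i _ => ?_
    have : (P.hier q0).M k = P.M k := rfl
    rw [this]
    unfold lamB
    rw [hMs]
    push_cast
    field_simp)
  refine le_trans hmix ?_
  have hterm : ∀ i, w i * Phi (P.potInf q0) (P.l (k + 1)) ((P.ms k) ^ 3 * n i) β
        / ((P.l (k + 1) : ℝ) + 1) ^ 3
      ≤ P.T * P.lamB k * (w i * (P.hier q0).psi k β (n i)) + P.T * P.lamB k * (P.hier q0).E k * w i := by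
    intro i
    have hZ := Z_mono_phi (L := (P.l (k + 1) : ℝ)) (N := (P.ms k) ^ 3 * n i) hth.toGood
      (pot_good h hq k) (potInf_le_pot h q0 k) hβ0.le
    have hZpos : 0 < partitionFn (P.pot q0 k) (P.l (k + 1)) ((P.ms k) ^ 3 * n i) β :=
      Z_pos (pot_good h hq k) hl0 hβ0.le _
    have hPhi : Phi (P.potInf q0) (P.l (k + 1)) ((P.ms k) ^ 3 * n i) β
        ≤ Phi (P.pot q0 k) (P.l (k + 1)) ((P.ms k) ^ 3 * n i) β := by
      unfold Phi
      exact neg_le_neg (Real.log_le_log hZpos hZ)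
    have hst := hyp_stepU h hq k hk β hβ (n i) (hn i)
    have hφ : (P.hier q0).φ (k + 1) β ((P.hier q0).m k * n i)
        = Phi (P.pot q0 k) (P.l (k + 1)) ((P.ms k) ^ 3 * n i) β / (P.T * P.M (k + 1)) := by
      simp only [hier, Nat.add_sub_cancel]
    rw [hφ, div_le_iff₀ (by positivity)] at hst
    have h1 : Phi (P.potInf q0) (P.l (k + 1)) ((P.ms k) ^ 3 * n i) β
        ≤ ((P.hier q0).psi k β (n i) + (P.hier q0).E k) * (P.T * P.M (k + 1)) := le_trans hPhi hst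
    have h2 : w i * Phi (P.potInf q0) (P.l (k + 1)) ((P.ms k) ^ 3 * n i) β
        ≤ w i * (((P.hier q0).psi k β (n i) + (P.hier q0).E k) * (P.T * P.M (k + 1))) :=
      mul_le_mul_of_nonneg_left h1 (hw i)
    have h3 := div_le_div_of_nonneg_right h2 hl1.le
    refine le_trans h3 (le_of_eq ?_)
    unfold lamB
    field_simp
  calc ∑ i, w i * Phi (P.potInf q0) (P.l (k + 1)) ((P.ms k) ^ 3 * n i) β
        / ((P.l (k + 1) : ℝ) + 1) ^ 3
      ≤ ∑ i, (P.T * P.lamB k * (w i * (P.hier q0).psi k β (n i))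
          + P.T * P.lamB k * (P.hier q0).E k * w i) := Finset.sum_le_sum fun i _ => hterm i
    _ = _ := by
        rw [Finset.sum_add_distrib, ← Finset.mul_sum, ← Finset.mul_sum, hw1, mul_one]

end Par

end Crest.Agent.S0209
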