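import Crest.Agent.S0209_Defs
/-!
ROW 149, package B: kernel sums (statements verbatim from `notes/ROW149_Iface2.lean.txt`).
Private helpers live in the sub-namespace `Ker`.
-/
set_option autoImplicit false
namespace Crest.Agent.S0209
open Crest.ProbabilityR.Continuum MeasureTheory

/-- Euclidean norm of an integer vector -/
noncomputable def nrm (d : Fin 3 → ℤ) : ℝ := Real.sqrt (∑ i, (d i : ℝ) ^ 2)

/-- index of the grid cell of side `s` (grid through the point `o`) containing `x` -/
noncomputable def cellIdx (s : ℝ) (o : Fin 3 → ℝ) (x : Pt) : Fin 3 → ℤ := fun i => ⌊(x i - o i) / s⌋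

/-- universal constant of the kernel sums (any explicit value, e.g. 2000, is fine) -/
noncomputable def CB : ℝ := 2000

namespace Ker

/-- the profile `(1-|x|)₊` -/
noncomputable def prof (x : Pt) : ℝ := max 0 (1 - ‖x‖)

theorem continuous_prof : Continuous prof :=
  continuous_const.max (continuous_const.sub continuous_norm)

theorem prof_nonneg (x : Pt) : 0 ≤ prof x := le_max_left _ _

theorem hasCompactSupport_prof : HasCompactSupport prof := by
  apply HasCompactSupport.intro (isCompact_closedBall (0 : Pt) 1)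
  intro x hx
  have : 1 < ‖x‖ := by simpa [Metric.mem_closedBall, dist_zero_right] using hx
  simp only [prof]
  exact max_eq_left (by linarith)

theorem integrable_prof : Integrable prof :=
  continuous_prof.integrable_of_hasCompactSupport hasCompactSupport_prof

end Ker

theorem kap_pos : 0 < kap := by
  have h := Ker.continuous_prof.integral_pos_of_hasCompactSupport_nonneg_nonzero
    (μ := (volume : Measure Pt)) Ker.hasCompactSupport_prof Ker.prof_nonneg (x := 0)
    (by simp [Ker.prof])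
  exact h

theorem Kac_nonneg {R : ℝ} (hR : 0 < R) (r : ℝ) : 0 ≤ Kac R r :=
  div_nonneg (le_max_left _ _) (pow_nonneg hR.le 3)

theorem Kac_anti {R : ℝ} (hR : 0 < R) : Antitone (Kac R) := by
  intro a b hab
  unfold Kac
  apply div_le_div_of_nonneg_right _ (pow_nonneg hR.le 3)
  apply max_le_max le_rfl
  have : a / R ≤ b / R := div_le_div_of_nonneg_right hab hR.le
  linarith

theorem Kac_le {R r : ℝ} (hR : 0 < R) (hr : 0 ≤ r) : Kac R r ≤ 1 / R ^ 3 := by
  unfold Kac
  apply div_le_div_of_nonneg_right _ (pow_nonneg hR.le 3)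
  apply max_le zero_le_one
  have : 0 ≤ r / R := div_nonneg hr hR.le
  linarith

theorem Kac_eq_zero {R r : ℝ} (hR : 0 < R) (hr : R ≤ r) : Kac R r = 0 := by
  unfold Kac
  have : 1 ≤ r / R := (one_le_div hR).2 hr
  rw [max_eq_left (by linarith), zero_div]

namespace Ker

/-- the point of `ℝ³` with coordinates `f` -/
noncomputable def mk (f : Fin 3 → ℝ) : Pt := WithLp.toLp 2 f

@[simp] theorem mk_apply (f : Fin 3 → ℝ) (i : Fin 3) : mk f i = f i := rfl

theorem norm_mk (f : Fin 3 → ℝ) : ‖mk f‖ = Real.sqrt (∑ i, f i ^ 2) := by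
  rw [EuclideanSpace.norm_eq]
  simp

theorem norm_mk_int {s : ℝ} (hs : 0 ≤ s) (d : Fin 3 → ℤ) :
    ‖mk (fun i => s * (d i : ℝ))‖ = s * nrm d := by
  rw [norm_mk, nrm]
  have : ∑ i, (s * (d i : ℝ)) ^ 2 = s ^ 2 * ∑ i, (d i : ℝ) ^ 2 := by
    rw [Finset.mul_sum]; exact Finset.sum_congr rfl (fun i _ => by ring)
  rw [this, Real.sqrt_mul (sq_nonneg s), Real.sqrt_sq hs]

theorem norm_mk_le {c : ℝ} (hc : 0 ≤ c) (f : Fin 3 → ℝ) (hf : ∀ i, |f i| ≤ c) :
    ‖mk f‖ ≤ Real.sqrt 3 * c := by
  rw [norm_mk]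
  have h1 : ∑ i, f i ^ 2 ≤ 3 * c ^ 2 := by
    have : ∀ i, f i ^ 2 ≤ c ^ 2 := fun i => by
      rw [← sq_abs]; exact pow_le_pow_left₀ (abs_nonneg _) (hf i) 2
    calc ∑ i, f i ^ 2 ≤ ∑ _i : Fin 3, c ^ 2 := Finset.sum_le_sum (fun i _ => this i)
      _ = 3 * c ^ 2 := by simp
  calc Real.sqrt (∑ i, f i ^ 2) ≤ Real.sqrt (3 * c ^ 2) := Real.sqrt_le_sqrt h1
    _ = Real.sqrt 3 * c := by rw [Real.sqrt_mul (by norm_num), Real.sqrt_sq hc]

/-- decomposition `x - y = s (c - c') + remainder`, remainder of sup norm `≤ s`. -/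
theorem sub_eq {s : ℝ} (hs : 0 < s) (o : Fin 3 → ℝ) (x y : Pt) :
    ∃ e : Fin 3 → ℝ, (∀ i, |e i| ≤ s) ∧
      x - y = mk (fun i => s * (((cellIdx s o x - cellIdx s o y) i : ℤ) : ℝ)) + mk e := by
  refine ⟨fun i => (x i - y i) - s * (((cellIdx s o x - cellIdx s o y) i : ℤ) : ℝ), ?_, ?_⟩
  · intro i
    simp only [cellIdx, Pi.sub_apply, Int.cast_sub]
    have h1 := Int.floor_le ((x i - o i) / s)
    have h2 := Int.lt_floor_add_one ((x i - o i) / s)
    have h3 := Int.floor_le ((y i - o i) / s)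
    have h4 := Int.lt_floor_add_one ((y i - o i) / s)
    set a : ℝ := (⌊(x i - o i) / s⌋ : ℝ)
    set b : ℝ := (⌊(y i - o i) / s⌋ : ℝ)
    have hx : x i - o i = s * ((x i - o i) / s) := by field_simp
    have hy : y i - o i = s * ((y i - o i) / s) := by field_simp
    have e1 : x i - y i - s * (a - b)
        = s * (((x i - o i) / s - a) - ((y i - o i) / s - b)) := by
      have : x i - y i = (x i - o i) - (y i - o i) := by ring
      rw [this]
      field_simp
      ring
    rw [e1, abs_mul, abs_of_pos hs]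
    have : |((x i - o i) / s - a) - ((y i - o i) / s - b)| ≤ 1 := by
      rw [abs_le]; constructor <;> linarith
    nlinarith
  · ext i
    simp

end Ker

theorem dist_ge_of_cellIdx {s : ℝ} (hs : 0 < s) (o : Fin 3 → ℝ) (x y : Pt) :
    s * nrm (cellIdx s o x - cellIdx s o y) - Real.sqrt 3 * s ≤ dist x y := by
  obtain ⟨e, he, h⟩ := Ker.sub_eq hs o x y
  rw [dist_eq_norm, h, ← Ker.norm_mk_int hs.le]
  have h1 := Ker.norm_mk_le hs.le e he
  have h2 := norm_sub_le_norm_add
    (Ker.mk (fun i => s * (((cellIdx s o x - cellIdx s o y) i : ℤ) : ℝ))) (Ker.mk e)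
  linarith

theorem dist_le_of_cellIdx {s : ℝ} (hs : 0 < s) (o : Fin 3 → ℝ) (x y : Pt) :
    dist x y ≤ s * nrm (cellIdx s o x - cellIdx s o y) + Real.sqrt 3 * s := by
  obtain ⟨e, he, h⟩ := Ker.sub_eq hs o x y
  rw [dist_eq_norm, h, ← Ker.norm_mk_int hs.le]
  have h1 := Ker.norm_mk_le hs.le e he
  have h2 := norm_add_le
    (Ker.mk (fun i => s * (((cellIdx s o x - cellIdx s o y) i : ℤ) : ℝ))) (Ker.mk e)
  linarith

namespace Ker

/-- the half-open grid cell `s (d + [0,1)³)` -/
def cell (s : ℝ) (d : Fin 3 → ℤ) : Set Pt :=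
  {z | ∀ i, s * (d i : ℝ) ≤ z i ∧ z i < s * ((d i : ℝ) + 1)}

theorem cell_eq_preimage (s : ℝ) (d : Fin 3 → ℤ) :
    cell s d = (WithLp.ofLp : Pt → (Fin 3 → ℝ)) ⁻¹'
      (Set.pi Set.univ (fun i => Set.Ico (s * (d i : ℝ)) (s * ((d i : ℝ) + 1)))) := by
  ext x
  simp [cell, Set.mem_pi]

theorem measurableSet_cell (s : ℝ) (d : Fin 3 → ℤ) : MeasurableSet (cell s d) := by
  rw [cell_eq_preimage]
  exact (PiLp.volume_preserving_ofLp (Fin 3)).measurable
    (MeasurableSet.univ_pi (fun _ => measurableSet_Ico))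

theorem volume_cell {s : ℝ} (hs : 0 ≤ s) (d : Fin 3 → ℤ) :
    volume (cell s d) = ENNReal.ofReal (s ^ 3) := by
  rw [cell_eq_preimage, (PiLp.volume_preserving_ofLp (Fin 3)).measure_preimage
    (MeasurableSet.univ_pi (fun _ => measurableSet_Ico)).nullMeasurableSet, Real.volume_pi_Ico]
  have : ∀ i : Fin 3, s * ((d i : ℝ) + 1) - s * (d i : ℝ) = s := fun i => by ring
  simp [this, ENNReal.ofReal_pow hs]

theorem volume_real_cell {s : ℝ} (hs : 0 ≤ s) (d : Fin 3 → ℤ) :
    (volume : Measure Pt).real (cell s d) = s ^ 3 := by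
  rw [Measure.real, volume_cell hs, ENNReal.toReal_ofReal (pow_nonneg hs 3)]

theorem eq_floor_of_mem_cell {s : ℝ} (hs : 0 < s) {d : Fin 3 → ℤ} {z : Pt} (hz : z ∈ cell s d)
    (i : Fin 3) : d i = ⌊z i / s⌋ := by
  symm
  rw [Int.floor_eq_iff]
  obtain ⟨h1, h2⟩ := hz i
  constructor
  · rw [le_div_iff₀ hs]; linarith
  · rw [div_lt_iff₀ hs]; linarith

theorem mem_cell_floor {s : ℝ} (hs : 0 < s) (z : Pt) : z ∈ cell s (fun i => ⌊z i / s⌋) := by
  intro i
  have h1 := Int.floor_le (z i / s)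
  have h2 := Int.lt_floor_add_one (z i / s)
  rw [le_div_iff₀ hs] at h1
  rw [div_lt_iff₀ hs] at h2
  constructor <;> linarith

theorem disjoint_cell {s : ℝ} (hs : 0 < s) {d d' : Fin 3 → ℤ} (h : d ≠ d') :
    Disjoint (cell s d) (cell s d') := by
  rw [Set.disjoint_left]
  intro z hz hz'
  apply h
  funext i
  rw [eq_floor_of_mem_cell hs hz i, eq_floor_of_mem_cell hs hz' i]

theorem norm_sub_le_of_mem_cell {s : ℝ} (hs : 0 < s) {d : Fin 3 → ℤ} {z : Pt}
    (hz : z ∈ cell s d) : ‖z - mk (fun i => s * (d i : ℝ))‖ ≤ Real.sqrt 3 * s := by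
  have : z - mk (fun i => s * (d i : ℝ)) = mk (fun i => z i - s * (d i : ℝ)) := by
    ext i; simp
  rw [this]
  apply norm_mk_le hs.le
  intro i
  obtain ⟨h1, h2⟩ := hz i
  rw [abs_le]; constructor <;> nlinarith

theorem norm_le_of_mem_cell {s : ℝ} (hs : 0 < s) {d : Fin 3 → ℤ} {z : Pt}
    (hz : z ∈ cell s d) : ‖z‖ ≤ s * nrm d + Real.sqrt 3 * s := by
  have h1 := norm_sub_le_of_mem_cell hs hz
  have h2 := norm_le_norm_add_norm_sub' z (mk (fun i => s * (d i : ℝ)))
  rw [norm_mk_int hs.le] at h2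
  linarith

theorem norm_ge_of_mem_cell {s : ℝ} (hs : 0 < s) {d : Fin 3 → ℤ} {z : Pt}
    (hz : z ∈ cell s d) : s * nrm d - Real.sqrt 3 * s ≤ ‖z‖ := by
  have h1 := norm_sub_le_of_mem_cell hs hz
  have h2 := norm_le_norm_add_norm_sub z (mk (fun i => s * (d i : ℝ)))
  rw [norm_mk_int hs.le] at h2
  linarith

/-- `Kac_R(|z|)` as a rescaled profile -/
theorem Kac_norm_eq {R : ℝ} (hR : 0 < R) (z : Pt) : Kac R ‖z‖ = prof (R⁻¹ • z) / R ^ 3 := by
  unfold Kac prof
  rw [norm_smul, Real.norm_eq_abs, abs_of_pos (inv_pos.2 hR)]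
  congr 2
  field_simp

theorem integrable_Kac {R : ℝ} (hR : 0 < R) : Integrable (fun z : Pt => Kac R ‖z‖) := by
  have h := (integrable_prof.comp_smul (inv_ne_zero hR.ne')).div_const (R ^ 3)
  refine h.congr (Filter.Eventually.of_forall (fun z => ?_))
  exact (Kac_norm_eq hR z).symm

theorem integral_Kac {R : ℝ} (hR : 0 < R) : ∫ z : Pt, Kac R ‖z‖ = kap := by
  have h1 : (fun z : Pt => Kac R ‖z‖) = fun z => prof (R⁻¹ • z) / R ^ 3 := by
    funext z; exact Kac_norm_eq hR z
  rw [h1, integral_div, Measure.integral_comp_inv_smul_of_nonneg _ _ hR.le]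
  have : Module.finrank ℝ Pt = 3 := by simp
  rw [this, smul_eq_mul]
  have hR3 : R ^ 3 ≠ 0 := pow_ne_zero 3 hR.ne'
  unfold kap prof
  field_simp

theorem volume_real_closedBall {r : ℝ} (hr : 0 ≤ r) :
    (volume : Measure Pt).real (Metric.closedBall (0 : Pt) r) = r ^ 3 * (Real.pi * 4 / 3) := by
  rw [Measure.real, EuclideanSpace.volume_closedBall_fin_three, ENNReal.toReal_mul,
    ENNReal.toReal_pow, ENNReal.toReal_ofReal hr, ENNReal.toReal_ofReal (by positivity)]

theorem integrable_ind (c r : ℝ) :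
    Integrable ((Metric.closedBall (0 : Pt) r).indicator (fun _ => c)) := by
  apply (integrable_indicator_iff measurableSet_closedBall).2
  exact integrableOn_const (by
    rw [EuclideanSpace.volume_closedBall_fin_three]
    exact (ENNReal.mul_lt_top (ENNReal.pow_lt_top ENNReal.ofReal_lt_top) ENNReal.ofReal_lt_top).ne)

theorem integral_ind (c : ℝ) {r : ℝ} (hr : 0 ≤ r) :
    ∫ z : Pt, (Metric.closedBall (0 : Pt) r).indicator (fun _ => c) z
      = r ^ 3 * (Real.pi * 4 / 3) * c := by
  rw [integral_indicator_const _ measurableSet_closedBall, volume_real_closedBall hr, smul_eq_mul]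

theorem sqrt3_lt : Real.sqrt 3 < 1.7321 := by
  rw [Real.sqrt_lt' (by norm_num)]; norm_num

end Ker


theorem kernel_upper {s R : ℝ} (hs : 0 < s) (hsR : s ≤ R) (D : Finset (Fin 3 → ℤ)) :
    ∑ d ∈ D, s ^ 3 * Kac R (max 0 (s * nrm d - Real.sqrt 3 * s)) ≤ kap + CB * s / R := by
  have hR : 0 < R := hs.trans_le hsR
  have h3 : 0 ≤ Real.sqrt 3 := Real.sqrt_nonneg 3
  set δ : ℝ := 2 * Real.sqrt 3 * s with hδ
  have hδ0 : 0 ≤ δ := by positivity
  set H : Pt → ℝ := fun z => Kac R ‖z‖ +
    (Metric.closedBall (0 : Pt) (R + δ)).indicator (fun _ => δ / R ^ 4) z with hH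
  have hHint : Integrable H := (Ker.integrable_Kac hR).add (Ker.integrable_ind _ _)
  have hind0 : ∀ z : Pt, 0 ≤ (Metric.closedBall (0 : Pt) (R + δ)).indicator
      (fun _ => δ / R ^ 4) z := fun z =>
    Set.indicator_nonneg (fun _ _ => by positivity) z
  have hH0 : ∀ z, 0 ≤ H z := fun z => add_nonneg (Kac_nonneg hR _) (hind0 z)
  have hpt : ∀ d, ∀ z ∈ Ker.cell s d, Kac R (max 0 (s * nrm d - Real.sqrt 3 * s)) ≤ H z := by
    intro d z hz
    have hz1 := Ker.norm_le_of_mem_cell hs hz
    have hr0 : ‖z‖ - δ ≤ max 0 (s * nrm d - Real.sqrt 3 * s) := by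
      refine le_trans ?_ (le_max_right _ _)
      rw [hδ]; linarith
    by_cases hzb : ‖z‖ ≤ R + δ
    · have hmem : z ∈ Metric.closedBall (0 : Pt) (R + δ) := by
        simpa [Metric.mem_closedBall, dist_zero_right] using hzb
      simp only [hH, Set.indicator_of_mem hmem]
      calc Kac R (max 0 (s * nrm d - Real.sqrt 3 * s)) ≤ Kac R (‖z‖ - δ) := Kac_anti hR hr0
        _ ≤ Kac R ‖z‖ + δ / R ^ 4 := by
          unfold Kac
          have e : δ / R ^ 4 = (δ / R) / R ^ 3 := by field_simp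
          rw [e, ← add_div]
          apply div_le_div_of_nonneg_right _ (pow_nonneg hR.le 3)
          apply max_le
          · have : 0 ≤ δ / R := div_nonneg hδ0 hR.le
            have := le_max_left 0 (1 - ‖z‖ / R)
            linarith
          · have := le_max_right 0 (1 - ‖z‖ / R)
            have e2 : (‖z‖ - δ) / R = ‖z‖ / R - δ / R := sub_div _ _ _
            rw [e2]; linarith
    · have : R ≤ max 0 (s * nrm d - Real.sqrt 3 * s) := by
        push Not at hzb; linarith
      rw [Kac_eq_zero hR this]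
      exact hH0 z
  have h1 : ∀ d ∈ D, s ^ 3 * Kac R (max 0 (s * nrm d - Real.sqrt 3 * s))
      ≤ ∫ z in Ker.cell s d, H z := by
    intro d _
    have hc : ∫ _z in Ker.cell s d, Kac R (max 0 (s * nrm d - Real.sqrt 3 * s))
        = s ^ 3 * Kac R (max 0 (s * nrm d - Real.sqrt 3 * s)) := by
      rw [setIntegral_const, Ker.volume_real_cell hs.le, smul_eq_mul]
    rw [← hc]
    refine setIntegral_mono_on (integrableOn_const ?_) hHint.integrableOn
      (Ker.measurableSet_cell s d) (hpt d)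
    rw [Ker.volume_cell hs.le]; exact ENNReal.ofReal_ne_top
  calc ∑ d ∈ D, s ^ 3 * Kac R (max 0 (s * nrm d - Real.sqrt 3 * s))
      ≤ ∑ d ∈ D, ∫ z in Ker.cell s d, H z := Finset.sum_le_sum h1
    _ = ∫ z in ⋃ d ∈ D, Ker.cell s d, H z :=
        (integral_biUnion_finset D (fun d _ => Ker.measurableSet_cell s d)
          (fun d _ d' _ h => Ker.disjoint_cell hs h) (fun d _ => hHint.integrableOn)).symm
    _ ≤ ∫ z, H z := setIntegral_le_integral hHint (Filter.Eventually.of_forall hH0)
    _ = kap + (R + δ) ^ 3 * (Real.pi * 4 / 3) * (δ / R ^ 4) := by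
        rw [hH, integral_add (Ker.integrable_Kac hR) (Ker.integrable_ind _ _), Ker.integral_Kac hR,
          Ker.integral_ind _ (by positivity)]
    _ ≤ kap + CB * s / R := by
        have hs3 := Ker.sqrt3_lt
        have hpi := Real.pi_lt_d4
        have hpi0 := Real.pi_pos
        have hb : R + δ ≤ 4.4642 * R := by rw [hδ]; nlinarith
        have hb3 : (R + δ) ^ 3 ≤ (4.4642 * R) ^ 3 := pow_le_pow_left₀ (by positivity) hb 3
        have hδs : δ ≤ 3.4642 * s := by rw [hδ]; nlinarith
        have e : CB * s / R = (CB * s * R ^ 3) / R ^ 4 := by field_simp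
        have e2 : (R + δ) ^ 3 * (Real.pi * 4 / 3) * (δ / R ^ 4)
            = ((R + δ) ^ 3 * (Real.pi * 4 / 3) * δ) / R ^ 4 := by ring
        rw [e, e2]
        apply add_le_add le_rfl
        apply div_le_div_of_nonneg_right _ (pow_nonneg hR.le 4)
        have hR3 : 0 < R ^ 3 := pow_pos hR 3
        calc (R + δ) ^ 3 * (Real.pi * 4 / 3) * δ
            ≤ (4.4642 * R) ^ 3 * (3.1416 * 4 / 3) * (3.4642 * s) := by
              apply mul_le_mul (mul_le_mul hb3 (by linarith) (by positivity) (by positivity)) hδs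
                hδ0 (by positivity)
          _ = (4.4642 ^ 3 * (3.1416 * 4 / 3) * 3.4642) * (s * R ^ 3) := by ring
          _ ≤ 2000 * (s * R ^ 3) := by
              apply mul_le_mul_of_nonneg_right (by norm_num) (by positivity)
          _ = CB * s * R ^ 3 := by unfold CB; ring

theorem kernel_lower {s R : ℝ} (hs : 0 < s) (hsR : s ≤ R) (n : ℕ) (hn : R ≤ s * n) :
    kap - CB * s / R ≤
      ∑ d ∈ Fintype.piFinset (fun _ : Fin 3 => Finset.Icc (-(n : ℤ)) n),
        s ^ 3 * Kac R (s * nrm d + Real.sqrt 3 * s) := by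
  have hR : 0 < R := hs.trans_le hsR
  have h3 : 0 ≤ Real.sqrt 3 := Real.sqrt_nonneg 3
  set δ : ℝ := 2 * Real.sqrt 3 * s with hδ
  have hδ0 : 0 ≤ δ := by positivity
  set D := Fintype.piFinset (fun _ : Fin 3 => Finset.Icc (-(n : ℤ)) n) with hD
  set H : Pt → ℝ := fun z => Kac R ‖z‖ -
    (Metric.closedBall (0 : Pt) R).indicator (fun _ => δ / R ^ 4) z with hH
  have hHint : Integrable H := (Ker.integrable_Kac hR).sub (Ker.integrable_ind _ _)
  have hpt : ∀ d, ∀ z ∈ Ker.cell s d, H z ≤ Kac R (s * nrm d + Real.sqrt 3 * s) := by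
    intro d z hz
    have hz1 := Ker.norm_ge_of_mem_cell hs hz
    have hr0 : s * nrm d + Real.sqrt 3 * s ≤ ‖z‖ + δ := by rw [hδ]; linarith
    by_cases hzb : ‖z‖ ≤ R
    · have hmem : z ∈ Metric.closedBall (0 : Pt) R := by
        simpa [Metric.mem_closedBall, dist_zero_right] using hzb
      simp only [hH, Set.indicator_of_mem hmem]
      calc Kac R ‖z‖ - δ / R ^ 4 ≤ Kac R (‖z‖ + δ) := by
            unfold Kac
            have e : δ / R ^ 4 = (δ / R) / R ^ 3 := by field_simp
            rw [e, ← sub_div]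
            apply div_le_div_of_nonneg_right _ (pow_nonneg hR.le 3)
            have h1 : ‖z‖ / R ≤ 1 := (div_le_one hR).2 hzb
            rw [max_eq_right (by linarith)]
            refine le_trans ?_ (le_max_right _ _)
            have e2 : (‖z‖ + δ) / R = ‖z‖ / R + δ / R := add_div _ _ _
            rw [e2]; linarith
        _ ≤ Kac R (s * nrm d + Real.sqrt 3 * s) := Kac_anti hR hr0
    · have hnm : z ∉ Metric.closedBall (0 : Pt) R := by
        simpa [Metric.mem_closedBall, dist_zero_right] using hzb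
      push Not at hzb
      simp only [hH, Set.indicator_of_notMem hnm, Kac_eq_zero hR hzb.le, sub_zero]
      exact Kac_nonneg hR _
  have h1 : ∀ d ∈ D, ∫ z in Ker.cell s d, H z ≤ s ^ 3 * Kac R (s * nrm d + Real.sqrt 3 * s) := by
    intro d _
    have hc : ∫ _z in Ker.cell s d, Kac R (s * nrm d + Real.sqrt 3 * s)
        = s ^ 3 * Kac R (s * nrm d + Real.sqrt 3 * s) := by
      rw [setIntegral_const, Ker.volume_real_cell hs.le, smul_eq_mul]
    rw [← hc]
    refine setIntegral_mono_on hHint.integrableOn (integrableOn_const ?_)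
      (Ker.measurableSet_cell s d) (hpt d)
    rw [Ker.volume_cell hs.le]; exact ENNReal.ofReal_ne_top
  have hzero : ∀ z, z ∉ (⋃ d ∈ D, Ker.cell s d) → H z = 0 := by
    intro z hz
    have hzb : R < ‖z‖ := by
      by_contra hcon
      push Not at hcon
      apply hz
      simp only [Set.mem_iUnion]
      refine ⟨fun i => ⌊z i / s⌋, ?_, Ker.mem_cell_floor hs z⟩
      rw [hD, Fintype.mem_piFinset]
      intro i
      have hzi : |z i| ≤ s * n := by
        have : |z i| ≤ ‖z‖ := by
          have := PiLp.norm_apply_le z i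
          simpa using this
        linarith
      rw [abs_le] at hzi
      rw [Finset.mem_Icc]
      constructor
      · rw [Int.le_floor, le_div_iff₀ hs]
        push_cast
        nlinarith [hzi.1]
      · have : z i / s ≤ n := by rw [div_le_iff₀ hs]; nlinarith [hzi.2]
        have h5 : (⌊z i / s⌋ : ℝ) ≤ n := le_trans (Int.floor_le _) this
        exact_mod_cast h5
    have hnm : z ∉ Metric.closedBall (0 : Pt) R := by
      simpa [Metric.mem_closedBall, dist_zero_right] using hzb
    simp only [hH, Set.indicator_of_notMem hnm, Kac_eq_zero hR hzb.le, sub_zero]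
  calc kap - CB * s / R ≤ kap - R ^ 3 * (Real.pi * 4 / 3) * (δ / R ^ 4) := by
        have hs3 := Ker.sqrt3_lt
        have hpi := Real.pi_lt_d4
        have hpi0 := Real.pi_pos
        have e2 : R ^ 3 * (Real.pi * 4 / 3) * (δ / R ^ 4) = ((Real.pi * 4 / 3) * δ) / R := by
          field_simp
        rw [e2]
        apply sub_le_sub le_rfl
        apply div_le_div_of_nonneg_right _ hR.le
        have hδs : δ ≤ 3.4642 * s := by rw [hδ]; nlinarith
        calc Real.pi * 4 / 3 * δ ≤ (3.1416 * 4 / 3) * (3.4642 * s) :=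
              mul_le_mul (by linarith) hδs hδ0 (by norm_num)
          _ ≤ CB * s := by unfold CB; nlinarith
    _ = ∫ z, H z := by
        rw [hH, integral_sub (Ker.integrable_Kac hR) (Ker.integrable_ind _ _), Ker.integral_Kac hR,
          Ker.integral_ind _ hR.le]
    _ = ∫ z in ⋃ d ∈ D, Ker.cell s d, H z :=
        (setIntegral_eq_integral_of_forall_compl_eq_zero hzero).symm
    _ = ∑ d ∈ D, ∫ z in Ker.cell s d, H z :=
        integral_biUnion_finset D (fun d _ => Ker.measurableSet_cell s d)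
          (fun d _ d' _ h => Ker.disjoint_cell hs h) (fun d _ => hHint.integrableOn)
    _ ≤ ∑ d ∈ D, s ^ 3 * Kac R (s * nrm d + Real.sqrt 3 * s) := Finset.sum_le_sum h1

end Crest.Agent.S0209

/-- Realise the auto-generated equation lemmas once, in this (defining / root) module, so that
sibling modules of one import closure do not each create their own copy of the same name. -/
theorem Crest.Agent.S0209.eqns_realised_Kernel : True := by
  have := @Crest.Agent.S0209.CB.eq_1
  have := @Crest.Agent.S0209.nrm.eq_1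
  have := @Crest.Agent.S0209.cellIdx.eq_1
  trivial
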