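import Crest.Agent.S0209_Defs

/-!
# ROW 149, Lemma L: definitions shared by the deterministic part (steps 1-4) and the
integration part (steps 5-6).
-/

set_option autoImplicit false
namespace Crest.Agent.S0209
open Crest.ProbabilityR.Continuum MeasureTheory

/-- the decoupled interaction: particles in the same cell (`idx x = idx y`) interact through
`(1-χ) q - c`, particles in different cells do not interact. -/
noncomputable def Vcell {ι : Type*} [DecidableEq ι] (idx : Pt → ι) (q : ℝ → ℝ) (χ c : ℝ) :
    Pt → Pt → ℝ :=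
  fun x y => if idx x = idx y then (1 - χ) * q (dist x y) - c else 0

/-- origin of the `τ`-grid of Lemma L (planes at `x_i = 2 w τ_i + w (mod l)`). -/
noncomputable def gridO (w : ℕ) (τ : Fin 3 → ℕ) : Fin 3 → ℝ := fun i => 2 * w * τ i + w

/-- slab index of a coordinate value `y`: `(⌊y⌋ mod l) / (2 w)`, `l = 2 w mt`
(a number in `{0, …, mt-1}`). -/
noncomputable def slabIdx (w mt : ℕ) (y : ℝ) : ℤ := (⌊y⌋ % (2 * w * mt : ℤ)) / (2 * w : ℤ)

/-- hypotheses on the short range part `q = q0 - W` (verbatim from `notes/ROW149_Iface2`). -/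
structure Short (q0 W : ℝ → ℝ) (e0 C' : ℝ) (w : ℕ) : Prop where
  meas0 : Measurable q0
  measW : Measurable W
  q0_nonneg : ∀ r, 0 ≤ q0 r
  q0_ge : ∀ r, 0 ≤ r → r ≤ 7 / 8 → e0 ≤ q0 r
  W_nonneg : ∀ r, 0 ≤ W r
  W_range : ∀ r, (w : ℝ) ≤ r → W r = 0
  W_le : ∀ (N : ℕ) (x : Fin N → Pt), energy W x ≤ C' * Qf x
  w_pos : 1 ≤ w
  C'_nonneg : 0 ≤ C'
  C'_lt : C' < e0 / 2

end Crest.Agent.S0209

/-- Realise the auto-generated equation lemmas once, in this (defining / root) module, so that
sibling modules of one import closure do not each create their own copy of the same name. -/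
theorem Crest.Agent.S0209.eqns_realised_LDefs : True := by
  have := @Crest.Agent.S0209.gridO.eq_1
  have := @Crest.Agent.S0209.slabIdx.eq_1
  have := @Crest.Agent.S0209.Vcell.eq_1.{0}
  trivial
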