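import Crest.Agent.S0209_Kernel
import Crest.Agent.S0209_LDefs

/-!
# ROW 149, Lemma L, deterministic part (steps 1-4): definitions

The double-sum notation used by the sub-packages (`Short` lives in `S0209_LDefs`) of `lemmaL_det` (`notes/ROW149_IfaceLdet.lean.txt`).
-/

set_option autoImplicit false
namespace Crest.Agent.S0209
open Crest.ProbabilityR.Continuum MeasureTheory

namespace Ldet

/-- off-diagonal double sum of `φ (dist (x a) (x b))` over the ordered pairs of a subset `S` of
the particles (`= 2 ×` the energy of the sub-configuration). -/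
noncomputable def DS (φ : ℝ → ℝ) {N : ℕ} (x : Fin N → Pt) (S : Finset (Fin N)) : ℝ :=
  ∑ a ∈ S, ∑ b ∈ S, if a = b then 0 else φ (dist (x a) (x b))

/-- `Qf` of the sub-configuration `S`. -/
noncomputable def QS {N : ℕ} (x : Fin N → Pt) (S : Finset (Fin N)) : ℝ :=
  ∑ a ∈ S, ∑ b ∈ S, if sq (x a) = sq (x b) then (1 : ℝ) else 0

/-- index (in `[0, mt)`) of the slab of width `2 w` orthogonal to the axis `i` containing `y`,
modulo the period `l = 2 w mt`. -/
noncomputable def slab (w mt : ℕ) (i : Fin 3) (y : Pt) : ℤ := ⌊y i / (2 * w)⌋ % mt

end Ldet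

end Crest.Agent.S0209

/-- Realise the auto-generated equation lemmas once, in this (defining / root) module, so that
sibling modules of one import closure do not each create their own copy of the same name. -/
theorem Crest.Agent.S0209.eqns_realised_LdetDefs : True := by
  have := @Crest.Agent.S0209.Ldet.slab.eq_1
  have := @Crest.Agent.S0209.Ldet.QS.eq_1
  have := @Crest.Agent.S0209.Ldet.DS.eq_1
  trivial
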