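import Crest.Agent.S0209_LdetSum

/-!
# ROW 149, Lemma L, deterministic part, package D1: restriction to a subset of the particles
-/

set_option autoImplicit false
namespace Crest.Agent.S0209
open Crest.ProbabilityR.Continuum MeasureTheory
namespace Ldet

namespace Restr

theorem sum_reindex {N : ℕ} (S : Finset (Fin N)) (G : Fin N → Fin N → ℝ) :
    ∑ k : Fin S.card, ∑ k' : Fin S.card,
        G (S.equivFin.symm k : Fin N) (S.equivFin.symm k' : Fin N) =
      ∑ a ∈ S, ∑ b ∈ S, G a b := by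
  rw [Equiv.sum_comp S.equivFin.symm (fun a : S => ∑ k' : Fin S.card,
    G (a : Fin N) (S.equivFin.symm k' : Fin N))]
  rw [Finset.sum_coe_sort S (fun a => ∑ k' : Fin S.card, G a (S.equivFin.symm k' : Fin N))]
  refine Finset.sum_congr rfl fun a _ => ?_
  rw [Equiv.sum_comp S.equivFin.symm (fun b : S => G a (b : Fin N))]
  rw [Finset.sum_coe_sort S (fun b => G a b)]

theorem sq_eq_cellIdx (y : Pt) : sq y = cellIdx (1 / 2) 0 y := by
  funext i
  simp only [sq, cellIdx, Pi.zero_apply, sub_zero]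
  congr 1
  ring

theorem dist_le_of_sq {y z : Pt} (h : sq y = sq z) : dist y z ≤ 7 / 8 := by
  have h1 := dist_le_of_cellIdx (s := 1 / 2) (by norm_num) 0 y z
  rw [← sq_eq_cellIdx, ← sq_eq_cellIdx, h, sub_self] at h1
  have h2 : nrm 0 = 0 := by simp [nrm]
  rw [h2] at h1
  have h3 : Real.sqrt 3 ≤ 7 / 4 := by
    rw [Real.sqrt_le_left (by norm_num)]
    norm_num
  linarith

end Restr

theorem exists_restrict {N : ℕ} (x : Fin N → Pt) (S : Finset (Fin N)) :
    ∃ y : Fin S.card → Pt, (∀ φ : ℝ → ℝ, 2 * energy φ y = DS φ x S) ∧ Qf y = QS x S := by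
  refine ⟨fun k => x (S.equivFin.symm k : Fin N), fun φ => ?_, ?_⟩
  · rw [two_energy]
    unfold DS
    rw [← Restr.sum_reindex S (fun a b => if a = b then 0 else φ (dist (x a) (x b)))]
    refine Finset.sum_congr rfl fun k _ => Finset.sum_congr rfl fun k' _ => ?_
    by_cases h : k = k'
    · simp [h]
    · have h' : ¬ ((S.equivFin.symm k : Fin N) = (S.equivFin.symm k' : Fin N)) := by
        intro hh
        exact h (S.equivFin.symm.injective (Subtype.ext hh))
      simp [h, h']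
  · unfold Qf QS
    rw [← Restr.sum_reindex S (fun a b => if sq (x a) = sq (x b) then (1 : ℝ) else 0)]

theorem W_le_S {q0 W : ℝ → ℝ} {e0 C' : ℝ} {w : ℕ} (h : Short q0 W e0 C' w) {N : ℕ}
    (x : Fin N → Pt) (S : Finset (Fin N)) : DS W x S ≤ 2 * C' * QS x S := by
  obtain ⟨y, h1, h2⟩ := exists_restrict x S
  rw [← h1 W, ← h2]
  have := h.W_le _ y
  linarith

theorem core_S {q0 : ℝ → ℝ} {e0 : ℝ} (h0 : ∀ r, 0 ≤ q0 r)
    (h1 : ∀ r, 0 ≤ r → r ≤ 7 / 8 → e0 ≤ q0 r) {N : ℕ} (x : Fin N → Pt) (S : Finset (Fin N)) :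
    e0 * (QS x S - S.card) ≤ DS q0 x S := by
  have hcard : (S.card : ℝ) = ∑ a ∈ S, ∑ b ∈ S, if a = b then (1 : ℝ) else 0 := by
    rw [Finset.card_eq_sum_ones, Nat.cast_sum]
    refine Finset.sum_congr rfl fun a ha => ?_
    rw [Finset.sum_ite_eq S a]
    simp [ha]
  rw [hcard]
  unfold QS DS
  rw [← Finset.sum_sub_distrib, Finset.mul_sum]
  refine Finset.sum_le_sum fun a _ => ?_
  rw [← Finset.sum_sub_distrib, Finset.mul_sum]
  refine Finset.sum_le_sum fun b _ => ?_
  by_cases hab : a = b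
  · simp [hab]
  · by_cases hs : sq (x a) = sq (x b)
    · simp only [hs, hab, if_true, if_false, sub_zero, mul_one]
      exact h1 _ dist_nonneg (Restr.dist_le_of_sq hs)
    · simp only [hs, hab, if_false, sub_zero, mul_zero]
      exact h0 _

end Ldet
end Crest.Agent.S0209
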