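import Crest.Agent.S0209_LdetDefs

/-!
# ROW 149, Lemma L, deterministic part, package D0: double sums
-/

set_option autoImplicit false
namespace Crest.Agent.S0209
open Crest.ProbabilityR.Continuum MeasureTheory
namespace Ldet

theorem En_eq_double (V : Pt → Pt → ℝ) {N : ℕ} (x : Fin N → Pt) :
    En V x = ∑ i : Fin N, ∑ j : Fin N, if i < j then V (x i) (x j) else 0 := by
  unfold En
  rw [← Finset.sum_product', Finset.univ_product_univ]
  rw [← Finset.sum_filter]
  rw [← Finset.sum_subtype (Finset.univ.filter fun p : Fin N × Fin N => p.1 < p.2)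
    (fun p => by simp) (fun p => V (x p.1) (x p.2))]

theorem two_En (V : Pt → Pt → ℝ) (hV : ∀ y z, V y z = V z y) {N : ℕ} (x : Fin N → Pt) :
    2 * En V x = ∑ a : Fin N, ∑ b : Fin N, if a = b then 0 else V (x a) (x b) := by
  have h1 := En_eq_double V x
  have h2 : En V x = ∑ i : Fin N, ∑ j : Fin N, if j < i then V (x i) (x j) else 0 := by
    rw [h1, Finset.sum_comm]
    refine Finset.sum_congr rfl fun i _ => Finset.sum_congr rfl fun j _ => ?_
    rw [hV]
  have h3 : 2 * En V x = En V x + En V x := by ring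
  rw [h3]
  nth_rewrite 1 [h1]
  rw [h2, ← Finset.sum_add_distrib]
  refine Finset.sum_congr rfl fun i _ => ?_
  rw [← Finset.sum_add_distrib]
  refine Finset.sum_congr rfl fun j _ => ?_
  rcases lt_trichotomy i j with h | h | h
  · simp [h, h.ne, not_lt.2 h.le]
  · simp [h]
  · simp [h, h.ne', not_lt.2 h.le]

theorem two_energy (φ : ℝ → ℝ) {N : ℕ} (x : Fin N → Pt) :
    2 * energy φ x = DS φ x Finset.univ := by
  rw [energy_eq_En, two_En (rad φ) (fun y z => by simp [rad, dist_comm])]
  rfl

theorem sum_same_eq {ι : Type*} [DecidableEq ι] {N : ℕ} (idx : Fin N → ι)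
    (F : Fin N → Fin N → ℝ) :
    ∑ a : Fin N, ∑ b : Fin N, (if idx a = idx b then F a b else 0) =
      ∑ c ∈ Finset.univ.image idx, ∑ a ∈ Finset.univ.filter (fun a => idx a = c),
        ∑ b ∈ Finset.univ.filter (fun a => idx a = c), F a b := by
  rw [← Finset.sum_fiberwise_of_maps_to (s := Finset.univ) (t := Finset.univ.image idx)
    (g := idx) (fun a _ => Finset.mem_image_of_mem idx (Finset.mem_univ a))]
  refine Finset.sum_congr rfl fun c _ => Finset.sum_congr rfl fun a ha => ?_
  rw [Finset.mem_filter] at ha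
  rw [Finset.sum_filter]
  refine Finset.sum_congr rfl fun b _ => ?_
  rw [ha.2]
  by_cases h : idx b = c
  · simp [h]
  · simp [h, Ne.symm h]

theorem sum_card_fiber {ι : Type*} [DecidableEq ι] {N : ℕ} (idx : Fin N → ι) :
    ∑ c ∈ Finset.univ.image idx, ((Finset.univ.filter (fun a => idx a = c)).card : ℝ) = N := by
  have h := Finset.card_eq_sum_card_image idx (Finset.univ : Finset (Fin N))
  rw [Finset.card_univ, Fintype.card_fin] at h
  rw [← Nat.cast_sum, ← h]

end Ldet
end Crest.Agent.S0209
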