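import Crest.Agent.S0209_LDefs
import Crest.Agent.S0209_Conv
import Crest.Agent.S0209_Basic

/-!
# ROW 149, Lemma L, steps 5-6 (integration part), in abstract form

`idx : Pt → ι` is any measurable "cell index" map.
-/

set_option autoImplicit false
namespace Crest.Agent.S0209
open Crest.ProbabilityR.Continuum MeasureTheory Finset

namespace L56

/-- number of pairs `i < j`: crude bound. -/
theorem card_pairs_le (n : ℕ) :
    (Fintype.card {p : Fin n × Fin n // p.1 < p.2} : ℝ) ≤ (n : ℝ) ^ 2 / 2 := by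
  classical
  have h1 : Fintype.card {p : Fin n × Fin n // p.1 < p.2}
      = ((univ : Finset (Fin n × Fin n)).filter (fun p => p.1 < p.2)).card :=
    Fintype.card_subtype _
  have h2 : ((univ : Finset (Fin n × Fin n)).filter (fun p => p.1 < p.2)).card
      = ((univ : Finset (Fin n × Fin n)).filter (fun p => p.2 < p.1)).card := by
    refine Finset.card_bij (fun p _ => (p.2, p.1)) ?_ ?_ ?_
    · intro p hp; simpa using hp
    · intro p _ p' _ h
      simp only [Prod.mk.injEq] at h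
      exact Prod.ext h.2 h.1
    · intro p hp
      exact ⟨(p.2, p.1), by simpa using hp, rfl⟩
  have h3 : Disjoint ((univ : Finset (Fin n × Fin n)).filter (fun p => p.1 < p.2))
      ((univ : Finset (Fin n × Fin n)).filter (fun p => p.2 < p.1)) := by
    rw [Finset.disjoint_filter]
    intro p _ h h'
    exact lt_asymm h h'
  have h4 : (((univ : Finset (Fin n × Fin n)).filter (fun p => p.1 < p.2)) ∪
      ((univ : Finset (Fin n × Fin n)).filter (fun p => p.2 < p.1))).card ≤ n * n := by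
    refine (Finset.card_le_univ _).trans ?_
    simp
  rw [Finset.card_union_of_disjoint h3, ← h2] at h4
  rw [h1]
  have h5 : (2 : ℝ) * (((univ : Finset (Fin n × Fin n)).filter (fun p => p.1 < p.2)).card : ℝ)
      ≤ (n : ℝ) * n := by exact_mod_cast (by omega : 2 * _ ≤ n * n)
  nlinarith

section
variable {ι : Type*} [DecidableEq ι] [MeasurableSpace ι] [MeasurableEq ι]

theorem measurable_Vcell {idx : Pt → ι} (hidx : Measurable idx) {q : ℝ → ℝ} (hq : Measurable q)
    (χ c : ℝ) : Measurable (Function.uncurry (Vcell idx q χ c)) := by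
  unfold Vcell Function.uncurry
  refine Measurable.ite ?_ ?_ measurable_const
  · exact measurableSet_eq_fun (hidx.comp measurable_fst) (hidx.comp measurable_snd)
  · exact ((hq.comp (measurable_fst.dist measurable_snd)).const_mul _).sub_const _

end

section
variable {ι : Type*} [DecidableEq ι]

/-- the energy of `Vcell` for a configuration inside one cell. -/
theorem En_Vcell_same (idx : Pt → ι) (q : ℝ → ℝ) (χ c : ℝ) {n : ℕ} (x : Fin n → Pt)
    (hx : ∀ i j, idx (x i) = idx (x j)) :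
    En (Vcell idx q χ c) x = (1 - χ) * En (rad q) x
      - c * Fintype.card {p : Fin n × Fin n // p.1 < p.2} := by
  unfold En Vcell rad
  have : ∀ p : {p : Fin n × Fin n // p.1 < p.2},
      (if idx (x p.1.1) = idx (x p.1.2) then (1 - χ) * q (dist (x p.1.1) (x p.1.2)) - c else 0)
        = (1 - χ) * q (dist (x p.1.1) (x p.1.2)) - c := fun p => if_pos (hx _ _)
  simp only [this, Finset.sum_sub_distrib, Finset.mul_sum, Finset.sum_const,
    Finset.card_univ, nsmul_eq_mul]
  ring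

/-- crude lower bound of the energy of `Vcell` for all configurations. -/
theorem En_Vcell_ge (idx : Pt → ι) {q : ℝ → ℝ} {B : ℝ} (hq : Good q B) {χ c : ℝ} (hχ : χ ≤ 1)
    (hc : 0 ≤ c) {n : ℕ} (x : Fin n → Pt) :
    -(((1 - χ) * (2 * |B|) + c) * ((n : ℝ) ^ 2 / 2)) ≤ En (Vcell idx q χ c) x := by
  have hq2 : ∀ y z : Pt, -(2 * |B|) ≤ q (dist y z) := by
    intro y z
    have := hq.stable 2 ![y, z]
    have e : energy q ![y, z] = q (dist y z) := by
      unfold energy
      have : (univ : Finset {p : Fin 2 × Fin 2 // p.1 < p.2}) = {⟨(0, 1), by decide⟩} := by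
        decide
      rw [this]
      simp
    rw [e] at this
    have h2 := le_abs_self B
    push_cast at this
    linarith
  have hM : 0 ≤ (1 - χ) * (2 * |B|) + c := by
    have : 0 ≤ (1 - χ) * (2 * |B|) := mul_nonneg (by linarith) (by positivity)
    linarith
  have hterm : ∀ p : {p : Fin n × Fin n // p.1 < p.2},
      -((1 - χ) * (2 * |B|) + c) ≤ Vcell idx q χ c (x p.1.1) (x p.1.2) := by
    intro p
    unfold Vcell
    split_ifs
    · have := mul_le_mul_of_nonneg_left (hq2 (x p.1.1) (x p.1.2)) (by linarith : 0 ≤ 1 - χ)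
      linarith
    · linarith
  calc -(((1 - χ) * (2 * |B|) + c) * ((n : ℝ) ^ 2 / 2))
      ≤ -(((1 - χ) * (2 * |B|) + c) * Fintype.card {p : Fin n × Fin n // p.1 < p.2}) := by
        have := mul_le_mul_of_nonneg_left (card_pairs_le n) hM
        linarith
    _ = ∑ _p : {p : Fin n × Fin n // p.1 < p.2}, -((1 - χ) * (2 * |B|) + c) := by
        simp only [Finset.sum_const, Finset.card_univ, nsmul_eq_mul]; ring
    _ ≤ _ := Finset.sum_le_sum (fun p _ => hterm p)

end

section
variable {ι : Type*} [DecidableEq ι] [MeasurableSpace ι] [MeasurableEq ι]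

theorem integrableOn_Vcell {idx : Pt → ι} (hidx : Measurable idx) {q : ℝ → ℝ} {B : ℝ}
    (hq : Good q B) {χ c : ℝ} (hχ : χ ≤ 1) (hc : 0 ≤ c) {β : ℝ} (hβ : 0 ≤ β) {Λ : Set Pt}
    (hΛ : MeasurableSet Λ) (hvol : volume Λ < ⊤) (n : ℕ) :
    IntegrableOn (fun x : Fin n → Pt => Real.exp (-β * En (Vcell idx q χ c) x))
      (Set.pi Set.univ (fun _ : Fin n => Λ)) :=
  integrableOn_exp_En (measurable_Vcell hidx hq.meas χ c) hΛ hvol hβ
    (fun x _ => En_Vcell_ge idx hq hχ hc x)

/-- partition function of `Vcell` on (a measurable part of) one cell. -/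
theorem Zg_Vcell_cell_le {idx : Pt → ι} (hidx : Measurable idx) {q : ℝ → ℝ} {B : ℝ}
    (hq : Good q B) {χ c : ℝ} (hχ : χ ≤ 1) (hc : 0 ≤ c) {l β : ℝ} (hβ : 0 ≤ β) {Λ : Set Pt}
    (hΛ : MeasurableSet Λ) (c₀ : ι) (hΛc : ∀ x ∈ Λ, idx x = c₀) (a : Pt)
    (ha : ∀ x ∈ Λ, x + a ∈ cube l) (n : ℕ) :
    Zg (Vcell idx q χ c) Λ n β ≤
      Real.exp (β * c * (n : ℝ) ^ 2 / 2) * partitionFn q l n ((1 - χ) * β) := by
  have hβ' : 0 ≤ (1 - χ) * β := mul_nonneg (by linarith) hβ
  set Λ' : Set Pt := (fun x => x + a) ⁻¹' cube l with hΛ'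
  have hsub : Λ ⊆ Λ' := fun x hx => ha x hx
  have hΛ'm : MeasurableSet Λ' := (measurable_add_const a) (measurableSet_cube l)
  have hΛ'v : volume Λ' < ⊤ := by
    rw [hΛ', measure_preimage_add_right]
    exact volume_cube_lt_top l
  have hΛv : volume Λ < ⊤ := lt_of_le_of_lt (measure_mono hsub) hΛ'v
  have hint' : IntegrableOn (fun x : Fin n → Pt => Real.exp (-((1 - χ) * β) * En (rad q) x))
      (Set.pi Set.univ (fun _ : Fin n => Λ')) :=
    integrableOn_exp_En (measurable_rad hq.meas) hΛ'm hΛ'v hβ' (fun x _ => hq.En_ge x)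
  have h1 : Zg (Vcell idx q χ c) Λ n β ≤
      Real.exp (β * c * (n : ℝ) ^ 2 / 2) * Zg (rad q) Λ n ((1 - χ) * β) := by
    refine Zg_le_Zg_of_En_le hΛ (integrableOn_Vcell hidx hq hχ hc hβ hΛ hΛv n)
      (hint'.mono_set (Set.pi_mono (fun _ _ => hsub))) (fun x hx => ?_)
    rw [En_Vcell_same idx q χ c x (fun i j => by rw [hΛc _ (hx i), hΛc _ (hx j)])]
    have := mul_le_mul_of_nonneg_left (card_pairs_le n) (mul_nonneg hβ hc)
    nlinarith
  refine h1.trans (mul_le_mul_of_nonneg_left ?_ (Real.exp_pos _).le)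
  rw [partitionFn_eq_Zg, ← Zg_translate a (rad_translate q a) (cube l)]
  exact Zg_mono_set hsub hint'

end

theorem geom_bound {θ : ℝ} (hθ : 0 < θ) (S : ℝ) (N : ℕ) :
    ∑ n ∈ range (N + 1), Real.exp (S - θ * n) ≤ Real.exp S * (1 / (1 - Real.exp (-θ))) := by
  have hr0 : 0 ≤ Real.exp (-θ) := (Real.exp_pos _).le
  have hr1 : Real.exp (-θ) < 1 := by rw [Real.exp_lt_one_iff]; linarith
  have h1 : ∀ n : ℕ, Real.exp (S - θ * n) = Real.exp S * Real.exp (-θ) ^ n := by
    intro n
    rw [← Real.exp_nat_mul, ← Real.exp_add]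
    congr 1
    ring
  simp only [h1, ← Finset.mul_sum]
  refine mul_le_mul_of_nonneg_left ?_ (Real.exp_pos _).le
  rw [one_div]
  exact sum_le_hasSum _ (fun i _ => pow_nonneg hr0 i) (hasSum_geometric_of_lt_one hr0 hr1)

section
variable {ι : Type*} [DecidableEq ι] [MeasurableSpace ι] [MeasurableEq ι]

/-- step 6 for one grid. -/
theorem step6 {idx : Pt → ι} (hidx : Measurable idx) {q : ℝ → ℝ} {B : ℝ}
    (hq : Good q B) {χ c : ℝ} (hχ : χ ≤ 1) (hc : 0 ≤ c) {l L β μ θ S : ℝ} (hl : 0 < l)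
    (hβ : 0 ≤ β) (hθ : 0 < θ)
    (hcell : ∀ c₀ : ι, ∃ a : Pt, ∀ x, idx x = c₀ → x + a ∈ cube l)
    (I : Finset ι) (hI : ∀ x ∈ cube L, idx x ∈ I)
    (hS : ∀ n : ℕ, (μ + θ) * n + Real.log (partitionFn q l n ((1 - χ) * β))
      + β * c * (n : ℝ) ^ 2 / 2 ≤ S) (N : ℕ) :
    Real.exp (μ * N) * Zg (Vcell idx q χ c) (cube L) N β ≤
      (Real.exp S * (1 / (1 - Real.exp (-θ)))) ^ I.card := by
  have hβ' : 0 ≤ (1 - χ) * β := mul_nonneg (by linarith) hβ
  have hcube : cube L = ⋃ c₀ ∈ I, (cube L ∩ idx ⁻¹' {c₀}) := by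
    ext x
    simp only [Set.mem_iUnion, Set.mem_inter_iff, Set.mem_preimage, Set.mem_singleton_iff,
      exists_prop]
    constructor
    · intro hx
      exact ⟨idx x, hI x hx, hx, rfl⟩
    · rintro ⟨_, _, hx, _⟩
      exact hx
  have hmeas : ∀ c₀ ∈ I, MeasurableSet (cube L ∩ idx ⁻¹' {c₀}) := fun c₀ _ =>
    (measurableSet_cube L).inter (hidx (measurableSet_singleton c₀))
  have key := Zg_biUnion_le (measurable_Vcell hidx hq.meas χ c) I
    (fun c₀ => cube L ∩ idx ⁻¹' {c₀}) hmeas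
    (by
      intro c₁ _ c₂ _ hne
      rw [Set.disjoint_left]
      rintro x ⟨_, h1⟩ ⟨_, h2⟩
      exact hne (h1.symm.trans h2))
    (by
      intro c₁ _ c₂ _ hne a ha b hb
      unfold Vcell
      rw [if_neg]
      rw [show idx a = c₁ from ha.2, show idx b = c₂ from hb.2]
      exact hne) μ β N
  rw [← hcube] at key
  refine key.trans ?_
  rw [← Finset.prod_const]
  refine Finset.prod_le_prod (fun c₀ _ => Finset.sum_nonneg (fun n _ =>
    mul_nonneg (Real.exp_pos _).le (Zg_nonneg _ _ _ _))) (fun c₀ hc₀ => ?_)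
  refine le_trans (Finset.sum_le_sum (fun n _ => ?_)) (geom_bound hθ S N)
  obtain ⟨a, ha⟩ := hcell c₀
  have h1 := Zg_Vcell_cell_le hidx hq hχ hc (l := l) hβ (hmeas c₀ hc₀) c₀ (fun x hx => hx.2) a
    (fun x hx => ha x hx.2) n
  have hZ : 0 < partitionFn q l n ((1 - χ) * β) := Z_pos hq hl hβ' n
  calc Real.exp (μ * n) * Zg (Vcell idx q χ c) (cube L ∩ idx ⁻¹' {c₀}) n β
      ≤ Real.exp (μ * n) * (Real.exp (β * c * (n : ℝ) ^ 2 / 2) *
          partitionFn q l n ((1 - χ) * β)) := mul_le_mul_of_nonneg_left h1 (Real.exp_pos _).le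
    _ = Real.exp (μ * n + β * c * (n : ℝ) ^ 2 / 2 +
          Real.log (partitionFn q l n ((1 - χ) * β))) := by
        rw [Real.exp_add, Real.exp_add, Real.exp_log hZ]; ring
    _ ≤ Real.exp (S - θ * n) := by
        apply Real.exp_le_exp.2
        have := hS n
        linarith

end

/-- step 5: domination by a finite sum of decoupled partition functions. -/
theorem step5 {φ : ℝ → ℝ} {B' : ℝ} (hφ : Good φ B') {σ : Type*} (T : Finset σ)
    (V : σ → Pt → Pt → ℝ) {L β K : ℝ} (hβ : 0 ≤ β) {N : ℕ}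
    (hint : ∀ t ∈ T, IntegrableOn (fun x : Fin N → Pt => Real.exp (-β * En (V t) x))
      (Set.pi Set.univ (fun _ : Fin N => cube L)))
    (hdet : ∀ x : Fin N → Pt, ∃ t ∈ T, En (V t) x - K * N ≤ energy φ x) :
    partitionFn φ L N β ≤ Real.exp (β * K * N) * ∑ t ∈ T, Zg (V t) (cube L) N β := by
  unfold partitionFn Zg
  rw [← Finset.mul_sum, mul_left_comm]
  refine mul_le_mul_of_nonneg_left ?_ (by positivity)
  rw [← integral_finsetSum T hint, ← integral_const_mul]
  refine integral_mono (hφ.integrableOn L hβ N) ((integrable_finsetSum T hint).const_mul _)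
    (fun x => ?_)
  obtain ⟨t, ht, hx⟩ := hdet x
  calc Real.exp (-β * energy φ x) ≤ Real.exp (β * K * N + -β * En (V t) x) := by
        apply Real.exp_le_exp.2
        have := mul_le_mul_of_nonneg_left hx hβ
        linarith
    _ = Real.exp (β * K * N) * Real.exp (-β * En (V t) x) := Real.exp_add _ _
    _ ≤ Real.exp (β * K * N) * ∑ t ∈ T, Real.exp (-β * En (V t) x) := by
        refine mul_le_mul_of_nonneg_left ?_ (Real.exp_pos _).le
        exact Finset.single_le_sum (f := fun t => Real.exp (-β * En (V t) x))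
          (fun i _ => (Real.exp_pos _).le) ht

end L56

open L56 in
/-- Lemma L, steps 5-6, abstract form: `T` a finite family of grids `idx t`, every cell of every grid
fits into a translate of `cube l`, `cube L` meets at most `D` cells of each grid, and for every
configuration one of the grids satisfies the deterministic inequality `hdet`. -/
theorem lemmaL_abstract {ι : Type*} [DecidableEq ι] [MeasurableSpace ι] [MeasurableEq ι]
    {σ : Type*} (T : Finset σ) (idx : σ → Pt → ι) (hidx : ∀ t ∈ T, Measurable (idx t))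
    {q φ : ℝ → ℝ} {B B' : ℝ} (hq : Good q B) (hφ : Good φ B')
    {χ c K : ℝ} (hχ : χ ≤ 1) (hc : 0 ≤ c) {l L β μ θ S D : ℝ} (hl : 0 < l) (hL : 0 < L)
    (hβ : 0 ≤ β) (hθ : 0 < θ)
    (hcell : ∀ t ∈ T, ∀ c₀ : ι, ∃ a : Pt, ∀ x, idx t x = c₀ → x + a ∈ cube l)
    (hI : ∀ t ∈ T, ∃ I : Finset ι, (∀ x ∈ cube L, idx t x ∈ I) ∧ (I.card : ℝ) ≤ D)
    (hS : ∀ n : ℕ, (μ + θ) * n + Real.log (partitionFn q l n ((1 - χ) * β))
      + β * c * (n : ℝ) ^ 2 / 2 ≤ S) (N : ℕ)
    (hdet : ∀ x : Fin N → Pt, ∃ t ∈ T, En (Vcell (idx t) q χ c) x - K * N ≤ energy φ x) :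
    Real.log (partitionFn φ L N β) ≤
      -μ * N + D * (S + Real.log (1 / (1 - Real.exp (-θ)))) + β * K * N + Real.log T.card := by
  have hr1 : Real.exp (-θ) < 1 := by rw [Real.exp_lt_one_iff]; linarith
  have hr0 : 0 < Real.exp (-θ) := Real.exp_pos _
  have hg1 : 1 ≤ 1 / (1 - Real.exp (-θ)) := by
    rw [le_div_iff₀ (by linarith)]; linarith
  have hg0 : 0 < 1 / (1 - Real.exp (-θ)) := by linarith
  have hS0 : 0 ≤ S := by
    have := hS 0
    simpa [Z_zero] using this
  have hlogg : 0 ≤ Real.log (1 / (1 - Real.exp (-θ))) := Real.log_nonneg hg1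
  set Ξ : ℝ := S + Real.log (1 / (1 - Real.exp (-θ))) with hΞ
  have hΞ0 : 0 ≤ Ξ := by positivity
  have hΞe : Real.exp S * (1 / (1 - Real.exp (-θ))) = Real.exp Ξ := by
    rw [hΞ, Real.exp_add, Real.exp_log hg0]
  have h5 := step5 hφ T (fun t => Vcell (idx t) q χ c) (L := L) (K := K) hβ (N := N)
    (fun t ht => integrableOn_Vcell (hidx t ht) hq hχ hc hβ (measurableSet_cube L)
      (volume_cube_lt_top L) N) hdet
  have h6 : ∀ t ∈ T, Zg (Vcell (idx t) q χ c) (cube L) N β ≤ Real.exp (-μ * N + D * Ξ) := by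
    intro t ht
    obtain ⟨I, hI1, hI2⟩ := hI t ht
    have := step6 (hidx t ht) hq hχ hc hl hβ hθ (hcell t ht) I hI1 hS N
    rw [hΞe, ← Real.exp_nat_mul] at this
    have h7 : Real.exp (I.card * Ξ) ≤ Real.exp (D * Ξ) :=
      Real.exp_le_exp.2 (mul_le_mul_of_nonneg_right hI2 hΞ0)
    have h8 : Zg (Vcell (idx t) q χ c) (cube L) N β
        = Real.exp (-μ * N) * (Real.exp (μ * N) * Zg (Vcell (idx t) q χ c) (cube L) N β) := by
      rw [← mul_assoc, ← Real.exp_add]
      simp
    rw [h8, Real.exp_add]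
    exact mul_le_mul_of_nonneg_left (this.trans h7) (Real.exp_pos _).le
  have hZ : 0 < partitionFn φ L N β := Z_pos hφ hL hβ N
  have h9 : partitionFn φ L N β ≤ Real.exp (β * K * N) * (T.card * Real.exp (-μ * N + D * Ξ)) := by
    refine h5.trans (mul_le_mul_of_nonneg_left ?_ (Real.exp_pos _).le)
    calc ∑ t ∈ T, Zg (Vcell (idx t) q χ c) (cube L) N β
        ≤ ∑ _t ∈ T, Real.exp (-μ * N + D * Ξ) := Finset.sum_le_sum h6
      _ = T.card * Real.exp (-μ * N + D * Ξ) := by rw [Finset.sum_const, nsmul_eq_mul]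
  have hT : 0 < (T.card : ℝ) := by
    by_contra hcon
    have : (T.card : ℝ) = 0 := le_antisymm (not_lt.1 hcon) (Nat.cast_nonneg _)
    rw [this] at h9
    simp at h9
    linarith
  have h10 := Real.log_le_log hZ h9
  rw [Real.log_mul (Real.exp_pos _).ne' (by positivity), Real.log_exp,
    Real.log_mul hT.ne' (Real.exp_pos _).ne', Real.log_exp] at h10
  linarith

end Crest.Agent.S0209
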