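import Crest.Agent.S0209_Blocks
import Crest.Agent.S0209_Kernel

/-!
# ROW 149, package U (core): the uniform pattern (Lebowitz–Penrose lower bound on `Z`),
with the statement of `kernel_lower` (package B) as a hypothesis `KernelLower`.
-/

set_option autoImplicit false
namespace Crest.Agent.S0209
open Crest.ProbabilityR.Continuum MeasureTheory

namespace LemU

/-- the statement of `kernel_lower` (package B) -/
def KernelLower : Prop := ∀ {s R : ℝ}, 0 < s → s ≤ R → ∀ n : ℕ, R ≤ s * n →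
    kap - CB * s / R ≤
      ∑ d ∈ Fintype.piFinset (fun _ : Fin 3 => Finset.Icc (-(n : ℤ)) n),
        s ^ 3 * Kac R (s * nrm d + Real.sqrt 3 * s)

/-- integer vector of a block index -/
def toZ {m : ℕ} (c : Fin 3 → Fin m) : Fin 3 → ℤ := fun i => ((c i : ℕ) : ℤ)

theorem toZ_injective {m : ℕ} : Function.Injective (toZ (m := m)) := by
  intro c c' h
  funext i
  have := congrFun h i
  simp only [toZ] at this
  exact Fin.ext (by exact_mod_cast this)

/-- the lower kernel -/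
noncomputable def km (R s : ℝ) (d : Fin 3 → ℤ) : ℝ := Kac R (s * nrm d + Real.sqrt 3 * s)

theorem km_nonneg {R : ℝ} (hR : 0 < R) (s : ℝ) (d : Fin 3 → ℤ) : 0 ≤ km R s d := Kac_nonneg hR _

/-- interior indices in one dimension -/
def int1 (m n0 : ℕ) : Finset (Fin m) := Finset.univ.filter fun a => n0 ≤ (a : ℕ) ∧ (a : ℕ) + n0 < m

theorem card_int1_ge (m n0 : ℕ) : m ≤ (int1 m n0).card + n0 + n0 := by
  have h : (Finset.Ico n0 (m - n0)).card ≤ (int1 m n0).card := by
    refine Finset.card_le_card_of_surjOn (fun a : Fin m => (a : ℕ)) ?_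
    intro a ha
    simp only [Finset.coe_Ico, Set.mem_Ico] at ha
    refine ⟨⟨a, by omega⟩, ?_, rfl⟩
    simp only [int1, Finset.coe_filter, Finset.mem_univ, true_and, Set.mem_ofPred_eq]
    omega
  rw [Nat.card_Ico] at h
  omega

theorem card_int1_le (m n0 : ℕ) : (int1 m n0).card ≤ m := by
  have := Finset.card_le_univ (int1 m n0)
  simpa using this

theorem inner_sum_ge (KL : KernelLower) {s R : ℝ} (hs : 0 < s) (hsR : s ≤ R) {m n0 : ℕ} (hn0 : R ≤ s * n0)
    (c : Fin 3 → Fin m) (hc : ∀ i, c i ∈ int1 m n0) :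
    (kap - CB * s / R) / s ^ 3 ≤ ∑ c' : Fin 3 → Fin m, km R s (toZ c - toZ c') := by
  have hR : 0 < R := lt_of_lt_of_le hs hsR
  have hk := KL hs hsR n0 hn0
  set box := Fintype.piFinset (fun _ : Fin 3 => Finset.Icc (-(n0 : ℤ)) n0) with hbox
  have hex : ∀ d ∈ box, ∃ c' : Fin 3 → Fin m, toZ c - toZ c' = d := by
    intro d hd
    rw [hbox, Fintype.mem_piFinset] at hd
    have hb : ∀ i, 0 ≤ ((c i : ℕ) : ℤ) - d i ∧ ((c i : ℕ) : ℤ) - d i < m := by
      intro i
      have h1 := hd i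
      have h2 := hc i
      simp only [int1, Finset.mem_filter, Finset.mem_univ, true_and] at h2
      rw [Finset.mem_Icc] at h1
      constructor <;> omega
    refine ⟨fun i => ⟨(((c i : ℕ) : ℤ) - d i).toNat, by have := hb i; omega⟩, ?_⟩
    funext i
    have := hb i
    simp only [toZ, Pi.sub_apply]
    omega
  have : Nonempty (Fin 3 → Fin m) := ⟨c⟩
  choose! e he using hex
  have hinj : Set.InjOn e box := by
    intro d hd d' hd' h
    rw [← he d hd, ← he d' hd', h]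
  have h1 : ∑ d ∈ box, km R s d = ∑ c' ∈ box.image e, km R s (toZ c - toZ c') := by
    rw [Finset.sum_image hinj]
    exact Finset.sum_congr rfl fun d hd => by rw [he d hd]
  have h2 : ∑ c' ∈ box.image e, km R s (toZ c - toZ c')
      ≤ ∑ c' : Fin 3 → Fin m, km R s (toZ c - toZ c') :=
    Finset.sum_le_sum_of_subset_of_nonneg (Finset.subset_univ _) fun _ _ _ => km_nonneg hR _ _
  have h3 : ∑ d ∈ box, s ^ 3 * Kac R (s * nrm d + Real.sqrt 3 * s) = s ^ 3 * ∑ d ∈ box, km R s d := by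
    rw [Finset.mul_sum]; rfl
  rw [h3] at hk
  rw [div_le_iff₀ (by positivity)]
  calc kap - CB * s / R ≤ s ^ 3 * ∑ d ∈ box, km R s d := hk
    _ ≤ s ^ 3 * ∑ c' : Fin 3 → Fin m, km R s (toZ c - toZ c') :=
        mul_le_mul_of_nonneg_left (h1 ▸ h2) (by positivity)
    _ = _ := by ring

theorem sum_km_ge (KL : KernelLower) {s R : ℝ} (hs : 0 < s) (hsR : s ≤ R) (m : ℕ) :
    (m : ℝ) ^ 3 * ((kap - CB * s / R - 12 * kap * R / (s * m)) / s ^ 3)
      ≤ ∑ c : Fin 3 → Fin m, ∑ c' : Fin 3 → Fin m, km R s (toZ c - toZ c') := by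
  have hR : 0 < R := lt_of_lt_of_le hs hsR
  rcases Nat.eq_zero_or_pos m with rfl | hm
  · simp
  have hmR : (0 : ℝ) < m := by exact_mod_cast hm
  set n0 : ℕ := ⌈R / s⌉₊ with hn0
  have hn0a : R ≤ s * n0 := by
    have := Nat.le_ceil (R / s)
    rw [div_le_iff₀ hs] at this
    linarith
  have hn0b : (n0 : ℝ) ≤ 2 * (R / s) := by
    have h1 := Nat.ceil_lt_add_one (a := R / s) (by positivity)
    have h2 : 1 ≤ R / s := by rw [le_div_iff₀ hs]; linarith
    linarith
  set A := kap - CB * s / R with hA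
  set Int := Fintype.piFinset (fun _ : Fin 3 => int1 m n0) with hInt
  set k := (int1 m n0).card with hk
  have hcard : Int.card = k ^ 3 := by
    rw [hInt, Fintype.card_piFinset]; simp [hk]
  have h1 : (k : ℝ) ^ 3 * (A / s ^ 3)
      ≤ ∑ c : Fin 3 → Fin m, ∑ c' : Fin 3 → Fin m, km R s (toZ c - toZ c') := by
    calc (k : ℝ) ^ 3 * (A / s ^ 3) = ∑ c ∈ Int, A / s ^ 3 := by
          rw [Finset.sum_const, hcard, nsmul_eq_mul]; push_cast; ring
      _ ≤ ∑ c ∈ Int, ∑ c' : Fin 3 → Fin m, km R s (toZ c - toZ c') :=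
          Finset.sum_le_sum fun c hc =>
            inner_sum_ge KL hs hsR hn0a c (fun i => (Fintype.mem_piFinset.1 hc) i)
      _ ≤ _ := Finset.sum_le_sum_of_subset_of_nonneg (Finset.subset_univ _)
          fun _ _ _ => Finset.sum_nonneg fun _ _ => km_nonneg hR _ _
  refine le_trans ?_ h1
  have hkm : (k : ℝ) ≤ m := by exact_mod_cast card_int1_le m n0
  have hkm' : (m : ℝ) ≤ k + n0 + n0 := by exact_mod_cast card_int1_ge m n0
  have hk0 : (0 : ℝ) ≤ k := Nat.cast_nonneg _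
  have hn00 : (0 : ℝ) ≤ n0 := Nat.cast_nonneg _
  have hkap := kap_pos
  have hCB : 0 ≤ CB * s / R := by unfold CB; positivity
  -- k^3 ≥ m^3 - 6 n0 m^2
  have hk3 : (m : ℝ) ^ 3 - 6 * n0 * m ^ 2 ≤ (k : ℝ) ^ 3 := by
    by_cases ht : (2 : ℝ) * n0 ≤ m
    · have h2 : (m : ℝ) - 2 * n0 ≤ k := by linarith
      have h3 : ((m : ℝ) - 2 * n0) ^ 3 ≤ (k : ℝ) ^ 3 := pow_le_pow_left₀ (by linarith) h2 3
      nlinarith [mul_nonneg (mul_nonneg hn00 hn00) (by linarith : (0 : ℝ) ≤ 3 * m - 2 * n0)]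
    · push Not at ht
      have : (m : ℝ) ^ 3 - 6 * n0 * m ^ 2 ≤ 0 := by
        have : (m : ℝ) ^ 3 - 6 * n0 * m ^ 2 = m ^ 2 * (m - 6 * n0) := by ring
        rw [this]
        exact mul_nonpos_of_nonneg_of_nonpos (by positivity) (by linarith)
      linarith [pow_nonneg hk0 3]
  have hk3' : (k : ℝ) ^ 3 ≤ (m : ℝ) ^ 3 := pow_le_pow_left₀ hk0 hkm 3
  have hs3 : (0 : ℝ) < s ^ 3 := by positivity
  rw [← mul_div_assoc, ← mul_div_assoc]
  refine div_le_div_of_nonneg_right ?_ hs3.le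
  have hexp : (m : ℝ) ^ 3 * (A - 12 * kap * R / (s * m)) = m ^ 3 * A - 12 * kap * (R / s) * m ^ 2 := by
    field_simp
  rw [hexp]
  have hRs : 0 ≤ R / s := by positivity
  by_cases hA0 : 0 ≤ A
  · have hAk : A ≤ kap := by rw [hA]; linarith
    have h4 : ((m : ℝ) ^ 3 - 6 * n0 * m ^ 2) * A ≤ (k : ℝ) ^ 3 * A :=
      mul_le_mul_of_nonneg_right hk3 hA0
    have h5 : 6 * (n0 : ℝ) * m ^ 2 * A ≤ 12 * kap * (R / s) * m ^ 2 := by
      have h6 : 6 * (n0 : ℝ) * A ≤ 12 * (R / s) * kap := by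
        calc 6 * (n0 : ℝ) * A ≤ 6 * (2 * (R / s)) * A := by
              exact mul_le_mul_of_nonneg_right (by linarith) hA0
          _ ≤ 6 * (2 * (R / s)) * kap := mul_le_mul_of_nonneg_left hAk (by positivity)
          _ = _ := by ring
      nlinarith [sq_nonneg (m : ℝ)]
    nlinarith
  · push Not at hA0
    have h4 : (m : ℝ) ^ 3 * A ≤ (k : ℝ) ^ 3 * A := mul_le_mul_of_nonpos_right hk3' hA0.le
    have h5 : 0 ≤ 12 * kap * (R / s) * (m : ℝ) ^ 2 := by positivity
    linarith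

theorem cellIdx_of_mem_block {l : ℝ} (hl : 0 < l) {m : ℕ} {c : Fin 3 → Fin m} {x : Pt}
    (hx : x ∈ Blk.block l c) : cellIdx (l + 1) 0 x = toZ c := by
  funext i
  have h := (Blk.mem_block.1 hx) i
  simp only [cellIdx, toZ, Pi.zero_apply, sub_zero]
  rw [Int.floor_eq_iff]
  constructor
  · rw [le_div_iff₀ (by linarith)]; push_cast; exact h.1
  · rw [div_lt_iff₀ (by linarith)]; push_cast
    have : (((c i : ℕ) : ℝ) + 1) * (l + 1) = ((c i : ℕ) : ℝ) * (l + 1) + l + 1 := by ring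
    linarith [h.2]

theorem km_le_Kac {l R : ℝ} (hl : 0 < l) (hR : 0 < R) {m : ℕ} {c c' : Fin 3 → Fin m} {x y : Pt}
    (hx : x ∈ Blk.block l c) (hy : y ∈ Blk.block l c') :
    km R (l + 1) (toZ c - toZ c') ≤ Kac R (dist x y) := by
  have h := dist_le_of_cellIdx (s := l + 1) (by linarith) 0 x y
  rw [cellIdx_of_mem_block hl hx, cellIdx_of_mem_block hl hy] at h
  exact Kac_anti hR h

theorem En_sub_const (V : Pt → Pt → ℝ) (hV : ∀ x y, V x y = V y x) (κ : ℝ) {N : ℕ}
    (x : Fin N → Pt) :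
    En (fun a b => V a b - κ) x = En V x - κ * ((N : ℝ) * (N - 1) / 2) := by
  rw [Blk.En_eq_Eo _ (fun a b => by rw [hV]), Blk.En_eq_Eo _ hV]
  unfold Blk.Eo
  have h1 : ∀ i : Fin N, ∑ j : Fin N, (if i = j then 0 else V (x i) (x j) - κ)
      = ∑ j : Fin N, (if i = j then 0 else V (x i) (x j)) - κ * ((N : ℝ) - 1) := by
    intro i
    have h2 : ∑ j : Fin N, (if i = j then (0 : ℝ) else κ) = κ * ((N : ℝ) - 1) := by
      have h3 : ∑ j : Fin N, (if i = j then (0 : ℝ) else κ)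
          = ∑ j : Fin N, (κ - if i = j then κ else 0) := by
        refine Finset.sum_congr rfl fun j _ => ?_
        split_ifs <;> simp
      rw [h3, Finset.sum_sub_distrib]
      simp
      ring
    rw [← h2, ← Finset.sum_sub_distrib]
    refine Finset.sum_congr rfl fun j _ => ?_
    split_ifs <;> simp
  simp_rw [h1]
  rw [Finset.sum_sub_distrib]
  simp
  ring

theorem Zg_sub_const (V : Pt → Pt → ℝ) (hV : ∀ x y, V x y = V y x) (κ : ℝ) (Λ : Set Pt) (N : ℕ)
    (β : ℝ) :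
    Zg (fun a b => V a b - κ) Λ N β
      = Real.exp (β * κ * ((N : ℝ) * (N - 1) / 2)) * Zg V Λ N β := by
  unfold Zg
  have : ∀ x : Fin N → Pt, Real.exp (-β * En (fun a b => V a b - κ) x)
      = Real.exp (β * κ * ((N : ℝ) * (N - 1) / 2)) * Real.exp (-β * En V x) := by
    intro x
    rw [En_sub_const V hV, ← Real.exp_add]
    congr 1
    ring
  simp_rw [this]
  rw [integral_const_mul]
  ring

theorem lemmaU_core (KL : KernelLower) {q : ℝ → ℝ} {B' α R l L β : ℝ}
    (hφ : Good (fun r => q r - α * Kac R r) B') (hneg : ∀ r, 1 ≤ r → q r ≤ 0)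
    (hα : 0 ≤ α) (hl : 0 < l) (hlR : l + 1 ≤ R) (hβ : 0 ≤ β) (m : ℕ) (hm : m * (l + 1) ≤ L + 1)
    (n : ℕ) :
    (partitionFn q l n β) ^ (m ^ 3) *
      Real.exp (β * α * m ^ 3 * ((n : ℝ) ^ 2 / 2 *
          ((kap - CB * (l + 1) / R - 12 * kap * R / ((l + 1) * m)) / (l + 1) ^ 3)
          - n / (2 * R ^ 3)))
      ≤ partitionFn (fun r => q r - α * Kac R r) L (m ^ 3 * n) β := by
  have hs : 0 < l + 1 := by linarith
  have hR : 0 < R := lt_of_lt_of_le hs hlR
  set φ : ℝ → ℝ := fun r => q r - α * Kac R r with hφdef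
  set k0 := km R (l + 1) 0 with hk0
  have key := Zg_cells_pair (fun _ : Fin 3 → Fin m => n) (rad φ) (Blk.rad_symm φ)
    (fun _ a b => rad q a b - α * k0) (fun _ a b => by rw [Blk.rad_symm])
    (fun c c' => -(α * km R (l + 1) (toZ c - toZ c'))) (fun c => Blk.block l c) (cube L)
    (fun c => Blk.measurableSet_block l c)
    (fun c c' hc => Set.disjoint_left.2 fun x hx hx' => by
      have := Blk.block_sep hl hc hx hx'
      rw [dist_self] at this
      linarith)
    (fun c => Blk.block_subset hl hm c) (Blk.measurableSet_cube L) hβ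
    (fun c x hx y hy => by
      have h := km_le_Kac hl hR hx hy
      rw [sub_self] at h
      have := mul_le_mul_of_nonneg_left h hα
      simp only [rad, hφdef]
      linarith)
    (fun c c' hc x hx y hy => by
      have h := km_le_Kac hl hR hx hy
      have h1 := mul_le_mul_of_nonneg_left h hα
      have h2 := hneg _ (Blk.block_sep hl hc hx hy)
      simp only [rad, hφdef]
      linarith)
    (Blk.integrableOn_exp_En (Blk.measurable_rad hφ.meas) (Blk.volume_cube_ne_top L) _ hβ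
      (B' * (∑ _b : Fin 3 → Fin m, n : ℕ)) (fun x => by
        have := hφ.stable _ x
        rw [energy_eq_En] at this
        linarith))
  have hsum : (∑ _b : Fin 3 → Fin m, n) = m ^ 3 * n := by simp
  rw [hsum] at key
  rw [partitionFn_eq_Zg φ]
  refine le_trans ?_ key
  have hprod : ∏ c : Fin 3 → Fin m, Zg (fun a b => rad q a b - α * k0) (Blk.block l c) n β
      = (Real.exp (β * (α * k0) * ((n : ℝ) * (n - 1) / 2)) * partitionFn q l n β) ^ (m ^ 3) := by
    have : ∀ c : Fin 3 → Fin m, Zg (fun a b => rad q a b - α * k0) (Blk.block l c) n β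
        = Real.exp (β * (α * k0) * ((n : ℝ) * (n - 1) / 2)) * partitionFn q l n β := by
      intro c
      rw [Zg_sub_const _ (Blk.rad_symm q), partitionFn_eq_Zg]
      congr 1
      exact Blk.Zg_translate q (-(Blk.corner l c)) (cube l) n β
    simp_rw [this]
    simp
  rw [hprod, mul_pow, ← Real.exp_nat_mul, ← mul_assoc, ← Real.exp_add, mul_comm]
  have hZ : 0 ≤ partitionFn q l n β := by
    unfold partitionFn
    exact mul_nonneg (by positivity) (integral_nonneg fun _ => (Real.exp_pos _).le)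
  refine mul_le_mul_of_nonneg_right (Real.exp_le_exp.2 ?_) (pow_nonneg hZ _)
  -- the exponent
  have hS := sum_km_ge KL hs hlR m
  have hsplit : ∑ c : Fin 3 → Fin m, ∑ c' : Fin 3 → Fin m, km R (l + 1) (toZ c - toZ c')
      = ∑ c : Fin 3 → Fin m, ∑ c' : Fin 3 → Fin m,
          (if c = c' then 0 else km R (l + 1) (toZ c - toZ c')) + (m : ℝ) ^ 3 * k0 := by
    have h1 : ∀ c : Fin 3 → Fin m, ∑ c' : Fin 3 → Fin m, km R (l + 1) (toZ c - toZ c')
        = ∑ c' : Fin 3 → Fin m, (if c = c' then 0 else km R (l + 1) (toZ c - toZ c')) + k0 := by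
      intro c
      have h2 : k0 = ∑ c' : Fin 3 → Fin m, (if c = c' then k0 else 0) := by simp
      rw [h2, ← Finset.sum_add_distrib]
      refine Finset.sum_congr rfl fun c' _ => ?_
      split_ifs with h
      · subst h; simp [hk0]
      · simp
    simp_rw [h1]
    rw [Finset.sum_add_distrib]
    simp
  have hcross : ∑ c : Fin 3 → Fin m, ∑ c' : Fin 3 → Fin m,
        (if c = c' then 0 else (n : ℝ) * n * -(α * km R (l + 1) (toZ c - toZ c')))
      = -(α * (n : ℝ) ^ 2) * ∑ c : Fin 3 → Fin m, ∑ c' : Fin 3 → Fin m,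
          (if c = c' then 0 else km R (l + 1) (toZ c - toZ c')) := by
    rw [Finset.mul_sum]
    refine Finset.sum_congr rfl fun c _ => ?_
    rw [Finset.mul_sum]
    refine Finset.sum_congr rfl fun c' _ => ?_
    split_ifs <;> ring
  rw [hcross]
  set Sx := ∑ c : Fin 3 → Fin m, ∑ c' : Fin 3 → Fin m,
          (if c = c' then 0 else km R (l + 1) (toZ c - toZ c')) with hSx
  rw [hsplit] at hS
  have hk0le : k0 ≤ 1 / R ^ 3 :=
    Kac_le hR (add_nonneg (mul_nonneg hs.le (Real.sqrt_nonneg _))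
      (mul_nonneg (Real.sqrt_nonneg _) hs.le))
  have hk0nn : 0 ≤ k0 := km_nonneg hR _ _
  push_cast
  set X := (kap - CB * (l + 1) / R - 12 * kap * R / ((l + 1) * m)) / (l + 1) ^ 3 with hX
  have hβα : 0 ≤ β * α := mul_nonneg hβ hα
  have hn : (0 : ℝ) ≤ n := Nat.cast_nonneg _
  have hm0 : (0 : ℝ) ≤ (m : ℝ) ^ 3 := by positivity
  have e1 : -(β * (1 / 2 * (-(α * (n : ℝ) ^ 2) * Sx)))
      + (m : ℝ) ^ 3 * (β * (α * k0) * ((n : ℝ) * (n - 1) / 2))
      = β * α * ((n : ℝ) ^ 2 / 2 * (Sx + (m : ℝ) ^ 3 * k0) - n / 2 * ((m : ℝ) ^ 3 * k0)) := by ring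
  rw [e1, mul_assoc (β * α)]
  refine mul_le_mul_of_nonneg_left ?_ hβα
  have h3 : (n : ℝ) ^ 2 / 2 * ((m : ℝ) ^ 3 * X) ≤ (n : ℝ) ^ 2 / 2 * (Sx + (m : ℝ) ^ 3 * k0) :=
    mul_le_mul_of_nonneg_left hS (by positivity)
  have h4 : (n : ℝ) / 2 * ((m : ℝ) ^ 3 * k0) ≤ (n : ℝ) / 2 * ((m : ℝ) ^ 3 * (1 / R ^ 3)) :=
    mul_le_mul_of_nonneg_left (mul_le_mul_of_nonneg_left hk0le hm0) (by positivity)
  have e2 : (m : ℝ) ^ 3 * ((n : ℝ) ^ 2 / 2 * X - n / (2 * R ^ 3))
      = (n : ℝ) ^ 2 / 2 * ((m : ℝ) ^ 3 * X) - (n : ℝ) / 2 * ((m : ℝ) ^ 3 * (1 / R ^ 3)) := by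
    field_simp
  rw [e2]
  linarith

end LemU

end Crest.Agent.S0209
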