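import Crest.Agent.S0209_HierMain
import Crest.Agent.S0209_PotInf
import Crest.Agent.S0209_Lam
import Crest.Agent.S0209_HypBase
import Crest.Agent.S0209_HypU
import Crest.Agent.S0209_HypL
import Crest.Agent.S0209_BridgeA
import Crest.Agent.S0209_HypSS
import Crest.Agent.S0209_HypSizes
import Crest.Agent.S0209_KapBounds
import Crest.Agent.S0209_ScaleArith
import Crest.Agent.S0209_FinalKink

/-!
# ROW 149, package I9: `hier_hyp` and `main_kink`
-/

set_option autoImplicit false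
namespace Crest.Agent.S0209
open Crest.ProbabilityR.Continuum MeasureTheory Filter Topology

namespace Par
variable {P : Par} {q0 : ℝ → ℝ} {I0 : ℝ}

theorem hier_hyp (h : P.OK) (hq : CoreP q0 P.T P.a P.b1 P.r0 I0) : (P.hier q0).Hyp where
  M_pos := fun _ hk => M_pos h hk
  M_succ := hyp_M_succ P q0
  a_pos := hyp_a_pos h q0
  a_anti := hyp_a_anti h q0
  E_nonneg := hyp_E_nonneg P q0
  η_nonneg := hyp_η_nonneg P q0
  conc := hyp_conc h hq
  baseLow := hyp_baseLow h hq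
  baseUp := hyp_baseUp h hq
  stepU := hyp_stepU h hq
  stepL := hyp_stepL h hq
  ss := hyp_ss h hq
  a_one := hyp_a_one h q0
  a_sum := hyp_a_sum h q0
  E_zero := hyp_E_zero P q0
  th_sqrt := hyp_th_sqrt h q0
  th_sum := hyp_th_sum h q0
  err_sum := hyp_err_sum h q0

/-- the errors `E_k` tend to `0` -/
theorem tendsto_E (h : P.OK) (q0 : ℝ → ℝ) : Tendsto (P.hier q0).E atTop (𝓝 0) := by
  rw [← tendsto_add_atTop_iff_nat 1]
  have hE : ∀ k : ℕ, (P.hier q0).E (k + 1) = 1e4 / (P.R k : ℝ) := by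
    intro k
    simp [Par.hier]
  simp_rw [hE]
  have hR : Tendsto (fun k : ℕ => (P.R k : ℝ)) atTop atTop := by
    have h16 : Tendsto (fun k : ℕ => (16 : ℝ) ^ k) atTop atTop :=
      tendsto_pow_atTop_atTop_of_one_lt (by norm_num)
    refine tendsto_atTop_mono (fun k => ?_) h16
    have h1 := R_ge h k
    have hQ : 1 ≤ P.Q := le_trans (Nat.one_le_pow _ _ (by norm_num)) h.Q_ge
    have h2 : 16 ^ k ≤ P.R k := le_trans (Nat.le_mul_of_pos_left _ hQ) h1
    exact_mod_cast h2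
  exact hR.const_div_atTop _

theorem main_kink (h : P.OK) (hq : CoreP q0 P.T P.a P.b1 P.r0 I0) :
    ∃ βc ∈ Set.Icc (0.995 : ℝ) 1.005, ∀ ρ : ℝ, 2.1 * Pack.pdens < ρ → ρ < 3.9 * Pack.pdens →
      HasKink (P.potInf q0) βc ρ := by
  have hp1 : 1 ≤ Pack.pdens := Pack.one_le_pdens
  have hp8 := pdens_le_eight
  have hT : 0 < P.T := lt_of_lt_of_le (by norm_num) h.T_ge
  obtain ⟨lam, hlam, hlA, hlB⟩ := lam_tendsto h
  obtain ⟨eA, heA, hA⟩ := bridge_A h hq
  have hB := bridge_B h hq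
  have hlam0 : 0 < lam := by
    have := hlam.1
    nlinarith
  have he : Tendsto (fun k => |eA k| + P.T * P.lamB k * (P.hier q0).E k) atTop (𝓝 0) := by
    have h1 : Tendsto (fun k => |eA k|) atTop (𝓝 |(0 : ℝ)|) := heA.abs
    have h2 : Tendsto (fun k => P.T * P.lamB k * (P.hier q0).E k) atTop (𝓝 (P.T * lam * 0)) :=
      (hlB.const_mul P.T).mul (tendsto_E h q0)
    have h3 := h1.add h2
    simpa using h3
  have hlamB0 : ∀ k, 0 ≤ P.lamB k := by
    intro k
    unfold Par.lamB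
    positivity
  obtain ⟨βc, hβc, hmain⟩ := final_kink (P.hier q0)
    (fun k hk => hier_triple (P.hier q0) (hier_hyp h hq) k hk)
    (fun k hk => M_pos h hk) (Glim (P.potInf q0)) P.T lam hT hlam0 P.lamA P.lamB
    (fun k => |eA k| + P.T * P.lamB k * (P.hier q0).E k) hlA hlB he
    (by
      intro k hk β hβ ρ hρ0 hρ μ hμ Pp hPp
      have h1 := hA k hk β hβ ρ hρ0 (by have := hlam.2; nlinarith) μ hμ Pp hPp
      have h2 : eA k ≤ |eA k| := le_abs_self _
      have h3 : 0 ≤ P.T * P.lamB k * (P.hier q0).E k :=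
        mul_nonneg (mul_nonneg hT.le (hlamB0 k)) (hyp_E_nonneg P q0 k)
      linarith)
    (by
      intro k hk β hβ w n hw hw1 hn ρ hρ0 hρ
      have h1 := hB k hk β hβ w n hw hw1 hn ρ hρ0 hρ
      have h2 : 0 ≤ |eA k| := abs_nonneg _
      linarith)
  refine ⟨βc, hβc, fun ρ hρ1 hρ2 => ?_⟩
  obtain ⟨uA, uB, hAB, hbd⟩ := hmain ρ (by have := hlam.2; nlinarith) (by have := hlam.1; nlinarith)
  exact ⟨uA, uB, 0.004, hAB, by norm_num, hbd⟩

end Par
end Crest.Agent.S0209
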