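import Crest.Agent.S0209_Kernel
import Crest.Agent.S0209_Packing
import Crest.Agent.S0209_AbsDefs

/-!
# ROW 149: parameters, scales, the potentials `pot k`, `potInf`, and the concrete hierarchy

Blueprint: notes/ROW149_blueprint.md sections 0 and I.  Statements about these objects:
notes/ROW149_Iface4.lean.txt.
-/

set_option autoImplicit false
namespace Crest.Agent.S0209
open Crest.ProbabilityR.Continuum MeasureTheory

/-- What is used of the core `q0` (S0209: two-plateau function; S0210: the same plus a singular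
nonnegative term supported in `[0,r0]`). -/
structure CoreP (q0 : ℝ → ℝ) (T a b1 r0 I0 : ℝ) : Prop where
  meas : Measurable q0
  nonneg : ∀ r, 0 ≤ q0 r
  low1 : ∀ r, 0 ≤ r → r ≤ b1 → 20 * T ≤ q0 r
  low2 : ∀ r, a < r → r ≤ b1 → 81 * T ≤ q0 r
  up1 : ∀ r, r0 ≤ r → r ≤ a / 2 → q0 r ≤ 20 * T
  up2 : ∀ r, r0 ≤ r → q0 r ≤ 81 * T
  zero : ∀ r, 1 ≤ r → q0 r = 0
  int : Integrable (fun x : Pt => q0 ‖x‖)
  int_le : ∫ x : Pt, q0 ‖x‖ ≤ I0

/-- The free parameters. -/
structure Par where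
  T : ℝ
  δ : ℝ
  a : ℝ
  r0 : ℝ
  c : ℝ
  Q : ℕ

namespace Par
variable (P : Par)

/-- outer plateau radius -/
noncomputable def b1 : ℝ := 1 - P.δ
/-- Kac ranges `R_k = Q^(4^k)` (`R_0 = Q` is fictitious) -/
def R (k : ℕ) : ℕ := P.Q ^ (4 ^ k)
/-- cell sides `l_k = R_{k-1}^2` (`k ≥ 1`) -/
def l (k : ℕ) : ℕ := (P.R (k - 1)) ^ 2
/-- range of the short range attraction inside a level `k` cell (`1` for `k ≤ 1`) -/
def w (k : ℕ) : ℕ := if k ≤ 1 then 1 else P.R (k - 1)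
/-- number of shifts per direction, `l_k = 2 w_k mt_k` -/
def mt (k : ℕ) : ℕ := P.l k / (2 * P.w k)
/-- Kac strengths -/
noncomputable def α (k : ℕ) : ℝ :=
  if k ≤ 1 then P.T / (kap * Pack.pdens)
  else P.c * P.T * (1 / 2) ^ k * (P.R k : ℝ) ^ (-(1 / 32 : ℝ))
/-- attraction of the levels `1..k` -/
noncomputable def Wk (k : ℕ) (r : ℝ) : ℝ := ∑ j ∈ Finset.Icc 1 k, P.α j * Kac (P.R j) r
/-- `energy (Wk k) ≤ Cp k * Qf` -/
noncomputable def Cp (k : ℕ) : ℝ := ∑ j ∈ Finset.Icc 1 k, P.α j * (4 * kap + 2 * CB / P.R j)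
/-- `χ_k` of Lemma L at level `k` (`e0 = 20 T`, `C' = Cp (k-1)`) -/
noncomputable def χ (k : ℕ) : ℝ := 3 * P.Cp (k - 1) / (P.mt k * (20 * P.T / 2 - P.Cp (k - 1)))
/-- `κ⁺_k` -/
noncomputable def κp (k : ℕ) : ℝ := kap + CB * (2 * P.w k * P.mt k) / P.R k
/-- number of level `k` cells per side in a level `k+1` cell -/
def ms (k : ℕ) : ℕ := (P.l (k + 1) + 1) / (P.l k + 1)
/-- number of sites of a level `k` cell -/
noncomputable def M : ℕ → ℕ
  | 0 => 1
  | 1 => packingNumber ((P.l 1 - 2 * P.δ) / (1 + 2 * P.δ))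
  | (k + 2) => (P.ms (k + 1)) ^ 3 * M (k + 1)
/-- mean field strength of level `k` per site in units of `T` -/
noncomputable def aa (k : ℕ) : ℝ :=
  P.α k * P.κp k * P.M k / (P.T * (2 * P.w k * P.mt k : ℝ) ^ 3 * (1 - P.χ k))
/-- potential with the levels `1..k` -/
noncomputable def pot (q0 : ℝ → ℝ) (k : ℕ) (r : ℝ) : ℝ := q0 r - P.Wk k r
/-- the full potential -/
noncomputable def potInf (q0 : ℝ → ℝ) (r : ℝ) : ℝ := q0 r - ∑' j : ℕ, P.α (j + 1) * Kac (P.R (j + 1)) r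
/-- tail constant: `energy (potInf) ≥ energy (pot k) - Ct k * Qf` -/
noncomputable def Ct (k : ℕ) : ℝ := (4 * kap + 2 * CB) * P.c * P.T * (1 / 2) ^ k
/-- `χ'_k` of the tail comparison -/
noncomputable def χt (k : ℕ) : ℝ := P.Ct k / (5 * P.T)

/-- the concrete hierarchy -/
noncomputable def hier (q0 : ℝ → ℝ) : Hier where
  M := P.M
  m := fun k => (P.ms k) ^ 3
  a := P.aa
  E := fun k => if k = 0 then 1e-7 else 1e4 / P.R (k - 1)
  η := fun k => 20 / (P.R (k - 1) : ℝ) ^ 2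
  φ := fun k β n => Phi (P.pot q0 (k - 1)) (P.l k) n β / (P.T * P.M k)

/-- sites per volume, lower-bound normalisation -/
noncomputable def lamA (k : ℕ) : ℝ := P.M k / (P.l k : ℝ) ^ 3
/-- sites per volume, upper-bound normalisation -/
noncomputable def lamB (k : ℕ) : ℝ := P.M (k + 1) / ((P.l (k + 1) : ℝ) + 1) ^ 3

/-- The conditions on the parameters.  (Owners of bridge packages: if you need a further
inequality between the parameters, ask helper18 to add a field; `exists_par` must prove it.) -/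
structure OK : Prop where
  T_ge : 1e8 ≤ P.T
  δ_pos : 0 < P.δ
  δ_le : P.δ ≤ 1e-11
  a_pos : 0 < P.a
  a_def : vb (2 * P.a) = Real.exp (-(80 * P.T))
  a_le : P.a ≤ P.δ / 10
  r0_pos : 0 < P.r0
  r0_le : P.r0 ≤ P.a / 16
  c_eq : P.c = 1e-13
  Q_even : 2 ∣ P.Q
  Q_ge : 10 ^ 60 ≤ P.Q
  up_tight : Real.log 24 - Real.log (vb (P.δ / 2)) + 9 * Real.log 64 ≤ 5e-8 * P.T
  up_loose : Real.log 2 - 2 * Real.log (vb (P.δ / 8)) ≤ 5e-8 * P.T
  pack_ratio : (packingNumber (P.l 1 / (P.b1 - 4 * P.a)) : ℝ) ≤ (1 + 4e-10) * P.M 1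
  M1_lo : 0.995 * Pack.pdens * (P.l 1 : ℝ) ^ 3 ≤ P.M 1

end Par
end Crest.Agent.S0209

/-- Realise the auto-generated equation lemmas once, in this (defining / root) module, so that
sibling modules of one import closure do not each create their own copy of the same name. -/
theorem Crest.Agent.S0209.eqns_realised_Scales : True := by
  have := @Crest.Agent.S0209.Par.b1.eq_1
  have := @Crest.Agent.S0209.Par.R.eq_1
  have := @Crest.Agent.S0209.Par.l.eq_1
  have := @Crest.Agent.S0209.Par.w.eq_1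
  have := @Crest.Agent.S0209.Par.mt.eq_1
  have := @Crest.Agent.S0209.Par.α.eq_1
  have := @Crest.Agent.S0209.Par.Wk.eq_1
  have := @Crest.Agent.S0209.Par.Cp.eq_1
  have := @Crest.Agent.S0209.Par.χ.eq_1
  have := @Crest.Agent.S0209.Par.κp.eq_1
  have := @Crest.Agent.S0209.Par.ms.eq_1
  have := @Crest.Agent.S0209.Par.M.eq_1
  have := @Crest.Agent.S0209.Par.aa.eq_1
  have := @Crest.Agent.S0209.Par.pot.eq_1
  have := @Crest.Agent.S0209.Par.potInf.eq_1
  have := @Crest.Agent.S0209.Par.Ct.eq_1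
  have := @Crest.Agent.S0209.Par.χt.eq_1
  have := @Crest.Agent.S0209.Par.hier.eq_1
  have := @Crest.Agent.S0209.Par.lamA.eq_1
  have := @Crest.Agent.S0209.Par.lamB.eq_1
  have := @Crest.Agent.S0209.Par.M.eq_2
  have := @Crest.Agent.S0209.Par.M.eq_3
  have := @Crest.Agent.S0209.Par.M.eq_def
  trivial
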