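import Crest.Statements.S0223

set_option autoImplicit false
open Crest Crest.ProbabilityR

namespace Crest.Agent.S0223

open Crest.ProbabilityR.Shuffle

theorem stepPos_injective (m : ℕ) (c : Fin m → Bool) : Function.Injective (stepPos m c) := by
  intro x y h
  have hx := x.isLt
  have hy := y.isLt
  have hm : 0 < m := by omega
  have h1 : (stepPos m c x).val = (stepPos m c y).val := by rw [h]
  simp only [stepPos] at h1
  have hmod : x.val % m = y.val % m := by
    split_ifs at h1 <;> omega
  have hidx : (⟨x.val % m, Nat.mod_lt _ hm⟩ : Fin m) = ⟨y.val % m, Nat.mod_lt _ hm⟩ := by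
    apply Fin.ext; exact hmod
  have hc : c ⟨x.val % m, Nat.mod_lt _ hm⟩ = c ⟨y.val % m, Nat.mod_lt _ hm⟩ := by rw [hidx]
  have hdec : decide (m ≤ x.val) = decide (m ≤ y.val) := by
    rw [hc] at h1
    generalize c ⟨y.val % m, Nat.mod_lt _ hm⟩ = b at h1
    by_cases hxm : m ≤ x.val <;> by_cases hym : m ≤ y.val <;>
      cases b <;> simp [hxm, hym] at h1 ⊢ <;> omega
  apply Fin.ext
  by_cases hxm : m ≤ x.val
  · have hym : m ≤ y.val := by
      have : decide (m ≤ y.val) = true := by rw [← hdec]; simpa using hxm
      simpa using this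
    have e1 : x.val % m = x.val - m := by
      rw [Nat.mod_eq_sub_mod hxm, Nat.mod_eq_of_lt (by omega)]
    have e2 : y.val % m = y.val - m := by
      rw [Nat.mod_eq_sub_mod hym, Nat.mod_eq_of_lt (by omega)]
    omega
  · have hym : ¬ m ≤ y.val := by
      intro hh
      have : decide (m ≤ x.val) = true := by rw [hdec]; simpa using hh
      exact hxm (by simpa using this)
    have e1 : x.val % m = x.val := Nat.mod_eq_of_lt (by omega)
    have e2 : y.val % m = y.val := Nat.mod_eq_of_lt (by omega)
    omega

theorem iterPos_injective (m : ℕ) : ∀ (t : ℕ) (cs : Fin t → Fin m → Bool),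
    Function.Injective (iterPos m t cs)
  | 0, _ => fun _ _ h => h
  | t + 1, cs => by
      intro x y h
      simp only [iterPos] at h
      exact iterPos_injective m t _ (stepPos_injective m _ h)

/-- The permutation realised by a table of bits. -/
noncomputable def permOf (m t : ℕ) (cs : Fin t → Fin m → Bool) : Equiv.Perm (Fin (2 * m)) :=
  Equiv.ofBijective (iterPos m t cs) (Finite.injective_iff_bijective.mp (iterPos_injective m t cs))

theorem permOf_eq_iff (m t : ℕ) (cs : Fin t → Fin m → Bool) (g : Equiv.Perm (Fin (2 * m))) :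
    iterPos m t cs = ⇑g ↔ permOf m t cs = g := by
  constructor
  · intro h
    apply Equiv.ext
    intro x
    simp [permOf, h]
  · intro h
    rw [← h]
    rfl

theorem tv_lower (m t : ℕ) :
    1 - (2 : ℝ) ^ (m * t) / ((2 * m).factorial : ℝ) ≤ tvFromUniform m t := by
  classical
  set T : ℝ := (Fintype.card (Fin t → Fin m → Bool) : ℝ) with hT
  have hTval : T = (2 : ℝ) ^ (m * t) := by
    rw [hT]
    simp [← pow_mul]
  have hTpos : 0 < T := by rw [hTval]; positivity
  set u : ℝ := 1 / ((2 * m).factorial : ℝ) with hu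
  have hupos : 0 < u := by rw [hu]; positivity
  let a : Equiv.Perm (Fin (2 * m)) → ℕ := fun g =>
    (Finset.univ.filter (fun cs : Fin t → Fin m → Bool => permOf m t cs = g)).card
  have hprob : ∀ g : Equiv.Perm (Fin (2 * m)),
      Crest.FinProb.uniformProb {cs : Fin t → Fin m → Bool | iterPos m t cs = ⇑g} = (a g : ℝ) / T := by
    intro g
    unfold Crest.FinProb.uniformProb
    simp only [a, hT]
    congr 2
    apply Finset.card_bij (fun cs _ => cs)
    · intro cs hcs
      simp only [Finset.mem_filter, Finset.mem_univ, true_and, Set.mem_ofPred_eq] at hcs ⊢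
      exact (permOf_eq_iff m t cs g).1 hcs
    · intro _ _ _ _ h
      exact h
    · intro cs hcs
      refine ⟨cs, ?_, rfl⟩
      simp only [Finset.mem_filter, Finset.mem_univ, true_and, Set.mem_ofPred_eq] at hcs ⊢
      exact (permOf_eq_iff m t cs g).2 hcs
  have hsum : ∑ g : Equiv.Perm (Fin (2 * m)), (a g : ℝ) = T := by
    have h := Finset.card_eq_sum_card_fiberwise (s := (Finset.univ : Finset (Fin t → Fin m → Bool)))
      (t := (Finset.univ : Finset (Equiv.Perm (Fin (2 * m))))) (f := permOf m t)
      (fun _ _ => Finset.mem_univ _)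
    rw [hT, ← Finset.card_univ, h]
    push_cast
    rfl
  have hcard : ((Finset.univ : Finset (Equiv.Perm (Fin (2 * m)))).card : ℝ) * u = 1 := by
    rw [Finset.card_univ, Fintype.card_perm, Fintype.card_fin, hu]
    field_simp
  have hterm : ∀ g : Equiv.Perm (Fin (2 * m)),
      (a g : ℝ) / T + u - 2 * u * (a g : ℝ) ≤ |(a g : ℝ) / T - u| := by
    intro g
    rcases Nat.eq_zero_or_pos (a g) with h0 | hpos
    · rw [h0]
      simp only [Nat.cast_zero, zero_div, zero_add, mul_zero, sub_zero, zero_sub, abs_neg]
      exact le_abs_self u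
    · have h1 : (1 : ℝ) ≤ (a g : ℝ) := by exact_mod_cast hpos
      have h2 : (a g : ℝ) / T - u ≤ |(a g : ℝ) / T - u| := le_abs_self _
      nlinarith
  have hmain : 2 - 2 * u * T ≤ ∑ g : Equiv.Perm (Fin (2 * m)), |(a g : ℝ) / T - u| := by
    calc 2 - 2 * u * T
        = ∑ g : Equiv.Perm (Fin (2 * m)), ((a g : ℝ) / T + u - 2 * u * (a g : ℝ)) := by
          rw [Finset.sum_sub_distrib, Finset.sum_add_distrib, ← Finset.sum_div, ← Finset.mul_sum,
            hsum, Finset.sum_const, nsmul_eq_mul, hcard, div_self hTpos.ne']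
          ring
      _ ≤ _ := Finset.sum_le_sum (fun g _ => hterm g)
  unfold tvFromUniform
  simp only [hprob]
  have : (2 : ℝ) ^ (m * t) / ((2 * m).factorial : ℝ) = u * T := by
    rw [hu, hTval]; ring
  rw [this]
  linarith

/-- For a deck of `2 * 2 ^ d` cards and every number `t` of shuffles, the total variation distance between the law of the arrangement of the deck and the uniform law on all arrangements is at least `1 - 2 ^ (2 ^ d * t) / (2 * 2 ^ d)!`. -/
theorem result (d t : ℕ) :
    1 - (2 : ℝ) ^ (2 ^ d * t) / ((2 * 2 ^ d).factorial : ℝ)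
      ≤ Crest.ProbabilityR.Shuffle.tvFromUniform (2 ^ d) t := by
  exact tv_lower (2 ^ d) t

end Crest.Agent.S0223
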