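import Crest.Prelude.Def_GraphTables
import Crest.Prelude.Def_SpanningTrees
import Crest.Prelude.Def_Labels
import Crest.Prelude.Def_StronglyRayleigh

/-!
# ROW168: equation lemmas of the Prelude definitions, realised ONCE

The auto-generated equation lemmas (`foo.eq_1`, ...) of a definition are created in the first
module that unfolds it.  If two sibling modules of one import closure do that independently, the
closure contains the same name twice.  Mentioning them here (a common ancestor) avoids this.
-/

namespace Crest.Agent.S0254Eqns

theorem realised : True := by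
  have := @Crest.ProbabilityR.GraphTables.graphOfTable.eq_1
  have := @Crest.ProbabilityR.GraphTables.tableOf.eq_1
  have := @Crest.ProbabilityR.SpanningTrees.edgesIn.eq_1.{0}
  have := @Crest.ProbabilityR.SpanningTrees.IsSpanningTreeOn.eq_1.{0}
  have := @Crest.ProbabilityR.SpanningTrees.ustContains.eq_1.{0}
  have := @Crest.ProbabilityR.Labels.labelMeasure.eq_1.{0}
  have := @Crest.ProbabilityR.StronglyRayleigh.genPoly.eq_1.{0}
  have := @Crest.ProbabilityR.StronglyRayleigh.IsStronglyRayleigh.eq_1.{0}
  have := @Crest.ProbabilityR.StronglyRayleigh.leftShift.eq_1.{0, 0}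
  have := @Crest.ProbabilityR.StronglyRayleigh.IsShiftInvariant.eq_1.{0}
  trivial

end Crest.Agent.S0254Eqns
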