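import Mathlib
import Crest.Agent.S0254_Eqns
import Crest.Prelude.Def_GraphTables

/-!
# ROW168 (S0254), package BALL: a canonical exhaustion of `Sym2 ℕ` attached to a graph on `ℕ`

`EG G e n` = all unordered pairs of vertices in the graph ball of radius `n` around the endpoints
of `e` (the empty set if that ball is infinite).
-/

set_option autoImplicit false

namespace Crest.Agent.S0254Ball

open Crest.ProbabilityR.GraphTables

/-- the equivalence of `Sym2 α` induced by a permutation -/
def sym2Equiv {α : Type*} (σ : Equiv.Perm α) : Sym2 α ≃ Sym2 α where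
  toFun := Sym2.map σ
  invFun := Sym2.map σ.symm
  left_inv e := by
    rw [Sym2.map_map]
    have : (⇑σ.symm ∘ ⇑σ) = id := by ext; simp
    rw [this, Sym2.map_id, id]
  right_inv e := by
    rw [Sym2.map_map]
    have : (⇑σ ∘ ⇑σ.symm) = id := by ext; simp
    rw [this, Sym2.map_id, id]

@[simp] lemma sym2Equiv_apply {α : Type*} (σ : Equiv.Perm α) (e : Sym2 α) :
    sym2Equiv σ e = Sym2.map σ e := rfl

/-- the ball of radius `n` around the endpoints of `e` -/
def ballSet (G : SimpleGraph ℕ) (e : Sym2 ℕ) : ℕ → Set ℕ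
  | 0 => {v | v ∈ e}
  | n + 1 => ballSet G e n ∪ {v | ∃ u ∈ ballSet G e n, G.Adj u v}

open Classical in
/-- all pairs of vertices in the ball -/
noncomputable def EG (G : SimpleGraph ℕ) (e : Sym2 ℕ) (n : ℕ) : Finset (Sym2 ℕ) :=
  if h : (ballSet G e n).Finite then h.toFinset.sym2 else ∅

lemma ballSet_succ_subset (G : SimpleGraph ℕ) (e : Sym2 ℕ) (n : ℕ) :
    ballSet G e n ⊆ ballSet G e (n + 1) := Set.subset_union_left

lemma ballSet_mono (G : SimpleGraph ℕ) (e : Sym2 ℕ) : Monotone (ballSet G e) :=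
  monotone_nat_of_le_succ (ballSet_succ_subset G e)

lemma ballSet_finite {G : SimpleGraph ℕ} (hlf : ∀ v, (G.neighborSet v).Finite) (e : Sym2 ℕ)
    (n : ℕ) : (ballSet G e n).Finite := by
  induction n with
  | zero =>
    induction e using Sym2.ind with
    | _ a b =>
      have : ballSet G s(a, b) 0 = {a, b} := by
        ext v; simp [ballSet]
      rw [this]; exact Set.toFinite _
  | succ n ih =>
    refine ih.union ?_
    have : {v | ∃ u ∈ ballSet G e n, G.Adj u v} = ⋃ u ∈ ballSet G e n, G.neighborSet u := by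
      ext v; simp [SimpleGraph.mem_neighborSet]
    rw [this]
    exact ih.biUnion fun u _ => hlf u

lemma EG_eq {G : SimpleGraph ℕ} (hlf : ∀ v, (G.neighborSet v).Finite) (e : Sym2 ℕ) (n : ℕ) :
    EG G e n = (ballSet_finite hlf e n).toFinset.sym2 := by
  unfold EG; rw [dif_pos (ballSet_finite hlf e n)]

lemma mem_EG {G : SimpleGraph ℕ} (hlf : ∀ v, (G.neighborSet v).Finite) (e : Sym2 ℕ) (n : ℕ)
    (f : Sym2 ℕ) : f ∈ EG G e n ↔ ∀ a ∈ f, a ∈ ballSet G e n := by
  rw [EG_eq hlf, Finset.mem_sym2_iff]; simp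

/-- (1) monotone -/
theorem EG_mono {G : SimpleGraph ℕ} (hlf : ∀ v, (G.neighborSet v).Finite) (e : Sym2 ℕ) :
    Monotone (EG G e) := by
  intro m n hmn f hf
  rw [mem_EG hlf] at hf ⊢
  exact fun a ha => ballSet_mono G e hmn (hf a ha)

lemma exists_mem_ballSet {G : SimpleGraph ℕ} (hc : G.Connected) (e : Sym2 ℕ) (v : ℕ) :
    ∃ n, v ∈ ballSet G e n := by
  induction e using Sym2.ind with
  | _ a b =>
    have h := (SimpleGraph.reachable_iff_reflTransGen a v).1 (hc.preconnected a v)
    induction h with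
    | refl => exact ⟨0, by simp [ballSet]⟩
    | tail _ hbc ih =>
      obtain ⟨n, hn⟩ := ih
      exact ⟨n + 1, Or.inr ⟨_, hn, hbc⟩⟩

/-- (2) exhausting -/
theorem EG_exhaust {G : SimpleGraph ℕ} (hc : G.Connected) (hlf : ∀ v, (G.neighborSet v).Finite)
    (e f : Sym2 ℕ) : ∃ n, f ∈ EG G e n := by
  induction f using Sym2.ind with
  | _ c d =>
    obtain ⟨n, hn⟩ := exists_mem_ballSet hc e c
    obtain ⟨m, hm⟩ := exists_mem_ballSet hc e d
    refine ⟨max n m, ?_⟩
    rw [mem_EG hlf]
    intro a ha
    rcases Sym2.mem_iff.1 ha with rfl | rfl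
    · exact ballSet_mono G e (le_max_left _ _) hn
    · exact ballSet_mono G e (le_max_right _ _) hm

lemma ballSet_comap (σ : Equiv.Perm ℕ) (G : SimpleGraph ℕ) (e : Sym2 ℕ) (n : ℕ) :
    ballSet (G.comap ⇑σ) e n = ⇑σ ⁻¹' ballSet G (Sym2.map σ e) n := by
  induction n with
  | zero =>
    ext v
    simp only [ballSet, Set.mem_preimage, Set.mem_ofPred_eq, Sym2.mem_map]
    constructor
    · intro h; exact ⟨v, h, rfl⟩
    · rintro ⟨w, hw, hwv⟩
      rwa [← σ.injective hwv]
  | succ n ih =>
    ext v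
    simp only [ballSet, Set.mem_preimage, Set.mem_union, Set.mem_ofPred_eq, ih,
      SimpleGraph.comap_adj]
    refine or_congr Iff.rfl ?_
    constructor
    · rintro ⟨u, hu, hadj⟩; exact ⟨σ u, hu, hadj⟩
    · rintro ⟨u, hu, hadj⟩
      exact ⟨σ.symm u, by simpa using hu, by simpa using hadj⟩

/-- (3) equivariance, in the shape of `hE` of `Crest.Agent.SL.Phi_equiv` -/
theorem EG_comap (σ : Equiv.Perm ℕ) (G : SimpleGraph ℕ) (e : Sym2 ℕ) (n : ℕ) :
    (EG (G.comap ⇑σ) e n).map (sym2Equiv σ).toEmbedding = EG G (sym2Equiv σ e) n := by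
  have hb := ballSet_comap σ G e n
  by_cases hfin : (ballSet G (Sym2.map σ e) n).Finite
  · have hfin' : (ballSet (G.comap ⇑σ) e n).Finite := by
      rw [hb]; exact hfin.preimage σ.injective.injOn
    unfold EG
    rw [dif_pos hfin', sym2Equiv_apply, dif_pos hfin]
    ext f
    simp only [Finset.mem_map, Finset.mem_sym2_iff, Set.Finite.mem_toFinset,
      Equiv.coe_toEmbedding, sym2Equiv_apply]
    constructor
    · rintro ⟨g, hg, rfl⟩ a ha
      obtain ⟨b, hb', rfl⟩ := Sym2.mem_map.1 ha
      have := hg b hb'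
      rw [hb] at this
      exact this
    · intro hf
      refine ⟨Sym2.map σ.symm f, ?_, (sym2Equiv σ).apply_symm_apply f⟩
      intro a ha
      obtain ⟨b, hb', rfl⟩ := Sym2.mem_map.1 ha
      rw [hb]
      simpa using hf b hb'
  · have hfin' : ¬ (ballSet (G.comap ⇑σ) e n).Finite := by
      intro h
      apply hfin
      have : ballSet G (Sym2.map σ e) n = ⇑σ '' ballSet (G.comap ⇑σ) e n := by
        rw [hb, Set.image_preimage_eq _ σ.surjective]
      rw [this]; exact h.image _
    unfold EG
    rw [dif_neg hfin', sym2Equiv_apply, dif_neg hfin]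
    simp

/-! ### measurability in the table -/

lemma measurableSet_adj (a c : ℕ) : MeasurableSet {p : ℕ → ℕ → Bool | (graphOfTable p).Adj a c} := by
  have : {p : ℕ → ℕ → Bool | (graphOfTable p).Adj a c}
      = {p | a ≠ c ∧ (p a c = true ∨ p c a = true)} := by
    ext p; simp [graphOfTable, SimpleGraph.fromRel_adj]
  rw [this]
  have h1 : ∀ i j : ℕ, MeasurableSet {p : ℕ → ℕ → Bool | p i j = true} := fun i j => by
    have hm : Measurable (fun p : ℕ → ℕ → Bool => p i j) :=
      (measurable_pi_apply j).comp (measurable_pi_apply i)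
    exact hm (measurableSet_singleton true)
  exact (MeasurableSet.const _).inter ((h1 a c).union (h1 c a))

lemma measurableSet_mem_ballSet (e : Sym2 ℕ) (n : ℕ) :
    ∀ v : ℕ, MeasurableSet {p : ℕ → ℕ → Bool | v ∈ ballSet (graphOfTable p) e n} := by
  induction n with
  | zero => intro v; exact MeasurableSet.const _
  | succ n ih =>
    intro v
    have : {p : ℕ → ℕ → Bool | v ∈ ballSet (graphOfTable p) e (n + 1)}
        = {p | v ∈ ballSet (graphOfTable p) e n} ∪
          ⋃ u : ℕ, ({p | u ∈ ballSet (graphOfTable p) e n} ∩ {p | (graphOfTable p).Adj u v}) := by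
      ext p; simp [ballSet]
    rw [this]
    exact (ih v).union (MeasurableSet.iUnion fun u => (ih u).inter (measurableSet_adj u v))

lemma measurableSet_ballSet_eq (e : Sym2 ℕ) (n : ℕ) (B : Set ℕ) :
    MeasurableSet {p : ℕ → ℕ → Bool | ballSet (graphOfTable p) e n = B} := by
  have : {p : ℕ → ℕ → Bool | ballSet (graphOfTable p) e n = B}
      = ⋂ v : ℕ, {p | v ∈ ballSet (graphOfTable p) e n ↔ v ∈ B} := by
    ext p; simp [Set.ext_iff]
  rw [this]
  refine MeasurableSet.iInter fun v => ?_
  by_cases hv : v ∈ B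
  · simpa [hv] using measurableSet_mem_ballSet e n v
  · have h2 : {p : ℕ → ℕ → Bool | v ∈ ballSet (graphOfTable p) e n ↔ v ∈ B}
        = {p | v ∈ ballSet (graphOfTable p) e n}ᶜ := by
      ext p; simp [hv]
    rw [h2]
    exact (measurableSet_mem_ballSet e n v).compl

/-- (4) measurability, in the shape of `hE` of `Crest.Agent.SL.measurable_Phi_param` -/
theorem measurableSet_EG (e : Sym2 ℕ) (n : ℕ) (A : Finset (Sym2 ℕ)) :
    MeasurableSet {p : ℕ → ℕ → Bool | EG (graphOfTable p) e n = A} := by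
  have hfin : MeasurableSet {p : ℕ → ℕ → Bool | (ballSet (graphOfTable p) e n).Finite} := by
    have : {p : ℕ → ℕ → Bool | (ballSet (graphOfTable p) e n).Finite}
        = ⋃ B : Finset ℕ, {p | ballSet (graphOfTable p) e n = ↑B} := by
      ext p
      simp only [Set.mem_ofPred_eq, Set.mem_iUnion]
      constructor
      · intro h; exact ⟨h.toFinset, by simp⟩
      · rintro ⟨B, hB⟩; rw [hB]; exact B.finite_toSet
    rw [this]
    exact MeasurableSet.iUnion fun B => measurableSet_ballSet_eq e n _
  have : {p : ℕ → ℕ → Bool | EG (graphOfTable p) e n = A}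
      = (⋃ B : Finset ℕ, ({p | ballSet (graphOfTable p) e n = ↑B} ∩ {_p | B.sym2 = A})) ∪
        ({p | (ballSet (graphOfTable p) e n).Finite}ᶜ ∩ {_p | (∅ : Finset (Sym2 ℕ)) = A}) := by
    ext p
    simp only [Set.mem_ofPred_eq, Set.mem_union, Set.mem_iUnion, Set.mem_inter_iff,
      Set.mem_compl_iff]
    by_cases h : (ballSet (graphOfTable p) e n).Finite
    · unfold EG
      rw [dif_pos h]
      constructor
      · intro hA; exact Or.inl ⟨h.toFinset, by simp, hA⟩
      · rintro (⟨B, hB, hA⟩ | ⟨h', _⟩)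
        · have : h.toFinset = B := by
            apply Finset.coe_injective; simp [hB]
          rw [this]; exact hA
        · exact absurd h h'
    · unfold EG
      rw [dif_neg h]
      constructor
      · intro hA; exact Or.inr ⟨h, hA⟩
      · rintro (⟨B, hB, _⟩ | ⟨_, hA⟩)
        · exact absurd (hB ▸ B.finite_toSet) h
        · exact hA
  rw [this]
  exact (MeasurableSet.iUnion fun B =>
    (measurableSet_ballSet_eq e n _).inter (MeasurableSet.const _)).union
    (hfin.compl.inter (MeasurableSet.const _))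

end Crest.Agent.S0254Ball
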