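import Crest.Agent.S0254_Defs
import Crest.Agent.S0254_Ball

/-!
# ROW168 (S0254), packages C4 (BALL) and C5a (MEASBALL): statements VERBATIM from
`notes/S0254_Iface.lean.txt`, for the definitions `FU.vball`, `FU.vballF`, `FU.ballE`.
-/

set_option autoImplicit false

namespace Crest.Agent.FU

open Crest.ProbabilityR.GraphTables Crest.Agent.S0254Ball

namespace Ball

lemma vball_eq_ballSet (G : SimpleGraph ℕ) (e : Sym2 ℕ) (n : ℕ) : vball G e n = ballSet G e n := by
  induction n with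
  | zero => rfl
  | succ n ih => simp only [vball, ballSet, ih]

lemma ballE_eq_EG (G : SimpleGraph ℕ) (e : Sym2 ℕ) (n : ℕ) : ballE G e n = EG G e n := by
  have hv := vball_eq_ballSet G e n
  unfold ballE vballF EG
  by_cases h : (ballSet G e n).Finite
  · have h' : (vball G e n).Finite := hv ▸ h
    rw [dif_pos h, dif_pos h']
    congr 1
    ext a; simp [hv]
  · have h' : ¬ (vball G e n).Finite := hv ▸ h
    rw [dif_neg h, dif_neg h']
    rfl

lemma sym2Equiv_eq (g : Equiv.Perm ℕ) : sym2Equiv g = S0254Ball.sym2Equiv g := by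
  ext e; rfl

lemma mem_ballE {G : SimpleGraph ℕ} (hlf : ∀ v, (G.neighborSet v).Finite) (e : Sym2 ℕ) (n : ℕ)
    (f : Sym2 ℕ) : f ∈ ballE G e n ↔ ∀ a ∈ f, a ∈ vball G e n := by
  rw [ballE_eq_EG, mem_EG hlf]; simp only [vball_eq_ballSet]

lemma root_mem (G : SimpleGraph ℕ) (a : ℕ) (n : ℕ) : a ∈ ballSet G s(a, a) n :=
  ballSet_mono G _ (Nat.zero_le n) (by simp [ballSet])

lemma reachable_ballSet (G : SimpleGraph ℕ) (a : ℕ) (n : ℕ) :
    ∀ v (hv : v ∈ ballSet G s(a, a) n),
      (G.induce (ballSet G s(a, a) n)).Reachable ⟨a, root_mem G a n⟩ ⟨v, hv⟩ := by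
  induction n with
  | zero =>
    intro v hv
    have : v = a := by simpa [ballSet] using hv
    subst this
    exact SimpleGraph.Reachable.refl _
  | succ n ih =>
    intro v hv
    have hsub : ballSet G s(a, a) n ⊆ ballSet G s(a, a) (n + 1) := ballSet_succ_subset G _ n
    have hmap : ∀ u (hu : u ∈ ballSet G s(a, a) n),
        (G.induce (ballSet G s(a, a) (n + 1))).Reachable ⟨a, root_mem G a (n + 1)⟩
          ⟨u, hsub hu⟩ := by
      intro u hu
      exact (ih u hu).map (SimpleGraph.induceHomOfLE G hsub).toHom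
    rcases hv with hv' | ⟨u, hu, hadj⟩
    · exact hmap v hv'
    · refine (hmap u hu).trans (SimpleGraph.Adj.reachable ?_)
      simpa using hadj

end Ball

open Ball

theorem vball_finite (G : SimpleGraph ℕ) (hlf : ∀ v, (G.neighborSet v).Finite) (e : Sym2 ℕ) (n : ℕ) :
    (vball G e n).Finite := by
  rw [vball_eq_ballSet]; exact ballSet_finite hlf e n

theorem mem_vballF (G : SimpleGraph ℕ) (hlf : ∀ v, (G.neighborSet v).Finite) (e : Sym2 ℕ) (n : ℕ)
    (v : ℕ) : v ∈ vballF G e n ↔ v ∈ vball G e n := by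
  unfold vballF
  rw [dif_pos (vball_finite G hlf e n)]
  simp

theorem vballF_mono (G : SimpleGraph ℕ) (hG : Good G) (e : Sym2 ℕ) : Monotone (vballF G e) := by
  intro m n hmn v hv
  rw [mem_vballF G hG.2, vball_eq_ballSet] at hv ⊢
  exact ballSet_mono G e hmn hv

theorem vballF_exhaust (G : SimpleGraph ℕ) (hG : Good G) (e : Sym2 ℕ) (v : ℕ) :
    ∃ n, v ∈ vballF G e n := by
  obtain ⟨n, hn⟩ := exists_mem_ballSet hG.1 e v
  exact ⟨n, by rwa [mem_vballF G hG.2, vball_eq_ballSet]⟩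

theorem piece_vballF (G : SimpleGraph ℕ) (hG : Good G) (a : ℕ) (n : ℕ) :
    Piece G (vballF G s(a, a) n) := by
  have hset : (↑(vballF G s(a, a) n) : Set ℕ) = ballSet G s(a, a) n := by
    ext v
    rw [Finset.mem_coe, mem_vballF G hG.2, vball_eq_ballSet]
  unfold Piece
  rw [hset, SimpleGraph.connected_iff_exists_forall_reachable]
  exact ⟨⟨a, root_mem G a n⟩, fun w => reachable_ballSet G a n w.1 w.2⟩

theorem ballE_mono (G : SimpleGraph ℕ) (hG : Good G) (e : Sym2 ℕ) : Monotone (ballE G e) := by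
  have : ballE G e = EG G e := funext (ballE_eq_EG G e)
  rw [this]; exact EG_mono hG.2 e

theorem ballE_exhaust (G : SimpleGraph ℕ) (hG : Good G) (e w : Sym2 ℕ) : ∃ n, w ∈ ballE G e n := by
  obtain ⟨n, hn⟩ := EG_exhaust hG.1 hG.2 e w
  exact ⟨n, by rwa [ballE_eq_EG]⟩

theorem ballE_comap (g : Equiv.Perm ℕ) (G : SimpleGraph ℕ) (e : Sym2 ℕ) (n : ℕ) :
    (ballE (G.comap g) e n).map (sym2Equiv g).toEmbedding = ballE G (sym2Equiv g e) n := by
  rw [ballE_eq_EG, ballE_eq_EG, sym2Equiv_eq]; exact EG_comap g G e n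

theorem measurableSet_adj (i j : ℕ) :
    MeasurableSet {T : ℕ → ℕ → Bool | (graphOfTable T).Adj i j} :=
  S0254Ball.measurableSet_adj i j

theorem measurableSet_ballE (e : Sym2 ℕ) (n : ℕ) (A : Finset (Sym2 ℕ)) :
    MeasurableSet {T : ℕ → ℕ → Bool | ballE (graphOfTable T) e n = A} := by
  simp only [ballE_eq_EG]; exact measurableSet_EG e n A

end Crest.Agent.FU
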