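import Mathlib
import Crest.Agent.S0254_Eqns
import Crest.Prelude.Def_Labels

/-!
# Noise splitting (package NS of ROW168 = S0254 + S0255)

One uniform label can be split measurably into a countable family of independent uniform labels
(Mathlib's `MeasureTheory.Measure.exists_measurable_map_eq`), and doing this site by site turns
`labelMeasure V` into `labelMeasure (V × ι)`.
-/

namespace Crest.Agent.S0254Noise

open MeasureTheory Crest.ProbabilityR.Labels

/-- Every probability measure on a nonempty standard Borel space is a measurable image of the
uniform measure on the unit interval (this is in Mathlib; restated for convenience). -/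
theorem exists_map_eq {Ω : Type*} [MeasurableSpace Ω] [StandardBorelSpace Ω] [Nonempty Ω]
    (P : Measure Ω) [IsProbabilityMeasure P] :
    ∃ f : unitInterval → Ω, Measurable f ∧ (volume : Measure unitInterval).map f = P :=
  P.exists_measurable_map_eq

/-- One uniform label splits into a countable family of independent uniform labels. -/
theorem exists_split (ι : Type*) [Countable ι] :
    ∃ f : unitInterval → (ι → unitInterval), Measurable f ∧
      (volume : Measure unitInterval).map f =
        Measure.infinitePi (fun _ : ι => (volume : Measure unitInterval)) :=
  exists_map_eq _

/-- A fixed splitting map. -/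
noncomputable def split (ι : Type*) [Countable ι] : unitInterval → (ι → unitInterval) :=
  (exists_split ι).choose

theorem measurable_split (ι : Type*) [Countable ι] : Measurable (split ι) :=
  (exists_split ι).choose_spec.1

theorem map_split (ι : Type*) [Countable ι] :
    (volume : Measure unitInterval).map (split ι) =
      Measure.infinitePi (fun _ : ι => (volume : Measure unitInterval)) :=
  (exists_split ι).choose_spec.2

/-- Site-by-site splitting, curried. -/
noncomputable def splitC (V ι : Type*) [Countable ι] (u : V → unitInterval) :
    V → ι → unitInterval := fun v => split ι (u v)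

/-- Site-by-site splitting, uncurried. -/
noncomputable def splitU (V ι : Type*) [Countable ι] (u : V → unitInterval) :
    V × ι → unitInterval := fun p => split ι (u p.1) p.2

theorem measurable_splitC (V ι : Type*) [Countable ι] : Measurable (splitC V ι) :=
  measurable_pi_lambda _ fun v => (measurable_split ι).comp (measurable_pi_apply v)

theorem measurable_splitU (V ι : Type*) [Countable ι] : Measurable (splitU V ι) :=
  measurable_pi_lambda _ fun p =>
    (measurable_pi_apply p.2).comp ((measurable_split ι).comp (measurable_pi_apply p.1))

theorem map_splitC (V ι : Type*) [Countable ι] :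
    (labelMeasure V).map (splitC V ι) =
      Measure.infinitePi (fun _ : V =>
        Measure.infinitePi (fun _ : ι => (volume : Measure unitInterval))) := by
  have h := Measure.infinitePi_map_pi (ι := V) (X := fun _ => unitInterval)
    (μ := fun _ : V => (volume : Measure unitInterval))
    (Y := fun _ => ι → unitInterval) (f := fun _ => split ι) (fun _ => measurable_split ι)
  simp only [map_split] at h
  exact h

theorem map_splitU (V ι : Type*) [Countable ι] :
    (labelMeasure V).map (splitU V ι) = labelMeasure (V × ι) := by
  have h1 := map_splitC V ι
  have h2 := Measure.infinitePi_map_curry_symm (ι := V) (κ := ι) (X := unitInterval)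
    (fun _ _ => (volume : Measure unitInterval))
  rw [← h1, Measure.map_map (by fun_prop) (measurable_splitC V ι)] at h2
  exact h2

/-- Splitting commutes with every relabelling of the sites. -/
theorem splitU_comp {V W : Type*} (ι : Type*) [Countable ι] (σ : W → V) (u : V → unitInterval) :
    splitU W ι (u ∘ σ) = splitU V ι u ∘ Prod.map σ id := rfl

theorem splitC_comp {V W : Type*} (ι : Type*) [Countable ι] (σ : W → V) (u : V → unitInterval) :
    splitC W ι (u ∘ σ) = splitC V ι u ∘ σ := rfl

instance (V : Type*) : IsProbabilityMeasure (labelMeasure V) := by
  unfold labelMeasure; infer_instance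

/-- Reindexing of labels along an equivalence. -/
theorem map_reindex {V W : Type*} (e : W ≃ V) :
    (labelMeasure V).map (fun u : V → unitInterval => u ∘ e) = labelMeasure W := by
  have h := Measure.infinitePi_map_piCongrLeft (ι := W) (X := fun _ => unitInterval)
    (μ := fun _ : W => (volume : Measure unitInterval)) e.symm
  have h3 : (⇑(MeasurableEquiv.piCongrLeft (fun _ : W => unitInterval) e.symm)) =
      (fun u : V → unitInterval => u ∘ e) := by
    funext u w
    have := MeasurableEquiv.piCongrLeft_apply_apply (β := fun _ : W => unitInterval) e.symm u (e w)
    simpa using this
  rw [h3] at h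
  exact h

/-- Restriction of labels along an injection. -/
theorem map_comp_injective {V W : Type*} (j : W → V) (hj : Function.Injective j) :
    (labelMeasure V).map (fun u : V → unitInterval => u ∘ j) = labelMeasure W := by
  classical
  have hm : Measurable (fun u : V → unitInterval => u ∘ j) :=
    measurable_pi_lambda _ fun w => measurable_pi_apply (j w)
  unfold labelMeasure
  refine Measure.eq_infinitePi _ fun s t ht => ?_
  rw [Measure.map_apply hm (.pi s.countable_toSet fun _ _ => ht _)]
  have hpre : (fun u : V → unitInterval => u ∘ j) ⁻¹' ((s : Set W).pi t) =
      ((s.image j : Finset V) : Set V).pi (fun v => ⋂ w ∈ s, ⋂ _ : j w = v, t w) := by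
    ext u
    simp only [Set.mem_preimage, Set.mem_pi, Finset.mem_coe, Function.comp_apply,
      Finset.mem_image, Set.mem_iInter]
    constructor
    · rintro h v ⟨w, hw, rfl⟩ w' hw' hww'
      have := hj hww'
      subst this
      exact h _ hw
    · intro h w hw
      exact h (j w) ⟨w, hw, rfl⟩ w hw rfl
  rw [hpre, Measure.infinitePi_pi]
  · rw [Finset.prod_image (fun a _ b _ h => hj h)]
    refine Finset.prod_congr rfl fun w hw => ?_
    congr 1
    ext x
    simp only [Set.mem_iInter]
    constructor
    · intro h; exact h w hw rfl
    · intro h w' _ hww'
      have := hj hww'
      subst this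
      exact h
  · intro v _
    exact MeasurableSet.biInter s.countable_toSet fun w _ =>
      MeasurableSet.iInter fun _ => ht w

end Crest.Agent.S0254Noise
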