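import Mathlib
import Crest.Prelude.Def_Labels
import Crest.Prelude.Def_GraphTables
import Crest.Agent.S0254_Noise

/-!
# S0254, package EDGE : independent uniform edge labels from independent uniform vertex labels

Every vertex label `x a` is split into a *rank label* `r a` and an array `w (a, (j, k))` of noise
labels.  The edge `s(a,b)` is owned by the endpoint with the smaller rank label, say `a`; it
receives the noise `w (a, (j, k))` where `j` is the number of neighbours `c` of `a` with
`r c < r b`.  This rule does not use the names of the vertices, is jointly measurable in the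
adjacency table and the labels, and for a locally finite graph the labels of the edges are
independent and uniform.
-/

set_option autoImplicit false

namespace Crest.Agent.S0254Edge

open MeasureTheory Crest.ProbabilityR.Labels Crest.ProbabilityR.GraphTables
open Crest.Agent.S0254Noise
open scoped unitInterval ENNReal Classical

noncomputable section

variable {K : Type*}

/-- number of neighbours `c` of `a` with `r c < r b`, as an extended nonnegative real. -/
def cnt (G : SimpleGraph ℕ) (r : ℕ → I) (a b : ℕ) : ℝ≥0∞ :=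
  ∑' c : ℕ, if G.Adj a c ∧ r c < r b then 1 else 0

/-- the rank of `b` among the neighbours of `a`. -/
def rank (G : SimpleGraph ℕ) (r : ℕ → I) (a b : ℕ) : ℕ := ⌊(cnt G r a b).toReal⌋₊

/-- value attached to the ordered pair `(a,b)`. -/
def val (G : SimpleGraph ℕ) (r : ℕ → I) (w : ℕ × (ℕ × K) → I) (k : K) (a b : ℕ) : I :=
  if r a < r b then w (a, (rank G r a b, k))
  else if r b < r a then w (b, (rank G r b a, k)) else 0

lemma val_comm (G : SimpleGraph ℕ) (r : ℕ → I) (w : ℕ × (ℕ × K) → I) (k : K) (a b : ℕ) :
    val G r w k a b = val G r w k b a := by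
  unfold val
  by_cases h1 : r a < r b
  · have h2 : ¬ r b < r a := not_lt.2 h1.le
    simp [h1, h2]
  · by_cases h2 : r b < r a
    · simp [h1, h2]
    · simp [h1, h2]

/-- the edge labels as a function of the graph, the rank labels and the noise array. -/
def core (G : SimpleGraph ℕ) (r : ℕ → I) (w : ℕ × (ℕ × K) → I) (p : Sym2 ℕ × K) : I :=
  Sym2.lift ⟨fun a b => val G r w p.2 a b, fun a b => val_comm G r w p.2 a b⟩ p.1

@[simp] lemma core_mk (G : SimpleGraph ℕ) (r : ℕ → I) (w : ℕ × (ℕ × K) → I) (a b : ℕ) (k : K) :
    core G r w (s(a, b), k) = val G r w k a b := rfl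

/-! ### measurability -/

lemma measurableSet_adj (a c : ℕ) :
    MeasurableSet {A : ℕ → ℕ → Bool | (graphOfTable A).Adj a c} := by
  have : {A : ℕ → ℕ → Bool | (graphOfTable A).Adj a c}
      = {A | a ≠ c ∧ (A a c = true ∨ A c a = true)} := by
    ext A
    simp [graphOfTable, SimpleGraph.fromRel_adj]
  rw [this]
  have h1 : ∀ i j : ℕ, MeasurableSet {A : ℕ → ℕ → Bool | A i j = true} := by
    intro i j
    have hm : Measurable fun A : ℕ → ℕ → Bool => A i j :=
      (measurable_pi_apply j).comp (measurable_pi_apply i)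
    exact hm (measurableSet_singleton true)
  by_cases hac : a = c
  · simp [hac]
  · simp only [ne_eq, hac, not_false_eq_true, true_and]
    exact (h1 a c).union (h1 c a)

abbrev Par (K : Type*) := (ℕ → ℕ → Bool) × (ℕ → I) × (ℕ × (ℕ × K) → I)

lemma measurable_cnt (a b : ℕ) :
    Measurable fun q : Par K => cnt (graphOfTable q.1) q.2.1 a b := by
  unfold cnt
  refine Measurable.tsum fun c => ?_
  refine Measurable.ite ?_ measurable_const measurable_const
  have h1 : MeasurableSet {q : Par K | (graphOfTable q.1).Adj a c} :=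
    measurable_fst (measurableSet_adj a c)
  have h2 : MeasurableSet {q : Par K | q.2.1 c < q.2.1 b} := by
    refine measurableSet_lt ?_ ?_
    · exact (measurable_pi_apply c).comp (measurable_fst.comp measurable_snd)
    · exact (measurable_pi_apply b).comp (measurable_fst.comp measurable_snd)
  exact h1.inter h2

lemma measurable_rank (a b : ℕ) :
    Measurable fun q : Par K => rank (graphOfTable q.1) q.2.1 a b := by
  unfold rank
  exact Nat.measurable_floor.comp (ENNReal.measurable_toReal.comp (measurable_cnt a b))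

lemma measurable_pick (a b : ℕ) (k : K) :
    Measurable fun q : Par K => q.2.2 (a, (rank (graphOfTable q.1) q.2.1 a b, k)) := by
  have h : Measurable fun z : (ℕ × (ℕ × K) → I) × ℕ => z.1 (a, (z.2, k)) :=
    measurable_from_prod_countable_left fun j => measurable_pi_apply (a, (j, k))
  exact h.comp ((measurable_snd.comp measurable_snd).prodMk (measurable_rank a b))

lemma measurable_val (a b : ℕ) (k : K) :
    Measurable fun q : Par K => val (graphOfTable q.1) q.2.1 q.2.2 k a b := by
  unfold val
  have hlt : ∀ i j : ℕ, MeasurableSet {q : Par K | q.2.1 i < q.2.1 j} := by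
    intro i j
    refine measurableSet_lt ?_ ?_
    · exact (measurable_pi_apply i).comp (measurable_fst.comp measurable_snd)
    · exact (measurable_pi_apply j).comp (measurable_fst.comp measurable_snd)
  refine Measurable.ite (hlt a b) (measurable_pick a b k) ?_
  exact Measurable.ite (hlt b a) (measurable_pick b a k) measurable_const

theorem measurable_core :
    Measurable fun q : Par K => core (graphOfTable q.1) q.2.1 q.2.2 := by
  rw [measurable_pi_iff]
  rintro ⟨e, k⟩
  induction e using Sym2.ind with
  | _ a b => exact measurable_val a b k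

/-! ### equivariance -/

lemma cnt_comap (τ : Equiv.Perm ℕ) (G : SimpleGraph ℕ) (r : ℕ → I) (a b : ℕ) :
    cnt (G.comap ⇑τ) (r ∘ τ) a b = cnt G r (τ a) (τ b) := by
  unfold cnt
  rw [← Equiv.tsum_eq τ (fun c => if G.Adj (τ a) c ∧ r c < r (τ b) then (1 : ℝ≥0∞) else 0)]
  rfl

lemma rank_comap (τ : Equiv.Perm ℕ) (G : SimpleGraph ℕ) (r : ℕ → I) (a b : ℕ) :
    rank (G.comap ⇑τ) (r ∘ τ) a b = rank G r (τ a) (τ b) := by
  unfold rank; rw [cnt_comap]

theorem core_comap (τ : Equiv.Perm ℕ) (G : SimpleGraph ℕ) (r : ℕ → I) (w : ℕ × (ℕ × K) → I) :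
    core (G.comap ⇑τ) (r ∘ τ) (w ∘ Prod.map τ id) = core G r w ∘ Prod.map (Sym2.map τ) id := by
  funext ⟨e, k⟩
  induction e using Sym2.ind with
  | _ a b =>
    simp only [Function.comp_apply, Prod.map_apply, id_eq, Sym2.map_mk, core_mk]
    unfold val
    simp only [rank_comap, Function.comp_apply, Prod.map_apply, id_eq]

/-! ### ranks in a locally finite graph -/

lemma cnt_eq_card {G : SimpleGraph ℕ} {a : ℕ} (h : (G.neighborSet a).Finite) (r : ℕ → I) (b : ℕ) :
    cnt G r a b = ((h.toFinset.filter fun c => r c < r b).card : ℝ≥0∞) := by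
  unfold cnt
  rw [tsum_eq_sum (s := h.toFinset)]
  · rw [Finset.card_filter]
    push_cast
    refine Finset.sum_congr rfl fun c hc => ?_
    have : G.Adj a c := by simpa using hc
    simp [this]
  · intro c hc
    have : ¬ G.Adj a c := by simpa using hc
    simp [this]

lemma rank_eq_card {G : SimpleGraph ℕ} {a : ℕ} (h : (G.neighborSet a).Finite) (r : ℕ → I) (b : ℕ) :
    rank G r a b = (h.toFinset.filter fun c => r c < r b).card := by
  unfold rank
  rw [cnt_eq_card h]
  simp

lemma rank_lt_rank {G : SimpleGraph ℕ} {a : ℕ} (h : (G.neighborSet a).Finite) (r : ℕ → I)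
    {b b' : ℕ} (hb : G.Adj a b) (hlt : r b < r b') : rank G r a b < rank G r a b' := by
  rw [rank_eq_card h, rank_eq_card h]
  apply Finset.card_lt_card
  rw [Finset.ssubset_iff_of_subset]
  · refine ⟨b, ?_, ?_⟩
    · simp [hb, hlt]
    · simp
  · intro c hc
    rw [Finset.mem_filter] at hc ⊢
    exact ⟨hc.1, hc.2.trans hlt⟩

/-- position in the noise array used by an edge. -/
def idx (G : SimpleGraph ℕ) (r : ℕ → I) (e : Sym2 ℕ) : ℕ × ℕ :=
  Sym2.lift ⟨fun a b => if r a < r b then (a, rank G r a b)
    else if r b < r a then (b, rank G r b a) else (0, 0), by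
      intro a b
      by_cases h1 : r a < r b
      · have h2 : ¬ r b < r a := not_lt.2 h1.le
        simp [h1, h2]
      · by_cases h2 : r b < r a
        · simp [h1, h2]
        · simp [h1, h2]⟩ e

lemma exists_oriented {G : SimpleGraph ℕ} {r : ℕ → I} (hr : Function.Injective r) {e : Sym2 ℕ}
    (he : e ∈ G.edgeSet) : ∃ a b, e = s(a, b) ∧ G.Adj a b ∧ r a < r b := by
  induction e using Sym2.ind with
  | _ a b =>
    have hab : G.Adj a b := by simpa using he
    rcases lt_trichotomy (r a) (r b) with h | h | h
    · exact ⟨a, b, rfl, hab, h⟩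
    · exact absurd (hr h) hab.ne
    · exact ⟨b, a, Sym2.eq_swap, hab.symm, h⟩

lemma idx_of_lt (G : SimpleGraph ℕ) (r : ℕ → I) {a b : ℕ} (h : r a < r b) :
    idx G r s(a, b) = (a, rank G r a b) := by
  simp [idx, h]

lemma core_of_lt (G : SimpleGraph ℕ) (r : ℕ → I) (w : ℕ × (ℕ × K) → I) (k : K) {a b : ℕ}
    (h : r a < r b) : core G r w (s(a, b), k) = w (a, (rank G r a b, k)) := by
  simp [val, h]

/-- the injection of the edge positions into the positions of the noise array. -/
def pos (G : SimpleGraph ℕ) (r : ℕ → I) (p : G.edgeSet × K) : ℕ × (ℕ × K) :=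
  ((idx G r p.1.1).1, ((idx G r p.1.1).2, p.2))

lemma pos_injective {G : SimpleGraph ℕ} (hlf : ∀ v, (G.neighborSet v).Finite) {r : ℕ → I}
    (hr : Function.Injective r) : Function.Injective (pos (K := K) G r) := by
  rintro ⟨⟨e, he⟩, k⟩ ⟨⟨e', he'⟩, k'⟩ h
  obtain ⟨a, b, rfl, hab, hlt⟩ := exists_oriented hr he
  obtain ⟨a', b', rfl, hab', hlt'⟩ := exists_oriented hr he'
  simp only [pos, idx_of_lt G r hlt, idx_of_lt G r hlt', Prod.mk.injEq] at h
  obtain ⟨rfl, h2, rfl⟩ := h
  have : b = b' := by
    rcases lt_trichotomy (r b) (r b') with h | h | h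
    · exact absurd h2 (rank_lt_rank (hlf a) r hab h).ne
    · exact hr h
    · exact absurd h2.symm (rank_lt_rank (hlf a) r hab' h).ne
  subst this
  rfl

lemma core_eq_comp_pos {G : SimpleGraph ℕ} {r : ℕ → I} (hr : Function.Injective r)
    (w : ℕ × (ℕ × K) → I) :
    (fun p : G.edgeSet × K => core G r w (p.1.1, p.2)) = w ∘ pos G r := by
  funext ⟨⟨e, he⟩, k⟩
  obtain ⟨a, b, rfl, hab, hlt⟩ := exists_oriented hr he
  simp only [Function.comp_apply, pos, idx_of_lt G r hlt]
  exact core_of_lt G r w k hlt

/-- for fixed injective rank labels the edge labels are i.i.d. uniform. -/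
theorem map_core {G : SimpleGraph ℕ} (hlf : ∀ v, (G.neighborSet v).Finite) {r : ℕ → I}
    (hr : Function.Injective r) :
    (labelMeasure (ℕ × (ℕ × K))).map (fun w (p : G.edgeSet × K) => core G r w (p.1.1, p.2))
      = labelMeasure (G.edgeSet × K) := by
  have : (fun (w : ℕ × (ℕ × K) → I) (p : G.edgeSet × K) => core G r w (p.1.1, p.2))
      = fun w => w ∘ pos G r := by
    funext w
    exact core_eq_comp_pos hr w
  rw [this]
  exact map_comp_injective _ (pos_injective hlf hr)

/-! ### almost surely the labels are pairwise distinct -/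

lemma prod_diag_null : ((volume : Measure I).prod (volume : Measure I)) {p : I × I | p.1 = p.2} = 0 := by
  have hs : MeasurableSet {p : I × I | p.1 = p.2} := measurableSet_eq_fun measurable_fst measurable_snd
  rw [Measure.measure_prod_null hs]
  refine Filter.Eventually.of_forall fun x => ?_
  have : Prod.mk x ⁻¹' {p : I × I | p.1 = p.2} = {x} := by
    ext y; simp [eq_comm]
  simp [this]

lemma ae_ne {V : Type*} {a b : V} (hab : a ≠ b) : ∀ᵐ r ∂(labelMeasure V), r a ≠ r b := by
  have hj : Function.Injective (![a, b] : Fin 2 → V) := by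
    intro i j h
    fin_cases i <;> fin_cases j <;> simp_all
  have h1 := map_comp_injective (![a, b] : Fin 2 → V) hj
  have hm : Measurable (fun u : V → I => u ∘ (![a, b] : Fin 2 → V)) :=
    measurable_pi_lambda _ fun w => measurable_pi_apply _
  have h2 : labelMeasure (Fin 2) = Measure.pi (fun _ : Fin 2 => (volume : Measure I)) := by
    unfold labelMeasure; exact Measure.infinitePi_eq_pi _
  have h3 := measurePreserving_piFinTwo (fun _ : Fin 2 => (volume : Measure I))
  have hs : MeasurableSet {p : I × I | p.1 = p.2} := measurableSet_eq_fun measurable_fst measurable_snd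
  have h4 : (Measure.pi (fun _ : Fin 2 => (volume : Measure I)))
      ((MeasurableEquiv.piFinTwo fun _ : Fin 2 => I) ⁻¹' {p : I × I | p.1 = p.2}) = 0 := by
    rw [h3.measure_preimage hs.nullMeasurableSet]
    exact prod_diag_null
  rw [← h2, ← h1, Measure.map_apply hm ((MeasurableEquiv.measurable _) hs)] at h4
  rw [ae_iff]
  refine measure_mono_null ?_ h4
  intro r hr
  simpa using hr

theorem ae_injective (V : Type*) [Countable V] :
    ∀ᵐ r ∂(labelMeasure V), Function.Injective r := by
  have : ∀ᵐ r ∂(labelMeasure V), ∀ a b : V, a ≠ b → r a ≠ r b := by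
    rw [ae_all_iff]; intro a
    rw [ae_all_iff]; intro b
    by_cases hab : a = b
    · simp [hab]
    · filter_upwards [ae_ne hab] with r hr _ using hr
  filter_upwards [this] with r hr a b hab
  by_contra h
  exact hr a b h hab

/-! ### splitting a family of labels into two independent families -/

/-- split every label into two. -/
def pairSplit {V : Type*} (x : V → I) : (V → I) × (V → I) :=
  (fun a => split (Fin 2) (x a) 0, fun a => split (Fin 2) (x a) 1)

theorem measurePreserving_pairSplit (V : Type*) :
    MeasurePreserving (pairSplit (V := V)) (labelMeasure V)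
      ((labelMeasure V).prod (labelMeasure V)) := by
  have m1 : MeasurePreserving (splitU V (Fin 2)) (labelMeasure V) (labelMeasure (V × Fin 2)) :=
    ⟨measurable_splitU V (Fin 2), map_splitU V (Fin 2)⟩
  have m2 : MeasurePreserving (fun u : V × Fin 2 → I => u ∘ (Equiv.prodComm (Fin 2) V))
      (labelMeasure (V × Fin 2)) (labelMeasure (Fin 2 × V)) :=
    ⟨measurable_pi_lambda _ fun w => measurable_pi_apply _, map_reindex (Equiv.prodComm (Fin 2) V)⟩
  have m3 : MeasurePreserving (MeasurableEquiv.curry (Fin 2) V I) (labelMeasure (Fin 2 × V))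
      (Measure.infinitePi fun _ : Fin 2 => labelMeasure V) :=
    ⟨MeasurableEquiv.measurable _,
      Measure.infinitePi_map_curry (fun (_ : Fin 2) (_ : V) => (volume : Measure I))⟩
  have m4 := measurePreserving_piFinTwo (fun _ : Fin 2 => labelMeasure V)
  rw [← Measure.infinitePi_eq_pi] at m4
  exact ((m4.comp m3).comp m2).comp m1

/-! ### the edge noise -/

variable (K) [Countable K]

/-- **Edge noise**: labels for the pairs `(e, k)`, `e` an unordered pair of vertices, computed from
the graph and the vertex labels. -/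
def edgeNoise (G : SimpleGraph ℕ) (x : ℕ → I) : Sym2 ℕ × K → I :=
  core G (pairSplit x).1 (splitU ℕ (ℕ × K) (pairSplit x).2)

theorem measurable_edgeNoise :
    Measurable (fun p : (ℕ → ℕ → Bool) × (ℕ → I) => edgeNoise K (graphOfTable p.1) p.2) := by
  unfold edgeNoise
  have hp := (measurePreserving_pairSplit ℕ).measurable
  have h : Measurable fun p : (ℕ → ℕ → Bool) × (ℕ → I) =>
      ((p.1, (pairSplit p.2).1, splitU ℕ (ℕ × K) (pairSplit p.2).2) : Par K) :=
    measurable_fst.prodMk ((measurable_fst.comp (hp.comp measurable_snd)).prodMk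
      ((measurable_splitU ℕ (ℕ × K)).comp (measurable_snd.comp (hp.comp measurable_snd))))
  exact measurable_core.comp h

theorem edgeNoise_comap (τ : Equiv.Perm ℕ) (G : SimpleGraph ℕ) (x : ℕ → I) :
    edgeNoise K (G.comap ⇑τ) (x ∘ τ) = edgeNoise K G x ∘ Prod.map (Sym2.map τ) id := by
  unfold edgeNoise
  rw [← core_comap]
  rfl

lemma graphOfTable_tableOf (G : SimpleGraph ℕ) : graphOfTable (tableOf G) = G := by
  ext a b
  simp only [graphOfTable, tableOf, SimpleGraph.fromRel_adj, decide_eq_true_eq]
  constructor
  · rintro ⟨-, h | h⟩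
    · exact h
    · exact h.symm
  · intro h
    exact ⟨h.ne, Or.inl h⟩

theorem map_edgeNoise (G : SimpleGraph ℕ) (hlf : ∀ v, (G.neighborSet v).Finite) :
    (labelMeasure ℕ).map (fun x (p : G.edgeSet × K) => edgeNoise K G x (p.1.1, p.2))
      = labelMeasure (G.edgeSet × K) := by
  have m1 := measurePreserving_pairSplit ℕ
  have m2 : MeasurePreserving (Prod.map id (splitU ℕ (ℕ × K)))
      ((labelMeasure ℕ).prod (labelMeasure ℕ))
      ((labelMeasure ℕ).prod (labelMeasure (ℕ × (ℕ × K)))) :=
    (MeasurePreserving.id _).prod ⟨measurable_splitU ℕ (ℕ × K), map_splitU ℕ (ℕ × K)⟩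
  have hgm : Measurable (Function.uncurry fun (r : ℕ → I) (w : ℕ × (ℕ × K) → I)
      (p : G.edgeSet × K) => core G r w (p.1.1, p.2)) := by
    have h0 : Measurable fun z : (ℕ → I) × (ℕ × (ℕ × K) → I) =>
        core (graphOfTable (tableOf G)) z.1 z.2 :=
      measurable_core.comp (measurable_const.prodMk (measurable_fst.prodMk measurable_snd))
    rw [graphOfTable_tableOf] at h0
    rw [measurable_pi_iff]
    intro p
    exact (measurable_pi_apply (p.1.1, p.2)).comp h0
  have m3 := (MeasurePreserving.id (labelMeasure ℕ)).skew_product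
    (μc := labelMeasure (ℕ × (ℕ × K))) (μd := labelMeasure (G.edgeSet × K)) hgm
    (by filter_upwards [ae_injective ℕ] with r hr using map_core hlf hr)
  have m4 : MeasurePreserving Prod.snd
      ((labelMeasure ℕ).prod (labelMeasure (G.edgeSet × K))) (labelMeasure (G.edgeSet × K)) :=
    measurePreserving_snd
  exact (((m4.comp m3).comp m2).comp m1).map_eq

end

end Crest.Agent.S0254Edge
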