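import Crest.Agent.S0254_Transfer
import Crest.Agent.S0254_EdgeNoise

/-!
# ROW168 : joint law of the two edge-noise arrays restricted to the edges
-/

set_option autoImplicit false

namespace Crest.Agent.S0254Edge

open MeasureTheory unitInterval Crest.ProbabilityR.Labels Crest.Agent.S0254Noise
open Crest.Agent.SL Crest.Agent.SL.Transfer
open scoped Classical ENNReal

noncomputable section

/-- the two arrays `(U, t)` read off an edge noise with `K = Fin 2 × ℕ`. -/
theorem law_edge_fin2 (G : SimpleGraph ℕ) (hlf : ∀ v, (G.neighborSet v).Finite) :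
    (labelMeasure ℕ).map (fun x =>
      (res G.edgeSet (fun e => edgeNoise (Fin 2 × ℕ) G x (e.1, ((0 : Fin 2), e.2))),
       res G.edgeSet (fun e => edgeNoise (Fin 2 × ℕ) G x (e.1, ((1 : Fin 2), e.2)))))
      = (labelMeasure (G.edgeSet × ℕ)).prod (labelMeasure (G.edgeSet × ℕ)) := by
  have h1 := map_edgeNoise (Fin 2 × ℕ) G hlf
  have h2 := map_pairOf (V := G.edgeSet)
  have hm : Measurable (fun x (p : G.edgeSet × (Fin 2 × ℕ)) =>
      edgeNoise (Fin 2 × ℕ) G x (p.1.1, p.2)) := by
    have h0 : Measurable fun x : ℕ → I =>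
        edgeNoise (Fin 2 × ℕ) (Crest.ProbabilityR.GraphTables.graphOfTable
          (Crest.ProbabilityR.GraphTables.tableOf G)) x :=
      (measurable_edgeNoise (Fin 2 × ℕ)).comp (measurable_const.prodMk measurable_id)
    rw [graphOfTable_tableOf] at h0
    rw [measurable_pi_iff]
    intro p
    exact (measurable_pi_apply (p.1.1, p.2)).comp h0
  rw [← h1, Measure.map_map measurable_pairOf hm] at h2
  exact h2

/-- the same with `K = Bool × ℕ` (`false` for `U`, `true` for `t`). -/
theorem law_edge_bool (G : SimpleGraph ℕ) (hlf : ∀ v, (G.neighborSet v).Finite) :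
    (labelMeasure ℕ).map (fun x =>
      (res G.edgeSet (fun e => edgeNoise (Bool × ℕ) G x (e.1, (false, e.2))),
       res G.edgeSet (fun e => edgeNoise (Bool × ℕ) G x (e.1, (true, e.2)))))
      = (labelMeasure (G.edgeSet × ℕ)).prod (labelMeasure (G.edgeSet × ℕ)) := by
  have h1 := map_edgeNoise (Bool × ℕ) G hlf
  have h2 := map_pairOf (V := G.edgeSet)
  let e : G.edgeSet × (Fin 2 × ℕ) ≃ G.edgeSet × (Bool × ℕ) :=
    Equiv.prodCongr (Equiv.refl _) (Equiv.prodCongr finTwoEquiv (Equiv.refl _))
  have h3 := map_reindex e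
  have hm : Measurable (fun x (p : G.edgeSet × (Bool × ℕ)) =>
      edgeNoise (Bool × ℕ) G x (p.1.1, p.2)) := by
    have h0 : Measurable fun x : ℕ → I =>
        edgeNoise (Bool × ℕ) (Crest.ProbabilityR.GraphTables.graphOfTable
          (Crest.ProbabilityR.GraphTables.tableOf G)) x :=
      (measurable_edgeNoise (Bool × ℕ)).comp (measurable_const.prodMk measurable_id)
    rw [graphOfTable_tableOf] at h0
    rw [measurable_pi_iff]
    intro p
    exact (measurable_pi_apply (p.1.1, p.2)).comp h0
  have hme : Measurable (fun u : G.edgeSet × (Bool × ℕ) → I => u ∘ e) :=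
    measurable_pi_lambda _ fun _ => measurable_pi_apply _
  rw [← h3, ← h1, Measure.map_map hme hm, Measure.map_map measurable_pairOf (hme.comp hm)] at h2
  exact h2

/-- the two arrays obtained from two independent halves of the vertex labels. -/
theorem law_edge_pairSplit (G : SimpleGraph ℕ) (hlf : ∀ v, (G.neighborSet v).Finite) :
    (labelMeasure ℕ).map (fun x =>
      (res G.edgeSet (edgeNoise ℕ G (pairSplit x).1), res G.edgeSet (edgeNoise ℕ G (pairSplit x).2)))
      = (labelMeasure (G.edgeSet × ℕ)).prod (labelMeasure (G.edgeSet × ℕ)) := by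
  have hm : Measurable (fun x (p : G.edgeSet × ℕ) => edgeNoise ℕ G x (p.1.1, p.2)) := by
    have h0 : Measurable fun x : ℕ → I =>
        edgeNoise ℕ (Crest.ProbabilityR.GraphTables.graphOfTable
          (Crest.ProbabilityR.GraphTables.tableOf G)) x :=
      (measurable_edgeNoise ℕ).comp (measurable_const.prodMk measurable_id)
    rw [graphOfTable_tableOf] at h0
    rw [measurable_pi_iff]
    intro p
    exact (measurable_pi_apply (p.1.1, p.2)).comp h0
  have m1 : MeasurePreserving (fun x (p : G.edgeSet × ℕ) => edgeNoise ℕ G x (p.1.1, p.2))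
      (labelMeasure ℕ) (labelMeasure (G.edgeSet × ℕ)) := ⟨hm, map_edgeNoise ℕ G hlf⟩
  exact ((m1.prod m1).comp (measurePreserving_pairSplit ℕ)).map_eq

end

end Crest.Agent.S0254Edge
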