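import Crest.Agent.S0254_Defs

/-!
# ROW168, S0254 half, package C3p-EQq: `qG` is equivariant under relabellings of the vertices.
-/

set_option autoImplicit false

namespace Crest.Agent.FU

open Crest.ProbabilityR.SpanningTrees
open scoped Classical

namespace EqQ

/-- the induced graphs on `S` (for the pulled-back graph) and on `g '' S` are isomorphic. -/
def indIso (g : Equiv.Perm ℕ) (H : SimpleGraph ℕ) (S : Finset ℕ) :
    (H.comap g).induce (S : Set ℕ) ≃g H.induce ((S.map g.toEmbedding : Finset ℕ) : Set ℕ) where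
  toFun x := ⟨g x.1, by
    have := x.2
    simp only [Finset.coe_map, Equiv.coe_toEmbedding, Set.mem_image, Finset.mem_coe]
    exact ⟨x.1, this, rfl⟩⟩
  invFun y := ⟨g.symm y.1, by
    have := y.2
    simp only [Finset.coe_map, Equiv.coe_toEmbedding, Set.mem_image, Finset.mem_coe] at this
    obtain ⟨a, ha, hay⟩ := this
    rw [← hay]; simpa using ha⟩
  left_inv x := by simp
  right_inv y := by simp
  map_rel_iff' := by
    intro a b
    simp [SimpleGraph.comap_adj]

lemma piece_comap (g : Equiv.Perm ℕ) (G : SimpleGraph ℕ) (S : Finset ℕ) :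
    Piece (G.comap g) S ↔ Piece G (S.map g.toEmbedding) :=
  (indIso g G S).connected_iff

lemma mem_edgeSet_comap (g : Equiv.Perm ℕ) (G : SimpleGraph ℕ) (e : Sym2 ℕ) :
    e ∈ (G.comap g).edgeSet ↔ sym2Equiv g e ∈ G.edgeSet := by
  induction e using Sym2.ind with
  | _ a b => simp [sym2Equiv_apply]

lemma mem_sym2_map (g : Equiv.Perm ℕ) (S : Finset ℕ) (e : Sym2 ℕ) :
    sym2Equiv g e ∈ (S.map g.toEmbedding).sym2 ↔ e ∈ S.sym2 := by
  induction e using Sym2.ind with
  | _ a b => simp [sym2Equiv_apply]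

lemma edgesIn_comap (g : Equiv.Perm ℕ) (G : SimpleGraph ℕ) (S : Finset ℕ) :
    (edgesIn (G.comap g) S).map (sym2Equiv g).toEmbedding = edgesIn G (S.map g.toEmbedding) := by
  ext e
  obtain ⟨e', rfl⟩ := (sym2Equiv g).surjective e
  simp only [Finset.mem_map_equiv, Equiv.symm_apply_apply]
  unfold edgesIn
  simp only [Finset.mem_filter, mem_sym2_map, mem_edgeSet_comap]

lemma map_subset_map_iff (g : Equiv.Perm ℕ) (A B : Finset (Sym2 ℕ)) :
    A.map (sym2Equiv g).toEmbedding ⊆ B.map (sym2Equiv g).toEmbedding ↔ A ⊆ B :=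
  Finset.map_subset_map

lemma fromEdgeSet_comap (g : Equiv.Perm ℕ) (A : Finset (Sym2 ℕ)) :
    (SimpleGraph.fromEdgeSet ((A.map (sym2Equiv g).toEmbedding : Finset (Sym2 ℕ)) : Set (Sym2 ℕ))).comap g
      = SimpleGraph.fromEdgeSet (A : Set (Sym2 ℕ)) := by
  ext a b
  simp only [SimpleGraph.comap_adj, SimpleGraph.fromEdgeSet_adj, Finset.mem_coe, ne_eq,
    EmbeddingLike.apply_eq_iff_eq]
  have : s(g a, g b) = sym2Equiv g s(a, b) := by simp [sym2Equiv_apply]
  rw [this, Finset.mem_map_equiv, Equiv.symm_apply_apply]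

lemma isSpanningTreeOn_comap (g : Equiv.Perm ℕ) (G : SimpleGraph ℕ) (S : Finset ℕ)
    (A : Finset (Sym2 ℕ)) :
    IsSpanningTreeOn (G.comap g) S A ↔
      IsSpanningTreeOn G (S.map g.toEmbedding) (A.map (sym2Equiv g).toEmbedding) := by
  unfold IsSpanningTreeOn
  rw [← edgesIn_comap, map_subset_map_iff,
    ← (indIso g (SimpleGraph.fromEdgeSet
      ((A.map (sym2Equiv g).toEmbedding : Finset (Sym2 ℕ)) : Set (Sym2 ℕ))) S).isTree_iff,
    fromEdgeSet_comap]

lemma card_filter_comap (g : Equiv.Perm ℕ) (G : SimpleGraph ℕ) (S : Finset ℕ)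
    (P Q : Finset (Sym2 ℕ) → Prop) [DecidablePred P] [DecidablePred Q]
    (h : ∀ A, P A ↔ Q (A.map (sym2Equiv g).toEmbedding)) :
    ((edgesIn (G.comap g) S).powerset.filter P).card =
      ((edgesIn G (S.map g.toEmbedding)).powerset.filter Q).card := by
  refine Finset.card_bij (fun A _ => A.map (sym2Equiv g).toEmbedding) ?_ ?_ ?_
  · intro A hA
    simp only [Finset.mem_filter, Finset.mem_powerset] at hA ⊢
    refine ⟨?_, (h A).1 hA.2⟩
    rw [← edgesIn_comap, map_subset_map_iff]; exact hA.1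
  · intro A _ B _ hAB
    exact Finset.map_injective _ hAB
  · intro B hB
    simp only [Finset.mem_filter, Finset.mem_powerset] at hB
    have hBe : (B.map (sym2Equiv g).symm.toEmbedding).map (sym2Equiv g).toEmbedding = B := by
      ext e; simp [Finset.mem_map_equiv]
    refine ⟨B.map (sym2Equiv g).symm.toEmbedding, ?_, hBe⟩
    simp only [Finset.mem_filter, Finset.mem_powerset]
    refine ⟨?_, ?_⟩
    · rw [← map_subset_map_iff g, hBe, edgesIn_comap]; exact hB.1
    · rw [h, hBe]; exact hB.2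

lemma ustContains_comap (g : Equiv.Perm ℕ) (G : SimpleGraph ℕ) (S : Finset ℕ)
    (A : Finset (Sym2 ℕ)) :
    ustContains (G.comap g) S A =
      ustContains G (S.map g.toEmbedding) (A.map (sym2Equiv g).toEmbedding) := by
  unfold ustContains
  have h1 := fun (i1 : DecidablePred fun B => IsSpanningTreeOn (G.comap g) S B ∧ A ⊆ B)
    (i2 : DecidablePred fun B => IsSpanningTreeOn G (S.map g.toEmbedding) B ∧
      A.map (sym2Equiv g).toEmbedding ⊆ B) =>
    @card_filter_comap g G S (fun B => IsSpanningTreeOn (G.comap g) S B ∧ A ⊆ B)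
    (fun B => IsSpanningTreeOn G (S.map g.toEmbedding) B ∧ A.map (sym2Equiv g).toEmbedding ⊆ B)
    i1 i2
    (fun B => by rw [isSpanningTreeOn_comap, map_subset_map_iff])
  have h2 := fun (i1 : DecidablePred fun B => IsSpanningTreeOn (G.comap g) S B)
    (i2 : DecidablePred fun B => IsSpanningTreeOn G (S.map g.toEmbedding) B) =>
    @card_filter_comap g G S (fun B => IsSpanningTreeOn (G.comap g) S B)
    (fun B => IsSpanningTreeOn G (S.map g.toEmbedding) B) i1 i2
    (fun B => isSpanningTreeOn_comap g G S B)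
  rw [h1, h2]

lemma qTerm_comap (g : Equiv.Perm ℕ) (G : SimpleGraph ℕ) (A : Finset (Sym2 ℕ)) (S : Finset ℕ) :
    qTerm (G.comap g) A S = qTerm G (A.map (sym2Equiv g).toEmbedding) (S.map g.toEmbedding) := by
  unfold qTerm
  have hc : (Piece (G.comap g) S ∧ A ⊆ edgesIn (G.comap g) S) ↔
      (Piece G (S.map g.toEmbedding) ∧
        A.map (sym2Equiv g).toEmbedding ⊆ edgesIn G (S.map g.toEmbedding)) := by
    rw [← edgesIn_comap, map_subset_map_iff, ← piece_comap]
  by_cases h : Piece (G.comap g) S ∧ A ⊆ edgesIn (G.comap g) S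
  · rw [if_pos h, if_pos (hc.1 h), ustContains_comap]
  · rw [if_neg h, if_neg (fun h' => h (hc.2 h'))]

lemma subset_edgeSet_comap (g : Equiv.Perm ℕ) (G : SimpleGraph ℕ) (A : Finset (Sym2 ℕ)) :
    (↑A : Set (Sym2 ℕ)) ⊆ (G.comap g).edgeSet ↔
      (↑(A.map (sym2Equiv g).toEmbedding) : Set (Sym2 ℕ)) ⊆ G.edgeSet := by
  constructor
  · intro h e he
    obtain ⟨e', rfl⟩ := (sym2Equiv g).surjective e
    rw [Finset.mem_coe, Finset.mem_map_equiv, Equiv.symm_apply_apply] at he
    exact (mem_edgeSet_comap g G e').1 (h he)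
  · intro h e he
    refine (mem_edgeSet_comap g G e).2 (h ?_)
    rw [Finset.mem_coe, Finset.mem_map_equiv, Equiv.symm_apply_apply]
    exact he

end EqQ

theorem qG_comap (g : Equiv.Perm ℕ) (G : SimpleGraph ℕ) (A : Finset (Sym2 ℕ)) :
    qG (G.comap g) A = qG G (A.map (sym2Equiv g).toEmbedding) := by
  unfold qG
  have hI : (⨅ S : Finset ℕ, qTerm (G.comap g) A S) =
      ⨅ S : Finset ℕ, qTerm G (A.map (sym2Equiv g).toEmbedding) S := by
    rw [← Equiv.iInf_comp (g := fun S => qTerm G (A.map (sym2Equiv g).toEmbedding) S)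
      (Equiv.finsetCongr g)]
    exact iInf_congr fun S => by rw [EqQ.qTerm_comap, Equiv.finsetCongr_apply]
  by_cases h : (↑A : Set (Sym2 ℕ)) ⊆ (G.comap g).edgeSet
  · rw [if_pos h, if_pos ((EqQ.subset_edgeSet_comap g G A).1 h), hI]
  · rw [if_neg h, if_neg (fun h' => h ((EqQ.subset_edgeSet_comap g G A).2 h'))]

end Crest.Agent.FU
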