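import Crest.Agent.S0255_Defs
import Crest.Prelude.Def_SpanningTrees
import Crest.Prelude.Def_GraphTables
import Crest.Prelude.Def_Labels

/-!
# ROW168, S0254 half: definitions (free uniform spanning forest as a factor of iid)

Sites `V := Sym2 ℕ`.  Everything is CANONICAL (no choice depending on the names of the vertices)
and junk-safe, so that equivariance and measurability hold for EVERY graph / table.
-/

set_option autoImplicit false

namespace Crest.Agent.FU

open MeasureTheory unitInterval
open Crest.ProbabilityR.SpanningTrees Crest.ProbabilityR.GraphTables Crest.ProbabilityR.Labels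
open scoped Classical ENNReal

noncomputable section

/-- the induced piece on `S` is connected (in particular `S` is nonempty). -/
def Piece (G : SimpleGraph ℕ) (S : Finset ℕ) : Prop := (G.induce (S : Set ℕ)).Connected

/-- connected and locally finite. -/
def Good (G : SimpleGraph ℕ) : Prop := G.Connected ∧ ∀ v : ℕ, (G.neighborSet v).Finite

/-- the spanning trees (edge sets) of the piece. -/
def treeSet (G : SimpleGraph ℕ) (S : Finset ℕ) : Finset (Finset (Sym2 ℕ)) :=
  (edgesIn G S).powerset.filter (fun A => IsSpanningTreeOn G S A)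

/-- the weighted tree polynomial of the piece. -/
def treePoly (G : SimpleGraph ℕ) (S : Finset ℕ) (z : Sym2 ℕ → ℂ) : ℂ :=
  ∑ A ∈ treeSet G S, ∏ e ∈ A, z e

/-- one term of the infimum defining `qG`. -/
def qTerm (G : SimpleGraph ℕ) (A : Finset (Sym2 ℕ)) (S : Finset ℕ) : ℝ :=
  if Piece G S ∧ A ⊆ edgesIn G S then ustContains G S A else 1

/-- inclusion probabilities of the free uniform spanning forest:
infimum of `ustContains G S A` over all finite connected pieces containing `A`;
`0` if `A` is not a set of edges of `G`. -/
def qG (G : SimpleGraph ℕ) (A : Finset (Sym2 ℕ)) : ℝ :=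
  if (↑A : Set (Sym2 ℕ)) ⊆ G.edgeSet then ⨅ S : Finset ℕ, qTerm G A S else 0

/-- vertices at graph distance `≤ n` from an endpoint of the pair `e`. -/
def vball (G : SimpleGraph ℕ) (e : Sym2 ℕ) : ℕ → Set ℕ
  | 0 => {a | a ∈ e}
  | n + 1 => vball G e n ∪ {v | ∃ u ∈ vball G e n, G.Adj u v}

/-- the ball as a finset (`∅` if it is infinite). -/
def vballF (G : SimpleGraph ℕ) (e : Sym2 ℕ) (n : ℕ) : Finset ℕ :=
  if h : (vball G e n).Finite then h.toFinset else ∅

/-- the exhaustion of the sites centred at `e`: all pairs of vertices of the ball. -/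
def ballE (G : SimpleGraph ℕ) (e : Sym2 ℕ) (n : ℕ) : Finset (Sym2 ℕ) := (vballF G e n).sym2

/-- indicator configuration of an edge set. -/
def ind (A : Finset (Sym2 ℕ)) : Sym2 ℕ → Bool := fun e => decide (e ∈ A)

/-- the law of the uniform spanning tree of the piece, as a law on `Sym2 ℕ → Bool`. -/
def ustMeasure (G : SimpleGraph ℕ) (S : Finset ℕ) : Measure (Sym2 ℕ → Bool) :=
  ∑ A ∈ treeSet G S, ((treeSet G S).card : ℝ≥0∞)⁻¹ • Measure.dirac (ind A)

/-- the relabelling of pairs induced by a permutation of the vertices. -/
def sym2Equiv (g : Equiv.Perm ℕ) : Sym2 ℕ ≃ Sym2 ℕ where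
  toFun := Sym2.map g
  invFun := Sym2.map g.symm
  left_inv e := by
    rw [Sym2.map_map]; simp
  right_inv e := by
    rw [Sym2.map_map]; simp

@[simp] lemma sym2Equiv_apply (g : Equiv.Perm ℕ) (e : Sym2 ℕ) : sym2Equiv g e = Sym2.map g e := rfl

/-- The auto-generated equation lemmas of the definitions above are realised HERE, once, so that
sibling modules of one import closure do not each create their own copy. -/
theorem eqns_realised : True := by
  have := @Piece.eq_1
  have := @Good.eq_1
  have := @treeSet.eq_1
  have := @treePoly.eq_1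
  have := @qTerm.eq_1
  have := @qG.eq_1
  have := @vball.eq_1
  have := @vballF.eq_1
  have := @ballE.eq_1
  have := @ind.eq_1
  have := @ustMeasure.eq_1
  have := @sym2Equiv.eq_1
  have := @vball.eq_2
  have := @vball.eq_def
  trivial

end

end Crest.Agent.FU
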