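import Mathlib
import Crest.Agent.S0254_Eqns
import Crest.Prelude.Def_SpanningTrees

/-!
# ROW 168 (S0254), package MT: weighted matrix-tree theorem and half-plane property

For a finite piece `S` of a graph `G` (Prelude notions `edgesIn`, `IsSpanningTreeOn`):
* `matrix_tree` : the spanning tree polynomial is a determinant;
* `treePoly_ne_zero` : it does not vanish when all edge variables are in the upper half-plane;
* `card_of_isSpanningTreeOn` : every spanning tree of the piece has `S.card - 1` edges.

Route: expansion of the determinant by multilinearity in the rows over parent functions `p`;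
`det (1 - P_p)` is `1` if `p` leads to the root from everywhere and `0` otherwise; bijection
between such `p` and spanning trees.
-/

set_option autoImplicit false
open Finset
open Crest.ProbabilityR.SpanningTrees

namespace Crest.Agent.S0254MT

section Abstract
variable {W : Type*} [Fintype W] [DecidableEq W]

/-- the parent function `p` leads to the root `r` from everywhere. -/
def Reaches (r : W) (p : W → W) : Prop := ∀ v, ∃ k, p^[k] v = r

/-- the row `e_v - e_x` (`e_r` for the root row). -/
def Nrow (r v x : W) : W → ℂ :=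
  if v = r then Pi.single r 1 else Pi.single v 1 - Pi.single x 1

/-- the matrix `1 - P_p`, root row replaced by `e_r`. -/
def Nmat (r : W) (p : W → W) : Matrix W W ℂ := Matrix.of fun v => Nrow r v (p v)

/-- coefficients: the root row has the only term `x = r`. -/
def chat (c : W → W → ℂ) (r v x : W) : ℂ :=
  if v = r then (if x = r then 1 else 0) else c v x

/-- the Laplacian of the weights `c`, root row replaced by `e_r`. -/
def Mhat (c : W → W → ℂ) (r : W) : Matrix W W ℂ :=
  Matrix.of fun v => ∑ x, chat c r v x • Nrow r v x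

theorem det_Mhat (c : W → W → ℂ) (r : W) :
    (Mhat c r).det = ∑ p : W → W, (∏ v, chat c r v (p v)) * (Nmat r p).det := by
  have h1 := (Matrix.detRowAlternating (R := ℂ) (n := W)).toMultilinearMap.map_sum
    (fun v x => chat c r v x • Nrow r v x)
  have h2 : (Mhat c r).det = (Matrix.detRowAlternating (R := ℂ) (n := W)).toMultilinearMap
      (fun v => ∑ x, chat c r v x • Nrow r v x) := rfl
  rw [h2, h1]
  apply Finset.sum_congr rfl
  intro p _
  rw [MultilinearMap.map_smul_univ]
  rfl

lemma Nmat_mulVec (r : W) (p : W → W) (x : W → ℂ) (v : W) :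
    (Nmat r p).mulVec x v = if v = r then x r else x v - x (p v) := by
  simp only [Matrix.mulVec, dotProduct, Nmat, Matrix.of_apply, Nrow]
  split_ifs with h
  · simp [Pi.single_apply]
  · simp [Pi.single_apply, sub_mul, Finset.sum_sub_distrib]

lemma Mhat_mulVec (c : W → W → ℂ) (r : W) (x : W → ℂ) (v : W) :
    (Mhat c r).mulVec x v = if v = r then x r else ∑ y, c v y * (x v - x y) := by
  simp only [Matrix.mulVec, dotProduct, Mhat, Matrix.of_apply, Nrow, chat]
  split_ifs with h
  · have h1 : (∑ y, (if y = r then (1 : ℂ) else 0) • (Pi.single r 1 : W → ℂ)) = Pi.single r 1 := by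
      simp [ite_smul]
    rw [h1]
    simp [Pi.single_apply]
  · simp only [Finset.sum_apply, Pi.smul_apply, Pi.sub_apply, smul_eq_mul, Finset.sum_mul]
    rw [Finset.sum_comm]
    apply Finset.sum_congr rfl
    intro y _
    simp [Pi.single_apply, mul_assoc, ← Finset.mul_sum, sub_mul, Finset.sum_sub_distrib]

theorem det_Nmat_of_not_reaches {r : W} {p : W → W} (h : ¬ Reaches r p) :
    (Nmat r p).det = 0 := by
  classical
  rw [← Matrix.exists_mulVec_eq_zero_iff]
  unfold Reaches at h
  push Not at h
  obtain ⟨v0, hv0⟩ := h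
  refine ⟨fun v => if ∀ k, p^[k] v ≠ r then 1 else 0, ?_, ?_⟩
  · intro h0
    have := congrFun h0 v0
    simp [hv0] at this
  · funext v
    rw [Nmat_mulVec]
    split_ifs with h1 h2 h3 h4 h5
    · exact absurd rfl (h2 0)
    · rfl
    · simp
    · exfalso
      apply h4
      intro k
      have := h3 (k + 1)
      rwa [Function.iterate_succ_apply] at this
    · exfalso
      apply h3
      intro k
      cases k with
      | zero => simpa using h1
      | succ k => rw [Function.iterate_succ_apply]; exact h5 k
    · simp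

theorem det_Nmat_of_reaches {r : W} {p : W → W} (h : Reaches r p) :
    (Nmat r p).det = 1 := by
  classical
  let d : W → ℕ := fun v => Nat.find (h v)
  have hd : ∀ v, v ≠ r → d (p v) < d v := by
    intro v hv
    have h1 : p^[d v] v = r := Nat.find_spec (h v)
    have h2 : d v ≠ 0 := by
      intro h0
      rw [h0] at h1
      exact hv h1
    obtain ⟨k, hk⟩ := Nat.exists_eq_succ_of_ne_zero h2
    rw [hk, Function.iterate_succ_apply] at h1
    have h3 : d (p v) ≤ k := Nat.find_min' (h (p v)) h1
    omega
  have hB : Matrix.BlockTriangular (Nmat r p) (fun v => OrderDual.toDual (d v)) := by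
    intro v u huv
    have huv' : d v < d u := huv
    simp only [Nmat, Matrix.of_apply, Nrow]
    split_ifs with h1
    · have : u ≠ r := by
        rintro rfl
        rw [h1] at huv'
        exact lt_irrefl _ huv'
      simp [this]
    · have h2 : u ≠ v := by
        rintro rfl
        exact lt_irrefl _ huv'
      have h3 : u ≠ p v := by
        rintro rfl
        exact lt_asymm huv' (hd v h1)
      simp [h2, h3]
  rw [hB.det]
  apply Finset.prod_eq_one
  intro a _
  have : (Nmat r p).toSquareBlock (fun v => OrderDual.toDual (d v)) a = 1 := by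
    ext ⟨i, hi⟩ ⟨j, hj⟩
    simp only [Matrix.toSquareBlock_def, Matrix.of_apply, Nmat, Nrow, Matrix.one_apply,
      Subtype.mk.injEq]
    have hij : d i = d j := by
      have := hi.trans hj.symm
      exact this
    split_ifs with h1 h2 h2
    · subst h1; subst h2; simp
    · subst h1
      simp [Ne.symm h2]
    · subst h2
      have : i ≠ p i := by
        intro h3
        have := hd i h1
        rw [← h3] at this
        exact lt_irrefl _ this
      simp [this]
    · have h3 : j ≠ p i := by
        rintro rfl
        have := hd i h1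
        omega
      simp [Ne.symm h2, h3]
  rw [this, Matrix.det_one]

open ComplexConjugate in
/-- half-plane property of the (root-modified) Laplacian determinant. -/
theorem det_Mhat_ne_zero (H : SimpleGraph W) (hH : H.Connected) (c : W → W → ℂ) (r : W)
    (hsymm : ∀ v y, c v y = c y v) (him : ∀ v y, 0 ≤ (c v y).im)
    (hpos : ∀ v y, H.Adj v y → 0 < (c v y).im) : (Mhat c r).det ≠ 0 := by
  intro h0
  rw [← Matrix.exists_mulVec_eq_zero_iff] at h0
  obtain ⟨x, hx, hMx⟩ := h0
  have hr : x r = 0 := by
    have := congrFun hMx r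
    rw [Mhat_mulVec] at this
    simpa using this
  have hv : ∀ v, v ≠ r → ∑ y, c v y * (x v - x y) = 0 := by
    intro v hvr
    have := congrFun hMx v
    rw [Mhat_mulVec, if_neg hvr] at this
    simpa using this
  have hQ : ∑ v, ∑ y, c v y * (conj (x v) * (x v - x y)) = 0 := by
    apply Finset.sum_eq_zero
    intro v _
    by_cases h : v = r
    · subst h
      simp [hr]
    · have h1 := hv v h
      calc ∑ y, c v y * (conj (x v) * (x v - x y))
          = conj (x v) * ∑ y, c v y * (x v - x y) := by
            rw [Finset.mul_sum]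
            apply Finset.sum_congr rfl
            intro y _
            ring
        _ = 0 := by rw [h1, mul_zero]
  have hQ' : ∑ v, ∑ y, c v y * (conj (x y) * (x y - x v)) = 0 := by
    rw [Finset.sum_comm]
    rw [← hQ]
    apply Finset.sum_congr rfl
    intro v _
    apply Finset.sum_congr rfl
    intro y _
    rw [hsymm]
  have h2 : ∑ v, ∑ y, c v y * (Complex.normSq (x v - x y) : ℂ) = 0 := by
    have h3 : ∀ v y, c v y * (Complex.normSq (x v - x y) : ℂ)
        = c v y * (conj (x v) * (x v - x y)) + c v y * (conj (x y) * (x y - x v)) := by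
      intro v y
      rw [Complex.normSq_eq_conj_mul_self, map_sub]
      ring
    simp_rw [h3, Finset.sum_add_distrib, hQ, hQ']
    simp
  have h3 : ∑ v, ∑ y, (c v y).im * Complex.normSq (x v - x y) = 0 := by
    have := congrArg Complex.im h2
    simpa [Complex.im_sum, Complex.im_mul_ofReal] using this
  have h4 : ∀ v y, (c v y).im * Complex.normSq (x v - x y) = 0 := by
    intro v y
    have h5 := (Finset.sum_eq_zero_iff_of_nonneg (fun v _ => Finset.sum_nonneg
      (fun y _ => mul_nonneg (him v y) (Complex.normSq_nonneg _)))).1 h3 v (Finset.mem_univ v)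
    exact (Finset.sum_eq_zero_iff_of_nonneg
      (fun y _ => mul_nonneg (him v y) (Complex.normSq_nonneg _))).1 h5 y (Finset.mem_univ y)
  have hadj : ∀ v y, H.Adj v y → x v = x y := by
    intro v y hvy
    have h5 := h4 v y
    rcases mul_eq_zero.1 h5 with h6 | h6
    · exact absurd h6 (ne_of_gt (hpos v y hvy))
    · exact sub_eq_zero.1 (Complex.normSq_eq_zero.1 h6)
  have hconst : ∀ v u, H.Reachable v u → x v = x u := by
    rintro v u ⟨w⟩
    induction w with
    | nil => rfl
    | cons h _ ih => exact (hadj _ _ h).trans ih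
  apply hx
  funext v
  rw [hconst v r (hH.preconnected v r), hr]
  rfl

open ComplexConjugate in
/-- mixed form of the half-plane property: weights in the open upper half-plane or positive. -/
theorem det_Mhat_ne_zero_mixed (H : SimpleGraph W) (hH : H.Connected) (c : W → W → ℂ) (r : W)
    (hsymm : ∀ v y, c v y = c y v) (him : ∀ v y, 0 ≤ (c v y).im)
    (hre : ∀ v y, (c v y).im = 0 → 0 ≤ (c v y).re)
    (hpos : ∀ v y, H.Adj v y → 0 < (c v y).im ∨ 0 < (c v y).re) : (Mhat c r).det ≠ 0 := by
  intro h0
  rw [← Matrix.exists_mulVec_eq_zero_iff] at h0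
  obtain ⟨x, hx, hMx⟩ := h0
  have hr : x r = 0 := by
    have := congrFun hMx r
    rw [Mhat_mulVec] at this
    simpa using this
  have hv : ∀ v, v ≠ r → ∑ y, c v y * (x v - x y) = 0 := by
    intro v hvr
    have := congrFun hMx v
    rw [Mhat_mulVec, if_neg hvr] at this
    simpa using this
  have hQ : ∑ v, ∑ y, c v y * (conj (x v) * (x v - x y)) = 0 := by
    apply Finset.sum_eq_zero
    intro v _
    by_cases h : v = r
    · subst h
      simp [hr]
    · have h1 := hv v h
      calc ∑ y, c v y * (conj (x v) * (x v - x y))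
          = conj (x v) * ∑ y, c v y * (x v - x y) := by
            rw [Finset.mul_sum]
            apply Finset.sum_congr rfl
            intro y _
            ring
        _ = 0 := by rw [h1, mul_zero]
  have hQ' : ∑ v, ∑ y, c v y * (conj (x y) * (x y - x v)) = 0 := by
    rw [Finset.sum_comm]
    rw [← hQ]
    apply Finset.sum_congr rfl
    intro v _
    apply Finset.sum_congr rfl
    intro y _
    rw [hsymm]
  have h2 : ∑ v, ∑ y, c v y * (Complex.normSq (x v - x y) : ℂ) = 0 := by
    have h3 : ∀ v y, c v y * (Complex.normSq (x v - x y) : ℂ)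
        = c v y * (conj (x v) * (x v - x y)) + c v y * (conj (x y) * (x y - x v)) := by
      intro v y
      rw [Complex.normSq_eq_conj_mul_self, map_sub]
      ring
    simp_rw [h3, Finset.sum_add_distrib, hQ, hQ']
    simp
  have h3 : ∑ v, ∑ y, (c v y).im * Complex.normSq (x v - x y) = 0 := by
    have := congrArg Complex.im h2
    simpa [Complex.im_sum, Complex.im_mul_ofReal] using this
  have h3' : ∑ v, ∑ y, (c v y).re * Complex.normSq (x v - x y) = 0 := by
    have := congrArg Complex.re h2
    simpa [Complex.re_sum, Complex.re_mul_ofReal] using this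
  have h4 : ∀ v y, (c v y).im * Complex.normSq (x v - x y) = 0 := by
    intro v y
    have h5 := (Finset.sum_eq_zero_iff_of_nonneg (fun v _ => Finset.sum_nonneg
      (fun y _ => mul_nonneg (him v y) (Complex.normSq_nonneg _)))).1 h3 v (Finset.mem_univ v)
    exact (Finset.sum_eq_zero_iff_of_nonneg
      (fun y _ => mul_nonneg (him v y) (Complex.normSq_nonneg _))).1 h5 y (Finset.mem_univ y)
  have hnn : ∀ v y, 0 ≤ (c v y).re * Complex.normSq (x v - x y) := by
    intro v y
    rcases mul_eq_zero.1 (h4 v y) with h6 | h6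
    · exact mul_nonneg (hre v y h6) (Complex.normSq_nonneg _)
    · rw [h6, mul_zero]
  have h4' : ∀ v y, (c v y).re * Complex.normSq (x v - x y) = 0 := by
    intro v y
    have h5 := (Finset.sum_eq_zero_iff_of_nonneg (fun v _ => Finset.sum_nonneg
      (fun y _ => hnn v y))).1 h3' v (Finset.mem_univ v)
    exact (Finset.sum_eq_zero_iff_of_nonneg (fun y _ => hnn v y)).1 h5 y (Finset.mem_univ y)
  have hadj : ∀ v y, H.Adj v y → x v = x y := by
    intro v y hvy
    rcases hpos v y hvy with hp | hp
    · rcases mul_eq_zero.1 (h4 v y) with h6 | h6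
      · exact absurd h6 (ne_of_gt hp)
      · exact sub_eq_zero.1 (Complex.normSq_eq_zero.1 h6)
    · rcases mul_eq_zero.1 (h4' v y) with h6 | h6
      · exact absurd h6 (ne_of_gt hp)
      · exact sub_eq_zero.1 (Complex.normSq_eq_zero.1 h6)
  have hconst : ∀ v u, H.Reachable v u → x v = x u := by
    rintro v u ⟨w⟩
    induction w with
    | nil => rfl
    | cons h _ ih => exact (hadj _ _ h).trans ih
  apply hx
  funext v
  rw [hconst v r (hH.preconnected v r), hr]
  rfl

omit [Fintype W] [DecidableEq W] in
lemma reaches_ne {r : W} {p : W → W} (hp : Reaches r p) {v : W} (hv : v ≠ r) : p v ≠ v := by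
  intro h
  obtain ⟨k, hk⟩ := hp v
  have : p^[k] v = v := Function.iterate_fixed h k
  exact hv (this.symm.trans hk)

omit [Fintype W] [DecidableEq W] in
lemma exists_closer {H : SimpleGraph W} (hH : H.Connected) {v r : W} (hv : v ≠ r) :
    ∃ u, H.Adj v u ∧ H.dist u r < H.dist v r := by
  obtain ⟨w, hw⟩ := (hH.preconnected v r).exists_walk_length_eq_dist
  cases w with
  | nil => exact absurd rfl hv
  | cons h w' =>
    refine ⟨_, h, ?_⟩
    have := SimpleGraph.dist_le w'
    simp only [SimpleGraph.Walk.length_cons] at hw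
    omega

end Abstract

section Graph
variable {V : Type*} [DecidableEq V] (G : SimpleGraph V) (S : Finset V)

/-- the graph on the vertex set `S` with edge set `A` (as in `IsSpanningTreeOn`). -/
abbrev TG (S : Finset V) (A : Finset (Sym2 V)) : SimpleGraph ↥(S : Set V) :=
  (SimpleGraph.fromEdgeSet (A : Set (Sym2 V))).induce (S : Set V)

variable {S}

omit [DecidableEq V] in
lemma TG_adj {A : Finset (Sym2 V)} {v u : ↥(S : Set V)} :
    (TG S A).Adj v u ↔ s(v.1, u.1) ∈ A ∧ v.1 ≠ u.1 := by
  simp [TG]

omit [DecidableEq V] in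
lemma mem_edgesIn {a b : V} : s(a, b) ∈ edgesIn G S ↔ (a ∈ S ∧ b ∈ S) ∧ G.Adj a b := by
  simp [edgesIn]

/-- the edge from `v` to its parent. -/
def eps (p : ↥(S : Set V) → ↥(S : Set V)) (v : ↥(S : Set V)) : Sym2 V := s(v.1, (p v).1)

/-- the edge set of a parent function. -/
def Aof (r : ↥(S : Set V)) (p : ↥(S : Set V) → ↥(S : Set V)) : Finset (Sym2 V) :=
  (univ.erase r).image (eps p)

omit [DecidableEq V] in
lemma card_edgeSet_le (A : Finset (Sym2 V)) : Nat.card (TG S A).edgeSet ≤ A.card := by
  have hinj : Function.Injective (Sym2.map (Subtype.val : ↥(S : Set V) → V)) :=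
    Sym2.map.injective Subtype.val_injective
  have hsub : Sym2.map Subtype.val '' (TG S A).edgeSet ⊆ (A : Set (Sym2 V)) := by
    rintro _ ⟨e, he, rfl⟩
    induction e using Sym2.ind with
    | _ a b =>
      rw [SimpleGraph.mem_edgeSet, TG_adj] at he
      simpa using he.1
  calc Nat.card (TG S A).edgeSet = (TG S A).edgeSet.ncard := rfl
    _ = (Sym2.map Subtype.val '' (TG S A).edgeSet).ncard :=
        (Set.ncard_image_of_injective _ hinj).symm
    _ ≤ (A : Set (Sym2 V)).ncard := Set.ncard_le_ncard hsub A.finite_toSet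
    _ = A.card := Set.ncard_coe_finset A

omit [DecidableEq V] in
lemma card_edgeSet_eq {A : Finset (Sym2 V)} (hA : A ⊆ edgesIn G S) :
    Nat.card (TG S A).edgeSet = A.card := by
  have hinj : Function.Injective (Sym2.map (Subtype.val : ↥(S : Set V) → V)) :=
    Sym2.map.injective Subtype.val_injective
  have hsub : Sym2.map Subtype.val '' (TG S A).edgeSet = (A : Set (Sym2 V)) := by
    apply Set.Subset.antisymm
    · rintro _ ⟨e, he, rfl⟩
      induction e using Sym2.ind with
      | _ a b =>
        rw [SimpleGraph.mem_edgeSet, TG_adj] at he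
        simpa using he.1
    · intro e he
      have he' := hA he
      induction e using Sym2.ind with
      | _ a b =>
        rw [mem_edgesIn] at he'
        refine ⟨s(⟨a, he'.1.1⟩, ⟨b, he'.1.2⟩), ?_, rfl⟩
        rw [SimpleGraph.mem_edgeSet, TG_adj]
        exact ⟨he, he'.2.ne⟩
  calc Nat.card (TG S A).edgeSet = (TG S A).edgeSet.ncard := rfl
    _ = (Sym2.map Subtype.val '' (TG S A).edgeSet).ncard :=
        (Set.ncard_image_of_injective _ hinj).symm
    _ = (A : Set (Sym2 V)).ncard := by rw [hsub]
    _ = A.card := Set.ncard_coe_finset A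

variable {r : ↥(S : Set V)} {p : ↥(S : Set V) → ↥(S : Set V)}

lemma TG_connected (hp : Reaches r p) : (TG S (Aof r p)).Connected := by
  have hreach : ∀ k v, p^[k] v = r → (TG S (Aof r p)).Reachable v r := by
    intro k
    induction k with
    | zero =>
      intro v hv
      rw [Function.iterate_zero, id] at hv
      subst hv
      exact SimpleGraph.Reachable.refl _
    | succ k ih =>
      intro v hv
      rw [Function.iterate_succ_apply] at hv
      by_cases hvr : v = r
      · subst hvr
        exact SimpleGraph.Reachable.refl _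
      · have hadj : (TG S (Aof r p)).Adj v (p v) := by
          rw [TG_adj]
          refine ⟨Finset.mem_image.2 ⟨v, by simp [hvr], rfl⟩, ?_⟩
          intro h
          exact reaches_ne hp hvr (Subtype.ext h.symm)
        exact hadj.reachable.trans (ih _ hv)
  rw [SimpleGraph.connected_iff]
  refine ⟨fun u v => ?_, ⟨r⟩⟩
  obtain ⟨k, hk⟩ := hp u
  obtain ⟨l, hl⟩ := hp v
  exact (hreach k u hk).trans (hreach l v hl).symm

lemma card_erase_add_one (r : ↥(S : Set V)) :
    (univ.erase r : Finset ↥(S : Set V)).card + 1 = Fintype.card ↥(S : Set V) := by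
  rw [Finset.card_erase_of_mem (mem_univ r), card_univ]
  have : 0 < Fintype.card ↥(S : Set V) := Fintype.card_pos_iff.2 ⟨r⟩
  omega

lemma isTree_and_injOn (hp : Reaches r p) :
    (TG S (Aof r p)).IsTree ∧ Set.InjOn (eps p) (univ.erase r : Finset ↥(S : Set V)) := by
  have hc := TG_connected hp
  have h1 := hc.card_vert_le_card_edgeSet_add_one
  have h2 := card_edgeSet_le (S := S) (Aof r p)
  have h3 : (Aof r p).card ≤ (univ.erase r : Finset ↥(S : Set V)).card := Finset.card_image_le
  have h4 := card_erase_add_one r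
  have hW : Nat.card ↥(S : Set V) = Fintype.card ↥(S : Set V) := Nat.card_eq_fintype_card
  rw [hW] at h1
  constructor
  · rw [SimpleGraph.isTree_iff_connected_and_card]
    refine ⟨hc, ?_⟩
    rw [hW]
    omega
  · apply Finset.card_image_iff.1
    have h5 : (Aof r p).card = (univ.erase r : Finset ↥(S : Set V)).card := by omega
    exact h5

lemma Aof_subset (hadj : ∀ v, v ≠ r → G.Adj v.1 (p v).1) : Aof r p ⊆ edgesIn G S := by
  intro e he
  obtain ⟨v, hv, rfl⟩ := Finset.mem_image.1 he
  rw [eps, mem_edgesIn]
  exact ⟨⟨v.2, (p v).2⟩, hadj v (Finset.ne_of_mem_erase hv)⟩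

lemma isSpanningTreeOn_Aof (hp : Reaches r p) (hadj : ∀ v, v ≠ r → G.Adj v.1 (p v).1) :
    IsSpanningTreeOn G S (Aof r p) :=
  ⟨Aof_subset G hadj, (isTree_and_injOn hp).1⟩

lemma Aof_injective {p' : ↥(S : Set V) → ↥(S : Set V)} (hp : Reaches r p) (hr : p r = r)
    (hr' : p' r = r) (h : Aof r p = Aof r p') : p = p' := by
  by_contra hne
  obtain ⟨v0, hv0⟩ := Function.ne_iff.1 hne
  have hstep : ∀ v, p v ≠ p' v → p (p v) ≠ p' (p v) := by
    intro v hv
    have hvr : v ≠ r := by
      rintro rfl
      exact hv (hr.trans hr'.symm)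
    have hmem : eps p v ∈ Aof r p' := by
      rw [← h]
      exact Finset.mem_image.2 ⟨v, by simp [hvr], rfl⟩
    obtain ⟨u, hu, hue⟩ := Finset.mem_image.1 hmem
    have hur : u ≠ r := Finset.ne_of_mem_erase hu
    simp only [eps, Sym2.eq_iff] at hue
    rcases hue with ⟨h1, h2⟩ | ⟨h1, h2⟩
    · have h1' : u = v := Subtype.ext h1
      subst h1'
      exact absurd (Subtype.ext h2).symm hv
    · have h1' : u = p v := Subtype.ext h1
      have h2' : p' u = v := Subtype.ext h2
      subst h1'
      rw [h2']
      intro h3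
      have horb : ∀ k, p^[k] v = v ∨ p^[k] v = p v := by
        intro k
        induction k with
        | zero => left; rfl
        | succ k ih =>
          rw [Function.iterate_succ_apply']
          rcases ih with ih | ih
          · right; rw [ih]
          · left; rw [ih, h3]
      obtain ⟨k, hk⟩ := hp v
      rcases horb k with h4 | h4
      · exact hvr (h4.symm.trans hk)
      · exact hur (h4.symm.trans hk)
  have hall : ∀ k, p (p^[k] v0) ≠ p' (p^[k] v0) := by
    intro k
    induction k with
    | zero => exact hv0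
    | succ k ih =>
      rw [Function.iterate_succ_apply']
      exact hstep _ ih
  obtain ⟨k, hk⟩ := hp v0
  have := hall k
  rw [hk] at this
  exact this (hr.trans hr'.symm)

lemma exists_parent {A : Finset (Sym2 V)} (hA : IsSpanningTreeOn G S A) (r : ↥(S : Set V)) :
    ∃ p : ↥(S : Set V) → ↥(S : Set V), p r = r ∧ Reaches r p ∧
      (∀ v, v ≠ r → G.Adj v.1 (p v).1) ∧ Aof r p = A := by
  classical
  have hT : (TG S A).IsTree := hA.2
  have hc : (TG S A).Connected := hT.connected
  choose! f hf using fun (v : ↥(S : Set V)) (hv : v ≠ r) => exists_closer hc hv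
  let p : ↥(S : Set V) → ↥(S : Set V) := fun v => if v = r then r else f v
  have hpr : p r = r := by simp [p]
  have hpv : ∀ v, v ≠ r → p v = f v := by
    intro v hv
    simp [p, hv]
  have hreach : Reaches r p := by
    have : ∀ n v, (TG S A).dist v r = n → ∃ k, p^[k] v = r := by
      intro n
      induction n using Nat.strong_induction_on with
      | _ n ih =>
        intro v hv
        by_cases hvr : v = r
        · exact ⟨0, hvr⟩
        · have h1 := (hf v hvr).2
          obtain ⟨k, hk⟩ := ih _ (hv ▸ h1) (f v) rfl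
          refine ⟨k + 1, ?_⟩
          rw [Function.iterate_succ_apply, hpv v hvr]
          exact hk
    exact fun v => this _ v rfl
  have hsub : Aof r p ⊆ A := by
    intro e he
    obtain ⟨v, hv, rfl⟩ := Finset.mem_image.1 he
    have hvr := Finset.ne_of_mem_erase hv
    rw [eps, hpv v hvr]
    exact (TG_adj.1 (hf v hvr).1).1
  have hcard : A.card ≤ (Aof r p).card := by
    have h1 := ((SimpleGraph.isTree_iff_connected_and_card).1 hT).2
    have hW : Nat.card ↥(S : Set V) = Fintype.card ↥(S : Set V) := Nat.card_eq_fintype_card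
    rw [card_edgeSet_eq G hA.1, hW] at h1
    have h2 : (Aof r p).card = (univ.erase r : Finset ↥(S : Set V)).card :=
      Finset.card_image_iff.2 (isTree_and_injOn hreach).2
    have h3 := card_erase_add_one r
    omega
  have heq : Aof r p = A := Finset.eq_of_subset_of_card_le hsub hcard
  refine ⟨p, hpr, hreach, ?_, heq⟩
  intro v hvr
  have h1 : eps p v ∈ A := hsub (Finset.mem_image.2 ⟨v, by simp [hvr], rfl⟩)
  exact ((mem_edgesIn G).1 (hA.1 h1)).2

open Classical in
/-- the weights on `S × S` attached to edge weights `z` (zero off the edges of `G`). -/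
noncomputable def cw (G : SimpleGraph V) (S : Finset V) (z : Sym2 V → ℂ)
    (v y : ↥(S : Set V)) : ℂ :=
  if G.Adj v.1 y.1 then z s(v.1, y.1) else 0

/-- **Weighted matrix-tree theorem** for the pieces of the Prelude: the determinant of the
Laplacian (root row replaced by `e_r`) is the spanning tree polynomial. -/
theorem matrix_tree [DecidablePred fun A : Finset (Sym2 V) => IsSpanningTreeOn G S A]
    (z : Sym2 V → ℂ) (r : ↥(S : Set V)) :
    (Mhat (cw G S z) r).det =
      ∑ A ∈ (edgesIn G S).powerset.filter (fun A => IsSpanningTreeOn G S A), ∏ e ∈ A, z e := by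
  classical
  rw [det_Mhat]
  have h1 : ∑ p ∈ (univ : Finset (↥(S : Set V) → ↥(S : Set V))).filter
        (fun p => p r = r ∧ Reaches r p ∧ ∀ v, v ≠ r → G.Adj v.1 (p v).1),
        (∏ v, chat (cw G S z) r v (p v)) * (Nmat r p).det
      = ∑ p, (∏ v, chat (cw G S z) r v (p v)) * (Nmat r p).det := by
    apply Finset.sum_filter_of_ne
    intro p _ hne
    have hprod : ∏ v, chat (cw G S z) r v (p v) ≠ 0 := left_ne_zero_of_mul hne
    have hdet : (Nmat r p).det ≠ 0 := right_ne_zero_of_mul hne
    rw [Finset.prod_ne_zero_iff] at hprod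
    refine ⟨?_, ?_, ?_⟩
    · have := hprod r (mem_univ r)
      simpa [chat] using this
    · by_contra h
      exact hdet (det_Nmat_of_not_reaches h)
    · intro v hv
      have := hprod v (mem_univ v)
      simp only [chat, if_neg hv, cw, ne_eq, ite_eq_right_iff, not_forall] at this
      exact this.1
  rw [← h1]
  apply Finset.sum_bij (fun p _ => Aof r p)
  · intro p hp
    rw [mem_filter] at hp
    rw [mem_filter, mem_powerset]
    exact ⟨Aof_subset G hp.2.2.2, isSpanningTreeOn_Aof G hp.2.2.1 hp.2.2.2⟩
  · intro p hp p' hp' h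
    rw [mem_filter] at hp hp'
    exact Aof_injective hp.2.2.1 hp.2.1 hp'.2.1 h
  · intro A hA
    obtain ⟨p, h1, h2, h3, h4⟩ := exists_parent G (mem_filter.1 hA).2 r
    exact ⟨p, mem_filter.2 ⟨mem_univ _, h1, h2, h3⟩, h4⟩
  · intro p hp
    rw [mem_filter] at hp
    rw [det_Nmat_of_reaches hp.2.2.1, mul_one, Aof,
      Finset.prod_image (isTree_and_injOn hp.2.2.1).2,
      ← Finset.mul_prod_erase univ _ (mem_univ r)]
    have h2 : chat (cw G S z) r r (p r) = 1 := by simp [chat, hp.2.1]
    rw [h2, one_mul]
    apply Finset.prod_congr rfl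
    intro v hv
    have hvr := Finset.ne_of_mem_erase hv
    simp [chat, hvr, cw, hp.2.2.2 v hvr, eps]

/-- **Half-plane property** of the spanning tree polynomial of a connected piece. -/
theorem treePoly_ne_zero [DecidablePred fun A : Finset (Sym2 V) => IsSpanningTreeOn G S A]
    (hc : (G.induce (S : Set V)).Connected) (z : Sym2 V → ℂ)
    (hz : ∀ e ∈ edgesIn G S, 0 < (z e).im) :
    ∑ A ∈ (edgesIn G S).powerset.filter (fun A => IsSpanningTreeOn G S A), ∏ e ∈ A, z e ≠ 0 := by
  obtain ⟨r⟩ := hc.nonempty
  rw [← matrix_tree G z r]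
  apply det_Mhat_ne_zero (G.induce (S : Set V)) hc
  · intro v y
    unfold cw
    by_cases h : G.Adj v.1 y.1
    · rw [if_pos h, if_pos h.symm, Sym2.eq_swap]
    · rw [if_neg h, if_neg (fun h' => h h'.symm)]
  · intro v y
    unfold cw
    split_ifs with h
    · exact (hz _ ((mem_edgesIn G).2 ⟨⟨v.2, y.2⟩, h⟩)).le
    · simp
  · intro v y h
    have h' : G.Adj v.1 y.1 := h
    unfold cw
    rw [if_pos h']
    exact hz _ ((mem_edgesIn G).2 ⟨⟨v.2, y.2⟩, h'⟩)

/-- **Half-plane property, mixed form**: every edge variable is in the open upper half-plane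
or is a positive real. -/
theorem treePoly_ne_zero_mixed [DecidablePred fun A : Finset (Sym2 V) => IsSpanningTreeOn G S A]
    (hc : (G.induce (S : Set V)).Connected) (z : Sym2 V → ℂ)
    (hz : ∀ e ∈ edgesIn G S, 0 < (z e).im ∨ ((z e).im = 0 ∧ 0 < (z e).re)) :
    ∑ A ∈ (edgesIn G S).powerset.filter (fun A => IsSpanningTreeOn G S A), ∏ e ∈ A, z e ≠ 0 := by
  obtain ⟨r⟩ := hc.nonempty
  rw [← matrix_tree G z r]
  apply det_Mhat_ne_zero_mixed (G.induce (S : Set V)) hc
  · intro v y
    unfold cw
    by_cases h : G.Adj v.1 y.1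
    · rw [if_pos h, if_pos h.symm, Sym2.eq_swap]
    · rw [if_neg h, if_neg (fun h' => h h'.symm)]
  · intro v y
    unfold cw
    split_ifs with h
    · rcases hz _ ((mem_edgesIn G).2 ⟨⟨v.2, y.2⟩, h⟩) with h1 | h1
      · exact h1.le
      · exact h1.1.ge
    · simp
  · intro v y
    unfold cw
    split_ifs with h
    · intro h0
      rcases hz _ ((mem_edgesIn G).2 ⟨⟨v.2, y.2⟩, h⟩) with h1 | h1
      · exact absurd h0 (ne_of_gt h1)
      · exact h1.2.le
    · simp
  · intro v y h
    have h' : G.Adj v.1 y.1 := h
    unfold cw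
    rw [if_pos h']
    rcases hz _ ((mem_edgesIn G).2 ⟨⟨v.2, y.2⟩, h'⟩) with h1 | h1
    · exact Or.inl h1
    · exact Or.inr h1.2

omit [DecidableEq V] in
/-- a connected piece has a spanning tree. -/
theorem exists_isSpanningTreeOn (hc : (G.induce (S : Set V)).Connected) :
    ∃ A, IsSpanningTreeOn G S A := by
  classical
  have h := treePoly_ne_zero G hc (fun _ => Complex.I) (fun _ _ => by simp)
  obtain ⟨A, hA, _⟩ := Finset.exists_ne_zero_of_sum_ne_zero h
  exact ⟨A, (Finset.mem_filter.1 hA).2⟩

omit [DecidableEq V] in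
/-- every spanning tree of the piece has `S.card - 1` edges. -/
theorem card_of_isSpanningTreeOn {A : Finset (Sym2 V)} (hA : IsSpanningTreeOn G S A) :
    A.card + 1 = S.card := by
  have h1 := ((SimpleGraph.isTree_iff_connected_and_card).1 hA.2).2
  have hW : Nat.card ↥(S : Set V) = S.card := by simp
  rw [card_edgeSet_eq G hA.1, hW] at h1
  exact h1

end Graph

end Crest.Agent.S0254MT
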