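import Mathlib

/-!
# ROW 168 (S0254 + S0255), package LIP: finite-volume part

Stable weights on the subsets of a finite set: negative pair correlations, nonnegative correlation
with the total number, and the resulting `1/2`-Lipschitz bound (in sup norm) for the tilted means.
-/

set_option autoImplicit false
namespace Crest.Agent.S0255L
open Finset

/-! ### abstract two-variable perturbation lemma -/

theorem ad_le_bc_of_nonvanishing {a b c d : ℂ → ℂ} {a₀ b₀ c₀ d₀ : ℝ}
    (ha : ContinuousAt a 1) (hb : ContinuousAt b 1) (hc : ContinuousAt c 1) (hd : ContinuousAt d 1)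
    (ha1 : a 1 = a₀) (hb1 : b 1 = b₀) (hc1 : c 1 = c₀) (hd1 : d 1 = d₀)
    (hne : ∀ u x y : ℂ, 0 < u.im → 0 < x.im → 0 < y.im →
      a u + b u * x + c u * y + d u * x * y ≠ 0) :
    a₀ * d₀ ≤ b₀ * c₀ := by
  by_contra hcon
  push Not at hcon
  set den : ℂ → ℂ := fun u => c u + d u * Complex.I with hden
  set num : ℂ → ℂ := fun u => a u + b u * Complex.I with hnum
  have hden1 : den 1 ≠ 0 := by
    intro h0
    have h1 := congrArg Complex.re h0
    have h2 := congrArg Complex.im h0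
    simp [hden, hc1, hd1] at h1 h2
    rw [h1, h2] at hcon
    simp at hcon
  have hdc : ContinuousAt den 1 := hc.add (hd.mul continuousAt_const)
  have hnc : ContinuousAt num 1 := ha.add (hb.mul continuousAt_const)
  have hy : ContinuousAt (fun u => (-(num u) / den u).im) 1 :=
    Complex.continuous_im.continuousAt.comp (hnc.neg.div hdc hden1)
  have hn0 : 0 < Complex.normSq (den 1) := Complex.normSq_pos.mpr hden1
  have him : 0 < (-(num 1) / den 1).im := by
    rw [Complex.div_im]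
    have e1 : (-(num 1)).im = -b₀ := by simp [hnum, ha1, hb1]
    have e2 : (-(num 1)).re = -a₀ := by simp [hnum, ha1, hb1]
    have e3 : (den 1).re = c₀ := by simp [hden, hc1, hd1]
    have e4 : (den 1).im = d₀ := by simp [hden, hc1, hd1]
    rw [e1, e2, e3, e4, ← sub_div]
    apply div_pos _ hn0
    nlinarith
  have hev : ∀ᶠ u in nhds (1 : ℂ), 0 < (-(num u) / den u).im ∧ den u ≠ 0 :=
    (hy.eventually (lt_mem_nhds him)).and (hdc.eventually_ne hden1)
  have hpath : Filter.Tendsto (fun ε : ℝ => (1 : ℂ) + ε * Complex.I) (nhds 0) (nhds 1) := by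
    have : Continuous (fun ε : ℝ => (1 : ℂ) + ε * Complex.I) := by fun_prop
    simpa using this.tendsto 0
  have hev2 := (hpath.eventually hev).filter_mono (nhdsWithin_le_nhds (s := Set.Ioi (0 : ℝ)))
  obtain ⟨ε, ⟨h1, h2⟩, hε⟩ := (hev2.and self_mem_nhdsWithin).exists
  have hε' : (0 : ℝ) < ε := hε
  refine hne ((1 : ℂ) + ε * Complex.I) Complex.I _ (by simpa using hε') (by simp) h1 ?_
  set u : ℂ := (1 : ℂ) + ε * Complex.I
  have e : a u + b u * Complex.I + c u * (-(num u) / den u) + d u * Complex.I * (-(num u) / den u)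
      = num u + den u * (-(num u) / den u) := by
    simp only [hden, hnum]; ring
  rw [e, mul_div_cancel₀ _ h2]
  ring

/-! ### weights on the subsets of a finite set -/

variable {ι : Type*} [DecidableEq ι]

/-- total weight -/
def T0 (π : Finset ι → ℝ) (F : Finset ι) : ℝ := ∑ S ∈ F.powerset, π S

/-- weight of the sets containing `v` -/
def T1 (π : Finset ι → ℝ) (F : Finset ι) (v : ι) : ℝ :=
  ∑ S ∈ F.powerset, if v ∈ S then π S else 0

/-- weight of the sets containing `v` and `w` -/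
def T2 (π : Finset ι → ℝ) (F : Finset ι) (v w : ι) : ℝ :=
  ∑ S ∈ F.powerset, if v ∈ S ∧ w ∈ S then π S else 0

/-- The generating polynomial of the weights does not vanish on the product of upper half planes. -/
def Stable (π : Finset ι → ℝ) (F : Finset ι) : Prop :=
  ∀ z : ι → ℂ, (∀ i ∈ F, 0 < (z i).im) → ∑ S ∈ F.powerset, (π S : ℂ) * ∏ i ∈ S, z i ≠ 0

theorem prod_two_special (S : Finset ι) {v w : ι} (hvw : v ≠ w) (x y u : ℂ) :
    ∏ i ∈ S, (if i = v then x else if i = w then y else u)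
      = (if v ∈ S then x else 1) * (if w ∈ S then y else 1)
        * u ^ (S.filter (fun i => i ≠ v ∧ i ≠ w)).card := by
  have h : ∀ i, (if i = v then x else if i = w then y else u)
      = (if i = v then x else 1) * (if i = w then y else 1)
        * (if i ≠ v ∧ i ≠ w then u else 1) := by
    intro i
    by_cases h1 : i = v
    · subst h1; simp [hvw]
    · by_cases h2 : i = w
      · subst h2; simp [h1]
      · simp [h1, h2]
  simp_rw [h]
  rw [Finset.prod_mul_distrib, Finset.prod_mul_distrib, Finset.prod_ite_eq', Finset.prod_ite_eq',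
    Finset.prod_ite, Finset.prod_const, Finset.prod_const_one, mul_one]

/-- **Negative pair correlation** for stable weights. -/
theorem negcor {π : Finset ι → ℝ} {F : Finset ι} (hst : Stable π F) {v w : ι}
    (hvw : v ≠ w) : T0 π F * T2 π F v w ≤ T1 π F v * T1 π F w := by
  classical
  set k : Finset ι → ℕ := fun S => (S.filter (fun i => i ≠ v ∧ i ≠ w)).card with hk
  set cA : Finset ι → ℝ := fun S => if v ∉ S ∧ w ∉ S then π S else 0 with hcA
  set cB : Finset ι → ℝ := fun S => if v ∈ S ∧ w ∉ S then π S else 0 with hcB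
  set cC : Finset ι → ℝ := fun S => if v ∉ S ∧ w ∈ S then π S else 0 with hcC
  set cD : Finset ι → ℝ := fun S => if v ∈ S ∧ w ∈ S then π S else 0 with hcD
  have hcont : ∀ c : Finset ι → ℝ,
      ContinuousAt (fun u : ℂ => ∑ S ∈ F.powerset, (c S : ℂ) * u ^ k S) 1 := by
    intro c
    have : Continuous (fun u : ℂ => ∑ S ∈ F.powerset, (c S : ℂ) * u ^ k S) := by fun_prop
    exact this.continuousAt
  have hone : ∀ c : Finset ι → ℝ, (fun u : ℂ => ∑ S ∈ F.powerset, (c S : ℂ) * u ^ k S) 1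
      = ((∑ S ∈ F.powerset, c S : ℝ) : ℂ) := by
    intro c; simp
  have main := ad_le_bc_of_nonvanishing (hcont cA) (hcont cB) (hcont cC) (hcont cD)
    (hone cA) (hone cB) (hone cC) (hone cD) (by
      intro u x y hu hx hy
      have h := hst (fun i => if i = v then x else if i = w then y else u) (by
        intro i _
        by_cases h1 : i = v
        · simpa [h1] using hx
        · by_cases h2 : i = w
          · subst h2; simpa [h1] using hy
          · simpa [h1, h2] using hu)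
      convert h using 1
      simp only [Finset.sum_mul, ← Finset.sum_add_distrib]
      refine Finset.sum_congr rfl (fun S _ => ?_)
      rw [prod_two_special S hvw]
      by_cases h1 : v ∈ S <;> by_cases h2 : w ∈ S <;> simp [hcA, hcB, hcC, hcD, hk, h1, h2] <;> ring)
  have e0 : T0 π F = ∑ S ∈ F.powerset, cA S + ∑ S ∈ F.powerset, cB S + ∑ S ∈ F.powerset, cC S
      + ∑ S ∈ F.powerset, cD S := by
    simp only [T0, ← Finset.sum_add_distrib]
    refine Finset.sum_congr rfl (fun S _ => ?_)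
    by_cases h1 : v ∈ S <;> by_cases h2 : w ∈ S <;> simp [hcA, hcB, hcC, hcD, h1, h2]
  have e1 : T1 π F v = ∑ S ∈ F.powerset, cB S + ∑ S ∈ F.powerset, cD S := by
    simp only [T1, ← Finset.sum_add_distrib]
    refine Finset.sum_congr rfl (fun S _ => ?_)
    by_cases h1 : v ∈ S <;> by_cases h2 : w ∈ S <;> simp [hcB, hcD, h1, h2]
  have e2 : T1 π F w = ∑ S ∈ F.powerset, cC S + ∑ S ∈ F.powerset, cD S := by
    simp only [T1, ← Finset.sum_add_distrib]
    refine Finset.sum_congr rfl (fun S _ => ?_)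
    by_cases h1 : v ∈ S <;> by_cases h2 : w ∈ S <;> simp [hcC, hcD, h1, h2]
  have e3 : T2 π F v w = ∑ S ∈ F.powerset, cD S := rfl
  rw [e0, e1, e2, e3]
  nlinarith [main]

/-- The statement of the Schwarz--Pick lemma (package SP, helper14). -/
def SPStatement : Prop :=
  ∀ (A B : Polynomial ℝ), (∀ i, 0 ≤ A.coeff i) → (∀ i, 0 ≤ B.coeff i) → 0 < A.eval 1 →
    0 < B.eval 1 →
    (∀ s z : ℂ, 0 < s.im → 0 < z.im → Polynomial.aeval s A + z * Polynomial.aeval s B ≠ 0) →
    A.derivative.eval 1 * B.eval 1 - A.eval 1 * B.derivative.eval 1 ≤ A.eval 1 * B.eval 1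

theorem prod_one_special (S : Finset ι) (v : ι) (x u : ℂ) :
    ∏ i ∈ S, (if i = v then x else u) = (if v ∈ S then x else 1) * u ^ (S.erase v).card := by
  by_cases hv : v ∈ S
  · rw [← Finset.mul_prod_erase S _ hv]
    simp only [if_true, hv]
    congr 1
    rw [← Finset.prod_const]
    refine Finset.prod_congr rfl (fun i hi => ?_)
    simp [Finset.ne_of_mem_erase hi]
  · rw [Finset.erase_eq_of_notMem hv, ← Finset.prod_const]
    simp only [hv, if_false, one_mul]
    refine Finset.prod_congr rfl (fun i hi => ?_)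
    have : i ≠ v := fun h => hv (h ▸ hi)
    simp [this]

theorem sum_T2 (π : Finset ι → ℝ) (F : Finset ι) (v : ι) :
    ∑ w ∈ F, T2 π F v w = ∑ S ∈ F.powerset, (if v ∈ S then π S else 0) * (S.card : ℝ) := by
  unfold T2
  rw [Finset.sum_comm]
  refine Finset.sum_congr rfl (fun S hS => ?_)
  have hS' : S ⊆ F := Finset.mem_powerset.mp hS
  by_cases hv : v ∈ S
  · simp only [hv, true_and, if_true]
    rw [← Finset.sum_filter, Finset.sum_const, nsmul_eq_mul, mul_comm,
      Finset.filter_mem_eq_inter, Finset.inter_eq_right.mpr hS']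
  · simp [hv]

theorem sum_T1 (π : Finset ι → ℝ) (F : Finset ι) :
    ∑ w ∈ F, T1 π F w = ∑ S ∈ F.powerset, π S * (S.card : ℝ) := by
  unfold T1
  rw [Finset.sum_comm]
  refine Finset.sum_congr rfl (fun S hS => ?_)
  have hS' : S ⊆ F := Finset.mem_powerset.mp hS
  rw [← Finset.sum_filter, Finset.sum_const, nsmul_eq_mul, mul_comm,
    Finset.filter_mem_eq_inter, Finset.inter_eq_right.mpr hS']

/-- **Nonnegative correlation with the total number** for stable nonnegative weights. -/
theorem poscor (hSP : SPStatement) {π : Finset ι → ℝ} {F : Finset ι}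
    (hπ : ∀ S ∈ F.powerset, 0 ≤ π S) (hst : Stable π F) (v : ι) :
    0 ≤ ∑ w ∈ F, (T0 π F * T2 π F v w - T1 π F v * T1 π F w) := by
  classical
  set k : Finset ι → ℕ := fun S => (S.erase v).card with hk
  set cA : Finset ι → ℝ := fun S => if v ∈ S then 0 else π S with hcA
  set cB : Finset ι → ℝ := fun S => if v ∈ S then π S else 0 with hcB
  have hcA0 : ∀ S ∈ F.powerset, 0 ≤ cA S := by
    intro S hS; simp only [hcA]; split_ifs; exacts [le_rfl, hπ S hS]
  have hcB0 : ∀ S ∈ F.powerset, 0 ≤ cB S := by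
    intro S hS; simp only [hcB]; split_ifs; exacts [hπ S hS, le_rfl]
  set A1 : ℝ := ∑ S ∈ F.powerset, cA S with hA1
  set B1 : ℝ := ∑ S ∈ F.powerset, cB S with hB1
  set A1' : ℝ := ∑ S ∈ F.powerset, cA S * k S with hA1'
  set B1' : ℝ := ∑ S ∈ F.powerset, cB S * k S with hB1'
  -- the identity
  have e0 : T0 π F = A1 + B1 := by
    simp only [T0, hA1, hB1, ← Finset.sum_add_distrib]
    refine Finset.sum_congr rfl (fun S _ => ?_)
    by_cases h1 : v ∈ S <;> simp [hcA, hcB, h1]
  have e1 : T1 π F v = B1 := rfl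
  have e2 : ∑ w ∈ F, T2 π F v w = B1' + B1 := by
    rw [sum_T2]
    simp only [hB1', hB1, ← Finset.sum_add_distrib]
    refine Finset.sum_congr rfl (fun S _ => ?_)
    by_cases h1 : v ∈ S
    · have : (S.card : ℝ) = k S + 1 := by
        simp only [hk]; exact_mod_cast (Finset.card_erase_add_one h1).symm
      simp only [hcB, h1, if_true, this]; ring
    · simp [hcB, h1]
  have e3 : ∑ w ∈ F, T1 π F w = A1' + B1' + B1 := by
    rw [sum_T1]
    simp only [hA1', hB1', hB1, ← Finset.sum_add_distrib]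
    refine Finset.sum_congr rfl (fun S _ => ?_)
    by_cases h1 : v ∈ S
    · have : (S.card : ℝ) = k S + 1 := by
        simp only [hk]; exact_mod_cast (Finset.card_erase_add_one h1).symm
      simp only [hcA, hcB, h1, if_true, this]; ring
    · simp [hcA, hcB, hk, h1]
  have eid : ∑ w ∈ F, (T0 π F * T2 π F v w - T1 π F v * T1 π F w)
      = A1 * B1 - (A1' * B1 - A1 * B1') := by
    rw [Finset.sum_sub_distrib, ← Finset.mul_sum, ← Finset.mul_sum, e0, e1, e2, e3]; ring
  rw [eid]
  have hA1n : 0 ≤ A1 := Finset.sum_nonneg hcA0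
  have hB1n : 0 ≤ B1 := Finset.sum_nonneg hcB0
  rcases hA1n.eq_or_lt with hA0 | hApos
  · -- all `cA` vanish
    have hz := (Finset.sum_eq_zero_iff_of_nonneg hcA0).mp hA0.symm
    have : A1' = 0 := Finset.sum_eq_zero (fun S hS => by rw [hz S hS, zero_mul])
    rw [this, ← hA0]; simp
  rcases hB1n.eq_or_lt with hB0 | hBpos
  · have hz := (Finset.sum_eq_zero_iff_of_nonneg hcB0).mp hB0.symm
    have : B1' = 0 := Finset.sum_eq_zero (fun S hS => by rw [hz S hS, zero_mul])
    rw [this, ← hB0]; simp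
  -- the polynomials
  set A : Polynomial ℝ := ∑ S ∈ F.powerset, Polynomial.C (cA S) * Polynomial.X ^ k S with hA
  set B : Polynomial ℝ := ∑ S ∈ F.powerset, Polynomial.C (cB S) * Polynomial.X ^ k S with hB
  have hAc : ∀ i, 0 ≤ A.coeff i := by
    intro i
    rw [hA, Polynomial.finsetSum_coeff]
    refine Finset.sum_nonneg (fun S hS => ?_)
    rw [Polynomial.coeff_C_mul_X_pow]
    split_ifs; exacts [hcA0 S hS, le_rfl]
  have hBc : ∀ i, 0 ≤ B.coeff i := by
    intro i
    rw [hB, Polynomial.finsetSum_coeff]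
    refine Finset.sum_nonneg (fun S hS => ?_)
    rw [Polynomial.coeff_C_mul_X_pow]
    split_ifs; exacts [hcB0 S hS, le_rfl]
  have hAe : A.eval 1 = A1 := by
    rw [hA, Polynomial.eval_finsetSum]; simp [hA1]
  have hBe : B.eval 1 = B1 := by
    rw [hB, Polynomial.eval_finsetSum]; simp [hB1]
  have hAd : A.derivative.eval 1 = A1' := by
    rw [hA, Polynomial.derivative_sum, Polynomial.eval_finsetSum]
    simp [hA1', Polynomial.derivative_X_pow]
  have hBd : B.derivative.eval 1 = B1' := by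
    rw [hB, Polynomial.derivative_sum, Polynomial.eval_finsetSum]
    simp [hB1', Polynomial.derivative_X_pow]
  have := hSP A B hAc hBc (hAe ▸ hApos) (hBe ▸ hBpos) (by
    intro s z hs hz
    have h := hst (fun i => if i = v then z else s) (by
      intro i _
      by_cases h1 : i = v
      · simpa [h1] using hz
      · simpa [h1] using hs)
    convert h using 1
    rw [hA, hB, map_sum, map_sum, Finset.mul_sum, ← Finset.sum_add_distrib]
    refine Finset.sum_congr rfl (fun S _ => ?_)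
    rw [prod_one_special]
    by_cases h1 : v ∈ S <;> simp [hcA, hcB, hk, h1] <;> ring)
  rw [hAe, hBe, hAd, hBd] at this
  linarith

/-! ### the algebraic bound on the sum of covariances -/

theorem T2_self (π : Finset ι → ℝ) (F : Finset ι) (v : ι) : T2 π F v v = T1 π F v := by
  simp [T2, T1]

theorem T1_nonneg {π : Finset ι → ℝ} {F : Finset ι} (hπ : ∀ S ∈ F.powerset, 0 ≤ π S) (v : ι) :
    0 ≤ T1 π F v :=
  Finset.sum_nonneg (fun S hS => by split_ifs; exacts [hπ S hS, le_rfl])

theorem T1_le_T0 {π : Finset ι → ℝ} {F : Finset ι} (hπ : ∀ S ∈ F.powerset, 0 ≤ π S) (v : ι) :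
    T1 π F v ≤ T0 π F :=
  Finset.sum_le_sum (fun S hS => by split_ifs; exacts [le_rfl, hπ S hS])

theorem cov_sum_bound {π : Finset ι → ℝ} {F : Finset ι} (hπ : ∀ S ∈ F.powerset, 0 ≤ π S) {v : ι}
    (hv : v ∈ F)
    (hNC : ∀ w ∈ F, w ≠ v → T0 π F * T2 π F v w ≤ T1 π F v * T1 π F w)
    (hPC : 0 ≤ ∑ w ∈ F, (T0 π F * T2 π F v w - T1 π F v * T1 π F w))
    {d : ι → ℝ} {δ : ℝ} (hd : ∀ i ∈ F, |d i| ≤ δ) :
    |∑ w ∈ F, d w * (T0 π F * T2 π F v w - T1 π F v * T1 π F w)| ≤ δ / 2 * T0 π F ^ 2 := by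
  set C : ι → ℝ := fun w => T0 π F * T2 π F v w - T1 π F v * T1 π F w with hC
  have hδ : 0 ≤ δ := (abs_nonneg _).trans (hd v hv)
  have h1 : |∑ w ∈ F, d w * C w| ≤ δ * ∑ w ∈ F, |C w| := by
    refine (Finset.abs_sum_le_sum_abs _ _).trans ?_
    rw [Finset.mul_sum]
    refine Finset.sum_le_sum (fun w hw => ?_)
    rw [abs_mul]
    exact mul_le_mul_of_nonneg_right (hd w hw) (abs_nonneg _)
  have hCv : C v = T1 π F v * (T0 π F - T1 π F v) := by
    simp only [hC, T2_self]; ring
  have hCv0 : 0 ≤ C v := by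
    rw [hCv]; exact mul_nonneg (T1_nonneg hπ v) (sub_nonneg.mpr (T1_le_T0 hπ v))
  have hCv4 : C v ≤ T0 π F ^ 2 / 4 := by
    rw [hCv]; nlinarith [sq_nonneg (T0 π F - 2 * T1 π F v)]
  have h2 : ∑ w ∈ F, |C w| = C v + ∑ w ∈ F.erase v, (-C w) := by
    rw [← Finset.add_sum_erase F _ hv, abs_of_nonneg hCv0]
    congr 1
    refine Finset.sum_congr rfl (fun w hw => ?_)
    have := hNC w (Finset.mem_of_mem_erase hw) (Finset.ne_of_mem_erase hw)
    exact abs_of_nonpos (by simp only [hC]; linarith)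
  have h3 : ∑ w ∈ F, C w = C v + ∑ w ∈ F.erase v, C w := (Finset.add_sum_erase F _ hv).symm
  have h4 : ∑ w ∈ F, |C w| ≤ T0 π F ^ 2 / 2 := by
    rw [h2, Finset.sum_neg_distrib]
    have : 0 ≤ ∑ w ∈ F, C w := hPC
    linarith
  calc |∑ w ∈ F, d w * C w| ≤ δ * ∑ w ∈ F, |C w| := h1
    _ ≤ δ * (T0 π F ^ 2 / 2) := mul_le_mul_of_nonneg_left h4 hδ
    _ = δ / 2 * T0 π F ^ 2 := by ring

/-! ### external fields -/

/-- weights tilted by the field `h` -/
noncomputable def W (p : Finset ι → ℝ) (h : ι → ℝ) : Finset ι → ℝ :=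
  fun S => p S * Real.exp (∑ i ∈ S, h i)

/-- partition function -/
noncomputable def ZF (p : Finset ι → ℝ) (F : Finset ι) (h : ι → ℝ) : ℝ := T0 (W p h) F

/-- unnormalised mean at `v` -/
noncomputable def NF (p : Finset ι → ℝ) (F : Finset ι) (v : ι) (h : ι → ℝ) : ℝ := T1 (W p h) F v

/-- tilted mean at `v` -/
noncomputable def mF (p : Finset ι → ℝ) (F : Finset ι) (v : ι) (h : ι → ℝ) : ℝ :=
  NF p F v h / ZF p F h

theorem W_nonneg {p : Finset ι → ℝ} {F : Finset ι} (hp : ∀ S ∈ F.powerset, 0 ≤ p S) (h : ι → ℝ) :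
    ∀ S ∈ F.powerset, 0 ≤ W p h S :=
  fun S hS => mul_nonneg (hp S hS) (Real.exp_pos _).le

theorem Stable.tilt {p : Finset ι → ℝ} {F : Finset ι} (hst : Stable p F) (h : ι → ℝ) :
    Stable (W p h) F := by
  intro z hz
  have := hst (fun i => (Real.exp (h i) : ℂ) * z i) (by
    intro i hi
    rw [Complex.im_ofReal_mul]
    exact mul_pos (Real.exp_pos _) (hz i hi))
  convert this using 1
  refine Finset.sum_congr rfl (fun S _ => ?_)
  rw [Finset.prod_mul_distrib, W, Real.exp_sum]
  push_cast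
  ring

theorem exists_pos_of_stable {p : Finset ι → ℝ} {F : Finset ι} (hp : ∀ S ∈ F.powerset, 0 ≤ p S)
    (hst : Stable p F) : ∃ S ∈ F.powerset, 0 < p S := by
  by_contra hcon
  push Not at hcon
  refine hst (fun _ => Complex.I) (by simp) (Finset.sum_eq_zero (fun S hS => ?_))
  rw [le_antisymm (hcon S hS) (hp S hS)]
  simp

theorem ZF_pos {p : Finset ι → ℝ} {F : Finset ι} (hp : ∀ S ∈ F.powerset, 0 ≤ p S)
    (hpos : ∃ S ∈ F.powerset, 0 < p S) (h : ι → ℝ) : 0 < ZF p F h := by
  obtain ⟨S, hS, hS0⟩ := hpos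
  exact Finset.sum_pos' (W_nonneg hp h) ⟨S, hS, mul_pos hS0 (Real.exp_pos _)⟩

theorem sum_mul_sum_mem (c : Finset ι → ℝ) (F : Finset ι) (d : ι → ℝ) :
    ∑ S ∈ F.powerset, c S * ∑ i ∈ S, d i
      = ∑ w ∈ F, d w * ∑ S ∈ F.powerset, if w ∈ S then c S else 0 := by
  simp_rw [Finset.mul_sum]
  rw [Finset.sum_comm]
  refine Finset.sum_congr rfl (fun S hS => ?_)
  have hS' : S ⊆ F := Finset.mem_powerset.mp hS
  have : ∀ w, d w * (if w ∈ S then c S else 0) = if w ∈ S then c S * d w else 0 := by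
    intro w; split_ifs <;> ring
  simp_rw [this]
  rw [Finset.sum_ite_mem, Finset.inter_eq_right.mpr hS']

theorem hasDerivAt_W (p : Finset ι → ℝ) (h d : ι → ℝ) (S : Finset ι) (t : ℝ) :
    HasDerivAt (fun t : ℝ => W p (fun i => h i + t * d i) S)
      (W p (fun i => h i + t * d i) S * ∑ i ∈ S, d i) t := by
  unfold W
  have h1 : HasDerivAt (fun t : ℝ => ∑ i ∈ S, (h i + t * d i)) (∑ i ∈ S, d i) t := by
    refine HasDerivAt.fun_sum (fun i _ => ?_)
    simpa using ((hasDerivAt_id t).mul_const (d i)).const_add (h i)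
  have h2 := (h1.exp).const_mul (p S)
  exact h2.congr_deriv (by ring)

theorem hasDerivAt_ZF (p : Finset ι → ℝ) (F : Finset ι) (h d : ι → ℝ) (t : ℝ) :
    HasDerivAt (fun t : ℝ => ZF p F (fun i => h i + t * d i))
      (∑ w ∈ F, d w * NF p F w (fun i => h i + t * d i)) t := by
  unfold ZF NF T0 T1
  rw [← sum_mul_sum_mem]
  exact HasDerivAt.fun_sum (fun S _ => hasDerivAt_W p h d S t)

theorem hasDerivAt_NF (p : Finset ι → ℝ) (F : Finset ι) (v : ι) (h d : ι → ℝ) (t : ℝ) :
    HasDerivAt (fun t : ℝ => NF p F v (fun i => h i + t * d i))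
      (∑ w ∈ F, d w * T2 (W p (fun i => h i + t * d i)) F v w) t := by
  unfold NF T1 T2
  have e : ∀ w S, (if v ∈ S ∧ w ∈ S then W p (fun i => h i + t * d i) S else 0)
      = if w ∈ S then (if v ∈ S then W p (fun i => h i + t * d i) S else 0) else 0 := by
    intro w S
    by_cases h1 : v ∈ S <;> by_cases h2 : w ∈ S <;> simp [h1, h2]
  simp_rw [e]
  rw [← sum_mul_sum_mem]
  refine HasDerivAt.fun_sum (fun S _ => ?_)
  by_cases h1 : v ∈ S
  · simpa [h1] using hasDerivAt_W p h d S t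
  · simpa [h1] using hasDerivAt_const t (0 : ℝ)

/-- **Lipschitz bound** from negative pair correlations and nonnegative correlation with the
number, at all fields. -/
theorem mF_lipschitz_of {p : Finset ι → ℝ} {F : Finset ι} (hp : ∀ S ∈ F.powerset, 0 ≤ p S)
    (hpos : ∃ S ∈ F.powerset, 0 < p S) {v : ι} (hv : v ∈ F)
    (hNC : ∀ h : ι → ℝ, ∀ w ∈ F, w ≠ v →
      T0 (W p h) F * T2 (W p h) F v w ≤ T1 (W p h) F v * T1 (W p h) F w)
    (hPC : ∀ h : ι → ℝ,
      0 ≤ ∑ w ∈ F, (T0 (W p h) F * T2 (W p h) F v w - T1 (W p h) F v * T1 (W p h) F w))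
    {h h' : ι → ℝ} {δ : ℝ} (hδ : ∀ i ∈ F, |h i - h' i| ≤ δ) :
    |mF p F v h - mF p F v h'| ≤ δ / 2 := by
  set d : ι → ℝ := fun i => h i - h' i with hd
  set H : ℝ → ι → ℝ := fun t i => h' i + t * d i with hH
  have hder : ∀ t ∈ (Set.univ : Set ℝ), HasDerivWithinAt (fun t => mF p F v (H t))
      (((∑ w ∈ F, d w * T2 (W p (H t)) F v w) * ZF p F (H t)
        - NF p F v (H t) * ∑ w ∈ F, d w * NF p F w (H t)) / ZF p F (H t) ^ 2) Set.univ t := by
    intro t _
    exact ((hasDerivAt_NF p F v h' d t).div (hasDerivAt_ZF p F h' d t)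
      (ZF_pos hp hpos _).ne').hasDerivWithinAt
  have hbound : ∀ t ∈ (Set.univ : Set ℝ),
      ‖((∑ w ∈ F, d w * T2 (W p (H t)) F v w) * ZF p F (H t)
        - NF p F v (H t) * ∑ w ∈ F, d w * NF p F w (H t)) / ZF p F (H t) ^ 2‖ ≤ δ / 2 := by
    intro t _
    have hZ := ZF_pos hp hpos (H t)
    have hb := cov_sum_bound (W_nonneg hp (H t)) hv (hNC (H t)) (hPC (H t)) (d := d) hδ
    rw [Real.norm_eq_abs, abs_div, abs_of_pos (by positivity : 0 < ZF p F (H t) ^ 2),
      div_le_iff₀ (by positivity)]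
    have e : (∑ w ∈ F, d w * T2 (W p (H t)) F v w) * ZF p F (H t)
        - NF p F v (H t) * ∑ w ∈ F, d w * NF p F w (H t)
        = ∑ w ∈ F, d w * (T0 (W p (H t)) F * T2 (W p (H t)) F v w
          - T1 (W p (H t)) F v * T1 (W p (H t)) F w) := by
      simp only [ZF, NF, Finset.sum_mul, Finset.mul_sum, ← Finset.sum_sub_distrib]
      refine Finset.sum_congr rfl (fun w _ => ?_)
      ring
    rw [e]
    exact hb
  have := Convex.norm_image_sub_le_of_norm_hasDerivWithin_le hder hbound convex_univ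
    (Set.mem_univ 0) (Set.mem_univ 1)
  have e1 : H 1 = h := by ext i; simp [hH, hd]
  have e0 : H 0 = h' := by ext i; simp [hH]
  simpa [e1, e0] using this

/-- **Lipschitz bound for stable weights.** -/
theorem mF_lipschitz (hSP : SPStatement) {p : Finset ι → ℝ} {F : Finset ι}
    (hp : ∀ S ∈ F.powerset, 0 ≤ p S) (hst : Stable p F) {v : ι} (hv : v ∈ F)
    {h h' : ι → ℝ} {δ : ℝ} (hδ : ∀ i ∈ F, |h i - h' i| ≤ δ) :
    |mF p F v h - mF p F v h'| ≤ δ / 2 :=
  mF_lipschitz_of hp (exists_pos_of_stable hp hst) hv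
    (fun h _ _ hw => negcor (hst.tilt h) hw.symm)
    (fun h => poscor hSP (W_nonneg hp h) (hst.tilt h) v) hδ

end Crest.Agent.S0255L
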