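import Crest.Agent.S0254_Mono
import Crest.Agent.S0254_MT
import Crest.Agent.S0255_Lip
import Crest.Agent.S0254_Defs

/-!
# ROW168 / S0254, package MONO (C3), instantiation in the `FU` names (helper92)
-/

namespace Crest.Agent.S0254Mono

open Finset SimpleGraph Crest.ProbabilityR.SpanningTrees Filter Topology

open scoped Classical in
lemma ZZ_trees_eq {V : Type*} (G : SimpleGraph V) (S : Finset V) (w : Sym2 V → ℝ)
    (B : Finset (Sym2 V)) :
    ZZ (trees G S) w B = ∑ A ∈ (edgesIn G S).powerset,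
      if B ⊆ A then (if IsSpanningTreeOn G S A then ∏ x ∈ A, w x else 0) else 0 := by
  unfold ZZ trees
  rw [Finset.sum_filter, Finset.sum_filter]
  refine Finset.sum_congr rfl (fun A _ => ?_)
  by_cases h1 : IsSpanningTreeOn G S A <;> by_cases h2 : B ⊆ A <;> simp [h1, h2]

open scoped Classical in
/-- pairwise negative correlation of the weighted spanning trees of a connected piece. -/
theorem pnc_trees {V : Type*} (G : SimpleGraph V) (S : Finset V)
    (hc : (G.induce (S : Set V)).Connected) : PNC (trees G S) := by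
  intro w hw e f hef
  set π : Finset (Sym2 V) → ℝ := fun A => if IsSpanningTreeOn G S A then ∏ x ∈ A, w x else 0
    with hπ
  have hst : S0255L.Stable π (edgesIn G S) := by
    intro z hz
    have := S0254MT.treePoly_ne_zero G hc (fun x => (w x : ℂ) * z x) (by
      intro x hx
      rw [Complex.im_ofReal_mul]
      exact mul_pos (hw x) (hz x hx))
    convert this using 1
    rw [Finset.sum_filter]
    refine Finset.sum_congr rfl (fun A _ => ?_)
    by_cases h : IsSpanningTreeOn G S A
    · simp [hπ, h, Finset.prod_mul_distrib]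
    · simp [hπ, h]
  have key := S0255L.negcor hst hef
  have e0 : ZZ (trees G S) w ∅ = S0255L.T0 π (edgesIn G S) := by
    rw [ZZ_trees_eq]
    unfold S0255L.T0
    refine Finset.sum_congr rfl (fun A _ => ?_)
    simp [hπ]
  have e1 : ∀ x, ZZ (trees G S) w (insert x ∅) = S0255L.T1 π (edgesIn G S) x := by
    intro x
    rw [ZZ_trees_eq]
    unfold S0255L.T1
    refine Finset.sum_congr rfl (fun A _ => ?_)
    by_cases h : x ∈ A <;> simp [hπ, h]
  have e2 : ZZ (trees G S) w (insert e (insert f ∅)) = S0255L.T2 π (edgesIn G S) e f := by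
    rw [ZZ_trees_eq]
    unfold S0255L.T2
    refine Finset.sum_congr rfl (fun A _ => ?_)
    by_cases h : e ∈ A <;> by_cases h' : f ∈ A <;> simp [hπ, h, h', Finset.insert_subset_iff]
  rw [e0, e1, e1, e2]
  linarith [key]

end Crest.Agent.S0254Mono

namespace Crest.Agent.FU

open Finset SimpleGraph Crest.ProbabilityR.SpanningTrees Filter Topology
open Crest.Agent.S0254Mono

theorem ustContains_anti (G : SimpleGraph ℕ) (S S' : Finset ℕ) (hSS : S ⊆ S') (hS : Piece G S)
    (hS' : Piece G S') (F : Finset (Sym2 ℕ)) (hF : F ⊆ edgesIn G S) :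
    ustContains G S' F ≤ ustContains G S F :=
  S0254Mono.ustContains_anti (fun T hT => pnc_trees G T hT) hSS hS hS' hF

lemma qTerm_nonneg (G : SimpleGraph ℕ) (A : Finset (Sym2 ℕ)) (S : Finset ℕ) :
    0 ≤ qTerm G A S := by
  unfold qTerm
  split_ifs
  · exact ustContains_nonneg _ _ _
  · exact zero_le_one

lemma bddBelow_qTerm (G : SimpleGraph ℕ) (A : Finset (Sym2 ℕ)) :
    BddBelow (Set.range (qTerm G A)) :=
  ⟨0, by rintro _ ⟨S, rfl⟩; exact qTerm_nonneg G A S⟩

/-- `FU.qG` agrees with `S0254Mono.qG` as soon as some piece contains `F`. -/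
lemma qG_eq_mono (G : SimpleGraph ℕ) (F : Finset (Sym2 ℕ))
    (hF : (↑F : Set (Sym2 ℕ)) ⊆ G.edgeSet) {S0 : Finset ℕ} (hS0 : S0 ∈ pieces G F) :
    qG G F = S0254Mono.qG G F := by
  unfold qG
  rw [if_pos hF]
  apply le_antisymm
  · refine le_csInf (Set.Nonempty.image _ ⟨S0, hS0⟩) ?_
    rintro _ ⟨T, hT, rfl⟩
    calc (⨅ S, qTerm G F S) ≤ qTerm G F T := ciInf_le (bddBelow_qTerm G F) T
      _ = ustContains G T F := by
        unfold qTerm
        exact if_pos (show Piece G T ∧ F ⊆ edgesIn G T from hT)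
  · refine le_ciInf fun T => ?_
    unfold qTerm
    split_ifs with h
    · exact qG_le h
    · exact (qG_le hS0).trans (ustContains_le_one _ _ _)

theorem tendsto_qG (G : SimpleGraph ℕ) (S : ℕ → Finset ℕ) (hmono : Monotone S)
    (hex : ∀ v, ∃ n, v ∈ S n) (hp : ∀ n, Piece G (S n)) (F : Finset (Sym2 ℕ))
    (hF : (↑F : Set (Sym2 ℕ)) ⊆ G.edgeSet) :
    Tendsto (fun n => ustContains G (S n) F) atTop (𝓝 (qG G F)) := by
  obtain ⟨n0, hn0⟩ := exists_edges_subset_of_exhaustion hmono hex F hF
  rw [qG_eq_mono G F hF (S0 := S n0) ⟨hp n0, hn0⟩]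
  exact tendsto_ustContains (fun T hT => pnc_trees G T hT) S hmono hex hp F hF

end Crest.Agent.FU
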