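import Crest.Agent.S0255_Defs

/-!
# ROW168, package NUG: existence of a limit law on `V → Bool` from convergent inclusion probabilities
-/

set_option autoImplicit false

namespace Crest.Agent.SL.NuG

open MeasureTheory Filter Topology
open scoped Classical ENNReal

noncomputable section

variable {V : Type*}

/-- the cylinder `{ω | A ⊆ ω}`. -/
def cyl (A : Finset V) : Set (V → Bool) := {ω | ∀ w ∈ A, ω w = true}

lemma isClopen_cyl (A : Finset V) : IsClopen (cyl A) := by
  have : cyl A = ⋂ w ∈ A, (fun ω : V → Bool => ω w) ⁻¹' {true} := by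
    ext ω; simp [cyl]
  rw [this]
  exact isClopen_biInter_finset
    (fun w _ => (isClopen_discrete {true}).preimage (continuous_apply w))

lemma inclOf_eq_integral [Countable V] (ν : Measure (V → Bool)) [IsProbabilityMeasure ν]
    (A : Finset V) :
    inclOf ν A = ∫ ω, BoundedContinuousFunction.indicator (cyl A) (isClopen_cyl A) ω ∂ν := by
  have hm : MeasurableSet (cyl A) := (isClopen_cyl A).isOpen.measurableSet
  simp only [BoundedContinuousFunction.indicator_apply]
  rw [integral_indicator_one hm]
  rfl

/-- **Existence of the limit law.** -/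
theorem exists_law_of_tendsto [Countable V] (νn : ℕ → Measure (V → Bool))
    [∀ n, IsProbabilityMeasure (νn n)] (q : Finset V → ℝ)
    (hlim : ∀ A, Tendsto (fun n => inclOf (νn n) A) atTop (𝓝 (q A))) :
    ∃ ν : Measure (V → Bool), IsProbabilityMeasure ν ∧ ∀ A, inclOf ν A = q A := by
  let P : ℕ → ProbabilityMeasure (V → Bool) := fun n => ⟨νn n, inferInstance⟩
  let u : Ultrafilter ℕ := hyperfilter ℕ
  have hu : (u : Filter ℕ) ≤ atTop := Nat.hyperfilter_le_atTop
  obtain ⟨μ, -, hμ⟩ := isCompact_univ.ultrafilter_le_nhds (u.map P) (by simp)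
  have hP : Tendsto P u (𝓝 μ) := hμ
  refine ⟨μ, inferInstance, fun A => ?_⟩
  have h1 := (ProbabilityMeasure.tendsto_iff_forall_integral_tendsto.1 hP)
    (BoundedContinuousFunction.indicator (cyl A) (isClopen_cyl A))
  have h2 : Tendsto (fun n => inclOf (νn n) A) u (𝓝 (q A)) := (hlim A).mono_left hu
  have h3 : (fun n => inclOf (νn n) A) = fun n =>
      ∫ ω, BoundedContinuousFunction.indicator (cyl A) (isClopen_cyl A) ω ∂(P n : Measure _) := by
    funext n
    exact inclOf_eq_integral (νn n) A
  rw [h3] at h2
  rw [inclOf_eq_integral]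
  exact tendsto_nhds_unique h1 h2

end

end Crest.Agent.SL.NuG
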