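import Mathlib
import Crest.Agent.S0254_Eqns

/-!
# ROW168 (S0254 + S0255): discrete stochastic localisation, definitions

`V` = sites.  An *event* is a pair `(v,k) : V × ℕ` (site, pass).  Arrays `x U t : V × ℕ → I`.
The whole construction depends on the law only through the inclusion probabilities
`q : Finset V → ℝ`, `q A = ν {ω | ∀ w ∈ A, ω w = true}`, and on an exhaustion `E : V → ℕ → Finset V`.
-/

set_option autoImplicit false

namespace Crest.Agent.SL

open MeasureTheory unitInterval
open scoped Classical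

noncomputable section

variable {V : Type*}

/-! ### channel -/

/-- clamp a real to the unit interval -/
def clampI (r : ℝ) : I := Set.projIcc (0 : ℝ) 1 zero_le_one r

/-- density of an observation when the bit is `1` (`m = 1`), `0` (`m = 0`), or a mixture. -/
def dens (m y : ℝ) : ℝ := 1 + (m - 1 / 2) * (2 * y - 1)

/-- cdf of `dens m` on `[0,1]`. -/
def Fm (m y : ℝ) : ℝ := y + (m - 1 / 2) * (y ^ 2 - y)

/-- inverse of `Fm m` on `[0,1]` (for `m ∈ [0,1]`). -/
def Gm (m u : ℝ) : ℝ :=
  2 * u / ((3 / 2 - m) + Real.sqrt ((3 / 2 - m) ^ 2 + 4 * (m - 1 / 2) * u))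

/-- log likelihood ratio `log (dens 1 y / dens 0 y)`. -/
def ell (y : ℝ) : ℝ := Real.log ((1 / 2 + y) / (3 / 2 - y))

def FmI (m : ℝ) (y : I) : I := clampI (Fm m y)
def GmI (m : ℝ) (u : I) : I := clampI (Gm m u)

/-- real value of a bit -/
def b2r (b : Bool) : ℝ := if b then 1 else 0

/-! ### tilted means from inclusion probabilities -/

/-- `Z_F(h) = ∑_{A ⊆ F} ∏_{w ∈ A} (e^{h w} - 1) q(A)  ( = ∫ exp (∑_{w∈F} h w * X w) dν )`. -/
def Zq (q : Finset V → ℝ) (F : Finset V) (h : V → ℝ) : ℝ :=
  ∑ A ∈ F.powerset, (∏ w ∈ A, (Real.exp (h w) - 1)) * q A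

/-- `N_F(h,v) = ∑_{A ⊆ F} ∏_{w ∈ A} (e^{h w} - 1) q(A ∪ {v})  ( = ∫ X v * exp (..) dν )`. -/
def Nq (q : Finset V → ℝ) (F : Finset V) (h : V → ℝ) (v : V) : ℝ :=
  ∑ A ∈ F.powerset, (∏ w ∈ A, (Real.exp (h w) - 1)) * q (insert v A)

/-- tilted mean of `X v`, clamped to `[0,1]` (the clamp is inactive when `q` comes from a law). -/
def mq (q : Finset V → ℝ) (F : Finset V) (h : V → ℝ) (v : V) : ℝ :=
  max 0 (min 1 (Nq q F h v / Zq q F h))

/-- the sup-norm Lipschitz condition (consequence of `∑_w |Cov_h(v,w)| ≤ 1/2`). -/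
def LipCond (q : Finset V → ℝ) : Prop :=
  ∀ (F : Finset V) (h h' : V → ℝ) (v : V) (c : ℝ), 0 ≤ c →
    (∀ w ∈ F, |h w - h' w| ≤ c) → |mq q F h v - mq q F h' v| ≤ c / 2

/-- inclusion probabilities of a law. -/
def inclOf (ν : Measure (V → Bool)) (A : Finset V) : ℝ :=
  (ν {ω | ∀ w ∈ A, ω w = true}).toReal

/-! ### the order of events, fields, drift -/

/-- `(w,j)` is observed before `(v,k)`. -/
def Before (t : V × ℕ → I) (e' e : V × ℕ) : Prop :=
  e'.2 < e.2 ∨ (e'.2 = e.2 ∧ t e' < t e)

/-- the field at `w` accumulated before the event `(v,k)`. -/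
def field (x t : V × ℕ → I) (v : V) (k : ℕ) (w : V) : ℝ :=
  (∑ j ∈ Finset.range k, ell (x (w, j))) + if t (w, k) < t (v, k) then ell (x (w, k)) else 0

/-- the drift = "posterior mean of `X v` given the past of `(v,k)`", defined for all inputs. -/
def drift (q : Finset V → ℝ) (E : V → ℕ → Finset V) (x t : V × ℕ → I) (v : V) (k : ℕ) : ℝ :=
  Filter.limsup (fun n => mq q (E v n) (field x t v k) v) Filter.atTop

/-- innovations computed from the observations. -/
def innov (q : Finset V → ℝ) (E : V → ℕ → Finset V) (x t : V × ℕ → I) : V × ℕ → I :=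
  fun e => FmI (drift q E x t e.1 e.2) (x e)

/-! ### solving for the observations from the innovations -/

/-- overwrite pass `k` of the array `x` by `y`. -/
def upd (x : V × ℕ → I) (k : ℕ) (y : V → I) : V × ℕ → I :=
  fun e => if e.2 = k then y e.1 else x e

/-- the pass-`k` operator. -/
def passOp (q : Finset V → ℝ) (E : V → ℕ → Finset V) (U t : V × ℕ → I) (k : ℕ)
    (x : V × ℕ → I) (y : V → I) : V → I :=
  fun v => GmI (drift q E (upd x k y) t v k) (U (v, k))

/-- limit of the iterates of the pass-`k` operator (its unique fixed point under `LipCond`). -/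
def passFix (q : Finset V → ℝ) (E : V → ℕ → Finset V) (U t : V × ℕ → I) (k : ℕ)
    (x : V × ℕ → I) : V → I :=
  fun v => clampI (Filter.limsup
    (fun n => (((passOp q E U t k x)^[n] (fun _ => 0)) v : ℝ)) Filter.atTop)

/-- the array with passes `< k` solved. -/
def PsiAux (q : Finset V → ℝ) (E : V → ℕ → Finset V) (U t : V × ℕ → I) : ℕ → (V × ℕ → I)
  | 0 => fun _ => 0
  | k + 1 => upd (PsiAux q E U t k) k (passFix q E U t k (PsiAux q E U t k))

/-- the observations as a function of the noise. -/
def Psi (q : Finset V → ℝ) (E : V → ℕ → Finset V) (U t : V × ℕ → I) : V × ℕ → I :=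
  fun e => PsiAux q E U t (e.2 + 1) e

/-- decoding the bit at `v` from its observations (strong law: the mean of `2x-1` is `±1/6`). -/
def dec (x : V × ℕ → I) (v : V) : Bool :=
  decide (0 < Filter.limsup
    (fun K : ℕ => (∑ k ∈ Finset.range K, (2 * (x (v, k) : ℝ) - 1)) / K) Filter.atTop)

/-- THE FACTOR MAP. -/
def Phi (q : Finset V → ℝ) (E : V → ℕ → Finset V) (U t : V × ℕ → I) : V → Bool :=
  dec (Psi q E U t)

/-! ### laws -/

/-- iid uniform array. -/
def noise (V : Type*) : Measure (V × ℕ → I) :=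
  Measure.infinitePi (fun _ : V × ℕ => (volume : Measure I))

/-- observations generated from the configuration `X` and channel noise `R`. -/
def obs (X : V → Bool) (R : V × ℕ → I) : V × ℕ → I :=
  fun e => GmI (b2r (X e.1)) (R e)

/-- the true joint law of (configuration, channel noise) -/
abbrev tru (ν : Measure (V → Bool)) : Measure ((V → Bool) × (V × ℕ → I)) := ν.prod (noise V)

/-- array masked to the past of the event `e`. -/
def maskPast (t : V × ℕ → I) (e : V × ℕ) (x : V × ℕ → I) : V × ℕ → I :=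
  fun e' => if Before t e' e then x e' else 0

/-- array masked to the past of `e` and to the sites in `F`. -/
def maskPastF (t : V × ℕ → I) (e : V × ℕ) (F : Finset V) (x : V × ℕ → I) : V × ℕ → I :=
  fun e' => if Before t e' e ∧ e'.1 ∈ F then x e' else 0

/-- times are pairwise distinct inside each pass. -/
def GoodTimes (t : V × ℕ → I) : Prop :=
  ∀ (k : ℕ) (v w : V), v ≠ w → t (v, k) ≠ t (w, k)

/-- The auto-generated equation lemmas of the definitions above are realised HERE, once, so that
sibling modules of one import closure do not each create their own copy. -/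
theorem eqns_realised : True := by
  have := @clampI.eq_1
  have := @dens.eq_1
  have := @Fm.eq_1
  have := @Gm.eq_1
  have := @ell.eq_1
  have := @FmI.eq_1
  have := @GmI.eq_1
  have := @b2r.eq_1
  have := @Zq.eq_1.{0}
  have := @Nq.eq_1.{0}
  have := @mq.eq_1.{0}
  have := @LipCond.eq_1.{0}
  have := @inclOf.eq_1.{0}
  have := @Before.eq_1.{0}
  have := @field.eq_1.{0}
  have := @drift.eq_1.{0}
  have := @innov.eq_1.{0}
  have := @upd.eq_1.{0}
  have := @passOp.eq_1.{0}
  have := @passFix.eq_1.{0}
  have := @PsiAux.eq_1.{0}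
  have := @Psi.eq_1.{0}
  have := @dec.eq_1.{0}
  have := @Phi.eq_1.{0}
  have := @noise.eq_1.{0}
  have := @obs.eq_1.{0}
  have := @maskPast.eq_1.{0}
  have := @maskPastF.eq_1.{0}
  have := @GoodTimes.eq_1.{0}
  have := @PsiAux.eq_2.{0}
  have := @PsiAux.eq_def.{0}
  trivial

end

end Crest.Agent.SL
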