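import Crest.Agent.S0254_MT
import Crest.Agent.S0255_Defs
import Crest.Prelude.Def_StronglyRayleigh

/-!
# ROW 168 (S0254), package USTLAW: the uniform spanning tree law of a finite piece

`ustLaw G S` is the uniform law on the (indicators of the) spanning trees of the piece `S` of `G`,
as a measure on `Sym2 V → Bool`.  For a connected piece it is a probability measure, its inclusion
probabilities are `ustContains G S`, and it is strongly Rayleigh in the sense of the Prelude.
-/

set_option autoImplicit false
open Finset MeasureTheory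
open Crest.ProbabilityR.SpanningTrees
open scoped ENNReal

namespace Crest.Agent.S0254Law

variable {V : Type*}

open Classical in
/-- the spanning trees of the piece. -/
noncomputable def trees (G : SimpleGraph V) (S : Finset V) : Finset (Finset (Sym2 V)) :=
  (edgesIn G S).powerset.filter (fun A => IsSpanningTreeOn G S A)

open Classical in
/-- indicator of an edge set. -/
noncomputable def ind (A : Finset (Sym2 V)) : Sym2 V → Bool := fun e => decide (e ∈ A)

/-- the uniform law on the spanning trees of the piece. -/
noncomputable def ustLaw (G : SimpleGraph V) (S : Finset V) : Measure (Sym2 V → Bool) :=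
  ((trees G S).card : ℝ≥0∞)⁻¹ • ∑ A ∈ trees G S, Measure.dirac (ind A)

variable (G : SimpleGraph V) {S : Finset V}

lemma mem_trees {A : Finset (Sym2 V)} : A ∈ trees G S ↔ IsSpanningTreeOn G S A := by
  classical
  unfold trees
  rw [mem_filter, mem_powerset]
  exact ⟨fun h => h.2, fun h => ⟨h.1, h⟩⟩

lemma ind_eq_true {A : Finset (Sym2 V)} {e : Sym2 V} : ind A e = true ↔ e ∈ A := by
  simp [ind]

lemma card_trees_pos (hc : (G.induce (S : Set V)).Connected) : 0 < (trees G S).card := by
  obtain ⟨A, hA⟩ := S0254MT.exists_isSpanningTreeOn G hc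
  exact Finset.card_pos.2 ⟨A, (mem_trees G).2 hA⟩

lemma ustLaw_apply {s : Set (Sym2 V → Bool)} (hs : MeasurableSet s)
    [DecidablePred fun A : Finset (Sym2 V) => ind A ∈ s] :
    ustLaw G S s = ((trees G S).card : ℝ≥0∞)⁻¹ * (((trees G S).filter (fun A => ind A ∈ s)).card : ℝ≥0∞) := by
  unfold ustLaw
  rw [Measure.smul_apply, Measure.finsetSum_apply, smul_eq_mul]
  congr 1
  rw [Finset.card_filter]
  push_cast
  apply Finset.sum_congr rfl
  intro A _
  rw [Measure.dirac_apply' _ hs]
  by_cases h : ind A ∈ s <;> simp [h]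

lemma ustLaw_real {s : Set (Sym2 V → Bool)} (hs : MeasurableSet s)
    [DecidablePred fun A : Finset (Sym2 V) => ind A ∈ s] :
    (ustLaw G S s).toReal =
      (((trees G S).filter (fun A => ind A ∈ s)).card : ℝ) / ((trees G S).card : ℝ) := by
  rw [ustLaw_apply G hs, ENNReal.toReal_mul, ENNReal.toReal_inv, ENNReal.toReal_natCast,
    ENNReal.toReal_natCast, div_eq_inv_mul]

theorem isProbabilityMeasure_ustLaw (hc : (G.induce (S : Set V)).Connected) :
    IsProbabilityMeasure (ustLaw G S) := by
  classical
  constructor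
  rw [ustLaw_apply G MeasurableSet.univ]
  have h1 : (trees G S).filter (fun A => ind A ∈ (Set.univ : Set (Sym2 V → Bool))) = trees G S := by
    simp
  rw [h1]
  apply ENNReal.inv_mul_cancel
  · exact_mod_cast (card_trees_pos G hc).ne'
  · exact ENNReal.natCast_ne_top _

lemma measurableSet_incl (F : Finset (Sym2 V)) :
    MeasurableSet {ω : Sym2 V → Bool | ∀ w ∈ F, ω w = true} := by
  have : {ω : Sym2 V → Bool | ∀ w ∈ F, ω w = true}
      = ⋂ w ∈ F, (fun ω : Sym2 V → Bool => ω w) ⁻¹' {true} := by
    ext ω
    simp
  rw [this]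
  exact Finset.measurableSet_biInter F
    (fun w _ => (measurable_pi_apply w) (MeasurableSet.singleton true))

lemma measurableSet_pattern (F T : Finset (Sym2 V)) :
    MeasurableSet {ω : Sym2 V → Bool | ∀ i ∈ F, (ω i = true ↔ i ∈ T)} := by
  classical
  have : {ω : Sym2 V → Bool | ∀ i ∈ F, (ω i = true ↔ i ∈ T)}
      = ⋂ i ∈ F, (fun ω : Sym2 V → Bool => ω i) ⁻¹' {decide (i ∈ T)} := by
    ext ω
    simp only [Set.mem_ofPred_eq, Set.mem_iInter, Set.mem_preimage, Set.mem_singleton_iff]
    apply forall₂_congr
    intro i _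
    by_cases h : i ∈ T <;> simp [h]
  rw [this]
  exact Finset.measurableSet_biInter F
    (fun w _ => (measurable_pi_apply w) (MeasurableSet.singleton _))

/-- the inclusion probabilities of `ustLaw` are `ustContains`. -/
theorem inclOf_ustLaw (F : Finset (Sym2 V)) :
    SL.inclOf (ustLaw G S) F = ustContains G S F := by
  classical
  unfold SL.inclOf ustContains
  rw [ustLaw_real G (measurableSet_incl F)]
  congr 2
  · apply congrArg
    ext A
    simp only [trees, mem_filter, mem_powerset, Set.mem_ofPred_eq, ind_eq_true]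
    constructor
    · rintro ⟨⟨h1, h2⟩, h3⟩
      exact ⟨h1, h2, h3⟩
    · rintro ⟨h1, h2, h3⟩
      exact ⟨⟨h1, h2⟩, h3⟩

/-- the uniform spanning tree of a finite connected piece is strongly Rayleigh. -/
theorem isStronglyRayleigh_ustLaw (hc : (G.induce (S : Set V)).Connected) :
    Crest.ProbabilityR.StronglyRayleigh.IsStronglyRayleigh (ustLaw G S) := by
  classical
  intro F z hz
  unfold Crest.ProbabilityR.StronglyRayleigh.genPoly
  set N : ℂ := ((trees G S).card : ℂ) with hN
  have hN0 : N ≠ 0 := by
    rw [hN]
    exact_mod_cast (card_trees_pos G hc).ne'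
  -- the modified weights
  set z' : Sym2 V → ℂ := fun e => if e ∈ F then z e else 1 with hz'
  have hmain : ∑ T ∈ F.powerset,
      (((ustLaw G S) {ω | ∀ i ∈ F, (ω i = true ↔ i ∈ T)}).toReal : ℂ) * ∏ i ∈ T, z i
      = N⁻¹ * ∑ A ∈ trees G S, ∏ e ∈ A, z' e := by
    have h1 : ∀ T ∈ F.powerset,
        (((ustLaw G S) {ω | ∀ i ∈ F, (ω i = true ↔ i ∈ T)}).toReal : ℂ) * ∏ i ∈ T, z i
        = N⁻¹ * ∑ A ∈ trees G S, (if A ∩ F = T then ∏ i ∈ T, z i else 0) := by
      intro T hT
      rw [mem_powerset] at hT
      rw [ustLaw_real G (measurableSet_pattern F T)]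
      have h2 : (trees G S).filter
          (fun A => ind A ∈ {ω : Sym2 V → Bool | ∀ i ∈ F, (ω i = true ↔ i ∈ T)})
          = (trees G S).filter (fun A => A ∩ F = T) := by
        apply Finset.filter_congr
        intro A _
        simp only [Set.mem_ofPred_eq, ind_eq_true]
        constructor
        · intro h
          ext i
          rw [mem_inter]
          constructor
          · rintro ⟨h3, h4⟩
            exact (h i h4).1 h3
          · intro h3
            exact ⟨(h i (hT h3)).2 h3, hT h3⟩
        · rintro rfl i hi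
          rw [mem_inter]
          exact ⟨fun h => ⟨h, hi⟩, fun h => h.1⟩
      rw [h2, ← Finset.sum_filter, Finset.sum_const, nsmul_eq_mul]
      push_cast
      rw [← hN]
      field_simp
    rw [Finset.sum_congr rfl h1, ← Finset.mul_sum, Finset.sum_comm]
    congr 1
    apply Finset.sum_congr rfl
    intro A _
    rw [Finset.sum_ite_eq F.powerset (A ∩ F) (fun T => ∏ i ∈ T, z i),
      if_pos (mem_powerset.2 inter_subset_right)]
    rw [hz', Finset.prod_ite, Finset.prod_const_one, mul_one, Finset.filter_mem_eq_inter]
  rw [hmain]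
  apply mul_ne_zero (inv_ne_zero hN0)
  have := S0254MT.treePoly_ne_zero_mixed G hc z' (by
    intro e _
    by_cases he : e ∈ F
    · left
      simp only [hz', if_pos he]
      exact hz e he
    · right
      simp [hz', he])
  exact this

end Crest.Agent.S0254Law
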