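import Mathlib

/-! # S0255, package SP : a Schwarz-Pick lemma for stable pairs of polynomials -/

set_option autoImplicit false
open Complex Set Metric

namespace Crest.Agent.S0255SP

/-- principal square root on the slit plane. -/
noncomputable def sq (ζ : ℂ) : ℂ := exp (log ζ / 2)

lemma sq_one : sq 1 = 1 := by simp [sq]

lemma sq_re_pos {ζ : ℂ} (h : ζ ∈ slitPlane) : 0 < (sq ζ).re := by
  rw [sq, exp_re]
  apply mul_pos (Real.exp_pos _)
  apply Real.cos_pos_of_mem_Ioo
  have h1 : (log ζ / 2).im = arg ζ / 2 := by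
    rw [show log ζ / 2 = log ζ / ((2 : ℝ) : ℂ) by norm_num, div_ofReal_im, log_im]
  rw [h1]
  have h2 := neg_pi_lt_arg ζ
  have h3 := arg_le_pi ζ
  have h4 := (mem_slitPlane_iff_arg.1 h).1
  have h5 : arg ζ < Real.pi := lt_of_le_of_ne h3 h4
  constructor <;> linarith

lemma hasDerivAt_sq {ζ : ℂ} (h : ζ ∈ slitPlane) : HasDerivAt sq (sq ζ * (ζ⁻¹ / 2)) ζ := by
  unfold sq
  exact ((hasDerivAt_log h).div_const 2).cexp

lemma cayley_norm_lt {τ : ℂ} (h : 0 < τ.re) : ‖(τ - 1) / (τ + 1)‖ < 1 := by
  have h0 : τ + 1 ≠ 0 := by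
    intro h1
    have := congrArg Complex.re h1
    simp at this
    linarith
  rw [norm_div, div_lt_one (norm_pos_iff.2 h0)]
  rw [← sq_lt_sq₀ (norm_nonneg _) (norm_nonneg _), ← normSq_eq_norm_sq, ← normSq_eq_norm_sq,
    normSq_apply, normSq_apply]
  simp
  nlinarith

/-- the conformal map from the disc onto the slit plane. -/
noncomputable def phi (w : ℂ) : ℂ := ((1 + w) / (1 - w)) ^ 2

lemma one_sub_ne {w : ℂ} (h : w ∈ ball (0 : ℂ) 1) : 1 - w ≠ 0 := by
  intro h1
  have : w = 1 := by linear_combination -h1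
  rw [this] at h
  simp at h

lemma phi_mem {w : ℂ} (h : w ∈ ball (0 : ℂ) 1) : phi w ∈ slitPlane := by
  have h0 := one_sub_ne h
  have hw : ‖w‖ < 1 := by simpa using h
  set σ := (1 + w) / (1 - w) with hσ
  have hre : 0 < σ.re := by
    rw [hσ, div_re]
    have hn : 0 < normSq (1 - w) := normSq_pos.2 h0
    have : (1 + w).re * (1 - w).re / normSq (1 - w) + (1 + w).im * (1 - w).im / normSq (1 - w)
        = (1 - normSq w) / normSq (1 - w) := by
      rw [← add_div]; congr 1
      simp [normSq_apply]; ring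
    rw [this]
    apply div_pos _ hn
    rw [normSq_eq_norm_sq]
    nlinarith [norm_nonneg w]
  unfold phi
  rw [mem_slitPlane_iff]
  by_cases him : σ.im = 0
  · left
    rw [pow_two, mul_re, him]; simp; positivity
  · right
    rw [pow_two, mul_im]
    intro h2
    have : 2 * σ.re * σ.im = 0 := by linarith
    rcases mul_eq_zero.1 this with h3 | h3
    · have : σ.re = 0 := by linarith
      linarith
    · exact him h3

lemma hasDerivAt_phi {w : ℂ} (h : 1 - w ≠ 0) :
    HasDerivAt phi (2 * ((1 + w) / (1 - w)) * (2 / (1 - w) ^ 2)) w := by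
  unfold phi
  have h1 : HasDerivAt (fun w : ℂ => (1 + w) / (1 - w)) (2 / (1 - w) ^ 2) w := by
    have := ((hasDerivAt_id' w).const_add 1).fun_div ((hasDerivAt_id' w).const_sub 1) h
    refine this.congr_deriv ?_
    congr 1; ring
  refine (h1.fun_pow 2).congr_deriv ?_
  simp

lemma add_one_ne {τ : ℂ} (h : 0 < τ.re) : τ + 1 ≠ 0 := by
  intro h1
  have := congrArg Complex.re h1
  simp at this
  linarith

/-- **Schwarz-Pick** for self-maps of the slit plane, at the point `1`. -/
theorem schwarz_slit (F : ℂ → ℂ) (hd : DifferentiableOn ℂ F slitPlane)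
    (hm : MapsTo F slitPlane slitPlane) (h1 : F 1 = 1) : ‖deriv F 1‖ ≤ 1 := by
  set g : ℂ → ℂ := fun w => sq (F (phi w)) with hg
  set ψ : ℂ → ℂ := fun w => (g w - 1) / (g w + 1) with hψ
  have hFd : ∀ ζ ∈ slitPlane, HasDerivAt F (deriv F ζ) ζ := fun ζ hζ =>
    (hd.differentiableAt (isOpen_slitPlane.mem_nhds hζ)).hasDerivAt
  have hgd : ∀ w ∈ ball (0 : ℂ) 1, HasDerivAt g
      (sq (F (phi w)) * ((F (phi w))⁻¹ / 2) * (deriv F (phi w) *
        (2 * ((1 + w) / (1 - w)) * (2 / (1 - w) ^ 2)))) w := by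
    intro w hw
    have e1 := hasDerivAt_phi (one_sub_ne hw)
    have e2 : HasDerivAt (fun w => F (phi w)) _ w := (hFd _ (phi_mem hw)).comp w e1
    exact HasDerivAt.comp (h₂ := sq) (h := fun w => F (phi w)) w
      (hasDerivAt_sq (hm (phi_mem hw))) e2
  have hgre : ∀ w ∈ ball (0 : ℂ) 1, 0 < (g w).re := fun w hw => sq_re_pos (hm (phi_mem hw))
  have hphi0 : phi 0 = 1 := by simp [phi]
  have hg0 : g 0 = 1 := by simp [hg, hphi0, h1, sq_one]
  have hψ0 : ψ 0 = 0 := by simp [hψ, hg0]
  have h0 : (0 : ℂ) ∈ ball (0 : ℂ) 1 := by simp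
  have hdiff : DifferentiableOn ℂ ψ (ball 0 1) := by
    intro w hw
    have e := (hgd w hw).differentiableAt
    exact ((e.sub_const 1).div (e.add_const 1) (add_one_ne (hgre w hw))).differentiableWithinAt
  have hmaps : MapsTo ψ (ball 0 1) (closedBall (ψ 0) 1) := by
    intro w hw
    rw [hψ0, mem_closedBall_zero_iff]
    exact (cayley_norm_lt (hgre w hw)).le
  have key := norm_deriv_le_one_of_mapsTo_ball hdiff hmaps one_pos
  have hder : HasDerivAt ψ (deriv F 1) 0 := by
    have e := hgd 0 h0
    have e' := (e.sub_const 1).fun_div (e.add_const 1) (add_one_ne (hgre 0 h0))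
    refine e'.congr_deriv ?_
    rw [hg0]
    simp only [hphi0, h1, sq_one]
    norm_num
    ring
  rw [hder.deriv] at key
  exact key

/-! ## the polynomial part -/

open Polynomial in
lemma eval_pos_of_coeff (A : Polynomial ℝ) (hA : ∀ i, 0 ≤ A.coeff i) (hA1 : 0 < A.eval 1)
    {x : ℝ} (hx : 0 < x) : 0 < A.eval x := by
  rw [Polynomial.eval_eq_sum_range] at hA1 ⊢
  simp only [one_pow, mul_one] at hA1
  obtain ⟨i, hi, hpos⟩ := Finset.exists_lt_of_sum_lt (s := Finset.range (A.natDegree + 1))
    (f := fun _ => (0 : ℝ)) (g := fun i => A.coeff i) (by simpa using hA1)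
  exact Finset.sum_pos' (fun j _ => mul_nonneg (hA j) (pow_pos hx j).le)
    ⟨i, hi, mul_pos hpos (pow_pos hx i)⟩

lemma eval_nonneg_of_coeff (A : Polynomial ℝ) (hA : ∀ i, 0 ≤ A.coeff i)
    {x : ℝ} (hx : 0 < x) : 0 ≤ A.eval x := by
  rw [Polynomial.eval_eq_sum_range]
  exact Finset.sum_nonneg (fun j _ => mul_nonneg (hA j) (pow_pos hx j).le)

lemma aeval_real (A : Polynomial ℝ) (x : ℝ) :
    Polynomial.aeval (x : ℂ) A = ((A.eval x : ℝ) : ℂ) :=
  Polynomial.aeval_ofReal (K := ℂ) A x

/-- the auxiliary rational function `s (2A + sB) / (A + sB)`. -/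
noncomputable def R2 (A B : Polynomial ℝ) (s : ℂ) : ℂ :=
  s * (2 * Polynomial.aeval s A + s * Polynomial.aeval s B) /
    (Polynomial.aeval s A + s * Polynomial.aeval s B)

lemma R2_conj (A B : Polynomial ℝ) (s : ℂ) :
    R2 A B ((starRingEnd ℂ) s) = (starRingEnd ℂ) (R2 A B s) := by
  unfold R2
  simp only [Polynomial.aeval_conj, map_div₀, map_mul, map_add, map_ofNat]

lemma R2_real (A B : Polynomial ℝ) (x : ℝ) :
    R2 A B (x : ℂ) = ((x * (2 * A.eval x + x * B.eval x) / (A.eval x + x * B.eval x) : ℝ) : ℂ) := by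
  unfold R2
  rw [aeval_real, aeval_real]
  push_cast
  rfl

section
variable (A B : Polynomial ℝ)
  (hst : ∀ s z : ℂ, 0 < s.im → 0 < z.im → Polynomial.aeval s A + z * Polynomial.aeval s B ≠ 0)
include hst

lemma R2_im_pos {s : ℂ} (hs : 0 < s.im) : 0 < (R2 A B s).im := by
  set a := Polynomial.aeval s A with ha
  set b := Polynomial.aeval s B with hb
  have hD : a + s * b ≠ 0 := hst s s hs hs
  set q := s * a / (a + s * b) with hq
  have hR : R2 A B s = s + q := by
    unfold R2
    rw [hq, ← ha, ← hb]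
    field_simp
    ring
  have hq0 : 0 ≤ q.im := by
    by_contra hneg
    push Not at hneg
    set z := -q with hz
    have hzim : 0 < z.im := by rw [hz, neg_im]; linarith
    have hsz : s + z ≠ 0 := by
      intro h
      have := congrArg Complex.im h
      simp only [add_im, zero_im] at this
      linarith
    set ζ := z * s / (s + z) with hζ
    have hζim : 0 < ζ.im := by
      have e : ζ = (z * normSq s + s * normSq z) / (normSq (s + z) : ℂ) := by
        have hn : ((normSq (s + z) : ℝ) : ℂ) ≠ 0 := by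
          exact_mod_cast (normSq_pos.2 hsz).ne'
        rw [hζ, div_eq_div_iff hsz hn, normSq_eq_conj_mul_self, normSq_eq_conj_mul_self,
          normSq_eq_conj_mul_self]
        simp only [map_add]
        ring
      rw [e, div_ofReal_im]
      apply div_pos _ (normSq_pos.2 hsz)
      have hs0 : s ≠ 0 := by
        intro h; rw [h] at hs; simp at hs
      have : (z * (normSq s : ℂ) + s * (normSq z : ℂ)).im = z.im * normSq s + s.im * normSq z := by
        simp [mul_im]
      rw [this]
      have h1 : 0 < normSq s := normSq_pos.2 hs0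
      have h2 : 0 ≤ normSq z := normSq_nonneg z
      positivity
    apply hst s ζ hs hζim
    have : (s + z) * (a + ζ * b) = 0 := by
      rw [hζ]
      have e1 : (s + z) * (a + z * s / (s + z) * b) = s * a + z * (a + s * b) := by
        field_simp
        ring
      rw [e1, hz, hq]
      field_simp
      ring
    rcases mul_eq_zero.1 this with h | h
    · exact absurd h hsz
    · exact h
  rw [hR, add_im]
  linarith

end

/-- trichotomy for points of the slit plane. -/
lemma slit_cases {s : ℂ} (h : s ∈ slitPlane) :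
    0 < s.im ∨ 0 < ((starRingEnd ℂ) s).im ∨ ∃ x : ℝ, 0 < x ∧ s = (x : ℂ) := by
  rcases lt_trichotomy s.im 0 with h1 | h1 | h1
  · right; left; rw [conj_im]; linarith
  · right; right
    refine ⟨s.re, ?_, ?_⟩
    · rcases mem_slitPlane_iff.1 h with h2 | h2
      · exact h2
      · exact absurd h1 h2
    · apply Complex.ext <;> simp [h1]
  · left; exact h1

/-- **Package SP.**  If `A + z B` is stable in `(s, z)`, with nonnegative coefficients, then
`A'B - AB' ≤ AB` at `s = 1`. -/
theorem sp_lemma (A B : Polynomial ℝ) (hA : ∀ i, 0 ≤ A.coeff i) (hB : ∀ i, 0 ≤ B.coeff i)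
    (hA1 : 0 < A.eval 1) (hB1 : 0 < B.eval 1)
    (hst : ∀ s z : ℂ, 0 < s.im → 0 < z.im →
      Polynomial.aeval s A + z * Polynomial.aeval s B ≠ 0) :
    A.derivative.eval 1 * B.eval 1 - A.eval 1 * B.derivative.eval 1 ≤ A.eval 1 * B.eval 1 := by
  -- denominators
  have hden : ∀ s ∈ slitPlane, Polynomial.aeval s A + s * Polynomial.aeval s B ≠ 0 := by
    intro s hs
    rcases slit_cases hs with h | h | ⟨x, hx, rfl⟩
    · exact hst s s h h
    · intro h0
      apply hst _ _ h h
      rw [Polynomial.aeval_conj, Polynomial.aeval_conj, ← map_mul, ← map_add, h0, map_zero]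
    · rw [aeval_real, aeval_real]
      have h1 := eval_pos_of_coeff A hA hA1 hx
      have h2 := eval_nonneg_of_coeff B hB hx
      have : (0 : ℝ) < A.eval x + x * B.eval x := by positivity
      exact_mod_cast this.ne'
  have hmaps : MapsTo (R2 A B) slitPlane slitPlane := by
    intro s hs
    rcases slit_cases hs with h | h | ⟨x, hx, rfl⟩
    · exact mem_slitPlane_iff.2 (Or.inr (R2_im_pos A B hst h).ne')
    · have := R2_im_pos A B hst h
      rw [R2_conj, conj_im] at this
      refine mem_slitPlane_iff.2 (Or.inr ?_)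
      intro h0; rw [h0] at this; simp at this
    · rw [R2_real]
      have h1 := eval_pos_of_coeff A hA hA1 hx
      have h2 := eval_nonneg_of_coeff B hB hx
      refine mem_slitPlane_iff.2 (Or.inl ?_)
      rw [ofReal_re]
      positivity
  have hderiv : ∀ s ∈ slitPlane, HasDerivAt (R2 A B)
      (((1 * (2 * Polynomial.aeval s A + s * Polynomial.aeval s B) +
          s * (2 * Polynomial.aeval s A.derivative +
            (1 * Polynomial.aeval s B + s * Polynomial.aeval s B.derivative))) *
          (Polynomial.aeval s A + s * Polynomial.aeval s B) -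
        s * (2 * Polynomial.aeval s A + s * Polynomial.aeval s B) *
          (Polynomial.aeval s A.derivative +
            (1 * Polynomial.aeval s B + s * Polynomial.aeval s B.derivative))) /
        (Polynomial.aeval s A + s * Polynomial.aeval s B) ^ 2) s := by
    intro s hs
    have eA := A.hasDerivAt_aeval s
    have eB := B.hasDerivAt_aeval s
    have eid := hasDerivAt_id' s
    exact (eid.fun_mul ((eA.const_mul 2).fun_add (eid.fun_mul eB))).fun_div
      (eA.fun_add (eid.fun_mul eB)) (hden s hs)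
  set α := A.eval 1 with hα
  set β := B.eval 1 with hβ
  set α' := A.derivative.eval 1 with hα'
  set β' := B.derivative.eval 1 with hβ'
  set c : ℝ := (2 * α + β) / (α + β) with hc
  have hcpos : 0 < c := by positivity
  have hR1 : R2 A B 1 = (c : ℂ) := by
    have := R2_real A B 1
    rw [ofReal_one] at this
    rw [this, hc, hα, hβ]
    congr 1
    simp
  have h1mem : (1 : ℂ) ∈ slitPlane := one_mem_slitPlane
  have key := schwarz_slit (fun s => R2 A B s / (c : ℂ))
    (fun s hs => ((hderiv s hs).div_const _).differentiableAt.differentiableWithinAt)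
    (by
      intro s hs
      have h := hmaps hs
      rw [mem_slitPlane_iff] at h ⊢
      rw [div_ofReal_re, div_ofReal_im]
      rcases h with h | h
      · left; positivity
      · right; exact div_ne_zero h hcpos.ne')
    (by
      show R2 A B 1 / (c : ℂ) = 1
      rw [hR1]
      exact div_self (by exact_mod_cast hcpos.ne'))
  have hd1 := (hderiv 1 h1mem).div_const (c : ℂ)
  rw [hd1.deriv] at key
  have e1 : ∀ P : Polynomial ℝ, Polynomial.aeval (1 : ℂ) P = ((P.eval 1 : ℝ) : ℂ) := by
    intro P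
    have := aeval_real P 1
    rwa [ofReal_one] at this
  rw [e1, e1, e1, e1, ← hα, ← hβ, ← hα', ← hβ'] at key
  have e2 : (((1 * (2 * (α : ℂ) + 1 * β) + 1 * (2 * (α' : ℂ) + (1 * β + 1 * β'))) * (α + 1 * β) -
      1 * (2 * (α : ℂ) + 1 * β) * (α' + (1 * β + 1 * β'))) / ((α : ℂ) + 1 * β) ^ 2) / (c : ℂ)
      = (((((2 * α + β) + (2 * α' + (β + β'))) * (α + β) -
      (2 * α + β) * (α' + (β + β'))) / (α + β) ^ 2 / c : ℝ) : ℂ) := by
    push_cast
    ring
  rw [e2, norm_real, Real.norm_eq_abs] at key
  have key2 := (le_abs_self _).trans key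
  rw [div_le_one hcpos, hc, div_le_div_iff₀ (by positivity) (by positivity)] at key2
  have hab : 0 < α + β := by positivity
  nlinarith [key2, hab]

end Crest.Agent.S0255SP


namespace Crest.Agent.SL

/-- B2a, in the shape of the interface file. -/
theorem schwarz_pick_poly (A B : Polynomial ℝ) (hA : ∀ n, 0 ≤ A.coeff n) (hB : ∀ n, 0 ≤ B.coeff n)
    (hA1 : 0 < A.eval 1) (hB1 : 0 < B.eval 1)
    (hst : ∀ s z : ℂ, 0 < s.im → 0 < z.im →
      (A.map (algebraMap ℝ ℂ)).eval s + z * (B.map (algebraMap ℝ ℂ)).eval s ≠ 0) :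
    A.derivative.eval 1 * B.eval 1 - A.eval 1 * B.derivative.eval 1 ≤ A.eval 1 * B.eval 1 :=
  Crest.Agent.S0255SP.sp_lemma A B hA hB hA1 hB1 (fun s z hs hz => by
    have := hst s z hs hz
    rwa [Polynomial.eval_map_algebraMap, Polynomial.eval_map_algebraMap] at this)

end Crest.Agent.SL
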