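import Crest.Agent.S0255_Defs

/-! # ROW168, package A2 : tilted means and the law -/

set_option autoImplicit false

namespace Crest.Agent.SL

open MeasureTheory unitInterval Filter Topology
open scoped Classical ENNReal

noncomputable section

variable {V : Type*}

namespace Tilt

lemma b2r_nonneg (b : Bool) : 0 ≤ b2r b := by cases b <;> simp [b2r]
lemma b2r_le_one (b : Bool) : b2r b ≤ 1 := by cases b <;> simp [b2r]
lemma b2r_mul_self (b : Bool) : b2r b * b2r b = b2r b := by cases b <;> simp [b2r]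

lemma exp_mul_b2r (a : ℝ) (b : Bool) : Real.exp (a * b2r b) = 1 + (Real.exp a - 1) * b2r b := by
  cases b <;> simp [b2r]

lemma measurable_b2r_eval (w : V) : Measurable (fun ω : V → Bool => b2r (ω w)) :=
  (measurable_of_finite b2r).comp (measurable_pi_apply w)

/-- product of the bits over `A` = indicator of the cylinder. -/
lemma prod_b2r (A : Finset V) (ω : V → Bool) :
    ∏ w ∈ A, b2r (ω w) = Set.indicator {ω : V → Bool | ∀ w ∈ A, ω w = true} (fun _ => (1 : ℝ)) ω := by
  by_cases h : ∀ w ∈ A, ω w = true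
  · rw [Set.indicator_of_mem (show ω ∈ {ω : V → Bool | ∀ w ∈ A, ω w = true} from h)]
    apply Finset.prod_eq_one
    intro w hw
    simp [b2r, h w hw]
  · rw [Set.indicator_of_notMem (show ω ∉ {ω : V → Bool | ∀ w ∈ A, ω w = true} from h)]
    simp only [not_forall] at h
    obtain ⟨w, hw, hw'⟩ := h
    apply Finset.prod_eq_zero hw
    simp [b2r, hw']

lemma measurableSet_cyl (A : Finset V) : MeasurableSet {ω : V → Bool | ∀ w ∈ A, ω w = true} := by
  have : {ω : V → Bool | ∀ w ∈ A, ω w = true} = ⋂ w ∈ A, (fun ω : V → Bool => ω w) ⁻¹' {true} := by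
    ext ω; simp
  rw [this]
  exact Finset.measurableSet_biInter A
    (fun w _ => (measurable_pi_apply w) (MeasurableSet.singleton true))

lemma integral_prod_b2r (ν : Measure (V → Bool)) (A : Finset V) :
    ∫ ω, ∏ w ∈ A, b2r (ω w) ∂ν = inclOf ν A := by
  simp_rw [prod_b2r]
  rw [integral_indicator_const _ (measurableSet_cyl A)]
  simp [inclOf, Measure.real]

lemma integrable_prod_b2r (ν : Measure (V → Bool)) [IsProbabilityMeasure ν] (A : Finset V) :
    Integrable (fun ω => ∏ w ∈ A, b2r (ω w)) ν := by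
  simp_rw [prod_b2r]
  exact (integrable_const (1 : ℝ)).indicator (measurableSet_cyl A)

/-- expansion of the tilt. -/
lemma exp_sum_eq (F : Finset V) (h : V → ℝ) (ω : V → Bool) :
    Real.exp (∑ w ∈ F, h w * b2r (ω w))
      = ∑ A ∈ F.powerset, (∏ w ∈ A, (Real.exp (h w) - 1)) * ∏ w ∈ A, b2r (ω w) := by
  rw [Real.exp_sum]
  simp_rw [exp_mul_b2r]
  rw [Finset.prod_one_add]
  apply Finset.sum_congr rfl
  intro A _
  rw [Finset.prod_mul_distrib]

lemma b2r_mul_prod (v : V) (A : Finset V) (ω : V → Bool) :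
    b2r (ω v) * ∏ w ∈ A, b2r (ω w) = ∏ w ∈ insert v A, b2r (ω w) := by
  by_cases hv : v ∈ A
  · rw [Finset.insert_eq_of_mem hv, ← Finset.mul_prod_erase A _ hv, ← mul_assoc, b2r_mul_self]
  · rw [Finset.prod_insert hv]

end Tilt

open _root_.Crest.Agent.SL.Tilt

lemma mq_mem (q : Finset V → ℝ) (F : Finset V) (h : V → ℝ) (v : V) :
    mq q F h v ∈ Set.Icc (0:ℝ) 1 := by
  unfold mq
  exact ⟨le_max_left _ _, max_le zero_le_one (min_le_left _ _)⟩

lemma Tilt.Zq_congr (q : Finset V → ℝ) (F : Finset V) {h h' : V → ℝ}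
    (hh : ∀ w ∈ F, h w = h' w) : Zq q F h = Zq q F h' := by
  unfold Zq
  apply Finset.sum_congr rfl
  intro A hA
  congr 1
  apply Finset.prod_congr rfl
  intro w hw
  rw [hh w (Finset.mem_powerset.1 hA hw)]

lemma Tilt.Nq_congr (q : Finset V → ℝ) (F : Finset V) {h h' : V → ℝ} (v : V)
    (hh : ∀ w ∈ F, h w = h' w) : Nq q F h v = Nq q F h' v := by
  unfold Nq
  apply Finset.sum_congr rfl
  intro A hA
  congr 1
  apply Finset.prod_congr rfl
  intro w hw
  rw [hh w (Finset.mem_powerset.1 hA hw)]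

lemma mq_congr (q : Finset V → ℝ) (F : Finset V) {h h' : V → ℝ} (v : V)
    (hh : ∀ w ∈ F, h w = h' w) : mq q F h v = mq q F h' v := by
  unfold mq
  rw [Tilt.Zq_congr q F hh, Tilt.Nq_congr q F v hh]

lemma Zq_inclOf (ν : Measure (V → Bool)) [IsProbabilityMeasure ν] (F : Finset V) (h : V → ℝ) :
    Zq (inclOf ν) F h = ∫ ω, Real.exp (∑ w ∈ F, h w * b2r (ω w)) ∂ν := by
  simp_rw [exp_sum_eq]
  rw [integral_finsetSum _ (fun A _ => (integrable_prod_b2r ν A).const_mul _)]
  unfold Zq
  apply Finset.sum_congr rfl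
  intro A _
  rw [integral_const_mul, integral_prod_b2r]

lemma Nq_inclOf (ν : Measure (V → Bool)) [IsProbabilityMeasure ν] (F : Finset V) (h : V → ℝ) (v : V) :
    Nq (inclOf ν) F h v = ∫ ω, b2r (ω v) * Real.exp (∑ w ∈ F, h w * b2r (ω w)) ∂ν := by
  have key : ∀ ω : V → Bool, b2r (ω v) * Real.exp (∑ w ∈ F, h w * b2r (ω w))
      = ∑ A ∈ F.powerset, (∏ w ∈ A, (Real.exp (h w) - 1)) * ∏ w ∈ insert v A, b2r (ω w) := by
    intro ω
    rw [exp_sum_eq, Finset.mul_sum]
    apply Finset.sum_congr rfl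
    intro A _
    rw [← b2r_mul_prod]
    ring
  simp_rw [key]
  rw [integral_finsetSum _ (fun A _ => (integrable_prod_b2r ν (insert v A)).const_mul _)]
  unfold Nq
  apply Finset.sum_congr rfl
  intro A _
  rw [integral_const_mul, integral_prod_b2r]

lemma Tilt.integrable_exp (ν : Measure (V → Bool)) [IsProbabilityMeasure ν] (F : Finset V)
    (h : V → ℝ) : Integrable (fun ω => Real.exp (∑ w ∈ F, h w * b2r (ω w))) ν := by
  simp_rw [exp_sum_eq]
  exact integrable_finsetSum _ (fun A _ => (integrable_prod_b2r ν A).const_mul _)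

lemma Tilt.integrable_b2r_exp (ν : Measure (V → Bool)) [IsProbabilityMeasure ν] (F : Finset V)
    (h : V → ℝ) (v : V) :
    Integrable (fun ω => b2r (ω v) * Real.exp (∑ w ∈ F, h w * b2r (ω w))) ν := by
  refine (Tilt.integrable_exp ν F h).bdd_mul (c := 1)
    (measurable_b2r_eval v).aestronglyMeasurable ?_
  refine Filter.Eventually.of_forall (fun ω => ?_)
  rw [Real.norm_eq_abs, abs_of_nonneg (b2r_nonneg _)]
  exact b2r_le_one _

lemma Zq_inclOf_pos (ν : Measure (V → Bool)) [IsProbabilityMeasure ν] (F : Finset V) (h : V → ℝ) :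
    0 < Zq (inclOf ν) F h := by
  rw [Zq_inclOf]
  exact integral_exp_pos (Tilt.integrable_exp ν F h)

lemma mq_inclOf (ν : Measure (V → Bool)) [IsProbabilityMeasure ν] (F : Finset V) (h : V → ℝ) (v : V) :
    mq (inclOf ν) F h v = Nq (inclOf ν) F h v / Zq (inclOf ν) F h := by
  have hZ := Zq_inclOf_pos ν F h
  have h0 : 0 ≤ Nq (inclOf ν) F h v := by
    rw [Nq_inclOf]
    exact integral_nonneg (fun ω => mul_nonneg (b2r_nonneg _) (Real.exp_pos _).le)
  have h1 : Nq (inclOf ν) F h v ≤ Zq (inclOf ν) F h := by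
    rw [Nq_inclOf, Zq_inclOf]
    apply integral_mono (Tilt.integrable_b2r_exp ν F h v) (Tilt.integrable_exp ν F h)
    intro ω
    exact mul_le_of_le_one_left (Real.exp_pos _).le (b2r_le_one _)
  unfold mq
  rw [min_eq_right ((div_le_one hZ).2 h1), max_eq_right (div_nonneg h0 hZ.le)]

/-- sites outside the support do not matter -/
lemma mq_inter_support (q : Finset V → ℝ) (S : Set V) (hS : ∀ A : Finset V, ¬ (↑A ⊆ S) → q A = 0)
    (F : Finset V) (h : V → ℝ) (v : V) : mq q F h v = mq q (F.filter (· ∈ S)) h v := by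
  have hsub : (F.filter (· ∈ S)).powerset ⊆ F.powerset :=
    Finset.powerset_mono.2 (Finset.filter_subset _ _)
  have hnot : ∀ A ∈ F.powerset, A ∉ (F.filter (· ∈ S)).powerset → ¬ ((A : Set V) ⊆ S) := by
    intro A hA hA' hAS
    apply hA'
    rw [Finset.mem_powerset]
    intro w hw
    exact Finset.mem_filter.2 ⟨Finset.mem_powerset.1 hA hw, hAS (by exact_mod_cast hw)⟩
  have hZ : Zq q F h = Zq q (F.filter (· ∈ S)) h := by
    unfold Zq
    symm
    apply Finset.sum_subset hsub
    intro A hA hA'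
    rw [hS A (hnot A hA hA'), mul_zero]
  have hN : Nq q F h v = Nq q (F.filter (· ∈ S)) h v := by
    unfold Nq
    symm
    apply Finset.sum_subset hsub
    intro A hA hA'
    rw [hS (insert v A), mul_zero]
    intro hins
    apply hnot A hA hA'
    intro w hw
    apply hins
    simp only [Finset.coe_insert]
    exact Set.mem_insert_of_mem _ hw
  unfold mq
  rw [hZ, hN]

lemma Tilt.tendsto_mq (qn : ℕ → Finset V → ℝ) (q : Finset V → ℝ)
    (hlim : ∀ A, Tendsto (fun n => qn n A) atTop (𝓝 (q A)))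
    (F : Finset V) (h : V → ℝ) (hZ : 0 < Zq q F h) (v : V) :
    Tendsto (fun n => mq (qn n) F h v) atTop (𝓝 (mq q F h v)) := by
  have h1 : Tendsto (fun n => Zq (qn n) F h) atTop (𝓝 (Zq q F h)) := by
    unfold Zq
    exact tendsto_finsetSum _ (fun A _ => (hlim A).const_mul _)
  have h2 : Tendsto (fun n => Nq (qn n) F h v) atTop (𝓝 (Nq q F h v)) := by
    unfold Nq
    exact tendsto_finsetSum _ (fun A _ => (hlim (insert v A)).const_mul _)
  unfold mq
  exact tendsto_const_nhds.max (tendsto_const_nhds.min (h2.div h1 hZ.ne'))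

/-- `LipCond` is closed under pointwise limits. -/
theorem lipCond_of_tendsto (qn : ℕ → Finset V → ℝ) (q : Finset V → ℝ)
    (hlim : ∀ A, Tendsto (fun n => qn n A) atTop (𝓝 (q A)))
    (hZ : ∀ F h, 0 < Zq q F h) (hn : ∀ n, LipCond (qn n)) : LipCond q := by
  intro F h h' v c hc0 hc
  have h1 := Tilt.tendsto_mq qn q hlim F h (hZ F h) v
  have h2 := Tilt.tendsto_mq qn q hlim F h' (hZ F h') v
  exact le_of_tendsto (h1.sub h2).abs (Filter.Eventually.of_forall (fun n => hn n F h h' v c hc0 hc))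

end

end Crest.Agent.SL
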