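import Crest.Agent.S0255_Lip
import Crest.Agent.S0255_SP
import Crest.Agent.S0255_Tilt
import Crest.Agent.S0254_MT
import Crest.Prelude.Def_StronglyRayleigh
import Crest.Prelude.Def_SpanningTrees

/-!
# ROW 168, package LIP (B): stable weights / strongly Rayleigh laws satisfy `LipCond`
-/

set_option autoImplicit false

namespace Crest.Agent.SL

open MeasureTheory Finset
open scoped Classical
open Crest.Agent.S0255L (T0 T1 T2 W ZF NF mF Stable SPStatement)

noncomputable section

variable {V : Type*}

namespace Lip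

theorem spStatement : SPStatement :=
  fun A B hA hB hA1 hB1 hst => Crest.Agent.S0255SP.sp_lemma A B hA hB hA1 hB1 hst

/-- unnormalised inclusion weights of the weights `p` on the subsets of `E`. -/
def qW (p : Finset V → ℝ) (E : Finset V) (A : Finset V) : ℝ :=
  ∑ S ∈ E.powerset, if A ⊆ S then p S else 0

/-- the field `h` cut off outside `F`. -/
def cut (F : Finset V) (h : V → ℝ) : V → ℝ := fun i => if i ∈ F then h i else 0

theorem exp_sum_cut (F S : Finset V) (h : V → ℝ) :
    Real.exp (∑ i ∈ S, cut F h i)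
      = ∑ A ∈ F.powerset, if A ⊆ S then ∏ w ∈ A, (Real.exp (h w) - 1) else 0 := by
  have h1 : ∀ i, Real.exp (cut F h i) = 1 + (if i ∈ F then Real.exp (h i) - 1 else 0) := by
    intro i; unfold cut; split_ifs <;> simp
  rw [Real.exp_sum]
  simp_rw [h1]
  rw [Finset.prod_one_add]
  have h2 : ∀ A ∈ S.powerset, ∏ i ∈ A, (if i ∈ F then Real.exp (h i) - 1 else 0)
      = if A ⊆ F then ∏ w ∈ A, (Real.exp (h w) - 1) else 0 := by
    intro A _
    split_ifs with hA
    · exact Finset.prod_congr rfl (fun i hi => by simp [hA hi])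
    · obtain ⟨i, hi, hiF⟩ := Finset.not_subset.mp hA
      exact Finset.prod_eq_zero hi (by simp [hiF])
  rw [Finset.sum_congr rfl h2, ← Finset.sum_filter, ← Finset.sum_filter]
  congr 1
  ext A
  simp [and_comm]

theorem Zq_qW (p : Finset V → ℝ) (E F : Finset V) (h : V → ℝ) :
    Zq (qW p E) F h = ZF p E (cut F h) := by
  unfold Zq qW ZF T0 W
  simp_rw [exp_sum_cut, Finset.mul_sum]
  rw [Finset.sum_comm]
  refine Finset.sum_congr rfl (fun S _ => Finset.sum_congr rfl (fun A _ => ?_))
  split_ifs <;> ring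

theorem Nq_qW (p : Finset V → ℝ) (E F : Finset V) (h : V → ℝ) (v : V) :
    Nq (qW p E) F h v = NF p E v (cut F h) := by
  unfold Nq qW NF T1 W
  simp_rw [exp_sum_cut, Finset.mul_sum]
  rw [Finset.sum_comm]
  refine Finset.sum_congr rfl (fun S _ => ?_)
  by_cases hv : v ∈ S
  · simp only [hv, if_true]
    refine Finset.sum_congr rfl (fun A _ => ?_)
    by_cases hA : A ⊆ S
    · simp [hA, Finset.insert_subset_iff, hv, mul_comm]
    · simp [hA, Finset.insert_subset_iff]
  · simp [hv, Finset.insert_subset_iff]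

theorem mF_mem {p : Finset V → ℝ} {E : Finset V} (hp : ∀ S ∈ E.powerset, 0 ≤ p S)
    (hpos : ∃ S ∈ E.powerset, 0 < p S) (v : V) (h : V → ℝ) :
    0 ≤ mF p E v h ∧ mF p E v h ≤ 1 := by
  have hZ := Crest.Agent.S0255L.ZF_pos hp hpos h
  have hW := Crest.Agent.S0255L.W_nonneg hp h
  constructor
  · exact div_nonneg (Crest.Agent.S0255L.T1_nonneg hW v) hZ.le
  · exact (div_le_one hZ).mpr (Crest.Agent.S0255L.T1_le_T0 hW v)

theorem mq_qW {p : Finset V → ℝ} {E : Finset V} (hp : ∀ S ∈ E.powerset, 0 ≤ p S)
    (hpos : ∃ S ∈ E.powerset, 0 < p S) (F : Finset V) (h : V → ℝ) (v : V) :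
    mq (qW p E) F h v = mF p E v (cut F h) := by
  unfold mq
  rw [Zq_qW, Nq_qW]
  obtain ⟨h0, h1⟩ := mF_mem hp hpos v (cut F h)
  change max 0 (min 1 (mF p E v (cut F h))) = _
  rw [min_eq_right h1, max_eq_right h0]

theorem mF_eq_zero_of_notMem (p : Finset V → ℝ) {E : Finset V} {v : V} (hv : v ∉ E) (h : V → ℝ) :
    mF p E v h = 0 := by
  unfold mF NF T1
  rw [Finset.sum_eq_zero, zero_div]
  intro S hS
  have : v ∉ S := fun h' => hv (Finset.mem_powerset.mp hS h')
  simp [this]

/-- `mq` only sees `q` on the subsets of `insert v F`. -/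
theorem mq_congr_q {q q' : Finset V → ℝ} {F : Finset V} {v : V}
    (hq : ∀ A, A ⊆ insert v F → q A = q' A) (h : V → ℝ) : mq q F h v = mq q' F h v := by
  have hZ : Zq q F h = Zq q' F h := by
    unfold Zq
    refine Finset.sum_congr rfl (fun A hA => ?_)
    rw [hq A ((Finset.mem_powerset.mp hA).trans (Finset.subset_insert _ _))]
  have hN : Nq q F h v = Nq q' F h v := by
    unfold Nq
    refine Finset.sum_congr rfl (fun A hA => ?_)
    rw [hq _ (Finset.insert_subset_insert _ (Finset.mem_powerset.mp hA))]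
  unfold mq
  rw [hZ, hN]

/-- `mq` does not change if `q` is multiplied by a nonzero constant. -/
theorem mq_smul (q : Finset V → ℝ) {a : ℝ} (ha : a ≠ 0) (F : Finset V) (h : V → ℝ) (v : V) :
    mq (fun A => q A / a) F h v = mq q F h v := by
  have hZ : Zq (fun A => q A / a) F h = Zq q F h / a := by
    unfold Zq; rw [Finset.sum_div]; exact Finset.sum_congr rfl (fun A _ => by ring)
  have hN : Nq (fun A => q A / a) F h v = Nq q F h v / a := by
    unfold Nq; rw [Finset.sum_div]; exact Finset.sum_congr rfl (fun A _ => by ring)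
  unfold mq
  rw [hZ, hN, div_div_div_cancel_right₀ ha]

/-- the pointwise Lipschitz bound for stable weights. -/
theorem mq_qW_lip {p : Finset V → ℝ} {E : Finset V} (hp : ∀ S ∈ E.powerset, 0 ≤ p S)
    (hst : Stable p E) (F : Finset V) (h h' : V → ℝ) (v : V) (c : ℝ) (hc : 0 ≤ c)
    (hh : ∀ w ∈ F, |h w - h' w| ≤ c) :
    |mq (qW p E) F h v - mq (qW p E) F h' v| ≤ c / 2 := by
  have hpos := Crest.Agent.S0255L.exists_pos_of_stable hp hst
  rw [mq_qW hp hpos, mq_qW hp hpos]
  by_cases hv : v ∈ E
  · refine Crest.Agent.S0255L.mF_lipschitz spStatement hp hst hv (fun i _ => ?_)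
    unfold cut
    split_ifs with hi
    · exact hh i hi
    · simpa using hc
  · rw [mF_eq_zero_of_notMem p hv, mF_eq_zero_of_notMem p hv]
    simpa using by positivity

end Lip

open Lip

/-- **Stable nonnegative weights give `LipCond`** (unnormalised inclusion weights). -/
theorem lipCond_qW {p : Finset V → ℝ} {E : Finset V} (hp : ∀ S ∈ E.powerset, 0 ≤ p S)
    (hst : Stable p E) : LipCond (qW p E) :=
  fun F h h' v c hc hh => mq_qW_lip hp hst F h h' v c hc hh

/-- **Stable nonnegative weights give `LipCond`** (normalised inclusion probabilities). -/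
theorem lipCond_qW_div {p : Finset V → ℝ} {E : Finset V} (hp : ∀ S ∈ E.powerset, 0 ≤ p S)
    (hst : Stable p E) : LipCond (fun A => qW p E A / qW p E ∅) := by
  have hpos := Crest.Agent.S0255L.exists_pos_of_stable hp hst
  have h0 : qW p E ∅ ≠ 0 := by
    obtain ⟨S, hS, hS0⟩ := hpos
    have : 0 < qW p E ∅ := by
      unfold qW
      simp only [Finset.empty_subset, if_true]
      exact Finset.sum_pos' hp ⟨S, hS, hS0⟩
    exact this.ne'
  intro F h h' v c hc hh
  rw [mq_smul _ h0, mq_smul _ h0]
  exact mq_qW_lip hp hst F h h' v c hc hh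

/-! ### strongly Rayleigh laws -/

namespace Lip

/-- the cylinder "occupied exactly at `S` within `F`". -/
def cyl (F S : Finset V) : Set (V → Bool) := {ω | ∀ i ∈ F, (ω i = true ↔ i ∈ S)}

theorem measurableSet_cyl' (F S : Finset V) : MeasurableSet (cyl F S) := by
  have : cyl F S = ⋂ i ∈ F, (fun ω : V → Bool => ω i) ⁻¹' {b | b = true ↔ i ∈ S} := by
    ext ω; simp [cyl]
  rw [this]
  exact Finset.measurableSet_biInter F
    (fun i _ => (measurable_pi_apply i) (MeasurableSet.of_discrete))

theorem incl_eq_biUnion {F A : Finset V} (hA : A ⊆ F) :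
    {ω : V → Bool | ∀ w ∈ A, ω w = true}
      = ⋃ S ∈ F.powerset.filter (fun S => A ⊆ S), cyl F S := by
  ext ω
  simp only [Set.mem_ofPred_eq, Set.mem_iUnion, Finset.mem_filter, Finset.mem_powerset, cyl,
    exists_prop]
  constructor
  · intro h
    refine ⟨F.filter (fun i => ω i = true), ⟨Finset.filter_subset _ _, fun w hw => ?_⟩, ?_⟩
    · exact Finset.mem_filter.mpr ⟨hA hw, h w hw⟩
    · intro i hi
      simp [hi]
  · rintro ⟨S, ⟨_, hAS⟩, hS⟩ w hw
    exact (hS w (hA hw)).mpr (hAS hw)

theorem cyl_disjoint (F : Finset V) :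
    Set.PairwiseDisjoint (↑(F.powerset) : Set (Finset V)) (cyl F) := by
  intro S hS S' hS' hne
  rw [Function.onFun, Set.disjoint_left]
  intro ω h1 h2
  apply hne
  have hS1 : S ⊆ F := Finset.mem_powerset.mp hS
  have hS2 : S' ⊆ F := Finset.mem_powerset.mp hS'
  ext i
  constructor
  · intro hi; exact (h2 i (hS1 hi)).mp ((h1 i (hS1 hi)).mpr hi)
  · intro hi; exact (h1 i (hS2 hi)).mp ((h2 i (hS2 hi)).mpr hi)

theorem inclOf_eq_qW (ν : Measure (V → Bool)) [IsProbabilityMeasure ν] {F A : Finset V}
    (hA : A ⊆ F) : inclOf ν A = qW (fun S => (ν (cyl F S)).toReal) F A := by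
  unfold inclOf qW
  rw [incl_eq_biUnion hA, measure_biUnion_finset
    ((cyl_disjoint F).subset (by intro S hS; exact (Finset.mem_filter.mp hS).1))
    (fun S _ => measurableSet_cyl' F S), ENNReal.toReal_sum (fun S _ => measure_ne_top ν _),
    Finset.sum_filter]

end Lip

/-- **B: strongly Rayleigh laws satisfy `LipCond`.** -/
theorem lipCond_of_SR (ν : Measure (V → Bool)) [IsProbabilityMeasure ν]
    (h : Crest.ProbabilityR.StronglyRayleigh.IsStronglyRayleigh ν) : LipCond (inclOf ν) := by
  intro F f f' v c hc hh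
  have hq : ∀ A, A ⊆ insert v F →
      inclOf ν A = qW (fun S => (ν (cyl (insert v F) S)).toReal) (insert v F) A :=
    fun A hA => inclOf_eq_qW ν hA
  rw [mq_congr_q hq, mq_congr_q hq]
  refine mq_qW_lip (fun S _ => ENNReal.toReal_nonneg) ?_ F f f' v c hc hh
  intro z hz
  exact h (insert v F) z hz

/-! ### uniform spanning trees of finite connected pieces -/

open Crest.ProbabilityR.SpanningTrees in
/-- **The inclusion probabilities of the uniform spanning tree of a finite connected piece
satisfy `LipCond`.** -/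
theorem lipCond_ust (G : SimpleGraph V) (S : Finset V)
    (hc : (G.induce (S : Set V)).Connected) : LipCond (fun A => ustContains G S A) := by
  set p : Finset (Sym2 V) → ℝ := fun A => if IsSpanningTreeOn G S A then 1 else 0 with hp
  have hp0 : ∀ A ∈ (edgesIn G S).powerset, 0 ≤ p A := by
    intro A _; simp only [hp]; split_ifs <;> norm_num
  have hst : Stable p (edgesIn G S) := by
    intro z hz
    have := Crest.Agent.S0254MT.treePoly_ne_zero G hc z hz
    rw [Finset.sum_filter] at this
    convert this using 1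
    refine Finset.sum_congr rfl (fun A _ => ?_)
    simp only [hp]
    split_ifs <;> simp
  have hq : ∀ F : Finset (Sym2 V), qW p (edgesIn G S) F
      = (((edgesIn G S).powerset.filter (fun A => IsSpanningTreeOn G S A ∧ F ⊆ A)).card : ℝ) := by
    intro F
    unfold qW
    rw [Finset.card_filter]
    push_cast
    refine Finset.sum_congr rfl (fun A _ => ?_)
    simp only [hp]
    by_cases h1 : IsSpanningTreeOn G S A <;> by_cases h2 : F ⊆ A <;> simp [h1, h2]
  have := lipCond_qW_div hp0 hst
  convert this using 2 with F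
  rw [hq F, hq ∅]
  unfold ustContains
  simp only [Finset.empty_subset, and_true]

end

end Crest.Agent.SL
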