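import Crest.Agent.S0254_Defs
import Crest.Agent.S0254_UstLaw
import Crest.Agent.S0255_LipSR

/-!
# ROW 168 (S0254), packages C1 + C2: the MT / USTLAW results in the names of `S0254_Defs`
(namespace `FU`), statements verbatim from `notes/S0254_Iface.lean.txt`.
-/

set_option autoImplicit false
open Finset MeasureTheory
open Crest.ProbabilityR.SpanningTrees Crest.ProbabilityR.StronglyRayleigh
open scoped ENNReal

namespace Crest.Agent.FU

lemma treeSet_eq_trees (G : SimpleGraph ℕ) (S : Finset ℕ) :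
    treeSet G S = S0254Law.trees G S := by
  ext A
  simp only [treeSet, S0254Law.trees, mem_filter]

lemma mem_treeSet {G : SimpleGraph ℕ} {S : Finset ℕ} {A : Finset (Sym2 ℕ)} :
    A ∈ treeSet G S ↔ IsSpanningTreeOn G S A := by
  rw [treeSet_eq_trees, S0254Law.mem_trees]

lemma ind_eq (A : Finset (Sym2 ℕ)) : ind A = S0254Law.ind A := by
  funext e
  simp [ind, S0254Law.ind]

lemma ustMeasure_eq_ustLaw (G : SimpleGraph ℕ) (S : Finset ℕ) :
    ustMeasure G S = S0254Law.ustLaw G S := by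
  unfold ustMeasure S0254Law.ustLaw
  rw [treeSet_eq_trees, Finset.smul_sum]
  apply Finset.sum_congr rfl
  intro A _
  rw [ind_eq]

/-! ## C1 -/

/-- mixed half-plane property of the tree polynomial. -/
theorem treePoly_ne_zero (G : SimpleGraph ℕ) (S : Finset ℕ) (hc : Piece G S) (z : Sym2 ℕ → ℂ)
    (hz : ∀ e ∈ edgesIn G S, 0 < (z e).im ∨ ((z e).im = 0 ∧ 0 < (z e).re)) :
    treePoly G S z ≠ 0 := by
  classical
  have h := S0254MT.treePoly_ne_zero_mixed G hc z hz
  unfold treePoly treeSet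
  convert h

/-! ## C2 -/

theorem treeSet_nonempty (G : SimpleGraph ℕ) (S : Finset ℕ) (hc : Piece G S) :
    (treeSet G S).Nonempty := by
  obtain ⟨A, hA⟩ := S0254MT.exists_isSpanningTreeOn G hc
  exact ⟨A, mem_treeSet.2 hA⟩

theorem card_of_mem_treeSet {G : SimpleGraph ℕ} {S : Finset ℕ} {A : Finset (Sym2 ℕ)}
    (hA : A ∈ treeSet G S) : A.card + 1 = S.card :=
  S0254MT.card_of_isSpanningTreeOn G (mem_treeSet.1 hA)

theorem isProbabilityMeasure_ustMeasure (G : SimpleGraph ℕ) (S : Finset ℕ) (hc : Piece G S) :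
    IsProbabilityMeasure (ustMeasure G S) := by
  rw [ustMeasure_eq_ustLaw]
  exact S0254Law.isProbabilityMeasure_ustLaw G hc

theorem inclOf_ustMeasure (G : SimpleGraph ℕ) (S : Finset ℕ) (A : Finset (Sym2 ℕ)) :
    SL.inclOf (ustMeasure G S) A = ustContains G S A := by
  rw [ustMeasure_eq_ustLaw]
  exact S0254Law.inclOf_ustLaw G A

theorem sr_ustMeasure (G : SimpleGraph ℕ) (S : Finset ℕ) (hc : Piece G S) :
    IsStronglyRayleigh (ustMeasure G S) := by
  rw [ustMeasure_eq_ustLaw]
  exact S0254Law.isStronglyRayleigh_ustLaw G hc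

theorem lipCond_ust (G : SimpleGraph ℕ) (S : Finset ℕ) (hc : Piece G S) :
    SL.LipCond (fun A => ustContains G S A) :=
  SL.lipCond_ust G S hc

theorem ustContains_eq_zero (G : SimpleGraph ℕ) (S : Finset ℕ) (A : Finset (Sym2 ℕ))
    (hA : ¬ (↑A : Set (Sym2 ℕ)) ⊆ G.edgeSet) : ustContains G S A = 0 := by
  rw [← inclOf_ustMeasure, ustMeasure_eq_ustLaw]
  classical
  unfold SL.inclOf
  rw [S0254Law.ustLaw_real G (S0254Law.measurableSet_incl A)]
  have h : (S0254Law.trees G S).filter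
      (fun B => S0254Law.ind B ∈ {ω : Sym2 ℕ → Bool | ∀ w ∈ A, ω w = true}) = ∅ := by
    apply Finset.filter_eq_empty_iff.2
    intro B hB hAB
    apply hA
    intro e he
    have h0 : e ∈ B := S0254Law.ind_eq_true.1 (hAB e he)
    have h1 : e ∈ edgesIn G S := ((S0254Law.mem_trees G).1 hB).1 h0
    unfold edgesIn at h1
    exact (mem_filter.1 h1).2
  rw [h]
  simp

end Crest.Agent.FU
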