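import Crest.Agent.S0254_Defs
import Crest.Agent.S0254_MonoFU
import Crest.Agent.S0254_BallFU
import Crest.Agent.S0254_UstFU
import Crest.Agent.S0254_NuG
import Crest.Agent.S0255_LipSR
import Crest.Agent.S0255_Tilt

/-!
# ROW168, S0254 half, packages C6b + C7: the infinite volume law `ν_G` and `LipCond (qG G)`
-/

set_option autoImplicit false

namespace Crest.Agent.FU

open MeasureTheory unitInterval Filter Topology
open Crest.ProbabilityR.SpanningTrees Crest.ProbabilityR.GraphTables Crest.ProbabilityR.Labels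
open scoped Classical ENNReal

noncomputable section

theorem exists_limit_law {V : Type*} [Countable V] (μ : ℕ → Measure (V → Bool))
    (hμ : ∀ n, IsProbabilityMeasure (μ n)) (q : Finset V → ℝ)
    (h : ∀ A, Tendsto (fun n => SL.inclOf (μ n) A) atTop (𝓝 (q A))) :
    ∃ ν : Measure (V → Bool), IsProbabilityMeasure ν ∧ ∀ A, SL.inclOf ν A = q A :=
  SL.NuG.exists_law_of_tendsto μ q h

theorem tendsto_ust_ball (G : SimpleGraph ℕ) (hG : Good G) (A : Finset (Sym2 ℕ)) :
    Tendsto (fun n => ustContains G (vballF G s(0, 0) n) A) atTop (𝓝 (qG G A)) := by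
  by_cases hA : (↑A : Set (Sym2 ℕ)) ⊆ G.edgeSet
  · exact tendsto_qG G (vballF G s(0, 0)) (vballF_mono G hG _) (vballF_exhaust G hG _)
      (piece_vballF G hG 0) A hA
  · have h0 : qG G A = 0 := by
      unfold qG
      rw [if_neg hA]
    rw [h0]
    simp only [ustContains_eq_zero G _ A hA]
    exact tendsto_const_nhds

theorem exists_nuG (G : SimpleGraph ℕ) (hG : Good G) :
    ∃ ν : Measure (Sym2 ℕ → Bool), IsProbabilityMeasure ν ∧ ∀ A, SL.inclOf ν A = qG G A := by
  apply exists_limit_law (fun n => ustMeasure G (vballF G s(0, 0) n))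
    (fun n => isProbabilityMeasure_ustMeasure G _ (piece_vballF G hG 0 n))
  intro A
  simp only [inclOf_ustMeasure]
  exact tendsto_ust_ball G hG A

theorem lipCond_qG (G : SimpleGraph ℕ) (hG : Good G) : SL.LipCond (qG G) := by
  obtain ⟨ν, hν, hq⟩ := exists_nuG G hG
  have hq' : SL.inclOf ν = qG G := funext hq
  apply SL.lipCond_of_tendsto (fun n A => ustContains G (vballF G s(0, 0) n) A) (qG G)
    (tendsto_ust_ball G hG)
  · intro F h
    rw [← hq']
    exact SL.Zq_inclOf_pos ν F h
  · intro n
    exact lipCond_ust G _ (piece_vballF G hG 0 n)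

end

end Crest.Agent.FU
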