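import Crest.Agent.S0254_Defs

/-!
# ROW168 (S0254), package QMEAS: `qG (graphOfTable T) A` is measurable in the table `T`
-/

set_option autoImplicit false

namespace Crest.Agent.FU

open MeasureTheory
open Crest.ProbabilityR.SpanningTrees Crest.ProbabilityR.GraphTables
open scoped Classical

namespace QMeas

lemma edgesIn_congr {G G' : SimpleGraph ℕ} {S : Finset ℕ}
    (h : ∀ a ∈ S, ∀ b ∈ S, (G.Adj a b ↔ G'.Adj a b)) : edgesIn G S = edgesIn G' S := by
  unfold edgesIn
  ext e
  induction e using Sym2.ind with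
  | _ a b =>
    simp only [Finset.mem_filter, Finset.mk_mem_sym2_iff, SimpleGraph.mem_edgeSet]
    constructor
    · rintro ⟨⟨ha, hb⟩, hadj⟩; exact ⟨⟨ha, hb⟩, (h a ha b hb).1 hadj⟩
    · rintro ⟨⟨ha, hb⟩, hadj⟩; exact ⟨⟨ha, hb⟩, (h a ha b hb).2 hadj⟩

lemma isSpanningTreeOn_congr {G G' : SimpleGraph ℕ} {S : Finset ℕ}
    (h : ∀ a ∈ S, ∀ b ∈ S, (G.Adj a b ↔ G'.Adj a b)) (B : Finset (Sym2 ℕ)) :
    IsSpanningTreeOn G S B ↔ IsSpanningTreeOn G' S B := by
  unfold IsSpanningTreeOn
  rw [edgesIn_congr h]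

lemma ustContains_congr {G G' : SimpleGraph ℕ} {S : Finset ℕ}
    (h : ∀ a ∈ S, ∀ b ∈ S, (G.Adj a b ↔ G'.Adj a b)) (A : Finset (Sym2 ℕ)) :
    ustContains G S A = ustContains G' S A := by
  unfold ustContains
  rw [edgesIn_congr h]
  simp only [isSpanningTreeOn_congr h]
  congr!

lemma piece_congr {G G' : SimpleGraph ℕ} {S : Finset ℕ}
    (h : ∀ a ∈ S, ∀ b ∈ S, (G.Adj a b ↔ G'.Adj a b)) : Piece G S ↔ Piece G' S := by
  unfold Piece
  have : G.induce (S : Set ℕ) = G'.induce (S : Set ℕ) := by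
    ext ⟨a, ha⟩ ⟨b, hb⟩
    simpa using h a ha b hb
  rw [this]

lemma qTerm_congr {G G' : SimpleGraph ℕ} {S : Finset ℕ}
    (h : ∀ a ∈ S, ∀ b ∈ S, (G.Adj a b ↔ G'.Adj a b)) (A : Finset (Sym2 ℕ)) :
    qTerm G A S = qTerm G' A S := by
  unfold qTerm
  rw [edgesIn_congr h, ustContains_congr h]
  simp only [piece_congr h]

/-- restriction of a table to `S × S` -/
def restr (S : Finset ℕ) (T : ℕ → ℕ → Bool) : (S × S → Bool) := fun p => T p.1 p.2

/-- extension by `false` -/
def extd (S : Finset ℕ) (t : S × S → Bool) : ℕ → ℕ → Bool :=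
  fun i j => if h : i ∈ S ∧ j ∈ S then t (⟨i, h.1⟩, ⟨j, h.2⟩) else false

lemma measurable_restr (S : Finset ℕ) : Measurable (restr S) := by
  refine measurable_pi_lambda _ fun p => ?_
  exact (measurable_pi_apply (p.2 : ℕ)).comp (measurable_pi_apply (p.1 : ℕ))

lemma adj_extd_restr (S : Finset ℕ) (T : ℕ → ℕ → Bool) :
    ∀ a ∈ S, ∀ b ∈ S, ((graphOfTable T).Adj a b ↔ (graphOfTable (extd S (restr S T))).Adj a b) := by
  intro a ha b hb
  simp [graphOfTable, SimpleGraph.fromRel_adj, extd, restr, ha, hb]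

lemma measurable_qTerm (A : Finset (Sym2 ℕ)) (S : Finset ℕ) :
    Measurable fun T : ℕ → ℕ → Bool => qTerm (graphOfTable T) A S := by
  have h1 : (fun T : ℕ → ℕ → Bool => qTerm (graphOfTable T) A S)
      = (fun t : S × S → Bool => qTerm (graphOfTable (extd S t)) A S) ∘ restr S := by
    funext T
    exact qTerm_congr (adj_extd_restr S T) A
  rw [h1]
  exact (measurable_of_countable _).comp (measurable_restr S)

lemma measurableSet_adj (a c : ℕ) :
    MeasurableSet {p : ℕ → ℕ → Bool | (graphOfTable p).Adj a c} := by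
  have : {p : ℕ → ℕ → Bool | (graphOfTable p).Adj a c}
      = {p | a ≠ c ∧ (p a c = true ∨ p c a = true)} := by
    ext p; simp [graphOfTable, SimpleGraph.fromRel_adj]
  rw [this]
  have h1 : ∀ i j : ℕ, MeasurableSet {p : ℕ → ℕ → Bool | p i j = true} := fun i j => by
    have hm : Measurable (fun p : ℕ → ℕ → Bool => p i j) :=
      (measurable_pi_apply j).comp (measurable_pi_apply i)
    exact hm (measurableSet_singleton true)
  exact (MeasurableSet.const _).inter ((h1 a c).union (h1 c a))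

lemma measurableSet_mem_edgeSet (e : Sym2 ℕ) :
    MeasurableSet {p : ℕ → ℕ → Bool | e ∈ (graphOfTable p).edgeSet} := by
  induction e using Sym2.ind with
  | _ a b => simpa using measurableSet_adj a b

lemma measurableSet_subset_edgeSet (A : Finset (Sym2 ℕ)) :
    MeasurableSet {p : ℕ → ℕ → Bool | (↑A : Set (Sym2 ℕ)) ⊆ (graphOfTable p).edgeSet} := by
  have : {p : ℕ → ℕ → Bool | (↑A : Set (Sym2 ℕ)) ⊆ (graphOfTable p).edgeSet}
      = ⋂ e ∈ A, {p | e ∈ (graphOfTable p).edgeSet} := by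
    ext p; simp [Set.subset_def]
  rw [this]
  exact Finset.measurableSet_biInter _ fun e _ => measurableSet_mem_edgeSet e

end QMeas

open QMeas

theorem measurable_qG (A : Finset (Sym2 ℕ)) :
    Measurable fun T : ℕ → ℕ → Bool => qG (graphOfTable T) A := by
  unfold qG
  refine Measurable.ite (measurableSet_subset_edgeSet A) ?_ measurable_const
  exact Measurable.iInf fun S => measurable_qTerm A S

end Crest.Agent.FU
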