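import Crest.Agent.S0255_Defs

/-! # ROW168, package A6 : equivariance of the factor map -/

set_option autoImplicit false

namespace Crest.Agent.SL

open MeasureTheory unitInterval Filter Topology
open scoped Classical ENNReal

noncomputable section

variable {V : Type*}

namespace Equivar

variable {V' : Type*} (f : V' ≃ V)

/-- pull back an array along `f`. -/
def pull (x : V × ℕ → I) : V' × ℕ → I := fun e => x (f e.1, e.2)

variable {f}

lemma sum_powerset_map (F : Finset V') (g : Finset V → ℝ) :
    ∑ B ∈ (F.map f.toEmbedding).powerset, g B = ∑ A ∈ F.powerset, g (A.map f.toEmbedding) := by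
  symm
  apply Finset.sum_bij (fun A _ => A.map f.toEmbedding)
  · intro A hA
    exact Finset.mem_powerset.2 (Finset.map_subset_map.2 (Finset.mem_powerset.1 hA))
  · intro A _ B _ h
    exact Finset.map_injective _ h
  · intro B hB
    obtain ⟨A, hA, rfl⟩ := Finset.subset_map_iff.1 (Finset.mem_powerset.1 hB)
    exact ⟨A, Finset.mem_powerset.2 hA, rfl⟩
  · intro A _
    rfl

lemma Zq_map (q : Finset V → ℝ) (q' : Finset V' → ℝ) (hq : ∀ A, q' A = q (A.map f.toEmbedding))
    (F : Finset V') (h : V → ℝ) :
    Zq q' F (fun w => h (f w)) = Zq q (F.map f.toEmbedding) h := by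
  unfold Zq
  rw [sum_powerset_map]
  apply Finset.sum_congr rfl
  intro A _
  rw [hq A, Finset.prod_map]
  rfl

lemma Nq_map (q : Finset V → ℝ) (q' : Finset V' → ℝ) (hq : ∀ A, q' A = q (A.map f.toEmbedding))
    (F : Finset V') (h : V → ℝ) (v : V') :
    Nq q' F (fun w => h (f w)) v = Nq q (F.map f.toEmbedding) h (f v) := by
  unfold Nq
  rw [sum_powerset_map]
  apply Finset.sum_congr rfl
  intro A _
  rw [hq (insert v A), Finset.prod_map, Finset.map_insert]
  rfl

lemma mq_map (q : Finset V → ℝ) (q' : Finset V' → ℝ) (hq : ∀ A, q' A = q (A.map f.toEmbedding))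
    (F : Finset V') (h : V → ℝ) (v : V') :
    mq q' F (fun w => h (f w)) v = mq q (F.map f.toEmbedding) h (f v) := by
  unfold mq
  rw [Zq_map q q' hq, Nq_map q q' hq]

lemma field_pull (x t : V × ℕ → I) (v : V') (k : ℕ) :
    field (pull f x) (pull f t) v k = fun w => field x t (f v) k (f w) := rfl

variable (q : Finset V → ℝ) (q' : Finset V' → ℝ) (E : V → ℕ → Finset V)
  (E' : V' → ℕ → Finset V')
  (hq : ∀ A, q' A = q (A.map f.toEmbedding)) (hE : ∀ v n, (E' v n).map f.toEmbedding = E (f v) n)

include hq hE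

lemma drift_pull (x t : V × ℕ → I) (v : V') (k : ℕ) :
    drift q' E' (pull f x) (pull f t) v k = drift q E x t (f v) k := by
  unfold drift
  congr 1
  funext n
  rw [field_pull, mq_map q q' hq, hE]

omit hq hE in
lemma upd_pull (x : V × ℕ → I) (k : ℕ) (y : V → I) :
    upd (pull f x) k (fun v => y (f v)) = pull f (upd x k y) := rfl

lemma passOp_pull (U t : V × ℕ → I) (k : ℕ) (x : V × ℕ → I) (y : V → I) :
    passOp q' E' (pull f U) (pull f t) k (pull f x) (fun v => y (f v))
      = fun v => passOp q E U t k x y (f v) := by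
  funext v
  unfold passOp
  rw [upd_pull, drift_pull q q' E E' hq hE]
  rfl

lemma iterate_pull (U t : V × ℕ → I) (k : ℕ) (x : V × ℕ → I) (n : ℕ) :
    (passOp q' E' (pull f U) (pull f t) k (pull f x))^[n] (fun _ => 0)
      = fun v => ((passOp q E U t k x)^[n] (fun _ => 0)) (f v) := by
  induction n with
  | zero => rfl
  | succ n ih =>
    rw [Function.iterate_succ_apply', ih, passOp_pull q q' E E' hq hE,
      Function.iterate_succ_apply']

lemma passFix_pull (U t : V × ℕ → I) (k : ℕ) (x : V × ℕ → I) :
    passFix q' E' (pull f U) (pull f t) k (pull f x) = fun v => passFix q E U t k x (f v) := by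
  funext v
  unfold passFix
  simp only [iterate_pull q q' E E' hq hE]

lemma PsiAux_pull (U t : V × ℕ → I) (k : ℕ) :
    PsiAux q' E' (pull f U) (pull f t) k = pull f (PsiAux q E U t k) := by
  induction k with
  | zero => rfl
  | succ k ih =>
    simp only [PsiAux]
    rw [ih, passFix_pull q q' E E' hq hE, upd_pull]

lemma Psi_pull (U t : V × ℕ → I) :
    Psi q' E' (pull f U) (pull f t) = pull f (Psi q E U t) := by
  funext e
  unfold Psi
  rw [PsiAux_pull q q' E E' hq hE]
  rfl

end Equivar

theorem Phi_equiv {V' : Type*} (f : V' ≃ V) (q : Finset V → ℝ) (q' : Finset V' → ℝ)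
    (E : V → ℕ → Finset V) (E' : V' → ℕ → Finset V')
    (hq : ∀ A, q' A = q (A.map f.toEmbedding)) (hE : ∀ v n, (E' v n).map f.toEmbedding = E (f v) n)
    (U t : V × ℕ → I) :
    Phi q' E' (fun e => U (f e.1, e.2)) (fun e => t (f e.1, e.2)) = fun v => Phi q E U t (f v) := by
  have h := Equivar.Psi_pull q q' E E' hq hE U t
  unfold Phi
  change dec (Psi q' E' (Equivar.pull f U) (Equivar.pull f t)) = _
  rw [h]
  rfl

end

end Crest.Agent.SL
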