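import Crest.Agent.S0255_Channel
import Crest.Agent.S0255_Tilt

/-! # ROW168, package A3 : contraction, fixed point, deterministic inverse -/

set_option autoImplicit false

namespace Crest.Agent.SL

open MeasureTheory unitInterval Filter Topology
open scoped Classical ENNReal

noncomputable section

variable {V : Type*}

namespace Fix

lemma bddAbove {u : ℕ → ℝ} (h : ∀ n, u n ∈ Set.Icc (0:ℝ) 1) :
    atTop.IsBoundedUnder (· ≤ ·) u :=
  isBoundedUnder_of ⟨1, fun n => (h n).2⟩

lemma bddBelow {u : ℕ → ℝ} (h : ∀ n, u n ∈ Set.Icc (0:ℝ) 1) :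
    atTop.IsBoundedUnder (· ≥ ·) u :=
  isBoundedUnder_of ⟨0, fun n => (h n).1⟩

lemma cobdd {u : ℕ → ℝ} (h : ∀ n, u n ∈ Set.Icc (0:ℝ) 1) :
    atTop.IsCoboundedUnder (· ≤ ·) u :=
  (bddBelow h).isCoboundedUnder_le

lemma limsup_mem {u : ℕ → ℝ} (h : ∀ n, u n ∈ Set.Icc (0:ℝ) 1) :
    limsup u atTop ∈ Set.Icc (0:ℝ) 1 := by
  constructor
  · exact le_limsup_of_frequently_le (Frequently.of_forall fun n => (h n).1) (bddAbove h)
  · exact limsup_le_of_le (cobdd h) (Eventually.of_forall fun n => (h n).2)

lemma limsup_le_add {u u' : ℕ → ℝ} (h : ∀ n, u n ∈ Set.Icc (0:ℝ) 1)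
    (h' : ∀ n, u' n ∈ Set.Icc (0:ℝ) 1) (c : ℝ) (hc : ∀ n, |u n - u' n| ≤ c) :
    limsup u atTop ≤ limsup u' atTop + c := by
  rw [← limsup_add_const atTop u' c (bddAbove h') (cobdd h')]
  refine limsup_le_limsup (Eventually.of_forall fun n => ?_) (cobdd h) ?_
  · have := (abs_le.1 (hc n)).2
    show u n ≤ u' n + c
    linarith
  · exact isBoundedUnder_of ⟨1 + c, fun n => by have := (h' n).2; show u' n + c ≤ 1 + c; linarith⟩

lemma limsup_lip {u u' : ℕ → ℝ} (h : ∀ n, u n ∈ Set.Icc (0:ℝ) 1)
    (h' : ∀ n, u' n ∈ Set.Icc (0:ℝ) 1) (c : ℝ) (hc : ∀ n, |u n - u' n| ≤ c) :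
    |limsup u atTop - limsup u' atTop| ≤ c := by
  have h1 := limsup_le_add h h' c hc
  have h2 := limsup_le_add h' h c (fun n => by rw [abs_sub_comm]; exact hc n)
  rw [abs_le]; constructor <;> linarith

lemma coe_clampI {r : ℝ} (h : r ∈ Set.Icc (0:ℝ) 1) : ((clampI r : I) : ℝ) = r := by
  unfold clampI
  rw [Set.projIcc_of_mem _ h]

end Fix

open _root_.Crest.Agent.SL.Fix

variable (q : Finset V → ℝ) (E : V → ℕ → Finset V)

lemma drift_mem (x t : V × ℕ → I) (v : V) (k : ℕ) : drift q E x t v k ∈ Set.Icc (0:ℝ) 1 :=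
  limsup_mem fun _ => mq_mem _ _ _ _

lemma drift_congr {x x' : V × ℕ → I} (t : V × ℕ → I) (v : V) (k : ℕ)
    (hx : ∀ e', Before t e' (v, k) → x e' = x' e') : drift q E x t v k = drift q E x' t v k := by
  have : field x t v k = field x' t v k := by
    funext w
    unfold field
    congr 1
    · refine Finset.sum_congr rfl fun j hj => ?_
      rw [hx (w, j) (Or.inl (Finset.mem_range.1 hj))]
    · split_ifs with h
      · rw [hx (w, k) (Or.inr ⟨rfl, h⟩)]
      · rfl
  unfold drift
  rw [this]

lemma drift_lip (hq : LipCond q) {x x' : V × ℕ → I} (t : V × ℕ → I) (v : V) (k : ℕ) (c : ℝ)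
    (hx : ∀ w j, j < k → x (w, j) = x' (w, j)) (hc : ∀ w, |(x (w, k) : ℝ) - x' (w, k)| ≤ c) :
    |drift q E x t v k - drift q E x' t v k| ≤ 4 / 3 * c := by
  have hc0 : 0 ≤ c := (abs_nonneg _).trans (hc v)
  have hf : ∀ w, |field x t v k w - field x' t v k w| ≤ 8 / 3 * c := by
    intro w
    unfold field
    have e : ∑ j ∈ Finset.range k, ell (x (w, j)) = ∑ j ∈ Finset.range k, ell (x' (w, j)) :=
      Finset.sum_congr rfl fun j hj => by rw [hx w j (Finset.mem_range.1 hj)]
    rw [e, add_sub_add_left_eq_sub]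
    split_ifs with h
    · exact (ell_lip _ _).trans (by have := hc w; linarith)
    · simp; positivity
  unfold drift
  refine limsup_lip (fun _ => mq_mem _ _ _ _) (fun _ => mq_mem _ _ _ _) _ fun n => ?_
  have h8 : (0:ℝ) ≤ 8 / 3 * c := by positivity
  have : |mq q (E v n) (field x t v k) v - mq q (E v n) (field x' t v k) v| ≤ 8 / 3 * c / 2 :=
    hq (E v n) (field x t v k) (field x' t v k) v (8 / 3 * c) h8 (fun w _ => hf w)
  linarith

lemma passOp_contr (hq : LipCond q) (U t : V × ℕ → I) (k : ℕ) (x : V × ℕ → I) {y y' : V → I} (c : ℝ)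
    (hc : ∀ w, |(y w : ℝ) - y' w| ≤ c) (v : V) :
    |(passOp q E U t k x y v : ℝ) - passOp q E U t k x y' v| ≤ 2 / 3 * c := by
  unfold passOp
  have h1 := GmI_lip (drift_mem q E (upd x k y) t v k) (drift_mem q E (upd x k y') t v k) (U (v, k))
  have h2 := drift_lip q E hq (x := upd x k y) (x' := upd x k y') t v k c
    (fun w j hj => by simp [upd, hj.ne]) (fun w => by simpa [upd] using hc w)
  linarith

namespace Fix

variable {q E}

lemma iter_step (hq : LipCond q) (U t : V × ℕ → I) (k : ℕ) (x : V × ℕ → I) (n : ℕ) (v : V) :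
    |(((passOp q E U t k x)^[n] (fun _ => 0)) v : ℝ) -
      ((passOp q E U t k x)^[n + 1] (fun _ => 0)) v| ≤ 1 * (2 / 3 : ℝ) ^ n := by
  induction n generalizing v with
  | zero =>
    have h1 := (((passOp q E U t k x)^[0] (fun _ => 0)) v).2
    have h2 := (((passOp q E U t k x)^[0 + 1] (fun _ => 0)) v).2
    rw [abs_le]; constructor <;> simp only [pow_zero, mul_one] <;> linarith [h1.1, h1.2, h2.1, h2.2]
  | succ n ih =>
    rw [Function.iterate_succ_apply', Function.iterate_succ_apply' (n := n + 1)]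
    have := passOp_contr q E hq U t k x _ ih v
    rw [pow_succ]
    linarith

lemma exists_lim (hq : LipCond q) (U t : V × ℕ → I) (k : ℕ) (x : V × ℕ → I) (v : V) :
    Tendsto (fun n => (((passOp q E U t k x)^[n] (fun _ => 0)) v : ℝ)) atTop
      (𝓝 (passFix q E U t k x v : ℝ)) := by
  have hu : ∀ n, dist (((passOp q E U t k x)^[n] (fun _ => 0)) v : ℝ)
      (((passOp q E U t k x)^[n + 1] (fun _ => 0)) v : ℝ) ≤ 1 * (2 / 3 : ℝ) ^ n := fun n => by
    rw [Real.dist_eq]; exact iter_step hq U t k x n v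
  have hc := cauchySeq_of_le_geometric (2 / 3 : ℝ) 1 (by norm_num) hu
  obtain ⟨L, hL⟩ := cauchySeq_tendsto_of_complete hc
  have hmem : L ∈ Set.Icc (0:ℝ) 1 :=
    isClosed_Icc.mem_of_tendsto hL (Eventually.of_forall fun n => Subtype.coe_prop _)
  have : (passFix q E U t k x v : ℝ) = L := by
    unfold passFix
    rw [hL.limsup_eq, coe_clampI hmem]
  rw [this]
  exact hL

lemma dist_lim (hq : LipCond q) (U t : V × ℕ → I) (k : ℕ) (x : V × ℕ → I) (n : ℕ) (v : V) :
    |(((passOp q E U t k x)^[n] (fun _ => 0)) v : ℝ) - passFix q E U t k x v|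
      ≤ 3 * (2 / 3 : ℝ) ^ n := by
  have hu : ∀ n, dist (((passOp q E U t k x)^[n] (fun _ => 0)) v : ℝ)
      (((passOp q E U t k x)^[n + 1] (fun _ => 0)) v : ℝ) ≤ 1 * (2 / 3 : ℝ) ^ n := fun n => by
    rw [Real.dist_eq]; exact iter_step hq U t k x n v
  have := dist_le_of_le_geometric_of_tendsto (2 / 3 : ℝ) 1 (by norm_num) hu
    (exists_lim hq U t k x v) n
  rw [Real.dist_eq] at this
  refine this.trans (le_of_eq ?_)
  ring

end Fix

lemma passFix_fixed (hq : LipCond q) (U t : V × ℕ → I) (k : ℕ) (x : V × ℕ → I) :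
    passOp q E U t k x (passFix q E U t k x) = passFix q E U t k x := by
  funext v
  apply Subtype.ext
  have h1 : Tendsto (fun n => (((passOp q E U t k x)^[n + 1] (fun _ => 0)) v : ℝ)) atTop
      (𝓝 (passFix q E U t k x v : ℝ)) :=
    (exists_lim hq U t k x v).comp (tendsto_add_atTop_nat 1)
  have h2 : Tendsto (fun n => (((passOp q E U t k x)^[n + 1] (fun _ => 0)) v : ℝ)) atTop
      (𝓝 (passOp q E U t k x (passFix q E U t k x) v : ℝ)) := by
    rw [tendsto_iff_dist_tendsto_zero]
    have h3 : Tendsto (fun n : ℕ => 2 / 3 * (3 * (2 / 3 : ℝ) ^ n)) atTop (𝓝 0) := by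
      have := (tendsto_pow_atTop_nhds_zero_of_lt_one (r := (2 / 3 : ℝ)) (by norm_num)
        (by norm_num)).const_mul (2 / 3 * 3)
      rw [mul_zero] at this
      exact this.congr fun n => by ring
    refine squeeze_zero (fun _ => dist_nonneg) (fun n => ?_) h3
    rw [Real.dist_eq, Function.iterate_succ_apply']
    exact passOp_contr q E hq U t k x _ (fun w => dist_lim hq U t k x n w) v
  exact tendsto_nhds_unique h2 h1

lemma passFix_unique (hq : LipCond q) (U t : V × ℕ → I) (k : ℕ) (x : V × ℕ → I) (y : V → I)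
    (hy : passOp q E U t k x y = y) : y = passFix q E U t k x := by
  have hf := passFix_fixed q E hq U t k x
  have key : ∀ n : ℕ, ∀ w, |(y w : ℝ) - passFix q E U t k x w| ≤ (2 / 3 : ℝ) ^ n := by
    intro n
    induction n with
    | zero =>
      intro w
      have h1 := (y w).2
      have h2 := (passFix q E U t k x w).2
      rw [abs_le]; constructor <;> simp only [pow_zero] <;> linarith [h1.1, h1.2, h2.1, h2.2]
    | succ n ih =>
      intro w
      have := passOp_contr q E hq U t k x _ ih w
      rw [hy, hf] at this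
      rw [pow_succ]
      linarith
  funext w
  apply Subtype.ext
  have h0 : |(y w : ℝ) - passFix q E U t k x w| ≤ 0 :=
    ge_of_tendsto' (tendsto_pow_atTop_nhds_zero_of_lt_one (r := (2 / 3 : ℝ)) (by norm_num)
      (by norm_num)) (fun n => key n w)
  have := abs_nonpos_iff.1 h0
  linarith

namespace Fix

variable {q E}

lemma PsiAux_stable (U t : V × ℕ → I) (m : ℕ) (e : V × ℕ) (he : e.2 < m) :
    PsiAux q E U t m e = Psi q E U t e := by
  induction m with
  | zero => omega
  | succ m ih =>
    by_cases h : e.2 = m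
    · subst h; rfl
    · have h' : e.2 < m := by omega
      rw [← ih h']
      show upd _ _ _ e = _
      simp [upd, h]

/-- `Psi` solves the fixed point equation. -/
theorem Psi_fixed (hq : LipCond q) (U t : V × ℕ → I) (e : V × ℕ) :
    Psi q E U t e = GmI (drift q E (Psi q E U t) t e.1 e.2) (U e) := by
  obtain ⟨v, k⟩ := e
  have h1 : Psi q E U t (v, k) = passFix q E U t k (PsiAux q E U t k) v := by
    show upd _ _ _ (v, k) = _
    simp [upd]
  rw [h1, ← passFix_fixed q E hq U t k (PsiAux q E U t k)]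
  have hd : drift q E (PsiAux q E U t (k + 1)) t v k = drift q E (Psi q E U t) t v k := by
    refine drift_congr q E t v k fun e' he' => PsiAux_stable U t (k + 1) e' ?_
    rcases he' with h | h
    · exact Nat.lt_succ_of_lt h
    · have : e'.2 = k := h.1
      omega
  show GmI (drift q E (PsiAux q E U t (k + 1)) t v k) (U (v, k)) =
    GmI (drift q E (Psi q E U t) t v k) (U (v, k))
  rw [hd]

lemma mq_eq_zero (S : Set V) (hS : ∀ A : Finset V, ¬ (↑A ⊆ S) → q A = 0)
    (F : Finset V) (h : V → ℝ) {v : V} (hv : v ∉ S) : mq q F h v = 0 := by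
  have : Nq q F h v = 0 := by
    unfold Nq
    refine Finset.sum_eq_zero fun A _ => ?_
    rw [hS (insert v A) (fun hsub => hv (hsub (by simp))), mul_zero]
  unfold mq
  rw [this]
  simp

end Fix

theorem Psi_unique (hq : LipCond q) (U t x : V × ℕ → I)
    (hx : ∀ e : V × ℕ, x e = GmI (drift q E x t e.1 e.2) (U e)) : x = Psi q E U t := by
  have key : ∀ k : ℕ, ∀ e : V × ℕ, e.2 < k → x e = PsiAux q E U t k e := by
    intro k
    induction k with
    | zero => intro e he; omega
    | succ k ih =>
      intro e he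
      by_cases h : e.2 = k
      · obtain ⟨v, j⟩ := e
        simp only at h
        subst h
        have h1 : PsiAux q E U t (j + 1) (v, j) = passFix q E U t j (PsiAux q E U t j) v := by
          show upd _ _ _ (v, j) = _
          simp [upd]
        rw [h1]
        have h2 := passFix_unique q E hq U t j (PsiAux q E U t j) (fun v => x (v, j)) (by
          funext w
          show GmI (drift q E (upd (PsiAux q E U t j) j (fun v => x (v, j))) t w j) (U (w, j))
            = x (w, j)
          rw [hx (w, j)]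
          congr 1
          refine drift_congr q E t w j fun e' he' => ?_
          by_cases h3 : e'.2 = j
          · obtain ⟨w', j'⟩ := e'
            simp only at h3
            subst h3
            simp [upd]
          · have h4 : e'.2 < j := by
              rcases he' with h | h
              · exact h
              · exact absurd h.1 h3
            simp only [upd, h3, if_false]
            exact (ih e' h4).symm)
        exact congrFun h2 v
      · have h' : e.2 < k := by omega
        rw [ih e h']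
        show _ = upd _ _ _ e
        simp [upd, h]
  funext e
  exact key (e.2 + 1) e (Nat.lt_succ_self _)

/-- DETERMINISTIC INVERSE -/
theorem Psi_innov (hq : LipCond q) (x t : V × ℕ → I) : Psi q E (innov q E x t) t = x :=
  (Psi_unique q E hq (innov q E x t) t x fun e => (GmI_FmI (drift_mem q E x t e.1 e.2) (x e)).symm).symm

namespace Fix

variable {q E}

lemma local_aux (hq : LipCond q) (S : Set V) (hS : ∀ A : Finset V, ¬ (↑A ⊆ S) → q A = 0)
    {U U' t t' : V × ℕ → I} (hU : ∀ e : V × ℕ, e.1 ∈ S → U e = U' e)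
    (ht : ∀ e : V × ℕ, e.1 ∈ S → t e = t' e) (x x' : V × ℕ → I)
    (fx : ∀ e : V × ℕ, x e = GmI (drift q E x t e.1 e.2) (U e))
    (fx' : ∀ e : V × ℕ, x' e = GmI (drift q E x' t' e.1 e.2) (U' e))
    (e : V × ℕ) (he : e.1 ∈ S) : x e = x' e := by
  have key : (fun e : V × ℕ => if e.1 ∈ S then x e else x' e) = Psi q E U' t' := by
    refine Psi_unique q E hq U' t' _ fun e => ?_
    obtain ⟨v, k⟩ := e
    by_cases hv : v ∈ S
    · simp only [hv, if_true]
      rw [fx (v, k), hU (v, k) hv]
      congr 1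
      unfold drift
      congr 1
      funext n
      rw [mq_inter_support q S hS (E v n) (field x t v k) v,
        mq_inter_support q S hS (E v n) (field _ t' v k) v]
      refine mq_congr q _ v fun w hw => ?_
      have hw' : w ∈ S := (Finset.mem_filter.1 hw).2
      unfold field
      rw [ht (w, k) hw', ht (v, k) hv]
      simp only [hw', if_true]
    · simp only [hv, if_false]
      rw [fx' (v, k)]
      congr 1
      unfold drift
      congr 1
      funext n
      rw [mq_eq_zero S hS _ _ hv, mq_eq_zero S hS _ _ hv]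
  have key' : x' = Psi q E U' t' := Psi_unique q E hq U' t' x' fx'
  have := congrFun key e
  simp only [he, if_true] at this
  rw [this, key']

end Fix

/-- locality: if `q` is supported on subsets of `S`, the solution on `S` only uses the noise on `S`. -/
theorem Psi_local (hq : LipCond q) (S : Set V) (hS : ∀ A : Finset V, ¬ (↑A ⊆ S) → q A = 0)
    {U U' t t' : V × ℕ → I} (hU : ∀ e : V × ℕ, e.1 ∈ S → U e = U' e) (ht : ∀ e : V × ℕ, e.1 ∈ S → t e = t' e)
    (e : V × ℕ) (he : e.1 ∈ S) : Psi q E U t e = Psi q E U' t' e :=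
  local_aux hq S hS hU ht _ _ (Psi_fixed hq U t) (Psi_fixed hq U' t') e he

end

end Crest.Agent.SL
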