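import Crest.Agent.S0255_Defs

/-!
# ROW168: the mean of an observation (direct computation)
-/

set_option autoImplicit false

namespace Crest.Agent.SL

open MeasureTheory unitInterval Filter Topology
open scoped Classical ENNReal

noncomputable section

namespace Decode

lemma measurable_clampI : Measurable clampI := by
  unfold clampI
  exact continuous_projIcc.measurable

lemma measurable_Gm_const (m : ℝ) : Measurable (Gm m) := by
  unfold Gm
  fun_prop

lemma measurable_GmI_const (m : ℝ) : Measurable (GmI m) := by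
  unfold GmI
  exact measurable_clampI.comp ((measurable_Gm_const m).comp measurable_subtype_coe)

lemma Gm_one {u : ℝ} (hu : 0 ≤ u) : Gm 1 u = Real.sqrt (1 / 4 + 2 * u) - 1 / 2 := by
  unfold Gm
  have h1 : (3 / 2 - 1 : ℝ) ^ 2 + 4 * (1 - 1 / 2) * u = 1 / 4 + 2 * u := by ring
  rw [h1]
  set s := Real.sqrt (1 / 4 + 2 * u) with hs
  have hs0 : 0 ≤ s := Real.sqrt_nonneg _
  have hs2 : s ^ 2 = 1 / 4 + 2 * u := Real.sq_sqrt (by linarith)
  have hpos : (0:ℝ) < 3 / 2 - 1 + s := by linarith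
  rw [div_eq_iff hpos.ne']
  nlinarith

lemma Gm_zero {u : ℝ} (hu : u ≤ 1) : Gm 0 u = 3 / 2 - Real.sqrt (9 / 4 - 2 * u) := by
  unfold Gm
  have h1 : (3 / 2 - 0 : ℝ) ^ 2 + 4 * (0 - 1 / 2) * u = 9 / 4 - 2 * u := by ring
  rw [h1]
  set s := Real.sqrt (9 / 4 - 2 * u) with hs
  have hs0 : 0 ≤ s := Real.sqrt_nonneg _
  have hs2 : s ^ 2 = 9 / 4 - 2 * u := Real.sq_sqrt (by linarith)
  have hpos : (0:ℝ) < 3 / 2 - 0 + s := by linarith
  rw [div_eq_iff hpos.ne']
  nlinarith

lemma coe_clampI {r : ℝ} (h : r ∈ Set.Icc (0:ℝ) 1) : (clampI r : ℝ) = r := by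
  unfold clampI
  rw [Set.projIcc_of_mem _ h]

lemma Gm_one_mem {u : ℝ} (hu : u ∈ Set.Icc (0:ℝ) 1) : Gm 1 u ∈ Set.Icc (0:ℝ) 1 := by
  rw [Gm_one hu.1]
  have h1 : (1 / 2 : ℝ) ≤ Real.sqrt (1 / 4 + 2 * u) := by
    apply Real.le_sqrt_of_sq_le; nlinarith [hu.1]
  have h2 : Real.sqrt (1 / 4 + 2 * u) ≤ 3 / 2 := by
    rw [Real.sqrt_le_left (by norm_num)]; nlinarith [hu.2]
  constructor <;> linarith

lemma Gm_zero_mem {u : ℝ} (hu : u ∈ Set.Icc (0:ℝ) 1) : Gm 0 u ∈ Set.Icc (0:ℝ) 1 := by
  rw [Gm_zero hu.2]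
  have h1 : (1 / 2 : ℝ) ≤ Real.sqrt (9 / 4 - 2 * u) := by
    apply Real.le_sqrt_of_sq_le; nlinarith [hu.2]
  have h2 : Real.sqrt (9 / 4 - 2 * u) ≤ 3 / 2 := by
    rw [Real.sqrt_le_left (by norm_num)]; nlinarith [hu.1]
  constructor <;> linarith

/-- `∫₀¹ √(a + c u) du` by the fundamental theorem of calculus. -/
lemma integral_sqrt_affine (a c : ℝ) (hc : c ≠ 0) (h : ∀ u ∈ Set.uIcc (0:ℝ) 1, 0 < a + c * u) :
    ∫ u in (0:ℝ)..1, Real.sqrt (a + c * u)
      = 2 / (3 * c) * ((a + c) * Real.sqrt (a + c) - a * Real.sqrt a) := by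
  have hder : ∀ u ∈ Set.uIcc (0:ℝ) 1,
      HasDerivAt (fun u => 2 / (3 * c) * ((a + c * u) * Real.sqrt (a + c * u)))
        (Real.sqrt (a + c * u)) u := by
    intro u hu
    have hpos := h u hu
    have h1 : HasDerivAt (fun u => a + c * u) c u := by
      simpa using ((hasDerivAt_id u).const_mul c).const_add a
    have h2 := h1.sqrt hpos.ne'
    have h3 := (h1.mul h2).const_mul (2 / (3 * c))
    have hs2 : Real.sqrt (a + c * u) ^ 2 = a + c * u := Real.sq_sqrt hpos.le
    have hs0 : 0 < Real.sqrt (a + c * u) := Real.sqrt_pos.mpr hpos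
    have hval : Real.sqrt (a + c * u) = 2 / (3 * c) * (c * Real.sqrt (a + c * u)
        + (a + c * u) * (c / (2 * Real.sqrt (a + c * u)))) := by
      set s := Real.sqrt (a + c * u) with hs
      rw [← hs2]
      field_simp
      ring
    rw [hval]
    exact h3
  have hcont : Continuous fun u : ℝ => Real.sqrt (a + c * u) := by fun_prop
  rw [intervalIntegral.integral_eq_sub_of_hasDerivAt hder (hcont.intervalIntegrable _ _)]
  simp
  ring

lemma sqrt_nine_quarters : Real.sqrt (9 / 4) = 3 / 2 := by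
  rw [show (9 / 4 : ℝ) = (3 / 2) ^ 2 by norm_num, Real.sqrt_sq (by norm_num)]

lemma sqrt_one_quarter : Real.sqrt (1 / 4) = 1 / 2 := by
  rw [show (1 / 4 : ℝ) = (1 / 2) ^ 2 by norm_num, Real.sqrt_sq (by norm_num)]

/-- integral over the unit interval as an interval integral -/
lemma integral_I_eq (f : ℝ → ℝ) : ∫ r : I, f r = ∫ u in (0:ℝ)..1, f u := by
  rw [intervalIntegral.integral_of_le zero_le_one, ← integral_Icc_eq_integral_Ioc]
  exact integral_subtype_comap measurableSet_Icc f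

lemma integral_obs_mean (b : Bool) :
    ∫ r : I, (2 * (GmI (b2r b) r : ℝ) - 1) = if b then 1 / 6 else -(1 / 6) := by
  cases b
  · have h1 : ∀ r : I, (2 * (GmI (b2r false) r : ℝ) - 1)
        = (fun u : ℝ => 2 - 2 * Real.sqrt (9 / 4 + (-2) * u)) r := by
      intro r
      have : (GmI (b2r false) r : ℝ) = Gm 0 r := by
        unfold GmI b2r
        simpa using coe_clampI (Gm_zero_mem r.2)
      rw [this, Gm_zero r.2.2]
      ring_nf
    rw [integral_congr_ae (Eventually.of_forall h1),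
      integral_I_eq (fun u : ℝ => 2 - 2 * Real.sqrt (9 / 4 + (-2) * u)),
      intervalIntegral.integral_sub (by simp)
      ((Continuous.intervalIntegrable (by fun_prop) _ _)),
      intervalIntegral.integral_const_mul, integral_sqrt_affine _ _ (by norm_num)]
    · norm_num [sqrt_nine_quarters, sqrt_one_quarter]
    · intro u hu
      rw [Set.uIcc_of_le zero_le_one] at hu
      linarith [hu.2]
  · have h1 : ∀ r : I, (2 * (GmI (b2r true) r : ℝ) - 1)
        = (fun u : ℝ => 2 * Real.sqrt (1 / 4 + 2 * u) - 2) r := by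
      intro r
      have : (GmI (b2r true) r : ℝ) = Gm 1 r := by
        unfold GmI b2r
        simpa using coe_clampI (Gm_one_mem r.2)
      rw [this, Gm_one r.2.1]
      ring_nf
    rw [integral_congr_ae (Eventually.of_forall h1),
      integral_I_eq (fun u : ℝ => 2 * Real.sqrt (1 / 4 + 2 * u) - 2),
      intervalIntegral.integral_sub
      ((Continuous.intervalIntegrable (by fun_prop) _ _)) (by simp),
      intervalIntegral.integral_const_mul, integral_sqrt_affine _ _ (by norm_num)]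
    · norm_num [sqrt_nine_quarters, sqrt_one_quarter]
    · intro u hu
      rw [Set.uIcc_of_le zero_le_one] at hu
      linarith [hu.1]

end Decode

end

end Crest.Agent.SL
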