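import Crest.Agent.S0255_Defs
import Crest.Agent.S0255_ObsMean

/-!
# ROW168, packages A11 + A12: decoding the bits (strong law) and a.s. distinct times
-/

set_option autoImplicit false

namespace Crest.Agent.SL

open MeasureTheory unitInterval Filter Topology ProbabilityTheory
open scoped Classical ENNReal

noncomputable section

variable {V : Type*}

namespace Decode

instance instProbNoise : IsProbabilityMeasure (noise V) := by
  unfold noise; infer_instance

/-- the centred observation when the bit is `b` and the channel noise is `r`. -/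
def g (b : Bool) (r : I) : ℝ := 2 * (GmI (b2r b) r : ℝ) - 1

lemma measurable_g (b : Bool) : Measurable (g b) := by
  unfold g
  have h : Measurable (fun r : I => GmI (b2r b) r) := measurable_GmI_const _
  exact ((measurable_subtype_coe.comp h).const_mul 2).sub_const 1

lemma g_bdd (b : Bool) (r : I) : ‖g b r‖ ≤ 1 := by
  unfold g
  have h0 := (GmI (b2r b) r).2.1
  have h1 := (GmI (b2r b) r).2.2
  rw [Real.norm_eq_abs, abs_le]
  constructor <;> linarith

lemma slln (b : Bool) (v : V) :
    ∀ᵐ R ∂(noise V), Tendsto (fun K : ℕ => (∑ k ∈ Finset.range K, g b (R (v, k))) / K) atTop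
      (𝓝 (if b then 1 / 6 else -(1 / 6))) := by
  have hind : iIndepFun (fun (e : V × ℕ) (R : V × ℕ → I) => g b (R e)) (noise V) :=
    iIndepFun_infinitePi (P := fun _ : V × ℕ => (volume : Measure I)) (X := fun _ => g b)
      (fun _ => measurable_g b)
  have hmp : ∀ e : V × ℕ, MeasurePreserving (fun R : V × ℕ → I => R e) (noise V) volume :=
    fun e => measurePreserving_eval_infinitePi (fun _ : V × ℕ => (volume : Measure I)) e
  have hmeas : ∀ e : V × ℕ, Measurable (fun R : V × ℕ → I => g b (R e)) :=
    fun e => (measurable_g b).comp (measurable_pi_apply e)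
  have key := strong_law_ae_real (μ := noise V) (fun (k : ℕ) (R : V × ℕ → I) => g b (R (v, k)))
    ?_ ?_ ?_
  · have hE : (∫ R, g b (R (v, 0)) ∂(noise V)) = if b then 1 / 6 else -(1 / 6) := by
      have h0 : (∫ r : I, g b r) = if b then 1 / 6 else -(1 / 6) := integral_obs_mean b
      rw [← h0, ← (hmp (v, 0)).map_eq,
        integral_map (hmp (v, 0)).measurable.aemeasurable
          ((measurable_g b).aestronglyMeasurable)]
    rw [hE] at key
    exact key
  · exact Integrable.of_bound (hmeas _).aestronglyMeasurable 1
      (Eventually.of_forall fun R => g_bdd b _)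
  · intro i j hij
    exact hind.indepFun (i := (v, i)) (j := (v, j)) (by simpa using hij)
  · intro i
    refine ⟨(hmeas _).aemeasurable, (hmeas _).aemeasurable, ?_⟩
    have h1 : ∀ e : V × ℕ, (noise V).map (fun R : V × ℕ → I => g b (R e))
        = (volume : Measure I).map (g b) := by
      intro e
      rw [← (hmp e).map_eq, Measure.map_map (measurable_g b) (hmp e).measurable]
      rfl
    rw [h1, h1]

lemma dec_of_tendsto (X : V → Bool) (R : V × ℕ → I) (v : V)
    (h : ∀ b : Bool, Tendsto (fun K : ℕ => (∑ k ∈ Finset.range K, g b (R (v, k))) / K) atTop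
      (𝓝 (if b then 1 / 6 else -(1 / 6)))) : dec (obs X R) v = X v := by
  have h' := (h (X v)).limsup_eq
  unfold dec obs
  unfold g at h'
  simp only
  rw [h']
  cases X v <;> norm_num

end Decode

variable [Countable V] (ν : Measure (V → Bool)) [IsProbabilityMeasure ν]

/-- A11: the bits are recovered from the observations, almost surely. -/
theorem dec_obs : ∀ᵐ ω ∂(ν.prod (noise V)), dec (obs ω.1 ω.2) = ω.1 := by
  have h1 : ∀ᵐ R ∂(noise V), ∀ (v : V) (b : Bool),
      Tendsto (fun K : ℕ => (∑ k ∈ Finset.range K, Decode.g b (R (v, k))) / K) atTop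
      (𝓝 (if b then 1 / 6 else -(1 / 6))) := by
    rw [ae_all_iff]; intro v
    rw [ae_all_iff]; intro b
    exact Decode.slln b v
  have h2 : ∀ᵐ ω ∂(ν.prod (noise V)), ∀ (v : V) (b : Bool),
      Tendsto (fun K : ℕ => (∑ k ∈ Finset.range K, Decode.g b (ω.2 (v, k))) / K) atTop
      (𝓝 (if b then 1 / 6 else -(1 / 6))) :=
    Measure.quasiMeasurePreserving_snd.ae h1
  filter_upwards [h2] with ω hω
  funext v
  exact Decode.dec_of_tendsto ω.1 ω.2 v (hω v)

/-- A12: the times are almost surely pairwise distinct inside each pass. -/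
theorem ae_goodTimes : ∀ᵐ t ∂(noise V), GoodTimes t := by
  unfold GoodTimes
  rw [ae_all_iff]; intro k
  rw [ae_all_iff]; intro v
  rw [ae_all_iff]; intro w
  by_cases hvw : v = w
  · exact Eventually.of_forall fun t h => absurd hvw h
  have hne : ((v, k) : V × ℕ) ≠ (w, k) := by
    intro h; exact hvw (congrArg Prod.fst h)
  have hmap := Measure.infinitePi_map_eval_prod (P := fun _ : V × ℕ => (volume : Measure I)) hne
  have hdiag : ∀ᵐ p ∂((volume : Measure I).prod (volume : Measure I)), p.1 ≠ p.2 := by
    rw [Measure.ae_prod_iff_ae_ae]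
    · refine Eventually.of_forall fun x => ?_
      rw [ae_iff]
      simp
    · exact (measurableSet_eq_fun measurable_fst measurable_snd).compl
  rw [← hmap] at hdiag
  have := ae_of_ae_map (by fun_prop) hdiag
  filter_upwards [this] with t ht _
  exact ht

end

end Crest.Agent.SL
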