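import Crest.Agent.S0255_Defs

/-!
# ROW168 package A1: the channel (`dens`, `Fm`, `Gm`, `ell`)
-/

set_option autoImplicit false

namespace Crest.Agent.SL

open MeasureTheory unitInterval Filter Topology
open scoped Classical ENNReal

noncomputable section

lemma dens_mix (m y : ℝ) : dens m y = (1 - m) * dens 0 y + m * dens 1 y := by
  unfold dens; ring

lemma dens_pos {m y : ℝ} (hm : m ∈ Set.Icc (0:ℝ) 1) (hy : y ∈ Set.Icc (0:ℝ) 1) : 1/2 ≤ dens m y := by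
  obtain ⟨hm0, hm1⟩ := hm
  obtain ⟨hy0, hy1⟩ := hy
  unfold dens
  nlinarith [mul_nonneg hm0 hy0, mul_nonneg (sub_nonneg.2 hm1) (sub_nonneg.2 hy1),
    mul_nonneg hm0 (sub_nonneg.2 hy1), mul_nonneg (sub_nonneg.2 hm1) hy0]

lemma Fm_mem {m y : ℝ} (hm : m ∈ Set.Icc (0:ℝ) 1) (hy : y ∈ Set.Icc (0:ℝ) 1) :
    Fm m y ∈ Set.Icc (0:ℝ) 1 := by
  obtain ⟨hm0, hm1⟩ := hm
  obtain ⟨hy0, hy1⟩ := hy
  unfold Fm
  constructor
  · nlinarith [mul_nonneg hy0 (sub_nonneg.2 hy1), mul_nonneg hm0 (mul_nonneg hy0 (sub_nonneg.2 hy1)),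
      mul_nonneg (sub_nonneg.2 hm1) (mul_nonneg hy0 (sub_nonneg.2 hy1)), mul_nonneg hy0 hy0]
  · nlinarith [mul_nonneg hy0 (sub_nonneg.2 hy1), mul_nonneg hm0 (mul_nonneg hy0 (sub_nonneg.2 hy1)),
      mul_nonneg (sub_nonneg.2 hm1) (mul_nonneg hy0 (sub_nonneg.2 hy1)),
      mul_nonneg (sub_nonneg.2 hy1) (sub_nonneg.2 hy1)]

/-- the discriminant is nonnegative -/
lemma disc_nonneg {m u : ℝ} (hm : m ∈ Set.Icc (0:ℝ) 1) (hu : u ∈ Set.Icc (0:ℝ) 1) :
    0 ≤ (3 / 2 - m) ^ 2 + 4 * (m - 1 / 2) * u := by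
  obtain ⟨hm0, hm1⟩ := hm
  obtain ⟨hu0, hu1⟩ := hu
  nlinarith [mul_nonneg hm0 hu0, mul_nonneg hm0 (sub_nonneg.2 hu1), sq_nonneg (m + 1/2),
    sq_nonneg (3/2 - m)]

lemma den_pos {m u : ℝ} (hm : m ∈ Set.Icc (0:ℝ) 1) :
    0 < (3 / 2 - m) + Real.sqrt ((3 / 2 - m) ^ 2 + 4 * (m - 1 / 2) * u) := by
  have := Real.sqrt_nonneg ((3 / 2 - m) ^ 2 + 4 * (m - 1 / 2) * u)
  linarith [hm.2]

lemma Gm_mem {m u : ℝ} (hm : m ∈ Set.Icc (0:ℝ) 1) (hu : u ∈ Set.Icc (0:ℝ) 1) :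
    Gm m u ∈ Set.Icc (0:ℝ) 1 := by
  have hden := den_pos (u := u) hm
  obtain ⟨hu0, hu1⟩ := hu
  unfold Gm
  constructor
  · exact div_nonneg (by linarith) hden.le
  · rw [div_le_one hden]
    have h1 : |2 * u - (3 / 2 - m)| ≤ Real.sqrt ((3 / 2 - m) ^ 2 + 4 * (m - 1 / 2) * u) := by
      apply Real.abs_le_sqrt
      nlinarith [mul_nonneg hu0 (sub_nonneg.2 hu1)]
    have := le_abs_self (2 * u - (3 / 2 - m))
    linarith

lemma Fm_Gm {m u : ℝ} (hm : m ∈ Set.Icc (0:ℝ) 1) (hu : u ∈ Set.Icc (0:ℝ) 1) :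
    Fm m (Gm m u) = u := by
  have hden := den_pos (u := u) hm
  have hs := Real.sq_sqrt (disc_nonneg hm hu)
  unfold Fm Gm
  set s := Real.sqrt ((3 / 2 - m) ^ 2 + 4 * (m - 1 / 2) * u) with hsdef
  have hne : (3 / 2 - m + s) ≠ 0 := hden.ne'
  have hyd : 2 * u / (3 / 2 - m + s) * (3 / 2 - m + s) = 2 * u := div_mul_cancel₀ _ hne
  set y := 2 * u / (3 / 2 - m + s)
  apply mul_left_cancel₀ (pow_ne_zero 2 hne)
  linear_combination ((3 / 2 - m + s) * (3 / 2 - m) + (m - 1 / 2) * (y * (3 / 2 - m + s) + 2 * u)) * hyd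
    - u * hs

lemma Gm_Fm {m y : ℝ} (hm : m ∈ Set.Icc (0:ℝ) 1) (hy : y ∈ Set.Icc (0:ℝ) 1) :
    Gm m (Fm m y) = y := by
  obtain ⟨hm0, hm1⟩ := hm
  obtain ⟨hy0, hy1⟩ := hy
  have h1 : (3 / 2 - m) ^ 2 + 4 * (m - 1 / 2) * Fm m y = ((3 / 2 - m) + 2 * (m - 1 / 2) * y) ^ 2 := by
    unfold Fm; ring
  have h2 : 0 ≤ (3 / 2 - m) + 2 * (m - 1 / 2) * y := by
    nlinarith [mul_nonneg hm0 hy0, mul_nonneg (sub_nonneg.2 hm1) (sub_nonneg.2 hy1),
      mul_nonneg hm0 (sub_nonneg.2 hy1), mul_nonneg (sub_nonneg.2 hm1) hy0]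
  have h3 : 0 < (3 / 2 - m) + (m - 1 / 2) * y := by
    nlinarith [mul_nonneg hm0 hy0, mul_nonneg (sub_nonneg.2 hm1) (sub_nonneg.2 hy1),
      mul_nonneg hm0 (sub_nonneg.2 hy1), mul_nonneg (sub_nonneg.2 hm1) hy0]
  unfold Gm
  rw [h1, Real.sqrt_sq h2]
  have hne : (3 / 2 - m + (3 / 2 - m + 2 * (m - 1 / 2) * y)) ≠ 0 := by
    have : 0 < (3 / 2 - m + (3 / 2 - m + 2 * (m - 1 / 2) * y)) := by linarith
    exact this.ne'
  rw [div_eq_iff hne]
  unfold Fm; ring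

lemma coe_clampI {r : ℝ} (hr : r ∈ Set.Icc (0:ℝ) 1) : (clampI r : ℝ) = r := by
  unfold clampI
  rw [Set.projIcc_of_mem _ hr]

lemma clampI_coe (y : I) : clampI (y : ℝ) = y := by
  unfold clampI
  exact Set.projIcc_val _ y

lemma coe_FmI {m : ℝ} (hm : m ∈ Set.Icc (0:ℝ) 1) (y : I) : (FmI m y : ℝ) = Fm m y :=
  coe_clampI (Fm_mem hm y.2)

lemma coe_GmI {m : ℝ} (hm : m ∈ Set.Icc (0:ℝ) 1) (u : I) : (GmI m u : ℝ) = Gm m u :=
  coe_clampI (Gm_mem hm u.2)

lemma GmI_FmI {m : ℝ} (hm : m ∈ Set.Icc (0:ℝ) 1) (y : I) : GmI m (FmI m y) = y := by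
  apply Subtype.ext
  rw [coe_GmI hm, coe_FmI hm, Gm_Fm hm y.2]

lemma FmI_GmI {m : ℝ} (hm : m ∈ Set.Icc (0:ℝ) 1) (u : I) : FmI m (GmI m u) = u := by
  apply Subtype.ext
  rw [coe_FmI hm, coe_GmI hm, Fm_Gm hm u.2]

lemma GmI_lip {m m' : ℝ} (hm : m ∈ Set.Icc (0:ℝ) 1) (hm' : m' ∈ Set.Icc (0:ℝ) 1) (u : I) :
    |(GmI m u : ℝ) - GmI m' u| ≤ |m - m'| / 2 := by
  rw [coe_GmI hm, coe_GmI hm']
  have e1 := Fm_Gm hm u.2
  have e2 := Fm_Gm hm' u.2
  obtain ⟨hy0, hy1⟩ := Gm_mem hm u.2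
  obtain ⟨hz0, hz1⟩ := Gm_mem hm' u.2
  set y := Gm m u
  set z := Gm m' u
  obtain ⟨hm0, hm1⟩ := hm
  unfold Fm at e1 e2
  -- (y - z) * (1 + (m-1/2) (y+z-1)) = (m' - m) (z^2 - z)
  have key : (y - z) * (1 + (m - 1 / 2) * (y + z - 1)) = (m' - m) * (z ^ 2 - z) := by
    linear_combination e1 - e2
  have hk : 1 / 2 ≤ 1 + (m - 1 / 2) * (y + z - 1) := by
    nlinarith [mul_nonneg hm0 hy0, mul_nonneg hm0 hz0, mul_nonneg (sub_nonneg.2 hm1) (sub_nonneg.2 hy1),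
      mul_nonneg (sub_nonneg.2 hm1) (sub_nonneg.2 hz1), mul_nonneg hm0 (sub_nonneg.2 hy1),
      mul_nonneg hm0 (sub_nonneg.2 hz1), mul_nonneg (sub_nonneg.2 hm1) hy0,
      mul_nonneg (sub_nonneg.2 hm1) hz0]
  have hq : |z ^ 2 - z| ≤ 1 / 4 := by
    rw [abs_le]; constructor <;> nlinarith [sq_nonneg (z - 1/2)]
  have h1 : |y - z| * (1 + (m - 1 / 2) * (y + z - 1)) = |m' - m| * |z ^ 2 - z| := by
    rw [← abs_mul, ← key, abs_mul, abs_of_pos (a := 1 + (m - 1 / 2) * (y + z - 1)) (by linarith)]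
  have h2 : |y - z| * (1 / 2) ≤ |m' - m| * (1 / 4) := by
    calc |y - z| * (1 / 2) ≤ |y - z| * (1 + (m - 1 / 2) * (y + z - 1)) :=
          mul_le_mul_of_nonneg_left hk (abs_nonneg _)
      _ = |m' - m| * |z ^ 2 - z| := h1
      _ ≤ |m' - m| * (1 / 4) := mul_le_mul_of_nonneg_left hq (abs_nonneg _)
  rw [abs_sub_comm m m']
  linarith

lemma ell_hasDerivAt {y : ℝ} (hy : y ∈ Set.Icc (0:ℝ) 1) :
    HasDerivAt ell (1 / (1 / 2 + y) + 1 / (3 / 2 - y)) y := by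
  obtain ⟨hy0, hy1⟩ := hy
  have h1 : (0:ℝ) < 1 / 2 + y := by linarith
  have h2 : (0:ℝ) < 3 / 2 - y := by linarith
  have d1 : HasDerivAt (fun y : ℝ => 1 / 2 + y) 1 y := by
    simpa using (hasDerivAt_id y).const_add (1/2 : ℝ)
  have d2 : HasDerivAt (fun y : ℝ => 3 / 2 - y) (-1) y := by
    simpa using (hasDerivAt_id y).const_sub (3/2 : ℝ)
  have d3 := (d1.div d2 h2.ne').log (div_pos h1 h2).ne'
  have d4 : HasDerivAt ell ((1 * (3 / 2 - y) - (1 / 2 + y) * -1) / (3 / 2 - y) ^ 2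
      / ((1 / 2 + y) / (3 / 2 - y))) y := d3
  refine d4.congr_deriv ?_
  have aux : ∀ a b : ℝ, a ≠ 0 → b ≠ 0 → (1 * b - a * -1) / b ^ 2 / (a / b) = 1 / a + 1 / b := by
    intro a b ha hb
    field_simp
    ring
  exact aux _ _ h1.ne' h2.ne'

lemma ell_lip (y y' : I) : |ell y - ell y'| ≤ 8 / 3 * |(y : ℝ) - y'| := by
  have := Convex.norm_image_sub_le_of_norm_hasDerivWithin_le (f := ell)
    (f' := fun y => 1 / (1 / 2 + y) + 1 / (3 / 2 - y)) (C := 8 / 3) (s := Set.Icc (0:ℝ) 1)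
    (x := (y' : ℝ)) (y := (y : ℝ))
    (fun x hx => (ell_hasDerivAt hx).hasDerivWithinAt)
    (fun x hx => by
      obtain ⟨hx0, hx1⟩ := hx
      have h1 : (0:ℝ) < 1 / 2 + x := by linarith
      have h2 : (0:ℝ) < 3 / 2 - x := by linarith
      rw [Real.norm_eq_abs, abs_of_nonneg (by positivity)]
      rw [div_add_div _ _ h1.ne' h2.ne', div_le_iff₀ (by positivity)]
      nlinarith [mul_nonneg hx0 (sub_nonneg.2 hx1)])
    (convex_Icc 0 1) y'.2 y.2
  simpa [Real.norm_eq_abs] using this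

lemma exp_ell (y : I) : Real.exp (ell y) = dens 1 y / dens 0 y := by
  obtain ⟨hy0, hy1⟩ := y.2
  have h1 : (0:ℝ) < 1 / 2 + y := by linarith
  have h2 : (0:ℝ) < 3 / 2 - y := by linarith
  unfold ell dens
  rw [Real.exp_log (div_pos h1 h2)]
  congr 1 <;> ring

lemma continuous_clampI : Continuous clampI := by
  unfold clampI
  exact continuous_projIcc

lemma measurable_clampI : Measurable clampI := continuous_clampI.measurable

lemma measurable_FmI : Measurable (fun p : ℝ × I => FmI p.1 p.2) := by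
  unfold FmI Fm
  apply measurable_clampI.comp
  fun_prop

lemma measurable_GmI : Measurable (fun p : ℝ × I => GmI p.1 p.2) := by
  unfold GmI Gm
  apply measurable_clampI.comp
  fun_prop

lemma measurable_ell : Measurable ell := by
  unfold ell
  fun_prop

lemma Fm_hasDerivAt (m y : ℝ) : HasDerivAt (Fm m) (dens m y) y := by
  have d1 : HasDerivAt (fun y : ℝ => y ^ 2 - y) (2 * y - 1) y := by
    have := (hasDerivAt_pow 2 y).sub (hasDerivAt_id y)
    refine HasDerivAt.congr_deriv (f := fun y : ℝ => y ^ 2 - y) this ?_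
    simp
  have d2 := (hasDerivAt_id y).add (d1.const_mul (m - 1 / 2))
  exact d2

lemma Fm_injOn {m : ℝ} (hm : m ∈ Set.Icc (0:ℝ) 1) : Set.InjOn (Fm m) (Set.Icc (0:ℝ) 1) := by
  intro y hy z hz h
  rw [← Gm_Fm hm hy, ← Gm_Fm hm hz, h]

lemma Fm_image {m : ℝ} (hm : m ∈ Set.Icc (0:ℝ) 1) : Fm m '' Set.Icc (0:ℝ) 1 = Set.Icc (0:ℝ) 1 := by
  apply Set.Subset.antisymm
  · rintro _ ⟨y, hy, rfl⟩
    exact Fm_mem hm hy
  · intro u hu
    exact ⟨Gm m u, Gm_mem hm hu, Fm_Gm hm hu⟩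

/-- change of variables on the unit interval -/
lemma lintegral_comp_FmI_dens {m : ℝ} (hm : m ∈ Set.Icc (0:ℝ) 1) (g : I → ℝ≥0∞) :
    ∫⁻ y : I, g (FmI m y) * ENNReal.ofReal (dens m y) = ∫⁻ u : I, g u := by
  have h1 : ∫⁻ y : I, g (FmI m y) * ENNReal.ofReal (dens m y)
      = ∫⁻ y in Set.Icc (0:ℝ) 1, g (clampI (Fm m y)) * ENNReal.ofReal (dens m y) :=
    lintegral_subtype_comap (μ := (volume : Measure ℝ)) measurableSet_Icc
      (fun y : ℝ => g (clampI (Fm m y)) * ENNReal.ofReal (dens m y))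
  have h2 : ∫⁻ u : I, g u = ∫⁻ u in Set.Icc (0:ℝ) 1, g (clampI u) := by
    have := lintegral_subtype_comap (μ := (volume : Measure ℝ)) (s := Set.Icc (0:ℝ) 1)
      measurableSet_Icc (fun u : ℝ => g (clampI u))
    rw [← this]
    apply lintegral_congr
    intro u
    rw [clampI_coe]
  have h3 := lintegral_image_eq_lintegral_abs_deriv_mul (s := Set.Icc (0:ℝ) 1) (f := Fm m)
    (f' := dens m) measurableSet_Icc (fun x _ => (Fm_hasDerivAt m x).hasDerivWithinAt)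
    (Fm_injOn hm) (fun u => g (clampI u))
  rw [Fm_image hm] at h3
  rw [h1, h2, h3]
  apply setLIntegral_congr_fun measurableSet_Icc
  intro y hy
  have : 0 ≤ dens m y := by linarith [dens_pos hm hy]
  simp only [abs_of_nonneg this]
  rw [mul_comm]

/-- the innovation of a `dens m`-distributed variable is uniform -/
lemma lintegral_FmI_dens {m : ℝ} (hm : m ∈ Set.Icc (0:ℝ) 1) (B : Set I) (hB : MeasurableSet B) :
    ∫⁻ y : I, (B.indicator (fun _ => (1 : ℝ≥0∞)) (FmI m y)) * ENNReal.ofReal (dens m y) = volume B := by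
  rw [lintegral_comp_FmI_dens hm (B.indicator (fun _ => (1 : ℝ≥0∞))), lintegral_indicator hB]
  simp

lemma measurable_FmI_right (m : ℝ) : Measurable (FmI m) :=
  measurable_FmI.comp (measurable_const.prodMk measurable_id)

lemma measurable_GmI_right (m : ℝ) : Measurable (GmI m) :=
  measurable_GmI.comp (measurable_const.prodMk measurable_id)

lemma measurable_dens_right (m : ℝ) : Measurable (fun y : I => ENNReal.ofReal (dens m y)) := by
  unfold dens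
  fun_prop

/-- law of an observation -/
lemma map_GmI {m : ℝ} (hm : m ∈ Set.Icc (0:ℝ) 1) :
    (volume : Measure I).map (GmI m) = volume.withDensity (fun y : I => ENNReal.ofReal (dens m y)) := by
  ext B hB
  rw [Measure.map_apply (measurable_GmI_right m) hB, withDensity_apply _ hB]
  rw [← lintegral_FmI_dens hm _ ((measurable_GmI_right m) hB), ← lintegral_indicator hB]
  apply lintegral_congr
  intro y
  by_cases hy : y ∈ B
  · have : FmI m y ∈ GmI m ⁻¹' B := by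
      rw [Set.mem_preimage, GmI_FmI hm]; exact hy
    rw [Set.indicator_of_mem this, Set.indicator_of_mem hy, one_mul]
  · have : FmI m y ∉ GmI m ⁻¹' B := by
      rw [Set.mem_preimage, GmI_FmI hm]; exact hy
    rw [Set.indicator_of_notMem this, Set.indicator_of_notMem hy, zero_mul]

lemma integral_obs_mean_aux {m : ℝ} (hm : m ∈ Set.Icc (0:ℝ) 1) :
    ∫ r : I, (2 * (GmI m r : ℝ) - 1) = (m - 1 / 2) / 3 := by
  have h1 : ∫ r : I, (2 * (GmI m r : ℝ) - 1) = ∫ y : I, (2 * (y : ℝ) - 1) ∂((volume : Measure I).map (GmI m)) := by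
    rw [integral_map (measurable_GmI_right m).aemeasurable]
    exact (by fun_prop : Measurable (fun y : I => 2 * (y : ℝ) - 1)).aestronglyMeasurable
  rw [h1, map_GmI hm, integral_withDensity_eq_integral_toReal_smul (measurable_dens_right m)
    (Filter.Eventually.of_forall fun _ => ENNReal.ofReal_lt_top)]
  have h2 : ∫ y : I, (ENNReal.ofReal (dens m y)).toReal • (2 * (y : ℝ) - 1)
      = ∫ y in Set.Icc (0:ℝ) 1, dens m y * (2 * y - 1) := by
    rw [← integral_subtype_comap (μ := (volume : Measure ℝ)) measurableSet_Icc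
      (fun y : ℝ => dens m y * (2 * y - 1))]
    apply integral_congr_ae
    refine Filter.Eventually.of_forall fun y => ?_
    have : 0 ≤ dens m y := by linarith [dens_pos hm y.2]
    simp only [ENNReal.toReal_ofReal this, smul_eq_mul]
  rw [h2, integral_Icc_eq_integral_Ioc, ← intervalIntegral.integral_of_le zero_le_one]
  have h3 : ∀ y ∈ Set.uIcc (0:ℝ) 1, HasDerivAt
      (fun y : ℝ => (y ^ 2 - y) + (m - 1 / 2) * (4 / 3 * y ^ 3 - 2 * y ^ 2 + y))
      (dens m y * (2 * y - 1)) y := by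
    intro y _
    have d1 : HasDerivAt (fun y : ℝ => y ^ 2 - y) (2 * y - 1) y := by
      have := (hasDerivAt_pow 2 y).sub (hasDerivAt_id y)
      refine HasDerivAt.congr_deriv (f := fun y : ℝ => y ^ 2 - y) this ?_
      simp
    have d2 : HasDerivAt (fun y : ℝ => 4 / 3 * y ^ 3 - 2 * y ^ 2 + y) (4 * y ^ 2 - 4 * y + 1) y := by
      have := (((hasDerivAt_pow 3 y).const_mul (4 / 3 : ℝ)).sub
        ((hasDerivAt_pow 2 y).const_mul (2 : ℝ))).add (hasDerivAt_id y)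
      refine this.congr_deriv ?_
      simp; ring
    refine (d1.add (d2.const_mul (m - 1 / 2))).congr_deriv ?_
    unfold dens; ring
  rw [intervalIntegral.integral_eq_sub_of_hasDerivAt h3]
  · ring
  · apply Continuous.intervalIntegrable
    unfold dens
    fun_prop

lemma integral_obs_mean (b : Bool) :
    ∫ r : I, (2 * (GmI (b2r b) r : ℝ) - 1) = if b then 1 / 6 else -(1 / 6) := by
  cases b
  · have := integral_obs_mean_aux (m := 0) ⟨le_refl _, zero_le_one⟩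
    simp only [b2r, Bool.false_eq_true, if_false]
    rw [this]; norm_num
  · have := integral_obs_mean_aux (m := 1) ⟨zero_le_one, le_refl _⟩
    simp only [b2r, if_true]
    rw [this]; norm_num

end

end Crest.Agent.SL
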