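import Crest.Agent.S0255_Defs
import Crest.Agent.S0255_Channel
import Crest.Agent.S0255_Tilt

/-!
# ROW168, package A7: the finite Bayes formula
-/

set_option autoImplicit false

namespace Crest.Agent.SL

open MeasureTheory unitInterval Filter Topology
open scoped Classical ENNReal

noncomputable section

namespace Bayes

/-- lintegral of a product function against a finite product of probability measures -/
theorem lintegral_pi_prod {ι : Type*} [Fintype ι] {X : ι → Type*} [∀ i, MeasurableSpace (X i)]
    (μ : ∀ i, Measure (X i)) [∀ i, IsProbabilityMeasure (μ i)]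
    (f : ∀ i, X i → ℝ≥0∞) (hf : ∀ i, Measurable (f i)) :
    ∫⁻ x, ∏ i, f i (x i) ∂(Measure.pi μ) = ∏ i, ∫⁻ y, f i y ∂(μ i) := by
  have hind : ProbabilityTheory.iIndepFun (fun i (ω : ∀ i, X i) => f i (ω i)) (Measure.pi μ) :=
    ProbabilityTheory.iIndepFun_pi (fun i => (hf i).aemeasurable)
  rw [ProbabilityTheory.lintegral_prod_eq_prod_lintegral_of_indepFun Finset.univ _ hind
    (fun i => (hf i).comp (measurable_pi_apply i))]
  refine Finset.prod_congr rfl fun i _ => ?_
  have := (measurePreserving_eval μ i).lintegral_comp (hf i)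
  exact this

theorem pi_withDensity {ι : Type*} [Fintype ι] {X : ι → Type*} [∀ i, MeasurableSpace (X i)]
    (μ : ∀ i, Measure (X i)) [∀ i, IsProbabilityMeasure (μ i)]
    (f : ∀ i, X i → ℝ≥0∞) (hf : ∀ i, Measurable (f i))
    [∀ i, SigmaFinite ((μ i).withDensity (f i))] :
    Measure.pi (fun i => (μ i).withDensity (f i))
      = (Measure.pi μ).withDensity (fun x => ∏ i, f i (x i)) := by
  apply Measure.pi_eq
  intro s hs
  rw [withDensity_apply _ (MeasurableSet.univ_pi hs), ← lintegral_indicator (MeasurableSet.univ_pi hs)]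
  have h1 : (Set.univ.pi s).indicator (fun x : ∀ i, X i => ∏ i, f i (x i))
      = fun x => ∏ i, (s i).indicator (f i) (x i) := by
    ext x
    by_cases hx : x ∈ Set.univ.pi s
    · rw [Set.indicator_of_mem hx]
      refine Finset.prod_congr rfl fun i _ => ?_
      rw [Set.indicator_of_mem (hx i (Set.mem_univ i))]
    · rw [Set.indicator_of_notMem hx]
      simp only [Set.mem_pi, Set.mem_univ, forall_true_left, not_forall] at hx
      obtain ⟨i, hi⟩ := hx
      exact (Finset.prod_eq_zero (Finset.mem_univ i) (Set.indicator_of_notMem hi _)).symm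
  rw [h1, lintegral_pi_prod μ _ (fun i => (hf i).indicator (hs i))]
  refine Finset.prod_congr rfl fun i _ => ?_
  rw [withDensity_apply _ (hs i), lintegral_indicator (hs i)]

variable {V : Type*}

/-- the finite set of events in the past of `(v,k)` with site in `F` -/
def pastF (t : V × ℕ → I) (v : V) (k : ℕ) (F : Finset V) : Finset (V × ℕ) :=
  (F ×ˢ Finset.range (k + 1)).filter (fun e' => Before t e' (v, k))

theorem mem_pastF (t : V × ℕ → I) (v : V) (k : ℕ) (F : Finset V) (e' : V × ℕ) :
    e' ∈ pastF t v k F ↔ Before t e' (v, k) ∧ e'.1 ∈ F := by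
  unfold pastF
  rw [Finset.mem_filter, Finset.mem_product, Finset.mem_range]
  constructor
  · rintro ⟨⟨h1, _⟩, h3⟩
    exact ⟨h3, h1⟩
  · rintro ⟨h1, h2⟩
    refine ⟨⟨h2, ?_⟩, h1⟩
    rcases h1 with h | ⟨h, _⟩
    · exact Nat.lt_succ_of_lt h
    · simp only at h
      omega

/-- extension by zero -/
def ext0 (P : Finset (V × ℕ)) (y : P → I) : V × ℕ → I :=
  fun e => if h : e ∈ P then y ⟨e, h⟩ else 0

theorem measurable_ext0 (P : Finset (V × ℕ)) : Measurable (ext0 P) := by
  apply measurable_pi_lambda
  intro e
  unfold ext0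
  by_cases h : e ∈ P
  · simp only [h, dite_true]
    exact measurable_pi_apply _
  · simp only [h, dite_false]
    exact measurable_const

theorem maskPastF_eq (t : V × ℕ → I) (v : V) (k : ℕ) (F : Finset V) (x : V × ℕ → I) :
    maskPastF t (v, k) F x = ext0 (pastF t v k F) ((pastF t v k F).restrict x) := by
  ext e
  unfold maskPastF ext0
  by_cases h : e ∈ pastF t v k F
  · have h' := (mem_pastF t v k F e).1 h
    simp [h, h']
  · have h' : ¬ (Before t e (v, k) ∧ e.1 ∈ F) := fun hh => h ((mem_pastF t v k F e).2 hh)
    simp [h, h']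

/-- the sum of fields against a configuration is a sum over the past events -/
theorem sum_field_mul (x t : V × ℕ → I) (v : V) (k : ℕ) (F : Finset V) (b : V → ℝ) :
    ∑ w ∈ F, field x t v k w * b w = ∑ e ∈ pastF t v k F, ell (x e) * b e.1 := by
  unfold pastF
  rw [Finset.sum_filter, Finset.sum_product]
  refine Finset.sum_congr rfl fun w _ => ?_
  rw [Finset.sum_range_succ]
  have h1 : ∀ j ∈ Finset.range k, (if Before t (w, j) (v, k) then ell (x (w, j)) * b w else 0)
      = ell (x (w, j)) * b w := by
    intro j hj
    rw [if_pos]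
    left
    exact Finset.mem_range.1 hj
  rw [Finset.sum_congr rfl h1]
  have h2 : Before t (w, k) (v, k) ↔ t (w, k) < t (v, k) := by
    unfold Before
    simp
  unfold field
  rw [add_mul, Finset.sum_mul]
  congr 1
  by_cases h : t (w, k) < t (v, k)
  · rw [if_pos h, if_pos (h2.2 h)]
  · rw [if_neg h, if_neg (fun hh => h (h2.1 hh)), zero_mul]

theorem field_mask (x t : V × ℕ → I) (v : V) (k : ℕ) (F : Finset V) (w : V) (hw : w ∈ F) :
    field (maskPastF t (v, k) F x) t v k w = field x t v k w := by
  unfold field
  congr 1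
  · refine Finset.sum_congr rfl fun j hj => ?_
    have : Before t (w, j) (v, k) := Or.inl (Finset.mem_range.1 hj)
    simp [maskPastF, this, hw]
  · by_cases h : t (w, k) < t (v, k)
    · have : Before t (w, k) (v, k) := Or.inr ⟨rfl, h⟩
      simp [maskPastF, this, hw, h]
    · simp [h]

theorem dens_b2r (b : Bool) (y : I) :
    dens (b2r b) y = dens 0 y * Real.exp (ell y * b2r b) := by
  have h0 : 0 < dens 0 y := lt_of_lt_of_le (by norm_num)
    (dens_pos (m := 0) ⟨le_refl _, zero_le_one⟩ y.2)
  cases b
  · simp [b2r]
  · simp only [b2r, if_true, mul_one]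
    rw [exp_ell]
    field_simp

/-- the likelihood of the observations in the past -/
theorem prod_dens (x t : V × ℕ → I) (v : V) (k : ℕ) (F : Finset V) (X : V → Bool) :
    ∏ e ∈ pastF t v k F, dens (b2r (X e.1)) (x e)
      = (∏ e ∈ pastF t v k F, dens 0 (x e)) *
          Real.exp (∑ w ∈ F, field x t v k w * b2r (X w)) := by
  rw [sum_field_mul, Real.exp_sum, ← Finset.prod_mul_distrib]
  exact Finset.prod_congr rfl fun e _ => dens_b2r _ _


theorem measurable_b2r : Measurable b2r := measurable_from_top

theorem measurable_GmI_left (m : ℝ) : Measurable (GmI m) :=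
  measurable_GmI.comp (measurable_const.prodMk measurable_id)

theorem measurable_obs' [Countable V] :
    Measurable (fun ω : (V → Bool) × (V × ℕ → I) => obs ω.1 ω.2) := by
  apply measurable_pi_lambda
  intro e
  unfold obs
  have h : Measurable (fun c : (V → Bool) × (V × ℕ → I) => (b2r (c.1 e.1), c.2 e)) := by
    apply Measurable.prodMk
    · exact measurable_b2r.comp ((measurable_pi_apply e.1).comp measurable_fst)
    · exact (measurable_pi_apply e).comp measurable_snd
  exact measurable_GmI.comp h

theorem measurable_field (t : V × ℕ → I) (v : V) (k : ℕ) (w : V) :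
    Measurable (fun x : V × ℕ → I => field x t v k w) := by
  unfold field
  apply Measurable.add
  · apply Finset.measurable_sum
    intro j _
    exact measurable_ell.comp (measurable_subtype_coe.comp (measurable_pi_apply _))
  · by_cases h : t (w, k) < t (v, k)
    · simp only [h, if_true]
      exact measurable_ell.comp (measurable_subtype_coe.comp (measurable_pi_apply _))
    · simp only [h, if_false]
      exact measurable_const

theorem measurable_mq_field (q : Finset V → ℝ) (F : Finset V) (t : V × ℕ → I) (v : V) (k : ℕ) :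
    Measurable (fun x : V × ℕ → I => mq q F (field x t v k) v) := by
  unfold mq Nq Zq
  apply Measurable.max measurable_const
  apply Measurable.min measurable_const
  apply Measurable.div
  · apply Finset.measurable_sum
    intro A _
    apply Measurable.mul _ measurable_const
    apply Finset.measurable_prod
    intro w _
    exact ((measurable_field t v k w).exp).sub measurable_const
  · apply Finset.measurable_sum
    intro A _
    apply Measurable.mul _ measurable_const
    apply Finset.measurable_prod
    intro w _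
    exact ((measurable_field t v k w).exp).sub measurable_const

theorem instProbDens (m : ℝ) (hm : m ∈ Set.Icc (0:ℝ) 1) :
    IsProbabilityMeasure ((volume : Measure I).withDensity
      (fun y : I => ENNReal.ofReal (dens m y))) := by
  rw [← map_GmI hm]
  exact Measure.isProbabilityMeasure_map (measurable_GmI_left m).aemeasurable

theorem b2r_mem (b : Bool) : b2r b ∈ Set.Icc (0:ℝ) 1 := by
  cases b <;> simp [b2r]

theorem measurable_dens_left (m : ℝ) : Measurable (fun y : I => ENNReal.ofReal (dens m y)) := by
  unfold dens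
  apply ENNReal.measurable_ofReal.comp
  have : Measurable (fun y : I => (y : ℝ)) := measurable_subtype_coe
  fun_prop

/-- law of the finitely many relevant observations, given the configuration -/
theorem map_restrict_obs (P : Finset (V × ℕ)) (X : V → Bool) :
    (noise V).map (fun R => P.restrict (obs X R))
      = (Measure.pi (fun _ : P => (volume : Measure I))).withDensity
          (fun y => ∏ e : P, ENNReal.ofReal (dens (b2r (X e.1.1)) (y e))) := by
  have hmeas : ∀ e : V × ℕ, Measurable (GmI (b2r (X e.1))) := fun e => measurable_GmI_left _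
  have h1 : (noise V).map (obs X)
      = Measure.infinitePi (fun e : V × ℕ => (volume : Measure I).map (GmI (b2r (X e.1)))) := by
    unfold noise
    exact Measure.infinitePi_map_pi (μ := fun _ : V × ℕ => (volume : Measure I))
      (f := fun e => GmI (b2r (X e.1))) hmeas
  have hobs : Measurable (obs X) := by
    apply measurable_pi_lambda
    intro e
    exact (hmeas e).comp (measurable_pi_apply e)
  have h2 : (noise V).map (fun R => P.restrict (obs X R))
      = ((noise V).map (obs X)).map P.restrict := by
    rw [Measure.map_map (Finset.measurable_restrict P) hobs]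
    rfl
  have : ∀ e : V × ℕ, IsProbabilityMeasure ((volume : Measure I).map (GmI (b2r (X e.1)))) :=
    fun e => Measure.isProbabilityMeasure_map (hmeas e).aemeasurable
  rw [h2, h1, Measure.infinitePi_map_restrict]
  have h3 : (fun e : P => (volume : Measure I).map (GmI (b2r (X e.1.1))))
      = fun e : P => (volume : Measure I).withDensity
          (fun y : I => ENNReal.ofReal (dens (b2r (X e.1.1)) y)) := by
    funext e
    exact map_GmI (b2r_mem _)
  rw [h3]
  have : ∀ e : P, SigmaFinite ((volume : Measure I).withDensity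
      (fun y : I => ENNReal.ofReal (dens (b2r (X e.1.1)) y))) := fun e => by
    have := instProbDens _ (b2r_mem (X e.1.1))
    infer_instance
  exact pi_withDensity (fun _ : P => (volume : Measure I))
    (fun e y => ENNReal.ofReal (dens (b2r (X e.1.1)) y)) (fun e => measurable_dens_left _)


theorem isProb_noise (V : Type*) : IsProbabilityMeasure (noise V) := by
  unfold noise
  infer_instance

/-- the likelihood as an `ℝ≥0∞`-valued function -/
def lik (P : Finset (V × ℕ)) (X : V → Bool) (y : P → I) : ℝ≥0∞ :=
  ∏ e : P, ENNReal.ofReal (dens (b2r (X e.1.1)) (y e))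

theorem measurable_lik (P : Finset (V × ℕ)) :
    Measurable (fun z : (V → Bool) × (P → I) => lik P z.1 z.2) := by
  unfold lik
  apply Finset.measurable_prod
  intro e _
  apply ENNReal.measurable_ofReal.comp
  unfold dens
  have h1 : Measurable (fun z : (V → Bool) × (P → I) => b2r (z.1 e.1.1)) :=
    measurable_b2r.comp ((measurable_pi_apply e.1.1).comp measurable_fst)
  have h2 : Measurable (fun z : (V → Bool) × (P → I) => ((z.2 e : I) : ℝ)) :=
    measurable_subtype_coe.comp ((measurable_pi_apply e).comp measurable_snd)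
  fun_prop

/-- change of variables: from the true law to Lebesgue measure on the finitely many relevant
observations -/
theorem lintegral_tru [Countable V] (ν : Measure (V → Bool)) [IsProbabilityMeasure ν]
    (t : V × ℕ → I) (v : V) (k : ℕ) (F : Finset V)
    (Θ : (V → Bool) × (V × ℕ → I) → ℝ≥0∞) (hΘ : Measurable Θ) :
    ∫⁻ ω, Θ (ω.1, maskPastF t (v, k) F (obs ω.1 ω.2)) ∂(tru ν)
      = ∫⁻ y, ∫⁻ X, Θ (X, ext0 (pastF t v k F) y) * lik (pastF t v k F) X y ∂ν
          ∂(Measure.pi (fun _ : pastF t v k F => (volume : Measure I))) := by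
  have := isProb_noise V
  set P := pastF t v k F with hP
  have hT : Measurable (fun ω : (V → Bool) × (V × ℕ → I) =>
      (ω.1, ext0 P (P.restrict (obs ω.1 ω.2)))) :=
    measurable_fst.prodMk ((measurable_ext0 P).comp
      ((Finset.measurable_restrict P).comp measurable_obs'))
  have h0 : ∀ ω : (V → Bool) × (V × ℕ → I),
      Θ (ω.1, maskPastF t (v, k) F (obs ω.1 ω.2)) = Θ (ω.1, ext0 P (P.restrict (obs ω.1 ω.2))) := by
    intro ω
    rw [maskPastF_eq]
  simp only [h0]
  have hprod := lintegral_prod (μ := ν) (ν := noise V)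
    (fun ω : (V → Bool) × (V × ℕ → I) => Θ (ω.1, ext0 P (P.restrict (obs ω.1 ω.2))))
    (hΘ.comp hT).aemeasurable
  rw [show tru ν = ν.prod (noise V) from rfl, hprod]
  have h1 : ∀ X : V → Bool, ∫⁻ R, Θ (X, ext0 P (P.restrict (obs X R))) ∂(noise V)
      = ∫⁻ y, Θ (X, ext0 P y) * lik P X y ∂(Measure.pi (fun _ : P => (volume : Measure I))) := by
    intro X
    have hg : Measurable (fun y : P → I => Θ (X, ext0 P y)) :=
      hΘ.comp (measurable_const.prodMk (measurable_ext0 P))
    have hr : Measurable (fun R : V × ℕ → I => P.restrict (obs X R)) :=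
      (Finset.measurable_restrict P).comp
        (Measurable.comp (g := fun ω : (V → Bool) × (V × ℕ → I) => obs ω.1 ω.2)
          (f := fun R : V × ℕ → I => (X, R)) measurable_obs'
          (measurable_const.prodMk measurable_id))
    have := lintegral_map (μ := noise V) hg hr
    rw [← this, map_restrict_obs]
    have hl : Measurable (fun y : P → I => lik P X y) :=
      Measurable.comp (g := fun z : (V → Bool) × (P → I) => lik P z.1 z.2)
        (f := fun y : P → I => (X, y)) (measurable_lik P) (measurable_const.prodMk measurable_id)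
    change ∫⁻ a, Θ (X, ext0 P a) ∂((Measure.pi (fun _ : P => (volume : Measure I))).withDensity
      (fun y => lik P X y)) = _
    rw [lintegral_withDensity_eq_lintegral_mul _ hl hg]
    refine lintegral_congr fun y => ?_
    simp only [Pi.mul_apply]
    rw [mul_comm]
  simp only [h1]
  rw [lintegral_lintegral_swap]
  apply Measurable.aemeasurable
  apply Measurable.mul
  · exact hΘ.comp (measurable_fst.prodMk ((measurable_ext0 P).comp measurable_snd))
  · exact measurable_lik P


/-- reference density -/
def D0 (P : Finset (V × ℕ)) (y : P → I) : ℝ := ∏ e : P, dens 0 (y e)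

theorem D0_nonneg (P : Finset (V × ℕ)) (y : P → I) : 0 ≤ D0 P y :=
  Finset.prod_nonneg fun e _ => le_trans (by norm_num)
    (dens_pos (m := 0) ⟨le_refl _, zero_le_one⟩ (y e).2)

theorem lik_eq_aux (P : Finset (V × ℕ)) (X : V → Bool) (y : P → I) :
    lik P X y = ENNReal.ofReal (∏ e ∈ P, dens (b2r (X e.1)) (ext0 P y e)) := by
  unfold lik
  rw [← ENNReal.ofReal_prod_of_nonneg (fun e _ => le_trans (by norm_num)
    (dens_pos (b2r_mem _) (y e).2))]
  congr 1
  rw [← Finset.prod_coe_sort P]
  refine Finset.prod_congr rfl fun e _ => ?_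
  simp [ext0]

theorem D0_eq (P : Finset (V × ℕ)) (y : P → I) : D0 P y = ∏ e ∈ P, dens 0 (ext0 P y e) := by
  unfold D0
  rw [← Finset.prod_coe_sort P]
  refine Finset.prod_congr rfl fun e _ => ?_
  simp [ext0]

theorem lik_eq (t : V × ℕ → I) (v : V) (k : ℕ) (F : Finset V) (X : V → Bool)
    (y : pastF t v k F → I) :
    lik (pastF t v k F) X y = ENNReal.ofReal (D0 (pastF t v k F) y *
      Real.exp (∑ w ∈ F, field (ext0 (pastF t v k F) y) t v k w * b2r (X w))) := by
  rw [lik_eq_aux, D0_eq, prod_dens]

theorem lintegral_lik (ν : Measure (V → Bool)) [IsProbabilityMeasure ν]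
    (t : V × ℕ → I) (v : V) (k : ℕ) (F : Finset V) (y : pastF t v k F → I) :
    ∫⁻ X, lik (pastF t v k F) X y ∂ν = ENNReal.ofReal (D0 (pastF t v k F) y *
      Zq (inclOf ν) F (field (ext0 (pastF t v k F) y) t v k)) := by
  simp only [lik_eq]
  rw [← ofReal_integral_eq_lintegral_ofReal ((Tilt.integrable_exp ν F _).const_mul _)
    (Filter.Eventually.of_forall fun X => mul_nonneg (D0_nonneg _ _) (Real.exp_pos _).le),
    integral_const_mul, Zq_inclOf]

theorem lintegral_b2r_lik (ν : Measure (V → Bool)) [IsProbabilityMeasure ν]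
    (t : V × ℕ → I) (v : V) (k : ℕ) (F : Finset V) (y : pastF t v k F → I) :
    ∫⁻ X, ENNReal.ofReal (b2r (X v)) * lik (pastF t v k F) X y ∂ν
      = ENNReal.ofReal (D0 (pastF t v k F) y *
          Nq (inclOf ν) F (field (ext0 (pastF t v k F) y) t v k) v) := by
  simp only [lik_eq]
  have h : ∀ X : V → Bool, ENNReal.ofReal (b2r (X v)) * ENNReal.ofReal (D0 (pastF t v k F) y *
      Real.exp (∑ w ∈ F, field (ext0 (pastF t v k F) y) t v k w * b2r (X w)))
      = ENNReal.ofReal (D0 (pastF t v k F) y * (b2r (X v) *
      Real.exp (∑ w ∈ F, field (ext0 (pastF t v k F) y) t v k w * b2r (X w)))) := by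
    intro X
    rw [← ENNReal.ofReal_mul (b2r_mem _).1]
    congr 1
    ring
  simp only [h]
  rw [← ofReal_integral_eq_lintegral_ofReal ((Tilt.integrable_b2r_exp ν F _ v).const_mul _)
    (Filter.Eventually.of_forall fun X => mul_nonneg (D0_nonneg _ _)
      (mul_nonneg (b2r_mem _).1 (Real.exp_pos _).le)),
    integral_const_mul, Nq_inclOf]

/-- the key identity in `ℝ≥0∞` form -/
theorem lintegral_key [Countable V] (ν : Measure (V → Bool)) [IsProbabilityMeasure ν]
    (t : V × ℕ → I) (v : V) (k : ℕ) (F : Finset V)
    (Ψ : (V × ℕ → I) → ℝ≥0∞) (hΨ : Measurable Ψ) :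
    ∫⁻ ω, Ψ (maskPastF t (v, k) F (obs ω.1 ω.2)) *
        ENNReal.ofReal (mq (inclOf ν) F (field (maskPastF t (v, k) F (obs ω.1 ω.2)) t v k) v)
        ∂(tru ν)
      = ∫⁻ ω, Ψ (maskPastF t (v, k) F (obs ω.1 ω.2)) * ENNReal.ofReal (b2r (ω.1 v)) ∂(tru ν) := by
  have hA := lintegral_tru ν t v k F
    (fun z => Ψ z.2 * ENNReal.ofReal (mq (inclOf ν) F (field z.2 t v k) v))
    ((hΨ.comp measurable_snd).mul (ENNReal.measurable_ofReal.comp
      ((measurable_mq_field _ F t v k).comp measurable_snd)))
  have hB := lintegral_tru ν t v k F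
    (fun z => Ψ z.2 * ENNReal.ofReal (b2r (z.1 v)))
    ((hΨ.comp measurable_snd).mul (ENNReal.measurable_ofReal.comp
      (measurable_b2r.comp ((measurable_pi_apply v).comp measurable_fst))))
  simp only at hA hB
  rw [hA, hB]
  refine lintegral_congr fun y => ?_
  have hl : Measurable (fun X : V → Bool => lik (pastF t v k F) X y) :=
    Measurable.comp (g := fun z : (V → Bool) × (pastF t v k F → I) => lik (pastF t v k F) z.1 z.2)
      (f := fun X : V → Bool => (X, y)) (measurable_lik _) (measurable_id.prodMk measurable_const)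
  have h1 : ∫⁻ X, Ψ (ext0 (pastF t v k F) y) *
      ENNReal.ofReal (mq (inclOf ν) F (field (ext0 (pastF t v k F) y) t v k) v) *
        lik (pastF t v k F) X y ∂ν
      = Ψ (ext0 (pastF t v k F) y) *
      (ENNReal.ofReal (mq (inclOf ν) F (field (ext0 (pastF t v k F) y) t v k) v) *
        ∫⁻ X, lik (pastF t v k F) X y ∂ν) := by
    rw [lintegral_const_mul _ hl, mul_assoc]
  have h2 : ∫⁻ X, Ψ (ext0 (pastF t v k F) y) * ENNReal.ofReal (b2r (X v)) *
        lik (pastF t v k F) X y ∂ν
      = Ψ (ext0 (pastF t v k F) y) *
        ∫⁻ X, ENNReal.ofReal (b2r (X v)) * lik (pastF t v k F) X y ∂ν := by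
    simp only [mul_assoc]
    rw [lintegral_const_mul]
    exact (ENNReal.measurable_ofReal.comp
      (measurable_b2r.comp (measurable_pi_apply v))).mul hl
  rw [h1, h2, lintegral_lik, lintegral_b2r_lik, ← ENNReal.ofReal_mul (mq_mem _ _ _ _).1]
  congr 2
  rw [mq_inclOf]
  have hZ := Zq_inclOf_pos ν F (field (ext0 (pastF t v k F) y) t v k)
  field_simp


end Bayes

open Bayes in
/-- A7: Bayes formula for finitely many observations -/
theorem bayes {V : Type*} [Countable V] (ν : Measure (V → Bool)) [IsProbabilityMeasure ν]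
    (t : V × ℕ → I) (v : V) (k : ℕ) (F : Finset V) :
    (fun ω : (V → Bool) × (V × ℕ → I) => mq (inclOf ν) F (field (obs ω.1 ω.2) t v k) v)
      =ᵐ[tru ν] (tru ν)[fun ω => b2r (ω.1 v) |
        MeasurableSpace.comap (fun ω : (V → Bool) × (V × ℕ → I) => maskPastF t (v, k) F (obs ω.1 ω.2))
          inferInstance] := by
  have hpn := isProb_noise V
  have hptru : IsProbabilityMeasure (tru ν) := by
    change IsProbabilityMeasure (ν.prod (noise V))
    infer_instance
  set T : (V → Bool) × (V × ℕ → I) → (V × ℕ → I) :=
    fun ω => maskPastF t (v, k) F (obs ω.1 ω.2) with hTdef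
  have hT : Measurable T := by
    have : T = fun ω => ext0 (pastF t v k F) ((pastF t v k F).restrict (obs ω.1 ω.2)) := by
      funext ω
      exact maskPastF_eq t v k F _
    rw [this]
    exact (measurable_ext0 _).comp ((Finset.measurable_restrict _).comp measurable_obs')
  have hG : Measurable (fun x : V × ℕ → I => mq (inclOf ν) F (field x t v k) v) :=
    measurable_mq_field _ F t v k
  have hgT : (fun ω : (V → Bool) × (V × ℕ → I) => mq (inclOf ν) F (field (obs ω.1 ω.2) t v k) v)
      = fun ω => mq (inclOf ν) F (field (T ω) t v k) v := by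
    funext ω
    apply mq_congr
    intro w hw
    exact (field_mask _ t v k F w hw).symm
  have hgmeas : Measurable (fun ω : (V → Bool) × (V × ℕ → I) =>
      mq (inclOf ν) F (field (T ω) t v k) v) := hG.comp hT
  have hfmeas : Measurable (fun ω : (V → Bool) × (V × ℕ → I) => b2r (ω.1 v)) :=
    measurable_b2r.comp ((measurable_pi_apply v).comp measurable_fst)
  have hgint : Integrable (fun ω : (V → Bool) × (V × ℕ → I) =>
      mq (inclOf ν) F (field (T ω) t v k) v) (tru ν) := by
    apply Integrable.of_bound hgmeas.aestronglyMeasurable 1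
    refine Filter.Eventually.of_forall fun ω => ?_
    have := mq_mem (inclOf ν) F (field (T ω) t v k) v
    rw [Real.norm_eq_abs, abs_le]
    exact ⟨by linarith [this.1], this.2⟩
  have hfint : Integrable (fun ω : (V → Bool) × (V × ℕ → I) => b2r (ω.1 v)) (tru ν) := by
    apply Integrable.of_bound hfmeas.aestronglyMeasurable 1
    refine Filter.Eventually.of_forall fun ω => ?_
    have := b2r_mem (ω.1 v)
    rw [Real.norm_eq_abs, abs_le]
    exact ⟨by linarith [this.1], this.2⟩
  rw [hgT]
  have hm : MeasurableSpace.comap T inferInstance ≤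
      (inferInstance : MeasurableSpace ((V → Bool) × (V × ℕ → I))) := hT.comap_le
  refine ae_eq_condExp_of_forall_setIntegral_eq hm hfint (fun s _ _ => hgint.integrableOn) ?_ ?_
  · rintro s ⟨S, hS, rfl⟩ _
    have hTS : MeasurableSet (T ⁻¹' S) := hT hS
    rw [integral_eq_lintegral_of_nonneg_ae
        (Filter.Eventually.of_forall fun ω => (mq_mem _ _ _ _).1)
        hgmeas.aestronglyMeasurable.restrict,
      integral_eq_lintegral_of_nonneg_ae
        (Filter.Eventually.of_forall fun ω => (b2r_mem _).1)
        hfmeas.aestronglyMeasurable.restrict]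
    congr 1
    rw [← lintegral_indicator hTS, ← lintegral_indicator hTS]
    have key := lintegral_key ν t v k F (S.indicator fun _ => 1) (measurable_const.indicator hS)
    have e1 : ∀ (c : (V → Bool) × (V × ℕ → I) → ℝ≥0∞) (ω : (V → Bool) × (V × ℕ → I)),
        (T ⁻¹' S).indicator c ω = (S.indicator (fun _ => (1 : ℝ≥0∞)) (T ω)) * c ω := by
      intro c ω
      by_cases h : T ω ∈ S
      · rw [Set.indicator_of_mem (show ω ∈ T ⁻¹' S from h), Set.indicator_of_mem h, one_mul]
      · rw [Set.indicator_of_notMem (show ω ∉ T ⁻¹' S from h), Set.indicator_of_notMem h, zero_mul]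
    simp only [e1]
    exact key
  · exact ((hG.comp (comap_measurable T)).stronglyMeasurable).aestronglyMeasurable

end

end Crest.Agent.SL
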