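import Crest.Agent.S0255_LevyCore
import Crest.Agent.S0255_Bayes

/-! # ROW168, package A8: the drift is the conditional expectation given the whole past -/

set_option autoImplicit false

namespace Crest.Agent.SL

open MeasureTheory unitInterval Filter Topology
open scoped Classical ENNReal

noncomputable section

variable {V : Type*}

/-- A8: the drift is the conditional expectation given the whole past -/
theorem drift_eq_condExp [Countable V] (ν : Measure (V → Bool)) [IsProbabilityMeasure ν]
    (E : V → ℕ → Finset V) (hmono : ∀ v, Monotone (E v))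
    (hex : ∀ v w, ∃ n, w ∈ E v n) (t : V × ℕ → I) (v : V) (k : ℕ) :
    (fun ω : (V → Bool) × (V × ℕ → I) => drift (inclOf ν) E (obs ω.1 ω.2) t v k)
      =ᵐ[tru ν] (tru ν)[fun ω => b2r (ω.1 v) |
        MeasurableSpace.comap (fun ω : (V → Bool) × (V × ℕ → I) => maskPast t (v, k) (obs ω.1 ω.2))
          inferInstance] :=
  drift_eq_condExp_of_bayes ν E hmono hex t v k (fun F => bayes ν t v k F)

end

end Crest.Agent.SL
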