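import Crest.Agent.S0255_PeelCore
import Crest.Agent.S0255_Fix
import Crest.Agent.S0255_Levy

/-!
# ROW168, package A9: the innovation of an event is uniform and independent of its past
-/

set_option autoImplicit false

namespace Crest.Agent.SL

open MeasureTheory unitInterval Filter Topology
open scoped Classical ENNReal

noncomputable section

variable {V : Type*}

/-- A9: the innovation of an event is uniform and independent of its past -/
theorem peel [Countable V] (ν : Measure (V → Bool)) [IsProbabilityMeasure ν]
    (E : V → ℕ → Finset V) (hmono : ∀ v, Monotone (E v))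
    (hex : ∀ v w, ∃ n, w ∈ E v n) (t : V × ℕ → I) (e : V × ℕ)
    (S : Set (V × ℕ → I)) (hS : MeasurableSet S) (B : Set I) (hB : MeasurableSet B) :
    tru ν {ω | maskPast t e (obs ω.1 ω.2) ∈ S ∧ innov (inclOf ν) E (obs ω.1 ω.2) t e ∈ B}
      = volume B * tru ν {ω | maskPast t e (obs ω.1 ω.2) ∈ S} := by
  obtain ⟨v, k⟩ := e
  exact Peel.peel_core ν (inclOf ν) E t v k
    ⟨fun _ hm => map_GmI hm, fun _ hm B hB => lintegral_FmI_dens hm B hB⟩
    (fun x => drift_mem _ E x t v k)
    (fun x => drift_congr _ E t v k (fun e' he' => by unfold maskPast; rw [if_pos he']))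
    (drift_eq_condExp ν E hmono hex t v k) S hS B hB

end

end Crest.Agent.SL
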