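import Crest.Agent.S0255_Meas
import Crest.Agent.S0255_Peel

/-! # ROW168, package A10 : the innovations of the true process are iid uniform (`map_innov`) -/

set_option autoImplicit false

namespace Crest.Agent.SL

open MeasureTheory unitInterval Filter Topology
open scoped Classical ENNReal

noncomputable section

variable {V : Type*}

namespace InnovLaw

lemma before_trans (t : V × ℕ → I) {a b c : V × ℕ} (h1 : Before t a b) (h2 : Before t b c) :
    Before t a c := by
  unfold Before at *
  rcases h1 with h1 | ⟨h1, h1'⟩ <;> rcases h2 with h2 | ⟨h2, h2'⟩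
  · exact Or.inl (h1.trans h2)
  · exact Or.inl (h2 ▸ h1)
  · exact Or.inl (h1 ▸ h2)
  · exact Or.inr ⟨h1.trans h2, h1'.trans h2'⟩

/-- a finite nonempty set of events has a `Before`-maximal element (for good times). -/
lemma exists_max (t : V × ℕ → I) (ht : GoodTimes t) (s : Finset (V × ℕ)) (hs : s.Nonempty) :
    ∃ e ∈ s, ∀ e' ∈ s, e' ≠ e → Before t e' e := by
  obtain ⟨e, he, hmax⟩ := s.exists_max_image (fun e : V × ℕ => toLex (e.2, t e)) hs
  refine ⟨e, he, fun e' he' hne => ?_⟩
  have hle := hmax e' he'
  rcases lt_or_eq_of_le hle with hlt | heq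
  · rw [Prod.Lex.toLex_lt_toLex] at hlt
    exact hlt
  · exfalso
    have h2 : (e'.2, t e') = (e.2, t e) := toLex.injective heq
    have hk : e'.2 = e.2 := congrArg Prod.fst h2
    have htt : t e' = t e := congrArg Prod.snd h2
    have hv : e'.1 ≠ e.1 := fun h => hne (Prod.ext h hk)
    apply ht e.2 e'.1 e.1 hv
    have e1 : (e'.1, e.2) = e' := by rw [← hk]
    have e2 : (e.1, e.2) = e := rfl
    rw [e1, e2, htt]

/-- the drift only depends on the past (private copy, so that this file does not need A3). -/
lemma drift_congr' (q : Finset V → ℝ) (E : V → ℕ → Finset V) {x x' : V × ℕ → I}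
    (t : V × ℕ → I) (v : V) (k : ℕ)
    (hx : ∀ e', Before t e' (v, k) → x e' = x' e') : drift q E x t v k = drift q E x' t v k := by
  have hf : field x t v k = field x' t v k := by
    funext w
    unfold field
    congr 1
    · exact Finset.sum_congr rfl fun j hj => by
        rw [hx (w, j) (Or.inl (Finset.mem_range.1 hj))]
    · split_ifs with h
      · rw [hx (w, k) (Or.inr ⟨rfl, h⟩)]
      · rfl
  unfold drift
  rw [hf]

/-- the innovation of an event in the past of `e` only depends on the past of `e`. -/
lemma innov_maskPast (q : Finset V → ℝ) (E : V → ℕ → Finset V) (x t : V × ℕ → I)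
    {e e' : V × ℕ} (h : Before t e' e) :
    innov q E (maskPast t e x) t e' = innov q E x t e' := by
  unfold innov
  have h1 : maskPast t e x e' = x e' := by
    unfold maskPast; rw [if_pos h]
  have h2 : drift q E (maskPast t e x) t e'.1 e'.2 = drift q E x t e'.1 e'.2 := by
    refine drift_congr' q E t e'.1 e'.2 fun e'' he'' => ?_
    unfold maskPast
    rw [if_pos (before_trans t he'' h)]
  rw [h1, h2]

end InnovLaw

open InnovLaw

section Law
variable [Countable V] (ν : Measure (V → Bool)) [IsProbabilityMeasure ν]

/-- A10 -/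
theorem map_innov (E : V → ℕ → Finset V) (hmono : ∀ v, Monotone (E v))
    (hex : ∀ v w, ∃ n, w ∈ E v n) (t : V × ℕ → I) (ht : GoodTimes t) :
    (tru ν).map (fun ω => innov (inclOf ν) E (obs ω.1 ω.2) t) = noise V := by
  have hpair : Measurable (fun y : V × ℕ → I => ((y, t) : (V × ℕ → I) × (V × ℕ → I))) :=
    measurable_id.prodMk measurable_const
  have hinn : Measurable (fun y : V × ℕ → I => innov (inclOf ν) E y t) := by
    have h := (measurable_innov (inclOf ν) E).comp hpair
    rw [Function.comp_def] at h
    exact h
  have hΞ : Measurable (fun ω : (V → Bool) × (V × ℕ → I) =>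
      innov (inclOf ν) E (obs ω.1 ω.2) t) := by
    have h := hinn.comp (measurable_obs (V := V))
    rw [Function.comp_def] at h
    exact h
  -- the key statement, by induction on the number of events
  have key : ∀ (n : ℕ) (s : Finset (V × ℕ)), s.card = n → ∀ B : V × ℕ → Set I,
      (∀ i, MeasurableSet (B i)) →
      tru ν {ω | ∀ i ∈ s, innov (inclOf ν) E (obs ω.1 ω.2) t i ∈ B i}
        = ∏ i ∈ s, (volume : Measure I) (B i) := by
    intro n
    induction n with
    | zero =>
      intro s hs B _
      rw [Finset.card_eq_zero] at hs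
      subst hs
      have : IsProbabilityMeasure (noise V) := by unfold noise; infer_instance
      simp
    | succ n ih =>
      intro s hs B hB
      have hne : s.Nonempty := by
        rw [← Finset.card_pos, hs]; exact Nat.succ_pos n
      obtain ⟨e, he, hmax⟩ := exists_max t ht s hne
      set S : Set (V × ℕ → I) := {y | ∀ i ∈ s.erase e, innov (inclOf ν) E y t i ∈ B i} with hSdef
      have hS : MeasurableSet S := by
        have : S = ⋂ i ∈ s.erase e, (fun y : V × ℕ → I => innov (inclOf ν) E y t i) ⁻¹' B i := by
          ext y; simp [hSdef]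
        rw [this]
        exact Finset.measurableSet_biInter _ fun i _ =>
          ((measurable_pi_apply i).comp hinn) (hB i)
      have hmask : ∀ (ω : (V → Bool) × (V × ℕ → I)),
          maskPast t e (obs ω.1 ω.2) ∈ S ↔
            ∀ i ∈ s.erase e, innov (inclOf ν) E (obs ω.1 ω.2) t i ∈ B i := by
        intro ω
        simp only [hSdef, Set.mem_ofPred_eq]
        refine forall₂_congr fun i hi => ?_
        rw [innov_maskPast (inclOf ν) E _ t
          (hmax i (Finset.mem_of_mem_erase hi) (Finset.ne_of_mem_erase hi))]
      have hset : {ω : (V → Bool) × (V × ℕ → I) |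
            ∀ i ∈ s, innov (inclOf ν) E (obs ω.1 ω.2) t i ∈ B i}
          = {ω | maskPast t e (obs ω.1 ω.2) ∈ S ∧
              innov (inclOf ν) E (obs ω.1 ω.2) t e ∈ B e} := by
        ext ω
        simp only [Set.mem_ofPred_eq]
        rw [hmask ω]
        constructor
        · intro h
          exact ⟨fun i hi => h i (Finset.mem_of_mem_erase hi), h e he⟩
        · rintro ⟨h1, h2⟩ i hi
          by_cases hie : i = e
          · subst hie; exact h2
          · exact h1 i (Finset.mem_erase.2 ⟨hie, hi⟩)
      have hset2 : {ω : (V → Bool) × (V × ℕ → I) | maskPast t e (obs ω.1 ω.2) ∈ S}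
          = {ω | ∀ i ∈ s.erase e, innov (inclOf ν) E (obs ω.1 ω.2) t i ∈ B i} := by
        ext ω
        exact hmask ω
      have hcard : (s.erase e).card = n := by
        rw [Finset.card_erase_of_mem he, hs]; rfl
      rw [hset, peel ν E hmono hex t e S hS (B e) (hB e), hset2, ih (s.erase e) hcard B hB,
        Finset.mul_prod_erase s (fun i => (volume : Measure I) (B i)) he]
  unfold noise
  refine Measure.eq_infinitePi _ fun s B hB => ?_
  rw [Measure.map_apply hΞ (MeasurableSet.pi s.countable_toSet fun i _ => hB i)]
  have : (fun ω : (V → Bool) × (V × ℕ → I) => innov (inclOf ν) E (obs ω.1 ω.2) t) ⁻¹'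
      (Set.pi (↑s) B) = {ω | ∀ i ∈ s, innov (inclOf ν) E (obs ω.1 ω.2) t i ∈ B i} := by
    ext ω; simp [Set.mem_pi]
  rw [this]
  exact key s.card s rfl B hB

end Law

end

end Crest.Agent.SL
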