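import Crest.Agent.S0255_Defs
import Crest.Agent.S0254_Noise

/-! ROW168: from one iid uniform array indexed by `V × (Fin 2 × ℕ)` to a pair of independent
`noise V` arrays. -/

set_option autoImplicit false

namespace Crest.Agent.SL

open MeasureTheory unitInterval Crest.ProbabilityR.Labels

noncomputable section

variable {V : Type*}

instance instProbNoise (V : Type*) : IsProbabilityMeasure (noise V) := by
  unfold noise; infer_instance

/-- the two arrays -/
def pairOf (w : V × (Fin 2 × ℕ) → I) : (V × ℕ → I) × (V × ℕ → I) :=
  (fun e => w (e.1, ((0 : Fin 2), e.2)), fun e => w (e.1, ((1 : Fin 2), e.2)))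

theorem measurable_pairOf : Measurable (pairOf (V := V)) := by
  unfold pairOf
  refine Measurable.prodMk ?_ ?_ <;>
  · rw [measurable_pi_iff]
    intro e
    exact measurable_pi_apply _

theorem map_pairOf :
    (labelMeasure (V × (Fin 2 × ℕ))).map pairOf = (noise V).prod (noise V) := by
  let e : Fin 2 × (V × ℕ) ≃ V × (Fin 2 × ℕ) :=
    { toFun := fun p => (p.2.1, (p.1, p.2.2))
      invFun := fun p => (p.2.1, (p.1, p.2.2))
      left_inv := fun _ => rfl
      right_inv := fun _ => rfl }
  have h1 := Crest.Agent.S0254Noise.map_reindex e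
  have h2 := Measure.infinitePi_map_curry
    (fun (_ : Fin 2) (_ : V × ℕ) => (volume : Measure I))
  have h3 := (measurePreserving_finTwoArrow (noise V)).map_eq
  have h4 : (Measure.infinitePi fun _ : Fin 2 => noise V) = Measure.pi fun _ : Fin 2 => noise V := by
    exact Measure.infinitePi_eq_pi _
  have hfun : (pairOf (V := V)) = (MeasurableEquiv.finTwoArrow) ∘
      ((MeasurableEquiv.curry (Fin 2) (V × ℕ) I) ∘ (fun u : V × (Fin 2 × ℕ) → I => u ∘ e)) := by
    funext w
    rfl
  have hm1 : Measurable (fun u : V × (Fin 2 × ℕ) → I => u ∘ e) := by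
    rw [measurable_pi_iff]
    intro p
    exact measurable_pi_apply _
  rw [hfun, ← Measure.map_map (MeasurableEquiv.measurable _)
    ((MeasurableEquiv.measurable _).comp hm1), ← Measure.map_map (MeasurableEquiv.measurable _) hm1,
    h1]
  unfold labelMeasure
  rw [h2]
  change Measure.map _ (Measure.infinitePi fun _ : Fin 2 => noise V) = _
  rw [h4, h3]

end

end Crest.Agent.SL
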