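import Crest.Agent.S0255_Meas
import Crest.Agent.S0255_Decode
import Crest.Agent.S0255_Fix
import Crest.Agent.S0255_InnovLaw
import Crest.Agent.S0255_Pair

/-! # ROW168, package A13: the main abstract theorem `map_Phi` (discrete stochastic localisation) -/

set_option autoImplicit false

namespace Crest.Agent.SL

open MeasureTheory unitInterval Filter Topology
open scoped Classical ENNReal

noncomputable section

variable {V : Type*}

attribute [local irreducible] Phi Psi PsiAux dec innov obs drift

theorem measurable_Phi [Countable V] (q : Finset V → ℝ) (E : V → ℕ → Finset V) :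
    Measurable (fun z : (V × ℕ → I) × (V × ℕ → I) => Phi q E z.1 z.2) := by
  have h := measurable_Phi_param (P := Unit) (V := V) (fun _ => q) (fun _ => measurable_const)
    (fun _ => E) (fun v n A => by
      by_cases hh : E v n = A
      · simp [hh]
      · simp [hh])
  have h2 : Measurable
    (fun z : (V × ℕ → I) × (V × ℕ → I) => (((), z) : Unit × (V × ℕ → I) × (V × ℕ → I))) :=
    measurable_const.prodMk measurable_id
  exact h.comp h2

/-- A13  MAIN ABSTRACT THEOREM -/
theorem map_Phi [Countable V] (ν : Measure (V → Bool)) [IsProbabilityMeasure ν]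
    (E : V → ℕ → Finset V) (hmono : ∀ v, Monotone (E v))
    (hex : ∀ v w, ∃ n, w ∈ E v n) (hLip : LipCond (inclOf ν)) :
    ((noise V).prod (noise V)).map (fun z => Phi (inclOf ν) E z.1 z.2) = ν := by
  have hΦ := measurable_Phi (inclOf ν) E
  ext S hS
  rw [Measure.map_apply hΦ hS, Measure.prod_apply_symm (hΦ hS)]
  have key : ∀ᵐ t ∂(noise V),
      (noise V) ((fun U => (U, t)) ⁻¹' ((fun z : (V × ℕ → I) × (V × ℕ → I) =>
        Phi (inclOf ν) E z.1 z.2) ⁻¹' S)) = ν S := by
    filter_upwards [ae_goodTimes (V := V)] with t ht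
    have hmi : Measurable (fun ω : (V → Bool) × (V × ℕ → I) =>
        innov (inclOf ν) E (obs ω.1 ω.2) t) :=
      (measurable_innov (inclOf ν) E).comp (measurable_obs.prodMk measurable_const)
    have hset : MeasurableSet ((fun U => (U, t)) ⁻¹' ((fun z : (V × ℕ → I) × (V × ℕ → I) =>
        Phi (inclOf ν) E z.1 z.2) ⁻¹' S)) :=
      (measurable_id.prodMk measurable_const) (hΦ hS)
    rw [← map_innov ν E hmono hex t ht, Measure.map_apply hmi hset]
    have h1 : (tru ν) ((fun ω : (V → Bool) × (V × ℕ → I) =>
        innov (inclOf ν) E (obs ω.1 ω.2) t) ⁻¹' ((fun U => (U, t)) ⁻¹'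
          ((fun z : (V × ℕ → I) × (V × ℕ → I) => Phi (inclOf ν) E z.1 z.2) ⁻¹' S)))
        = (tru ν) (Prod.fst ⁻¹' S) := by
      apply measure_congr
      filter_upwards [dec_obs ν] with ω hω
      apply propext
      show Phi (inclOf ν) E (innov (inclOf ν) E (obs ω.1 ω.2) t) t ∈ S ↔ ω.1 ∈ S
      unfold Phi
      rw [Psi_innov _ _ hLip, hω]
    rw [h1]
    have : (Prod.fst ⁻¹' S : Set ((V → Bool) × (V × ℕ → I))) = S ×ˢ Set.univ := by
      ext; simp
    rw [this, Measure.prod_prod, measure_univ, mul_one]
  rw [lintegral_congr_ae key]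
  simp

end

end Crest.Agent.SL
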