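import Crest.Agent.S0255_Defs

/-!
# ROW168, package A5: measurability of the discrete stochastic localisation maps

Everything is proved in a parametrised form: `Ω` is an arbitrary measurable space and all the data
(`q`, the exhaustion `E`, the arrays) depend measurably on `ω : Ω`.
-/

set_option autoImplicit false

namespace Crest.Agent.SL

open MeasureTheory unitInterval Filter Topology
open scoped Classical ENNReal

noncomputable section

variable {V : Type*}

namespace Meas

lemma measurable_clampI : Measurable clampI := by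
  unfold clampI
  exact continuous_projIcc.measurable

lemma measurable_ell' : Measurable ell := by
  unfold ell
  fun_prop

lemma measurable_FmI' : Measurable (fun p : ℝ × I => FmI p.1 p.2) := by
  unfold FmI Fm
  refine measurable_clampI.comp ?_
  fun_prop

lemma measurable_GmI' : Measurable (fun p : ℝ × I => GmI p.1 p.2) := by
  unfold GmI Gm
  refine measurable_clampI.comp ?_
  fun_prop

variable {Ω : Type*} [MeasurableSpace Ω]

lemma measurable_Zq (Q : Ω → Finset V → ℝ) (hQ : ∀ A, Measurable fun ω => Q ω A)
    (F : Finset V) (h : Ω → V → ℝ) (hh : ∀ w, Measurable fun ω => h ω w) :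
    Measurable fun ω => Zq (Q ω) F (h ω) := by
  unfold Zq
  refine Finset.measurable_sum _ fun A _ => ?_
  refine Measurable.mul ?_ (hQ A)
  refine Finset.measurable_prod _ fun w _ => ?_
  exact ((hh w).exp).sub_const 1

lemma measurable_Nq (Q : Ω → Finset V → ℝ) (hQ : ∀ A, Measurable fun ω => Q ω A)
    (F : Finset V) (h : Ω → V → ℝ) (hh : ∀ w, Measurable fun ω => h ω w) (v : V) :
    Measurable fun ω => Nq (Q ω) F (h ω) v := by
  unfold Nq
  refine Finset.measurable_sum _ fun A _ => ?_
  refine Measurable.mul ?_ (hQ _)
  refine Finset.measurable_prod _ fun w _ => ?_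
  exact ((hh w).exp).sub_const 1

lemma measurable_mq (Q : Ω → Finset V → ℝ) (hQ : ∀ A, Measurable fun ω => Q ω A)
    (F : Finset V) (h : Ω → V → ℝ) (hh : ∀ w, Measurable fun ω => h ω w) (v : V) :
    Measurable fun ω => mq (Q ω) F (h ω) v := by
  unfold mq
  exact measurable_const.max (measurable_const.min
    ((measurable_Nq Q hQ F h hh v).div (measurable_Zq Q hQ F h hh)))

/-- the window may depend (measurably) on the parameter too -/
lemma measurable_mq_var [Countable V] (Q : Ω → Finset V → ℝ) (hQ : ∀ A, Measurable fun ω => Q ω A)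
    (F : Ω → Finset V) (hF : ∀ A : Finset V, MeasurableSet {ω | F ω = A})
    (h : Ω → V → ℝ) (hh : ∀ w, Measurable fun ω => h ω w) (v : V) :
    Measurable fun ω => mq (Q ω) (F ω) (h ω) v := by
  intro s hs
  have : (fun ω => mq (Q ω) (F ω) (h ω) v) ⁻¹' s
      = ⋃ A : Finset V, ({ω | F ω = A} ∩ (fun ω => mq (Q ω) A (h ω) v) ⁻¹' s) := by
    ext ω
    simp only [Set.mem_preimage, Set.mem_iUnion, Set.mem_inter_iff, Set.mem_ofPred_eq]
    constructor
    · intro hω
      exact ⟨F ω, rfl, hω⟩
    · rintro ⟨A, rfl, hω⟩
      exact hω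
  rw [this]
  exact MeasurableSet.iUnion fun A => (hF A).inter (measurable_mq Q hQ A h hh v hs)

lemma measurable_field (x t : Ω → V × ℕ → I) (hx : ∀ e, Measurable fun ω => x ω e)
    (ht : ∀ e, Measurable fun ω => t ω e) (v : V) (k : ℕ) (w : V) :
    Measurable fun ω => field (x ω) (t ω) v k w := by
  unfold field
  refine Measurable.add ?_ ?_
  · refine Finset.measurable_sum _ fun j _ => ?_
    exact measurable_ell'.comp (measurable_subtype_coe.comp (hx (w, j)))
  · refine Measurable.ite (measurableSet_lt (ht _) (ht _)) ?_ measurable_const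
    exact measurable_ell'.comp (measurable_subtype_coe.comp (hx (w, k)))

lemma measurable_upd (x : Ω → V × ℕ → I) (hx : ∀ e, Measurable fun ω => x ω e) (k : ℕ)
    (y : Ω → V → I) (hy : ∀ v, Measurable fun ω => y ω v) (e : V × ℕ) :
    Measurable fun ω => upd (x ω) k (y ω) e := by
  unfold upd
  by_cases h : e.2 = k
  · simpa [h] using hy e.1
  · simpa [h] using hx e

section
variable [Countable V] (Q : Ω → Finset V → ℝ) (hQ : ∀ A, Measurable fun ω => Q ω A)
    (EE : Ω → V → ℕ → Finset V) (hE : ∀ v n (A : Finset V), MeasurableSet {ω | EE ω v n = A})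
include hQ hE

lemma measurable_drift_var (x t : Ω → V × ℕ → I) (hx : ∀ e, Measurable fun ω => x ω e)
    (ht : ∀ e, Measurable fun ω => t ω e) (v : V) (k : ℕ) :
    Measurable fun ω => drift (Q ω) (EE ω) (x ω) (t ω) v k := by
  unfold drift
  refine Measurable.limsup fun n => ?_
  exact measurable_mq_var Q hQ (fun ω => EE ω v n) (hE v n) _
    (fun w => measurable_field x t hx ht v k w) v

lemma measurable_passOp_var (U t x : Ω → V × ℕ → I) (hU : ∀ e, Measurable fun ω => U ω e)
    (ht : ∀ e, Measurable fun ω => t ω e) (hx : ∀ e, Measurable fun ω => x ω e) (k : ℕ)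
    (y : Ω → V → I) (hy : ∀ v, Measurable fun ω => y ω v) (v : V) :
    Measurable fun ω => passOp (Q ω) (EE ω) (U ω) (t ω) k (x ω) (y ω) v := by
  unfold passOp
  exact measurable_GmI'.comp
    ((measurable_drift_var Q hQ EE hE _ t (measurable_upd x hx k y hy) ht v k).prodMk
      (hU (v, k)))

lemma measurable_passIter_var (U t x : Ω → V × ℕ → I) (hU : ∀ e, Measurable fun ω => U ω e)
    (ht : ∀ e, Measurable fun ω => t ω e) (hx : ∀ e, Measurable fun ω => x ω e) (k : ℕ) (n : ℕ) :
    ∀ v : V, Measurable fun ω =>
      ((passOp (Q ω) (EE ω) (U ω) (t ω) k (x ω))^[n] (fun _ => 0)) v := by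
  induction n with
  | zero => intro v; simp
  | succ n ih =>
    intro v
    simp only [Function.iterate_succ_apply']
    exact measurable_passOp_var Q hQ EE hE U t x hU ht hx k _ ih v

lemma measurable_passFix_var (U t x : Ω → V × ℕ → I) (hU : ∀ e, Measurable fun ω => U ω e)
    (ht : ∀ e, Measurable fun ω => t ω e) (hx : ∀ e, Measurable fun ω => x ω e) (k : ℕ) (v : V) :
    Measurable fun ω => passFix (Q ω) (EE ω) (U ω) (t ω) k (x ω) v := by
  unfold passFix
  refine measurable_clampI.comp (Measurable.limsup fun n => ?_)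
  exact measurable_subtype_coe.comp (measurable_passIter_var Q hQ EE hE U t x hU ht hx k n v)

lemma measurable_PsiAux_var (U t : Ω → V × ℕ → I) (hU : ∀ e, Measurable fun ω => U ω e)
    (ht : ∀ e, Measurable fun ω => t ω e) (k : ℕ) :
    ∀ e : V × ℕ, Measurable fun ω => PsiAux (Q ω) (EE ω) (U ω) (t ω) k e := by
  induction k with
  | zero => intro e; simp [PsiAux]
  | succ k ih =>
    intro e
    simp only [PsiAux]
    exact measurable_upd _ ih k _
      (fun v => measurable_passFix_var Q hQ EE hE U t _ hU ht ih k v) e

lemma measurable_Psi_var (U t : Ω → V × ℕ → I) (hU : ∀ e, Measurable fun ω => U ω e)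
    (ht : ∀ e, Measurable fun ω => t ω e) (e : V × ℕ) :
    Measurable fun ω => Psi (Q ω) (EE ω) (U ω) (t ω) e := by
  unfold Psi
  exact measurable_PsiAux_var Q hQ EE hE U t hU ht (e.2 + 1) e

end

lemma measurable_dec_var (x : Ω → V × ℕ → I) (hx : ∀ e, Measurable fun ω => x ω e) (v : V) :
    Measurable fun ω => dec (x ω) v := by
  unfold dec
  refine measurable_to_bool ?_
  have hm : Measurable fun ω => Filter.limsup
      (fun K : ℕ => (∑ k ∈ Finset.range K, (2 * (x ω (v, k) : ℝ) - 1)) / K) Filter.atTop := by
    refine Measurable.limsup fun K => ?_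
    refine Measurable.div_const ?_ _
    refine Finset.measurable_sum _ fun k _ => ?_
    exact ((measurable_subtype_coe.comp (hx (v, k))).const_mul 2).sub_const 1
  have : (fun ω => decide (0 < Filter.limsup
      (fun K : ℕ => (∑ k ∈ Finset.range K, (2 * (x ω (v, k) : ℝ) - 1)) / K) Filter.atTop)) ⁻¹' {true}
      = {ω | 0 < Filter.limsup
      (fun K : ℕ => (∑ k ∈ Finset.range K, (2 * (x ω (v, k) : ℝ) - 1)) / K) Filter.atTop} := by
    ext ω; simp
  rw [this]
  exact measurableSet_lt measurable_const hm

end Meas

open Meas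

theorem measurable_drift [Countable V] (q : Finset V → ℝ) (E : V → ℕ → Finset V) (v : V) (k : ℕ) :
    Measurable (fun z : (V × ℕ → I) × (V × ℕ → I) => drift q E z.1 z.2 v k) := by
  have h := measurable_drift_var (Ω := (V × ℕ → I) × (V × ℕ → I)) (fun _ => q)
    (fun _ => measurable_const) (fun _ => E)
    (fun _ _ _ => MeasurableSet.const _) (fun z => z.1) (fun z => z.2)
    (fun e => (measurable_pi_apply e).comp measurable_fst)
    (fun e => (measurable_pi_apply e).comp measurable_snd) v k
  exact h

theorem measurable_innov [Countable V] (q : Finset V → ℝ) (E : V → ℕ → Finset V) :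
    Measurable (fun z : (V × ℕ → I) × (V × ℕ → I) => innov q E z.1 z.2) := by
  refine measurable_pi_lambda _ fun e => ?_
  unfold innov
  exact measurable_FmI'.comp ((measurable_drift q E e.1 e.2).prodMk
    ((measurable_pi_apply e).comp measurable_fst))

theorem measurable_dec [Countable V] : Measurable (dec : (V × ℕ → I) → V → Bool) := by
  refine measurable_pi_lambda _ fun v => ?_
  exact measurable_dec_var (fun x => x) (fun e => measurable_pi_apply e) v

theorem measurable_obs [Countable V] :
    Measurable (fun ω : (V → Bool) × (V × ℕ → I) => obs ω.1 ω.2) := by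
  refine measurable_pi_lambda _ fun e => ?_
  unfold obs
  refine measurable_GmI'.comp (Measurable.prodMk ?_ ((measurable_pi_apply e).comp measurable_snd))
  have : Measurable b2r := measurable_of_countable _
  exact this.comp ((measurable_pi_apply e.1).comp measurable_fst)

/-- joint measurability in a parameter -/
theorem measurable_Phi_param {P : Type*} [MeasurableSpace P] [Countable V]
    (q : P → Finset V → ℝ) (hq : ∀ A, Measurable fun p => q p A)
    (E : P → V → ℕ → Finset V) (hE : ∀ v n (A : Finset V), MeasurableSet {p | E p v n = A}) :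
    Measurable (fun z : P × (V × ℕ → I) × (V × ℕ → I) => Phi (q z.1) (E z.1) z.2.1 z.2.2) := by
  refine measurable_pi_lambda _ fun v => ?_
  unfold Phi
  refine measurable_dec_var _ (fun e => ?_) v
  exact measurable_Psi_var (fun z : P × (V × ℕ → I) × (V × ℕ → I) => q z.1)
    (fun A => (hq A).comp measurable_fst) (fun z => E z.1)
    (fun v n A => measurable_fst (hE v n A)) (fun z => z.2.1) (fun z => z.2.2)
    (fun e => (measurable_pi_apply e).comp (measurable_fst.comp measurable_snd))
    (fun e => (measurable_pi_apply e).comp (measurable_snd.comp measurable_snd)) e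

end

end Crest.Agent.SL
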