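import Crest.Agent.S0254_Defs
import Crest.Agent.S0254_BallFU
import Crest.Agent.S0254_QMeas
import Crest.Agent.S0254_MonoFU
import Crest.Agent.S0254_EdgeLaw
import Crest.Agent.S0255_Meas
import Crest.Agent.S0255_Equiv
import Crest.Agent.S0255_Fix
import Crest.Agent.S0255_Main
import Crest.Agent.S0254_EqQ
import Crest.Agent.S0254_Nu

/-!
# ROW168, S0254: assembly (the rule `PhiG`, its measurability, equivariance and law)
-/

set_option autoImplicit false

namespace Crest.Agent.FU

open MeasureTheory unitInterval Filter Topology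
open Crest.ProbabilityR.SpanningTrees Crest.ProbabilityR.GraphTables Crest.ProbabilityR.Labels
open Crest.Agent.S0254Edge
open scoped Classical ENNReal

noncomputable section

attribute [local irreducible] SL.Phi qG ballE edgeNoise

/-- first half of the edge noise -/
def nzU (G : SimpleGraph ℕ) (x : ℕ → I) : Sym2 ℕ × ℕ → I :=
  fun p => edgeNoise (Bool × ℕ) G x (p.1, (false, p.2))
/-- second half of the edge noise -/
def nzT (G : SimpleGraph ℕ) (x : ℕ → I) : Sym2 ℕ × ℕ → I :=
  fun p => edgeNoise (Bool × ℕ) G x (p.1, (true, p.2))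

/-- THE RULE. -/
def PhiG (G : SimpleGraph ℕ) (x : ℕ → I) : Sym2 ℕ → Bool :=
  SL.Phi (qG G) (ballE G) (nzU G x) (nzT G x)

/-! ### measurability -/
theorem measurable_PhiG :
    Measurable (fun p : (ℕ → ℕ → Bool) × (ℕ → I) => PhiG (graphOfTable p.1) p.2) := by
  have h := SL.measurable_Phi_param (V := Sym2 ℕ) (P := ℕ → ℕ → Bool)
    (fun T => qG (graphOfTable T)) (fun A => measurable_qG A)
    (fun T => ballE (graphOfTable T)) (fun e n A => measurableSet_ballE e n A)
  have hN := measurable_edgeNoise (Bool × ℕ)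
  have hU : Measurable (fun p : (ℕ → ℕ → Bool) × (ℕ → I) => nzU (graphOfTable p.1) p.2) :=
    measurable_pi_lambda _ fun q => (measurable_pi_apply _).comp hN
  have hT : Measurable (fun p : (ℕ → ℕ → Bool) × (ℕ → I) => nzT (graphOfTable p.1) p.2) :=
    measurable_pi_lambda _ fun q => (measurable_pi_apply _).comp hN
  exact h.comp (measurable_fst.prodMk (hU.prodMk hT))

/-! ### equivariance -/
theorem PhiG_comap (g : Equiv.Perm ℕ) (G : SimpleGraph ℕ) (x : ℕ → I) :
    PhiG (G.comap ⇑g) (x ∘ ⇑g) = PhiG G x ∘ Sym2.map ⇑g := by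
  have h := SL.Phi_equiv (sym2Equiv g) (qG G) (qG (G.comap g)) (ballE G) (ballE (G.comap g))
    (fun A => qG_comap g G A) (fun e n => ballE_comap g G e n) (nzU G x) (nzT G x)
  have hN := edgeNoise_comap (Bool × ℕ) g G x
  have hU : nzU (G.comap g) (x ∘ g) = fun e => nzU G x (sym2Equiv g e.1, e.2) := by
    funext p; simp only [nzU, hN]; rfl
  have hT : nzT (G.comap g) (x ∘ g) = fun e => nzT G x (sym2Equiv g e.1, e.2) := by
    funext p; simp only [nzT, hN]; rfl
  unfold PhiG
  rw [hU, hT, h]
  rfl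

/-! ### the law -/

theorem qG_support (G : SimpleGraph ℕ) (A : Finset (Sym2 ℕ))
    (hA : ¬ (↑A : Set (Sym2 ℕ)) ⊆ G.edgeSet) : qG G A = 0 := by
  unfold qG; rw [if_neg hA]

theorem law_PhiG (G : SimpleGraph ℕ) (hG : Good G) (F : Finset (Sym2 ℕ))
    (hF : (↑F : Set (Sym2 ℕ)) ⊆ G.edgeSet) :
    ((labelMeasure ℕ).map (PhiG G) {ω | ∀ e ∈ F, ω e = true}).toReal = qG G F := by
  obtain ⟨ν, hν, hq⟩ := exists_nuG G hG
  have hqq : SL.inclOf ν = qG G := funext hq
  have hmain := SL.map_Phi ν (ballE G) (ballE_mono G hG) (ballE_exhaust G hG)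
    (hqq ▸ lipCond_qG G hG)
  rw [hqq] at hmain
  have hmeasN : Measurable (fun x : ℕ → I => edgeNoise (Bool × ℕ) G x) := by
    have h := (measurable_edgeNoise (Bool × ℕ)).comp
      ((measurable_const (a := tableOf G)).prodMk (measurable_id (α := ℕ → I)))
    simpa [Function.comp_def, graphOfTable_tableOf] using h
  have hmU : Measurable (nzU G) := measurable_pi_lambda _ fun q => (measurable_pi_apply _).comp hmeasN
  have hmT : Measurable (nzT G) := measurable_pi_lambda _ fun q => (measurable_pi_apply _).comp hmeasN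
  have hmP : Measurable (PhiG G) :=
    (SL.Transfer.measurable_Phi' (qG G) (ballE G)).comp (hmU.prodMk hmT)
  have hloc := SL.Transfer.Phi_local_of (qG G) (ballE G) G.edgeSet
    (fun U U' t t' hU ht e he =>
      SL.Psi_local (qG G) (ballE G) (lipCond_qG G hG) G.edgeSet (qG_support G) hU ht e he)
  have htr := SL.Transfer.transfer_of ν (qG G) (ballE G) hmain G.edgeSet hloc (labelMeasure ℕ)
    (nzU G) (nzT G) hmU hmT (law_edge_bool G hG.2) F hF
  have hC : MeasurableSet {ω : Sym2 ℕ → Bool | ∀ e ∈ F, ω e = true} := by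
    have : {ω : Sym2 ℕ → Bool | ∀ e ∈ F, ω e = true} = ⋂ e ∈ F, {ω | ω e = true} := by
      ext ω; simp
    rw [this]
    exact Finset.measurableSet_biInter _ fun e _ =>
      measurableSet_eq_fun (measurable_pi_apply e) measurable_const
  rw [Measure.map_apply hmP hC, ← hq F]
  unfold SL.inclOf
  rw [← htr]
  rfl

end

end Crest.Agent.FU
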