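import Mathlib

/-! # S0254, package MT1 : an abstract Cauchy-Binet formula for `∑ e, w e • b e (b e)ᵀ` -/

set_option autoImplicit false
open Finset Matrix

namespace Crest.Agent.S0254MT

variable {R : Type*} [CommRing R] {n ε : Type*} [Fintype n] [DecidableEq n] [DecidableEq ε]

/-- the matrix with rows `b (f i)`. -/
def rowsOf (b : ε → n → R) (f : n → ε) : Matrix n n R := Matrix.of fun i j => b (f i) j

/-- the term of the assignment `f : rows → vectors`. -/
def cbTerm (b : ε → n → R) (f : n → ε) : R := (∏ i, b (f i) i) * (rowsOf b f).det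

/-- the coefficient of `∏ e ∈ A, w e` (for `A.card = card n`). -/
def cbCoef (b : ε → n → R) (A : Finset ε) : R := ∑ f ∈ Fintype.piFinset fun _ : n => A, cbTerm b f

omit [DecidableEq ε] in
lemma cbTerm_eq_zero_of_not_injective (b : ε → n → R) (f : n → ε) (hf : ¬ Function.Injective f) :
    cbTerm b f = 0 := by
  simp only [Function.Injective, not_forall] at hf
  obtain ⟨i, j, hij, hne⟩ := hf
  unfold cbTerm
  rw [Matrix.det_zero_of_row_eq hne (by funext k; simp [rowsOf, hij]), mul_zero]

omit [DecidableEq ε] in
/-- expansion by multilinearity in the rows. -/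
lemma det_sum_eq_sum_pi (E : Finset ε) (b : ε → n → R) (w : ε → R) :
    (∑ e ∈ E, w e • Matrix.vecMulVec (b e) (b e)).det
      = ∑ f ∈ Fintype.piFinset fun _ : n => E, (∏ i, w (f i)) * cbTerm b f := by
  have h1 : (∑ e ∈ E, w e • Matrix.vecMulVec (b e) (b e))
      = Matrix.of (fun i => ∑ e ∈ E, (w e * b e i) • b e) := by
    ext i j
    simp [Matrix.sum_apply, Matrix.vecMulVec_apply, Finset.sum_apply, mul_assoc]
  rw [h1]
  have h2 := (Matrix.detRowAlternating (R := R) (n := n)).toMultilinearMap.map_sum_finset
    (fun (i : n) (e : ε) => (w e * b e i) • b e) (fun _ => E)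
  have h3 : (Matrix.of (fun i => ∑ e ∈ E, (w e * b e i) • b e)).det
      = ∑ r ∈ Fintype.piFinset fun _ : n => E,
        (Matrix.detRowAlternating (R := R) (n := n)) (fun i => (w (r i) * b (r i) i) • b (r i)) :=
    h2
  rw [h3]
  refine Finset.sum_congr rfl (fun f _ => ?_)
  have h4 := (Matrix.detRowAlternating (R := R) (n := n)).toMultilinearMap.map_smul_univ
    (fun i => w (f i) * b (f i) i) (fun i => b (f i))
  have h5 : (Matrix.detRowAlternating (R := R) (n := n)) (fun i => (w (f i) * b (f i) i) • b (f i))
      = (∏ i, w (f i) * b (f i) i) • (Matrix.detRowAlternating (R := R) (n := n))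
        (fun i => b (f i)) := h4
  rw [h5, Finset.prod_mul_distrib, smul_eq_mul, mul_assoc]
  rfl

/-- **Cauchy-Binet** for `∑ e, w e • b e (b e)ᵀ`. -/
theorem det_sum_vecMulVec (E : Finset ε) (b : ε → n → R) (w : ε → R) :
    (∑ e ∈ E, w e • Matrix.vecMulVec (b e) (b e)).det
      = ∑ A ∈ E.powersetCard (Fintype.card n), (∏ e ∈ A, w e) * cbCoef b A := by
  classical
  rw [det_sum_eq_sum_pi]
  -- restrict to injective assignments
  have hinj : ∀ (A : Finset ε) (F : (n → ε) → R), (∀ f, ¬ Function.Injective f → F f = 0) →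
      ∑ f ∈ Fintype.piFinset fun _ : n => A, F f
        = ∑ f ∈ (Fintype.piFinset fun _ : n => A).filter Function.Injective, F f := by
    intro A F hF
    rw [Finset.sum_filter]
    refine Finset.sum_congr rfl (fun f _ => ?_)
    by_cases hf : Function.Injective f
    · rw [if_pos hf]
    · rw [if_neg hf, hF f hf]
  rw [hinj E _ (fun f hf => by rw [cbTerm_eq_zero_of_not_injective b f hf, mul_zero])]
  have hmaps : ∀ f ∈ (Fintype.piFinset fun _ : n => E).filter Function.Injective,
      univ.image f ∈ E.powersetCard (Fintype.card n) := by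
    intro f hf
    rw [mem_filter, Fintype.mem_piFinset] at hf
    rw [mem_powersetCard]
    refine ⟨?_, ?_⟩
    · intro e he
      obtain ⟨i, _, rfl⟩ := mem_image.1 he
      exact hf.1 i
    · rw [Finset.card_image_of_injective _ hf.2, Finset.card_univ]
  rw [← Finset.sum_fiberwise_of_maps_to hmaps]
  refine Finset.sum_congr rfl (fun A hA => ?_)
  rw [mem_powersetCard] at hA
  unfold cbCoef
  rw [hinj A _ (fun f hf => cbTerm_eq_zero_of_not_injective b f hf), Finset.mul_sum]
  have hset : ((Fintype.piFinset fun _ : n => E).filter Function.Injective).filter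
      (fun f => univ.image f = A)
      = (Fintype.piFinset fun _ : n => A).filter Function.Injective := by
    ext f
    simp only [mem_filter, Fintype.mem_piFinset]
    constructor
    · rintro ⟨⟨_, h2⟩, h3⟩
      exact ⟨fun i => h3 ▸ mem_image_of_mem f (mem_univ i), h2⟩
    · rintro ⟨h1, h2⟩
      refine ⟨⟨fun i => hA.1 (h1 i), h2⟩, ?_⟩
      apply Finset.eq_of_subset_of_card_le
      · intro e he
        obtain ⟨i, _, rfl⟩ := mem_image.1 he
        exact h1 i
      · rw [Finset.card_image_of_injective _ h2, Finset.card_univ, hA.2]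
  rw [hset]
  refine Finset.sum_congr rfl (fun f hf => ?_)
  rw [← hset, mem_filter, mem_filter] at hf
  obtain ⟨⟨_, h2⟩, h3⟩ := hf
  rw [← h3, Finset.prod_image (fun i _ j _ hij => h2 hij)]

/-- the coefficient is the square of a maximal minor. -/
theorem cbCoef_image (b : ε → n → R) (f : n → ε) (hf : Function.Injective f) :
    cbCoef b (univ.image f) = (rowsOf b f).det ^ 2 := by
  classical
  unfold cbCoef
  have h1 : ∑ g ∈ Fintype.piFinset fun _ : n => univ.image f, cbTerm b g
      = ∑ g ∈ (Fintype.piFinset fun _ : n => univ.image f).filter Function.Injective,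
        cbTerm b g := by
    rw [Finset.sum_filter]
    refine Finset.sum_congr rfl (fun g _ => ?_)
    by_cases hg : Function.Injective g
    · rw [if_pos hg]
    · rw [if_neg hg, cbTerm_eq_zero_of_not_injective b g hg]
  rw [h1]
  have h2 : ∑ g ∈ (Fintype.piFinset fun _ : n => univ.image f).filter Function.Injective,
      cbTerm b g = ∑ σ : Equiv.Perm n, cbTerm b (f ∘ σ) := by
    symm
    refine Finset.sum_bij (fun σ _ => f ∘ σ) ?_ ?_ ?_ (fun _ _ => rfl)
    · intro σ _
      rw [mem_filter, Fintype.mem_piFinset]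
      exact ⟨fun i => mem_image_of_mem f (mem_univ _), hf.comp σ.injective⟩
    · intro σ _ τ _ h
      ext i
      exact hf (congrFun h i)
    · intro g hg
      rw [mem_filter, Fintype.mem_piFinset] at hg
      have hex : ∀ i, ∃ j, f j = g i := by
        intro i
        obtain ⟨j, _, hj⟩ := mem_image.1 (hg.1 i)
        exact ⟨j, hj⟩
      choose s hs using hex
      have hsinj : Function.Injective s := by
        intro i j hij
        apply hg.2
        rw [← hs i, ← hs j, hij]
      refine ⟨Equiv.ofBijective s (Finite.injective_iff_bijective.1 hsinj), mem_univ _, ?_⟩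
      funext i
      exact hs i
  rw [h2]
  have h3 : ∀ σ : Equiv.Perm n, cbTerm b (f ∘ σ)
      = (rowsOf b f).det * ((Equiv.Perm.sign σ : ℤ) * ∏ i, rowsOf b f (σ i) i) := by
    intro σ
    unfold cbTerm
    have : rowsOf b (f ∘ σ) = (rowsOf b f).submatrix σ id := by
      ext i j; rfl
    rw [this, Matrix.det_permute]
    have : ∏ i, b ((f ∘ σ) i) i = ∏ i, rowsOf b f (σ i) i := rfl
    rw [this]
    ring
  rw [Finset.sum_congr rfl (fun σ _ => h3 σ), ← Finset.mul_sum, ← Matrix.det_apply', sq]

end Crest.Agent.S0254MT
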