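import Mathlib

/-!
# ROW 168 (S0254), package MT-CB+TU: pure matrix lemmas for the weighted matrix-tree theorem

* `det_sum_smul_vecMulVec` : Cauchy–Binet for `∑ k, z k • b k (b k)ᵀ`.
* `det_network` : a square integer matrix whose columns have entries in `{0,1,-1}`, at most one
  `1` and at most one `-1`, has determinant `0`, `1` or `-1`.
* `det_gram_network` : the Gram determinant of `card n` such columns is `0` or `1`.
-/

set_option autoImplicit false

namespace Crest.Agent.S0254MT

open Matrix Finset

section CB

set_option linter.unusedSectionVars false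

variable {n K R : Type*} [Fintype n] [DecidableEq n] [DecidableEq K] [CommRing R]

/-- the weight of a choice function in the Cauchy–Binet expansion -/
noncomputable def cbW (b : K → n → R) (p : n → K) : R :=
  (∏ i, b (p i) i) * (Matrix.of fun r c => b (p c) r).det

theorem cbW_eq_zero (b : K → n → R) (p : n → K) (hp : ¬ Function.Injective p) : cbW b p = 0 := by
  unfold cbW
  simp only [Function.Injective, not_forall] at hp
  obtain ⟨i, j, hij, hne⟩ := hp
  rw [Matrix.det_zero_of_column_eq hne, mul_zero]
  intro k
  simp [hij]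

theorem det_expand (s : Finset K) (b : K → n → R) (z : K → R) :
    (∑ k ∈ s, z k • Matrix.vecMulVec (b k) (b k)).det
      = ∑ p ∈ Fintype.piFinset (fun _ : n => s), (∏ i, z (p i)) * cbW b p := by
  have hentry : ∀ i j, (∑ k ∈ s, z k • Matrix.vecMulVec (b k) (b k)) i j
      = ∑ k ∈ s, z k * (b k i * b k j) := by
    intro i j
    rw [Matrix.sum_apply]
    simp [Matrix.vecMulVec_apply]
  rw [Matrix.det_apply']
  simp only [hentry, Finset.prod_univ_sum, Finset.mul_sum]
  rw [Finset.sum_comm]
  refine Finset.sum_congr rfl fun p _ => ?_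
  unfold cbW
  rw [Matrix.det_apply', Finset.mul_sum, Finset.mul_sum]
  refine Finset.sum_congr rfl fun σ _ => ?_
  simp only [Matrix.of_apply, Finset.prod_mul_distrib]
  ring

theorem det_sum_smul_vecMulVec (s : Finset K) (b : K → n → R) (z : K → R) :
    (∑ k ∈ s, z k • Matrix.vecMulVec (b k) (b k)).det
      = ∑ S ∈ s.powersetCard (Fintype.card n),
          (∏ k ∈ S, z k) * (∑ k ∈ S, Matrix.vecMulVec (b k) (b k)).det := by
  classical
  rw [det_expand]
  -- restrict to injective `p`
  have h1 : ∑ p ∈ Fintype.piFinset (fun _ : n => s), (∏ i, z (p i)) * cbW b p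
      = ∑ p ∈ (Fintype.piFinset (fun _ : n => s)).filter Function.Injective,
          (∏ i, z (p i)) * cbW b p := by
    rw [Finset.sum_filter]
    refine Finset.sum_congr rfl fun p _ => ?_
    split_ifs with h
    · rfl
    · rw [cbW_eq_zero b p h, mul_zero]
  rw [h1]
  have hmaps : ∀ p ∈ (Fintype.piFinset (fun _ : n => s)).filter Function.Injective,
      Finset.univ.image p ∈ s.powersetCard (Fintype.card n) := by
    intro p hp
    rw [Finset.mem_filter, Fintype.mem_piFinset] at hp
    rw [Finset.mem_powersetCard]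
    refine ⟨?_, ?_⟩
    · intro k hk
      rw [Finset.mem_image] at hk
      obtain ⟨i, _, rfl⟩ := hk
      exact hp.1 i
    · rw [Finset.card_image_of_injective _ hp.2, Finset.card_univ]
  rw [← Finset.sum_fiberwise_of_maps_to hmaps]
  refine Finset.sum_congr rfl fun S hS => ?_
  rw [Finset.mem_powersetCard] at hS
  have h2 : (∑ k ∈ S, Matrix.vecMulVec (b k) (b k)).det
      = ∑ p ∈ (Fintype.piFinset (fun _ : n => S)).filter Function.Injective, cbW b p := by
    have := det_expand S b (fun _ => (1 : R))
    simp only [one_smul, Finset.prod_const_one, one_mul] at this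
    rw [this, Finset.sum_filter]
    refine Finset.sum_congr rfl fun p _ => ?_
    split_ifs with h
    · rfl
    · exact cbW_eq_zero b p h
  rw [h2, Finset.mul_sum]
  have hset : ((Fintype.piFinset (fun _ : n => s)).filter Function.Injective).filter
        (fun p => Finset.univ.image p = S)
      = (Fintype.piFinset (fun _ : n => S)).filter Function.Injective := by
    ext p
    simp only [Finset.mem_filter, Fintype.mem_piFinset]
    constructor
    · rintro ⟨⟨_, hinj⟩, himg⟩
      refine ⟨fun i => ?_, hinj⟩
      rw [← himg]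
      exact Finset.mem_image_of_mem _ (Finset.mem_univ _)
    · rintro ⟨hmem, hinj⟩
      refine ⟨⟨fun i => hS.1 (hmem i), hinj⟩, ?_⟩
      apply Finset.eq_of_subset_of_card_le
      · intro k hk
        rw [Finset.mem_image] at hk
        obtain ⟨i, _, rfl⟩ := hk
        exact hmem i
      · rw [Finset.card_image_of_injective _ hinj, Finset.card_univ, hS.2]
  rw [hset]
  refine Finset.sum_congr rfl fun p hp => ?_
  rw [Finset.mem_filter, Fintype.mem_piFinset] at hp
  have himg : Finset.univ.image p = S := by
    apply Finset.eq_of_subset_of_card_le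
    · intro k hk
      rw [Finset.mem_image] at hk
      obtain ⟨i, _, rfl⟩ := hk
      exact hp.1 i
    · rw [Finset.card_image_of_injective _ hp.2, Finset.card_univ, hS.2]
  rw [← himg, Finset.prod_image (fun i _ j _ h => hp.2 h)]

end CB

section TU

set_option linter.unusedSectionVars false

/-- a "network column": entries in `{0,1,-1}`, at most one `1`, at most one `-1`. -/
def NetCol {m : Type*} (c : m → ℤ) : Prop :=
  (∀ i, c i = 0 ∨ c i = 1 ∨ c i = -1) ∧ (∀ i j, c i = 1 → c j = 1 → i = j) ∧
    (∀ i j, c i = -1 → c j = -1 → i = j)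

theorem NetCol.comp {m m' : Type*} {c : m → ℤ} (h : NetCol c) {f : m' → m}
    (hf : Function.Injective f) : NetCol (c ∘ f) :=
  ⟨fun i => h.1 (f i), fun _ _ hi hj => hf (h.2.1 _ _ hi hj), fun _ _ hi hj => hf (h.2.2 _ _ hi hj)⟩

theorem netCol_single {m : Type*} [DecidableEq m] (u : m) : NetCol (Pi.single u (1 : ℤ)) := by
  refine ⟨fun i => ?_, fun i j hi hj => ?_, fun i j hi hj => ?_⟩
  · by_cases h : i = u
    · subst h; simp
    · simp [h]
  · by_cases h : i = u <;> by_cases h' : j = u <;> simp_all
  · by_cases h : i = u <;> simp_all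

theorem netCol_single_sub_single {m : Type*} [DecidableEq m] (u v : m) :
    NetCol (Pi.single u (1 : ℤ) - Pi.single v (1 : ℤ)) := by
  refine ⟨fun i => ?_, fun i j hi hj => ?_, fun i j hi hj => ?_⟩
  · simp only [Pi.sub_apply, Pi.single_apply]
    split_ifs <;> norm_num
  · simp only [Pi.sub_apply, Pi.single_apply] at hi hj
    by_cases h1 : i = u <;> by_cases h2 : i = v <;> by_cases h3 : j = u <;> by_cases h4 : j = v <;>
      simp_all
  · simp only [Pi.sub_apply, Pi.single_apply] at hi hj
    by_cases h1 : i = u <;> by_cases h2 : i = v <;> by_cases h3 : j = u <;> by_cases h4 : j = v <;>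
      simp_all

/-- A network column with nonzero sum has exactly one nonzero entry. -/
theorem NetCol.exists_unique_of_sum_ne {m : Type*} [Fintype m] {c : m → ℤ} (h : NetCol c)
    (hs : ∑ i, c i ≠ 0) : ∃ i0, (c i0 = 1 ∨ c i0 = -1) ∧ ∀ i, i ≠ i0 → c i = 0 := by
  classical
  by_cases hp : ∃ i, c i = 1
  · obtain ⟨i, hi⟩ := hp
    by_cases hn : ∃ j, c j = -1
    · obtain ⟨j, hj⟩ := hn
      exfalso
      apply hs
      have hc : ∀ k, c k = (if k = i then 1 else 0) - (if k = j then 1 else 0) := by
        intro k
        have hij : i ≠ j := by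
          rintro rfl
          rw [hi] at hj
          norm_num at hj
        rcases h.1 k with h0 | h1 | h1
        · have hki : k ≠ i := by rintro rfl; rw [hi] at h0; norm_num at h0
          have hkj : k ≠ j := by rintro rfl; rw [hj] at h0; norm_num at h0
          simp [h0, hki, hkj]
        · have hki : k = i := h.2.1 _ _ h1 hi
          subst hki
          simp [h1, hij]
        · have hkj : k = j := h.2.2 _ _ h1 hj
          subst hkj
          simp [h1, hij.symm]
      simp only [hc, Finset.sum_sub_distrib, Finset.sum_ite_eq', Finset.mem_univ, if_true, sub_self]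
    · refine ⟨i, Or.inl hi, fun k hk => ?_⟩
      rcases h.1 k with h0 | h1 | h1
      · exact h0
      · exact absurd (h.2.1 _ _ h1 hi) hk
      · exact absurd ⟨k, h1⟩ hn
  · by_cases hn : ∃ j, c j = -1
    · obtain ⟨j, hj⟩ := hn
      refine ⟨j, Or.inr hj, fun k hk => ?_⟩
      rcases h.1 k with h0 | h1 | h1
      · exact h0
      · exact absurd ⟨k, h1⟩ hp
      · exact absurd (h.2.2 _ _ h1 hj) hk
    · exfalso
      apply hs
      apply Finset.sum_eq_zero
      intro k _
      rcases h.1 k with h0 | h1 | h1
      · exact h0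
      · exact absurd ⟨k, h1⟩ hp
      · exact absurd ⟨k, h1⟩ hn

theorem det_network_fin : ∀ (N : ℕ) (A : Matrix (Fin N) (Fin N) ℤ),
    (∀ j, NetCol (fun i => A i j)) → A.det = 0 ∨ A.det = 1 ∨ A.det = -1 := by
  intro N
  induction N with
  | zero => intro A _; right; left; simp
  | succ N ih =>
    intro A hA
    by_cases hall : ∀ j, ∑ i, A i j = 0
    · left
      rw [← Matrix.exists_vecMul_eq_zero_iff]
      refine ⟨fun _ => 1, ?_, ?_⟩
      · intro h
        have := congrFun h 0
        simp at this
      · ext j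
        simp [Matrix.vecMul, dotProduct, hall j]
    · simp only [not_forall] at hall
      obtain ⟨j, hj⟩ := hall
      obtain ⟨i0, hi0, hz⟩ := (hA j).exists_unique_of_sum_ne hj
      have hdet : A.det = (-1) ^ ((i0 : ℕ) + (j : ℕ)) * A i0 j *
          (A.submatrix i0.succAbove j.succAbove).det := by
        rw [Matrix.det_succ_column A j]
        apply Finset.sum_eq_single i0
        · intro i _ hi
          rw [hz i hi]
          simp
        · intro h
          exact absurd (Finset.mem_univ _) h
      have hminor := ih (A.submatrix i0.succAbove j.succAbove) (fun j' =>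
        (hA (j.succAbove j')).comp (Fin.succAbove_right_injective))
      have hsign : ((-1 : ℤ) ^ ((i0 : ℕ) + (j : ℕ)) = 1) ∨ ((-1 : ℤ) ^ ((i0 : ℕ) + (j : ℕ)) = -1) :=
        neg_one_pow_eq_or ℤ _
      rw [hdet]
      rcases hsign with hs | hs <;> rcases hi0 with h1 | h1 <;>
        rcases hminor with hm | hm | hm <;> rw [hs, h1, hm] <;> norm_num

variable {n K : Type*} [Fintype n] [DecidableEq n] [DecidableEq K]

theorem det_netCol (A : Matrix n n ℤ) (h : ∀ j, NetCol (fun i => A i j)) :
    A.det = 0 ∨ A.det = 1 ∨ A.det = -1 := by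
  have e := Fintype.equivFin n
  rw [← Matrix.det_submatrix_equiv_self e.symm A]
  apply det_network_fin
  intro j
  exact (h (e.symm j)).comp e.symm.injective

theorem det_network (A : Matrix n n ℤ)
    (h : ∀ j, (∃ u v, u ≠ v ∧ (fun i => A i j) = Pi.single u 1 - Pi.single v 1) ∨
      (∃ u, (fun i => A i j) = Pi.single u 1)) :
    A.det = 0 ∨ A.det = 1 ∨ A.det = -1 := by
  apply det_netCol
  intro j
  rcases h j with ⟨u, v, _, huv⟩ | ⟨u, hu⟩
  · rw [huv]; exact netCol_single_sub_single u v
  · rw [hu]; exact netCol_single u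

theorem det_gram_netCol (S : Finset K) (hS : S.card = Fintype.card n) (b : K → n → ℤ)
    (hb : ∀ k ∈ S, NetCol (b k)) :
    (∑ k ∈ S, Matrix.vecMulVec (b k) (b k)).det = 0 ∨
      (∑ k ∈ S, Matrix.vecMulVec (b k) (b k)).det = 1 := by
  classical
  have hcard : Fintype.card n = Fintype.card S := by rw [Fintype.card_coe, hS]
  let φ : n ≃ S := Fintype.equivOfCardEq hcard
  let C : Matrix n n ℤ := Matrix.of fun i j => b (φ j) i
  have hM : (∑ k ∈ S, Matrix.vecMulVec (b k) (b k)) = C * Cᵀ := by
    ext i j
    rw [Matrix.sum_apply, Matrix.mul_apply]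
    simp only [Matrix.vecMulVec_apply, Matrix.transpose_apply, C, Matrix.of_apply]
    rw [← Finset.sum_coe_sort S (fun k => b k i * b k j)]
    exact (Equiv.sum_comp φ (fun k : S => b k i * b k j)).symm
  rw [hM, Matrix.det_mul, Matrix.det_transpose]
  have hC := det_netCol C (fun j => hb (φ j) (φ j).2)
  rcases hC with h | h | h <;> rw [h] <;> norm_num

theorem det_gram_network (S : Finset K) (hS : S.card = Fintype.card n) (b : K → n → ℤ)
    (hb : ∀ k ∈ S, (∃ u v, u ≠ v ∧ b k = Pi.single u 1 - Pi.single v 1) ∨
      (∃ u, b k = Pi.single u 1)) :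
    (∑ k ∈ S, Matrix.vecMulVec (b k) (b k)).det = 0 ∨
      (∑ k ∈ S, Matrix.vecMulVec (b k) (b k)).det = 1 := by
  apply det_gram_netCol S hS b
  intro k hk
  rcases hb k hk with ⟨u, v, _, huv⟩ | ⟨u, hu⟩
  · rw [huv]; exact netCol_single_sub_single u v
  · rw [hu]; exact netCol_single u

end TU

end Crest.Agent.S0254MT
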