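import Mathlib

/-!
# ROW 168 (S0254), package MT-det : the directed matrix-tree theorem

`det (reduced Laplacian) = ∑ over rooted parent functions g of ∏ c v (g v)`, and non-vanishing of
the determinant for weights in the upper half plane.
-/

set_option autoImplicit false
set_option linter.unusedSectionVars false
open Finset Matrix

namespace Crest.Agent.S0254MTB

variable {V : Type*} [Fintype V] [DecidableEq V] {K : Type*} [Field K]

/-- the non-root vertices. -/
abbrev NR (r : V) : Type _ := {v : V // v ≠ r}

/-- extension of a parent function to the root (`r ↦ r`). -/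
def ext (r : V) (g : NR r → V) : V → V :=
  fun v => if h : v = r then r else g ⟨v, h⟩

/-- every vertex reaches the root. -/
def Rooted (r : V) (g : NR r → V) : Prop := ∀ v, ∃ k : ℕ, (ext r g)^[k] v = r

/-- the reduced Laplacian of the weights `c`. -/
def redLap (r : V) (c : V → V → K) : Matrix (NR r) (NR r) K :=
  fun u v => (if u = v then ∑ x, c u.1 x else 0) - c u.1 v.1

/-- the matrix `1 - P_g`. -/
def oneSub (K : Type*) [Field K] (r : V) (g : NR r → V) : Matrix (NR r) (NR r) K :=
  fun u v => (if u = v then 1 else 0) - (if g u = v.1 then 1 else 0)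

lemma ext_root (r : V) (g : NR r → V) : ext r g r = r := by simp [ext]

lemma ext_of_ne (r : V) (g : NR r → V) (u : NR r) : ext r g u.1 = g u := by
  simp [ext, u.2]

/-- row expansion of the determinant. -/
lemma det_redLap_expand (r : V) (c : V → V → K) :
    (redLap r c).det = ∑ g : NR r → V, (∏ u : NR r, c u.1 (g u)) * (oneSub K r g).det := by
  have h1 : redLap r c = fun u : NR r => ∑ x : V, c u.1 x •
      (fun v : NR r => (if u = v then (1 : K) else 0) - (if x = v.1 then 1 else 0)) := by
    funext u v
    simp only [redLap, Finset.sum_apply, Pi.smul_apply, smul_eq_mul, mul_sub, mul_ite, mul_one,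
      mul_zero, Finset.sum_sub_distrib, Finset.sum_ite_eq', Finset.mem_univ, if_true]
    congr 1
    by_cases h : u = v
    · simp [h]
    · simp [h]
  have h2 := (Matrix.detRowAlternating (n := NR r) (R := K)).toMultilinearMap.map_sum
    (fun (u : NR r) (x : V) => c u.1 x •
      (fun v : NR r => (if u = v then (1 : K) else 0) - (if x = v.1 then 1 else 0)))
  rw [h1]
  refine h2.trans (Finset.sum_congr rfl (fun g _ => ?_))
  have h3 := (Matrix.detRowAlternating (n := NR r) (R := K)).toMultilinearMap.map_smul_univ
    (fun u : NR r => c u.1 (g u))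
    (fun (u : NR r) (v : NR r) =>
      (if u = v then (1 : K) else 0) - (if g u = v.1 then 1 else 0))
  exact h3

/-- `(1 - P_g) x = X - X ∘ g` for a vector `X` on `V` vanishing at the root. -/
lemma oneSub_mulVec (r : V) (g : NR r → V) (X : V → K) (hX : X r = 0) (u : NR r) :
    ((oneSub K r g) *ᵥ (fun v : NR r => X v.1)) u = X u.1 - X (g u) := by
  simp only [Matrix.mulVec, dotProduct, oneSub, sub_mul, ite_mul, one_mul, zero_mul,
    Finset.sum_sub_distrib, Finset.sum_ite_eq, Finset.mem_univ, if_true]
  congr 1
  by_cases h : g u = r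
  · rw [h, hX]
    refine Finset.sum_eq_zero (fun v _ => ?_)
    rw [if_neg (fun h' => v.2 h'.symm)]
  · rw [Finset.sum_eq_single (⟨g u, h⟩ : NR r)]
    · simp
    · intro v _ hv
      rw [if_neg]
      intro h'
      exact hv (Subtype.ext h'.symm)
    · intro h'
      exact absurd (Finset.mem_univ _) h'

lemma det_oneSub_of_not_rooted (r : V) (g : NR r → V) (h : ¬ Rooted r g) :
    (oneSub K r g).det = 0 := by
  classical
  unfold Rooted at h
  push Not at h
  obtain ⟨v0, hv0⟩ := h
  let X : V → K := fun v => if ∀ k : ℕ, (ext r g)^[k] v ≠ r then 1 else 0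
  have hXr : X r = 0 := by
    show (if ∀ k : ℕ, (ext r g)^[k] r ≠ r then (1 : K) else 0) = 0
    rw [if_neg]
    intro h
    exact h 0 rfl
  have hv0r : v0 ≠ r := hv0 0
  rw [← Matrix.exists_mulVec_eq_zero_iff]
  refine ⟨fun v : NR r => X v.1, ?_, ?_⟩
  · intro h0
    have := congrFun h0 ⟨v0, hv0r⟩
    have h1 : X v0 = 1 := if_pos hv0
    simp only [Pi.zero_apply] at this
    rw [h1] at this
    exact one_ne_zero this
  · funext u
    rw [oneSub_mulVec r g X hXr u]
    have hiff : (∀ k : ℕ, (ext r g)^[k] u.1 ≠ r) ↔ (∀ k : ℕ, (ext r g)^[k] (g u) ≠ r) := by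
      constructor
      · intro h k
        have := h (k + 1)
        rwa [Function.iterate_succ_apply, ext_of_ne] at this
      · intro h k
        cases k with
        | zero => exact u.2
        | succ k =>
          rw [Function.iterate_succ_apply, ext_of_ne]
          exact h k
    show (if ∀ k : ℕ, (ext r g)^[k] u.1 ≠ r then (1 : K) else 0)
      - (if ∀ k : ℕ, (ext r g)^[k] (g u) ≠ r then (1 : K) else 0) = 0
    simp only [hiff, sub_self]

open Classical in
/-- depth of a vertex. -/
noncomputable def depth {r : V} {g : NR r → V} (h : Rooted r g) (v : V) : ℕ := Nat.find (h v)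

lemma depth_lt {r : V} {g : NR r → V} (h : Rooted r g) (u : NR r) :
    depth h (g u) < depth h u.1 := by
  classical
  have h1 : (ext r g)^[depth h u.1] u.1 = r := Nat.find_spec (h u.1)
  cases hd : depth h u.1 with
  | zero =>
    rw [hd] at h1
    exact absurd h1 u.2
  | succ m =>
    rw [hd, Function.iterate_succ_apply, ext_of_ne] at h1
    exact Nat.lt_succ_of_le (Nat.find_min' (h (g u)) h1)

lemma depth_root {r : V} {g : NR r → V} (h : Rooted r g) : depth h r = 0 := by
  classical
  exact (Nat.find_eq_zero (h r)).2 rfl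

lemma det_oneSub_of_rooted (r : V) (g : NR r → V) (h : Rooted r g) :
    (oneSub K r g).det = 1 := by
  classical
  have hT : (oneSub K r g).BlockTriangular (fun u : NR r => OrderDual.toDual (depth h u.1)) := by
    intro i j hij
    have hij' : depth h i.1 < depth h j.1 := hij
    have h1 : i ≠ j := by
      rintro rfl
      exact lt_irrefl _ hij'
    have h2 : g i ≠ j.1 := by
      intro h2
      have := depth_lt h i
      rw [h2] at this
      exact lt_asymm this hij'
    simp [oneSub, h1, h2]
  rw [hT.det]
  refine Finset.prod_eq_one (fun a _ => ?_)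
  have : (oneSub K r g).toSquareBlock (fun u : NR r => OrderDual.toDual (depth h u.1)) a = 1 := by
    ext ⟨i, hi⟩ ⟨j, hj⟩
    have h2 : g i ≠ j.1 := by
      intro h2
      have h3 := depth_lt h i
      rw [h2] at h3
      have h4 : depth h i.1 = depth h j.1 := by
        have := hi.trans hj.symm
        exact OrderDual.toDual.injective this
      omega
    simp only [Matrix.toSquareBlock_def, Matrix.of_apply, oneSub, h2, if_false, sub_zero,
      Matrix.one_apply, Subtype.mk.injEq]
  rw [this, Matrix.det_one]

open Classical in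
/-- **Directed matrix-tree theorem.** -/
theorem det_redLap_eq_sum_rooted (r : V) (c : V → V → K) :
    (redLap r c).det = ∑ g : NR r → V, if Rooted r g then ∏ u : NR r, c u.1 (g u) else 0 := by
  rw [det_redLap_expand]
  refine Finset.sum_congr rfl (fun g _ => ?_)
  by_cases h : Rooted r g
  · rw [if_pos h, det_oneSub_of_rooted r g h, mul_one]
  · rw [if_neg h, det_oneSub_of_not_rooted r g h, mul_zero]

/-! ### non-vanishing in the upper half plane -/

lemma const_of_adj (H : SimpleGraph V) (hH : H.Connected) {β : Type*} (X : V → β)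
    (h : ∀ u v, H.Adj u v → X u = X v) (u v : V) : X u = X v := by
  obtain ⟨p⟩ := hH.preconnected u v
  induction p with
  | nil => rfl
  | cons hadj _ ih => exact (h _ _ hadj).trans ih

/-- the reduced Laplacian applied to (the restriction of) a vector vanishing at the root. -/
lemma redLap_mulVec (r : V) (c : V → V → K) (X : V → K) (hX : X r = 0) (u : NR r) :
    ((redLap r c) *ᵥ (fun v : NR r => X v.1)) u = ∑ w, c u.1 w * (X u.1 - X w) := by
  have h1 : ∑ w, c u.1 w * X w = ∑ v : NR r, c u.1 v.1 * X v.1 := by
    rw [Fintype.sum_eq_add_sum_subtype_ne (fun w => c u.1 w * X w) r, hX, mul_zero, zero_add]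
  simp only [Matrix.mulVec, dotProduct, redLap, sub_mul, ite_mul, zero_mul,
    Finset.sum_sub_distrib, Finset.sum_ite_eq, Finset.mem_univ, if_true, mul_sub]
  rw [h1, Finset.sum_mul]

theorem redLap_det_ne_zero (r : V) (c : V → V → ℂ) (hsymm : ∀ u v, c u v = c v u)
    (him : ∀ u v, 0 ≤ (c u v).im) (H : SimpleGraph V) (hH : H.Connected)
    (hadj : ∀ u v, H.Adj u v → 0 < (c u v).im) : (redLap r c).det ≠ 0 := by
  intro hdet
  obtain ⟨x, hx0, hx⟩ := Matrix.exists_mulVec_eq_zero_iff.2 hdet
  let X : V → ℂ := fun v => if h : v = r then 0 else x ⟨v, h⟩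
  have hXr : X r = 0 := by simp [X]
  have hXv : ∀ v : NR r, X v.1 = x v := by
    intro v
    simp [X, v.2]
  have hxX : x = fun v : NR r => X v.1 := by
    funext v
    exact (hXv v).symm
  have heq : ∀ u : V, (starRingEnd ℂ) (X u) * ∑ w, c u w * (X u - X w) = 0 := by
    intro u
    by_cases hu : u = r
    · rw [hu, hXr]
      simp
    · have h1 := redLap_mulVec r c X hXr ⟨u, hu⟩
      rw [← hxX, hx] at h1
      simp only [Pi.zero_apply] at h1
      rw [← h1, mul_zero]
  have hQ : ∑ u, ∑ w, (starRingEnd ℂ) (X u) * (c u w * (X u - X w)) = 0 := by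
    refine Finset.sum_eq_zero (fun u _ => ?_)
    rw [← Finset.mul_sum]
    exact heq u
  have hQ' : ∑ u, ∑ w, (starRingEnd ℂ) (X w) * (c u w * (X w - X u)) = 0 := by
    rw [Finset.sum_comm]
    rw [← hQ]
    refine Finset.sum_congr rfl (fun u _ => Finset.sum_congr rfl (fun w _ => ?_))
    rw [hsymm w u]
  have hsum : ∑ u, ∑ w, c u w * ((Complex.normSq (X u - X w) : ℝ) : ℂ) = 0 := by
    have : ∑ u, ∑ w, c u w * ((Complex.normSq (X u - X w) : ℝ) : ℂ)
        = ∑ u, ∑ w, (starRingEnd ℂ) (X u) * (c u w * (X u - X w))
          + ∑ u, ∑ w, (starRingEnd ℂ) (X w) * (c u w * (X w - X u)) := by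
      rw [← Finset.sum_add_distrib]
      refine Finset.sum_congr rfl (fun u _ => ?_)
      rw [← Finset.sum_add_distrib]
      refine Finset.sum_congr rfl (fun w _ => ?_)
      rw [Complex.normSq_eq_conj_mul_self, map_sub]
      ring
    rw [this, hQ, hQ', add_zero]
  have him0 : ∑ u, ∑ w, (c u w).im * Complex.normSq (X u - X w) = 0 := by
    have := congrArg Complex.im hsum
    simpa [Complex.im_sum, Complex.mul_im] using this
  have hterm : ∀ u w, (c u w).im * Complex.normSq (X u - X w) = 0 := by
    intro u w
    have h1 := (Finset.sum_eq_zero_iff_of_nonneg (fun u _ => Finset.sum_nonneg (fun w _ =>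
      mul_nonneg (him u w) (Complex.normSq_nonneg _)))).1 him0 u (Finset.mem_univ u)
    exact (Finset.sum_eq_zero_iff_of_nonneg (fun w _ =>
      mul_nonneg (him u w) (Complex.normSq_nonneg _))).1 h1 w (Finset.mem_univ w)
  have hconst : ∀ u v, H.Adj u v → X u = X v := by
    intro u v huv
    have h1 := hterm u v
    rcases mul_eq_zero.1 h1 with h2 | h2
    · exact absurd h2 (hadj u v huv).ne'
    · exact sub_eq_zero.1 (Complex.normSq_eq_zero.1 h2)
  apply hx0
  funext v
  rw [← hXv v, const_of_adj H hH X hconst v.1 r, hXr]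
  rfl

end Crest.Agent.S0254MTB
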