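import Crest.Agent.S0254_MTdet
import Crest.Prelude.Def_SpanningTrees

/-!
# ROW 168 (S0254), package MT : the matrix-tree theorem for the Prelude notion `IsSpanningTreeOn`
-/

set_option autoImplicit false
set_option linter.unusedSectionVars false
open Finset
open Crest.ProbabilityR.SpanningTrees

namespace Crest.Agent.S0254MTB

variable {W : Type*} [DecidableEq W]

/-- the vertex type of the piece. -/
abbrev PV (S : Finset W) : Type _ := ((S : Set W) : Type _)

/-- the graph on the piece `S` with edge set `A`. -/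
abbrev HA (S : Finset W) (A : Finset (Sym2 W)) : SimpleGraph (PV S) :=
  (SimpleGraph.fromEdgeSet (A : Set (Sym2 W))).induce (S : Set W)

lemma HA_adj {S : Finset W} {A : Finset (Sym2 W)} {u v : PV S} :
    (HA S A).Adj u v ↔ s(u.1, v.1) ∈ A ∧ u.1 ≠ v.1 := by
  simp [HA]

lemma mem_edgesIn {G : SimpleGraph W} {S : Finset W} {a b : W} :
    s(a, b) ∈ edgesIn G S ↔ a ∈ S ∧ b ∈ S ∧ G.Adj a b := by
  classical
  unfold edgesIn
  simp only [mem_filter, Finset.mk_mem_sym2_iff, SimpleGraph.mem_edgeSet]
  tauto

/-- number of edges of `HA S A`. -/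
lemma card_edgeSet_HA {G : SimpleGraph W} {S : Finset W} {A : Finset (Sym2 W)}
    (hA : A ⊆ edgesIn G S) : Nat.card (HA S A).edgeSet = A.card := by
  have himg : (Sym2.map (Subtype.val : PV S → W)) '' (HA S A).edgeSet = (A : Set (Sym2 W)) := by
    ext e
    constructor
    · rintro ⟨e', he', rfl⟩
      induction e' using Sym2.ind with
      | _ u v =>
        rw [SimpleGraph.mem_edgeSet, HA_adj] at he'
        simpa using he'.1
    · intro he
      induction e using Sym2.ind with
      | _ a b =>
        have h1 := mem_edgesIn.1 (hA he)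
        refine ⟨s(⟨a, h1.1⟩, ⟨b, h1.2.1⟩), ?_, rfl⟩
        rw [SimpleGraph.mem_edgeSet, HA_adj]
        exact ⟨he, h1.2.2.ne⟩
  have hinj : Function.Injective (Sym2.map (Subtype.val : PV S → W)) :=
    Sym2.map.injective Subtype.val_injective
  rw [Nat.card_coe_set_eq, ← Set.ncard_image_of_injective _ hinj, himg, Set.ncard_coe_finset]

/-- the edge from `u` to its parent. -/
def pEdge {S : Finset W} {r : PV S} (g : NR r → PV S) (u : NR r) : Sym2 W := s(u.1.1, (g u).1)

/-- the edge set of a parent function. -/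
def edgeSetOf {S : Finset W} {r : PV S} (g : NR r → PV S) : Finset (Sym2 W) :=
  univ.image (pEdge g)

/-- (b1) -/
lemma pEdge_injective {S : Finset W} {r : PV S} {g : NR r → PV S} (h : Rooted r g) :
    Function.Injective (pEdge g) := by
  intro u v huv
  simp only [pEdge, Sym2.eq_iff] at huv
  rcases huv with ⟨h1, _⟩ | ⟨h1, h2⟩
  · exact Subtype.ext (Subtype.ext h1)
  · exfalso
    have e1 : u.1 = g v := Subtype.ext h1
    have e2 : g u = v.1 := Subtype.ext h2
    have d1 := depth_lt h u
    have d2 := depth_lt h v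
    rw [e2] at d1
    rw [← e1] at d2
    exact lt_asymm d1 d2

lemma card_edgeSetOf {S : Finset W} {r : PV S} {g : NR r → PV S} (h : Rooted r g) :
    (edgeSetOf g).card + 1 = Fintype.card (PV S) := by
  rw [edgeSetOf, Finset.card_image_of_injective _ (pEdge_injective h), Finset.card_univ,
    Fintype.card_subtype_compl, Fintype.card_subtype_eq]
  have : 0 < Fintype.card (PV S) := Fintype.card_pos_iff.2 ⟨r⟩
  omega

/-- (b3) -/
lemma edgeSetOf_injective {S : Finset W} {r : PV S} {g g' : NR r → PV S} (h : Rooted r g)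
    (heq : edgeSetOf g = edgeSetOf g') : g = g' := by
  have key : ∀ n : ℕ, ∀ u : NR r, depth h u.1 = n → g' u = g u := by
    intro n
    induction n using Nat.strong_induction_on with
    | _ n ih =>
      intro u hu
      have hmem : pEdge g u ∈ edgeSetOf g' := by
        rw [← heq]
        exact Finset.mem_image_of_mem _ (Finset.mem_univ u)
      obtain ⟨v, _, hv⟩ := Finset.mem_image.1 hmem
      simp only [pEdge, Sym2.eq_iff] at hv
      rcases hv with ⟨h1, h2⟩ | ⟨h1, h2⟩
      · have e1 : v = u := Subtype.ext (Subtype.ext h1)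
        rw [e1] at h2
        exact Subtype.ext h2
      · exfalso
        have e1 : v.1 = g u := Subtype.ext h1
        have e2 : g' v = u.1 := Subtype.ext h2
        have d1 := depth_lt h u
        have d2 := depth_lt h v
        have hlt : depth h v.1 < n := by
          rw [e1, ← hu]
          exact d1
        have e3 := ih _ hlt v rfl
        rw [e2] at e3
        rw [← e3, e1] at d2
        exact lt_asymm d1 d2
  funext u
  exact (key _ u rfl).symm

/-- (b2) -/
lemma isTree_edgeSetOf {G : SimpleGraph W} {S : Finset W} {r : PV S} {g : NR r → PV S}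
    (h : Rooted r g) (hE : ∀ u, pEdge g u ∈ edgesIn G S) : (HA S (edgeSetOf g)).IsTree := by
  have hsub : edgeSetOf g ⊆ edgesIn G S := by
    intro e he
    obtain ⟨u, _, rfl⟩ := Finset.mem_image.1 he
    exact hE u
  rw [SimpleGraph.isTree_iff_connected_and_card]
  refine ⟨?_, ?_⟩
  · have hreach : ∀ n : ℕ, ∀ v : PV S, depth h v = n → (HA S (edgeSetOf g)).Reachable v r := by
      intro n
      induction n using Nat.strong_induction_on with
      | _ n ih =>
        intro v hv
        by_cases hvr : v = r
        · rw [hvr]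
        · have hadj : (HA S (edgeSetOf g)).Adj v (g ⟨v, hvr⟩) := by
            rw [HA_adj]
            refine ⟨Finset.mem_image_of_mem (pEdge g) (Finset.mem_univ (⟨v, hvr⟩ : NR r)), ?_⟩
            exact (mem_edgesIn.1 (hE ⟨v, hvr⟩)).2.2.ne
          have hlt : depth h (g ⟨v, hvr⟩) < n := by
            rw [← hv]
            exact depth_lt h ⟨v, hvr⟩
          exact hadj.reachable.trans (ih _ hlt _ rfl)
    have : Nonempty (PV S) := ⟨r⟩
    exact ⟨fun u v => (hreach _ u rfl).trans (hreach _ v rfl).symm⟩
  · rw [card_edgeSet_HA hsub, Nat.card_eq_fintype_card]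
    exact card_edgeSetOf h

lemma exists_adj_dist_lt {V : Type*} (H : SimpleGraph V) (hc : H.Connected) {u r : V}
    (hne : u ≠ r) : ∃ w, H.Adj u w ∧ H.dist w r < H.dist u r := by
  obtain ⟨p, hp⟩ := hc.exists_walk_length_eq_dist u r
  cases p with
  | nil => exact absurd rfl hne
  | cons hadj q =>
    refine ⟨_, hadj, ?_⟩
    have h1 := SimpleGraph.dist_le q
    rw [SimpleGraph.Walk.length_cons] at hp
    omega

/-- (b4) -/
lemma exists_rooted_of_isTree {G : SimpleGraph W} {S : Finset W} (r : PV S)
    {A : Finset (Sym2 W)} (hA : A ⊆ edgesIn G S) (hT : (HA S A).IsTree) :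
    ∃ g : NR r → PV S, Rooted r g ∧ (∀ u, pEdge g u ∈ edgesIn G S) ∧ edgeSetOf g = A := by
  have hconn := hT.connected
  have hstep : ∀ u : NR r, ∃ w : PV S, (HA S A).Adj u.1 w ∧
      (HA S A).dist w r < (HA S A).dist u.1 r :=
    fun u => exists_adj_dist_lt _ hconn u.2
  choose g hg1 hg2 using hstep
  have hroot : Rooted r g := by
    have key : ∀ n : ℕ, ∀ v : PV S, (HA S A).dist v r = n → ∃ k : ℕ, (ext r g)^[k] v = r := by
      intro n
      induction n using Nat.strong_induction_on with
      | _ n ih =>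
        intro v hv
        by_cases hvr : v = r
        · exact ⟨0, hvr⟩
        · obtain ⟨k, hk⟩ := ih _ (by rw [← hv]; exact hg2 ⟨v, hvr⟩) (g ⟨v, hvr⟩) rfl
          refine ⟨k + 1, ?_⟩
          have e : ext r g v = g ⟨v, hvr⟩ := ext_of_ne r g ⟨v, hvr⟩
          rw [Function.iterate_succ_apply, e]
          exact hk
    exact fun v => key _ v rfl
  have hsub : edgeSetOf g ⊆ A := by
    intro e he
    obtain ⟨u, _, rfl⟩ := Finset.mem_image.1 he
    exact (HA_adj.1 (hg1 u)).1
  refine ⟨g, hroot, fun u => hA (hsub (Finset.mem_image_of_mem _ (Finset.mem_univ u))), ?_⟩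
  apply Finset.eq_of_subset_of_card_le hsub
  have h1 := card_edgeSetOf hroot
  have h2 := (SimpleGraph.isTree_iff_connected_and_card.1 hT).2
  rw [card_edgeSet_HA hA, Nat.card_eq_fintype_card] at h2
  omega

variable {K : Type*} [Field K]

open Classical in
/-- the weights on the piece. -/
noncomputable def cW (G : SimpleGraph W) (S : Finset W) (z : Sym2 W → K) : PV S → PV S → K :=
  fun u v => if s(u.1, v.1) ∈ edgesIn G S then z s(u.1, v.1) else 0

open Classical in
/-- **Weighted matrix-tree theorem** for the Prelude notion of spanning tree of a piece. -/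
theorem treePoly_eq_det (G : SimpleGraph W) (S : Finset W) (r : PV S) (z : Sym2 W → K) :
    ∑ A ∈ (edgesIn G S).powerset.filter (fun A => IsSpanningTreeOn G S A), ∏ e ∈ A, z e
      = (redLap r (cW G S z)).det := by
  rw [det_redLap_eq_sum_rooted]
  have h1 : ∑ g : NR r → PV S, (if Rooted r g then ∏ u : NR r, cW G S z u.1 (g u) else 0)
      = ∑ g ∈ (univ : Finset (NR r → PV S)).filter
          (fun g => Rooted r g ∧ ∀ u, pEdge g u ∈ edgesIn G S), ∏ u : NR r, z (pEdge g u) := by
    rw [Finset.sum_filter]
    refine Finset.sum_congr rfl (fun g _ => ?_)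
    by_cases hr : Rooted r g
    · by_cases hE : ∀ u, pEdge g u ∈ edgesIn G S
      · rw [if_pos hr, if_pos ⟨hr, hE⟩]
        refine Finset.prod_congr rfl (fun u _ => ?_)
        exact if_pos (hE u)
      · rw [if_pos hr, if_neg (fun h => hE h.2)]
        push Not at hE
        obtain ⟨u, hu⟩ := hE
        exact Finset.prod_eq_zero (Finset.mem_univ u) (if_neg hu)
    · rw [if_neg hr, if_neg (fun h => hr h.1)]
  rw [h1]
  symm
  refine Finset.sum_bij (fun g _ => edgeSetOf g) ?_ ?_ ?_ ?_
  · intro g hg
    rw [Finset.mem_filter] at hg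
    have hsub : edgeSetOf g ⊆ edgesIn G S := by
      intro e he
      obtain ⟨u, _, rfl⟩ := Finset.mem_image.1 he
      exact hg.2.2 u
    rw [Finset.mem_filter, Finset.mem_powerset]
    exact ⟨hsub, hsub, isTree_edgeSetOf hg.2.1 hg.2.2⟩
  · intro g hg g' _ heq
    rw [Finset.mem_filter] at hg
    exact edgeSetOf_injective hg.2.1 heq
  · intro A hA
    rw [Finset.mem_filter, Finset.mem_powerset] at hA
    obtain ⟨g, h1, h2, h3⟩ := exists_rooted_of_isTree r hA.1 hA.2.2
    exact ⟨g, Finset.mem_filter.2 ⟨Finset.mem_univ g, h1, h2⟩, h3⟩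
  · intro g hg
    rw [Finset.mem_filter] at hg
    rw [edgeSetOf, Finset.prod_image (fun u _ v _ h => pEdge_injective hg.2.1 h)]

open Classical in
/-- **Half-plane property (stability) of the spanning tree polynomial of a connected piece.** -/
theorem treePoly_ne_zero (G : SimpleGraph W) (S : Finset W)
    (hc : (G.induce (S : Set W)).Connected) (z : Sym2 W → ℂ)
    (hz : ∀ e ∈ edgesIn G S, 0 < (z e).im) :
    ∑ A ∈ (edgesIn G S).powerset.filter (fun A => IsSpanningTreeOn G S A), ∏ e ∈ A, z e ≠ 0 := by
  obtain ⟨r⟩ := hc.nonempty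
  rw [treePoly_eq_det G S r z]
  refine redLap_det_ne_zero r _ ?_ ?_ (G.induce (S : Set W)) hc ?_
  · intro u v
    simp only [cW]
    rw [Sym2.eq_swap]
  · intro u v
    simp only [cW]
    split_ifs with h
    · exact (hz _ h).le
    · simp
  · intro u v huv
    have h : s(u.1, v.1) ∈ edgesIn G S := mem_edgesIn.2 ⟨u.2, v.2, huv⟩
    simp only [cW, if_pos h]
    exact hz _ h

end Crest.Agent.S0254MTB
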