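import Crest.Agent.S0254_MonoGraph

/-!
# ROW168 / S0254, package MONO, main part (helper92)

`ustContains G S F` is antitone in the connected piece `S`; the limit along every exhaustion
exists and equals `qG G F`.  Input: pairwise negative correlation `PNC (trees G S)` of the
weighted spanning tree measures of all connected pieces.
-/

namespace Crest.Agent.S0254Mono

open Finset SimpleGraph Crest.ProbabilityR.SpanningTrees Filter Topology

open scoped Classical in
/-- the spanning trees of the piece `S`, as a finset. -/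
noncomputable def trees {V : Type*} (G : SimpleGraph V) (S : Finset V) :
    Finset (Finset (Sym2 V)) :=
  (edgesIn G S).powerset.filter (fun A => IsSpanningTreeOn G S A)

section
variable {V : Type*}

lemma mem_trees {G : SimpleGraph V} {S : Finset V} {A : Finset (Sym2 V)} :
    A ∈ trees G S ↔ IsSpanningTreeOn G S A := by
  classical
  unfold trees
  rw [Finset.mem_filter, Finset.mem_powerset]
  exact ⟨fun h => h.2, fun h => ⟨h.1, h⟩⟩

open scoped Classical in
lemma ustContains_eq (G : SimpleGraph V) (S : Finset V) (F : Finset (Sym2 V)) :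
    ustContains G S F
      = (((trees G S).filter (fun A => F ⊆ A)).card : ℝ) / ((trees G S).card : ℝ) := by
  unfold ustContains trees
  rw [Finset.filter_filter]

lemma trees_nonempty {G : SimpleGraph V} {S : Finset V}
    (hc : (G.induce (S : Set V)).Connected) : (trees G S).Nonempty := by
  obtain ⟨A, hA⟩ := exists_isSpanningTreeOn hc
  exact ⟨A, mem_trees.mpr hA⟩

lemma ustContains_nonneg (G : SimpleGraph V) (S : Finset V) (F : Finset (Sym2 V)) :
    0 ≤ ustContains G S F := by
  classical
  rw [ustContains_eq]
  positivity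

lemma ustContains_le_one (G : SimpleGraph V) (S : Finset V) (F : Finset (Sym2 V)) :
    ustContains G S F ≤ 1 := by
  classical
  rw [ustContains_eq]
  apply div_le_one_of_le₀ _ (by positivity)
  exact_mod_cast Finset.card_le_card (Finset.filter_subset _ _)

open scoped Classical in
/-- one-vertex step. -/
theorem ustContains_insert_le {G : SimpleGraph V} {S : Finset V} {v u : V} (hv : v ∉ S)
    (hu : u ∈ S) (hadj : G.Adj v u) (hc : (G.induce (S : Set V)).Connected)
    (hP : PNC (trees G (insert v S))) {F : Finset (Sym2 V)} (hF : F ⊆ edgesIn G S) :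
    ustContains G (insert v S) F ≤ ustContains G S F := by
  set e0 : Sym2 V := s(v, u) with he0
  set D : Finset (Sym2 V) := (edgesIn G (insert v S)).filter (fun e => v ∈ e ∧ e ≠ e0) with hD
  set 𝒯' := trees G (insert v S) with h𝒯'
  set 𝒯D := 𝒯'.filter (fun A => Disjoint D A) with h𝒯D
  have hvu : v ≠ u := hadj.ne
  have he0F : ∀ B : Finset (Sym2 V), B ⊆ edgesIn G S → e0 ∉ B := by
    intro B hB h
    have := hB h
    rw [he0, mk_mem_edgesIn] at this
    exact hv this.2.1
  have he0in : e0 ∈ edgesIn G (insert v S) :=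
    mk_mem_edgesIn.mpr ⟨hadj, Finset.mem_insert_self _ _, Finset.mem_insert_of_mem hu⟩
  -- members of 𝒯D
  have hstarD : ∀ A, A ⊆ edgesIn G (insert v S) → Disjoint D A → ∀ e ∈ A, v ∈ e → e = e0 := by
    intro A hA hdis e he hve
    by_contra hne
    exact (Finset.disjoint_left.mp hdis) (Finset.mem_filter.mpr ⟨hA he, hve, hne⟩) he
  have hmemD : ∀ A ∈ 𝒯D, e0 ∈ A ∧ IsSpanningTreeOn G S (A.erase e0) := by
    intro A hA
    rw [h𝒯D, Finset.mem_filter, h𝒯', mem_trees] at hA
    obtain ⟨hT, hdis⟩ := hA
    have hstar := hstarD A hT.1 hdis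
    have h0 : e0 ∈ A := by
      have h1 := (isSpanningTreeOn_iff.mp hT).2.2.1 v (Finset.mem_insert_self _ _) u
        (Finset.mem_insert_of_mem hu)
      obtain ⟨p⟩ := h1
      cases p with
      | nil => exact absurd rfl hvu
      | cons h _ =>
        rw [fromEdgeSet_adj] at h
        have h2 := hstar _ (Finset.mem_coe.mp h.1) (by simp)
        rw [← h2]
        exact Finset.mem_coe.mp h.1
    exact ⟨h0, (leaf_iff hv hu hT.1 h0 hstar).mp hT⟩
  have hback : ∀ B ∈ trees G S, insert e0 B ∈ 𝒯D := by
    intro B hB
    rw [mem_trees] at hB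
    have hB0 : e0 ∉ B := he0F B hB.1
    have hsub : insert e0 B ⊆ edgesIn G (insert v S) := by
      intro e he
      rw [Finset.mem_insert] at he
      rcases he with rfl | he
      · exact he0in
      · exact edgesIn_mono (Finset.subset_insert _ _) (hB.1 he)
    have hstar : ∀ e ∈ insert e0 B, v ∈ e → e = e0 := by
      intro e he hve
      rw [Finset.mem_insert] at he
      rcases he with rfl | he
      · rfl
      · have := hB.1 he
        rw [mem_edgesIn] at this
        exact absurd (this.2 v hve) hv
    rw [h𝒯D, Finset.mem_filter, h𝒯', mem_trees]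
    refine ⟨?_, ?_⟩
    · rw [leaf_iff hv hu hsub (Finset.mem_insert_self _ _) hstar, Finset.erase_insert hB0]
      exact hB
    · rw [Finset.disjoint_left]
      intro e heD he
      rw [hD, Finset.mem_filter] at heD
      exact heD.2.2 (hstar e he heD.2.1)
  -- the two cardinalities
  have hcard1 : 𝒯D.card = (trees G S).card := by
    apply Finset.card_nbij' (fun A => A.erase e0) (fun B => insert e0 B)
    · intro A hA
      exact mem_trees.mpr (hmemD A hA).2
    · intro B hB
      exact hback B hB
    · intro A hA
      exact Finset.insert_erase (hmemD A hA).1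
    · intro B hB
      exact Finset.erase_insert (he0F B (mem_trees.mp hB).1)
  have hcard2 : (𝒯D.filter (fun A => F ⊆ A)).card = ((trees G S).filter (fun A => F ⊆ A)).card := by
    apply Finset.card_nbij' (fun A => A.erase e0) (fun B => insert e0 B)
    · intro A hA
      rw [Finset.mem_coe, Finset.mem_filter] at hA
      rw [Finset.mem_coe, Finset.mem_filter]
      refine ⟨mem_trees.mpr (hmemD A hA.1).2, fun e he => ?_⟩
      exact Finset.mem_erase.mpr ⟨fun h => he0F F hF (h ▸ he), hA.2 he⟩
    · intro B hB
      rw [Finset.mem_coe, Finset.mem_filter] at hB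
      rw [Finset.mem_coe, Finset.mem_filter]
      exact ⟨hback B hB.1, hB.2.trans (Finset.subset_insert _ _)⟩
    · intro A hA
      rw [Finset.mem_coe, Finset.mem_filter] at hA
      exact Finset.insert_erase (hmemD A hA.1).1
    · intro B hB
      rw [Finset.mem_coe, Finset.mem_filter] at hB
      exact Finset.erase_insert (he0F B (mem_trees.mp hB.1).1)
  have hne : 𝒯D.Nonempty := by
    obtain ⟨B, hB⟩ := trees_nonempty hc
    exact ⟨_, hback B hB⟩
  have hFD : Disjoint F D := by
    rw [Finset.disjoint_left]
    intro e heF heD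
    rw [hD, Finset.mem_filter] at heD
    have := hF heF
    rw [mem_edgesIn] at this
    exact hv (this.2 v heD.2.1)
  have key := hP.card_delete_set F D hFD hne
  rw [ustContains_eq, ustContains_eq, ← hcard1, ← hcard2]
  have hpos1 : (0 : ℝ) < 𝒯D.card := by exact_mod_cast Finset.card_pos.mpr hne
  have hpos2 : (0 : ℝ) < 𝒯'.card := by
    exact_mod_cast Finset.card_pos.mpr (hne.mono (Finset.filter_subset _ _))
  rw [div_le_div_iff₀ hpos2 hpos1]
  exact key

/-- a connected piece strictly inside a connected piece can be enlarged by one vertex. -/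
lemma exists_adj_of_ssubset {G : SimpleGraph V} {S S' : Finset V} (hSS' : S ⊆ S')
    (hne : S ≠ S') (hS : S.Nonempty) (hc' : (G.induce (S' : Set V)).Connected) :
    ∃ v ∈ S', v ∉ S ∧ ∃ u ∈ S, G.Adj v u := by
  obtain ⟨x, hx⟩ := hS
  obtain ⟨y, hy', hy⟩ : ∃ y ∈ S', y ∉ S := by
    by_contra hcon
    apply hne
    apply Finset.Subset.antisymm hSS'
    intro y hy
    by_contra hyS
    exact hcon ⟨y, hy, hyS⟩
  obtain ⟨p⟩ := hc'.preconnected ⟨x, hSS' hx⟩ ⟨y, hy'⟩
  obtain ⟨d, _, h1, h2⟩ := p.exists_boundary_dart {z | z.1 ∈ S} hx hy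
  exact ⟨d.snd.1, d.snd.2, h2, d.fst.1, h1, (d.adj : G.Adj d.fst.1 d.snd.1).symm⟩

open scoped Classical in
lemma connected_insert {G : SimpleGraph V} {S : Finset V} {v u : V} (hu : u ∈ S)
    (hadj : G.Adj v u) (hc : (G.induce (S : Set V)).Connected) :
    (G.induce ((insert v S : Finset V) : Set V)).Connected := by
  have h1 := induce_union_connected hc.preconnected
    (induce_pair_connected_of_adj hadj).preconnected (s := (S : Set V)) (t := {v, u})
    ⟨u, hu, by simp⟩
  have h2 : ((insert v S : Finset V) : Set V) = (S : Set V) ∪ {v, u} := by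
    ext z
    simp only [Finset.coe_insert, Set.mem_insert_iff, Finset.mem_coe, Set.mem_union,
      Set.mem_singleton_iff]
    constructor
    · rintro (h | h)
      · exact Or.inr (Or.inl h)
      · exact Or.inl h
    · rintro (h | h | h)
      · exact Or.inr h
      · exact Or.inl h
      · exact Or.inr (h ▸ hu)
  rw [h2]
  exact h1

open scoped Classical in
/-- **Monotonicity in the piece.** -/
theorem ustContains_anti {G : SimpleGraph V}
    (hP : ∀ S : Finset V, (G.induce (S : Set V)).Connected → PNC (trees G S))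
    {S S' : Finset V} (hSS' : S ⊆ S') (hc : (G.induce (S : Set V)).Connected)
    (hc' : (G.induce (S' : Set V)).Connected) {F : Finset (Sym2 V)} (hF : F ⊆ edgesIn G S) :
    ustContains G S' F ≤ ustContains G S F := by
  induction hk : (S' \ S).card using Nat.strong_induction_on generalizing S with
  | _ k ih =>
    by_cases hne : S = S'
    · rw [hne]
    · have hSne : S.Nonempty := by
        obtain ⟨x⟩ := hc.nonempty
        exact ⟨x.1, x.2⟩
      obtain ⟨v, hv', hv, u, hu, hadj⟩ := exists_adj_of_ssubset hSS' hne hSne hc'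
      have hc1 := connected_insert hu hadj hc
      have hsub1 : insert v S ⊆ S' := Finset.insert_subset hv' hSS'
      have hlt : (S' \ insert v S).card < k := by
        rw [← hk]
        apply Finset.card_lt_card
        rw [Finset.ssubset_iff_of_subset
          (Finset.sdiff_subset_sdiff (Finset.Subset.refl _) (Finset.subset_insert _ _))]
        exact ⟨v, Finset.mem_sdiff.mpr ⟨hv', hv⟩, fun h => (Finset.mem_sdiff.mp h).2
          (Finset.mem_insert_self _ _)⟩
      have h1 := ih _ hlt hsub1 hc1 (hF.trans (edgesIn_mono (Finset.subset_insert _ _))) rfl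
      exact h1.trans (ustContains_insert_le hv hu hadj hc (hP _ hc1) hF)

/-- the connected finite pieces containing `F`. -/
def pieces (G : SimpleGraph V) (F : Finset (Sym2 V)) : Set (Finset V) :=
  {S | (G.induce (S : Set V)).Connected ∧ F ⊆ edgesIn G S}

/-- the free-uniform-spanning-forest probability of containing `F`. -/
noncomputable def qG (G : SimpleGraph V) (F : Finset (Sym2 V)) : ℝ :=
  sInf ((fun S => ustContains G S F) '' pieces G F)

lemma bddBelow_q (G : SimpleGraph V) (F : Finset (Sym2 V)) :
    BddBelow ((fun S => ustContains G S F) '' pieces G F) :=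
  ⟨0, by rintro _ ⟨S, _, rfl⟩; exact ustContains_nonneg G S F⟩

lemma qG_le {G : SimpleGraph V} {F : Finset (Sym2 V)} {S : Finset V} (hS : S ∈ pieces G F) :
    qG G F ≤ ustContains G S F :=
  csInf_le (bddBelow_q G F) ⟨S, hS, rfl⟩

lemma qG_nonneg (G : SimpleGraph V) (F : Finset (Sym2 V)) : 0 ≤ qG G F := by
  apply Real.sInf_nonneg
  rintro _ ⟨S, _, rfl⟩
  exact ustContains_nonneg G S F

lemma exists_subset_of_exhaustion {S : ℕ → Finset V} (hmono : Monotone S)
    (hex : ∀ v, ∃ n, v ∈ S n) (W : Finset V) : ∃ n, W ⊆ S n := by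
  classical
  induction W using Finset.induction_on with
  | empty => exact ⟨0, Finset.empty_subset _⟩
  | insert a W _ ih =>
    obtain ⟨n, hn⟩ := ih
    obtain ⟨m, hm⟩ := hex a
    refine ⟨max n m, Finset.insert_subset (hmono (le_max_right _ _) hm)
      (hn.trans (hmono (le_max_left _ _)))⟩

lemma exists_edges_subset_of_exhaustion {G : SimpleGraph V} {S : ℕ → Finset V}
    (hmono : Monotone S) (hex : ∀ v, ∃ n, v ∈ S n) (F : Finset (Sym2 V))
    (hF : (F : Set (Sym2 V)) ⊆ G.edgeSet) : ∃ n, F ⊆ edgesIn G (S n) := by
  classical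
  induction F using Finset.induction_on with
  | empty => exact ⟨0, Finset.empty_subset _⟩
  | insert e F _ ih =>
    obtain ⟨n, hn⟩ := ih (fun x hx => hF (by simp [Finset.mem_coe.mp hx]))
    have he : e ∈ G.edgeSet := hF (by simp)
    induction e using Sym2.ind with
    | _ x y =>
      obtain ⟨m, hm⟩ := exists_subset_of_exhaustion hmono hex {x, y}
      refine ⟨max n m, Finset.insert_subset ?_
        (hn.trans (edgesIn_mono (hmono (le_max_left _ _))))⟩
      rw [mk_mem_edgesIn]
      exact ⟨he, hmono (le_max_right _ _) (hm (by simp)), hmono (le_max_right _ _) (hm (by simp))⟩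

open scoped Classical in
/-- **The limit along every exhaustion exists and equals `qG G F`.** -/
theorem tendsto_ustContains {G : SimpleGraph V}
    (hP : ∀ S : Finset V, (G.induce (S : Set V)).Connected → PNC (trees G S))
    (S : ℕ → Finset V) (hmono : Monotone S) (hex : ∀ v, ∃ n, v ∈ S n)
    (hconn : ∀ n, (G.induce (S n : Set V)).Connected)
    (F : Finset (Sym2 V)) (hF : (F : Set (Sym2 V)) ⊆ G.edgeSet) :
    Tendsto (fun n => ustContains G (S n) F) atTop (𝓝 (qG G F)) := by
  obtain ⟨n0, hn0⟩ := exists_edges_subset_of_exhaustion hmono hex F hF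
  have hmem : ∀ k, S (k + n0) ∈ pieces G F := fun k =>
    ⟨hconn _, hn0.trans (edgesIn_mono (hmono (Nat.le_add_left _ _)))⟩
  have hanti : Antitone (fun k => ustContains G (S (k + n0)) F) := by
    intro k l hkl
    exact ustContains_anti hP (hmono (by omega)) (hconn _) (hconn _) (hmem k).2
  have hbdd : BddBelow (Set.range (fun k => ustContains G (S (k + n0)) F)) :=
    ⟨0, by rintro _ ⟨k, rfl⟩; exact ustContains_nonneg _ _ _⟩
  have hlim := tendsto_atTop_ciInf hanti hbdd
  have heq : (⨅ k, ustContains G (S (k + n0)) F) = qG G F := by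
    apply le_antisymm
    · refine le_csInf (Set.Nonempty.image _ ⟨S (0 + n0), hmem 0⟩) ?_
      rintro _ ⟨T, hT, rfl⟩
      obtain ⟨m, hm⟩ := exists_subset_of_exhaustion hmono hex T
      calc (⨅ k, ustContains G (S (k + n0)) F) ≤ ustContains G (S (m + n0)) F := ciInf_le hbdd m
        _ ≤ ustContains G T F :=
          ustContains_anti hP (hm.trans (hmono (Nat.le_add_right _ _))) hT.1 (hconn _) hT.2
    · exact le_ciInf fun k => qG_le (hmem k)
  rw [heq] at hlim
  exact (tendsto_add_atTop_iff_nat n0).mp hlim

end

end Crest.Agent.S0254Mono
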