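import Mathlib
import Crest.Agent.S0254_Eqns

/-!
# ROW168 / S0254, package MONO, abstract part (helper92)

A finite family `𝒯` of finite sets with weights.  `ZZ 𝒯 w B` is the weighted number of members
containing `B`.  From pairwise negative correlation for all positive weights (`PNC`) we derive
* `PNC` is closed under contraction (conditioning on presence) and deletion,
* `NC+`: `ZZ (insert e B) * ZZ ∅ ≤ ZZ B * ZZ {e}`,
* deleting a set `D` of elements increases the probability of containing `B` (`B` disjoint of `D`).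
-/

namespace Crest.Agent.S0254Mono

open Finset

variable {ι : Type*} [DecidableEq ι]

/-- weighted number of members of `𝒯` containing `B`. -/
noncomputable def ZZ (𝒯 : Finset (Finset ι)) (w : ι → ℝ) (B : Finset ι) : ℝ :=
  ∑ A ∈ 𝒯.filter (fun A => B ⊆ A), ∏ e ∈ A, w e

/-- pairwise negative correlation, conditionally on containing `C`, for all positive weights. -/
def CPNC (𝒯 : Finset (Finset ι)) (C : Finset ι) : Prop :=
  ∀ w : ι → ℝ, (∀ e, 0 < w e) → ∀ e f : ι, e ≠ f →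
    ZZ 𝒯 w (insert e (insert f C)) * ZZ 𝒯 w C ≤ ZZ 𝒯 w (insert e C) * ZZ 𝒯 w (insert f C)

/-- pairwise negative correlation for all positive weights. -/
def PNC (𝒯 : Finset (Finset ι)) : Prop := CPNC 𝒯 ∅

lemma ZZ_nonneg (𝒯 : Finset (Finset ι)) {w : ι → ℝ} (hw : ∀ e, 0 ≤ w e) (B : Finset ι) :
    0 ≤ ZZ 𝒯 w B :=
  Finset.sum_nonneg fun _ _ => Finset.prod_nonneg fun e _ => hw e

lemma ZZ_anti (𝒯 : Finset (Finset ι)) {w : ι → ℝ} (hw : ∀ e, 0 ≤ w e) {B B' : Finset ι}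
    (h : B ⊆ B') : ZZ 𝒯 w B' ≤ ZZ 𝒯 w B := by
  unfold ZZ
  apply Finset.sum_le_sum_of_subset_of_nonneg
  · intro A hA
    simp only [mem_filter] at hA ⊢
    exact ⟨hA.1, h.trans hA.2⟩
  · intro A _ _
    exact Finset.prod_nonneg fun e _ => hw e

/-- splitting according to whether `a` belongs to the member. -/
lemma ZZ_split (𝒯 : Finset (Finset ι)) (w : ι → ℝ) (B : Finset ι) (a : ι) :
    ZZ 𝒯 w B = ZZ 𝒯 w (insert a B) + ZZ (𝒯.filter (fun A => a ∉ A)) w B := by
  unfold ZZ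
  rw [← Finset.sum_filter_add_sum_filter_not (𝒯.filter (fun A => B ⊆ A)) (fun A => a ∈ A)]
  congr 1
  · apply Finset.sum_congr _ (fun _ _ => rfl)
    ext A
    simp only [mem_filter, insert_subset_iff]
    tauto
  · apply Finset.sum_congr _ (fun _ _ => rfl)
    ext A
    simp only [mem_filter]
    tauto

/-- effect of rescaling one weight. -/
lemma ZZ_update (𝒯 : Finset (Finset ι)) (w : ι → ℝ) (B : Finset ι) (a : ι) (t : ℝ) :
    ZZ 𝒯 (Function.update w a (t * w a)) B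
      = ZZ (𝒯.filter (fun A => a ∉ A)) w B + t * ZZ 𝒯 w (insert a B) := by
  rw [ZZ_split 𝒯 _ B a, add_comm]
  congr 1
  · unfold ZZ
    apply Finset.sum_congr rfl
    intro A hA
    simp only [mem_filter] at hA
    apply Finset.prod_congr rfl
    intro e he
    have : e ≠ a := fun h => hA.1.2 (h ▸ he)
    simp [Function.update_of_ne this]
  · unfold ZZ
    rw [Finset.mul_sum]
    apply Finset.sum_congr rfl
    intro A hA
    simp only [mem_filter, insert_subset_iff] at hA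
    have ha : a ∈ A := hA.2.1
    rw [← Finset.mul_prod_erase A _ ha, ← Finset.mul_prod_erase A w ha]
    rw [Function.update_self, mul_assoc]
    congr 2
    apply Finset.prod_congr rfl
    intro e he
    have : e ≠ a := (Finset.mem_erase.mp he).1
    simp [Function.update_of_ne this]

lemma update_pos {w : ι → ℝ} (hw : ∀ e, 0 < w e) (a : ι) {t : ℝ} (ht : 0 < t) :
    ∀ e, 0 < Function.update w a (t * w a) e := by
  intro e
  by_cases h : e = a
  · subst h; simpa using mul_pos ht (hw e)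
  · simpa [Function.update_of_ne h] using hw e

/-- comparison of leading coefficients. -/
lemma lead_le {a0 a1 b0 b1 c0 c1 d0 d1 : ℝ}
    (h : ∀ t : ℝ, 0 < t → (a0 + t * a1) * (b0 + t * b1) ≤ (c0 + t * c1) * (d0 + t * d1)) :
    a1 * b1 ≤ c1 * d1 := by
  by_contra hcon
  replace hcon := not_le.mp hcon
  set ε := a1 * b1 - c1 * d1 with hε
  have hεpos : 0 < ε := by linarith
  set p := a0 * b1 + a1 * b0 - c0 * d1 - c1 * d0 with hp
  set r := a0 * b0 - c0 * d0 with hr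
  have key : ∀ t : ℝ, 0 < t → ε * t ^ 2 + p * t + r ≤ 0 := by
    intro t ht
    have := h t ht
    simp only [hε, hp, hr]
    nlinarith [this]
  set t := (|p| + |r|) / ε + 1 with ht
  have ht1 : 1 ≤ t := by
    have : 0 ≤ (|p| + |r|) / ε := by positivity
    linarith
  have h1 : ε * t = |p| + |r| + ε := by
    rw [ht]; field_simp
  have h2 := key t (by linarith)
  have h3 : ε * t ^ 2 = (|p| + |r| + ε) * t := by rw [← h1]; ring
  have h4 : -|p| ≤ p := neg_abs_le p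
  have h5 : -|r| ≤ r := neg_abs_le r
  have h6 : 0 ≤ |p| := abs_nonneg p
  have h7 : 0 ≤ |r| := abs_nonneg r
  nlinarith [mul_le_mul_of_nonneg_left ht1 h7, mul_nonneg h6 (by linarith : (0:ℝ) ≤ t)]

/-- comparison of constant coefficients. -/
lemma const_le {a0 a1 b0 b1 c0 c1 d0 d1 : ℝ}
    (h : ∀ t : ℝ, 0 < t → (a0 + t * a1) * (b0 + t * b1) ≤ (c0 + t * c1) * (d0 + t * d1)) :
    a0 * b0 ≤ c0 * d0 := by
  have h' : ∀ s : ℝ, 0 < s → (a1 + s * a0) * (b1 + s * b0) ≤ (c1 + s * c0) * (d1 + s * d0) := by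
    intro s hs
    have := h s⁻¹ (inv_pos.mpr hs)
    have hs2 : 0 < s ^ 2 := by positivity
    have e1 : (a1 + s * a0) * (b1 + s * b0) = s ^ 2 * ((a0 + s⁻¹ * a1) * (b0 + s⁻¹ * b1)) := by
      field_simp
      ring
    have e2 : (c1 + s * c0) * (d1 + s * d0) = s ^ 2 * ((c0 + s⁻¹ * c1) * (d0 + s⁻¹ * d1)) := by
      field_simp
      ring
    rw [e1, e2]
    exact mul_le_mul_of_nonneg_left this hs2.le
  exact lead_le h'

/-- `CPNC` is closed under contraction. -/
lemma CPNC.contract {𝒯 : Finset (Finset ι)} {C : Finset ι} (h : CPNC 𝒯 C) (a : ι) :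
    CPNC 𝒯 (insert a C) := by
  intro w hw e f hef
  have key : ∀ t : ℝ, 0 < t →
      (ZZ (𝒯.filter (fun A => a ∉ A)) w (insert e (insert f C))
          + t * ZZ 𝒯 w (insert a (insert e (insert f C))))
        * (ZZ (𝒯.filter (fun A => a ∉ A)) w C + t * ZZ 𝒯 w (insert a C))
      ≤ (ZZ (𝒯.filter (fun A => a ∉ A)) w (insert e C) + t * ZZ 𝒯 w (insert a (insert e C)))
        * (ZZ (𝒯.filter (fun A => a ∉ A)) w (insert f C)
          + t * ZZ 𝒯 w (insert a (insert f C))) := by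
    intro t ht
    have := h _ (update_pos hw a ht) e f hef
    simpa only [ZZ_update] using this
  have := lead_le key
  have e1 : insert e (insert f (insert a C)) = insert a (insert e (insert f C)) := by
    ext x; simp only [mem_insert]; tauto
  have e2 : insert e (insert a C) = insert a (insert e C) := Finset.insert_comm _ _ _
  have e3 : insert f (insert a C) = insert a (insert f C) := Finset.insert_comm _ _ _
  rw [e1, e2, e3]
  exact this

/-- `CPNC` is closed under deletion. -/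
lemma CPNC.delete {𝒯 : Finset (Finset ι)} {C : Finset ι} (h : CPNC 𝒯 C) (a : ι) :
    CPNC (𝒯.filter (fun A => a ∉ A)) C := by
  intro w hw e f hef
  have key : ∀ t : ℝ, 0 < t →
      (ZZ (𝒯.filter (fun A => a ∉ A)) w (insert e (insert f C))
          + t * ZZ 𝒯 w (insert a (insert e (insert f C))))
        * (ZZ (𝒯.filter (fun A => a ∉ A)) w C + t * ZZ 𝒯 w (insert a C))
      ≤ (ZZ (𝒯.filter (fun A => a ∉ A)) w (insert e C) + t * ZZ 𝒯 w (insert a (insert e C)))
        * (ZZ (𝒯.filter (fun A => a ∉ A)) w (insert f C)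
          + t * ZZ 𝒯 w (insert a (insert f C))) := by
    intro t ht
    have := h _ (update_pos hw a ht) e f hef
    simpa only [ZZ_update] using this
  exact const_le key

lemma PNC.cpnc {𝒯 : Finset (Finset ι)} (h : PNC 𝒯) (C : Finset ι) : CPNC 𝒯 C := by
  induction C using Finset.induction_on with
  | empty => exact h
  | insert a C _ ih => exact ih.contract a

lemma PNC.delete {𝒯 : Finset (Finset ι)} (h : PNC 𝒯) (a : ι) :
    PNC (𝒯.filter (fun A => a ∉ A)) := CPNC.delete h a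

/-- `NC+`. -/
theorem PNC.ncplus {𝒯 : Finset (Finset ι)} (h : PNC 𝒯) {w : ι → ℝ} (hw : ∀ e, 0 < w e)
    (B : Finset ι) (e : ι) (he : e ∉ B) :
    ZZ 𝒯 w (insert e B) * ZZ 𝒯 w ∅ ≤ ZZ 𝒯 w B * ZZ 𝒯 w {e} := by
  have hw0 : ∀ e, 0 ≤ w e := fun e => (hw e).le
  induction B using Finset.induction_on with
  | empty => simp [mul_comm]
  | insert a B ha ih =>
    have hea : e ≠ a := fun h' => he (h' ▸ Finset.mem_insert_self _ _)
    have heB : e ∉ B := fun h' => he (Finset.mem_insert_of_mem h')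
    have ih' := ih heB
    have hc := h.cpnc B w hw e a hea
    rcases (ZZ_nonneg 𝒯 hw0 B).eq_or_lt with h0 | hpos
    · have h1 : ZZ 𝒯 w (insert e (insert a B)) ≤ 0 := by
        rw [h0]
        exact ZZ_anti 𝒯 hw0 (fun x hx => by simp [hx])
      have h2 : ZZ 𝒯 w (insert e (insert a B)) = 0 := le_antisymm h1 (ZZ_nonneg 𝒯 hw0 _)
      rw [h2, zero_mul]
      exact mul_nonneg (ZZ_nonneg 𝒯 hw0 _) (ZZ_nonneg 𝒯 hw0 _)
    · have h3 : ZZ 𝒯 w (insert e (insert a B)) * ZZ 𝒯 w ∅ * ZZ 𝒯 w B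
          ≤ ZZ 𝒯 w (insert a B) * ZZ 𝒯 w {e} * ZZ 𝒯 w B := by
        calc ZZ 𝒯 w (insert e (insert a B)) * ZZ 𝒯 w ∅ * ZZ 𝒯 w B
            = (ZZ 𝒯 w (insert e (insert a B)) * ZZ 𝒯 w B) * ZZ 𝒯 w ∅ := by ring
          _ ≤ (ZZ 𝒯 w (insert e B) * ZZ 𝒯 w (insert a B)) * ZZ 𝒯 w ∅ :=
              mul_le_mul_of_nonneg_right hc (ZZ_nonneg 𝒯 hw0 _)
          _ = (ZZ 𝒯 w (insert e B) * ZZ 𝒯 w ∅) * ZZ 𝒯 w (insert a B) := by ring
          _ ≤ (ZZ 𝒯 w B * ZZ 𝒯 w {e}) * ZZ 𝒯 w (insert a B) :=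
              mul_le_mul_of_nonneg_right ih' (ZZ_nonneg 𝒯 hw0 _)
          _ = ZZ 𝒯 w (insert a B) * ZZ 𝒯 w {e} * ZZ 𝒯 w B := by ring
      exact le_of_mul_le_mul_right h3 hpos

/-- deleting one element increases the probability of containing `B`. -/
theorem PNC.delete_one {𝒯 : Finset (Finset ι)} (h : PNC 𝒯) {w : ι → ℝ} (hw : ∀ e, 0 < w e)
    (B : Finset ι) (e : ι) (he : e ∉ B) :
    ZZ 𝒯 w B * ZZ (𝒯.filter (fun A => e ∉ A)) w ∅
      ≤ ZZ (𝒯.filter (fun A => e ∉ A)) w B * ZZ 𝒯 w ∅ := by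
  have h1 := h.ncplus hw B e he
  have h2 := ZZ_split 𝒯 w B e
  have h3 := ZZ_split 𝒯 w ∅ e
  have h4 : (insert e (∅ : Finset ι)) = {e} := rfl
  rw [h4] at h3
  have e1 : ZZ (𝒯.filter (fun A => e ∉ A)) w ∅ = ZZ 𝒯 w ∅ - ZZ 𝒯 w {e} := by linarith
  have e2 : ZZ (𝒯.filter (fun A => e ∉ A)) w B = ZZ 𝒯 w B - ZZ 𝒯 w (insert e B) := by linarith
  rw [e1, e2]
  nlinarith [h1]

/-- deleting a set `D` of elements increases the probability of containing `B`. -/
theorem PNC.delete_set {𝒯 : Finset (Finset ι)} (h : PNC 𝒯) {w : ι → ℝ} (hw : ∀ e, 0 < w e)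
    (B D : Finset ι) (hBD : Disjoint B D)
    (hne : (𝒯.filter (fun A => Disjoint D A)).Nonempty) :
    ZZ 𝒯 w B * ZZ (𝒯.filter (fun A => Disjoint D A)) w ∅
      ≤ ZZ (𝒯.filter (fun A => Disjoint D A)) w B * ZZ 𝒯 w ∅ := by
  have hw0 : ∀ e, 0 ≤ w e := fun e => (hw e).le
  induction D using Finset.induction_on generalizing 𝒯 with
  | empty => simp
  | insert a D ha ih =>
    have haB : a ∉ B := fun h' => (Finset.disjoint_left.mp hBD h') (Finset.mem_insert_self _ _)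
    have hBD' : Disjoint B D := hBD.mono_right (Finset.subset_insert _ _)
    have hfil : (𝒯.filter (fun A => a ∉ A)).filter (fun A => Disjoint D A)
        = 𝒯.filter (fun A => Disjoint (insert a D) A) := by
      ext A
      simp only [mem_filter, Finset.disjoint_insert_left]
      tauto
    have h1 := h.delete_one hw B a haB
    have h2 := ih (h.delete a) hBD' (by rw [hfil]; exact hne)
    rw [hfil] at h2
    set 𝒯a := 𝒯.filter (fun A => a ∉ A) with h𝒯a
    set 𝒯D := 𝒯.filter (fun A => Disjoint (insert a D) A) with h𝒯D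
    -- positivity of the middle denominator
    have hpos : 0 < ZZ 𝒯a w ∅ := by
      obtain ⟨A, hA⟩ := hne
      have hA' : A ∈ 𝒯a.filter (fun A => (∅ : Finset ι) ⊆ A) := by
        simp only [h𝒯D, h𝒯a, mem_filter, Finset.disjoint_insert_left] at hA ⊢
        exact ⟨⟨hA.1, hA.2.1⟩, Finset.empty_subset _⟩
      unfold ZZ
      exact Finset.sum_pos' (fun _ _ => Finset.prod_nonneg fun e _ => hw0 e)
        ⟨A, hA', Finset.prod_pos fun e _ => hw e⟩
    have h3 : ZZ 𝒯 w B * ZZ 𝒯D w ∅ * ZZ 𝒯a w ∅ ≤ ZZ 𝒯D w B * ZZ 𝒯 w ∅ * ZZ 𝒯a w ∅ := by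
      calc ZZ 𝒯 w B * ZZ 𝒯D w ∅ * ZZ 𝒯a w ∅
          = (ZZ 𝒯 w B * ZZ 𝒯a w ∅) * ZZ 𝒯D w ∅ := by ring
        _ ≤ (ZZ 𝒯a w B * ZZ 𝒯 w ∅) * ZZ 𝒯D w ∅ :=
            mul_le_mul_of_nonneg_right h1 (ZZ_nonneg _ hw0 _)
        _ = (ZZ 𝒯a w B * ZZ 𝒯D w ∅) * ZZ 𝒯 w ∅ := by ring
        _ ≤ (ZZ 𝒯D w B * ZZ 𝒯a w ∅) * ZZ 𝒯 w ∅ :=
            mul_le_mul_of_nonneg_right h2 (ZZ_nonneg _ hw0 _)
        _ = ZZ 𝒯D w B * ZZ 𝒯 w ∅ * ZZ 𝒯a w ∅ := by ring
    exact le_of_mul_le_mul_right h3 hpos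

/-- with unit weights `ZZ` is a cardinality. -/
lemma ZZ_one (𝒯 : Finset (Finset ι)) (B : Finset ι) :
    ZZ 𝒯 (fun _ => 1) B = ((𝒯.filter (fun A => B ⊆ A)).card : ℝ) := by
  simp [ZZ]

/-- counting version of `delete_set`. -/
theorem PNC.card_delete_set {𝒯 : Finset (Finset ι)} (h : PNC 𝒯)
    (B D : Finset ι) (hBD : Disjoint B D)
    (hne : (𝒯.filter (fun A => Disjoint D A)).Nonempty) :
    ((𝒯.filter (fun A => B ⊆ A)).card : ℝ) * ((𝒯.filter (fun A => Disjoint D A)).card : ℝ)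
      ≤ (((𝒯.filter (fun A => Disjoint D A)).filter (fun A => B ⊆ A)).card : ℝ) * (𝒯.card : ℝ) := by
  have := h.delete_set (w := fun _ => 1) (fun _ => one_pos) B D hBD hne
  simpa [ZZ_one] using this

end Crest.Agent.S0254Mono
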