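import Crest.Agent.S0254_MonoFU

/-!
# ROW168 / S0254, package MONO (C3): equivariance of `qG` under relabellings (helper92)
-/

namespace Crest.Agent.FU

open Finset SimpleGraph Crest.ProbabilityR.SpanningTrees Filter Topology
open Crest.Agent.S0254Mono

namespace Comap

variable (g : Equiv.Perm ℕ) (G : SimpleGraph ℕ)

lemma mem_edgeSet_comap (e : Sym2 ℕ) :
    e ∈ (G.comap g).edgeSet ↔ sym2Equiv g e ∈ G.edgeSet := by
  induction e using Sym2.ind with
  | _ x y => simp

lemma mem_edgesIn_comap (S : Finset ℕ) (e : Sym2 ℕ) :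
    e ∈ edgesIn (G.comap g) S ↔ sym2Equiv g e ∈ edgesIn G (S.map g.toEmbedding) := by
  induction e using Sym2.ind with
  | _ x y =>
    rw [sym2Equiv_apply, Sym2.map_mk, mk_mem_edgesIn, mk_mem_edgesIn]
    simp

lemma subset_edgeSet_comap (A : Finset (Sym2 ℕ)) :
    (↑A : Set (Sym2 ℕ)) ⊆ (G.comap g).edgeSet ↔
      (↑(A.map (sym2Equiv g).toEmbedding) : Set (Sym2 ℕ)) ⊆ G.edgeSet := by
  constructor
  · intro h e he
    rw [Finset.mem_coe, Finset.mem_map] at he
    obtain ⟨e', he', rfl⟩ := he
    exact (mem_edgeSet_comap g G e').mp (h (Finset.mem_coe.mpr he'))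
  · intro h e he
    rw [mem_edgeSet_comap]
    apply h
    rw [Finset.mem_coe, Finset.mem_map]
    exact ⟨e, Finset.mem_coe.mp he, rfl⟩

lemma subset_edgesIn_comap (S : Finset ℕ) (A : Finset (Sym2 ℕ)) :
    A ⊆ edgesIn (G.comap g) S ↔
      A.map (sym2Equiv g).toEmbedding ⊆ edgesIn G (S.map g.toEmbedding) := by
  constructor
  · intro h e he
    rw [Finset.mem_map] at he
    obtain ⟨e', he', rfl⟩ := he
    exact (mem_edgesIn_comap g G S e').mp (h he')
  · intro h e he
    rw [mem_edgesIn_comap]
    apply h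
    rw [Finset.mem_map]
    exact ⟨e, he, rfl⟩

lemma fromEdgeSet_comap (A : Finset (Sym2 ℕ)) :
    fromEdgeSet (↑A : Set (Sym2 ℕ))
      = (fromEdgeSet (↑(A.map (sym2Equiv g).toEmbedding) : Set (Sym2 ℕ))).comap g := by
  ext x y
  simp only [fromEdgeSet_adj, comap_adj, Finset.mem_coe, Finset.mem_map,
    Equiv.coe_toEmbedding, sym2Equiv_apply]
  constructor
  · rintro ⟨h1, h2⟩
    exact ⟨⟨s(x, y), h1, by simp⟩, fun h => h2 (g.injective h)⟩
  · rintro ⟨⟨e, he, hee⟩, h2⟩
    have : e = s(x, y) := by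
      apply (sym2Equiv g).injective
      simpa using hee
    exact ⟨this ▸ he, fun h => h2 (by rw [h])⟩

lemma reachable_comap (A : Finset (Sym2 ℕ)) (x y : ℕ) :
    (fromEdgeSet (↑A : Set (Sym2 ℕ))).Reachable x y ↔
      (fromEdgeSet (↑(A.map (sym2Equiv g).toEmbedding) : Set (Sym2 ℕ))).Reachable (g x) (g y) := by
  rw [fromEdgeSet_comap g A]
  exact (Iso.reachable_iff (φ := Iso.comap g _) (u := x) (v := y)).symm

lemma isSpanningTreeOn_comap (S : Finset ℕ) (A : Finset (Sym2 ℕ)) :
    IsSpanningTreeOn (G.comap g) S A ↔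
      IsSpanningTreeOn G (S.map g.toEmbedding) (A.map (sym2Equiv g).toEmbedding) := by
  rw [isSpanningTreeOn_iff, isSpanningTreeOn_iff, subset_edgesIn_comap, Finset.map_nonempty,
    Finset.card_map, Finset.card_map]
  refine and_congr Iff.rfl (and_congr Iff.rfl (and_congr ?_ Iff.rfl))
  constructor
  · intro h x hx y hy
    rw [Finset.mem_map] at hx hy
    obtain ⟨x', hx', rfl⟩ := hx
    obtain ⟨y', hy', rfl⟩ := hy
    exact (reachable_comap g A x' y').mp (h x' hx' y' hy')
  · intro h x hx y hy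
    exact (reachable_comap g A x y).mpr
      (h _ (Finset.mem_map_of_mem _ hx) _ (Finset.mem_map_of_mem _ hy))

lemma piece_comap (S : Finset ℕ) : Piece (G.comap g) S ↔ Piece G (S.map g.toEmbedding) := by
  unfold Piece
  apply Iso.connected_iff
  apply (Iso.comap g G).induce
  rw [Finset.coe_map]
  exact (g.injective.injOn).bijOn_image

lemma subset_map_iff (A T : Finset (Sym2 ℕ)) :
    A.map (sym2Equiv g).toEmbedding ⊆ T.map (sym2Equiv g).toEmbedding ↔ A ⊆ T :=
  Finset.map_subset_map

lemma map_map_symm {α : Type*} (σ : α ≃ α) (T : Finset α) :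
    (T.map σ.toEmbedding).map σ.symm.toEmbedding = T := by
  ext e; simp

lemma map_symm_map {α : Type*} (σ : α ≃ α) (T : Finset α) :
    (T.map σ.symm.toEmbedding).map σ.toEmbedding = T := by
  ext e; simp

lemma card_trees_comap (S : Finset ℕ) (A : Finset (Sym2 ℕ))
    [DecidablePred fun T : Finset (Sym2 ℕ) => A ⊆ T]
    [DecidablePred fun T : Finset (Sym2 ℕ) => A.map (sym2Equiv g).toEmbedding ⊆ T] :
    ((trees (G.comap g) S).filter (fun T => A ⊆ T)).card
      = ((trees G (S.map g.toEmbedding)).filter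
          (fun T => A.map (sym2Equiv g).toEmbedding ⊆ T)).card := by
  apply Finset.card_nbij' (fun T => T.map (sym2Equiv g).toEmbedding)
    (fun T => T.map (sym2Equiv g).symm.toEmbedding)
  · intro T hT
    rw [Finset.mem_coe, Finset.mem_filter, mem_trees] at hT
    rw [Finset.mem_coe, Finset.mem_filter, mem_trees]
    exact ⟨(isSpanningTreeOn_comap g G S T).mp hT.1, (subset_map_iff g A T).mpr hT.2⟩
  · intro T hT
    rw [Finset.mem_coe, Finset.mem_filter, mem_trees] at hT
    rw [Finset.mem_coe, Finset.mem_filter, mem_trees]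
    have hTT : (T.map (sym2Equiv g).symm.toEmbedding).map (sym2Equiv g).toEmbedding = T :=
      map_symm_map _ _
    refine ⟨?_, ?_⟩
    · rw [isSpanningTreeOn_comap, hTT]
      exact hT.1
    · rw [← subset_map_iff g, hTT]
      exact hT.2
  · intro T _
    exact map_map_symm _ _
  · intro T _
    exact map_symm_map _ _

lemma ustContains_comap (S : Finset ℕ) (A : Finset (Sym2 ℕ)) :
    ustContains (G.comap g) S A
      = ustContains G (S.map g.toEmbedding) (A.map (sym2Equiv g).toEmbedding) := by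
  classical
  have h := card_trees_comap g G S ∅
  simp only [Finset.empty_subset, Finset.filter_true, Finset.map_empty] at h
  rw [ustContains_eq, ustContains_eq, h]
  congr 1
  norm_cast
  convert card_trees_comap g G S A

lemma qTerm_comap (S : Finset ℕ) (A : Finset (Sym2 ℕ)) :
    qTerm (G.comap g) A S
      = qTerm G (A.map (sym2Equiv g).toEmbedding) (S.map g.toEmbedding) := by
  unfold qTerm
  rw [ustContains_comap]
  have hiff := and_congr (piece_comap g G S) (subset_edgesIn_comap g G S A)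
  by_cases h : Piece (G.comap g) S ∧ A ⊆ edgesIn (G.comap g) S
  · rw [if_pos h, if_pos (hiff.mp h)]
  · rw [if_neg h, if_neg (fun h' => h (hiff.mpr h'))]

/-- duplicate of `FU.qG_comap` (helper34, `S0254_EqQ.lean`, landed first); kept in the
sub-namespace `FU.Comap` so that there is no name clash. -/
theorem qG_comap (A : Finset (Sym2 ℕ)) :
    qG (G.comap g) A = qG G (A.map (sym2Equiv g).toEmbedding) := by
  unfold qG
  have hiff := subset_edgeSet_comap g G A
  by_cases h : (↑A : Set (Sym2 ℕ)) ⊆ (G.comap g).edgeSet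
  · rw [if_pos h, if_pos (hiff.mp h)]
    simp only [qTerm_comap]
    have h2 := (Equiv.finsetCongr g).iInf_comp
      (g := fun S => qTerm G (A.map (sym2Equiv g).toEmbedding) S)
    rw [← h2]
    rfl
  · rw [if_neg h, if_neg (fun h' => h (hiff.mpr h'))]

end Comap

end Crest.Agent.FU
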