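import Crest.Prelude.Def_SpanningTrees
import Crest.Agent.S0254_MonoAbs

/-!
# ROW168 / S0254, package MONO, graph part (helper92)

Facts on the Prelude notion `IsSpanningTreeOn`: a characterisation by reachability + edge count,
the leaf lemma, existence of spanning trees of connected pieces.
-/

namespace Crest.Agent.S0254Mono

open Finset SimpleGraph Crest.ProbabilityR.SpanningTrees

variable {V : Type*}

lemma mem_edgesIn {G : SimpleGraph V} {S : Finset V} {e : Sym2 V} :
    e ∈ edgesIn G S ↔ e ∈ G.edgeSet ∧ ∀ x ∈ e, x ∈ S := by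
  unfold edgesIn
  simp [Finset.mem_sym2_iff, and_comm]

lemma mk_mem_edgesIn {G : SimpleGraph V} {S : Finset V} {x y : V} :
    s(x, y) ∈ edgesIn G S ↔ G.Adj x y ∧ x ∈ S ∧ y ∈ S := by
  rw [mem_edgesIn]
  simp

lemma edgesIn_mono {G : SimpleGraph V} {S S' : Finset V} (h : S ⊆ S') :
    edgesIn G S ⊆ edgesIn G S' := by
  intro e he
  rw [mem_edgesIn] at he ⊢
  exact ⟨he.1, fun x hx => h (he.2 x hx)⟩

lemma induce_reachable {T : SimpleGraph V} {S : Set V} (hT : ∀ x y, T.Adj x y → y ∈ S)
    {x y : V} (hx : x ∈ S) (h : T.Reachable x y) :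
    ∃ hy : y ∈ S, (T.induce S).Reachable ⟨x, hx⟩ ⟨y, hy⟩ := by
  rw [reachable_iff_reflTransGen] at h
  induction h with
  | refl => exact ⟨hx, Reachable.refl _⟩
  | tail _ hab ih =>
    obtain ⟨hb, hr⟩ := ih
    exact ⟨hT _ _ hab, hr.trans (Adj.reachable (by simpa using hab))⟩

lemma induce_connected_iff {T : SimpleGraph V} {S : Set V} (hT : ∀ x y, T.Adj x y → y ∈ S) :
    (T.induce S).Connected ↔ S.Nonempty ∧ ∀ x ∈ S, ∀ y ∈ S, T.Reachable x y := by
  constructor
  · intro h
    refine ⟨?_, ?_⟩
    · obtain ⟨x⟩ := h.nonempty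
      exact ⟨x.1, x.2⟩
    · intro x hx y hy
      exact (h.preconnected ⟨x, hx⟩ ⟨y, hy⟩).map (Embedding.induce S).toHom
  · rintro ⟨⟨x0, hx0⟩, h⟩
    have : Nonempty S := ⟨⟨x0, hx0⟩⟩
    refine ⟨fun a b => ?_⟩
    obtain ⟨_, hr⟩ := induce_reachable hT a.2 (h a.1 a.2 b.1 b.2)
    exact hr

lemma fromEdgeSet_adj_mem {G : SimpleGraph V} {S : Finset V} {A : Finset (Sym2 V)}
    (hA : A ⊆ edgesIn G S) (x y : V) (h : (fromEdgeSet (A : Set (Sym2 V))).Adj x y) :
    y ∈ (S : Set V) := by
  rw [fromEdgeSet_adj] at h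
  have := hA (Finset.mem_coe.mp h.1)
  rw [mk_mem_edgesIn] at this
  exact this.2.2

lemma card_edgeSet_induce {G : SimpleGraph V} {S : Finset V} {A : Finset (Sym2 V)}
    (hA : A ⊆ edgesIn G S) :
    Nat.card ((fromEdgeSet (A : Set (Sym2 V))).induce (S : Set V)).edgeSet = A.card := by
  classical
  set H := (fromEdgeSet (A : Set (Sym2 V))).induce (S : Set V) with hH
  have himg : (Sym2.map (Subtype.val : {x // x ∈ (S : Set V)} → V)) '' H.edgeSet = (A : Set (Sym2 V)) := by
    ext e
    constructor
    · rintro ⟨e', he', rfl⟩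
      induction e' using Sym2.ind with
      | _ a b =>
        have : (fromEdgeSet (A : Set (Sym2 V))).Adj a.1 b.1 := he'
        rw [fromEdgeSet_adj] at this
        simpa using this.1
    · intro he
      induction e using Sym2.ind with
      | _ x y =>
        have h1 := hA (Finset.mem_coe.mp he)
        rw [mk_mem_edgesIn] at h1
        refine ⟨s(⟨x, h1.2.1⟩, ⟨y, h1.2.2⟩), ?_, by simp⟩
        change (fromEdgeSet (A : Set (Sym2 V))).Adj x y
        rw [fromEdgeSet_adj]
        exact ⟨he, h1.1.ne⟩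
  rw [Nat.card_coe_set_eq, ← Set.ncard_image_of_injective _
    (Sym2.map.injective Subtype.val_injective), himg, Set.ncard_coe_finset]

/-- characterisation of the Prelude notion by reachability and edge count. -/
lemma isSpanningTreeOn_iff {G : SimpleGraph V} {S : Finset V} {A : Finset (Sym2 V)} :
    IsSpanningTreeOn G S A ↔ A ⊆ edgesIn G S ∧ S.Nonempty ∧
      (∀ x ∈ S, ∀ y ∈ S, (fromEdgeSet (A : Set (Sym2 V))).Reachable x y) ∧
      A.card + 1 = S.card := by
  unfold IsSpanningTreeOn
  constructor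
  · rintro ⟨hA, hT⟩
    have : Finite (S : Set V) := S.finite_toSet.to_subtype
    rw [isTree_iff_connected_and_card, induce_connected_iff (fromEdgeSet_adj_mem hA),
      card_edgeSet_induce hA, Nat.card_coe_set_eq, Set.ncard_coe_finset] at hT
    exact ⟨hA, by simpa using hT.1.1, fun x hx y hy => hT.1.2 x hx y hy, hT.2⟩
  · rintro ⟨hA, hne, hr, hc⟩
    have : Finite (S : Set V) := S.finite_toSet.to_subtype
    refine ⟨hA, ?_⟩
    rw [isTree_iff_connected_and_card, induce_connected_iff (fromEdgeSet_adj_mem hA),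
      card_edgeSet_induce hA, Nat.card_coe_set_eq, Set.ncard_coe_finset]
    exact ⟨⟨by simpa using hne, fun x hx y hy => hr x hx y hy⟩, hc⟩

/-- existence of a spanning tree of a connected piece. -/
lemma exists_isSpanningTreeOn {G : SimpleGraph V} {S : Finset V}
    (hc : (G.induce (S : Set V)).Connected) : ∃ A, IsSpanningTreeOn G S A := by
  classical
  obtain ⟨T, hTle, hT⟩ := hc.exists_isTree_le
  refine ⟨(edgesIn G S).filter
    (fun e => e ∈ (Sym2.map (Subtype.val : {x // x ∈ (S : Set V)} → V)) '' T.edgeSet), ?_, ?_⟩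
  · exact Finset.filter_subset _ _
  · convert hT using 1
    ext a b
    simp only [comap_adj, Function.Embedding.subtype_apply, fromEdgeSet_adj, Finset.coe_filter,
      Set.mem_ofPred_eq, Set.mem_image]
    constructor
    · rintro ⟨⟨_, e', he', hee⟩, _⟩
      have : e' = s(a, b) := by
        apply Sym2.map.injective Subtype.val_injective
        simpa using hee
      rw [this] at he'
      exact he'
    · intro hab
      have h1 : G.Adj a.1 b.1 := hTle hab
      exact ⟨⟨mk_mem_edgesIn.mpr ⟨h1, a.2, b.2⟩, s(a, b), hab, by simp⟩, h1.ne⟩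

/-- the leaf lemma. -/
lemma leaf_iff {G : SimpleGraph V} [DecidableEq V] {S : Finset V} {v u : V} (hv : v ∉ S)
    (hu : u ∈ S) {A : Finset (Sym2 V)} (hA : A ⊆ edgesIn G (insert v S))
    (he0 : s(v, u) ∈ A) (hstar : ∀ e ∈ A, v ∈ e → e = s(v, u)) :
    IsSpanningTreeOn G (insert v S) A ↔ IsSpanningTreeOn G S (A.erase s(v, u)) := by
  have hvu : v ≠ u := fun h => hv (h ▸ hu)
  have hsub : A.erase s(v, u) ⊆ edgesIn G S := by
    intro e he
    rw [Finset.mem_erase] at he
    have h1 := hA he.2
    rw [mem_edgesIn] at h1 ⊢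
    refine ⟨h1.1, fun x hx => ?_⟩
    have h2 := h1.2 x hx
    rw [Finset.mem_insert] at h2
    rcases h2 with rfl | h2
    · exact absurd (hstar e he.2 hx) he.1
    · exact h2
  have hcard1 : (A.erase s(v, u)).card + 1 = A.card := Finset.card_erase_add_one he0
  have hcard2 : (insert v S).card = S.card + 1 := Finset.card_insert_of_notMem hv
  set T' := fromEdgeSet (A : Set (Sym2 V)) with hT'
  set T := fromEdgeSet ((A.erase s(v, u) : Finset (Sym2 V)) : Set (Sym2 V)) with hT
  have hle : T ≤ T' := by
    apply fromEdgeSet_mono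
    intro e he
    exact Finset.mem_coe.mpr (Finset.mem_of_mem_erase (Finset.mem_coe.mp he))
  have hadj : T'.Adj v u := by
    rw [hT', fromEdgeSet_adj]
    exact ⟨he0, hvu⟩
  -- the retraction
  let r : V → V := fun z => if z = v then u else z
  have hret : ∀ a b, T'.Reachable a b → T.Reachable (r a) (r b) := by
    intro a b h
    rw [reachable_iff_reflTransGen] at h
    induction h with
    | refl => exact Reachable.refl _
    | @tail b c _ hab ih =>
      refine ih.trans ?_
      rw [hT', fromEdgeSet_adj] at hab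
      by_cases hvm : v ∈ s(b, c)
      · have h1 := hstar _ (Finset.mem_coe.mp hab.1) hvm
        rw [Sym2.eq_iff] at h1
        rcases h1 with ⟨rfl, rfl⟩ | ⟨rfl, rfl⟩
        · simp [r]
        · simp [r]
      · rw [Sym2.mem_iff, not_or] at hvm
        have hb : r b = b := by simp [r, Ne.symm hvm.1]
        have hc : r c = c := by simp [r, Ne.symm hvm.2]
        rw [hb, hc]
        apply Adj.reachable
        rw [hT, fromEdgeSet_adj]
        refine ⟨?_, hab.2⟩
        rw [Finset.mem_coe, Finset.mem_erase]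
        refine ⟨fun h => ?_, Finset.mem_coe.mp hab.1⟩
        have : v ∈ s(b, c) := by rw [h]; simp
        rw [Sym2.mem_iff] at this
        rcases this with h | h
        · exact hvm.1 h
        · exact hvm.2 h
  rw [isSpanningTreeOn_iff, isSpanningTreeOn_iff]
  constructor
  · rintro ⟨_, _, hr, hc⟩
    refine ⟨hsub, ⟨u, hu⟩, fun x hx y hy => ?_, by omega⟩
    have h1 := hret x y (hr x (Finset.mem_insert_of_mem hx) y (Finset.mem_insert_of_mem hy))
    have hx' : r x = x := by
      have : x ≠ v := fun h => hv (h ▸ hx)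
      simp [r, this]
    have hy' : r y = y := by
      have : y ≠ v := fun h => hv (h ▸ hy)
      simp [r, this]
    rwa [hx', hy'] at h1
  · rintro ⟨_, _, hr, hc⟩
    have hto : ∀ x ∈ insert v S, T'.Reachable x u := by
      intro x hx
      rw [Finset.mem_insert] at hx
      rcases hx with rfl | hx
      · exact hadj.reachable
      · exact (hr x hx u hu).mono hle
    exact ⟨hA, ⟨v, Finset.mem_insert_self _ _⟩,
      fun x hx y hy => (hto x hx).trans (hto y hy).symm, by omega⟩

end Crest.Agent.S0254Mono
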