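import Crest.Agent.S0255_Defs
import Crest.Agent.S0255_Meas
import Crest.Agent.S0255_Pair
import Crest.Agent.S0254_Noise

/-!
# ROW168 : transfer of the law of the factor map from full i.i.d. noise to noise that is i.i.d.
only on the support `S` of the law
-/

set_option autoImplicit false

namespace Crest.Agent.SL.Transfer

open MeasureTheory unitInterval Crest.ProbabilityR.Labels Crest.Agent.S0254Noise
open scoped Classical ENNReal

noncomputable section

variable {V : Type*}

attribute [local irreducible] Phi Psi PsiAux dec innov obs drift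

theorem measurable_Phi' [Countable V] (q : Finset V → ℝ) (E : V → ℕ → Finset V) :
    Measurable (fun z : (V × ℕ → I) × (V × ℕ → I) => Phi q E z.1 z.2) := by
  have h := measurable_Phi_param (P := Unit) (V := V) (fun _ => q) (fun _ => measurable_const)
    (fun _ => E) (fun v n A => by
      by_cases hh : E v n = A
      · simp [hh]
      · simp [hh])
  have h2 : Measurable
    (fun z : (V × ℕ → I) × (V × ℕ → I) => (((), z) : Unit × (V × ℕ → I) × (V × ℕ → I))) :=
    measurable_const.prodMk measurable_id
  exact h.comp h2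

/-- restriction of an array to the sites in `S`. -/
def res (S : Set V) (N : V × ℕ → I) : S × ℕ → I := fun p => N (p.1.1, p.2)

/-- extension by `0`. -/
def ext0 (S : Set V) (y : S × ℕ → I) : V × ℕ → I :=
  fun e => if h : e.1 ∈ S then y (⟨e.1, h⟩, e.2) else 0

lemma measurable_res (S : Set V) : Measurable (res S) :=
  measurable_pi_lambda _ fun _ => measurable_pi_apply _

lemma measurable_ext0 (S : Set V) : Measurable (ext0 S) := by
  refine measurable_pi_lambda _ fun e => ?_
  unfold ext0
  by_cases h : e.1 ∈ S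
  · simp only [h, dite_true]
    exact measurable_pi_apply _
  · simp only [h, dite_false]
    exact measurable_const

lemma ext0_res (S : Set V) (N : V × ℕ → I) (e : V × ℕ) (he : e.1 ∈ S) :
    ext0 S (res S N) e = N e := by
  simp [ext0, res, he]

lemma measurePreserving_res (S : Set V) :
    MeasurePreserving (res S) (noise V) (labelMeasure (S × ℕ)) := by
  refine ⟨measurable_res S, ?_⟩
  have hj : Function.Injective (fun p : S × ℕ => ((p.1.1, p.2) : V × ℕ)) := by
    rintro ⟨⟨a, ha⟩, k⟩ ⟨⟨b, hb⟩, l⟩ h
    simp only [Prod.mk.injEq] at h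
    obtain ⟨rfl, rfl⟩ := h
    rfl
  exact map_comp_injective _ hj

/-- **Transfer lemma** (engine facts as hypotheses). -/
theorem transfer_of [Countable V] (ν : Measure (V → Bool)) (q : Finset V → ℝ)
    (E : V → ℕ → Finset V)
    (hmap : ((noise V).prod (noise V)).map (fun z => Phi q E z.1 z.2) = ν)
    (S : Set V)
    (hloc : ∀ U U' t t' : V × ℕ → I, (∀ e : V × ℕ, e.1 ∈ S → U e = U' e) →
      (∀ e : V × ℕ, e.1 ∈ S → t e = t' e) → ∀ v ∈ S, Phi q E U t v = Phi q E U' t' v)
    {Ω : Type*} [MeasurableSpace Ω] (P : Measure Ω) (N₁ N₂ : Ω → V × ℕ → I)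
    (hN₁ : Measurable N₁) (hN₂ : Measurable N₂)
    (hlaw : P.map (fun ω => (res S (N₁ ω), res S (N₂ ω)))
      = (labelMeasure (S × ℕ)).prod (labelMeasure (S × ℕ)))
    (F : Finset V) (hF : ↑F ⊆ S) :
    P {ω | ∀ e ∈ F, Phi q E (N₁ ω) (N₂ ω) e = true} = ν {ω | ∀ e ∈ F, ω e = true} := by
  have hC : MeasurableSet {ω : V → Bool | ∀ e ∈ F, ω e = true} := by
    have : {ω : V → Bool | ∀ e ∈ F, ω e = true} = ⋂ e ∈ F, {ω | ω e = true} := by
      ext ω; simp
    rw [this]
    refine Finset.measurableSet_biInter F fun e _ => ?_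
    have hm : Measurable fun ω : V → Bool => ω e := measurable_pi_apply e
    exact hm (measurableSet_singleton true)
  set B : Set ((S × ℕ → I) × (S × ℕ → I)) :=
    {y | ∀ e ∈ F, Phi q E (ext0 S y.1) (ext0 S y.2) e = true} with hB
  have hBm : MeasurableSet B := by
    have hm : Measurable fun y : (S × ℕ → I) × (S × ℕ → I) => Phi q E (ext0 S y.1) (ext0 S y.2) :=
      (measurable_Phi' q E).comp
        (((measurable_ext0 S).comp measurable_fst).prodMk ((measurable_ext0 S).comp measurable_snd))
    exact hm hC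
  have key : ∀ M₁ M₂ : V × ℕ → I,
      (∀ e ∈ F, Phi q E M₁ M₂ e = true) ↔ (res S M₁, res S M₂) ∈ B := by
    intro M₁ M₂
    have : ∀ e ∈ F, Phi q E M₁ M₂ e = Phi q E (ext0 S (res S M₁)) (ext0 S (res S M₂)) e := by
      intro e he
      exact hloc _ _ _ _ (fun e' he' => (ext0_res S M₁ e' he').symm)
        (fun e' he' => (ext0_res S M₂ e' he').symm) e (hF he)
    constructor
    · intro h e he
      rw [← this e he]; exact h e he
    · intro h e he
      rw [this e he]; exact h e he
  have hL : P {ω | ∀ e ∈ F, Phi q E (N₁ ω) (N₂ ω) e = true}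
      = ((labelMeasure (S × ℕ)).prod (labelMeasure (S × ℕ))) B := by
    have hm : Measurable fun ω => (res S (N₁ ω), res S (N₂ ω)) :=
      ((measurable_res S).comp hN₁).prodMk ((measurable_res S).comp hN₂)
    rw [← hlaw, Measure.map_apply hm hBm]
    congr 1
    ext ω
    exact key _ _
  have hR : ν {ω | ∀ e ∈ F, ω e = true}
      = ((labelMeasure (S × ℕ)).prod (labelMeasure (S × ℕ))) B := by
    have mp := (measurePreserving_res S).prod (measurePreserving_res S)
    rw [← hmap, Measure.map_apply (measurable_Phi' q E) hC, ← mp.map_eq,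
      Measure.map_apply mp.measurable hBm]
    congr 1
    ext z
    exact key _ _
  rw [hL, hR]

/-- the decoder at `v` only reads the observations at `v`. -/
lemma dec_congr {x x' : V × ℕ → I} {v : V} (h : ∀ k, x (v, k) = x' (v, k)) : dec x v = dec x' v := by
  unfold dec
  simp only [h]

/-- locality of `Phi` from locality of `Psi`. -/
theorem Phi_local_of (q : Finset V → ℝ) (E : V → ℕ → Finset V) (S : Set V)
    (hPsi : ∀ U U' t t' : V × ℕ → I, (∀ e : V × ℕ, e.1 ∈ S → U e = U' e) →
      (∀ e : V × ℕ, e.1 ∈ S → t e = t' e) → ∀ e : V × ℕ, e.1 ∈ S → Psi q E U t e = Psi q E U' t' e)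
    (U U' t t' : V × ℕ → I) (hU : ∀ e : V × ℕ, e.1 ∈ S → U e = U' e)
    (ht : ∀ e : V × ℕ, e.1 ∈ S → t e = t' e) (v : V) (hv : v ∈ S) :
    Phi q E U t v = Phi q E U' t' v := by
  unfold Phi
  exact dec_congr fun k => hPsi U U' t t' hU ht (v, k) hv

end

end Crest.Agent.SL.Transfer
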