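import Crest.Statements.S0255
import Crest.Agent.S0255_Main
import Crest.Agent.S0255_Equiv
import Crest.Agent.S0255_LipSR

set_option autoImplicit false
open Crest Crest.ProbabilityR

namespace Crest.Agent.S0255

open MeasureTheory unitInterval Crest.Agent.SL Crest.ProbabilityR.Labels
  Crest.ProbabilityR.StronglyRayleigh Crest.Agent.S0254Noise
open scoped Classical

attribute [local irreducible] Phi Psi PsiAux dec innov obs drift

/-- the site-centred exhaustion of a group -/
noncomputable def grpE {Γ : Type*} [Group Γ] (f : ℕ → Γ) (v : Γ) (n : ℕ) : Finset Γ :=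
  (Finset.range (n + 1)).image (fun i => v * f i)

theorem inclOf_shift {Γ : Type*} [Group Γ] (ν : Measure (Γ → Bool))
    (hinv : IsShiftInvariant ν) (g : Γ) (A : Finset Γ) :
    inclOf ν A = inclOf ν (A.map (Equiv.mulLeft g⁻¹).toEmbedding) := by
  unfold inclOf
  congr 1
  have hA : MeasurableSet {ω : Γ → Bool | ∀ w ∈ A, ω w = true} := by
    have : {ω : Γ → Bool | ∀ w ∈ A, ω w = true} = ⋂ w ∈ A, {ω : Γ → Bool | ω w = true} := by
      ext; simp
    rw [this]
    exact Finset.measurableSet_biInter _ fun w _ =>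
      measurableSet_eq_fun (measurable_pi_apply w) measurable_const
  rw [← hinv g _ hA]
  congr 1
  ext ω
  simp only [leftShift, Set.mem_preimage, Set.mem_ofPred_eq, Finset.mem_map, Equiv.coe_toEmbedding,
    Equiv.coe_mulLeft]
  constructor
  · rintro h w ⟨a, ha, rfl⟩
    exact h a ha
  · intro h w hw
    exact h _ ⟨w, hw, rfl⟩

/-- For a countable group `Γ` and a strongly Rayleigh probability law `ν` on binary configurations `Γ → Bool` that is invariant under every left shift `a ↦ (h ↦ a (g⁻¹ h))`, there is a measurable map from independent uniform labels indexed by `Γ` to configurations that commutes with every left shift and pushes the label law forward to `ν`. -/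
theorem result (Γ : Type*) [Group Γ]
    [Countable Γ] (ν : MeasureTheory.Measure (Γ → Bool)) [MeasureTheory.IsProbabilityMeasure ν]
    (hsr : Crest.ProbabilityR.StronglyRayleigh.IsStronglyRayleigh ν)
    (hinv : Crest.ProbabilityR.StronglyRayleigh.IsShiftInvariant ν) :
    ∃ Φ : (Γ → unitInterval) → (Γ → Bool), Measurable Φ ∧
      (∀ (g : Γ) (u : Γ → unitInterval),
        Φ (Crest.ProbabilityR.StronglyRayleigh.leftShift g u) =
          Crest.ProbabilityR.StronglyRayleigh.leftShift g (Φ u)) ∧
      (Crest.ProbabilityR.Labels.labelMeasure Γ).map Φ = ν := by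
  obtain ⟨f, hf⟩ := exists_surjective_nat Γ
  have hLip : LipCond (inclOf ν) := lipCond_of_SR ν hsr
  have hmΦ := measurable_Phi (inclOf ν) (grpE f)
  have hm2 : Measurable (fun u : Γ → unitInterval => pairOf (splitU Γ (Fin 2 × ℕ) u)) :=
    measurable_pairOf.comp (measurable_splitU Γ (Fin 2 × ℕ))
  refine ⟨fun u => Phi (inclOf ν) (grpE f) (pairOf (splitU Γ (Fin 2 × ℕ) u)).1
    (pairOf (splitU Γ (Fin 2 × ℕ) u)).2, hmΦ.comp hm2, ?_, ?_⟩
  · intro g u
    have h := Phi_equiv (Equiv.mulLeft g⁻¹) (inclOf ν) (inclOf ν) (grpE f) (grpE f)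
      (inclOf_shift ν hinv g) (by
        intro v n
        ext w
        simp only [grpE, Finset.mem_map, Finset.mem_image, Finset.mem_range,
          Equiv.coe_toEmbedding, Equiv.coe_mulLeft]
        constructor
        · rintro ⟨a, ⟨i, hi, rfl⟩, rfl⟩
          exact ⟨i, hi, by group⟩
        · rintro ⟨i, hi, rfl⟩
          exact ⟨v * f i, ⟨i, hi, rfl⟩, by group⟩)
      (pairOf (splitU Γ (Fin 2 × ℕ) u)).1 (pairOf (splitU Γ (Fin 2 × ℕ) u)).2
    exact h
  · have h1 : (labelMeasure Γ).map (fun u : Γ → unitInterval => pairOf (splitU Γ (Fin 2 × ℕ) u))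
        = (noise Γ).prod (noise Γ) := by
      rw [← map_pairOf, ← map_splitU Γ (Fin 2 × ℕ),
        Measure.map_map measurable_pairOf (measurable_splitU Γ (Fin 2 × ℕ))]
      rfl
    have h2 := map_Phi ν (grpE f)
      (by
        intro v a b hab
        exact Finset.image_subset_image (Finset.range_subset_range.2 (by omega)))
      (by
        intro v w
        obtain ⟨n, hn⟩ := hf (v⁻¹ * w)
        exact ⟨n, Finset.mem_image.2 ⟨n, Finset.mem_range.2 (by omega), by rw [hn]; group⟩⟩)
      hLip
    rw [← h1, Measure.map_map hmΦ hm2] at h2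
    exact h2

end Crest.Agent.S0255
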