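import Crest.Agent.S0255_LevyCore

/-!
# ROW168: finite dimensional law of the observations (service file for package A7)
-/

set_option autoImplicit false

namespace Crest.Agent.SL

open MeasureTheory unitInterval Filter Topology ProbabilityTheory
open scoped Classical ENNReal

noncomputable section

namespace FinLaw

/-- integral of a product of functions of the coordinates (probability measures). -/
lemma lintegral_pi_prod {ι : Type*} [Fintype ι] {α : ι → Type*} [∀ i, MeasurableSpace (α i)]
    (μ : ∀ i, Measure (α i)) [∀ i, IsProbabilityMeasure (μ i)] (f : ∀ i, α i → ℝ≥0∞)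
    (hf : ∀ i, Measurable (f i)) :
    ∫⁻ y, ∏ i, f i (y i) ∂(Measure.pi μ) = ∏ i, ∫⁻ x, f i x ∂(μ i) := by
  have hind : iIndepFun (fun i (y : ∀ i, α i) => f i (y i)) (Measure.pi μ) :=
    iIndepFun_pi fun i => (hf i).aemeasurable
  rw [lintegral_prod_eq_prod_lintegral_of_indepFun Finset.univ _ hind
    (fun i => (hf i).comp (measurable_pi_apply i))]
  refine Finset.prod_congr rfl fun i _ => ?_
  exact (measurePreserving_eval μ i).lintegral_comp (hf i)

/-- product of measures with densities. -/
lemma pi_withDensity {ι : Type*} [Fintype ι] {α : ι → Type*} [∀ i, MeasurableSpace (α i)]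
    (μ : ∀ i, Measure (α i)) [∀ i, IsProbabilityMeasure (μ i)] (f : ∀ i, α i → ℝ≥0∞)
    (hf : ∀ i, Measurable (f i)) (ρ : ∀ i, Measure (α i)) [∀ i, SigmaFinite (ρ i)]
    (hρ : ∀ i, ρ i = (μ i).withDensity (f i)) :
    Measure.pi ρ = (Measure.pi μ).withDensity (fun y => ∏ i, f i (y i)) := by
  refine Measure.pi_eq fun s hs => ?_
  rw [withDensity_apply _ (MeasurableSet.univ_pi hs),
    ← lintegral_indicator (MeasurableSet.univ_pi hs)]
  have h1 : (Set.pi Set.univ s).indicator (fun y : ∀ i, α i => ∏ i, f i (y i))
      = fun y => ∏ i, (s i).indicator (f i) (y i) := by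
    funext y
    by_cases hy : y ∈ Set.pi Set.univ s
    · rw [Set.indicator_of_mem hy]
      refine Finset.prod_congr rfl fun i _ => ?_
      rw [Set.indicator_of_mem (hy i (Set.mem_univ i))]
    · rw [Set.indicator_of_notMem hy]
      simp only [Set.mem_pi, Set.mem_univ, true_implies, not_forall] at hy
      obtain ⟨i, hi⟩ := hy
      exact (Finset.prod_eq_zero (Finset.mem_univ i) (Set.indicator_of_notMem hi _)).symm
  rw [h1, lintegral_pi_prod μ _ (fun i => (hf i).indicator (hs i))]
  refine Finset.prod_congr rfl fun i _ => ?_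
  rw [hρ i, withDensity_apply _ (hs i), lintegral_indicator (hs i)]

variable {V : Type*}

/-- Finite dimensional law of the observations, given the configuration.  `hmap` is `map_GmI`
(package A1). -/
lemma lintegral_obs_restrict
    (hmap : ∀ m : ℝ, m ∈ Set.Icc (0:ℝ) 1 → (volume : Measure I).map (GmI m)
      = volume.withDensity (fun y : I => ENNReal.ofReal (dens m y)))
    (X : V → Bool) (P : Finset (V × ℕ)) (G : (P → I) → ℝ≥0∞) (hG : Measurable G) :
    ∫⁻ R, G (fun e : P => obs X R e) ∂(noise V)
      = ∫⁻ y, (∏ e : P, ENNReal.ofReal (dens (b2r (X e.1.1)) (y e))) * G y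
          ∂(Measure.pi fun _ : P => (volume : Measure I)) := by
  have hGm : ∀ m : ℝ, Measurable (GmI m) := fun m =>
    Levy.measurable_GmI'.comp (measurable_const.prodMk measurable_id)
  have hb : ∀ b : Bool, b2r b ∈ Set.Icc (0:ℝ) 1 := by
    intro b; cases b <;> simp [b2r]
  have hdens : ∀ m : ℝ, Measurable (fun y : I => ENNReal.ofReal (dens m y)) := by
    intro m
    unfold dens
    fun_prop
  have hprob : ∀ e : P, IsProbabilityMeasure ((volume : Measure I).map (GmI (b2r (X e.1.1)))) :=
    fun e => Measure.isProbabilityMeasure_map (hGm _).aemeasurable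
  -- step 1: restrict to the coordinates in `P`
  have h1 : ∫⁻ R, G (fun e : P => obs X R e) ∂(noise V)
      = ∫⁻ r, G (fun e : P => GmI (b2r (X e.1.1)) (r e))
          ∂(Measure.pi fun _ : P => (volume : Measure I)) := by
    have hm : Measurable (fun r : P → I => G (fun e : P => GmI (b2r (X e.1.1)) (r e))) :=
      hG.comp (measurable_pi_iff.2 fun e => (hGm _).comp (measurable_pi_apply e))
    have := lintegral_map (μ := noise V) hm (Finset.measurable_restrict P)
    unfold noise at this ⊢
    rw [Measure.infinitePi_map_restrict] at this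
    rw [this]
    rfl
  -- step 2: push forward by the coordinatewise maps
  have h2 : ∫⁻ r, G (fun e : P => GmI (b2r (X e.1.1)) (r e))
          ∂(Measure.pi fun _ : P => (volume : Measure I))
      = ∫⁻ y, G y ∂(Measure.pi fun e : P => (volume : Measure I).map (GmI (b2r (X e.1.1)))) := by
    rw [← Measure.pi_map_pi (fun e => (hGm _).aemeasurable)]
    have hm2 : Measurable (fun (x : P → I) (i : P) => GmI (b2r (X i.1.1)) (x i)) :=
      measurable_pi_iff.2 fun e => (hGm _).comp (measurable_pi_apply e)
    rw [lintegral_map hG hm2]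
  rw [h1, h2, pi_withDensity (fun _ : P => (volume : Measure I))
    (fun e y => ENNReal.ofReal (dens (b2r (X e.1.1)) (y : ℝ))) (fun e => hdens _) _
    (fun e => hmap _ (hb _))]
  rw [lintegral_withDensity_eq_lintegral_mul _ _ hG]
  · rfl
  · exact Finset.measurable_prod _ fun e _ => (hdens _).comp (measurable_pi_apply e)

end FinLaw

end

end Crest.Agent.SL
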