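import Mathlib

open MeasureTheory ProbabilityTheory Filter Set
open scoped ENNReal Topology

namespace Crest.Agent.S0255Key

/-- The uniform law on `[0,1]`, as a measure on `ℝ`. -/
noncomputable def mu01 : Measure ℝ := volume.restrict (Set.Icc (0:ℝ) 1)

instance : IsProbabilityMeasure mu01 := ⟨by simp [mu01]⟩

/-- the kernel-like function `k m b = mu01 {x | Ψ m b x ∈ s}` is measurable in `(m,b)` -/
lemma measurable_k (Ψ : ℝ → ℝ → ℝ → ℝ)
    (hΨ : Measurable fun q : ℝ × ℝ × ℝ => Ψ q.1 q.2.1 q.2.2) {s : Set ℝ} (hs : MeasurableSet s) :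
    Measurable fun q : ℝ × ℝ => mu01 {x | Ψ q.1 q.2 x ∈ s} := by
  have hB : MeasurableSet {r : (ℝ × ℝ) × ℝ | Ψ r.1.1 r.1.2 r.2 ∈ s} := by
    have : Measurable fun r : (ℝ × ℝ) × ℝ => Ψ r.1.1 r.1.2 r.2 :=
      hΨ.comp (by fun_prop : Measurable fun r : (ℝ × ℝ) × ℝ => (r.1.1, r.1.2, r.2))
    exact this hs
  exact measurable_measure_prodMk_left hB

variable {Ω : Type*} {m2 𝒢 : MeasurableSpace Ω} [mΩ : MeasurableSpace Ω]

/-- Step 1 (Fubini for the fresh noise). -/
lemma step_fubini (P : Measure Ω) [IsProbabilityMeasure P] (hm2 : m2 ≤ mΩ)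
    (t : Ω → ℝ) (ht : Measurable[m2] t) (π : Ω → ℝ) (hπ : Measurable[m2] π)
    (ξ : Ω → ℝ) (hξ : Measurable ξ) (hlaw : P.map ξ = mu01)
    (hind : Indep (MeasurableSpace.comap ξ inferInstance) m2 P)
    (Ψ : ℝ → ℝ → ℝ → ℝ) (hΨ : Measurable fun q : ℝ × ℝ × ℝ => Ψ q.1 q.2.1 q.2.2)
    {A : Set Ω} (hA : MeasurableSet[m2] A) {s : Set ℝ} (hs : MeasurableSet s) :
    P (A ∩ {ω | Ψ (π ω) (t ω) (ξ ω) ∈ s}) =
      ∫⁻ ω in A, mu01 {x | Ψ (π ω) (t ω) x ∈ s} ∂P := by
  classical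
  let Z : Ω → ℝ × ℝ × ℝ := fun ω => (A.indicator (fun _ => (1:ℝ)) ω, π ω, t ω)
  have hZ' : Measurable[m2] Z := by
    have h1 : Measurable[m2] (A.indicator (fun _ => (1:ℝ))) :=
      (measurable_const.indicator hA)
    exact h1.prodMk (hπ.prodMk ht)
  have hZ : Measurable Z := hZ'.mono hm2 le_rfl
  have hindZ : IndepFun Z ξ P := by
    have : Indep (MeasurableSpace.comap ξ inferInstance) (MeasurableSpace.comap Z inferInstance) P :=
      indep_of_indep_of_le_right hind hZ'.comap_le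
    exact this.symm
  have hmap : P.map (fun ω => (Z ω, ξ ω)) = (P.map Z).prod mu01 := by
    rw [(indepFun_iff_map_prod_eq_prod_map_map hZ.aemeasurable hξ.aemeasurable).1 hindZ, hlaw]
  let B : Set ((ℝ × ℝ × ℝ) × ℝ) := {r | r.1.1 = 1 ∧ Ψ r.1.2.1 r.1.2.2 r.2 ∈ s}
  have hB : MeasurableSet B := by
    have h1 : MeasurableSet {r : (ℝ × ℝ × ℝ) × ℝ | r.1.1 = 1} :=
      (by fun_prop : Measurable fun r : (ℝ × ℝ × ℝ) × ℝ => r.1.1) (measurableSet_singleton 1)
    have h2 : Measurable fun r : (ℝ × ℝ × ℝ) × ℝ => Ψ r.1.2.1 r.1.2.2 r.2 :=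
      hΨ.comp (by fun_prop : Measurable fun r : (ℝ × ℝ × ℝ) × ℝ => (r.1.2.1, r.1.2.2, r.2))
    exact h1.inter (h2 hs)
  have hset : A ∩ {ω | Ψ (π ω) (t ω) (ξ ω) ∈ s} = (fun ω => (Z ω, ξ ω)) ⁻¹' B := by
    ext ω
    by_cases hω : ω ∈ A <;> simp [B, Z, hω]
  rw [hset, ← Measure.map_apply (hZ.prodMk hξ) hB, hmap, Measure.prod_apply hB,
    lintegral_map (measurable_measure_prodMk_left hB) hZ, ← lintegral_indicator (hm2 _ hA)]
  refine lintegral_congr fun ω => ?_
  by_cases hω : ω ∈ A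
  · simp only [indicator_of_mem hω]
    congr 1
    ext x
    simp [B, Z, hω]
  · simp only [indicator_of_notMem hω]
    have : Prod.mk (Z ω) ⁻¹' B = ∅ := by
      ext x
      simp [B, Z, hω]
    rw [this, measure_empty]


/-- Step 2 (pull-out + tower). -/
lemma step_cond (P : Measure Ω) [IsProbabilityMeasure P] (h𝒢 : 𝒢 ≤ mΩ)
    (t : Ω → ℝ) (ht : Measurable t) (ht01 : ∀ ω, t ω = 0 ∨ t ω = 1)
    (k1 k0 : ℝ → ℝ) (hk1 : Measurable k1) (hk0 : Measurable k0)
    (hk1b : ∀ m, k1 m ∈ Icc (0:ℝ) 1) (hk0b : ∀ m, k0 m ∈ Icc (0:ℝ) 1) (c : ℝ)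
    (h : ∀ m ∈ Icc (0:ℝ) 1, m * k1 m + (1 - m) * k0 m = c)
    {A : Set Ω} (hA : MeasurableSet[𝒢] A) :
    ∫ ω in A, (t ω * k1 ((P[t|𝒢]) ω) + (1 - t ω) * k0 ((P[t|𝒢]) ω)) ∂P = c * P.real A := by
  set π : Ω → ℝ := P[t|𝒢] with hπdef
  have hπsm : StronglyMeasurable[𝒢] π := stronglyMeasurable_condExp
  have hπm : Measurable[𝒢] π := hπsm.measurable
  have hπm' : Measurable π := hπm.mono h𝒢 le_rfl
  have htb : ∀ ω, t ω ∈ Icc (0:ℝ) 1 := by
    intro ω; rcases ht01 ω with h | h <;> simp [h]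
  have bdd_int : ∀ f : Ω → ℝ, Measurable f → (∀ ω, |f ω| ≤ 1) → Integrable f P := by
    intro f hf hb
    refine Integrable.of_bound hf.aestronglyMeasurable 1 (ae_of_all _ fun ω => ?_)
    simpa using hb ω
  have hint_t : Integrable t P := bdd_int t ht (fun ω => by
    have := htb ω; rw [abs_le]; constructor <;> linarith [this.1, this.2])
  -- π ∈ [0,1] a.e.
  have hπ0 : 0 ≤ᵐ[P] π := condExp_nonneg (ae_of_all _ fun ω => (htb ω).1)
  have hπ1 : π ≤ᵐ[P] fun _ => (1:ℝ) := by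
    have h1 := condExp_mono (m := 𝒢) hint_t (integrable_const (1:ℝ))
      (ae_of_all _ fun ω => (htb ω).2)
    have h2 : P[fun _ : Ω => (1:ℝ)|𝒢] = fun _ => (1:ℝ) := condExp_const h𝒢 (1:ℝ)
    rw [h2] at h1
    exact h1
  -- generic pull-out
  have key : ∀ k : ℝ → ℝ, Measurable k → (∀ m, k m ∈ Icc (0:ℝ) 1) →
      ∫ ω in A, t ω * k (π ω) ∂P = ∫ ω in A, π ω * k (π ω) ∂P := by
    intro k hk hkb
    have hKm : Measurable[𝒢] fun ω => k (π ω) := hk.comp hπm
    have hKsm : StronglyMeasurable[𝒢] fun ω => k (π ω) := hKm.stronglyMeasurable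
    have hprod : Integrable (t * fun ω => k (π ω)) P := by
      refine bdd_int _ (ht.mul (hk.comp hπm')) (fun ω => ?_)
      have h1 := htb ω; have h2 := hkb (π ω)
      simp only [Pi.mul_apply]
      rw [abs_le]; constructor
      · nlinarith [h1.1, h1.2, h2.1, h2.2]
      · nlinarith [h1.1, h1.2, h2.1, h2.2]
    have hpo : P[t * fun ω => k (π ω)|𝒢] =ᵐ[P] π * fun ω => k (π ω) :=
      condExp_mul_of_aestronglyMeasurable_right hKsm.aestronglyMeasurable hprod hint_t
    calc ∫ ω in A, t ω * k (π ω) ∂P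
        = ∫ ω in A, (P[t * fun ω => k (π ω)|𝒢]) ω ∂P :=
          (setIntegral_condExp h𝒢 hprod hA).symm
      _ = ∫ ω in A, π ω * k (π ω) ∂P := by
          refine setIntegral_congr_ae (h𝒢 _ hA) ?_
          filter_upwards [hpo] with ω hω _
          simpa using hω
  have i1 : Integrable (fun ω => t ω * k1 (π ω)) P := by
    refine bdd_int _ (ht.mul (hk1.comp hπm')) (fun ω => ?_)
    have h1 := htb ω; have h2 := hk1b (π ω)
    rw [abs_le]; constructor <;> nlinarith [h1.1, h1.2, h2.1, h2.2]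
  have i2 : Integrable (fun ω => t ω * k0 (π ω)) P := by
    refine bdd_int _ (ht.mul (hk0.comp hπm')) (fun ω => ?_)
    have h1 := htb ω; have h2 := hk0b (π ω)
    rw [abs_le]; constructor <;> nlinarith [h1.1, h1.2, h2.1, h2.2]
  have i3 : Integrable (fun ω => k0 (π ω)) P := by
    refine bdd_int _ (hk0.comp hπm') (fun ω => ?_)
    have h2 := hk0b (π ω)
    rw [abs_le]; constructor <;> linarith [h2.1, h2.2]
  have hπint : Integrable π P := integrable_condExp
  have j1 : Integrable (fun ω => π ω * k1 (π ω)) P := by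
    refine hπint.mul_bdd (c := 1) (hk1.comp hπm').aestronglyMeasurable (ae_of_all _ fun ω => ?_)
    have h2 := hk1b (π ω)
    rw [Real.norm_eq_abs, abs_le]; constructor <;> linarith [h2.1, h2.2]
  have j2 : Integrable (fun ω => π ω * k0 (π ω)) P := by
    refine hπint.mul_bdd (c := 1) (hk0.comp hπm').aestronglyMeasurable (ae_of_all _ fun ω => ?_)
    have h2 := hk0b (π ω)
    rw [Real.norm_eq_abs, abs_le]; constructor <;> linarith [h2.1, h2.2]
  have e1 : ∫ ω in A, (t ω * k1 (π ω) + (1 - t ω) * k0 (π ω)) ∂P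
      = ∫ ω in A, t ω * k1 (π ω) ∂P + (∫ ω in A, k0 (π ω) ∂P - ∫ ω in A, t ω * k0 (π ω) ∂P) := by
    have hs : IntegrableOn (fun ω => k0 (π ω) - t ω * k0 (π ω)) A P := (i3.sub i2).integrableOn
    rw [← integral_sub i3.integrableOn i2.integrableOn, ← integral_add i1.integrableOn hs]
    refine integral_congr_ae (ae_of_all _ fun ω => ?_)
    ring
  have e2 : ∫ ω in A, (π ω * k1 (π ω) + (1 - π ω) * k0 (π ω)) ∂P
      = ∫ ω in A, π ω * k1 (π ω) ∂P + (∫ ω in A, k0 (π ω) ∂P - ∫ ω in A, π ω * k0 (π ω) ∂P) := by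
    have hs : IntegrableOn (fun ω => k0 (π ω) - π ω * k0 (π ω)) A P := (i3.sub j2).integrableOn
    rw [← integral_sub i3.integrableOn j2.integrableOn, ← integral_add j1.integrableOn hs]
    refine integral_congr_ae (ae_of_all _ fun ω => ?_)
    ring
  rw [e1, key k1 hk1 hk1b, key k0 hk0 hk0b, ← e2]
  have e3 : ∫ ω in A, (π ω * k1 (π ω) + (1 - π ω) * k0 (π ω)) ∂P = ∫ _ω in A, c ∂P := by
    refine setIntegral_congr_ae (h𝒢 _ hA) ?_
    filter_upwards [hπ0, hπ1] with ω h0 h1 _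
    exact h (π ω) ⟨h0, h1⟩
  rw [e3, setIntegral_const, smul_eq_mul, mul_comm]


/-- Core computation: with the exact conditional expectation as posterior mean. -/
lemma core (P : Measure Ω) [IsProbabilityMeasure P] (h𝒢 : 𝒢 ≤ mΩ)
    (t : Ω → ℝ) (ht : Measurable t) (ht01 : ∀ ω, t ω = 0 ∨ t ω = 1)
    (ξ : Ω → ℝ) (hξ : Measurable ξ) (hlaw : P.map ξ = mu01)
    (hind : Indep (MeasurableSpace.comap ξ inferInstance)
      (MeasurableSpace.comap t inferInstance ⊔ 𝒢) P)
    (Ψ : ℝ → ℝ → ℝ → ℝ) (hΨ : Measurable fun q : ℝ × ℝ × ℝ => Ψ q.1 q.2.1 q.2.2)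
    (h1D : ∀ m ∈ Icc (0:ℝ) 1, ∀ s : Set ℝ, MeasurableSet s →
      ENNReal.ofReal m * mu01 {x | Ψ m 1 x ∈ s} + ENNReal.ofReal (1 - m) * mu01 {x | Ψ m 0 x ∈ s}
        = mu01 s)
    {A : Set Ω} (hA : MeasurableSet[𝒢] A) {s : Set ℝ} (hs : MeasurableSet s) :
    P (A ∩ {ω | Ψ ((P[t|𝒢]) ω) (t ω) (ξ ω) ∈ s}) = P A * mu01 s := by
  have hπm : Measurable[𝒢] (P[t|𝒢]) := stronglyMeasurable_condExp.measurable
  have hπm' : Measurable (P[t|𝒢]) := hπm.mono h𝒢 le_rfl
  rw [step_fubini (m2 := MeasurableSpace.comap t inferInstance ⊔ 𝒢) P (sup_le ht.comap_le h𝒢) t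
    ((comap_measurable t).mono le_sup_left le_rfl) (P[t|𝒢]) (hπm.mono le_sup_right le_rfl)
    ξ hξ hlaw hind Ψ hΨ (le_sup_right (a := MeasurableSpace.comap t inferInstance) _ hA) hs]
  set k1 : ℝ → ℝ := fun m => (mu01 {x | Ψ m 1 x ∈ s}).toReal with hk1def
  set k0 : ℝ → ℝ := fun m => (mu01 {x | Ψ m 0 x ∈ s}).toReal with hk0def
  have hkm := measurable_k Ψ hΨ hs
  have hk1 : Measurable k1 :=
    (hkm.comp (by fun_prop : Measurable fun m : ℝ => (m, (1:ℝ)))).ennreal_toReal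
  have hk0 : Measurable k0 :=
    (hkm.comp (by fun_prop : Measurable fun m : ℝ => (m, (0:ℝ)))).ennreal_toReal
  have hb : ∀ S : Set ℝ, (mu01 S).toReal ∈ Icc (0:ℝ) 1 := fun S =>
    ⟨ENNReal.toReal_nonneg, by
      have := ENNReal.toReal_mono ENNReal.one_ne_top (prob_le_one (μ := mu01) (s := S))
      simpa using this⟩
  have hreal : ∀ m ∈ Icc (0:ℝ) 1, m * k1 m + (1 - m) * k0 m = (mu01 s).toReal := by
    intro m hm
    have := congrArg ENNReal.toReal (h1D m hm s hs)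
    rw [ENNReal.toReal_add (by finiteness) (by finiteness), ENNReal.toReal_mul, ENNReal.toReal_mul,
      ENNReal.toReal_ofReal hm.1, ENNReal.toReal_ofReal (by linarith [hm.2])] at this
    exact this
  have hcond := step_cond P h𝒢 t ht ht01 k1 k0 hk1 hk0 (fun m => hb _) (fun m => hb _)
    (mu01 s).toReal hreal hA
  have hpt : ∀ ω, mu01 {x | Ψ ((P[t|𝒢]) ω) (t ω) x ∈ s}
      = ENNReal.ofReal (t ω * k1 ((P[t|𝒢]) ω) + (1 - t ω) * k0 ((P[t|𝒢]) ω)) := by
    intro ω
    rcases ht01 ω with h | h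
    · simp [h, hk0def, ENNReal.ofReal_toReal]
    · simp [h, hk1def, ENNReal.ofReal_toReal]
  simp_rw [hpt]
  have hnn : ∀ ω, 0 ≤ t ω * k1 ((P[t|𝒢]) ω) + (1 - t ω) * k0 ((P[t|𝒢]) ω) := by
    intro ω
    have h1 := (hb {x | Ψ ((P[t|𝒢]) ω) 1 x ∈ s}).1
    have h0 := (hb {x | Ψ ((P[t|𝒢]) ω) 0 x ∈ s}).1
    rcases ht01 ω with h | h
    · simpa [h, hk0def] using h0
    · simpa [h, hk1def] using h1
  have hle1 : ∀ ω, t ω * k1 ((P[t|𝒢]) ω) + (1 - t ω) * k0 ((P[t|𝒢]) ω) ≤ 1 := by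
    intro ω
    have h1 := (hb {x | Ψ ((P[t|𝒢]) ω) 1 x ∈ s}).2
    have h0 := (hb {x | Ψ ((P[t|𝒢]) ω) 0 x ∈ s}).2
    rcases ht01 ω with h | h
    · simpa [h, hk0def] using h0
    · simpa [h, hk1def] using h1
  have hint : Integrable (fun ω => t ω * k1 ((P[t|𝒢]) ω) + (1 - t ω) * k0 ((P[t|𝒢]) ω)) P := by
    refine Integrable.of_bound (C := 1) ?_ (ae_of_all _ fun ω => ?_)
    · exact ((ht.mul (hk1.comp hπm')).add
        ((measurable_const.sub ht).mul (hk0.comp hπm'))).aestronglyMeasurable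
    · rw [Real.norm_eq_abs, abs_of_nonneg (hnn ω)]; exact hle1 ω
  rw [← ofReal_integral_eq_lintegral_ofReal hint.integrableOn (ae_of_all _ hnn), hcond,
    ENNReal.ofReal_mul ENNReal.toReal_nonneg, ENNReal.ofReal_toReal (by finiteness), mul_comm,
    Measure.real, ENNReal.ofReal_toReal (by finiteness)]


/-- **One-position lemma.**  `t` = indicator of the spin, `Fl n` = σ-algebra of the observations in
the past of the position inside the `n`-th window, `p n` = (a version of) the posterior mean given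
`Fl n`, `ξ` = fresh uniform noise of the position, `Ψ m b x` = innovation as a function of the
posterior mean `m`, the true spin `b` and the fresh noise `x`.  Then the innovation computed with
`limsup p n` is uniform and independent of the whole past. -/
theorem key (P : Measure Ω) [IsProbabilityMeasure P] (Fl : Filtration ℕ mΩ)
    (t : Ω → ℝ) (ht : Measurable t) (ht01 : ∀ ω, t ω = 0 ∨ t ω = 1)
    (p : ℕ → Ω → ℝ) (hp : ∀ n, p n =ᵐ[P] P[t | Fl n])
    (ξ : Ω → ℝ) (hξ : Measurable ξ) (hlaw : P.map ξ = mu01)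
    (hind : Indep (MeasurableSpace.comap ξ inferInstance)
      (MeasurableSpace.comap t inferInstance ⊔ ⨆ n, Fl n) P)
    (Ψ : ℝ → ℝ → ℝ → ℝ) (hΨ : Measurable fun q : ℝ × ℝ × ℝ => Ψ q.1 q.2.1 q.2.2)
    (h1D : ∀ m ∈ Icc (0:ℝ) 1, ∀ s : Set ℝ, MeasurableSet s →
      ENNReal.ofReal m * mu01 {x | Ψ m 1 x ∈ s} + ENNReal.ofReal (1 - m) * mu01 {x | Ψ m 0 x ∈ s}
        = mu01 s) :
    P.map (fun ω => Ψ (limsup (fun n => p n ω) atTop) (t ω) (ξ ω)) = mu01 ∧
    Indep (MeasurableSpace.comap (fun ω => Ψ (limsup (fun n => p n ω) atTop) (t ω) (ξ ω))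
      inferInstance) (⨆ n, Fl n) P := by
  have h𝒢 : (⨆ n, Fl n) ≤ mΩ := iSup_le fun n => Fl.le n
  set U : Ω → ℝ := fun ω => Ψ (limsup (fun n => p n ω) atTop) (t ω) (ξ ω) with hU
  set U' : Ω → ℝ := fun ω => Ψ ((P[t | ⨆ n, Fl n]) ω) (t ω) (ξ ω) with hU'
  have hπm' : Measurable (P[t | ⨆ n, Fl n]) :=
    (stronglyMeasurable_condExp.measurable).mono h𝒢 le_rfl
  have hU'm : Measurable U' := hΨ.comp (hπm'.prodMk (ht.prodMk hξ))
  have hae : U =ᵐ[P] U' := by
    have h1 := tendsto_ae_condExp (μ := P) (ℱ := Fl) t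
    have h2 := ae_all_iff.2 hp
    filter_upwards [h1, h2] with ω hω1 hω2
    have : Tendsto (fun n => p n ω) atTop (𝓝 ((P[t | ⨆ n, Fl n]) ω)) :=
      hω1.congr fun n => (hω2 n).symm
    simp only [hU, hU', this.limsup_eq]
  have hcore : ∀ {A : Set Ω}, MeasurableSet[⨆ n, Fl n] A → ∀ {s : Set ℝ}, MeasurableSet s →
      P (A ∩ U' ⁻¹' s) = P A * mu01 s := fun hA _ hs =>
    core P h𝒢 t ht ht01 ξ hξ hlaw hind Ψ hΨ h1D hA hs
  have hlawU' : P.map U' = mu01 := by
    ext s hs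
    rw [Measure.map_apply hU'm hs]
    have := hcore (A := univ) MeasurableSet.univ hs
    simpa using this
  refine ⟨by rw [Measure.map_congr hae, hlawU'], ?_⟩
  rw [Indep_iff]
  rintro t1 t2 ⟨s, hs, rfl⟩ ht2
  have hpre : (U ⁻¹' s : Set Ω) =ᵐ[P] (U' ⁻¹' s : Set Ω) := by
    filter_upwards [hae] with ω hω
    change (U ω ∈ s) = (U' ω ∈ s)
    rw [hω]
  have e1 : P (U ⁻¹' s ∩ t2) = P (U' ⁻¹' s ∩ t2) :=
    measure_congr (hpre.inter (ae_eq_refl _))
  have e2 : P (U ⁻¹' s) = P (U' ⁻¹' s) := measure_congr hpre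
  rw [e1, e2, inter_comm, hcore ht2 hs, ← Measure.map_apply hU'm hs, hlawU', mul_comm]


/-- a finite nonempty set has a top element for a transitive total relation -/
lemma exists_top {I : Type*} (lt : I → I → Prop) (htrans : ∀ a b c, lt a b → lt b c → lt a c)
    (htot : ∀ a b, a ≠ b → lt a b ∨ lt b a) (s : Finset I) (hs : s.Nonempty) :
    ∃ a ∈ s, ∀ x ∈ s, x ≠ a → lt x a := by
  classical
  induction hs using Finset.Nonempty.cons_induction with
  | singleton a => exact ⟨a, by simp, by simp⟩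
  | cons b s hb hs ih =>
    obtain ⟨a, ha, hmax⟩ := ih
    have hab : a ≠ b := fun h => hb (h ▸ ha)
    rcases htot a b hab with h | h
    · refine ⟨b, by simp, fun x hx hxb => ?_⟩
      rcases Finset.mem_cons.1 hx with rfl | hx
      · exact absurd rfl hxb
      · by_cases hxa : x = a
        · exact hxa ▸ h
        · exact htrans _ _ _ (hmax x hx hxa) h
    · refine ⟨a, by simp [ha], fun x hx hxa => ?_⟩
      rcases Finset.mem_cons.1 hx with rfl | hx
      · exact h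
      · exact hmax x hx hxa

/-- **Independence from `independent of the past`.**  If every `U i` is independent of a σ-algebra
`Past i` with respect to which all earlier `U j` are measurable (for a transitive total relation
`lt`), then the family `U` is independent. -/
theorem iIndep_of_past {I : Type*} (P : Measure Ω) [IsProbabilityMeasure P] (U : I → Ω → ℝ)
    (lt : I → I → Prop) (htrans : ∀ a b c, lt a b → lt b c → lt a c)
    (htot : ∀ a b, a ≠ b → lt a b ∨ lt b a)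
    (Past : I → MeasurableSpace Ω)
    (hmeas : ∀ i j, lt j i → Measurable[Past i] (U j))
    (hind : ∀ i, Indep (MeasurableSpace.comap (U i) inferInstance) (Past i) P) :
    iIndepFun U P := by
  classical
  rw [iIndepFun_iff_iIndep, iIndep_iff]
  intro s
  induction' hn : s.card with n ih generalizing s
  · intro f _
    rw [Finset.card_eq_zero] at hn
    subst hn
    simp
  · intro f hf
    have hs : s.Nonempty := by
      rw [← Finset.card_pos]; omega
    obtain ⟨a, ha, hmax⟩ := exists_top lt htrans htot s hs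
    have hcard : (s.erase a).card = n := by
      rw [Finset.card_erase_of_mem ha]; omega
    have hrec := ih (s.erase a) hcard (f := f) (fun i hi => hf i (Finset.mem_of_mem_erase hi))
    have hsplit : (⋂ i ∈ s, f i) = f a ∩ ⋂ i ∈ s.erase a, f i := by
      conv_lhs => rw [← Finset.insert_erase ha]
      rw [Finset.set_biInter_insert]
    have hpast : MeasurableSet[Past a] (⋂ i ∈ s.erase a, f i) := by
      refine Finset.measurableSet_biInter _ fun i hi => ?_
      obtain ⟨S, hS, hSf⟩ := hf i (Finset.mem_of_mem_erase hi)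
      rw [← hSf]
      exact hmeas a i (hmax i (Finset.mem_of_mem_erase hi) (Finset.ne_of_mem_erase hi)) hS
    rw [hsplit, (Indep_iff _ _ _).1 (hind a) _ _ (hf a ha) hpast, hrec,
      ← Finset.mul_prod_erase s (fun i => P (f i)) ha]

/-- Corollary: joint law of the innovations. -/
theorem map_eq_infinitePi {I : Type*} [Countable I] (P : Measure Ω) [IsProbabilityMeasure P]
    (U : I → Ω → ℝ) (lt : I → I → Prop) (htrans : ∀ a b c, lt a b → lt b c → lt a c)
    (htot : ∀ a b, a ≠ b → lt a b ∨ lt b a)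
    (Past : I → MeasurableSpace Ω)
    (hmeas : ∀ i j, lt j i → Measurable[Past i] (U j))
    (hind : ∀ i, Indep (MeasurableSpace.comap (U i) inferInstance) (Past i) P)
    (hlaw : ∀ i, P.map (U i) = mu01) :
    P.map (fun ω i => U i ω) = Measure.infinitePi (fun _ : I => mu01) := by
  have hae : ∀ i, AEMeasurable (U i) P := by
    intro i
    by_contra h
    have h0 := Measure.map_of_not_aemeasurable h
    rw [hlaw i] at h0
    have : (mu01 : Measure ℝ) univ = 0 := by rw [h0]; simp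
    simp at this
  rw [(iIndepFun_iff_map_fun_eq_infinitePi_map₀' hae).1
    (iIndep_of_past P U lt htrans htot Past hmeas hind)]
  simp_rw [hlaw]

end Crest.Agent.S0255Key
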