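import Crest.Agent.S0255_Defs

/-!
# ROW168, package A8 (core): Lévy upward step

`drift_eq_condExp_of_bayes`: the drift is the conditional expectation given the whole past,
assuming the finite Bayes formula (package A7) as a hypothesis.
-/

set_option autoImplicit false

namespace Crest.Agent.SL

open MeasureTheory unitInterval Filter Topology
open scoped Classical ENNReal

noncomputable section

namespace Levy

variable {V : Type*}

lemma measurable_clampI : Measurable clampI := by
  unfold clampI
  exact continuous_projIcc.measurable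

lemma measurable_Gm : Measurable (fun p : ℝ × ℝ => Gm p.1 p.2) := by
  unfold Gm
  have hs : Measurable Real.sqrt := Real.continuous_sqrt.measurable
  refine Measurable.div (by fun_prop) ?_
  refine Measurable.add (by fun_prop) ?_
  exact hs.comp (by fun_prop)

lemma measurable_GmI' : Measurable (fun p : ℝ × I => GmI p.1 p.2) := by
  unfold GmI
  refine measurable_clampI.comp ?_
  exact measurable_Gm.comp (measurable_fst.prodMk (measurable_subtype_coe.comp measurable_snd))

lemma measurable_b2r : Measurable b2r := measurable_of_countable _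

lemma measurable_obs' :
    Measurable (fun ω : (V → Bool) × (V × ℕ → I) => obs ω.1 ω.2) := by
  refine measurable_pi_iff.2 fun e => ?_
  unfold obs
  refine measurable_GmI'.comp (Measurable.prodMk ?_ ?_)
  · exact measurable_b2r.comp ((measurable_pi_apply _).comp measurable_fst)
  · exact (measurable_pi_apply _).comp measurable_snd

lemma measurable_maskPastF (t : V × ℕ → I) (e : V × ℕ) (F : Finset V) :
    Measurable (maskPastF t e F) := by
  refine measurable_pi_iff.2 fun e' => ?_
  unfold maskPastF
  by_cases h : Before t e' e ∧ e'.1 ∈ F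
  · simp only [h, and_self, if_true]; exact measurable_pi_apply _
  · simp only [h, if_false]; exact measurable_const

lemma measurable_maskPast (t : V × ℕ → I) (e : V × ℕ) :
    Measurable (maskPast t e) := by
  refine measurable_pi_iff.2 fun e' => ?_
  unfold maskPast
  by_cases h : Before t e' e
  · simp only [h, if_true]; exact measurable_pi_apply _
  · simp only [h, if_false]; exact measurable_const

/-- restriction of an array to the sites in `F`. -/
def restr (F : Finset V) (x : V × ℕ → I) : V × ℕ → I :=
  fun e' => if e'.1 ∈ F then x e' else 0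

lemma measurable_restr (F : Finset V) : Measurable (restr F) := by
  refine measurable_pi_iff.2 fun e' => ?_
  unfold restr
  by_cases h : e'.1 ∈ F
  · simp only [h, if_true]; exact measurable_pi_apply _
  · simp only [h, if_false]; exact measurable_const

lemma maskPastF_eq_restr_of_subset (t : V × ℕ → I) (e : V × ℕ) {F F' : Finset V} (h : F ⊆ F')
    (x : V × ℕ → I) : maskPastF t e F x = restr F (maskPastF t e F' x) := by
  funext e'
  unfold maskPastF restr
  by_cases h1 : e'.1 ∈ F
  · have h2 : e'.1 ∈ F' := h h1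
    simp [h1, h2]
  · simp [h1]

lemma maskPastF_eq_restr (t : V × ℕ → I) (e : V × ℕ) (F : Finset V)
    (x : V × ℕ → I) : maskPastF t e F x = restr F (maskPast t e x) := by
  funext e'
  unfold maskPastF restr maskPast
  by_cases h1 : e'.1 ∈ F
  · simp [h1]
  · simp [h1]

/-- the σ-algebra generated by the past of `e` restricted to the sites of `F`. -/
def sigF (t : V × ℕ → I) (e : V × ℕ) (F : Finset V) :
    MeasurableSpace ((V → Bool) × (V × ℕ → I)) :=
  MeasurableSpace.comap (fun ω : (V → Bool) × (V × ℕ → I) => maskPastF t e F (obs ω.1 ω.2))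
    inferInstance

/-- the σ-algebra generated by the whole past of `e`. -/
def sigP (t : V × ℕ → I) (e : V × ℕ) :
    MeasurableSpace ((V → Bool) × (V × ℕ → I)) :=
  MeasurableSpace.comap (fun ω : (V → Bool) × (V × ℕ → I) => maskPast t e (obs ω.1 ω.2))
    inferInstance

lemma sigF_mono (t : V × ℕ → I) (e : V × ℕ) {F F' : Finset V} (h : F ⊆ F') :
    sigF t e F ≤ sigF t e F' := by
  unfold sigF
  have : (fun ω : (V → Bool) × (V × ℕ → I) => maskPastF t e F (obs ω.1 ω.2))
      = restr F ∘ (fun ω : (V → Bool) × (V × ℕ → I) => maskPastF t e F' (obs ω.1 ω.2)) := by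
    funext ω
    exact maskPastF_eq_restr_of_subset t e h _
  rw [this, ← MeasurableSpace.comap_comp]
  exact MeasurableSpace.comap_mono (measurable_restr F).comap_le

lemma sigF_le_sigP (t : V × ℕ → I) (e : V × ℕ) (F : Finset V) :
    sigF t e F ≤ sigP t e := by
  unfold sigF sigP
  have : (fun ω : (V → Bool) × (V × ℕ → I) => maskPastF t e F (obs ω.1 ω.2))
      = restr F ∘ (fun ω : (V → Bool) × (V × ℕ → I) => maskPast t e (obs ω.1 ω.2)) := by
    funext ω
    exact maskPastF_eq_restr t e F _
  rw [this, ← MeasurableSpace.comap_comp]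
  exact MeasurableSpace.comap_mono (measurable_restr F).comap_le

lemma sigF_le (t : V × ℕ → I) (e : V × ℕ) (F : Finset V) :
    sigF t e F ≤ (inferInstance : MeasurableSpace ((V → Bool) × (V × ℕ → I))) := by
  unfold sigF
  exact ((measurable_maskPastF t e F).comp measurable_obs').comap_le

lemma sigP_le_iSup (t : V × ℕ → I) (e : V × ℕ) (Fs : ℕ → Finset V)
    (hex : ∀ w, ∃ n, w ∈ Fs n) : sigP t e ≤ ⨆ n, sigF t e (Fs n) := by
  unfold sigP
  rw [← measurable_iff_comap_le]
  refine @measurable_pi_iff _ _ _ (⨆ n, sigF t e (Fs n)) _ _ |>.2 fun e' => ?_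
  obtain ⟨n, hn⟩ := hex e'.1
  have h1 : (fun ω : (V → Bool) × (V × ℕ → I) => maskPast t e (obs ω.1 ω.2) e')
      = (fun y : V × ℕ → I => y e') ∘
        (fun ω : (V → Bool) × (V × ℕ → I) => maskPastF t e (Fs n) (obs ω.1 ω.2)) := by
    funext ω
    simp [maskPast, maskPastF, hn]
  rw [h1]
  have h2 : @Measurable _ _ (sigF t e (Fs n)) _
      (fun ω : (V → Bool) × (V × ℕ → I) => maskPastF t e (Fs n) (obs ω.1 ω.2)) :=
    comap_measurable _
  have h3 : @Measurable _ _ (⨆ n, sigF t e (Fs n)) _
      (fun ω : (V → Bool) × (V × ℕ → I) => maskPastF t e (Fs n) (obs ω.1 ω.2)) :=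
    h2.mono (le_iSup (fun n => sigF t e (Fs n)) n) le_rfl
  exact (measurable_pi_apply e').comp h3

lemma iSup_sigF (t : V × ℕ → I) (e : V × ℕ) (Fs : ℕ → Finset V)
    (hex : ∀ w, ∃ n, w ∈ Fs n) : ⨆ n, sigF t e (Fs n) = sigP t e :=
  le_antisymm (iSup_le fun n => sigF_le_sigP t e (Fs n)) (sigP_le_iSup t e Fs hex)

/-- the filtration of the pasts restricted to an exhaustion. -/
def filt (t : V × ℕ → I) (e : V × ℕ) (Fs : ℕ → Finset V) (hmono : Monotone Fs) :
    Filtration ℕ (inferInstance : MeasurableSpace ((V → Bool) × (V × ℕ → I))) where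
  seq n := sigF t e (Fs n)
  mono' _ _ h := sigF_mono t e (hmono h)
  le' n := sigF_le t e (Fs n)

end Levy

variable {V : Type*}

/-- A8 (core): the drift is the conditional expectation given the whole past, provided the finite
Bayes formula holds. -/
theorem drift_eq_condExp_of_bayes (ν : Measure (V → Bool)) [IsProbabilityMeasure ν]
    (E : V → ℕ → Finset V) (hmono : ∀ v, Monotone (E v))
    (hex : ∀ v w, ∃ n, w ∈ E v n) (t : V × ℕ → I) (v : V) (k : ℕ)
    (hbayes : ∀ F : Finset V,
      (fun ω : (V → Bool) × (V × ℕ → I) => mq (inclOf ν) F (field (obs ω.1 ω.2) t v k) v)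
      =ᵐ[ν.prod (noise V)] (ν.prod (noise V))[fun ω => b2r (ω.1 v) |
        MeasurableSpace.comap
          (fun ω : (V → Bool) × (V × ℕ → I) => maskPastF t (v, k) F (obs ω.1 ω.2))
          inferInstance]) :
    (fun ω : (V → Bool) × (V × ℕ → I) => drift (inclOf ν) E (obs ω.1 ω.2) t v k)
      =ᵐ[ν.prod (noise V)] (ν.prod (noise V))[fun ω => b2r (ω.1 v) |
        MeasurableSpace.comap
          (fun ω : (V → Bool) × (V × ℕ → I) => maskPast t (v, k) (obs ω.1 ω.2))
          inferInstance] := by
  have : IsProbabilityMeasure (noise V) := by unfold noise; infer_instance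
  have hL := MeasureTheory.tendsto_ae_condExp (μ := ν.prod (noise V))
    (ℱ := Levy.filt t (v, k) (E v) (hmono v)) (fun ω => b2r (ω.1 v))
  have hsup : (⨆ n, (Levy.filt t (v, k) (E v) (hmono v)) n) = Levy.sigP t (v, k) :=
    Levy.iSup_sigF t (v, k) (E v) (hex v)
  rw [hsup] at hL
  have hB : ∀ᵐ ω ∂(ν.prod (noise V)), ∀ n : ℕ,
      mq (inclOf ν) (E v n) (field (obs ω.1 ω.2) t v k) v
        = ((ν.prod (noise V))[fun ω => b2r (ω.1 v) | Levy.sigF t (v, k) (E v n)]) ω :=
    ae_all_iff.2 fun n => hbayes (E v n)
  filter_upwards [hL, hB] with ω h1 h2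
  have h3 : Tendsto (fun n => mq (inclOf ν) (E v n) (field (obs ω.1 ω.2) t v k) v) atTop
      (𝓝 (((ν.prod (noise V))[fun ω => b2r (ω.1 v) | Levy.sigP t (v, k)]) ω)) := by
    refine h1.congr fun n => ?_
    exact (h2 n).symm
  exact h3.limsup_eq

end

end Crest.Agent.SL
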