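import Crest.Agent.S0255_Channel
import Crest.Agent.S0255_Meas

/-!
# ROW168, package A9 (core): the innovation of an event is uniform and independent of its past

The facts of A1 part 2 (`map_GmI`, `lintegral_FmI_dens`), A3 (`drift_mem`, `drift_congr`) and A8
(`drift_eq_condExp`) enter as explicit hypotheses; the wrapper `S0255_Peel.lean` discharges them.
-/

set_option autoImplicit false

namespace Crest.Agent.SL

open MeasureTheory unitInterval Filter Topology
open scoped Classical ENNReal

noncomputable section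

variable {V : Type*}

namespace Peel

/-- Resampling one coordinate of an iid array does not change its law. -/
lemma map_update_noise (e : V × ℕ) :
    ((noise V).prod (volume : Measure I)).map
      (fun p : (V × ℕ → I) × I => Function.update p.1 e p.2) = noise V := by
  unfold noise
  refine Measure.eq_infinitePi _ fun s t ht => ?_
  have hm : Measurable (fun p : (V × ℕ → I) × I => Function.update p.1 e p.2) :=
    measurable_update'
  rw [Measure.map_apply hm (.pi s.countable_toSet fun _ _ => ht _)]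
  have hpre : (fun p : (V × ℕ → I) × I => Function.update p.1 e p.2) ⁻¹' ((s : Set (V × ℕ)).pi t)
      = (((s.erase e : Finset (V × ℕ)) : Set (V × ℕ)).pi t) ×ˢ
        (if e ∈ s then t e else Set.univ) := by
    ext p
    simp only [Set.mem_preimage, Set.mem_pi, Finset.mem_coe, Set.mem_prod, Finset.mem_erase]
    constructor
    · intro h
      refine ⟨fun i hi => ?_, ?_⟩
      · have := h i hi.2
        rwa [Function.update_of_ne hi.1] at this
      · split_ifs with he
        · have := h e he
          rwa [Function.update_self] at this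
        · trivial
    · rintro ⟨h1, h2⟩ i hi
      by_cases hie : i = e
      · subst hie
        rw [if_pos hi] at h2
        rwa [Function.update_self]
      · rw [Function.update_of_ne hie]
        exact h1 i ⟨hie, hi⟩
  rw [hpre, Measure.prod_prod, Measure.infinitePi_pi _ (fun i _ => ht i)]
  by_cases he : e ∈ s
  · rw [if_pos he, ← Finset.mul_prod_erase s _ he, mul_comm]
  · rw [if_neg he, Finset.erase_eq_of_notMem he]
    simp

instance : IsProbabilityMeasure (noise V) := by unfold noise; infer_instance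

/-- Resampling one coordinate of the channel noise preserves the true law. -/
lemma measurePreserving_resample (ν : Measure (V → Bool)) [IsProbabilityMeasure ν] (e : V × ℕ) :
    MeasurePreserving
      (fun p : ((V → Bool) × (V × ℕ → I)) × I => (p.1.1, Function.update p.1.2 e p.2))
      ((ν.prod (noise V)).prod (volume : Measure I)) (ν.prod (noise V)) := by
  have h1 : MeasurePreserving (fun p : (V × ℕ → I) × I => Function.update p.1 e p.2)
      ((noise V).prod (volume : Measure I)) (noise V) :=
    ⟨measurable_update', map_update_noise e⟩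
  have h2 := (MeasurePreserving.id ν).prod h1
  have h3 := measurePreserving_prodAssoc ν (noise V) (volume : Measure I)
  exact h2.comp h3

/-- Abstract core: replacing the bit by its conditional mean. -/
lemma core {Ω Y : Type*} [mΩ : MeasurableSpace Ω] [MeasurableSpace Y] (μ : Measure Ω)
    [IsProbabilityMeasure μ] (P : Ω → Y) (hP : Measurable P) (b : Ω → ℝ) (hb : Measurable b)
    (hb01 : ∀ ω, b ω ∈ Set.Icc (0 : ℝ) 1) (D : Y → ℝ) (hD : Measurable D)
    (hD01 : ∀ y, D y ∈ Set.Icc (0 : ℝ) 1)
    (hM : (fun ω => D (P ω)) =ᵐ[μ] μ[b | MeasurableSpace.comap P inferInstance])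
    (k0 k1 : ℝ → ℝ) (hk0 : Measurable k0) (hk1 : Measurable k1)
    (h0 : ∀ m, k0 m ∈ Set.Icc (0 : ℝ) 1) (h1 : ∀ m, k1 m ∈ Set.Icc (0 : ℝ) 1) (c : ℝ)
    (hc : ∀ m ∈ Set.Icc (0 : ℝ) 1, (1 - m) * k0 m + m * k1 m = c)
    (S : Set Y) (hS : MeasurableSet S) :
    ∫ ω, (P ⁻¹' S).indicator (fun ω => (1 - b ω) * k0 (D (P ω)) + b ω * k1 (D (P ω))) ω ∂μ
      = c * μ.real (P ⁻¹' S) := by
  set m𝒢 : MeasurableSpace Ω := MeasurableSpace.comap P inferInstance with hm𝒢
  have hle : m𝒢 ≤ mΩ := hP.comap_le
  -- the `𝒢`-measurable factor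
  set G : Y → ℝ := fun y => S.indicator (fun y => k1 (D y) - k0 (D y)) y with hG
  have hGm : Measurable G := (((hk1.comp hD).sub (hk0.comp hD))).indicator hS
  set G0 : Y → ℝ := fun y => S.indicator (fun y => k0 (D y)) y with hG0
  have hG0m : Measurable G0 := (hk0.comp hD).indicator hS
  have hGb : ∀ y, ‖G y‖ ≤ 1 := by
    intro y
    simp only [hG, Set.indicator]
    split_ifs
    · rw [Real.norm_eq_abs, abs_le]
      constructor <;> linarith [(h0 (D y)).1, (h0 (D y)).2, (h1 (D y)).1, (h1 (D y)).2]
    · simp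
  have hG0b : ∀ y, ‖G0 y‖ ≤ 1 := by
    intro y
    simp only [hG0, Set.indicator]
    split_ifs
    · rw [Real.norm_eq_abs, abs_le]
      constructor <;> linarith [(h0 (D y)).1, (h0 (D y)).2]
    · simp
  have hbint : Integrable b μ :=
    Integrable.of_bound hb.aestronglyMeasurable 1 (Eventually.of_forall fun ω => by
      rw [Real.norm_eq_abs, abs_le]; constructor <;> linarith [(hb01 ω).1, (hb01 ω).2])
  have hGPsm : StronglyMeasurable[m𝒢] (fun ω => G (P ω)) :=
    (hGm.comp (comap_measurable P)).stronglyMeasurable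
  have hpull := condExp_stronglyMeasurable_mul_of_bound hle hGPsm hbint 1
    (Eventually.of_forall fun ω => hGb (P ω))
  have hI1 : ∫ ω, G (P ω) * b ω ∂μ = ∫ ω, G (P ω) * D (P ω) ∂μ := by
    have e1 : ∫ ω, G (P ω) * b ω ∂μ = ∫ ω, (μ[(fun ω => G (P ω)) * b | m𝒢]) ω ∂μ :=
      (integral_condExp hle).symm
    rw [e1]
    refine integral_congr_ae ?_
    filter_upwards [hpull, hM] with ω h1 h2
    rw [h1, Pi.mul_apply, ← h2]
  have hGPint : Integrable (fun ω => G (P ω) * b ω) μ :=
    Integrable.of_bound ((hGm.comp hP).mul hb).aestronglyMeasurable 1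
      (Eventually.of_forall fun ω => by
        rw [norm_mul]
        have hb1 : ‖b ω‖ ≤ 1 := by
          rw [Real.norm_eq_abs, abs_le]; constructor <;> linarith [(hb01 ω).1, (hb01 ω).2]
        calc ‖G (P ω)‖ * ‖b ω‖ ≤ 1 * 1 := by gcongr; exact hGb _
          _ = 1 := one_mul 1)
  have hGDint : Integrable (fun ω => G (P ω) * D (P ω)) μ :=
    Integrable.of_bound ((hGm.comp hP).mul (hD.comp hP)).aestronglyMeasurable 1
      (Eventually.of_forall fun ω => by
        rw [norm_mul]
        have hb1 : ‖D (P ω)‖ ≤ 1 := by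
          rw [Real.norm_eq_abs, abs_le]
          constructor <;> linarith [(hD01 (P ω)).1, (hD01 (P ω)).2]
        calc ‖G (P ω)‖ * ‖D (P ω)‖ ≤ 1 * 1 := by gcongr; exact hGb _
          _ = 1 := one_mul 1)
  have hG0int : Integrable (fun ω => G0 (P ω)) μ :=
    Integrable.of_bound (hG0m.comp hP).aestronglyMeasurable 1
      (Eventually.of_forall fun ω => hG0b (P ω))
  calc ∫ ω, (P ⁻¹' S).indicator
          (fun ω => (1 - b ω) * k0 (D (P ω)) + b ω * k1 (D (P ω))) ω ∂μ
      = ∫ ω, (G0 (P ω) + G (P ω) * b ω) ∂μ := by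
        refine integral_congr_ae (Eventually.of_forall fun ω => ?_)
        by_cases hω : P ω ∈ S
        · have hω' : ω ∈ P ⁻¹' S := hω
          simp only [hG, hG0, Set.indicator_of_mem hω, Set.indicator_of_mem hω']
          ring
        · have hω' : ω ∉ P ⁻¹' S := hω
          simp only [hG, hG0, Set.indicator_of_notMem hω, Set.indicator_of_notMem hω']
          ring
    _ = ∫ ω, G0 (P ω) ∂μ + ∫ ω, G (P ω) * b ω ∂μ := integral_add hG0int hGPint
    _ = ∫ ω, G0 (P ω) ∂μ + ∫ ω, G (P ω) * D (P ω) ∂μ := by rw [hI1]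
    _ = ∫ ω, (G0 (P ω) + G (P ω) * D (P ω)) ∂μ := (integral_add hG0int hGDint).symm
    _ = ∫ ω, (P ⁻¹' S).indicator (fun _ => c) ω ∂μ := by
        refine integral_congr_ae (Eventually.of_forall fun ω => ?_)
        by_cases hω : P ω ∈ S
        · have hω' : ω ∈ P ⁻¹' S := hω
          simp only [hG, hG0, Set.indicator_of_mem hω, Set.indicator_of_mem hω']
          rw [← hc (D (P ω)) (hD01 _)]
          ring
        · have hω' : ω ∉ P ⁻¹' S := hω
          simp only [hG, hG0, Set.indicator_of_notMem hω, Set.indicator_of_notMem hω']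
          ring
    _ = c * μ.real (P ⁻¹' S) := by
        rw [integral_indicator_const c (hP hS), smul_eq_mul, mul_comm]

/-- probability that the innovation computed with drift `m` falls in `B`, when the observation
has density `dens i`. -/
def kap (B : Set I) (i m : ℝ) : ℝ≥0∞ := volume {r : I | FmI m (GmI i r) ∈ B}

/-- the two measure-theoretic facts about the channel (A1, part 2). -/
def ChanOK : Prop :=
  (∀ m ∈ Set.Icc (0 : ℝ) 1, (volume : Measure I).map (GmI m)
      = volume.withDensity (fun y : I => ENNReal.ofReal (dens m y))) ∧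
  (∀ m ∈ Set.Icc (0 : ℝ) 1, ∀ B : Set I, MeasurableSet B →
    ∫⁻ y : I, (B.indicator (fun _ => (1 : ℝ≥0∞)) (FmI m y)) * ENNReal.ofReal (dens m y)
      = volume B)

lemma measurable_FmI_GmI (i : ℝ) : Measurable (fun p : ℝ × I => FmI p.1 (GmI i p.2)) := by
  have h1 : Measurable (fun p : ℝ × I => GmI i p.2) :=
    measurable_GmI.comp (measurable_const.prodMk measurable_snd)
  exact measurable_FmI.comp (measurable_fst.prodMk h1)

lemma measurable_kap (B : Set I) (hB : MeasurableSet B) (i : ℝ) : Measurable (kap B i) := by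
  have hs : MeasurableSet {p : ℝ × I | FmI p.1 (GmI i p.2) ∈ B} := measurable_FmI_GmI i hB
  exact measurable_measure_prodMk_left hs

lemma kap_le_one (B : Set I) (i m : ℝ) : kap B i m ≤ 1 := prob_le_one

lemma kap_eq (hch : ChanOK) (B : Set I) (hB : MeasurableSet B) {i : ℝ} (hi : i ∈ Set.Icc (0 : ℝ) 1) (m : ℝ) :
    kap B i m = ∫⁻ y : I, (B.indicator (fun _ => (1 : ℝ≥0∞)) (FmI m y)) *
      ENNReal.ofReal (dens i y) := by
  have hF : Measurable (FmI m) := measurable_FmI.comp (measurable_const.prodMk measurable_id)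
  have hG : Measurable (GmI i) := measurable_GmI.comp (measurable_const.prodMk measurable_id)
  have hset : MeasurableSet (FmI m ⁻¹' B) := hF hB
  have h1 : kap B i m = ((volume : Measure I).map (GmI i)) (FmI m ⁻¹' B) := by
    rw [Measure.map_apply hG hset]; rfl
  rw [h1, hch.1 i hi, withDensity_apply _ hset, ← lintegral_indicator hset]
  refine lintegral_congr fun y => ?_
  by_cases hy : FmI m y ∈ B
  · have hy' : y ∈ FmI m ⁻¹' B := hy
    rw [Set.indicator_of_mem hy', Set.indicator_of_mem hy, one_mul]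
  · have hy' : y ∉ FmI m ⁻¹' B := hy
    rw [Set.indicator_of_notMem hy', Set.indicator_of_notMem hy, zero_mul]

lemma kap_mix (hch : ChanOK) (B : Set I) (hB : MeasurableSet B) {m : ℝ} (hm : m ∈ Set.Icc (0 : ℝ) 1) :
    (1 - m) * (kap B 0 m).toReal + m * (kap B 1 m).toReal = (volume B).toReal := by
  have hF : Measurable (FmI m) := measurable_FmI.comp (measurable_const.prodMk measurable_id)
  have hind : Measurable (fun y : I => B.indicator (fun _ => (1 : ℝ≥0∞)) (FmI m y)) :=
    (measurable_const.indicator hB).comp hF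
  have hdm : ∀ i : ℝ, Measurable (fun y : I => ENNReal.ofReal (dens i y)) := by
    intro i
    unfold dens
    fun_prop
  have hm0 : Measurable (fun y : I => B.indicator (fun _ => (1 : ℝ≥0∞)) (FmI m y) *
      ENNReal.ofReal (dens 0 y)) := hind.mul (hdm 0)
  have hm1 : Measurable (fun y : I => B.indicator (fun _ => (1 : ℝ≥0∞)) (FmI m y) *
      ENNReal.ofReal (dens 1 y)) := hind.mul (hdm 1)
  have key : ENNReal.ofReal (1 - m) * kap B 0 m + ENNReal.ofReal m * kap B 1 m = volume B := by
    rw [kap_eq hch B hB (by constructor <;> norm_num), kap_eq hch B hB (by constructor <;> norm_num),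
      ← lintegral_const_mul _ hm0, ← lintegral_const_mul _ hm1,
      ← lintegral_add_left (hm0.const_mul _), ← hch.2 m hm B hB]
    refine lintegral_congr fun y => ?_
    have hy : (y : ℝ) ∈ Set.Icc (0 : ℝ) 1 := y.2
    have d0 : 0 ≤ dens 0 y := by
      have := dens_pos (m := 0) (by constructor <;> norm_num) hy; linarith
    have d1 : 0 ≤ dens 1 y := by
      have := dens_pos (m := 1) (by constructor <;> norm_num) hy; linarith
    rw [dens_mix m y, ENNReal.ofReal_add (mul_nonneg (by linarith [hm.2]) d0)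
      (mul_nonneg hm.1 d1), ENNReal.ofReal_mul (by linarith [hm.2]), ENNReal.ofReal_mul hm.1]
    ring
  have h0 : kap B 0 m ≠ ⊤ := ne_top_of_le_ne_top ENNReal.one_ne_top (kap_le_one B 0 m)
  have h1 : kap B 1 m ≠ ⊤ := ne_top_of_le_ne_top ENNReal.one_ne_top (kap_le_one B 1 m)
  rw [← key, ENNReal.toReal_add (ENNReal.mul_ne_top ENNReal.ofReal_ne_top h0)
    (ENNReal.mul_ne_top ENNReal.ofReal_ne_top h1), ENNReal.toReal_mul, ENNReal.toReal_mul,
    ENNReal.toReal_ofReal (by linarith [hm.2]), ENNReal.toReal_ofReal hm.1]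

lemma not_before_self (t : V × ℕ → I) (e : V × ℕ) : ¬ Before t e e := by
  rintro (h | ⟨_, h⟩)
  · exact lt_irrefl _ h
  · exact lt_irrefl _ h

lemma maskPast_obs_update (t : V × ℕ → I) (e : V × ℕ) (X : V → Bool) (R : V × ℕ → I) (r : I) :
    maskPast t e (obs X (Function.update R e r)) = maskPast t e (obs X R) := by
  funext e'
  unfold maskPast
  split_ifs with h
  · have hne : e' ≠ e := by
      rintro rfl
      exact not_before_self t _ h
    unfold obs
    rw [Function.update_of_ne hne]
  · rfl

lemma measurable_maskPast (t : V × ℕ → I) (e : V × ℕ) : Measurable (maskPast t e) := by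
  refine measurable_pi_lambda _ fun e' => ?_
  unfold maskPast
  by_cases h : Before t e' e
  · simp only [if_pos h]; exact measurable_pi_apply e'
  · simp only [if_neg h]; exact measurable_const

/-- the masked observations -/
def Pm (t : V × ℕ → I) (e : V × ℕ) (ω : (V → Bool) × (V × ℕ → I)) : V × ℕ → I :=
  maskPast t e (obs ω.1 ω.2)

/-- the drift as a function of the array -/
def Dm (q : Finset V → ℝ) (E : V → ℕ → Finset V) (t : V × ℕ → I) (v : V) (k : ℕ)
    (y : V × ℕ → I) : ℝ := drift q E y t v k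

/-- the bit -/
def bm (v : V) (ω : (V → Bool) × (V × ℕ → I)) : ℝ := b2r (ω.1 v)

lemma measurable_Pm [Countable V] (t : V × ℕ → I) (e : V × ℕ) : Measurable (Pm t e) :=
  (measurable_maskPast t e).comp measurable_obs

lemma measurable_Dm [Countable V] (q : Finset V → ℝ) (E : V → ℕ → Finset V) (t : V × ℕ → I)
    (v : V) (k : ℕ) : Measurable (Dm q E t v k) := by
  have h1 : Measurable (fun y : V × ℕ → I => (y, t)) := measurable_id.prodMk measurable_const
  have h2 := (measurable_drift q E v k).comp h1
  exact h2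

lemma measurable_bm (v : V) : Measurable (bm v) := by
  have h1 : Measurable (fun c : Bool => b2r c) := measurable_of_countable _
  exact h1.comp ((measurable_pi_apply v).comp measurable_fst)

lemma bm_mem (v : V) (ω : (V → Bool) × (V × ℕ → I)) : bm v ω ∈ Set.Icc (0 : ℝ) 1 := by
  simp only [bm, b2r]
  split_ifs <;> constructor <;> norm_num

lemma innov_update (q : Finset V → ℝ) (E : V → ℕ → Finset V) (t : V × ℕ → I) (v : V) (k : ℕ)
    (hcongr : ∀ x, drift q E x t v k = drift q E (maskPast t (v, k) x) t v k)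
    (ω : (V → Bool) × (V × ℕ → I)) (r : I) :
    innov q E (obs ω.1 (Function.update ω.2 (v, k) r)) t (v, k)
      = FmI (Dm q E t v k (Pm t (v, k) ω)) (GmI (bm v ω) r) := by
  unfold innov Dm Pm bm
  simp only
  rw [hcongr, maskPast_obs_update]
  simp only [obs, Function.update_self]

/-- the real integrand -/
def fm (q : Finset V → ℝ) (E : V → ℕ → Finset V) (t : V × ℕ → I) (v : V) (k : ℕ)
    (S : Set (V × ℕ → I)) (B : Set I) (ω : (V → Bool) × (V × ℕ → I)) : ℝ :=
  (Pm t (v, k) ⁻¹' S).indicator
    (fun ω => (1 - bm v ω) * (kap B 0 (Dm q E t v k (Pm t (v, k) ω))).toReal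
      + bm v ω * (kap B 1 (Dm q E t v k (Pm t (v, k) ω))).toReal) ω

lemma kap_toReal_mem (B : Set I) (i m : ℝ) : (kap B i m).toReal ∈ Set.Icc (0 : ℝ) 1 :=
  ⟨ENNReal.toReal_nonneg, by
    have := ENNReal.toReal_mono ENNReal.one_ne_top (kap_le_one B i m); simpa using this⟩

lemma measurable_kap_toReal (B : Set I) (hB : MeasurableSet B) (i : ℝ) :
    Measurable (fun m => (kap B i m).toReal) := (measurable_kap B hB i).ennreal_toReal

lemma measurable_fm [Countable V] (q : Finset V → ℝ) (E : V → ℕ → Finset V) (t : V × ℕ → I)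
    (v : V) (k : ℕ) (S : Set (V × ℕ → I)) (hS : MeasurableSet S) (B : Set I)
    (hB : MeasurableSet B) : Measurable (fm q E t v k S B) := by
  refine Measurable.indicator ?_ (measurable_Pm t (v, k) hS)
  have hDP := (measurable_Dm q E t v k).comp (measurable_Pm t (v, k))
  exact ((measurable_const.sub (measurable_bm v)).mul
    ((measurable_kap_toReal B hB 0).comp hDP)).add
      ((measurable_bm v).mul ((measurable_kap_toReal B hB 1).comp hDP))

lemma fm_nonneg (q : Finset V → ℝ) (E : V → ℕ → Finset V) (t : V × ℕ → I)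
    (v : V) (k : ℕ) (S : Set (V × ℕ → I)) (B : Set I) (ω : (V → Bool) × (V × ℕ → I)) :
    0 ≤ fm q E t v k S B ω := by
  refine Set.indicator_nonneg (fun ω _ => ?_) ω
  have := bm_mem v ω
  exact add_nonneg (mul_nonneg (by linarith [this.2]) (kap_toReal_mem _ _ _).1)
    (mul_nonneg this.1 (kap_toReal_mem _ _ _).1)

lemma fm_le_one (q : Finset V → ℝ) (E : V → ℕ → Finset V) (t : V × ℕ → I)
    (v : V) (k : ℕ) (S : Set (V × ℕ → I)) (B : Set I) (ω : (V → Bool) × (V × ℕ → I)) :
    fm q E t v k S B ω ≤ 1 := by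
  refine Set.indicator_le' (fun ω _ => ?_) (fun _ _ => zero_le_one) ω
  have h1 := bm_mem v ω
  have h2 := kap_toReal_mem B 0 (Dm q E t v k (Pm t (v, k) ω))
  have h3 := kap_toReal_mem B 1 (Dm q E t v k (Pm t (v, k) ω))
  nlinarith [mul_le_mul_of_nonneg_left h2.2 (sub_nonneg.2 h1.2),
    mul_le_mul_of_nonneg_left h3.2 h1.1]

lemma section_eq (q : Finset V → ℝ) (E : V → ℕ → Finset V) (t : V × ℕ → I)
    (v : V) (k : ℕ) (hcongr : ∀ x, drift q E x t v k = drift q E (maskPast t (v, k) x) t v k)
    (S : Set (V × ℕ → I)) (B : Set I) (ω : (V → Bool) × (V × ℕ → I)) :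
    (volume : Measure I) {r | maskPast t (v, k) (obs ω.1 (Function.update ω.2 (v, k) r)) ∈ S ∧
        innov q E (obs ω.1 (Function.update ω.2 (v, k) r)) t (v, k) ∈ B}
      = ENNReal.ofReal (fm q E t v k S B ω) := by
  have hset : {r : I | maskPast t (v, k) (obs ω.1 (Function.update ω.2 (v, k) r)) ∈ S ∧
        innov q E (obs ω.1 (Function.update ω.2 (v, k) r)) t (v, k) ∈ B}
      = {r : I | Pm t (v, k) ω ∈ S ∧
          FmI (Dm q E t v k (Pm t (v, k) ω)) (GmI (bm v ω) r) ∈ B} := by
    ext r
    simp only [Set.mem_ofPred_eq]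
    rw [maskPast_obs_update, innov_update q E t v k hcongr]
    rfl
  rw [hset]
  by_cases hω : Pm t (v, k) ω ∈ S
  · have hω' : ω ∈ Pm t (v, k) ⁻¹' S := hω
    simp only [fm, Set.indicator_of_mem hω', hω, true_and]
    have hk : ∀ i, kap B i (Dm q E t v k (Pm t (v, k) ω)) ≠ ⊤ := fun i =>
      ne_top_of_le_ne_top ENNReal.one_ne_top (kap_le_one B i _)
    change kap B (bm v ω) (Dm q E t v k (Pm t (v, k) ω)) = _
    rcases hbv : ω.1 v with _ | _
    · have : bm v ω = 0 := by simp [bm, b2r, hbv]
      rw [this]; simp [ENNReal.ofReal_toReal (hk 0)]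
    · have : bm v ω = 1 := by simp [bm, b2r, hbv]
      rw [this]; simp [ENNReal.ofReal_toReal (hk 1)]
  · have hω' : ω ∉ Pm t (v, k) ⁻¹' S := hω
    simp only [fm, Set.indicator_of_notMem hω', hω, false_and]
    simp

/-- A9 (core): the innovation of an event is uniform and independent of its past -/
theorem peel_core [Countable V] (ν : Measure (V → Bool)) [IsProbabilityMeasure ν]
    (q : Finset V → ℝ) (E : V → ℕ → Finset V) (t : V × ℕ → I) (v : V) (k : ℕ)
    (hch : ChanOK)
    (hmem : ∀ x, drift q E x t v k ∈ Set.Icc (0 : ℝ) 1)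
    (hcongr : ∀ x, drift q E x t v k = drift q E (maskPast t (v, k) x) t v k)
    (hcond : (fun ω : (V → Bool) × (V × ℕ → I) => drift q E (obs ω.1 ω.2) t v k)
      =ᵐ[tru ν] (tru ν)[fun ω => b2r (ω.1 v) |
        MeasurableSpace.comap
          (fun ω : (V → Bool) × (V × ℕ → I) => maskPast t (v, k) (obs ω.1 ω.2)) inferInstance])
    (S : Set (V × ℕ → I)) (hS : MeasurableSet S) (B : Set I) (hB : MeasurableSet B) :
    tru ν {ω | maskPast t (v, k) (obs ω.1 ω.2) ∈ S ∧ innov q E (obs ω.1 ω.2) t (v, k) ∈ B}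
      = volume B * tru ν {ω | maskPast t (v, k) (obs ω.1 ω.2) ∈ S} := by
  have hP := measurable_Pm (V := V) t (v, k)
  have hM : (fun ω => Dm q E t v k (Pm t (v, k) ω)) =ᵐ[ν.prod (noise V)]
      (ν.prod (noise V))[bm v | MeasurableSpace.comap (Pm t (v, k)) inferInstance] := by
    refine Filter.EventuallyEq.trans (Eventually.of_forall fun ω => ?_) hcond
    exact (hcongr (obs ω.1 ω.2)).symm
  have hinn : Measurable (fun ω : (V → Bool) × (V × ℕ → I) =>
      innov q E (obs ω.1 ω.2) t (v, k)) :=
    (measurable_pi_apply (v, k)).comp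
      ((measurable_innov q E).comp (measurable_obs.prodMk measurable_const))
  have hTm : MeasurableSet {ω : (V → Bool) × (V × ℕ → I) |
      maskPast t (v, k) (obs ω.1 ω.2) ∈ S ∧ innov q E (obs ω.1 ω.2) t (v, k) ∈ B} :=
    (hP hS).inter (hinn hB)
  have hres := measurePreserving_resample ν (v, k)
  have hfint : Integrable (fm q E t v k S B) (ν.prod (noise V)) :=
    Integrable.of_bound (measurable_fm _ E t v k S hS B hB).aestronglyMeasurable 1
      (Eventually.of_forall fun ω => by
        rw [Real.norm_eq_abs, abs_of_nonneg (fm_nonneg _ _ _ _ _ _ _ ω)]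
        exact fm_le_one _ _ _ _ _ _ _ ω)
  have hcore : ∫ ω, fm q E t v k S B ω ∂(ν.prod (noise V))
      = (volume B).toReal * (ν.prod (noise V)).real (Pm t (v, k) ⁻¹' S) :=
    core (ν.prod (noise V)) (Pm t (v, k)) hP (bm v) (measurable_bm v) (bm_mem v)
      (Dm q E t v k) (measurable_Dm _ E t v k) hmem hM
      (fun m => (kap B 0 m).toReal) (fun m => (kap B 1 m).toReal)
      (measurable_kap_toReal B hB 0) (measurable_kap_toReal B hB 1)
      (kap_toReal_mem B 0) (kap_toReal_mem B 1) (volume B).toReal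
      (fun m hm => kap_mix hch B hB hm) S hS
  rw [← hres.measure_preimage hTm.nullMeasurableSet, Measure.prod_apply (hres.measurable hTm)]
  refine (lintegral_congr fun ω => section_eq q E t v k hcongr S B ω).trans ?_
  rw [← ofReal_integral_eq_lintegral_ofReal hfint (Eventually.of_forall (fm_nonneg _ _ _ _ _ _ _)),
    hcore, ENNReal.ofReal_mul ENNReal.toReal_nonneg, ENNReal.ofReal_toReal (measure_ne_top _ _),
    Measure.real, ENNReal.ofReal_toReal (measure_ne_top _ _)]
  rfl

end Peel

end

end Crest.Agent.SL
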