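import Mathlib
import Crest.Agent.S0254_Eqns
import Crest.Prelude.Def_Labels

/-!
# S0254 / S0255, package SPLIT : splitting one uniform label per site into countably many
independent uniform labels per site.
-/

set_option autoImplicit false

namespace Crest.Agent.S0255

open MeasureTheory Crest.ProbabilityR.Labels

instance instProbLabel (V : Type*) : IsProbabilityMeasure (labelMeasure V) := by
  unfold labelMeasure; infer_instance

/-- A measurable map from `[0,1]` to `[0,1]^K` (`K` countable) pushing the uniform measure to the
product of the uniform measures. -/
theorem exists_split (K : Type*) [Countable K] :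
    ∃ s : unitInterval → (K → unitInterval), Measurable s ∧
      (volume : Measure unitInterval).map s = labelMeasure K :=
  Measure.exists_measurable_map_eq (labelMeasure K)

/-- the site-wise splitting map. -/
def splitMap {V K : Type*} (s : unitInterval → (K → unitInterval)) (u : V → unitInterval) :
    V × K → unitInterval := fun p => s (u p.1) p.2

theorem measurable_splitMap {V K : Type*} {s : unitInterval → (K → unitInterval)}
    (hs : Measurable s) : Measurable (splitMap (V := V) s) := by
  unfold splitMap
  rw [measurable_pi_iff]
  intro p
  exact (measurable_pi_apply p.2).comp (hs.comp (measurable_pi_apply p.1))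

/-- splitting preserves the label measures, for every index type `V`. -/
theorem map_splitMap {V K : Type*} {s : unitInterval → (K → unitInterval)}
    (hs : Measurable s) (hmap : (volume : Measure unitInterval).map s = labelMeasure K) :
    (labelMeasure V).map (splitMap s) = labelMeasure (V × K) := by
  have h1 : (labelMeasure V).map (fun u v => s (u v))
      = Measure.infinitePi (fun _ : V => labelMeasure K) := by
    unfold labelMeasure at hmap ⊢
    rw [Measure.infinitePi_map_pi (μ := fun _ : V => (volume : Measure unitInterval))
      (f := fun _ => s) (fun _ => hs), hmap]
  have h2 := Measure.infinitePi_map_curry_symm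
    (fun (_ : V) (_ : K) => (volume : Measure unitInterval))
  have h3 : splitMap (V := V) s
      = (MeasurableEquiv.curry V K unitInterval).symm ∘ (fun u v => s (u v)) := by
    funext u p
    rfl
  have hm : Measurable (fun (u : V → unitInterval) v => s (u v)) := by
    rw [measurable_pi_iff]
    intro v
    exact hs.comp (measurable_pi_apply v)
  rw [h3, ← Measure.map_map (MeasurableEquiv.measurable _) hm, h1]
  exact h2

/-- equivariance of the splitting under any re-indexing of the sites. -/
theorem splitMap_comp {V V' K : Type*} (s : unitInterval → (K → unitInterval)) (σ : V' → V)
    (u : V → unitInterval) :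
    splitMap s (u ∘ σ) = splitMap s u ∘ (Prod.map σ id) := rfl

end Crest.Agent.S0255
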