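import Crest.Agent.S0316_Count

set_option autoImplicit false

namespace Crest.Agent.S0316

open Crest.GeometryTopology.Quadric

theorem hasDerivAt_arctan_line (i j : Fin 5) (x w : V) (c : ℝ) (h : dhh i j x w = 0) :
    HasDerivAt (fun s : ℝ => Real.arctan (kk * (1 + c * hh i j (x + s • w)))) 0 0 := by
  have a := hasDerivAt_hh_line i j x w
  rw [h] at a
  have a1 : HasDerivAt (fun s : ℝ => kk * (1 + c * hh i j (x + s • w))) (kk * (c * 0)) 0 :=
    ((a.const_mul c).const_add 1).const_mul kk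
  exact a1.arctan.congr_deriv (by simp)

theorem hasDerivAt_th01_line (x w : V) (h : dhh 0 1 x w = 0) :
    HasDerivAt (fun s : ℝ => th01 (x + s • w)) 0 0 := by
  have a := hasDerivAt_arctan_line 0 1 x w (-2) h
  have b := (a.const_mul 2).const_add Real.pi
  have e : (fun s : ℝ => th01 (x + s • w))
      = fun s : ℝ => Real.pi + 2 * Real.arctan (kk * (1 + (-2) * hh 0 1 (x + s • w))) := by
    funext s
    simp only [th01, t01]
    ring_nf
  rw [e]
  exact b.congr_deriv (by simp)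

theorem hasDerivAt_th23_line (x w : V) (h : dhh 2 3 x w = 0) :
    HasDerivAt (fun s : ℝ => th23 (x + s • w)) 0 0 := by
  have a := hasDerivAt_arctan_line 2 3 x w 2 h
  have b := (a.const_mul 2).const_add Real.pi
  exact b.congr_deriv (by simp)

theorem hasDerivAt_th03_line (x w : V) (h : dhh 0 3 x w = 0) :
    HasDerivAt (fun s : ℝ => th03 (x + s • w)) 0 0 := by
  have a := hasDerivAt_arctan_line 0 3 x w (-2) h
  have b := (a.const_mul 2)
  have e : (fun s : ℝ => th03 (x + s • w))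
      = fun s : ℝ => 2 * Real.arctan (kk * (1 + (-2) * hh 0 3 (x + s • w))) := by
    funext s
    simp only [th03, t03]
    ring_nf
  rw [e]
  exact b.congr_deriv (by simp)

theorem hasDerivAt_th12_line (x w : V) (h : dhh 1 2 x w = 0) :
    HasDerivAt (fun s : ℝ => th12 (x + s • w)) 0 0 := by
  have a := hasDerivAt_arctan_line 1 2 x w (-2) h
  have b := (a.const_mul 2).fun_neg
  have e : (fun s : ℝ => th12 (x + s • w))
      = fun s : ℝ => -(2 * Real.arctan (kk * (1 + (-2) * hh 1 2 (x + s • w)))) := by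
    funext s
    simp only [th12, t12]
    ring_nf
  rw [e]
  exact b.congr_deriv (by simp)

theorem hasDerivAt_cos_of {θ : ℝ → ℝ} (h : HasDerivAt θ 0 0) :
    HasDerivAt (fun s : ℝ => ((Real.cos (θ s) : ℝ) : ℂ)) 0 0 := by
  have h2 : HasDerivAt (fun s : ℝ => Real.cos (θ s)) (-(Real.sin (θ 0)) * 0) 0 := h.cos
  have h3 := (h2.congr_deriv (mul_zero _)).ofReal_comp
  exact h3.congr_deriv (by simp)

theorem hasDerivAt_sin_of {θ : ℝ → ℝ} (h : HasDerivAt θ 0 0) :
    HasDerivAt (fun s : ℝ => ((Real.sin (θ s) : ℝ) : ℂ)) 0 0 := by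
  have h2 : HasDerivAt (fun s : ℝ => Real.sin (θ s)) (Real.cos (θ 0) * 0) 0 := h.sin
  have h3 := (h2.congr_deriv (mul_zero _)).ofReal_comp
  exact h3.congr_deriv (by simp)

theorem hasDerivAt_coord_line (x w : V) (i : Fin 5) :
    HasDerivAt (fun s : ℝ => (x + s • w) i) (w i) 0 := by
  have h1 : HasDerivAt (fun s : ℝ => ((s : ℝ) : ℂ)) 1 0 := (hasDerivAt_id (0:ℝ)).ofReal_comp
  have h2 := (h1.mul_const (w i)).const_add (x i)
  have e : (fun s : ℝ => (x + s • w) i) = fun s : ℝ => x i + (s : ℂ) * w i := by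
    funext s
    simp
  rw [e]
  exact h2.congr_deriv (by simp)


theorem hasDerivAt_mul_of {f g : ℝ → ℂ} {g' : ℂ} (hf : HasDerivAt f 0 0) (hg : HasDerivAt g g' 0) :
    HasDerivAt (fun s => f s * g s) (f 0 * g') 0 :=
  (hf.mul hg).congr_deriv (by simp)

theorem hasDerivAt_stage1_line (x w : V) (h1 : dhh 0 1 x w = 0) (h2 : dhh 2 3 x w = 0) :
    HasDerivAt (fun s : ℝ => stage1 1 (x + s • w)) (rotA (th01 x) (th23 x) w) 0 := by
  have ca := hasDerivAt_cos_of (hasDerivAt_th01_line x w h1)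
  have sa := hasDerivAt_sin_of (hasDerivAt_th01_line x w h1)
  have cb := hasDerivAt_cos_of (hasDerivAt_th23_line x w h2)
  have sb := hasDerivAt_sin_of (hasDerivAt_th23_line x w h2)
  have l := hasDerivAt_coord_line x w
  rw [hasDerivAt_pi]
  intro i
  simp only [stage1, one_mul]
  fin_cases i
  · exact ((hasDerivAt_mul_of ca (l 0)).fun_sub (hasDerivAt_mul_of sa (l 1))).congr_deriv
      (by simp)
  · exact ((hasDerivAt_mul_of sa (l 0)).fun_add (hasDerivAt_mul_of ca (l 1))).congr_deriv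
      (by simp)
  · exact ((hasDerivAt_mul_of cb (l 2)).fun_sub (hasDerivAt_mul_of sb (l 3))).congr_deriv
      (by simp)
  · exact ((hasDerivAt_mul_of sb (l 2)).fun_add (hasDerivAt_mul_of cb (l 3))).congr_deriv
      (by simp)
  · exact l 4

theorem hasDerivAt_stage2_line (x w : V) (h1 : dhh 0 3 x w = 0) (h2 : dhh 1 2 x w = 0) :
    HasDerivAt (fun s : ℝ => stage2 1 (x + s • w)) (rotB (th03 x) (th12 x) w) 0 := by
  have ca := hasDerivAt_cos_of (hasDerivAt_th03_line x w h1)
  have sa := hasDerivAt_sin_of (hasDerivAt_th03_line x w h1)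
  have cb := hasDerivAt_cos_of (hasDerivAt_th12_line x w h2)
  have sb := hasDerivAt_sin_of (hasDerivAt_th12_line x w h2)
  have l := hasDerivAt_coord_line x w
  rw [hasDerivAt_pi]
  intro i
  simp only [stage2, one_mul]
  fin_cases i
  · exact ((hasDerivAt_mul_of ca (l 0)).fun_sub (hasDerivAt_mul_of sa (l 3))).congr_deriv
      (by simp)
  · exact ((hasDerivAt_mul_of cb (l 1)).fun_sub (hasDerivAt_mul_of sb (l 2))).congr_deriv
      (by simp)
  · exact ((hasDerivAt_mul_of sb (l 1)).fun_add (hasDerivAt_mul_of cb (l 2))).congr_deriv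
      (by simp)
  · exact ((hasDerivAt_mul_of sa (l 0)).fun_add (hasDerivAt_mul_of ca (l 3))).congr_deriv
      (by simp)
  · exact l 4

theorem differentiable_stage1 : Differentiable ℝ (stage1 1) := by
  have h1 : ContDiff ℝ 1 (fun x : V => ((1 : ℝ), x)) := contDiff_const.prodMk contDiff_id
  have h := (contDiff_stage1 (n := 1)).comp h1
  exact h.differentiable (by simp)

theorem differentiable_stage2 : Differentiable ℝ (stage2 1) := by
  have h1 : ContDiff ℝ 1 (fun x : V => ((1 : ℝ), x)) := contDiff_const.prodMk contDiff_id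
  have h := (contDiff_stage2 (n := 1)).comp h1
  exact h.differentiable (by simp)

theorem fderiv_stage1 (x w : V) (h1 : dhh 0 1 x w = 0) (h2 : dhh 2 3 x w = 0) :
    fderiv ℝ (stage1 1) x w = rotA (th01 x) (th23 x) w := by
  rw [← (differentiable_stage1 x).lineDeriv_eq_fderiv]
  exact (hasDerivAt_stage1_line x w h1 h2).deriv

theorem fderiv_stage2 (x w : V) (h1 : dhh 0 3 x w = 0) (h2 : dhh 1 2 x w = 0) :
    fderiv ℝ (stage2 1) x w = rotB (th03 x) (th12 x) w := by
  rw [← (differentiable_stage2 x).lineDeriv_eq_fderiv]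
  exact (hasDerivAt_stage2_line x w h1 h2).deriv

theorem fderiv_Psi_one (x w : V) :
    fderiv ℝ (fun y : V => Psi (1, y)) x w
      = fderiv ℝ (stage2 1) (stage1 1 x) (fderiv ℝ (stage1 1) x w) := by
  have e : (fun y : V => Psi (1, y)) = stage2 1 ∘ stage1 1 := by
    funext y
    exact Psi_one y
  rw [e, fderiv_comp x (differentiable_stage2 _) (differentiable_stage1 _)]
  rfl


/-- the degenerate direction at `zfam 0 1 0` -/
noncomputable def ws : V := ![⟨0, -1 / 2⟩, ((1 / 2 : ℝ) : ℂ), 0, 0, 0]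

@[simp] theorem ws_0 : ws 0 = ⟨0, -1 / 2⟩ := rfl
@[simp] theorem ws_1 : ws 1 = ((1 / 2 : ℝ) : ℂ) := rfl
@[simp] theorem ws_2 : ws 2 = 0 := rfl
@[simp] theorem ws_3 : ws 3 = 0 := rfl
@[simp] theorem ws_4 : ws 4 = 0 := rfl

theorem rotA_pi (u : V) (h : u 4 = 0) : rotA Real.pi Real.pi u = -u := by
  funext i
  fin_cases i <;> simp [rotA, h]

theorem hh_neg (i j : Fin 5) (x : V) : hh i j (-x) = hh i j x := by
  simp only [hh, Pi.neg_apply, Complex.neg_re, Complex.neg_im]; ring

theorem dhh_neg (i j : Fin 5) (x w : V) : dhh i j (-x) (-w) = dhh i j x w := by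
  simp only [dhh, Pi.neg_apply, Complex.neg_re, Complex.neg_im]; ring

theorem th01_zs : th01 (zfam 0 1 0) = Real.pi := by
  have : t01 (zfam 0 1 0) = 0 := by
    rw [t01_eq, U1_zfam, W1_zfam]; ring
  rw [th01, this]; simp
theorem th23_zs : th23 (zfam 0 1 0) = Real.pi := by
  have : t23 (zfam 0 1 0) = 0 := by
    rw [t23_eq, U1_zfam, W1_zfam]; ring
  rw [th23, this]; simp
theorem th03_zs : th03 (-zfam 0 1 0) = 0 := by
  have : t03 (-zfam 0 1 0) = 0 := by
    rw [t03, hh_neg, ← t03, t03_eq, U3_zfam, W3_zfam]; ring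
  rw [th03, this]; simp
theorem th12_zs : th12 (-zfam 0 1 0) = 0 := by
  have : t12 (-zfam 0 1 0) = 0 := by
    rw [t12, hh_neg, ← t12, t12_eq, U3_zfam, W3_zfam]; ring
  rw [th12, this]; simp

theorem stage1_zs : stage1 1 (zfam 0 1 0) = -zfam 0 1 0 := by
  rw [stage1, one_mul, one_mul, th01_zs, th23_zs, rotA_pi _ (zfam_4 _ _ _)]

theorem stage2_zs : stage2 1 (-zfam 0 1 0) = -zfam 0 1 0 := by
  rw [stage2, one_mul, one_mul, th03_zs, th12_zs, rotB_zero]

theorem Psi_zs : Psi (1, zfam 0 1 0) = (-1 : ℂ) • zfam 0 1 0 := by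
  rw [Psi_one, stage1_zs, stage2_zs, neg_one_smul]

theorem fderiv_Psi_zs : fderiv ℝ (fun y : V => Psi (1, y)) (zfam 0 1 0) ws = -ws := by
  rw [fderiv_Psi_one, fderiv_stage1, th01_zs, th23_zs, rotA_pi _ ws_4, stage1_zs, fderiv_stage2,
    th03_zs, th12_zs, rotB_zero]
  · rw [dhh_neg]
    simp [dhh]
  · rw [dhh_neg]
    simp [dhh]
  · simp [dhh]
  · simp [dhh]

theorem ws_tangent : ws ∈ coneTangent (zfam 0 1 0) := by
  constructor
  · simp [herm, Fin.sum_univ_five]
  · simp only [Fin.sum_univ_five, zfam_0, zfam_1, zfam_2, zfam_3, zfam_4, ws_0, ws_1, ws_2, ws_3,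
      ws_4]
    apply Complex.ext
    · simp
    · simp
      norm_num

theorem ws_ne (r : ℝ) : ws ≠ ((r : ℂ) * Complex.I) • zfam 0 1 0 := by
  intro h
  have h2 := congrFun h 2
  have h1 := congrFun h 1
  simp only [Pi.smul_apply, smul_eq_mul, ws_2, ws_1, zfam_2, zfam_1] at h1 h2
  have e2 := congrArg Complex.im h2
  have e1 := congrArg Complex.re h1
  simp at e1 e2
  rw [e2] at e1
  norm_num at e1

theorem degenerate : HasDegenerateFixedPoint theLift := by
  refine ⟨zfam 0 1 0, zs_mem, -1, Psi_zs, ws, ws_tangent, ws_ne, 0, ?_⟩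
  have : fderiv ℝ (fun x : Fin 5 → ℂ => theLift.Ψ (1, x)) (zfam 0 1 0) ws = -ws := fderiv_Psi_zs
  rw [this]
  simp

end Crest.Agent.S0316
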