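import Mathlib

set_option autoImplicit false

namespace Crest.Agent.S0316

/-- elimination step: the four half-angle relations force the symmetric locus -/
theorem alg_sym (k a b x y p p' : ℝ) (hk0 : 0 < k) (hk1 : k ≤ 17 / 62)
    (ha0 : 0 ≤ a) (ha2 : a ≤ 2) (hb0 : 0 ≤ b) (hb2 : b ≤ 2)
    (hx : |x| ≤ 1) (hy : |y| ≤ 1)
    (hp : p ^ 2 = 2 * b - b ^ 2 - x ^ 2) (hp' : p' ^ 2 = 2 * a - a ^ 2 - y ^ 2)
    (F1 : (1 - k ^ 2 * (a ^ 2 - p ^ 2)) * x = 2 * k * a * (1 - b))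
    (F2 : (1 + k ^ 2 * (b ^ 2 - p' ^ 2)) * x = -2 * k * p * p')
    (F3 : (1 - k ^ 2 * (b ^ 2 - p' ^ 2)) * y = 2 * k * b * (1 - a))
    (F4 : (1 + k ^ 2 * (a ^ 2 - p ^ 2)) * y = -2 * k * p * p') :
    x = y ∧ a = b := by
  set Z : ℝ := 2 * (a ^ 2 + b ^ 2) + x ^ 2 + y ^ 2 - 2 * (a + b) with hZ
  have H1 : a - b = -(k / 2) * (x - y) * Z := by
    have hk : k ≠ 0 := ne_of_gt hk0
    have : 2 * k * (a - b) = 2 * k * (-(k / 2) * (x - y) * Z) := by
      rw [hZ]
      linear_combination -F1 + F3 + F2 - F4 + (k ^ 2 * (x - y)) * hp + (k ^ 2 * (x - y)) * hp'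
    exact mul_left_cancel₀ (mul_ne_zero two_ne_zero hk) this
  have H2 : (x - y) * (1 + k ^ 2 * (a ^ 2 + b ^ 2 - x * y - a - b) + k ^ 3 / 2 * (x + y) * Z) = 0 := by
    have G1 : (x - y) * (1 + k ^ 2 * (a ^ 2 + b ^ 2 - x * y)) - k ^ 2 * (a + b) * (x - y)
        - k ^ 2 * (a - b) * (x + y) = 0 := by
      linear_combination F2 - F4 + (k ^ 2 * x) * hp' - (k ^ 2 * y) * hp
    rw [H1] at G1
    linear_combination G1
  have hx' := abs_le.1 hx
  have hy' := abs_le.1 hy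
  have hZ1 : |Z| ≤ 10 := by
    rw [abs_le, hZ]
    constructor <;> nlinarith [sq_nonneg (a - 1 / 2), sq_nonneg (b - 1 / 2), sq_nonneg x, sq_nonneg y]
  have hxy : |x + y| ≤ 2 := by
    rw [abs_le]; constructor <;> linarith [hx'.1, hx'.2, hy'.1, hy'.2]
  have hprod : |(x + y) * Z| ≤ 2 * 10 := by
    rw [abs_mul]
    exact mul_le_mul hxy hZ1 (abs_nonneg _) (by norm_num)
  have hprod' := abs_le.1 hprod
  have hxy2 : x * y ≤ 1 := by nlinarith [hx'.1, hx'.2, hy'.1, hy'.2]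
  have hk2 : k ^ 2 ≤ (17 / 62) ^ 2 := by
    exact pow_le_pow_left₀ hk0.le hk1 2
  have hk3 : k ^ 3 ≤ (17 / 62) ^ 3 := by
    exact pow_le_pow_left₀ hk0.le hk1 3
  have hq : -(3 / 2 : ℝ) ≤ a ^ 2 + b ^ 2 - x * y - a - b := by
    nlinarith [sq_nonneg (a - 1 / 2), sq_nonneg (b - 1 / 2)]
  have hpos : 0 < 1 + k ^ 2 * (a ^ 2 + b ^ 2 - x * y - a - b) + k ^ 3 / 2 * (x + y) * Z := by
    have h1 : -(3 / 2) * (17 / 62 : ℝ) ^ 2 ≤ k ^ 2 * (a ^ 2 + b ^ 2 - x * y - a - b) := by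
      by_cases hneg : a ^ 2 + b ^ 2 - x * y - a - b ≤ 0
      · nlinarith [sq_nonneg k]
      · have hneg := not_le.1 hneg
        have : 0 ≤ k ^ 2 * (a ^ 2 + b ^ 2 - x * y - a - b) := by positivity
        nlinarith
    have h2 : -(10 : ℝ) * (17 / 62) ^ 3 ≤ k ^ 3 / 2 * (x + y) * Z := by
      have hk3' : 0 ≤ k ^ 3 := by positivity
      have : k ^ 3 / 2 * (x + y) * Z = k ^ 3 / 2 * ((x + y) * Z) := by ring
      rw [this]
      nlinarith [hprod'.1]
    have : (0 : ℝ) < 1 - (3 / 2) * (17 / 62 : ℝ) ^ 2 - 10 * (17 / 62) ^ 3 := by norm_num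
    linarith
  have hxy0 : x - y = 0 := by
    rcases mul_eq_zero.1 H2 with h | h
    · exact h
    · exact absurd h (ne_of_gt hpos)
  refine ⟨by linarith, ?_⟩
  rw [hxy0] at H1
  linarith

/-- the symmetric locus: solving the remaining equations for `k = 17/62` -/
theorem alg_diag (a x p p' : ℝ) (ha0 : 0 ≤ a) (hane : a ≠ 0)
    (hx : |x| ≤ 1)
    (hp : p ^ 2 = 2 * a - a ^ 2 - x ^ 2) (hp' : p' ^ 2 = 2 * a - a ^ 2 - x ^ 2)
    (F1 : (1 - (17 / 62 : ℝ) ^ 2 * (a ^ 2 - p ^ 2)) * x = 2 * (17 / 62) * a * (1 - a))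
    (F2 : (1 + (17 / 62 : ℝ) ^ 2 * (a ^ 2 - p' ^ 2)) * x = -2 * (17 / 62) * p * p') :
    p' = p ∧ x = -6 / 17 ∧ a = 24 / 17 := by
  have hx' := abs_le.1 hx
  have hpp : (p' - p) * (p' + p) = 0 := by linear_combination hp' - hp
  rcases mul_eq_zero.1 hpp with h | h
  · have hpe : p' = p := by linarith
    subst hpe
    -- sum: x = k (x^2 - a)
    have S : x = 17 / 62 * (x ^ 2 - a) := by
      linear_combination (1 / 2) * F1 + (1 / 2) * F2 - (17 / 62) * hp
    have ha : a = x ^ 2 - 62 / 17 * x := by linear_combination (62 / 17) * S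
    have D : 17 / 62 * (2 * a ^ 2 - 2 * a + x ^ 2) * x = -(3 * a - 2 * a ^ 2 - x ^ 2) := by
      linear_combination (31 / 17) * F2 - (31 / 17) * F1 + ((17 / 62) * x - 1) * hp
    have hxne : x ≠ 0 := by
      intro h0
      apply hane
      rw [ha, h0]; ring
    have hxle : x ≤ 0 := by
      by_contra hpos
      have hpos := not_le.1 hpos
      nlinarith [hx'.2]
    have hfac : x * (1 - 17 / 62 * x) * ((x + 6 / 17) *
        (17 / 31 * x ^ 2 + (17 / 31 * (-6 / 17) - 4) * x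
          + (124 / 17 - 17 / 62 + 24 / 17 + 17 / 31 * (36 / 289)))) = 0 := by
      rw [ha] at D
      linear_combination (-17 / 62) * D
    have h1 : (1 - 17 / 62 * x) ≠ 0 := by
      have : 0 < 1 - 17 / 62 * x := by linarith
      exact ne_of_gt this
    have h2 : (17 / 31 * x ^ 2 + (17 / 31 * (-6 / 17) - 4) * x
          + (124 / 17 - 17 / 62 + 24 / 17 + 17 / 31 * (36 / 289))) ≠ 0 := by
      have : 0 < (17 / 31 * x ^ 2 + (17 / 31 * (-6 / 17) - 4) * x
          + (124 / 17 - 17 / 62 + 24 / 17 + 17 / 31 * (36 / 289))) := by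
        nlinarith [sq_nonneg x]
      exact ne_of_gt this
    have hx0 : x + 6 / 17 = 0 := by
      rcases mul_eq_zero.1 hfac with h | h
      · rcases mul_eq_zero.1 h with h | h
        · exact absurd h hxne
        · exact absurd h h1
      · rcases mul_eq_zero.1 h with h | h
        · exact h
        · exact absurd h h2
    have hxv : x = -6 / 17 := by linarith
    refine ⟨rfl, hxv, ?_⟩
    rw [ha, hxv]; norm_num
  · exfalso
    have hpe : p' = -p := by linarith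
    subst hpe
    have S : x = 17 / 62 * (3 * a - 2 * a ^ 2 - x ^ 2) := by
      linear_combination (1 / 2) * F1 + (1 / 2) * F2 + (17 / 62) * hp
    have D : 17 / 62 * (2 * a ^ 2 - 2 * a + x ^ 2) * x = a - x ^ 2 := by
      linear_combination (31 / 17) * F2 - (31 / 17) * F1 + ((17 / 62) * x + 1) * hp
    have hfin : a * (17 / 62 * x - 1) = 0 := by
      linear_combination D - x * S
    rcases mul_eq_zero.1 hfin with h | h
    · exact hane h
    · nlinarith [hx'.2]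

end Crest.Agent.S0316
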