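import Crest.Agent.S0316_Alg

set_option autoImplicit false

namespace Crest.Agent.S0316

theorem sq_sum_zero {a b : ℝ} (h : a ^ 2 + b ^ 2 = 0) : a = 0 ∧ b = 0 := by
  constructor
  · nlinarith [sq_nonneg a, sq_nonneg b]
  · nlinarith [sq_nonneg a, sq_nonneg b]

theorem abs_le_one_of_sq {a b c : ℝ} (h : a ^ 2 + b ^ 2 + c ^ 2 = 1) :
    |a| ≤ 1 ∧ |b| ≤ 1 ∧ |c| ≤ 1 := by
  refine ⟨abs_le_one_iff_mul_self_le_one.2 ?_, abs_le_one_iff_mul_self_le_one.2 ?_,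
    abs_le_one_iff_mul_self_le_one.2 ?_⟩
  · nlinarith [sq_nonneg a, sq_nonneg b, sq_nonneg c]
  · nlinarith [sq_nonneg a, sq_nonneg b, sq_nonneg c]
  · nlinarith [sq_nonneg a, sq_nonneg b, sq_nonneg c]

/-- a planar rotation with half-angle tangent `m / n` fixing the second coordinate -/
theorem half_snd (m n u v x : ℝ) (hm : m ≠ 0)
    (A1 : (n ^ 2 + m ^ 2) * x = (n ^ 2 - m ^ 2) * u - 2 * m * n * v)
    (A2 : (n ^ 2 + m ^ 2) * v = 2 * m * n * u + (n ^ 2 - m ^ 2) * v) :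
    n * u = m * v ∧ x = -u := by
  have e : m * (n * u - m * v) = 0 := by linear_combination (-1 / 2) * A2
  have F1 : n * u = m * v := by
    rcases mul_eq_zero.1 e with h | h
    · exact absurd h hm
    · linarith
  refine ⟨F1, ?_⟩
  have hD : 0 < n ^ 2 + m ^ 2 := by positivity
  have : (n ^ 2 + m ^ 2) * (x + u) = 0 := by
    linear_combination A1 + 2 * n * F1
  rcases mul_eq_zero.1 this with h | h
  · exact absurd h (ne_of_gt hD)
  · linarith

/-- a planar rotation with half-angle tangent `m / n` fixing the first coordinate -/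
theorem half_fst (m n u v x : ℝ) (hm : m ≠ 0)
    (A1 : (n ^ 2 + m ^ 2) * u = (n ^ 2 - m ^ 2) * u + 2 * m * n * x)
    (A2 : (n ^ 2 + m ^ 2) * v = -2 * m * n * u + (n ^ 2 - m ^ 2) * x) :
    m * u = n * x ∧ x = -v := by
  have e : m * (m * u - n * x) = 0 := by linear_combination (1 / 2) * A1
  have F1 : m * u = n * x := by
    rcases mul_eq_zero.1 e with h | h
    · exact absurd h hm
    · linarith
  refine ⟨F1, ?_⟩
  have hD : 0 < n ^ 2 + m ^ 2 := by positivity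
  have : (n ^ 2 + m ^ 2) * (x + v) = 0 := by
    linear_combination A2 - 2 * n * F1
  rcases mul_eq_zero.1 this with h | h
  · exact absurd h (ne_of_gt hD)
  · linarith

/-- a planar rotation reversing a coordinate -/
theorem half_rev (m n u v : ℝ) (hn : n ≠ 0)
    (A : (n ^ 2 + m ^ 2) * (-u) = (n ^ 2 - m ^ 2) * u - 2 * m * n * v) :
    n * u = m * v := by
  have e : n * (n * u - m * v) = 0 := by linear_combination (-1 / 2) * A
  rcases mul_eq_zero.1 e with h | h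
  · exact absurd h hn
  · linarith

theorem one_add_pos (a p : ℝ) (hp : |p| ≤ 1) :
    0 < 1 + (17 / 62 * (a - p)) * (17 / 62 * (a + p)) := by
  have h1 : p ^ 2 ≤ 1 := by
    have := abs_le.1 hp
    nlinarith [this.1, this.2]
  nlinarith [sq_nonneg a]


theorem classify_aux (u1 u2 u3 w1 w2 w3 : ℝ)
    (hu : u1 ^ 2 + u2 ^ 2 + u3 ^ 2 = 1) (hw : w1 ^ 2 + w2 ^ 2 + w3 ^ 2 = 1)
    (hw1 : w1 ≠ 1)
    (F1 : (1 - (17 / 62 * (1 - u1 - w1)) * (17 / 62 * (1 + u1 - w1))) * u2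
      = (17 / 62 * (1 - u1 - w1) + 17 / 62 * (1 + u1 - w1)) * u3)
    (F2 : (1 + (17 / 62 * (1 - u3 - w3)) * (17 / 62 * (1 - u3 + w3))) * u2
      = (17 / 62 * (1 - u3 - w3) - 17 / 62 * (1 - u3 + w3)) * u1)
    (F3 : (1 - (17 / 62 * (1 - u3 - w3)) * (17 / 62 * (1 - u3 + w3))) * (-w2)
      = (17 / 62 * (1 - u3 - w3) + 17 / 62 * (1 - u3 + w3)) * w1)
    (F4 : (1 + (17 / 62 * (1 - u1 - w1)) * (17 / 62 * (1 + u1 - w1))) * w2
      = (17 / 62 * (1 + u1 - w1) - 17 / 62 * (1 - u1 - w1)) * w3) :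
    (u1 ^ 2 = 12 / 17 ∧ u2 = -6 / 17 ∧ u3 = -7 / 17 ∧ w1 = -7 / 17 ∧ w2 = 6 / 17 ∧ w3 = u1) := by
  obtain ⟨cu1, cu2, cu3⟩ := abs_le_one_of_sq hu
  obtain ⟨cw1, cw2, cw3⟩ := abs_le_one_of_sq hw
  have cw1' := abs_le.1 cw1
  have cu3' := abs_le.1 cu3
  have hsym := alg_sym (17 / 62) (1 - w1) (1 - u3) u2 (-w2) u1 w3 (by norm_num) le_rfl
      (by linarith [cw1'.2]) (by linarith [cw1'.1]) (by linarith [cu3'.2]) (by linarith [cu3'.1])
      cu2 (by rwa [abs_neg])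
      (by linear_combination hu) (by linear_combination hw)
      (by linear_combination F1)
      (by linear_combination F2)
      (by linear_combination F3)
      (by linear_combination -F4)
  obtain ⟨hxy, hab⟩ := hsym
  have hw1u3 : w1 = u3 := by linarith
  have hane : (1 - w1) ≠ 0 := by
    intro h0
    apply hw1
    linarith
  have hdiag := alg_diag (1 - w1) u2 u1 w3 (by linarith [cw1'.2]) hane cu2
      (by rw [hw1u3]; linear_combination hu)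
      (by rw [hxy]; linear_combination hw)
      (by rw [← hw1u3] at F1; linear_combination F1)
      (by rw [← hw1u3] at F2; linear_combination F2)
  obtain ⟨h1, h2, h3⟩ := hdiag
  have hw1v : w1 = -7 / 17 := by linarith
  refine ⟨?_, h2, by linarith, hw1v, by linarith, h1⟩
  have hu3v : u3 = -7 / 17 := by linarith
  rw [h2, hu3v] at hu
  linarith

theorem classify (u1 u2 u3 w1 w2 w3 x2 y2 t1 t2 t3 t4 : ℝ)
    (hu : u1 ^ 2 + u2 ^ 2 + u3 ^ 2 = 1) (hw : w1 ^ 2 + w2 ^ 2 + w3 ^ 2 = 1)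
    (ht1 : t1 = 17 / 62 * (1 - u1 - w1)) (ht2 : t2 = 17 / 62 * (1 + u1 - w1))
    (ht3 : t3 = 17 / 62 * (1 - u3 - w3)) (ht4 : t4 = 17 / 62 * (1 - u3 + w3))
    (A1 : (1 + t1 ^ 2) * (1 + t2 ^ 2) * x2
      = ((1 - t1 * t2) ^ 2 - (t1 + t2) ^ 2) * u2 - 2 * (t1 + t2) * (1 - t1 * t2) * u3)
    (A2 : (1 + t1 ^ 2) * (1 + t2 ^ 2) * u3
      = 2 * (t1 + t2) * (1 - t1 * t2) * u2 + ((1 - t1 * t2) ^ 2 - (t1 + t2) ^ 2) * u3)
    (A3 : (1 + t1 ^ 2) * (1 + t2 ^ 2) * y2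
      = ((1 + t1 * t2) ^ 2 - (t2 - t1) ^ 2) * w2 - 2 * (t2 - t1) * (1 + t1 * t2) * w3)
    (B2 : (1 + t3 ^ 2) * (1 + t4 ^ 2) * u2
      = 2 * (t3 - t4) * (1 + t3 * t4) * u1 + ((1 + t3 * t4) ^ 2 - (t3 - t4) ^ 2) * x2)
    (B3 : (1 + t3 ^ 2) * (1 + t4 ^ 2) * w1
      = ((1 - t3 * t4) ^ 2 - (t3 + t4) ^ 2) * w1 + 2 * (t3 + t4) * (1 - t3 * t4) * y2)
    (B4 : (1 + t3 ^ 2) * (1 + t4 ^ 2) * w2
      = -2 * (t3 + t4) * (1 - t3 * t4) * w1 + ((1 - t3 * t4) ^ 2 - (t3 + t4) ^ 2) * y2) :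
    (u1 = 0 ∧ u2 = 0 ∧ u3 = 1 ∧ w1 = 1 ∧ w2 = 0 ∧ w3 = 0) ∨
    (u1 ^ 2 = 12 / 17 ∧ u2 = -6 / 17 ∧ u3 = -7 / 17 ∧ w1 = -7 / 17 ∧ w2 = 6 / 17 ∧ w3 = u1) := by
  have hD : 0 < (1 + t1 ^ 2) * (1 + t2 ^ 2) := by positivity
  have hm : t1 + t2 = 17 / 31 * (1 - w1) := by rw [ht1, ht2]; ring
  have hm' : t3 + t4 = 17 / 31 * (1 - u3) := by rw [ht3, ht4]; ring
  obtain ⟨cu1, cu2, cu3⟩ := abs_le_one_of_sq hu
  obtain ⟨cw1, cw2, cw3⟩ := abs_le_one_of_sq hw
  by_cases hm0 : t1 + t2 = 0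
  · left
    have hw1 : w1 = 1 := by rw [hm] at hm0; linarith
    have hw23 : w2 ^ 2 + w3 ^ 2 = 0 := by rw [hw1] at hw; linarith
    obtain ⟨hw2, hw3⟩ := sq_sum_zero hw23
    have hy2 : y2 = 0 := by
      rw [hw2, hw3] at A3
      have : (1 + t1 ^ 2) * (1 + t2 ^ 2) * y2 = 0 := by linarith
      rcases mul_eq_zero.1 this with h | h
      · exact absurd h (ne_of_gt hD)
      · exact h
    have h34 : (t3 + t4) ^ 2 = 0 := by
      rw [hy2, hw1] at B3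
      linear_combination (1 / 2) * B3
    have h34' : t3 + t4 = 0 := by simpa using h34
    have hu3 : u3 = 1 := by rw [hm'] at h34'; linarith
    have hu12 : u1 ^ 2 + u2 ^ 2 = 0 := by rw [hu3] at hu; linarith
    obtain ⟨hu1, hu2⟩ := sq_sum_zero hu12
    exact ⟨hu1, hu2, hu3, hw1, hw2, hw3⟩
  · right
    obtain ⟨F1, hx2⟩ := half_snd (t1 + t2) (1 - t1 * t2) u2 u3 x2 hm0
      (by linear_combination A1) (by linear_combination A2)
    have hn' : 0 < 1 + t3 * t4 := by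
      have := one_add_pos (1 - u3) w3 cw3
      rw [ht3, ht4]
      exact this
    have F2 : (1 + t3 * t4) * u2 = (t3 - t4) * u1 := by
      rw [hx2] at B2
      exact half_rev (t3 - t4) (1 + t3 * t4) u2 u1 (ne_of_gt hn') (by linear_combination -B2)
    have hm0' : t3 + t4 ≠ 0 := by
      intro h0
      have hu3 : u3 = 1 := by rw [hm'] at h0; linarith
      have hu12 : u1 ^ 2 + u2 ^ 2 = 0 := by rw [hu3] at hu; linarith
      obtain ⟨hu1, hu2⟩ := sq_sum_zero hu12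
      rw [hu2, hu3] at F1
      apply hm0
      linarith
    obtain ⟨G3, hy2⟩ := half_fst (t3 + t4) (1 - t3 * t4) w1 w2 y2 hm0'
      (by linear_combination B3) (by linear_combination B4)
    have F3 : (1 - t3 * t4) * (-w2) = (t3 + t4) * w1 := by
      rw [hy2] at G3; linarith
    have hnb : 0 < 1 + t1 * t2 := by
      have := one_add_pos (1 - w1) u1 cu1
      rw [ht1, ht2]
      have e : (17 / 62 * (1 - u1 - w1)) * (17 / 62 * (1 + u1 - w1))
        = (17 / 62 * (1 - w1 - u1)) * (17 / 62 * (1 - w1 + u1)) := by ring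
      rw [e]
      exact this
    have F4 : (1 + t1 * t2) * w2 = (t2 - t1) * w3 := by
      rw [hy2] at A3
      exact half_rev (t2 - t1) (1 + t1 * t2) w2 w3 (ne_of_gt hnb) (by linear_combination A3)
    have hw1 : w1 ≠ 1 := by
      intro h
      apply hm0
      rw [hm, h]; ring
    subst ht1 ht2 ht3 ht4
    exact classify_aux u1 u2 u3 w1 w2 w3 hu hw hw1 F1 F2 F3 F4

end Crest.Agent.S0316
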