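import Crest.Agent.S0316_Defs

set_option autoImplicit false

namespace Crest.Agent.S0316

open Crest.GeometryTopology.Quadric

theorem mem_unitCone_iff (z : V) : z ∈ unitCone ↔
    ((z 0).re ^ 2 + (z 0).im ^ 2 + (z 1).re ^ 2 + (z 1).im ^ 2 + (z 2).re ^ 2 + (z 2).im ^ 2
      + (z 3).re ^ 2 + (z 3).im ^ 2 + (z 4).re ^ 2 + (z 4).im ^ 2 = 1) ∧
    ((z 0).re ^ 2 - (z 0).im ^ 2 + (z 1).re ^ 2 - (z 1).im ^ 2 + (z 2).re ^ 2 - (z 2).im ^ 2
      + (z 3).re ^ 2 - (z 3).im ^ 2 + (z 4).re ^ 2 - (z 4).im ^ 2 = 0) ∧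
    ((z 0).re * (z 0).im + (z 1).re * (z 1).im + (z 2).re * (z 2).im
      + (z 3).re * (z 3).im + (z 4).re * (z 4).im = 0) := by
  simp only [unitCone, herm, Set.mem_ofPred_eq, Fin.sum_univ_five, Complex.ext_iff, Complex.add_re,
    Complex.add_im, Complex.mul_re, Complex.mul_im, Complex.conj_re, Complex.conj_im, pow_two,
    Complex.one_re, Complex.one_im, Complex.zero_re, Complex.zero_im]
  constructor
  · rintro ⟨⟨h1, -⟩, h2, h3⟩
    refine ⟨by linarith, by linarith, by linarith⟩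
  · rintro ⟨h1, h2, h3⟩
    refine ⟨⟨by linarith, by ring⟩, by linarith, by linarith⟩

section rot
variable (a b : ℝ) (z : V)

@[simp] theorem rotA_0 : rotA a b z 0 = (Real.cos a : ℂ) * z 0 - (Real.sin a : ℂ) * z 1 := rfl
@[simp] theorem rotA_1 : rotA a b z 1 = (Real.sin a : ℂ) * z 0 + (Real.cos a : ℂ) * z 1 := rfl
@[simp] theorem rotA_2 : rotA a b z 2 = (Real.cos b : ℂ) * z 2 - (Real.sin b : ℂ) * z 3 := rfl
@[simp] theorem rotA_3 : rotA a b z 3 = (Real.sin b : ℂ) * z 2 + (Real.cos b : ℂ) * z 3 := rfl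
@[simp] theorem rotA_4 : rotA a b z 4 = z 4 := rfl
@[simp] theorem rotB_0 : rotB a b z 0 = (Real.cos a : ℂ) * z 0 - (Real.sin a : ℂ) * z 3 := rfl
@[simp] theorem rotB_1 : rotB a b z 1 = (Real.cos b : ℂ) * z 1 - (Real.sin b : ℂ) * z 2 := rfl
@[simp] theorem rotB_2 : rotB a b z 2 = (Real.sin b : ℂ) * z 1 + (Real.cos b : ℂ) * z 2 := rfl
@[simp] theorem rotB_3 : rotB a b z 3 = (Real.sin a : ℂ) * z 0 + (Real.cos a : ℂ) * z 3 := rfl
@[simp] theorem rotB_4 : rotB a b z 4 = z 4 := rfl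

theorem hh01_rotA : hh 0 1 (rotA a b z) = hh 0 1 z := by
  simp only [hh, rotA_0, rotA_1, Complex.sub_re, Complex.sub_im, Complex.add_re, Complex.add_im,
    Complex.mul_re, Complex.mul_im, Complex.ofReal_re, Complex.ofReal_im]
  linear_combination (2 * ((z 0).re * (z 1).im - (z 0).im * (z 1).re)) * Real.sin_sq_add_cos_sq a

theorem hh23_rotA : hh 2 3 (rotA a b z) = hh 2 3 z := by
  simp only [hh, rotA_2, rotA_3, Complex.sub_re, Complex.sub_im, Complex.add_re, Complex.add_im,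
    Complex.mul_re, Complex.mul_im, Complex.ofReal_re, Complex.ofReal_im]
  linear_combination (2 * ((z 2).re * (z 3).im - (z 2).im * (z 3).re)) * Real.sin_sq_add_cos_sq b

theorem hh03_rotB : hh 0 3 (rotB a b z) = hh 0 3 z := by
  simp only [hh, rotB_0, rotB_3, Complex.sub_re, Complex.sub_im, Complex.add_re, Complex.add_im,
    Complex.mul_re, Complex.mul_im, Complex.ofReal_re, Complex.ofReal_im]
  linear_combination (2 * ((z 0).re * (z 3).im - (z 0).im * (z 3).re)) * Real.sin_sq_add_cos_sq a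

theorem hh12_rotB : hh 1 2 (rotB a b z) = hh 1 2 z := by
  simp only [hh, rotB_1, rotB_2, Complex.sub_re, Complex.sub_im, Complex.add_re, Complex.add_im,
    Complex.mul_re, Complex.mul_im, Complex.ofReal_re, Complex.ofReal_im]
  linear_combination (2 * ((z 1).re * (z 2).im - (z 1).im * (z 2).re)) * Real.sin_sq_add_cos_sq b

theorem rotA_mem (hz : z ∈ unitCone) : rotA a b z ∈ unitCone := by
  rw [mem_unitCone_iff] at hz ⊢
  obtain ⟨h1, h2, h3⟩ := hz
  simp only [rotA_0, rotA_1, rotA_2, rotA_3, rotA_4, Complex.sub_re, Complex.sub_im,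
    Complex.add_re, Complex.add_im,
    Complex.mul_re, Complex.mul_im, Complex.ofReal_re, Complex.ofReal_im]
  have ha := Real.sin_sq_add_cos_sq a
  have hb := Real.sin_sq_add_cos_sq b
  refine ⟨?_, ?_, ?_⟩
  · linear_combination h1 + ((z 0).re ^ 2 + (z 0).im ^ 2 + (z 1).re ^ 2 + (z 1).im ^ 2) * ha
      + ((z 2).re ^ 2 + (z 2).im ^ 2 + (z 3).re ^ 2 + (z 3).im ^ 2) * hb
  · linear_combination h2 + ((z 0).re ^ 2 - (z 0).im ^ 2 + (z 1).re ^ 2 - (z 1).im ^ 2) * ha
      + ((z 2).re ^ 2 - (z 2).im ^ 2 + (z 3).re ^ 2 - (z 3).im ^ 2) * hb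
  · linear_combination h3 + ((z 0).re * (z 0).im + (z 1).re * (z 1).im) * ha
      + ((z 2).re * (z 2).im + (z 3).re * (z 3).im) * hb

theorem rotB_mem (hz : z ∈ unitCone) : rotB a b z ∈ unitCone := by
  rw [mem_unitCone_iff] at hz ⊢
  obtain ⟨h1, h2, h3⟩ := hz
  simp only [rotB_0, rotB_1, rotB_2, rotB_3, rotB_4, Complex.sub_re, Complex.sub_im,
    Complex.add_re, Complex.add_im,
    Complex.mul_re, Complex.mul_im, Complex.ofReal_re, Complex.ofReal_im]
  have ha := Real.sin_sq_add_cos_sq a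
  have hb := Real.sin_sq_add_cos_sq b
  refine ⟨?_, ?_, ?_⟩
  · linear_combination h1 + ((z 0).re ^ 2 + (z 0).im ^ 2 + (z 3).re ^ 2 + (z 3).im ^ 2) * ha
      + ((z 1).re ^ 2 + (z 1).im ^ 2 + (z 2).re ^ 2 + (z 2).im ^ 2) * hb
  · linear_combination h2 + ((z 0).re ^ 2 - (z 0).im ^ 2 + (z 3).re ^ 2 - (z 3).im ^ 2) * ha
      + ((z 1).re ^ 2 - (z 1).im ^ 2 + (z 2).re ^ 2 - (z 2).im ^ 2) * hb
  · linear_combination h3 + ((z 0).re * (z 0).im + (z 3).re * (z 3).im) * ha
      + ((z 1).re * (z 1).im + (z 2).re * (z 2).im) * hb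

theorem rotA_smul (c : ℂ) : rotA a b (c • z) = c • rotA a b z := by
  funext i
  fin_cases i <;> simp [rotA] <;> ring

theorem rotB_smul (c : ℂ) : rotB a b (c • z) = c • rotB a b z := by
  funext i
  fin_cases i <;> simp [rotB] <;> ring

theorem rotA_zero : rotA 0 0 z = z := by
  funext i
  fin_cases i <;> simp [rotA]

theorem rotB_zero : rotB 0 0 z = z := by
  funext i
  fin_cases i <;> simp [rotB]

end rot

theorem hh_smul (i j : Fin 5) (c : ℂ) (hc : ‖c‖ = 1) (z : V) : hh i j (c • z) = hh i j z := by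
  have h : c.re ^ 2 + c.im ^ 2 = 1 := by
    have := Complex.sq_norm c
    rw [hc, Complex.normSq_apply] at this
    nlinarith
  simp only [hh, Pi.smul_apply, smul_eq_mul, Complex.mul_re, Complex.mul_im]
  linear_combination (2 * ((z i).re * (z j).im - (z i).im * (z j).re)) * h

section stage
variable (s : ℝ) (z : V)

theorem th01_stage1 : th01 (stage1 s z) = th01 z := by
  simp only [th01, t01, stage1, hh01_rotA]
theorem th23_stage1 : th23 (stage1 s z) = th23 z := by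
  simp only [th23, t23, stage1, hh23_rotA]
theorem th03_stage2 : th03 (stage2 s z) = th03 z := by
  simp only [th03, t03, stage2, hh03_rotB]
theorem th12_stage2 : th12 (stage2 s z) = th12 z := by
  simp only [th12, t12, stage2, hh12_rotB]

theorem stage1_mem (hz : z ∈ unitCone) : stage1 s z ∈ unitCone := rotA_mem _ _ _ hz
theorem stage2_mem (hz : z ∈ unitCone) : stage2 s z ∈ unitCone := rotB_mem _ _ _ hz

theorem stage1_smul (c : ℂ) (hc : ‖c‖ = 1) : stage1 s (c • z) = c • stage1 s z := by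
  simp only [stage1, th01, th23, t01, t23, hh_smul _ _ c hc, rotA_smul]
theorem stage2_smul (c : ℂ) (hc : ‖c‖ = 1) : stage2 s (c • z) = c • stage2 s z := by
  simp only [stage2, th03, th12, t03, t12, hh_smul _ _ c hc, rotB_smul]

theorem stage1_zero : stage1 0 z = z := by
  simp only [stage1, zero_mul, rotA_zero]
theorem stage2_zero : stage2 0 z = z := by
  simp only [stage2, zero_mul, rotB_zero]

theorem H1_smul (c : ℂ) (hc : ‖c‖ = 1) : H1 (c • z) = H1 z := by
  simp only [H1, hh_smul _ _ c hc]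
theorem H2_smul (c : ℂ) (hc : ‖c‖ = 1) : H2 (c • z) = H2 z := by
  simp only [H2, hh_smul _ _ c hc]

end stage

theorem tau1_zero : tau1 0 = 0 := by
  simp [tau1, Real.smoothTransition.zero]
theorem tau2_of_le {t : ℝ} (ht : t ≤ 2 / 3) : tau2 t = 0 := by
  unfold tau2
  exact Real.smoothTransition.zero_of_nonpos (by linarith)
theorem tau1_of_ge {t : ℝ} (ht : 1 / 3 ≤ t) : tau1 t = 1 := by
  unfold tau1
  exact Real.smoothTransition.one_of_one_le (by linarith)
theorem tau2_one : tau2 1 = 1 := by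
  unfold tau2
  exact Real.smoothTransition.one_of_one_le (by norm_num)

theorem Psi_mem (t : ℝ) (z : V) (hz : z ∈ unitCone) : Psi (t, z) ∈ unitCone :=
  stage2_mem _ _ (stage1_mem _ _ hz)

theorem Psi_smul (t : ℝ) (z : V) (c : ℂ) (hc : ‖c‖ = 1) : Psi (t, c • z) = c • Psi (t, z) := by
  simp only [Psi, stage1_smul _ _ c hc, stage2_smul _ _ c hc]

theorem Psi_zero (z : V) : Psi (0, z) = z := by
  simp only [Psi, tau1_zero, tau2_of_le (show (0:ℝ) ≤ 2 / 3 by norm_num), stage1_zero, stage2_zero]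

theorem Ham_smul (t : ℝ) (z : V) (c : ℂ) (hc : ‖c‖ = 1) : Ham (t, c • z) = Ham (t, z) := by
  simp only [Ham, H1_smul _ c hc, H2_smul _ c hc]

theorem Psi_one (z : V) : Psi (1, z) = stage2 1 (stage1 1 z) := by
  simp only [Psi, tau2_one, tau1_of_ge (show (1:ℝ) / 3 ≤ 1 by norm_num)]

end Crest.Agent.S0316
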