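import Crest.Agent.S0316_Smooth
import Crest.Agent.S0316_Cone

set_option autoImplicit false

namespace Crest.Agent.S0316

open Crest.GeometryTopology.Quadric

theorem hasDerivAt_Lam (x : ℝ) : HasDerivAt Lam (Real.arctan (kk * x)) x := by
  have hk : kk ≠ 0 := by norm_num [kk]
  have hpos : (1 + kk ^ 2 * x ^ 2) ≠ 0 := by positivity
  have h1 : HasDerivAt (fun x : ℝ => kk * x) kk x := by
    simpa using (hasDerivAt_id x).const_mul kk
  have h2 : HasDerivAt (fun x : ℝ => Real.arctan (kk * x)) (1 / (1 + (kk * x) ^ 2) * kk) x :=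
    h1.arctan
  have h3 : HasDerivAt (fun x : ℝ => x * Real.arctan (kk * x))
      (1 * Real.arctan (kk * x) + x * (1 / (1 + (kk * x) ^ 2) * kk)) x :=
    (hasDerivAt_id x).mul h2
  have h4 : HasDerivAt (fun x : ℝ => 1 + kk ^ 2 * x ^ 2) (kk ^ 2 * (2 * x)) x := by
    have := ((hasDerivAt_id x).pow 2).const_mul (kk ^ 2) |>.const_add 1
    simpa using this
  have h5 : HasDerivAt (fun x : ℝ => Real.log (1 + kk ^ 2 * x ^ 2) / (2 * kk))
      (kk ^ 2 * (2 * x) / (1 + kk ^ 2 * x ^ 2) / (2 * kk)) x :=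
    (h4.log hpos).div_const _
  have h6 := h3.fun_sub h5
  refine h6.congr_deriv ?_
  have : (1 + (kk * x) ^ 2) = 1 + kk ^ 2 * x ^ 2 := by ring
  rw [this]
  field_simp
  ring

theorem hh_line (i j : Fin 5) (x w : V) (s : ℝ) :
    hh i j (x + s • w) = hh i j x + s * dhh i j x w + s ^ 2 * hh i j w := by
  simp only [hh, dhh, Pi.add_apply, Pi.smul_apply, Complex.add_re, Complex.add_im,
    Complex.real_smul, Complex.mul_re, Complex.mul_im, Complex.ofReal_re, Complex.ofReal_im]
  ring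

theorem hasDerivAt_hh_line (i j : Fin 5) (x w : V) :
    HasDerivAt (fun s : ℝ => hh i j (x + s • w)) (dhh i j x w) 0 := by
  have h : (fun s : ℝ => hh i j (x + s • w))
      = fun s : ℝ => hh i j x + s * dhh i j x w + s ^ 2 * hh i j w := by
    funext s; exact hh_line i j x w s
  rw [h]
  have h1 : HasDerivAt (fun s : ℝ => s * dhh i j x w) (dhh i j x w) 0 := by
    simpa using (hasDerivAt_id (0:ℝ)).mul_const (dhh i j x w)
  have h2 : HasDerivAt (fun s : ℝ => s ^ 2 * hh i j w) 0 0 := by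
    simpa using ((hasDerivAt_id (0:ℝ)).pow 2).mul_const (hh i j w)
  exact ((h1.const_add (hh i j x)).fun_add h2).congr_deriv (by ring)

theorem fderiv_eq_of_line {f : V → ℝ} (hf : ContDiff ℝ (⊤ : ℕ∞) f) (x w : V) {f' : ℝ}
    (h : HasDerivAt (fun s : ℝ => f (x + s • w)) f' 0) : fderiv ℝ f x w = f' := by
  have hd : DifferentiableAt ℝ f x := (hf.differentiable (by simp)).differentiableAt
  rw [← hd.lineDeriv_eq_fderiv]
  exact h.deriv

theorem fderiv_H1 (x w : V) :
    fderiv ℝ H1 x w = th01 x * dhh 0 1 x w + th23 x * dhh 2 3 x w := by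
  apply fderiv_eq_of_line contDiff_H1
  have a := hasDerivAt_hh_line 0 1 x w
  have b := hasDerivAt_hh_line 2 3 x w
  have a1 : HasDerivAt (fun s : ℝ => 1 - 2 * hh 0 1 (x + s • w)) (-(2 * dhh 0 1 x w)) 0 := by
    simpa using (a.const_mul 2).const_sub 1
  have b1 : HasDerivAt (fun s : ℝ => 1 + 2 * hh 2 3 (x + s • w)) (2 * dhh 2 3 x w) 0 := by
    simpa using (b.const_mul 2).const_add 1
  have a2 : HasDerivAt (fun s : ℝ => Lam (1 - 2 * hh 0 1 (x + s • w)))
      (Real.arctan (kk * (1 - 2 * hh 0 1 (x + (0:ℝ) • w))) * (-(2 * dhh 0 1 x w))) 0 :=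
    (hasDerivAt_Lam _).comp 0 a1
  have b2 : HasDerivAt (fun s : ℝ => Lam (1 + 2 * hh 2 3 (x + s • w)))
      (Real.arctan (kk * (1 + 2 * hh 2 3 (x + (0:ℝ) • w))) * (2 * dhh 2 3 x w)) 0 :=
    (hasDerivAt_Lam _).comp 0 b1
  have c := ((a.const_mul Real.pi).fun_sub a2).fun_add ((b.const_mul Real.pi).fun_add b2)
  refine c.congr_deriv ?_
  simp only [zero_smul, add_zero, th01, th23, t01, t23]
  ring

theorem fderiv_H2 (x w : V) :
    fderiv ℝ H2 x w = th03 x * dhh 0 3 x w + th12 x * dhh 1 2 x w := by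
  apply fderiv_eq_of_line contDiff_H2
  have a := hasDerivAt_hh_line 0 3 x w
  have b := hasDerivAt_hh_line 1 2 x w
  have a1 : HasDerivAt (fun s : ℝ => 1 - 2 * hh 0 3 (x + s • w)) (-(2 * dhh 0 3 x w)) 0 := by
    simpa using (a.const_mul 2).const_sub 1
  have b1 : HasDerivAt (fun s : ℝ => 1 - 2 * hh 1 2 (x + s • w)) (-(2 * dhh 1 2 x w)) 0 := by
    simpa using (b.const_mul 2).const_sub 1
  have a2 : HasDerivAt (fun s : ℝ => Lam (1 - 2 * hh 0 3 (x + s • w)))
      (Real.arctan (kk * (1 - 2 * hh 0 3 (x + (0:ℝ) • w))) * (-(2 * dhh 0 3 x w))) 0 :=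
    (hasDerivAt_Lam _).comp 0 a1
  have b2 : HasDerivAt (fun s : ℝ => Lam (1 - 2 * hh 1 2 (x + s • w)))
      (Real.arctan (kk * (1 - 2 * hh 1 2 (x + (0:ℝ) • w))) * (-(2 * dhh 1 2 x w))) 0 :=
    (hasDerivAt_Lam _).comp 0 b1
  have c := a2.fun_neg.fun_add b2
  refine c.congr_deriv ?_
  simp only [zero_smul, add_zero, th03, th12, t03, t12]
  ring

theorem herm_X1 (x w : V) :
    2 * (herm (X1 x) w).im = th01 x * dhh 0 1 x w + th23 x * dhh 2 3 x w := by
  simp only [herm, X1, Fin.sum_univ_five, dhh]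
  simp [Complex.mul_re, Complex.mul_im]
  ring

theorem herm_X2 (x w : V) :
    2 * (herm (X2 x) w).im = th03 x * dhh 0 3 x w + th12 x * dhh 1 2 x w := by
  simp only [herm, X2, Fin.sum_univ_five, dhh]
  simp [Complex.mul_re, Complex.mul_im]
  ring

theorem hasDerivAt_cosC (θ s : ℝ) :
    HasDerivAt (fun s : ℝ => ((Real.cos (s * θ) : ℝ) : ℂ)) ((-(Real.sin (s * θ) * θ) : ℝ) : ℂ) s := by
  have h1 : HasDerivAt (fun s : ℝ => s * θ) θ s := by
    simpa using (hasDerivAt_id s).mul_const θ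
  have h2 : HasDerivAt (fun s : ℝ => Real.cos (s * θ)) (-(Real.sin (s * θ)) * θ) s := h1.cos
  exact (h2.congr_deriv (by ring)).ofReal_comp

theorem hasDerivAt_sinC (θ s : ℝ) :
    HasDerivAt (fun s : ℝ => ((Real.sin (s * θ) : ℝ) : ℂ)) ((Real.cos (s * θ) * θ : ℝ) : ℂ) s := by
  have h1 : HasDerivAt (fun s : ℝ => s * θ) θ s := by
    simpa using (hasDerivAt_id s).mul_const θ
  have h2 : HasDerivAt (fun s : ℝ => Real.sin (s * θ)) (Real.cos (s * θ) * θ) s := h1.sin
  exact h2.ofReal_comp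

theorem hasDerivAt_stage1 (z : V) (s : ℝ) :
    HasDerivAt (fun s : ℝ => stage1 s z) (X1 (stage1 s z)) s := by
  rw [hasDerivAt_pi]
  intro i
  have c1 := hasDerivAt_cosC (th01 z) s
  have s1 := hasDerivAt_sinC (th01 z) s
  have c2 := hasDerivAt_cosC (th23 z) s
  have s2 := hasDerivAt_sinC (th23 z) s
  fin_cases i
  · refine ((c1.mul_const (z 0)).fun_sub (s1.mul_const (z 1))).congr_deriv ?_
    simp only [X1, th01_stage1]
    simp [stage1]
    ring
  · refine ((s1.mul_const (z 0)).fun_add (c1.mul_const (z 1))).congr_deriv ?_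
    simp only [X1, th01_stage1]
    simp [stage1]
    ring
  · refine ((c2.mul_const (z 2)).fun_sub (s2.mul_const (z 3))).congr_deriv ?_
    simp only [X1, th23_stage1]
    simp [stage1]
    ring
  · refine ((s2.mul_const (z 2)).fun_add (c2.mul_const (z 3))).congr_deriv ?_
    simp only [X1, th23_stage1]
    simp [stage1]
    ring
  · exact hasDerivAt_const s (z 4)

theorem hasDerivAt_stage2 (z : V) (s : ℝ) :
    HasDerivAt (fun s : ℝ => stage2 s z) (X2 (stage2 s z)) s := by
  rw [hasDerivAt_pi]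
  intro i
  have c1 := hasDerivAt_cosC (th03 z) s
  have s1 := hasDerivAt_sinC (th03 z) s
  have c2 := hasDerivAt_cosC (th12 z) s
  have s2 := hasDerivAt_sinC (th12 z) s
  fin_cases i
  · refine ((c1.mul_const (z 0)).fun_sub (s1.mul_const (z 3))).congr_deriv ?_
    simp only [X2, th03_stage2]
    simp [stage2]
    ring
  · refine ((c2.mul_const (z 1)).fun_sub (s2.mul_const (z 2))).congr_deriv ?_
    simp only [X2, th12_stage2]
    simp [stage2]
    ring
  · refine ((s2.mul_const (z 1)).fun_add (c2.mul_const (z 2))).congr_deriv ?_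
    simp only [X2, th12_stage2]
    simp [stage2]
    ring
  · refine ((s1.mul_const (z 0)).fun_add (c1.mul_const (z 3))).congr_deriv ?_
    simp only [X2, th03_stage2]
    simp [stage2]
    ring
  · exact hasDerivAt_const s (z 4)

theorem herm_smul_left (c : ℝ) (x w : V) : herm (c • x) w = (c : ℂ) * herm x w := by
  simp only [herm, Fin.sum_univ_five, Pi.smul_apply, Complex.real_smul, map_mul, Complex.conj_ofReal]
  ring

theorem fderiv_Ham (t : ℝ) (y w : V) :
    fderiv ℝ (fun x : V => Ham (t, x)) y w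
      = deriv tau1 t * fderiv ℝ H1 y w + deriv tau2 t * fderiv ℝ H2 y w := by
  have d1 : DifferentiableAt ℝ H1 y :=
    ((contDiff_H1 (n := 1)).differentiable (by simp)).differentiableAt
  have d2 : DifferentiableAt ℝ H2 y :=
    ((contDiff_H2 (n := 1)).differentiable (by simp)).differentiableAt
  have h : HasFDerivAt (fun x : V => Ham (t, x))
      (deriv tau1 t • fderiv ℝ H1 y + deriv tau2 t • fderiv ℝ H2 y) y :=
    (d1.hasFDerivAt.const_mul (deriv tau1 t)).add (d2.hasFDerivAt.const_mul (deriv tau2 t))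
  rw [h.fderiv]
  simp

theorem hasDerivAt_tau1 (t : ℝ) : HasDerivAt tau1 (deriv tau1 t) t :=
  ((contDiff_tau1 (n := 1)).differentiable (by simp)).differentiableAt.hasDerivAt

theorem hasDerivAt_tau2 (t : ℝ) : HasDerivAt tau2 (deriv tau2 t) t :=
  ((contDiff_tau2 (n := 1)).differentiable (by simp)).differentiableAt.hasDerivAt

theorem deriv_tau2_eq_zero {t : ℝ} (ht : t < 2 / 3) : deriv tau2 t = 0 := by
  have h : tau2 =ᶠ[nhds t] fun _ => (0 : ℝ) := by
    filter_upwards [Iio_mem_nhds ht] with s hs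
    exact tau2_of_le (le_of_lt hs)
  rw [h.deriv_eq]
  simp

theorem deriv_tau1_eq_zero {t : ℝ} (ht : 1 / 3 < t) : deriv tau1 t = 0 := by
  have h : tau1 =ᶠ[nhds t] fun _ => (1 : ℝ) := by
    filter_upwards [Ioi_mem_nhds ht] with s hs
    exact tau1_of_ge (le_of_lt hs)
  rw [h.deriv_eq]
  simp

theorem hamilton_eq (t : ℝ) (z w : V) :
    2 * (herm (deriv (fun s : ℝ => Psi (s, z)) t) w).im
      = fderiv ℝ (fun x : V => Ham (t, x)) (Psi (t, z)) w := by
  rw [fderiv_Ham, fderiv_H1, fderiv_H2, ← herm_X1, ← herm_X2]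
  rcases lt_or_ge t (1 / 2) with ht | ht
  · have ht' : t < 2 / 3 := by linarith
    have h : (fun s : ℝ => Psi (s, z)) =ᶠ[nhds t] fun s => stage1 (tau1 s) z := by
      filter_upwards [Iio_mem_nhds ht'] with s hs
      simp only [Psi, tau2_of_le (le_of_lt hs), stage2_zero]
    have hd : HasDerivAt (fun s => stage1 (tau1 s) z)
        (deriv tau1 t • X1 (stage1 (tau1 t) z)) t :=
      (hasDerivAt_stage1 z (tau1 t)).scomp t (hasDerivAt_tau1 t)
    rw [h.deriv_eq, hd.deriv, deriv_tau2_eq_zero ht', herm_smul_left]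
    have hP : Psi (t, z) = stage1 (tau1 t) z := by
      simp only [Psi, tau2_of_le (le_of_lt ht'), stage2_zero]
    rw [hP]
    simp only [Complex.mul_im, Complex.ofReal_re, Complex.ofReal_im]
    ring
  · have ht' : 1 / 3 < t := by linarith
    have h : (fun s : ℝ => Psi (s, z)) =ᶠ[nhds t] fun s => stage2 (tau2 s) (stage1 1 z) := by
      filter_upwards [Ioi_mem_nhds ht'] with s hs
      simp only [Psi, tau1_of_ge (le_of_lt hs)]
    have hd : HasDerivAt (fun s => stage2 (tau2 s) (stage1 1 z))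
        (deriv tau2 t • X2 (stage2 (tau2 t) (stage1 1 z))) t :=
      (hasDerivAt_stage2 (stage1 1 z) (tau2 t)).scomp t (hasDerivAt_tau2 t)
    rw [h.deriv_eq, hd.deriv, deriv_tau1_eq_zero ht', herm_smul_left]
    have hP : Psi (t, z) = stage2 (tau2 t) (stage1 1 z) := by
      simp only [Psi, tau1_of_ge (le_of_lt ht')]
    rw [hP]
    simp only [Complex.mul_im, Complex.ofReal_re, Complex.ofReal_im]
    ring

/-- the Hamiltonian cone lift -/
noncomputable def theLift : HamiltonianConeLift where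
  Ψ := Psi
  H := Ham
  smooth_Ψ := contDiff_Psi
  smooth_H := contDiff_Ham
  mapsTo_cone := fun t z hz => Psi_mem t z hz
  compatible := fun t z _ c hc => ⟨c, Psi_smul t z c hc⟩
  start := fun z _ => ⟨1, by rw [Psi_zero, one_smul]⟩
  invariant := fun t z _ c hc => Ham_smul t z c hc
  hamilton := fun t _ z _ w _ => hamilton_eq t z w

end Crest.Agent.S0316
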