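import Crest.Agent.S0316_Exist
import Crest.Agent.S0316_Hamilton

set_option autoImplicit false

namespace Crest.Agent.S0316

open Crest.GeometryTopology.Quadric

section zfam
variable (p q r : ℝ)

@[simp] theorem zfam_0 : zfam p q r 0 = (((p + q) / 2 : ℝ) : ℂ) := rfl
@[simp] theorem zfam_1 : zfam p q r 1 = ⟨-r / 2, 1 / 2⟩ := rfl
@[simp] theorem zfam_2 : zfam p q r 2 = (((p - q) / 2 : ℝ) : ℂ) := rfl
@[simp] theorem zfam_3 : zfam p q r 3 = ⟨r / 2, 1 / 2⟩ := rfl
@[simp] theorem zfam_4 : zfam p q r 4 = 0 := rfl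

theorem zfam_mem (h : p ^ 2 + q ^ 2 + r ^ 2 = 1) : zfam p q r ∈ unitCone := by
  rw [mem_unitCone_iff]
  simp only [zfam_0, zfam_1, zfam_2, zfam_3, zfam_4, Complex.ofReal_re, Complex.ofReal_im,
    Complex.zero_re, Complex.zero_im]
  refine ⟨?_, ?_, ?_⟩
  · linear_combination (1 / 2) * h
  · linear_combination (1 / 2) * h
  · ring

theorem U1_zfam : U1 (zfam p q r) = p := by
  simp only [U1, hh, zfam_0, zfam_1, zfam_2, zfam_3, Complex.ofReal_re, Complex.ofReal_im]; ring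
theorem U2_zfam : U2 (zfam p q r) = r := by
  simp only [U2, hh, zfam_0, zfam_1, zfam_2, zfam_3, Complex.ofReal_re, Complex.ofReal_im]; ring
theorem U3_zfam : U3 (zfam p q r) = q := by
  simp only [U3, hh, zfam_0, zfam_1, zfam_2, zfam_3, Complex.ofReal_re, Complex.ofReal_im]; ring
theorem W1_zfam : W1 (zfam p q r) = q := by
  simp only [W1, hh, zfam_0, zfam_1, zfam_2, zfam_3, Complex.ofReal_re, Complex.ofReal_im]; ring
theorem W2_zfam : W2 (zfam p q r) = -r := by
  simp only [W2, hh, zfam_0, zfam_1, zfam_2, zfam_3, Complex.ofReal_re, Complex.ofReal_im]; ring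
theorem W3_zfam : W3 (zfam p q r) = p := by
  simp only [W3, hh, zfam_0, zfam_1, zfam_2, zfam_3, Complex.ofReal_re, Complex.ofReal_im]; ring

end zfam

/-- first coordinate of the two nondegenerate fixed points -/
noncomputable def p0 : ℝ := Real.sqrt (12 / 17)

theorem p0_sq : p0 ^ 2 = 12 / 17 := Real.sq_sqrt (by norm_num)
theorem p0_pos : 0 < p0 := Real.sqrt_pos.2 (by norm_num)

/-- any cone point in `z 4 = 0` spans the same line as the point of `zfam` with the same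
coordinates, provided `W = (U3, -U2, U1)` -/
theorem span_eq_zfam (z : V) (hz : z ∈ unitCone) (h4 : z 4 = 0) (p q r : ℝ)
    (h : p ^ 2 + q ^ 2 + r ^ 2 = 1)
    (u1 : U1 z = p) (u2 : U2 z = r) (u3 : U3 z = q)
    (w1 : W1 z = q) (w2 : W2 z = -r) (w3 : W3 z = p) :
    Submodule.span ℂ {z} = Submodule.span ℂ {zfam p q r} :=
  span_eq_of_UW (zfam p q r) z (zfam_mem p q r h) hz (zfam_4 p q r) h4
    (by rw [U1_zfam, u1]) (by rw [U2_zfam, u2]) (by rw [U3_zfam, u3])
    (by rw [W1_zfam, w1]) (by rw [W2_zfam, w2]) (by rw [W3_zfam, w3])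

theorem zs_mem : zfam 0 1 0 ∈ unitCone := zfam_mem _ _ _ (by norm_num)
theorem zp_mem : zfam p0 (-7 / 17) (-6 / 17) ∈ unitCone :=
  zfam_mem _ _ _ (by rw [p0_sq]; norm_num)
theorem zm_mem : zfam (-p0) (-7 / 17) (-6 / 17) ∈ unitCone :=
  zfam_mem _ _ _ (by rw [neg_sq, p0_sq]; norm_num)

theorem zs_cand : IsCand (zfam 0 1 0) := by
  left
  simp only [U1_zfam, U2_zfam, U3_zfam, W1_zfam, W2_zfam, W3_zfam]
  norm_num
theorem zp_cand : IsCand (zfam p0 (-7 / 17) (-6 / 17)) := by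
  right
  simp only [U1_zfam, U2_zfam, U3_zfam, W1_zfam, W2_zfam, W3_zfam, p0_sq]
  norm_num
theorem zm_cand : IsCand (zfam (-p0) (-7 / 17) (-6 / 17)) := by
  right
  simp only [U1_zfam, U2_zfam, U3_zfam, W1_zfam, W2_zfam, W3_zfam, neg_sq, p0_sq]
  norm_num

theorem span_zfam_ne (p q r p' q' r' : ℝ) (h : p ^ 2 + q ^ 2 + r ^ 2 = 1)
    (h' : p' ^ 2 + q' ^ 2 + r' ^ 2 = 1) (hne : p ≠ p') :
    Submodule.span ℂ {zfam p q r} ≠ Submodule.span ℂ {zfam p' q' r'} := by
  intro he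
  apply hne
  have e := hh_eq_of_span_eq _ _ (zfam_mem p' q' r' h') (zfam_mem p q r h) he
  have : U1 (zfam p q r) = U1 (zfam p' q' r') := by simp only [U1, e]
  rwa [U1_zfam, U1_zfam] at this

theorem fixedLines_eq : fixedLines theLift =
    {Submodule.span ℂ {zfam 0 1 0}, Submodule.span ℂ {zfam p0 (-7 / 17) (-6 / 17)},
      Submodule.span ℂ {zfam (-p0) (-7 / 17) (-6 / 17)}} := by
  ext ℓ
  simp only [fixedLines, Set.mem_ofPred_eq, Set.mem_insert_iff, Set.mem_singleton_iff]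
  constructor
  · rintro ⟨z, hz, rfl, hfix⟩
    obtain ⟨h4, hc⟩ := cand_of_fixed z hz hfix
    rcases hc with ⟨u1, u2, u3, w1, w2, w3⟩ | ⟨u1, u2, u3, w1, w2, w3⟩
    · left
      exact span_eq_zfam z hz h4 0 1 0 (by norm_num) u1 u2 u3 w1 (by rw [w2]; norm_num) w3
    · right
      have : (U1 z - p0) * (U1 z + p0) = 0 := by
        linear_combination u1 - p0_sq
      rcases mul_eq_zero.1 this with h | h
      · left
        have hu : U1 z = p0 := by linarith
        exact span_eq_zfam z hz h4 p0 (-7 / 17) (-6 / 17) (by rw [p0_sq]; norm_num)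
          hu u2 u3 w1 (by rw [w2]; norm_num) (by rw [w3, hu])
      · right
        have hu : U1 z = -p0 := by linarith
        exact span_eq_zfam z hz h4 (-p0) (-7 / 17) (-6 / 17) (by rw [neg_sq, p0_sq]; norm_num)
          hu u2 u3 w1 (by rw [w2]; norm_num) (by rw [w3, hu])
  · rintro (rfl | rfl | rfl)
    · exact ⟨_, zs_mem, rfl, fixed_of_cand _ zs_mem (zfam_4 _ _ _) zs_cand⟩
    · exact ⟨_, zp_mem, rfl, fixed_of_cand _ zp_mem (zfam_4 _ _ _) zp_cand⟩
    · exact ⟨_, zm_mem, rfl, fixed_of_cand _ zm_mem (zfam_4 _ _ _) zm_cand⟩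

theorem ncard_fixedLines : (fixedLines theLift).ncard = 3 := by
  rw [Set.ncard_eq_three]
  have hp := p0_pos
  refine ⟨_, _, _, ?_, ?_, ?_, fixedLines_eq⟩
  · exact span_zfam_ne _ _ _ _ _ _ (by norm_num) (by rw [p0_sq]; norm_num) (ne_of_lt hp)
  · exact span_zfam_ne _ _ _ _ _ _ (by norm_num) (by rw [neg_sq, p0_sq]; norm_num)
      (by intro h; linarith)
  · exact span_zfam_ne _ _ _ _ _ _ (by rw [p0_sq]; norm_num) (by rw [neg_sq, p0_sq]; norm_num)
      (by intro h; linarith)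

end Crest.Agent.S0316
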