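import Crest.Statements.S0316

set_option autoImplicit false

/-!
Explicit data for S0316: a Hamiltonian isotopy of the quadric threefold whose time-one map is
`sigma ∘ T' ∘ T`, where `sigma = diag(-1,-1,-1,-1,1)` and `T`, `T'` are compositions of planar twist
maps `z ↦ exp (g'(h_ij z) J_ij) z`.
-/

namespace Crest.Agent.S0316

open Crest.GeometryTopology.Quadric

noncomputable section

/-- complex 5-space -/
abbrev V : Type := Fin 5 → ℂ

/-- the twist constant -/
def kk : ℝ := 17 / 62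

/-- moment map component of the rotation in the `(i,j)` plane: `2 Im (conj z_i * z_j)` -/
def hh (i j : Fin 5) (z : V) : ℝ := 2 * ((z i).re * (z j).im - (z i).im * (z j).re)

/-- directional derivative of `hh i j` at `z` in direction `w` -/
def dhh (i j : Fin 5) (z w : V) : ℝ :=
  2 * ((w i).re * (z j).im + (z i).re * (w j).im - (w i).im * (z j).re - (z i).im * (w j).re)

/-- an antiderivative of `x ↦ arctan (kk * x)` -/
def Lam (x : ℝ) : ℝ := x * Real.arctan (kk * x) - Real.log (1 + kk ^ 2 * x ^ 2) / (2 * kk)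

/-- half-angle tangents of the four planar twists -/
def t01 (z : V) : ℝ := kk * (1 - 2 * hh 0 1 z)
def t23 (z : V) : ℝ := kk * (1 + 2 * hh 2 3 z)
def t03 (z : V) : ℝ := kk * (1 - 2 * hh 0 3 z)
def t12 (z : V) : ℝ := kk * (1 - 2 * hh 1 2 z)

/-- rotation angles of the four planar twists (the first two contain the half turn `sigma`) -/
def th01 (z : V) : ℝ := Real.pi + 2 * Real.arctan (t01 z)
def th23 (z : V) : ℝ := Real.pi + 2 * Real.arctan (t23 z)
def th03 (z : V) : ℝ := 2 * Real.arctan (t03 z)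
def th12 (z : V) : ℝ := -(2 * Real.arctan (t12 z))

/-- simultaneous rotation by angle `a` in the `(0,1)` plane and `b` in the `(2,3)` plane -/
def rotA (a b : ℝ) (z : V) : V :=
  ![(Real.cos a : ℂ) * z 0 - (Real.sin a : ℂ) * z 1,
    (Real.sin a : ℂ) * z 0 + (Real.cos a : ℂ) * z 1,
    (Real.cos b : ℂ) * z 2 - (Real.sin b : ℂ) * z 3,
    (Real.sin b : ℂ) * z 2 + (Real.cos b : ℂ) * z 3,
    z 4]

/-- simultaneous rotation by angle `a` in the `(0,3)` plane and `b` in the `(1,2)` plane -/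
def rotB (a b : ℝ) (z : V) : V :=
  ![(Real.cos a : ℂ) * z 0 - (Real.sin a : ℂ) * z 3,
    (Real.cos b : ℂ) * z 1 - (Real.sin b : ℂ) * z 2,
    (Real.sin b : ℂ) * z 1 + (Real.cos b : ℂ) * z 2,
    (Real.sin a : ℂ) * z 0 + (Real.cos a : ℂ) * z 3,
    z 4]

/-- first stage of the isotopy (flow of `H1` at time `s`) -/
def stage1 (s : ℝ) (z : V) : V := rotA (s * th01 z) (s * th23 z) z

/-- second stage of the isotopy (flow of `H2` at time `s`) -/
def stage2 (s : ℝ) (z : V) : V := rotB (s * th03 z) (s * th12 z) z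

/-- Hamiltonian of the first stage -/
def H1 (z : V) : ℝ :=
  Real.pi * hh 0 1 z - Lam (1 - 2 * hh 0 1 z) + (Real.pi * hh 2 3 z + Lam (1 + 2 * hh 2 3 z))

/-- Hamiltonian of the second stage -/
def H2 (z : V) : ℝ := -Lam (1 - 2 * hh 0 3 z) + Lam (1 - 2 * hh 1 2 z)

/-- Hamiltonian vector field of the first stage -/
def X1 (z : V) : V :=
  ![-((th01 z : ℂ) * z 1), (th01 z : ℂ) * z 0, -((th23 z : ℂ) * z 3), (th23 z : ℂ) * z 2, 0]

/-- Hamiltonian vector field of the second stage -/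
def X2 (z : V) : V :=
  ![-((th03 z : ℂ) * z 3), -((th12 z : ℂ) * z 2), (th12 z : ℂ) * z 1, (th03 z : ℂ) * z 0, 0]

/-- time reparametrisations: `tau1` runs from 0 to 1 on `[0,1/3]`, `tau2` on `[2/3,1]` -/
def tau1 (t : ℝ) : ℝ := Real.smoothTransition (3 * t)
def tau2 (t : ℝ) : ℝ := Real.smoothTransition (3 * t - 2)

/-- the lifted isotopy -/
def Psi (p : ℝ × V) : V := stage2 (tau2 p.1) (stage1 (tau1 p.1) p.2)

/-- the lifted Hamiltonian -/
def Ham (p : ℝ × V) : ℝ := deriv tau1 p.1 * H1 p.2 + deriv tau2 p.1 * H2 p.2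

/-- the two-sphere of cone points containing the three fixed points -/
def zfam (p q r : ℝ) : V :=
  ![((p + q) / 2 : ℝ), ⟨-r / 2, 1 / 2⟩, ((p - q) / 2 : ℝ), ⟨r / 2, 1 / 2⟩, 0]

/-- coordinates on `S² × S²` -/
def U1 (z : V) : ℝ := hh 0 1 z + hh 2 3 z
def U2 (z : V) : ℝ := hh 0 2 z - hh 1 3 z
def U3 (z : V) : ℝ := hh 0 3 z + hh 1 2 z
def W1 (z : V) : ℝ := hh 0 1 z - hh 2 3 z
def W2 (z : V) : ℝ := hh 0 2 z + hh 1 3 z
def W3 (z : V) : ℝ := hh 0 3 z - hh 1 2 z

end

end Crest.Agent.S0316
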