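import Crest.Agent.S0316_Inj
import Crest.Agent.S0316_Alg2

set_option autoImplicit false

namespace Crest.Agent.S0316

open Crest.GeometryTopology.Quadric

theorem fixed_alg (u1 u2 u3 w1 w2 w3 x2 x3 y2 y3 X1 X2 Y1 Y2 t1 t2 t3 t4 : ℝ)
    (ht1 : t1 = 17 / 62 * (1 - u1 - w1)) (ht2 : t2 = 17 / 62 * (1 + u1 - w1))
    (ht3 : t3 = 17 / 62 * (1 - x3 - y3)) (ht4 : t4 = 17 / 62 * (1 - x3 + y3))
    (A1 : (1 + t1 ^ 2) * (1 + t2 ^ 2) * x2
      = ((1 - t1 * t2) ^ 2 - (t1 + t2) ^ 2) * u2 - 2 * (t1 + t2) * (1 - t1 * t2) * u3)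
    (A2 : (1 + t1 ^ 2) * (1 + t2 ^ 2) * x3
      = 2 * (t1 + t2) * (1 - t1 * t2) * u2 + ((1 - t1 * t2) ^ 2 - (t1 + t2) ^ 2) * u3)
    (A3 : (1 + t1 ^ 2) * (1 + t2 ^ 2) * y2
      = ((1 + t1 * t2) ^ 2 - (t2 - t1) ^ 2) * w2 - 2 * (t2 - t1) * (1 + t1 * t2) * w3)
    (A4 : (1 + t1 ^ 2) * (1 + t2 ^ 2) * y3
      = 2 * (t2 - t1) * (1 + t1 * t2) * w2 + ((1 + t1 * t2) ^ 2 - (t2 - t1) ^ 2) * w3)
    (B1 : (1 + t3 ^ 2) * (1 + t4 ^ 2) * X1
      = ((1 + t3 * t4) ^ 2 - (t3 - t4) ^ 2) * u1 - 2 * (t3 - t4) * (1 + t3 * t4) * x2)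
    (B2 : (1 + t3 ^ 2) * (1 + t4 ^ 2) * X2
      = 2 * (t3 - t4) * (1 + t3 * t4) * u1 + ((1 + t3 * t4) ^ 2 - (t3 - t4) ^ 2) * x2)
    (B3 : (1 + t3 ^ 2) * (1 + t4 ^ 2) * Y1
      = ((1 - t3 * t4) ^ 2 - (t3 + t4) ^ 2) * w1 + 2 * (t3 + t4) * (1 - t3 * t4) * y2)
    (B4 : (1 + t3 ^ 2) * (1 + t4 ^ 2) * Y2
      = -2 * (t3 + t4) * (1 - t3 * t4) * w1 + ((1 - t3 * t4) ^ 2 - (t3 + t4) ^ 2) * y2)
    (hyp : (u1 = 0 ∧ u2 = 0 ∧ u3 = 1 ∧ w1 = 1 ∧ w2 = 0 ∧ w3 = 0) ∨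
      (u1 ^ 2 = 12 / 17 ∧ u2 = -6 / 17 ∧ u3 = -7 / 17 ∧ w1 = -7 / 17 ∧ w2 = 6 / 17 ∧ w3 = u1)) :
    X1 = u1 ∧ X2 = u2 ∧ x3 = u3 ∧ Y1 = w1 ∧ Y2 = w2 ∧ y3 = w3 := by
  rcases hyp with ⟨h1, h2, h3, h4, h5, h6⟩ | ⟨hp, h2, h3, h4, h5, h6⟩
  · subst h1 h2 h3 h4 h5 h6
    have e1 : t1 = 0 := by rw [ht1]; ring
    have e2 : t2 = 0 := by rw [ht2]; ring
    subst e1 e2
    have a1 : x2 = 0 := by linear_combination A1
    have a2 : x3 = 1 := by linear_combination A2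
    have a3 : y2 = 0 := by linear_combination A3
    have a4 : y3 = 0 := by linear_combination A4
    subst a1 a2 a3 a4
    have e3 : t3 = 0 := by rw [ht3]; ring
    have e4 : t4 = 0 := by rw [ht4]; ring
    subst e3 e4
    refine ⟨by linear_combination B1, by linear_combination B2, rfl, by linear_combination B3,
      by linear_combination B4, rfl⟩
  · subst h2 h3 h4 h5 h6
    have h12 : t1 * t2 = 3 / 31 := by
      rw [ht1, ht2]; linear_combination (-289 / 3844) * hp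
    have hs : t1 + t2 = 24 / 31 := by rw [ht1, ht2]; ring
    have hd : t2 - t1 = 17 / 31 * w3 := by rw [ht1, ht2]; ring
    have hD : (1 + t1 ^ 2) * (1 + t2 ^ 2) = 1360 / 961 := by
      have : (1 + t1 ^ 2) * (1 + t2 ^ 2) = (1 - t1 * t2) ^ 2 + (t1 + t2) ^ 2 := by ring
      rw [this, h12, hs]; norm_num
    rw [hD, h12, hs] at A1 A2
    rw [hD, h12, hd] at A3 A4
    have a1 : x2 = 6 / 17 := by linear_combination (961 / 1360) * A1
    have a2 : x3 = -7 / 17 := by linear_combination (961 / 1360) * A2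
    have a3 : y2 = -6 / 17 := by linear_combination (961 / 1360) * A3 - (37 / 40) * hp
    have a4 : y3 = w3 := by linear_combination (961 / 1360) * A4 - (17 / 80) * w3 * hp
    subst a1 a2 a3 a4
    have h34 : t3 * t4 = 3 / 31 := by
      rw [ht3, ht4]; linear_combination (-289 / 3844) * hp
    have hs' : t3 + t4 = 24 / 31 := by rw [ht3, ht4]; ring
    have hd' : t3 - t4 = -(17 / 31 * y3) := by rw [ht3, ht4]; ring
    have hD' : (1 + t3 ^ 2) * (1 + t4 ^ 2) = 1360 / 961 := by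
      have : (1 + t3 ^ 2) * (1 + t4 ^ 2) = (1 - t3 * t4) ^ 2 + (t3 + t4) ^ 2 := by ring
      rw [this, h34, hs']; norm_num
    rw [hD', h34, hd'] at B1 B2
    rw [hD', h34, hs'] at B3 B4
    refine ⟨?_, ?_, rfl, ?_, ?_, rfl⟩
    · linear_combination (961 / 1360) * B1 - (17 / 80) * y3 * hp
    · linear_combination (961 / 1360) * B2 - (37 / 40) * hp
    · linear_combination (961 / 1360) * B3
    · linear_combination (961 / 1360) * B4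


/-- the `(U, W)` coordinates of the three fixed points -/
def IsCand (z : V) : Prop :=
  (U1 z = 0 ∧ U2 z = 0 ∧ U3 z = 1 ∧ W1 z = 1 ∧ W2 z = 0 ∧ W3 z = 0) ∨
  (U1 z ^ 2 = 12 / 17 ∧ U2 z = -6 / 17 ∧ U3 z = -7 / 17 ∧ W1 z = -7 / 17 ∧ W2 z = 6 / 17
    ∧ W3 z = U1 z)

theorem stage_four (z : V) : stage2 1 (stage1 1 z) 4 = z 4 := by
  simp only [stage2, stage1, rotB_4, rotA_4]

theorem fixed_of_cand (z : V) (hz : z ∈ unitCone) (h4 : z 4 = 0) (h : IsCand z) :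
    Psi (1, z) ∈ Submodule.span ℂ {z} := by
  rw [Psi_one]
  have hz'' : stage2 1 (stage1 1 z) ∈ unitCone := stage2_mem _ _ (stage1_mem _ _ hz)
  have B1 := U1_stage2 (stage1 1 z)
  have B2 := U2_stage2 (stage1 1 z)
  have B3 := W1_stage2 (stage1 1 z)
  have B4 := W2_stage2 (stage1 1 z)
  rw [U1_stage1] at B1 B2
  rw [W1_stage1] at B3 B4
  obtain ⟨e1, e2, e3, e4, e5, e6⟩ := fixed_alg (U1 z) (U2 z) (U3 z) (W1 z) (W2 z) (W3 z)
    (U2 (stage1 1 z)) (U3 (stage1 1 z)) (W2 (stage1 1 z)) (W3 (stage1 1 z))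
    (U1 (stage2 1 (stage1 1 z))) (U2 (stage2 1 (stage1 1 z)))
    (W1 (stage2 1 (stage1 1 z))) (W2 (stage2 1 (stage1 1 z)))
    (t01 z) (t23 z) (t03 (stage1 1 z)) (t12 (stage1 1 z))
    (t01_eq z) (t23_eq z) (t03_eq _) (t12_eq _)
    (U2_stage1 z) (U3_stage1 z) (W2_stage1 z) (W3_stage1 z) B1 B2 B3 B4 h
  have hs := span_eq_of_UW z (stage2 1 (stage1 1 z)) hz hz'' h4 (by rw [stage_four, h4])
    e1 e2 (by rw [U3_stage2, e3]) e4 e5 (by rw [W3_stage2, e6])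
  rw [← hs]
  exact Submodule.mem_span_singleton_self _

theorem cand_of_fixed (z : V) (hz : z ∈ unitCone) (h : Psi (1, z) ∈ Submodule.span ℂ {z}) :
    z 4 = 0 ∧ IsCand z := by
  rw [Psi_one] at h
  obtain ⟨c, hc⟩ := Submodule.mem_span_singleton.1 h
  have hz'' : stage2 1 (stage1 1 z) ∈ unitCone := stage2_mem _ _ (stage1_mem _ _ hz)
  have h4 : z 4 = 0 := z4_zero z hz c hc.symm
  have hn : ‖c‖ = 1 := norm_eq_one_of_smul_mem c z hz (hc ▸ hz'')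
  have hhe : ∀ i j, hh i j (stage2 1 (stage1 1 z)) = hh i j z := fun i j => by
    rw [← hc, hh_smul i j c hn]
  have f1 : U1 (stage2 1 (stage1 1 z)) = U1 z := by simp only [U1, hhe]
  have f2 : U2 (stage2 1 (stage1 1 z)) = U2 z := by simp only [U2, hhe]
  have f3 : U3 (stage2 1 (stage1 1 z)) = U3 z := by simp only [U3, hhe]
  have g1 : W1 (stage2 1 (stage1 1 z)) = W1 z := by simp only [W1, hhe]
  have g2 : W2 (stage2 1 (stage1 1 z)) = W2 z := by simp only [W2, hhe]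
  have g3 : W3 (stage2 1 (stage1 1 z)) = W3 z := by simp only [W3, hhe]
  rw [U3_stage2] at f3
  rw [W3_stage2] at g3
  have A2 := U3_stage1 z
  have B2 := U2_stage2 (stage1 1 z)
  have B3 := W1_stage2 (stage1 1 z)
  have B4 := W2_stage2 (stage1 1 z)
  have T3 := t03_eq (stage1 1 z)
  have T4 := t12_eq (stage1 1 z)
  rw [f3] at A2
  rw [U1_stage1, f2] at B2
  rw [W1_stage1, g1] at B3
  rw [W1_stage1, g2] at B4
  rw [f3, g3] at T3 T4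
  exact ⟨h4, classify (U1 z) (U2 z) (U3 z) (W1 z) (W2 z) (W3 z)
    (U2 (stage1 1 z)) (W2 (stage1 1 z)) (t01 z) (t23 z) (t03 (stage1 1 z)) (t12 (stage1 1 z))
    (U_sq z hz h4) (W_sq z hz h4) (t01_eq z) (t23_eq z) T3 T4
    (U2_stage1 z) A2 (W2_stage1 z) B2 B3 B4⟩

end Crest.Agent.S0316
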