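import Crest.Agent.S0316_UW

set_option autoImplicit false

namespace Crest.Agent.S0316

open Crest.GeometryTopology.Quadric

theorem U_sq (z : V) (hz : z ∈ unitCone) (h4 : z 4 = 0) :
    U1 z ^ 2 + U2 z ^ 2 + U3 z ^ 2 = 1 := by
  rw [mem_unitCone_iff] at hz
  obtain ⟨h1, h2, h3⟩ := hz
  simp only [h4, Complex.zero_re, Complex.zero_im] at h1 h2 h3
  simp only [U1, U2, U3, hh]
  linear_combination
    ((z 0).re ^ 2 + (z 0).im ^ 2 + (z 1).re ^ 2 + (z 1).im ^ 2 + (z 2).re ^ 2 + (z 2).im ^ 2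
      + (z 3).re ^ 2 + (z 3).im ^ 2 + 1) * h1
    - ((z 0).re ^ 2 - (z 0).im ^ 2 + (z 1).re ^ 2 - (z 1).im ^ 2 + (z 2).re ^ 2 - (z 2).im ^ 2
      + (z 3).re ^ 2 - (z 3).im ^ 2) * h2
    - 4 * ((z 0).re * (z 0).im + (z 1).re * (z 1).im + (z 2).re * (z 2).im
      + (z 3).re * (z 3).im) * h3

theorem W_sq (z : V) (hz : z ∈ unitCone) (h4 : z 4 = 0) :
    W1 z ^ 2 + W2 z ^ 2 + W3 z ^ 2 = 1 := by
  rw [mem_unitCone_iff] at hz
  obtain ⟨h1, h2, h3⟩ := hz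
  simp only [h4, Complex.zero_re, Complex.zero_im] at h1 h2 h3
  simp only [W1, W2, W3, hh]
  linear_combination
    ((z 0).re ^ 2 + (z 0).im ^ 2 + (z 1).re ^ 2 + (z 1).im ^ 2 + (z 2).re ^ 2 + (z 2).im ^ 2
      + (z 3).re ^ 2 + (z 3).im ^ 2 + 1) * h1
    - ((z 0).re ^ 2 - (z 0).im ^ 2 + (z 1).re ^ 2 - (z 1).im ^ 2 + (z 2).re ^ 2 - (z 2).im ^ 2
      + (z 3).re ^ 2 - (z 3).im ^ 2) * h2
    - 4 * ((z 0).re * (z 0).im + (z 1).re * (z 1).im + (z 2).re * (z 2).im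
      + (z 3).re * (z 3).im) * h3

theorem abs_two_mul_le (a b c d : ℝ) : |2 * (a * d - b * c)| ≤ a ^ 2 + b ^ 2 + c ^ 2 + d ^ 2 := by
  rw [abs_le]
  constructor
  · nlinarith [sq_nonneg (a + d), sq_nonneg (b - c)]
  · nlinarith [sq_nonneg (a - d), sq_nonneg (b + c)]

theorem abs_hh01_le (z : V) (hz : z ∈ unitCone) : |hh 0 1 z| ≤ 1 := by
  rw [mem_unitCone_iff] at hz
  obtain ⟨h1, -, -⟩ := hz
  have := abs_two_mul_le (z 0).re (z 0).im (z 1).re (z 1).im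
  unfold hh
  nlinarith [sq_nonneg (z 0).re, sq_nonneg (z 0).im, sq_nonneg (z 1).re, sq_nonneg (z 1).im,
    sq_nonneg (z 2).re, sq_nonneg (z 2).im, sq_nonneg (z 3).re, sq_nonneg (z 3).im,
    sq_nonneg (z 4).re, sq_nonneg (z 4).im]

theorem abs_hh23_le (z : V) (hz : z ∈ unitCone) : |hh 2 3 z| ≤ 1 := by
  rw [mem_unitCone_iff] at hz
  obtain ⟨h1, -, -⟩ := hz
  have := abs_two_mul_le (z 2).re (z 2).im (z 3).re (z 3).im
  unfold hh
  nlinarith [sq_nonneg (z 0).re, sq_nonneg (z 0).im, sq_nonneg (z 1).re, sq_nonneg (z 1).im,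
    sq_nonneg (z 2).re, sq_nonneg (z 2).im, sq_nonneg (z 3).re, sq_nonneg (z 3).im,
    sq_nonneg (z 4).re, sq_nonneg (z 4).im]

theorem abs_hh03_le (z : V) (hz : z ∈ unitCone) : |hh 0 3 z| ≤ 1 := by
  rw [mem_unitCone_iff] at hz
  obtain ⟨h1, -, -⟩ := hz
  have := abs_two_mul_le (z 0).re (z 0).im (z 3).re (z 3).im
  unfold hh
  nlinarith [sq_nonneg (z 0).re, sq_nonneg (z 0).im, sq_nonneg (z 1).re, sq_nonneg (z 1).im,
    sq_nonneg (z 2).re, sq_nonneg (z 2).im, sq_nonneg (z 3).re, sq_nonneg (z 3).im,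
    sq_nonneg (z 4).re, sq_nonneg (z 4).im]

theorem abs_hh12_le (z : V) (hz : z ∈ unitCone) : |hh 1 2 z| ≤ 1 := by
  rw [mem_unitCone_iff] at hz
  obtain ⟨h1, -, -⟩ := hz
  have := abs_two_mul_le (z 1).re (z 1).im (z 2).re (z 2).im
  unfold hh
  nlinarith [sq_nonneg (z 0).re, sq_nonneg (z 0).im, sq_nonneg (z 1).re, sq_nonneg (z 1).im,
    sq_nonneg (z 2).re, sq_nonneg (z 2).im, sq_nonneg (z 3).re, sq_nonneg (z 3).im,
    sq_nonneg (z 4).re, sq_nonneg (z 4).im]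

theorem half_cos_pos (t : ℝ) (ht : t ^ 2 < 1) : 0 < (1 - t ^ 2) / (1 + t ^ 2) := by
  apply div_pos
  · linarith
  · positivity

theorem tsq_lt_m (h : ℝ) (hh' : |h| ≤ 1) : (kk * (1 - 2 * h)) ^ 2 < 1 := by
  have := abs_le.1 hh'
  unfold kk
  nlinarith [this.1, this.2]

theorem tsq_lt_p (h : ℝ) (hh' : |h| ≤ 1) : (kk * (1 + 2 * h)) ^ 2 < 1 := by
  have := abs_le.1 hh'
  unfold kk
  nlinarith [this.1, this.2]

theorem cos_th01_neg (z : V) (hz : z ∈ unitCone) : Real.cos (th01 z) < 0 := by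
  rw [cos_th01]
  have := half_cos_pos (t01 z) (tsq_lt_m _ (abs_hh01_le z hz))
  linarith
theorem cos_th23_neg (z : V) (hz : z ∈ unitCone) : Real.cos (th23 z) < 0 := by
  rw [cos_th23]
  have := half_cos_pos (t23 z) (tsq_lt_p _ (abs_hh23_le z hz))
  linarith
theorem cos_th03_pos (z : V) (hz : z ∈ unitCone) : 0 < Real.cos (th03 z) := by
  rw [cos_th03]
  exact half_cos_pos (t03 z) (tsq_lt_m _ (abs_hh03_le z hz))
theorem cos_th12_pos (z : V) (hz : z ∈ unitCone) : 0 < Real.cos (th12 z) := by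
  rw [cos_th12]
  exact half_cos_pos (t12 z) (tsq_lt_m _ (abs_hh12_le z hz))


/-- real part of the Hermitian product of the first four coordinates -/
def pair4 (u v : V) : ℝ :=
  (u 0).re * (v 0).re + (u 0).im * (v 0).im + ((u 1).re * (v 1).re + (u 1).im * (v 1).im)
  + ((u 2).re * (v 2).re + (u 2).im * (v 2).im) + ((u 3).re * (v 3).re + (u 3).im * (v 3).im)

theorem pairA (a b : ℝ) (z : V) : pair4 (rotA a b z) z
    = Real.cos a * ((z 0).re ^ 2 + (z 0).im ^ 2 + (z 1).re ^ 2 + (z 1).im ^ 2)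
      + Real.cos b * ((z 2).re ^ 2 + (z 2).im ^ 2 + (z 3).re ^ 2 + (z 3).im ^ 2) := by
  simp only [pair4, rotA_0, rotA_1, rotA_2, rotA_3, Complex.sub_re, Complex.sub_im,
    Complex.add_re, Complex.add_im,
    Complex.mul_re, Complex.mul_im, Complex.ofReal_re, Complex.ofReal_im]
  ring

theorem pairB (a b : ℝ) (z : V) : pair4 z (rotB a b z)
    = Real.cos a * ((z 0).re ^ 2 + (z 0).im ^ 2 + (z 3).re ^ 2 + (z 3).im ^ 2)
      + Real.cos b * ((z 1).re ^ 2 + (z 1).im ^ 2 + (z 2).re ^ 2 + (z 2).im ^ 2) := by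
  simp only [pair4, rotB_0, rotB_1, rotB_2, rotB_3, Complex.sub_re, Complex.sub_im,
    Complex.add_re, Complex.add_im,
    Complex.mul_re, Complex.mul_im, Complex.ofReal_re, Complex.ofReal_im]
  ring

theorem sign_lemma (c1 c2 c3 c4 n1 n2 n3 n4 : ℝ) (h1 : c1 < 0) (h2 : c2 < 0) (h3 : 0 < c3)
    (h4 : 0 < c4) (k1 : 0 ≤ n1) (k2 : 0 ≤ n2) (k3 : 0 ≤ n3) (k4 : 0 ≤ n4)
    (e : c1 * n1 + c2 * n2 = c3 * n3 + c4 * n4) : n1 = 0 ∧ n2 = 0 := by
  have a1 : c1 * n1 ≤ 0 := mul_nonpos_of_nonpos_of_nonneg h1.le k1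
  have a2 : c2 * n2 ≤ 0 := mul_nonpos_of_nonpos_of_nonneg h2.le k2
  have a3 : 0 ≤ c3 * n3 := mul_nonneg h3.le k3
  have a4 : 0 ≤ c4 * n4 := mul_nonneg h4.le k4
  have b1 : c1 * n1 = 0 := by linarith
  have b2 : c2 * n2 = 0 := by linarith
  constructor
  · rcases mul_eq_zero.1 b1 with h | h
    · exact absurd h (ne_of_lt h1)
    · exact h
  · rcases mul_eq_zero.1 b2 with h | h
    · exact absurd h (ne_of_lt h2)
    · exact h

theorem four_sq_zero {a b c d : ℝ} (h : a ^ 2 + b ^ 2 + c ^ 2 + d ^ 2 = 0) :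
    a = 0 ∧ b = 0 ∧ c = 0 ∧ d = 0 := by
  refine ⟨?_, ?_, ?_, ?_⟩ <;>
  nlinarith [sq_nonneg a, sq_nonneg b, sq_nonneg c, sq_nonneg d]

theorem z4_zero (z : V) (hz : z ∈ unitCone) (c : ℂ) (h : stage2 1 (stage1 1 z) = c • z) :
    z 4 = 0 := by
  by_contra h4
  have hc : c = 1 := by
    have h' := congrFun h 4
    simp only [stage2, stage1, rotB_4, rotA_4, Pi.smul_apply, smul_eq_mul] at h'
    have : (c - 1) * z 4 = 0 := by linear_combination -h'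
    rcases mul_eq_zero.1 this with h0 | h0
    · linear_combination h0
    · exact absurd h0 h4
  rw [hc, one_smul] at h
  have hz' : stage1 1 z ∈ unitCone := stage1_mem 1 z hz
  have e1 : pair4 (stage1 1 z) z = _ := pairA (1 * th01 z) (1 * th23 z) z
  have e2 : pair4 (stage1 1 z) (stage2 1 (stage1 1 z)) = _ :=
    pairB (1 * th03 (stage1 1 z)) (1 * th12 (stage1 1 z)) (stage1 1 z)
  rw [h, e1, one_mul, one_mul, one_mul, one_mul] at e2
  obtain ⟨n1, n2⟩ := sign_lemma _ _ _ _ _ _ _ _ (cos_th01_neg z hz) (cos_th23_neg z hz)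
    (cos_th03_pos _ hz') (cos_th12_pos _ hz') (by positivity) (by positivity) (by positivity)
    (by positivity) e2
  obtain ⟨a0, b0, a1, b1⟩ := four_sq_zero n1
  obtain ⟨a2, b2, a3, b3⟩ := four_sq_zero n2
  rw [mem_unitCone_iff] at hz
  obtain ⟨h1, h2, h3⟩ := hz
  rw [a0, b0, a1, b1, a2, b2, a3, b3] at h1 h2 h3
  nlinarith

end Crest.Agent.S0316
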