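import Crest.Agent.S0316_Geom

set_option autoImplicit false

namespace Crest.Agent.S0316

open Crest.GeometryTopology.Quadric

theorem hh_key (w : V) (i j : Fin 5) :
    w i * starRingEnd ℂ (w j) - starRingEnd ℂ (w i) * w j = -(Complex.I * (hh i j w : ℂ)) := by
  apply Complex.ext
  · simp [hh]
  · simp [hh]
    ring

theorem cone_eigen (w : V) (hw : w ∈ unitCone) (i : Fin 5) :
    w i = ∑ j, (w i * starRingEnd ℂ (w j) - starRingEnd ℂ (w i) * w j) * w j := by
  obtain ⟨h1, h2⟩ := hw
  have : ∑ j, (w i * starRingEnd ℂ (w j) - starRingEnd ℂ (w i) * w j) * w j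
      = w i * herm w w - starRingEnd ℂ (w i) * ∑ j, w j ^ 2 := by
    simp only [herm, Finset.mul_sum, ← Finset.sum_sub_distrib]
    refine Finset.sum_congr rfl (fun j _ => by ring)
  rw [this, h1, h2]
  ring

theorem eq_smul_of_hh_eq (z z' : V) (hz : z ∈ unitCone) (hz' : z' ∈ unitCone)
    (h : ∀ i j, hh i j z' = hh i j z) : z' = herm z z' • z := by
  have e2 : ∀ i, z' i = z i * herm z z' - starRingEnd ℂ (z i) * ∑ j, z j * z' j := by
    intro i
    calc z' i = ∑ j, (z' i * starRingEnd ℂ (z' j) - starRingEnd ℂ (z' i) * z' j) * z' j :=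
          cone_eigen z' hz' i
      _ = ∑ j, (z i * starRingEnd ℂ (z j) - starRingEnd ℂ (z i) * z j) * z' j := by
          refine Finset.sum_congr rfl (fun j _ => ?_)
          rw [hh_key, hh_key, h]
      _ = z i * herm z z' - starRingEnd ℂ (z i) * ∑ j, z j * z' j := by
          simp only [herm, Finset.mul_sum, ← Finset.sum_sub_distrib]
          refine Finset.sum_congr rfl (fun j _ => by ring)
  obtain ⟨h1, h2⟩ := hz
  have hb : ∑ j, z j * z' j = 0 := by
    have : ∑ j, z j * z' j = (∑ j, z j ^ 2) * herm z z' - herm z z * ∑ j, z j * z' j := by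
      calc ∑ j, z j * z' j
          = ∑ j, z j * (z j * herm z z' - starRingEnd ℂ (z j) * ∑ k, z k * z' k) := by
            refine Finset.sum_congr rfl (fun j _ => ?_)
            rw [← e2 j]
        _ = (∑ j, z j ^ 2) * herm z z' - herm z z * ∑ j, z j * z' j := by
            generalize (∑ k, z k * z' k) = β
            generalize herm z z' = α
            simp only [herm, Finset.sum_mul, ← Finset.sum_sub_distrib]
            refine Finset.sum_congr rfl (fun j _ => by ring)
    rw [h1, h2] at this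
    linear_combination (1 / 2) * this
  funext i
  rw [e2 i, hb]
  simp [mul_comm]


theorem hh_swap (i j : Fin 5) (w : V) : hh j i w = -hh i j w := by
  simp only [hh]; ring
theorem hh_self (i : Fin 5) (w : V) : hh i i w = 0 := by
  simp only [hh]; ring
theorem hh_four_right (i : Fin 5) (w : V) (h : w 4 = 0) : hh i 4 w = 0 := by
  simp [hh, h]
theorem hh_four_left (i : Fin 5) (w : V) (h : w 4 = 0) : hh 4 i w = 0 := by
  simp [hh, h]

theorem hh_all (z z' : V) (h4 : z 4 = 0) (h4' : z' 4 = 0)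
    (u1 : U1 z' = U1 z) (u2 : U2 z' = U2 z) (u3 : U3 z' = U3 z)
    (w1 : W1 z' = W1 z) (w2 : W2 z' = W2 z) (w3 : W3 z' = W3 z) :
    ∀ i j, hh i j z' = hh i j z := by
  simp only [U1, U2, U3, W1, W2, W3] at u1 u2 u3 w1 w2 w3
  have e01 : hh 0 1 z' = hh 0 1 z := by linarith
  have e23 : hh 2 3 z' = hh 2 3 z := by linarith
  have e02 : hh 0 2 z' = hh 0 2 z := by linarith
  have e13 : hh 1 3 z' = hh 1 3 z := by linarith
  have e03 : hh 0 3 z' = hh 0 3 z := by linarith
  have e12 : hh 1 2 z' = hh 1 2 z := by linarith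
  have e10 : hh 1 0 z' = hh 1 0 z := by rw [hh_swap 0 1, hh_swap 0 1, e01]
  have e32 : hh 3 2 z' = hh 3 2 z := by rw [hh_swap 2 3, hh_swap 2 3, e23]
  have e20 : hh 2 0 z' = hh 2 0 z := by rw [hh_swap 0 2, hh_swap 0 2, e02]
  have e31 : hh 3 1 z' = hh 3 1 z := by rw [hh_swap 1 3, hh_swap 1 3, e13]
  have e30 : hh 3 0 z' = hh 3 0 z := by rw [hh_swap 0 3, hh_swap 0 3, e03]
  have e21 : hh 2 1 z' = hh 2 1 z := by rw [hh_swap 1 2, hh_swap 1 2, e12]
  have d : ∀ i, hh i i z' = hh i i z := fun i => by rw [hh_self, hh_self]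
  have r : ∀ i, hh i 4 z' = hh i 4 z := fun i => by
    rw [hh_four_right i z h4, hh_four_right i z' h4']
  have l : ∀ i, hh 4 i z' = hh 4 i z := fun i => by
    rw [hh_four_left i z h4, hh_four_left i z' h4']
  intro i j
  fin_cases i <;> fin_cases j <;>
  first
  | exact d _ | exact r _ | exact l _ | exact e01 | exact e23 | exact e02 | exact e13
  | exact e03 | exact e12 | exact e10 | exact e32 | exact e20 | exact e31 | exact e30 | exact e21

theorem herm_smul_smul (c : ℂ) (z : V) : herm (c • z) (c • z) = (‖c‖ ^ 2 : ℝ) * herm z z := by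
  have : starRingEnd ℂ c * c = ((‖c‖ ^ 2 : ℝ) : ℂ) := by
    rw [Complex.conj_mul', Complex.ofReal_pow]
  rw [← this]
  simp only [herm, Finset.mul_sum, Pi.smul_apply, smul_eq_mul, map_mul]
  refine Finset.sum_congr rfl (fun j _ => by ring)

theorem norm_eq_one_of_smul_mem (c : ℂ) (z : V) (hz : z ∈ unitCone) (hcz : c • z ∈ unitCone) :
    ‖c‖ = 1 := by
  have h1 := hcz.1
  rw [herm_smul_smul, hz.1, mul_one] at h1
  have h2 : ‖c‖ ^ 2 = 1 := by exact_mod_cast h1
  nlinarith [norm_nonneg c]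

/-- two cone points in `z 4 = 0` with the same `U`, `W` coordinates span the same line -/
theorem span_eq_of_UW (z z' : V) (hz : z ∈ unitCone) (hz' : z' ∈ unitCone)
    (h4 : z 4 = 0) (h4' : z' 4 = 0)
    (u1 : U1 z' = U1 z) (u2 : U2 z' = U2 z) (u3 : U3 z' = U3 z)
    (w1 : W1 z' = W1 z) (w2 : W2 z' = W2 z) (w3 : W3 z' = W3 z) :
    Submodule.span ℂ {z'} = Submodule.span ℂ {z} := by
  have h := eq_smul_of_hh_eq z z' hz hz' (hh_all z z' h4 h4' u1 u2 u3 w1 w2 w3)
  have hn : ‖herm z z'‖ = 1 := norm_eq_one_of_smul_mem _ z hz (h ▸ hz')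
  have hne : herm z z' ≠ 0 := by
    intro h0
    rw [h0] at hn
    simp at hn
  rw [h]
  exact Submodule.span_singleton_smul_eq (IsUnit.mk0 _ hne) z

/-- two cone points spanning the same line have the same `hh` -/
theorem hh_eq_of_span_eq (z z' : V) (hz : z ∈ unitCone) (hz' : z' ∈ unitCone)
    (h : Submodule.span ℂ {z'} = Submodule.span ℂ {z}) (i j : Fin 5) : hh i j z' = hh i j z := by
  have hm : z' ∈ Submodule.span ℂ {z} := h ▸ Submodule.mem_span_singleton_self z'
  obtain ⟨c, hc⟩ := Submodule.mem_span_singleton.1 hm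
  have hn : ‖c‖ = 1 := norm_eq_one_of_smul_mem c z hz (hc ▸ hz')
  rw [← hc, hh_smul i j c hn]

end Crest.Agent.S0316
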