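import Crest.Agent.S0316_Defs

set_option autoImplicit false

namespace Crest.Agent.S0316

open Crest.GeometryTopology.Quadric

@[fun_prop]
theorem contDiff_ofReal' {n : WithTop ℕ∞} : ContDiff ℝ n (fun x : ℝ => (x : ℂ)) :=
  Complex.ofRealCLM.contDiff

@[fun_prop]
theorem contDiff_re' {n : WithTop ℕ∞} : ContDiff ℝ n (fun x : ℂ => x.re) :=
  Complex.reCLM.contDiff

@[fun_prop]
theorem contDiff_im' {n : WithTop ℕ∞} : ContDiff ℝ n (fun x : ℂ => x.im) :=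
  Complex.imCLM.contDiff

@[fun_prop]
theorem contDiff_arctan' {n : WithTop ℕ∞} : ContDiff ℝ n (fun x : ℝ => Real.arctan x) :=
  Real.contDiff_arctan

@[fun_prop]
theorem contDiff_hh {n : WithTop ℕ∞} (i j : Fin 5) : ContDiff ℝ n (hh i j) := by
  unfold hh
  fun_prop

@[fun_prop]
theorem contDiff_Lam {n : WithTop ℕ∞} : ContDiff ℝ n Lam := by
  unfold Lam
  have h : ∀ x : ℝ, 1 + kk ^ 2 * x ^ 2 ≠ 0 := fun x => by positivity
  fun_prop (disch := exact h _)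

@[fun_prop]
theorem contDiff_th01 {n : WithTop ℕ∞} : ContDiff ℝ n th01 := by
  unfold th01 t01; fun_prop
@[fun_prop]
theorem contDiff_th23 {n : WithTop ℕ∞} : ContDiff ℝ n th23 := by
  unfold th23 t23; fun_prop
@[fun_prop]
theorem contDiff_th03 {n : WithTop ℕ∞} : ContDiff ℝ n th03 := by
  unfold th03 t03; fun_prop
@[fun_prop]
theorem contDiff_th12 {n : WithTop ℕ∞} : ContDiff ℝ n th12 := by
  unfold th12 t12; fun_prop

@[fun_prop]
theorem contDiff_H1 {n : WithTop ℕ∞} : ContDiff ℝ n H1 := by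
  unfold H1; fun_prop
@[fun_prop]
theorem contDiff_H2 {n : WithTop ℕ∞} : ContDiff ℝ n H2 := by
  unfold H2; fun_prop

theorem contDiff_vec5 {n : WithTop ℕ∞} {E : Type*} [NormedAddCommGroup E] [NormedSpace ℝ E]
    {f0 f1 f2 f3 f4 : E → ℂ} (h0 : ContDiff ℝ n f0) (h1 : ContDiff ℝ n f1) (h2 : ContDiff ℝ n f2)
    (h3 : ContDiff ℝ n f3) (h4 : ContDiff ℝ n f4) :
    ContDiff ℝ n (fun p => (![f0 p, f1 p, f2 p, f3 p, f4 p] : V)) := by
  rw [contDiff_pi]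
  intro i
  fin_cases i
  · exact h0
  · exact h1
  · exact h2
  · exact h3
  · exact h4

theorem contDiff_stage1 {n : WithTop ℕ∞} : ContDiff ℝ n (fun p : ℝ × V => stage1 p.1 p.2) := by
  unfold stage1 rotA
  apply contDiff_vec5 <;> fun_prop

theorem contDiff_stage2 {n : WithTop ℕ∞} : ContDiff ℝ n (fun p : ℝ × V => stage2 p.1 p.2) := by
  unfold stage2 rotB
  apply contDiff_vec5 <;> fun_prop

@[fun_prop]
theorem contDiff_tau1 {n : ℕ∞} : ContDiff ℝ n tau1 := by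
  have h : ContDiff ℝ n (fun t : ℝ => 3 * t) := by fun_prop
  exact Real.smoothTransition.contDiff.comp h

@[fun_prop]
theorem contDiff_tau2 {n : ℕ∞} : ContDiff ℝ n tau2 := by
  have h : ContDiff ℝ n (fun t : ℝ => 3 * t - 2) := by fun_prop
  exact Real.smoothTransition.contDiff.comp h

theorem contDiff_Psi : ContDiff ℝ (⊤ : ℕ∞) Psi := by
  have h1 : ContDiff ℝ (⊤ : ℕ∞) (fun p : ℝ × V => (tau1 p.1, p.2)) :=
    (contDiff_tau1.comp contDiff_fst).prodMk contDiff_snd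
  have h2 : ContDiff ℝ (⊤ : ℕ∞) (fun p : ℝ × V => stage1 (tau1 p.1) p.2) := by
    have h := (contDiff_stage1 (n := ((⊤ : ℕ∞) : WithTop ℕ∞))).comp h1
    exact h
  have h3 : ContDiff ℝ (⊤ : ℕ∞) (fun p : ℝ × V => (tau2 p.1, stage1 (tau1 p.1) p.2)) :=
    (contDiff_tau2.comp contDiff_fst).prodMk h2
  have h4 : ContDiff ℝ (⊤ : ℕ∞)
      (fun p : ℝ × V => stage2 (tau2 p.1) (stage1 (tau1 p.1) p.2)) := by
    have h := (contDiff_stage2 (n := ((⊤ : ℕ∞) : WithTop ℕ∞))).comp h3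
    exact h
  exact h4

theorem contDiff_deriv_tau1 : ContDiff ℝ (⊤ : ℕ∞) (deriv tau1) :=
  (contDiff_infty_iff_deriv.1 contDiff_tau1).2

theorem contDiff_deriv_tau2 : ContDiff ℝ (⊤ : ℕ∞) (deriv tau2) :=
  (contDiff_infty_iff_deriv.1 contDiff_tau2).2

theorem contDiff_Ham : ContDiff ℝ (⊤ : ℕ∞) Ham := by
  have h1 : ContDiff ℝ (⊤ : ℕ∞) (fun p : ℝ × V => deriv tau1 p.1) :=
    contDiff_deriv_tau1.comp contDiff_fst
  have h2 : ContDiff ℝ (⊤ : ℕ∞) (fun p : ℝ × V => deriv tau2 p.1) :=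
    contDiff_deriv_tau2.comp contDiff_fst
  have h3 : ContDiff ℝ (⊤ : ℕ∞) (fun p : ℝ × V => H1 p.2) := contDiff_H1.comp contDiff_snd
  have h4 : ContDiff ℝ (⊤ : ℕ∞) (fun p : ℝ × V => H2 p.2) := contDiff_H2.comp contDiff_snd
  exact (h1.mul h3).add (h2.mul h4)

end Crest.Agent.S0316
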