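import Crest.Agent.S0316_Cone

set_option autoImplicit false

namespace Crest.Agent.S0316

open Crest.GeometryTopology.Quadric

theorem cos_two_arctan (t : ℝ) : Real.cos (2 * Real.arctan t) = (1 - t ^ 2) / (1 + t ^ 2) := by
  have h : (1 + t ^ 2) ≠ 0 := by positivity
  rw [Real.cos_two_mul, Real.cos_sq_arctan]
  field_simp
  ring

theorem sin_two_arctan (t : ℝ) : Real.sin (2 * Real.arctan t) = 2 * t / (1 + t ^ 2) := by
  have h : (0:ℝ) < (1 + t ^ 2) := by positivity
  rw [Real.sin_two_mul, Real.sin_arctan, Real.cos_arctan]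
  have hs : Real.sqrt (1 + t ^ 2) ^ 2 = 1 + t ^ 2 := Real.sq_sqrt h.le
  have hs0 : Real.sqrt (1 + t ^ 2) ≠ 0 := by positivity
  field_simp
  rw [hs]

section rot
variable (a b : ℝ) (z : V)

theorem U1_rotA : U1 (rotA a b z) = U1 z := by
  simp only [U1, hh01_rotA, hh23_rotA]
theorem W1_rotA : W1 (rotA a b z) = W1 z := by
  simp only [W1, hh01_rotA, hh23_rotA]
theorem U3_rotB : U3 (rotB a b z) = U3 z := by
  simp only [U3, hh03_rotB, hh12_rotB]
theorem W3_rotB : W3 (rotB a b z) = W3 z := by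
  simp only [W3, hh03_rotB, hh12_rotB]

theorem U2_rotA : U2 (rotA a b z)
    = (Real.cos a * Real.cos b - Real.sin a * Real.sin b) * U2 z
      - (Real.cos a * Real.sin b + Real.sin a * Real.cos b) * U3 z := by
  simp only [U2, U3, hh, rotA_0, rotA_1, rotA_2, rotA_3, Complex.sub_re, Complex.sub_im,
    Complex.add_re, Complex.add_im,
    Complex.mul_re, Complex.mul_im, Complex.ofReal_re, Complex.ofReal_im]
  ring

theorem U3_rotA : U3 (rotA a b z)
    = (Real.cos a * Real.sin b + Real.sin a * Real.cos b) * U2 z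
      + (Real.cos a * Real.cos b - Real.sin a * Real.sin b) * U3 z := by
  simp only [U2, U3, hh, rotA_0, rotA_1, rotA_2, rotA_3, Complex.sub_re, Complex.sub_im,
    Complex.add_re, Complex.add_im,
    Complex.mul_re, Complex.mul_im, Complex.ofReal_re, Complex.ofReal_im]
  ring

theorem W2_rotA : W2 (rotA a b z)
    = (Real.cos a * Real.cos b + Real.sin a * Real.sin b) * W2 z
      - (Real.cos a * Real.sin b - Real.sin a * Real.cos b) * W3 z := by
  simp only [W2, W3, hh, rotA_0, rotA_1, rotA_2, rotA_3, Complex.sub_re, Complex.sub_im,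
    Complex.add_re, Complex.add_im,
    Complex.mul_re, Complex.mul_im, Complex.ofReal_re, Complex.ofReal_im]
  ring

theorem W3_rotA : W3 (rotA a b z)
    = (Real.cos a * Real.sin b - Real.sin a * Real.cos b) * W2 z
      + (Real.cos a * Real.cos b + Real.sin a * Real.sin b) * W3 z := by
  simp only [W2, W3, hh, rotA_0, rotA_1, rotA_2, rotA_3, Complex.sub_re, Complex.sub_im,
    Complex.add_re, Complex.add_im,
    Complex.mul_re, Complex.mul_im, Complex.ofReal_re, Complex.ofReal_im]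
  ring

theorem U1_rotB : U1 (rotB a b z)
    = (Real.cos a * Real.cos b - Real.sin a * Real.sin b) * U1 z
      - (Real.cos a * Real.sin b + Real.sin a * Real.cos b) * U2 z := by
  simp only [U1, U2, hh, rotB_0, rotB_1, rotB_2, rotB_3, Complex.sub_re, Complex.sub_im,
    Complex.add_re, Complex.add_im,
    Complex.mul_re, Complex.mul_im, Complex.ofReal_re, Complex.ofReal_im]
  ring

theorem U2_rotB : U2 (rotB a b z)
    = (Real.cos a * Real.sin b + Real.sin a * Real.cos b) * U1 z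
      + (Real.cos a * Real.cos b - Real.sin a * Real.sin b) * U2 z := by
  simp only [U1, U2, hh, rotB_0, rotB_1, rotB_2, rotB_3, Complex.sub_re, Complex.sub_im,
    Complex.add_re, Complex.add_im,
    Complex.mul_re, Complex.mul_im, Complex.ofReal_re, Complex.ofReal_im]
  ring

theorem W1_rotB : W1 (rotB a b z)
    = (Real.cos a * Real.cos b + Real.sin a * Real.sin b) * W1 z
      - (Real.cos a * Real.sin b - Real.sin a * Real.cos b) * W2 z := by
  simp only [W1, W2, hh, rotB_0, rotB_1, rotB_2, rotB_3, Complex.sub_re, Complex.sub_im,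
    Complex.add_re, Complex.add_im,
    Complex.mul_re, Complex.mul_im, Complex.ofReal_re, Complex.ofReal_im]
  ring

theorem W2_rotB : W2 (rotB a b z)
    = (Real.cos a * Real.sin b - Real.sin a * Real.cos b) * W1 z
      + (Real.cos a * Real.cos b + Real.sin a * Real.sin b) * W2 z := by
  simp only [W1, W2, hh, rotB_0, rotB_1, rotB_2, rotB_3, Complex.sub_re, Complex.sub_im,
    Complex.add_re, Complex.add_im,
    Complex.mul_re, Complex.mul_im, Complex.ofReal_re, Complex.ofReal_im]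
  ring

end rot

theorem cos_th01 (z : V) : Real.cos (th01 z) = -((1 - t01 z ^ 2) / (1 + t01 z ^ 2)) := by
  rw [th01, add_comm, Real.cos_add_pi, cos_two_arctan]
theorem sin_th01 (z : V) : Real.sin (th01 z) = -(2 * t01 z / (1 + t01 z ^ 2)) := by
  rw [th01, add_comm, Real.sin_add_pi, sin_two_arctan]
theorem cos_th23 (z : V) : Real.cos (th23 z) = -((1 - t23 z ^ 2) / (1 + t23 z ^ 2)) := by
  rw [th23, add_comm, Real.cos_add_pi, cos_two_arctan]
theorem sin_th23 (z : V) : Real.sin (th23 z) = -(2 * t23 z / (1 + t23 z ^ 2)) := by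
  rw [th23, add_comm, Real.sin_add_pi, sin_two_arctan]
theorem cos_th03 (z : V) : Real.cos (th03 z) = (1 - t03 z ^ 2) / (1 + t03 z ^ 2) := by
  rw [th03, cos_two_arctan]
theorem sin_th03 (z : V) : Real.sin (th03 z) = 2 * t03 z / (1 + t03 z ^ 2) := by
  rw [th03, sin_two_arctan]
theorem cos_th12 (z : V) : Real.cos (th12 z) = (1 - t12 z ^ 2) / (1 + t12 z ^ 2) := by
  rw [th12, Real.cos_neg, cos_two_arctan]
theorem sin_th12 (z : V) : Real.sin (th12 z) = -(2 * t12 z / (1 + t12 z ^ 2)) := by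
  rw [th12, Real.sin_neg, sin_two_arctan]

theorem t01_eq (z : V) : t01 z = 17 / 62 * (1 - U1 z - W1 z) := by
  simp only [t01, kk, U1, W1]; ring
theorem t23_eq (z : V) : t23 z = 17 / 62 * (1 + U1 z - W1 z) := by
  simp only [t23, kk, U1, W1]; ring
theorem t03_eq (z : V) : t03 z = 17 / 62 * (1 - U3 z - W3 z) := by
  simp only [t03, kk, U3, W3]; ring
theorem t12_eq (z : V) : t12 z = 17 / 62 * (1 - U3 z + W3 z) := by
  simp only [t12, kk, U3, W3]; ring

section stage
variable (z : V)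

theorem U1_stage1 : U1 (stage1 1 z) = U1 z := U1_rotA _ _ _
theorem W1_stage1 : W1 (stage1 1 z) = W1 z := W1_rotA _ _ _
theorem U3_stage2 : U3 (stage2 1 z) = U3 z := U3_rotB _ _ _
theorem W3_stage2 : W3 (stage2 1 z) = W3 z := W3_rotB _ _ _

theorem U2_stage1 : (1 + t01 z ^ 2) * (1 + t23 z ^ 2) * U2 (stage1 1 z)
    = ((1 - t01 z * t23 z) ^ 2 - (t01 z + t23 z) ^ 2) * U2 z
      - 2 * (t01 z + t23 z) * (1 - t01 z * t23 z) * U3 z := by
  have h1 : (1 + t01 z ^ 2) ≠ 0 := by positivity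
  have h2 : (1 + t23 z ^ 2) ≠ 0 := by positivity
  rw [stage1, one_mul, one_mul, U2_rotA, cos_th01, sin_th01, cos_th23, sin_th23]
  field_simp
  ring

theorem U3_stage1 : (1 + t01 z ^ 2) * (1 + t23 z ^ 2) * U3 (stage1 1 z)
    = 2 * (t01 z + t23 z) * (1 - t01 z * t23 z) * U2 z
      + ((1 - t01 z * t23 z) ^ 2 - (t01 z + t23 z) ^ 2) * U3 z := by
  have h1 : (1 + t01 z ^ 2) ≠ 0 := by positivity
  have h2 : (1 + t23 z ^ 2) ≠ 0 := by positivity
  rw [stage1, one_mul, one_mul, U3_rotA, cos_th01, sin_th01, cos_th23, sin_th23]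
  field_simp
  ring

theorem W2_stage1 : (1 + t01 z ^ 2) * (1 + t23 z ^ 2) * W2 (stage1 1 z)
    = ((1 + t01 z * t23 z) ^ 2 - (t23 z - t01 z) ^ 2) * W2 z
      - 2 * (t23 z - t01 z) * (1 + t01 z * t23 z) * W3 z := by
  have h1 : (1 + t01 z ^ 2) ≠ 0 := by positivity
  have h2 : (1 + t23 z ^ 2) ≠ 0 := by positivity
  rw [stage1, one_mul, one_mul, W2_rotA, cos_th01, sin_th01, cos_th23, sin_th23]
  field_simp
  ring

theorem W3_stage1 : (1 + t01 z ^ 2) * (1 + t23 z ^ 2) * W3 (stage1 1 z)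
    = 2 * (t23 z - t01 z) * (1 + t01 z * t23 z) * W2 z
      + ((1 + t01 z * t23 z) ^ 2 - (t23 z - t01 z) ^ 2) * W3 z := by
  have h1 : (1 + t01 z ^ 2) ≠ 0 := by positivity
  have h2 : (1 + t23 z ^ 2) ≠ 0 := by positivity
  rw [stage1, one_mul, one_mul, W3_rotA, cos_th01, sin_th01, cos_th23, sin_th23]
  field_simp
  ring

theorem U1_stage2 : (1 + t03 z ^ 2) * (1 + t12 z ^ 2) * U1 (stage2 1 z)
    = ((1 + t03 z * t12 z) ^ 2 - (t03 z - t12 z) ^ 2) * U1 z
      - 2 * (t03 z - t12 z) * (1 + t03 z * t12 z) * U2 z := by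
  have h1 : (1 + t03 z ^ 2) ≠ 0 := by positivity
  have h2 : (1 + t12 z ^ 2) ≠ 0 := by positivity
  rw [stage2, one_mul, one_mul, U1_rotB, cos_th03, sin_th03, cos_th12, sin_th12]
  field_simp
  ring

theorem U2_stage2 : (1 + t03 z ^ 2) * (1 + t12 z ^ 2) * U2 (stage2 1 z)
    = 2 * (t03 z - t12 z) * (1 + t03 z * t12 z) * U1 z
      + ((1 + t03 z * t12 z) ^ 2 - (t03 z - t12 z) ^ 2) * U2 z := by
  have h1 : (1 + t03 z ^ 2) ≠ 0 := by positivity
  have h2 : (1 + t12 z ^ 2) ≠ 0 := by positivity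
  rw [stage2, one_mul, one_mul, U2_rotB, cos_th03, sin_th03, cos_th12, sin_th12]
  field_simp
  ring

theorem W1_stage2 : (1 + t03 z ^ 2) * (1 + t12 z ^ 2) * W1 (stage2 1 z)
    = ((1 - t03 z * t12 z) ^ 2 - (t03 z + t12 z) ^ 2) * W1 z
      + 2 * (t03 z + t12 z) * (1 - t03 z * t12 z) * W2 z := by
  have h1 : (1 + t03 z ^ 2) ≠ 0 := by positivity
  have h2 : (1 + t12 z ^ 2) ≠ 0 := by positivity
  rw [stage2, one_mul, one_mul, W1_rotB, cos_th03, sin_th03, cos_th12, sin_th12]
  field_simp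
  ring

theorem W2_stage2 : (1 + t03 z ^ 2) * (1 + t12 z ^ 2) * W2 (stage2 1 z)
    = -2 * (t03 z + t12 z) * (1 - t03 z * t12 z) * W1 z
      + ((1 - t03 z * t12 z) ^ 2 - (t03 z + t12 z) ^ 2) * W2 z := by
  have h1 : (1 + t03 z ^ 2) ≠ 0 := by positivity
  have h2 : (1 + t12 z ^ 2) ≠ 0 := by positivity
  rw [stage2, one_mul, one_mul, W2_rotB, cos_th03, sin_th03, cos_th12, sin_th12]
  field_simp
  ring

end stage

end Crest.Agent.S0316
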