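import Crest.Statements.S0325
import Crest.Agent.Cyl.Tetra

set_option autoImplicit false
open MeasureTheory
open scoped ENNReal
open Crest Crest.GeometryTopology Crest.GeometryTopology.Convex

namespace Crest.Agent.S0325

open Crest.Agent.Cyl

/-- padding a finite family by one extra element `y` and copies of a neutral element `z`. -/
theorem pad {α : Type*} (m M : ℕ) (hM : m + 1 ≤ M) (x : Fin m → α) (y z : α) :
    ∃ X : Fin M → α, (∀ i : Fin m, ∃ j, X j = x i) ∧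
      (∀ j, (∃ i, X j = x i) ∨ X j = y ∨ X j = z) ∧
      ∀ f : α → ℝ, f z = 0 → ∑ j, f (X j) = ∑ i, f (x i) + f y := by
  classical
  refine ⟨fun j => if h : j.val < m then x ⟨j.val, h⟩ else if j.val = m then y else z, ?_, ?_, ?_⟩
  · intro i
    refine ⟨⟨i.val, by omega⟩, ?_⟩
    simp [i.isLt]
  · intro j
    by_cases h : j.val < m
    · left; exact ⟨⟨j.val, h⟩, by simp [h]⟩
    · right
      by_cases h2 : j.val = m
      · left; simp [h2]
      · right; simp [h, h2]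
  · intro f hz
    set G : ℕ → ℝ := fun n => if h : n < m then f (x ⟨n, h⟩) else if n = m then f y else 0 with hG
    have h1 : ∀ j : Fin M, f (if h : j.val < m then x ⟨j.val, h⟩ else if j.val = m then y else z) = G j.val := by
      intro j
      simp only [hG]
      by_cases h : j.val < m
      · simp [h]
      · by_cases h2 : j.val = m
        · simp [h2]
        · simp [h, h2, hz]
    simp only [h1]
    rw [Fin.sum_univ_eq_sum_range G M]
    have h2 : ∑ n ∈ Finset.range M, G n = ∑ n ∈ Finset.range (m + 1), G n := by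
      symm
      apply Finset.sum_subset
      · intro n hn; simp only [Finset.mem_range] at *; omega
      · intro n hn hn'
        simp only [Finset.mem_range] at *
        have h3 : ¬ n < m := by omega
        have h4 : n ≠ m := by omega
        simp [hG, h3, h4]
    rw [h2, Finset.sum_range_succ, ← Fin.sum_univ_eq_sum_range G m]
    congr 1
    · apply Finset.sum_congr rfl
      intro i _
      simp [hG, i.isLt]
    · simp [hG]

/-- area (as a real number) of the triangle of a quadruple `(u,p,q,r)`. -/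
noncomputable def areaOf (X : E3 × E3 × E3 × E3) : ℝ :=
  (μHE[2] (convexHull ℝ ({X.2.1, X.2.2.1, X.2.2.2} : Set E3))).toReal

theorem areaOf_zero (u : E3) : areaOf (u, 0, 0, 0) = 0 := by
  unfold areaOf
  rw [area_triangle]
  simp [gram]

theorem areaOf_tuning (s : ℝ) (hs : 0 ≤ s) :
    areaOf (!₂[1, 0, 0], 0, !₂[0, s, 0], !₂[0, 0, 1]) = s / 2 := by
  unfold areaOf
  rw [area_triangle]
  have h : gram ((!₂[0, s, 0] : E3) - 0) ((!₂[0, 0, 1] : E3) - 0) = s ^ 2 := by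
    simp [gram, EuclideanSpace.norm_sq_eq, Fin.sum_univ_three, PiLp.inner_apply]
  rw [h, Real.sqrt_sq hs, ENNReal.toReal_ofReal (by positivity)]

theorem card_bound (ε : ℝ) (h0 : 0 < ε) (h1 : ε ≤ 1 / 2000) : 1000000 + 1 ≤ 2 * ⌈2 / ε ^ 2⌉₊ := by
  have h2 : ε ^ 2 ≤ (1 / 2000) ^ 2 := by gcongr
  have h3 : (8000000 : ℝ) ≤ 2 / ε ^ 2 := by
    rw [le_div_iff₀ (by positivity)]
    nlinarith
  have h4 : (8000000 : ℝ) ≤ (⌈2 / ε ^ 2⌉₊ : ℝ) := h3.trans (Nat.le_ceil _)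
  have h5 : 8000000 ≤ ⌈2 / ε ^ 2⌉₊ := by exact_mod_cast h4
  omega

/-- Let K be the regular tetrahedron with vertices (±1, 0, 0), (0, ±1, √2); areas are Lebesgue-normalised 2-dimensional Hausdorff measure. (1) The least area of an orthogonal projection of K onto a plane is √2: each map y ↦ y − ⟪y, v⟫ v with ‖v‖ = 1 sends K to a set of area ≥ √2, equal for some v. (2) For every 0 < ε ≤ 5·10⁻⁴, K is covered by 2⌈2/ε²⌉ cylinders Bᵢ + ℝ uᵢ, uᵢ a unit vector, Bᵢ a triangle (convex hull of three points) in uᵢ^⊥, of total area A with ‖A/√2 − 1/2 + 13 ε²/6000‖ ≤ 2 ε⁴. -/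
theorem result :
    ((∀ v : EuclideanSpace ℝ (Fin 3), ‖v‖ = 1 →
        ENNReal.ofReal (Real.sqrt 2) ≤ μHE[2] ((fun y => y - inner ℝ y v • v) '' convexHull ℝ {!₂[1, 0, 0], !₂[-1, 0, 0], !₂[0, 1, Real.sqrt 2], !₂[0, -1, Real.sqrt 2]})) ∧
      ∃ v : EuclideanSpace ℝ (Fin 3), ‖v‖ = 1 ∧
        μHE[2] ((fun y => y - inner ℝ y v • v) '' convexHull ℝ {!₂[1, 0, 0], !₂[-1, 0, 0], !₂[0, 1, Real.sqrt 2], !₂[0, -1, Real.sqrt 2]}) = ENNReal.ofReal (Real.sqrt 2)) ∧
    ∀ ε : ℝ, 0 < ε → ε ≤ 1 / 2000 →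
      ∃ (u p q r : Fin (2 * ⌈2 / ε ^ 2⌉₊) → EuclideanSpace ℝ (Fin 3)),
        (∀ i, ‖u i‖ = 1) ∧
        (∀ i, inner ℝ (p i) (u i) = 0 ∧ inner ℝ (q i) (u i) = 0 ∧ inner ℝ (r i) (u i) = 0) ∧
        convexHull ℝ {!₂[1, 0, 0], !₂[-1, 0, 0], !₂[0, 1, Real.sqrt 2], !₂[0, -1, Real.sqrt 2]} ⊆
          ⋃ i, {x : EuclideanSpace ℝ (Fin 3) | ∃ b ∈ convexHull ℝ {p i, q i, r i}, ∃ t : ℝ, x = b + t • u i} ∧
        abs ((∑ i, (μHE[2] (convexHull ℝ ({p i, q i, r i} : Set (EuclideanSpace ℝ (Fin 3))))).toReal) / Real.sqrt 2 -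
            (1 / 2 - 13 / 6000 * ε ^ 2)) ≤ 2 * ε ^ 4 := by
  refine ⟨⟨minproj, minproj_eq⟩, ?_⟩
  intro ε h0 h1
  obtain ⟨m, u, p, q, r, hm, hu, hperp, hcov, hsum⟩ := fan_cover
  have hM : m + 1 ≤ 2 * ⌈2 / ε ^ 2⌉₊ := by
    have := card_bound ε h0 h1
    omega
  have hs2 : 0 < Real.sqrt 2 := by positivity
  set A₀ : ℝ := ∑ i, (μHE[2] (convexHull ℝ ({p i, q i, r i} : Set E3))).toReal with hA₀
  set s : ℝ := 2 * (Real.sqrt 2 * (1 / 2 - 13 / 6000 * ε ^ 2) - A₀) with hs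
  have hε2 : ε ^ 2 ≤ (1 / 2000) ^ 2 := by gcongr
  have hs0 : 0 ≤ s := by
    have : Real.sqrt 2 * (1 / 2 - 1 / 10 ^ 7) ≤ Real.sqrt 2 * (1 / 2 - 13 / 6000 * ε ^ 2) := by
      apply mul_le_mul_of_nonneg_left _ hs2.le
      nlinarith
    linarith
  obtain ⟨X, hX1, hX2, hX3⟩ := pad m (2 * ⌈2 / ε ^ 2⌉₊) hM (fun i => (u i, p i, q i, r i))
    ((!₂[1, 0, 0] : E3), (0 : E3), (!₂[0, s, 0] : E3), (!₂[0, 0, 1] : E3))
    ((!₂[1, 0, 0] : E3), (0 : E3), (0 : E3), (0 : E3))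
  have hex : ‖(!₂[1, 0, 0] : E3)‖ = 1 := by
    simp [EuclideanSpace.norm_eq, Fin.sum_univ_three]
  refine ⟨fun j => (X j).1, fun j => (X j).2.1, fun j => (X j).2.2.1, fun j => (X j).2.2.2,
    ?_, ?_, ?_, ?_⟩
  · intro j
    rcases hX2 j with ⟨i, hi⟩ | hi | hi
    · simp only [hi]; exact hu i
    · simp only [hi]; exact hex
    · simp only [hi]; exact hex
  · intro j
    rcases hX2 j with ⟨i, hi⟩ | hi | hi
    · simp only [hi]; exact hperp i
    · simp only [hi]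
      simp [PiLp.inner_apply, Fin.sum_univ_three]
    · simp only [hi]
      simp
  · intro x hx
    have := hcov hx
    simp only [Set.mem_iUnion] at this ⊢
    obtain ⟨i, hi⟩ := this
    obtain ⟨j, hj⟩ := hX1 i
    refine ⟨j, ?_⟩
    simp only [hj]
    exact hi
  · have hsum' := hX3 areaOf (areaOf_zero _)
    have h3 : (∑ j, (μHE[2] (convexHull ℝ ({(X j).2.1, (X j).2.2.1, (X j).2.2.2} : Set E3))).toReal)
        = A₀ + s / 2 := by
      have := hsum'
      rw [areaOf_tuning s hs0] at this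
      simpa [areaOf] using this
    rw [h3]
    have h4 : (A₀ + s / 2) / Real.sqrt 2 = 1 / 2 - 13 / 6000 * ε ^ 2 := by
      rw [hs]; field_simp; ring
    rw [h4]
    simp
    positivity

end Crest.Agent.S0325
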