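import Crest.Statements.S0326
import Crest.Agent.Cyl.S0326_Peel
import Crest.Agent.Cyl.S0326_Local

set_option autoImplicit false
open MeasureTheory
open scoped ENNReal
open Crest Crest.GeometryTopology Crest.GeometryTopology.Convex

namespace Crest.Agent.S0326

/-- Global statement in terms of `Cov`. -/
theorem global (D : Set E2) (hD : IsCompact D) (V : E2 → E2) (U : Set E2)
    (hU : IsOpen U) (hDU : D ⊆ U) (hV : ContDiffOn ℝ 1 V U) (L h : ℝ) (hL : 0 < L) (hh : 0 < h)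
    (htr : ∀ p ∈ D, LinearMap.trace ℝ _ (fderiv ℝ V p).toLinearMap = 0)
    (hdet : ∀ p ∈ D, -(L ^ 2)⁻¹ < LinearMap.det (fderiv ℝ V p).toLinearMap ∧
      LinearMap.det (fderiv ℝ V p).toLinearMap ≤ 0)
    (ε : ℝ) (hε : 0 < ε) : Cov V L h D ((∫ p in D, J h (V p)) + ε) := by
  classical
  set v : ℝ := (volume D).toReal with hv
  have hv0 : 0 ≤ v := ENNReal.toReal_nonneg
  set η : ℝ := ε / (2 * (v + 1)) with hη
  have hηpos : 0 < η := by positivity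
  have hηv : η * v ≤ ε / 2 := by
    rw [hη, div_mul_eq_mul_div, div_le_iff₀ (by positivity)]
    nlinarith
  -- continuity / integrability
  have hcont : ContinuousOn (fun p => J h (V p)) U := (J_continuous h).comp_continuousOn hV.continuousOn
  have hJint : ∀ A : Set E2, IsCompact A → A ⊆ D → IntegrableOn (fun p => J h (V p)) A volume :=
    fun A hA hAD => (hcont.mono (hAD.trans hDU)).integrableOn_compact hA
  have hcint : ∀ A : Set E2, IsCompact A → IntegrableOn (fun _ : E2 => η) A volume :=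
    fun A hA => integrableOn_const hA.measure_lt_top.ne
  have hf : ∀ A : Set E2, IsCompact A → A ⊆ D →
      IntegrableOn (fun p => J h (V p) + η) A volume :=
    fun A hA hAD => (hJint A hA hAD).add (hcint A hA)
  -- local radii
  have hex : ∀ p0 : E2, ∃ r : ℝ, p0 ∈ D → (0 < r ∧
      ∀ A : Set E2, IsCompact A → A ⊆ Metric.closedBall p0 r → ∀ ε > 0,
        Cov V L h A ((∫ p in A, (J h (V p) + η)) + ε)) := by
    intro p0
    by_cases hp : p0 ∈ D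
    · obtain ⟨r, hr, _, H⟩ := local_lemma V U hU hV L h hL hh p0 (hDU hp) (htr p0 hp) (hdet p0 hp)
        η hηpos
      exact ⟨r, fun _ => ⟨hr, H⟩⟩
    · exact ⟨0, fun h => absurd h hp⟩
  choose r hr using hex
  obtain ⟨t, htD, htcov⟩ := hD.elim_nhds_subcover (fun p => Metric.ball p (r p))
    (fun p hp => Metric.ball_mem_nhds p (hr p hp).1)
  have key := peel V L h (fun p => J h (V p) + η) D hf r t
    (fun p0 hp0 A hA _ hAb => (hr p0 (htD p0 hp0)).2 A hA hAb) D hD subset_rfl htcov (ε / 2)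
    (half_pos hε)
  refine key.mono ?_
  have h1 : (∫ p in D, (J h (V p) + η)) = (∫ p in D, J h (V p)) + η * v := by
    rw [integral_add (hJint D hD subset_rfl) (hcint D hD)]
    congr 1
    rw [setIntegral_const]
    simp [hv, Measure.real, mul_comm]
  rw [h1]
  linarith

/-- Let D ⊂ ℝ² be compact, V : ℝ² → ℝ² be C¹ on an open set containing D, and L, h > 0, with tr DV(p) = 0 and −1/L² < det DV(p) ≤ 0 for p ∈ D. Let E ⊂ ℝ × ℝ² be the ruled set of points (s, p + s V(p)), p ∈ D, −L ≤ s ≤ L. For every ε > 0, finitely many squares Tᵢ = cᵢ + [0,1]aᵢ + [0,1]bᵢ (aᵢ ⊥ bᵢ of equal nonzero length) and velocities gᵢ ∈ ℝ² exist whose sheared cylinders {(s, ξ) : ξ ∈ Tᵢ + s gᵢ} cover E, with ∑ᵢ area(Tᵢ) J(gᵢ) ≤ ∫_D J(V(p)) dp + ε, where J(g) = (1 + g₁² + h² g₂²)^(−1/2). -/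
theorem result
    (D : Set (EuclideanSpace ℝ (Fin 2))) (hD : IsCompact D)
    (V : EuclideanSpace ℝ (Fin 2) → EuclideanSpace ℝ (Fin 2)) (U : Set (EuclideanSpace ℝ (Fin 2)))
    (hU : IsOpen U) (hDU : D ⊆ U) (hV : ContDiffOn ℝ 1 V U) (L h : ℝ) (hL : 0 < L) (hh : 0 < h)
    (htr : ∀ p ∈ D, LinearMap.trace ℝ _ (fderiv ℝ V p).toLinearMap = 0)
    (hdet : ∀ p ∈ D, -(L ^ 2)⁻¹ < LinearMap.det (fderiv ℝ V p).toLinearMap ∧
      LinearMap.det (fderiv ℝ V p).toLinearMap ≤ 0)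
    (ε : ℝ) (hε : 0 < ε) :
    ∃ (k : ℕ) (c a b g : Fin k → EuclideanSpace ℝ (Fin 2)),
      (∀ i, a i ≠ 0 ∧ ‖b i‖ = ‖a i‖ ∧ inner ℝ (a i) (b i) = 0) ∧
      {z : ℝ × EuclideanSpace ℝ (Fin 2) | ∃ p ∈ D, abs z.1 ≤ L ∧ z.2 = p + z.1 • V p} ⊆
        ⋃ i, {z : ℝ × EuclideanSpace ℝ (Fin 2) | ∃ x ∈ Set.Icc (0 : ℝ) 1, ∃ y ∈ Set.Icc (0 : ℝ) 1,
          z.2 = c i + x • a i + y • b i + z.1 • g i} ∧
      ∑ i, ‖a i‖ ^ 2 / Real.sqrt (1 + (g i 0) ^ 2 + h ^ 2 * (g i 1) ^ 2) ≤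
        (∫ p in D, 1 / Real.sqrt (1 + (V p 0) ^ 2 + h ^ 2 * (V p 1) ^ 2)) + ε := by
  obtain ⟨ι, hι, c, a, b, g, H1, H2, H3⟩ := global D hD V U hU hDU hV L h hL hh htr hdet ε hε
  let e := Fintype.equivFin ι
  refine ⟨Fintype.card ι, c ∘ e.symm, a ∘ e.symm, b ∘ e.symm, g ∘ e.symm, fun i => H1 _, ?_, ?_⟩
  · rintro ⟨s, ξ⟩ ⟨p, hp, hs, hξ⟩
    obtain ⟨i, x, hx, y, hy, hxy⟩ := H2 p hp s hs
    refine Set.mem_iUnion.mpr ⟨e i, x, hx, y, hy, ?_⟩
    simp only [Function.comp, Equiv.symm_apply_apply] at *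
    rw [hξ, hxy]
  · have : ∑ i, ‖(a ∘ e.symm) i‖ ^ 2 /
        Real.sqrt (1 + ((g ∘ e.symm) i 0) ^ 2 + h ^ 2 * ((g ∘ e.symm) i 1) ^ 2) =
        ∑ i, ‖a i‖ ^ 2 * J h (g i) := by
      rw [← Equiv.sum_comp e.symm (fun i => ‖a i‖ ^ 2 * J h (g i))]
      refine Finset.sum_congr rfl (fun i _ => ?_)
      simp only [Function.comp, J]
      rw [mul_one_div]
    rw [this]
    exact H3

end Crest.Agent.S0326
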