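import Crest.Statements.S0328
import Crest.Agent.Cyl.S0328_AreaTri
import Crest.Agent.Cyl.S0328_Riemann

set_option autoImplicit false
open MeasureTheory
open scoped ENNReal
open Crest Crest.GeometryTopology Crest.GeometryTopology.Convex

namespace Crest.Agent.S0328

/-- Unit e; a, b, p₀ ∈ e^⊥, a, b independent; α < β; L > 0; R ≥ 0, λ both continuous on [α, β]; w(t) ∈ e^⊥, w′ = λ(t)(a + tb). S = {p₀ + ρ(a + t b) + s(e + w t) : α ≤ t ≤ β, 0 ≤ ρ ≤ R t, ‖s‖ ≤ L}; A = κ ∫_α^β R²/(2√(1 + ‖w‖²)), κ = area spanned by a, b. For η > 0 a δ > 0 makes each partition t₀ < … < t_N of [α, β] of mesh ≤ δ, tags cᵢ, admit N cylinders (axes e + w(cᵢ), nondegenerate triangle bases) covering S, total area within η of A; same for S's pieces tᵢ ≤ t ≤ tᵢ₊₁ projected along these axes. -/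
theorem result
    (e a b p₀ : EuclideanSpace ℝ (Fin 3)) (he : ‖e‖ = 1)
    (ha : inner ℝ a e = 0) (hb : inner ℝ b e = 0) (hp₀ : inner ℝ p₀ e = 0)
    (hab : LinearIndependent ℝ ![a, b]) (L : ℝ) (hL : 0 < L) (α β : ℝ) (hαβ : α < β)
    (R : ℝ → ℝ) (hR : ContinuousOn R (Set.Icc α β)) (hR0 : ∀ t ∈ Set.Icc α β, 0 ≤ R t)
    (w : ℝ → EuclideanSpace ℝ (Fin 3)) (hw : ∀ t ∈ Set.Icc α β, inner ℝ (w t) e = 0)
    (lam : ℝ → ℝ) (hlam : ContinuousOn lam (Set.Icc α β))
    (hw' : ∀ t ∈ Set.Icc α β, HasDerivWithinAt w (lam t • (a + t • b)) (Set.Icc α β) t)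
    (η : ℝ) (hη : 0 < η) :
    ∃ δ : ℝ, 0 < δ ∧ ∀ (N : ℕ) (t : Fin (N + 1) → ℝ) (c : Fin N → ℝ),
      StrictMono t → t 0 = α → t (Fin.last N) = β →
      (∀ i : Fin N, t i.succ - t i.castSucc ≤ δ) →
      (∀ i : Fin N, t i.castSucc ≤ c i ∧ c i ≤ t i.succ) →
      (∃ (p q r : Fin N → EuclideanSpace ℝ (Fin 3)),
        (∀ i, inner ℝ (p i) (e + w (c i)) = 0 ∧ inner ℝ (q i) (e + w (c i)) = 0 ∧
          inner ℝ (r i) (e + w (c i)) = 0) ∧
        (∀ i, AffineIndependent ℝ ![p i, q i, r i]) ∧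
        {x : EuclideanSpace ℝ (Fin 3) | ∃ τ ∈ Set.Icc α β, ∃ ρ ∈ Set.Icc 0 (R τ), ∃ s : ℝ, abs s ≤ L ∧
            x = p₀ + ρ • (a + τ • b) + s • (e + w τ)} ⊆
          ⋃ i, {x : EuclideanSpace ℝ (Fin 3) | ∃ y ∈ convexHull ℝ {p i, q i, r i}, ∃ σ : ℝ,
            x = y + σ • (e + w (c i))} ∧
        abs ((∑ i, (μHE[2] (convexHull ℝ ({p i, q i, r i} : Set (EuclideanSpace ℝ (Fin 3))))).toReal) -
            Real.sqrt (‖a‖ ^ 2 * ‖b‖ ^ 2 - inner ℝ a b ^ 2) *
              ∫ τ in α..β, R τ ^ 2 / (2 * Real.sqrt (1 + ‖w τ‖ ^ 2))) ≤ η) ∧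
      abs ((∑ i : Fin N, (μHE[2] ((fun y => y - (inner ℝ y (e + w (c i)) / ‖e + w (c i)‖ ^ 2) • (e + w (c i))) ''
            {x : EuclideanSpace ℝ (Fin 3) | ∃ τ ∈ Set.Icc (t i.castSucc) (t i.succ), ∃ ρ ∈ Set.Icc 0 (R τ),
              ∃ s : ℝ, abs s ≤ L ∧ x = p₀ + ρ • (a + τ • b) + s • (e + w τ)})).toReal) -
          Real.sqrt (‖a‖ ^ 2 * ‖b‖ ^ 2 - inner ℝ a b ^ 2) *
            ∫ τ in α..β, R τ ^ 2 / (2 * Real.sqrt (1 + ‖w τ‖ ^ 2))) ≤ η := by
  classical
  have hG : 0 < gram a b := gram_pos hab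
  have hκpos : 0 < Real.sqrt (gram a b) := Real.sqrt_pos.mpr hG
  obtain ⟨K, hK⟩ := isCompact_Icc.exists_bound_of_continuousOn hlam
  obtain ⟨Rb, hRb⟩ := isCompact_Icc.exists_bound_of_continuousOn hR
  simp only [Real.norm_eq_abs] at hK hRb
  have hαI : α ∈ Set.Icc α β := ⟨le_refl _, hαβ.le⟩
  have hK0 : 0 ≤ K := (abs_nonneg _).trans (hK α hαI)
  have hRb0 : 0 ≤ Rb := (abs_nonneg _).trans (hRb α hαI)
  have hwc : ContinuousOn w (Set.Icc α β) := continuousOn_w hw'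
  have hf : ContinuousOn (fun τ => R τ ^ 2 / (2 * Real.sqrt (1 + ‖w τ‖ ^ 2))) (Set.Icc α β) := by
    apply ContinuousOn.div (hR.pow 2)
    · exact continuousOn_const.mul ((continuousOn_const.add (hwc.norm.pow 2)).sqrt)
    · intro x _
      positivity
  have hβα : 0 < β - α := sub_pos.mpr hαβ
  set ε : ℝ := η / (2 * (β - α) * Real.sqrt (gram a b)) with hεdef
  have hε : 0 < ε := by positivity
  obtain ⟨δ₁, hδ₁, hRiem⟩ := riemann_sum_close hαβ hf hε
  set ε' : ℝ := min 1 (ε / (Rb + 1)) with hε'def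
  have hε'pos : 0 < ε' := lt_min one_pos (by positivity)
  have hε'1 : ε' ≤ 1 := min_le_left _ _
  have hε'ε : ε' * (Rb + 1) ≤ ε := by
    have : ε' ≤ ε / (Rb + 1) := min_le_right _ _
    rwa [le_div_iff₀ (by positivity)] at this
  have hucR := isCompact_Icc.uniformContinuousOn_of_continuous hR
  rw [Metric.uniformContinuousOn_iff] at hucR
  obtain ⟨δ₂, hδ₂, hRuc⟩ := hucR (ε' / 2) (by positivity)
  set δ₃ : ℝ := ε' / (2 * (5 * L * K + 1)) with hδ₃def
  have hδ₃ : 0 < δ₃ := by positivity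
  refine ⟨min δ₁ (min (δ₂ / 2) δ₃), by positivity, ?_⟩
  intro N t c ht h0 hN hmesh hc
  have hmem := partition_mem_Icc ht h0 hN
  have hlt : ∀ i : Fin N, t i.castSucc < t i.succ := fun i => ht Fin.castSucc_lt_succ
  have hm1 : ∀ i : Fin N, t i.succ - t i.castSucc ≤ δ₁ := fun i =>
    (hmesh i).trans (min_le_left _ _)
  have hm2 : ∀ i : Fin N, t i.succ - t i.castSucc ≤ δ₂ / 2 := fun i =>
    (hmesh i).trans ((min_le_right _ _).trans (min_le_left _ _))
  have hm3 : ∀ i : Fin N, t i.succ - t i.castSucc ≤ δ₃ := fun i =>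
    (hmesh i).trans ((min_le_right _ _).trans (min_le_right _ _))
  have hcI : ∀ i : Fin N, c i ∈ Set.Icc α β := fun i =>
    ⟨(hmem _).1.trans (hc i).1, (hc i).2.trans (hmem _).2⟩
  have hn : ∀ i : Fin N, e + w (c i) ≠ 0 := fun i => e_add_ne_zero he (hw _ (hcI i))
  -- oscillation of `R` on a piece
  have hosc : ∀ i : Fin N, ∀ τ ∈ Set.Icc (t i.castSucc) (t i.succ), |R τ - R (c i)| ≤ ε' / 2 := by
    intro i τ hτ
    have hτI : τ ∈ Set.Icc α β := ⟨(hmem _).1.trans hτ.1, hτ.2.trans (hmem _).2⟩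
    have hd : dist τ (c i) < δ₂ := by
      rw [Real.dist_eq, abs_lt]
      have := hm2 i
      have := (hc i).1
      have := (hc i).2
      constructor <;> linarith [hτ.1, hτ.2]
    have := hRuc τ hτI (c i) (hcI i) hd
    rw [Real.dist_eq] at this
    exact this.le
  have h5 : ∀ i : Fin N, 5 * L * K * (t i.succ - t i.castSucc) ≤ ε' / 2 := by
    intro i
    have h1 : 5 * L * K * (t i.succ - t i.castSucc) ≤ (5 * L * K + 1) * δ₃ := by
      have := hm3 i
      have h2 : 0 ≤ 5 * L * K := by positivity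
      have h3 : 0 < t i.succ - t i.castSucc := sub_pos.mpr (hlt i)
      nlinarith
    have h2 : (5 * L * K + 1) * δ₃ = ε' / 2 := by
      rw [hδ₃def]; field_simp
    linarith
  -- the data of the upper and lower triangles
  set Y : Fin N → ℝ := fun i => (R (c i) + ε' / 2) + 5 * L * K * (t i.succ - t i.castSucc) with hY
  set rl : Fin N → ℝ := fun i => max (R (c i) - ε' / 2) 0 with hrl
  set P : Fin N → E3 := fun i =>
    vP p₀ a b (4 * L * K * (t i.succ - t i.castSucc)) (t i.castSucc) (t i.succ) with hP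
  have hYpos : ∀ i, 0 < Y i := by
    intro i
    have h1 := hR0 _ (hcI i)
    have h2 : 0 ≤ 5 * L * K * (t i.succ - t i.castSucc) :=
      mul_nonneg (by positivity) (sub_pos.mpr (hlt i)).le
    simp only [hY]
    linarith
  have hup_area : ∀ i, (μHE[2] (convexHull ℝ ({proj (e + w (c i)) (P i),
      proj (e + w (c i)) (P i + Y i • (a + t i.castSucc • b)),
      proj (e + w (c i)) (P i + Y i • (a + t i.succ • b))} : Set E3))).toReal
      = Real.sqrt (gram a b) * (Y i ^ 2 / (2 * Real.sqrt (1 + ‖w (c i)‖ ^ 2)) *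
        (t i.succ - t i.castSucc)) := fun i =>
    area_proj_tri he ha hb (hw _ (hcI i)) (P i) (Y i) (hlt i).le
  have hlow_area : ∀ i, (μHE[2] (convexHull ℝ ({proj (e + w (c i)) p₀,
      proj (e + w (c i)) (p₀ + rl i • (a + t i.castSucc • b)),
      proj (e + w (c i)) (p₀ + rl i • (a + t i.succ • b))} : Set E3))).toReal
      = Real.sqrt (gram a b) * (rl i ^ 2 / (2 * Real.sqrt (1 + ‖w (c i)‖ ^ 2)) *
        (t i.succ - t i.castSucc)) := fun i =>
    area_proj_tri he ha hb (hw _ (hcI i)) p₀ (rl i) (hlt i).le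
  have hη2 : Real.sqrt (gram a b) * (2 * ε * (β - α)) = η := by
    rw [hεdef]; field_simp
  -- Riemann sum estimates
  have hup_sum : |∑ i, Real.sqrt (gram a b) * (Y i ^ 2 / (2 * Real.sqrt (1 + ‖w (c i)‖ ^ 2)) *
        (t i.succ - t i.castSucc)) - Real.sqrt (gram a b) *
        ∫ τ in α..β, R τ ^ 2 / (2 * Real.sqrt (1 + ‖w τ‖ ^ 2))| ≤ η := by
    rw [← Finset.mul_sum, ← mul_sub, abs_mul, abs_of_pos hκpos, ← hη2]
    apply mul_le_mul_of_nonneg_left _ hκpos.le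
    apply hRiem N t c ht h0 hN hm1 hc
    intro i
    apply term_close (hR0 _ (hcI i)) ((le_abs_self _).trans (hRb _ (hcI i))) (hYpos i).le _ hε'1
      hε'ε (sq_nonneg _) (sub_pos.mpr (hlt i)).le
    have h2 : 0 ≤ 5 * L * K * (t i.succ - t i.castSucc) :=
      mul_nonneg (by positivity) (sub_pos.mpr (hlt i)).le
    have := h5 i
    simp only [hY]
    rw [abs_le]
    constructor <;> linarith
  have hlow_sum : |∑ i, Real.sqrt (gram a b) * (rl i ^ 2 / (2 * Real.sqrt (1 + ‖w (c i)‖ ^ 2)) *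
        (t i.succ - t i.castSucc)) - Real.sqrt (gram a b) *
        ∫ τ in α..β, R τ ^ 2 / (2 * Real.sqrt (1 + ‖w τ‖ ^ 2))| ≤ η := by
    rw [← Finset.mul_sum, ← mul_sub, abs_mul, abs_of_pos hκpos, ← hη2]
    apply mul_le_mul_of_nonneg_left _ hκpos.le
    apply hRiem N t c ht h0 hN hm1 hc
    intro i
    apply term_close (hR0 _ (hcI i)) ((le_abs_self _).trans (hRb _ (hcI i)))
      (le_max_right _ _) _ hε'1 hε'ε (sq_nonneg _) (sub_pos.mpr (hlt i)).le
    have h1 := hR0 _ (hcI i)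
    rw [abs_le]
    constructor
    · have := le_max_left (R (c i) - ε' / 2) 0
      linarith
    · have : max (R (c i) - ε' / 2) 0 ≤ R (c i) := max_le (by linarith) h1
      linarith
  -- covering of a piece
  have hcov : ∀ i : Fin N, ∀ τ ∈ Set.Icc (t i.castSucc) (t i.succ), ∀ ρ ∈ Set.Icc 0 (R τ),
      ∀ s : ℝ, |s| ≤ L →
      ∃ y ∈ convexHull ℝ ({proj (e + w (c i)) (P i),
        proj (e + w (c i)) (P i + Y i • (a + t i.castSucc • b)),
        proj (e + w (c i)) (P i + Y i • (a + t i.succ • b))} : Set E3),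
      ∃ σ : ℝ, p₀ + ρ • (a + τ • b) + s • (e + w τ) = y + σ • (e + w (c i)) := by
    intro i τ hτ ρ hρ s hs
    have hX : 0 < R (c i) + ε' / 2 := by
      have := hR0 _ (hcI i)
      linarith
    have hρX : ρ ≤ R (c i) + ε' / 2 := by
      have := (abs_le.mp (hosc i τ hτ)).2
      linarith [hρ.2]
    exact upper_cover hlam hw' hK (hlt i) (hmem _).1 (hmem _).2 (hc i) hX hτ hρ.1 hρX hs
  refine ⟨⟨fun i => proj (e + w (c i)) (P i),
    fun i => proj (e + w (c i)) (P i + Y i • (a + t i.castSucc • b)),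
    fun i => proj (e + w (c i)) (P i + Y i • (a + t i.succ • b)), ?_, ?_, ?_, ?_⟩, ?_⟩
  · intro i
    exact ⟨inner_proj (hn i) _, inner_proj (hn i) _, inner_proj (hn i) _⟩
  · intro i
    apply affineIndependent_of_gram_pos
    rw [gram_proj_tri he ha hb (hw _ (hcI i))]
    have h1 := hYpos i
    have h2 : 0 < t i.succ - t i.castSucc := sub_pos.mpr (hlt i)
    positivity
  · rintro x ⟨τ, hτ, ρ, hρ, s, hs, rfl⟩
    obtain ⟨i, hi⟩ := exists_piece ht hαβ h0 hN hτ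
    rw [Set.mem_iUnion]
    exact ⟨i, hcov i τ hi ρ hρ s hs⟩
  · simp only [hup_area]
    exact hup_sum
  · -- part 2 : squeeze
    have hle_up : ∀ i : Fin N,
        (μHE[2] ((fun y => y - (inner ℝ y (e + w (c i)) / ‖e + w (c i)‖ ^ 2) • (e + w (c i))) ''
            {x : EuclideanSpace ℝ (Fin 3) | ∃ τ ∈ Set.Icc (t i.castSucc) (t i.succ),
              ∃ ρ ∈ Set.Icc 0 (R τ),
              ∃ s : ℝ, abs s ≤ L ∧ x = p₀ + ρ • (a + τ • b) + s • (e + w τ)})).toReal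
        ≤ Real.sqrt (gram a b) * (Y i ^ 2 / (2 * Real.sqrt (1 + ‖w (c i)‖ ^ 2)) *
        (t i.succ - t i.castSucc)) := by
      intro i
      rw [← hup_area i]
      apply ENNReal.toReal_mono (area_tri_ne_top _ _ _)
      apply measure_mono
      rintro _ ⟨x, ⟨τ, hτ, ρ, hρ, s, hs, rfl⟩, rfl⟩
      obtain ⟨y, hy, σ, hσ⟩ := hcov i τ hτ ρ hρ s hs
      have := proj_eq_of_cyl (hn i) (inner_proj (hn i) _) (inner_proj (hn i) _)
        (inner_proj (hn i) _) hy hσ
      change proj (e + w (c i)) (p₀ + ρ • (a + τ • b) + s • (e + w τ)) ∈ _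
      rw [this]
      exact hy
    have hge_low : ∀ i : Fin N,
        Real.sqrt (gram a b) * (rl i ^ 2 / (2 * Real.sqrt (1 + ‖w (c i)‖ ^ 2)) *
        (t i.succ - t i.castSucc)) ≤
        (μHE[2] ((fun y => y - (inner ℝ y (e + w (c i)) / ‖e + w (c i)‖ ^ 2) • (e + w (c i))) ''
            {x : EuclideanSpace ℝ (Fin 3) | ∃ τ ∈ Set.Icc (t i.castSucc) (t i.succ),
              ∃ ρ ∈ Set.Icc 0 (R τ),
              ∃ s : ℝ, abs s ≤ L ∧ x = p₀ + ρ • (a + τ • b) + s • (e + w τ)})).toReal := by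
      intro i
      rw [← hlow_area i]
      have hfin : μHE[2] ((fun y => y - (inner ℝ y (e + w (c i)) / ‖e + w (c i)‖ ^ 2) •
            (e + w (c i))) ''
            {x : EuclideanSpace ℝ (Fin 3) | ∃ τ ∈ Set.Icc (t i.castSucc) (t i.succ),
              ∃ ρ ∈ Set.Icc 0 (R τ),
              ∃ s : ℝ, abs s ≤ L ∧ x = p₀ + ρ • (a + τ • b) + s • (e + w τ)}) ≠ ⊤ := by
        apply ne_top_of_le_ne_top (area_tri_ne_top (proj (e + w (c i)) (P i))
          (proj (e + w (c i)) (P i + Y i • (a + t i.castSucc • b)))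
          (proj (e + w (c i)) (P i + Y i • (a + t i.succ • b))))
        apply measure_mono
        rintro _ ⟨x, ⟨τ, hτ, ρ, hρ, s, hs, rfl⟩, rfl⟩
        obtain ⟨y, hy, σ, hσ⟩ := hcov i τ hτ ρ hρ s hs
        have := proj_eq_of_cyl (hn i) (inner_proj (hn i) _) (inner_proj (hn i) _)
          (inner_proj (hn i) _) hy hσ
        change proj (e + w (c i)) (p₀ + ρ • (a + τ • b) + s • (e + w τ)) ∈ _
        rw [this]
        exact hy
      apply ENNReal.toReal_mono hfin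
      apply measure_mono
      intro y hy
      obtain ⟨τ, hτ, ρ, hρ, rfl⟩ := lower_cover (hlt i) (le_max_right _ _) hy
      refine ⟨p₀ + ρ • (a + τ • b), ⟨τ, hτ, ρ, ⟨hρ.1, ?_⟩, 0, by simpa using hL.le, by simp⟩, rfl⟩
      have h1 := (abs_le.mp (hosc i τ hτ)).1
      have hτI : τ ∈ Set.Icc α β := ⟨(hmem _).1.trans hτ.1, hτ.2.trans (hmem _).2⟩
      have h2 := hR0 τ hτI
      refine hρ.2.trans (max_le (by linarith) h2)
    have s1 := Finset.sum_le_sum (fun i (_ : i ∈ Finset.univ) => hle_up i)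
    have s2 := Finset.sum_le_sum (fun i (_ : i ∈ Finset.univ) => hge_low i)
    rw [abs_le] at hup_sum hlow_sum ⊢
    constructor
    · exact hlow_sum.1.trans (sub_le_sub_right s2 _)
    · exact (sub_le_sub_right s1 _).trans hup_sum.2

end Crest.Agent.S0328
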