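import Crest.Statements.S0329
import Crest.Agent.Cyl.Area
import Crest.Agent.S0326

set_option autoImplicit false
open MeasureTheory
open scoped ENNReal
open Crest Crest.GeometryTopology Crest.GeometryTopology.Convex

namespace Crest.Agent.S0329

open Crest.Agent.Cyl

/-- the embedding `ξ ↦ (0, ξ₀, h ξ₁)`. -/
noncomputable def Phi (h : ℝ) (ξ : E2) : E3 := !₂[0, ξ 0, h * ξ 1]

/-- the axis `(1, g₀, h g₁)`. -/
noncomputable def axis (h : ℝ) (g : E2) : E3 := !₂[1, g 0, h * g 1]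

theorem norm_axis (h : ℝ) (g : E2) :
    ‖axis h g‖ = Real.sqrt (1 + (g 0) ^ 2 + h ^ 2 * (g 1) ^ 2) := by
  rw [EuclideanSpace.norm_eq]
  congr 1
  simp [axis, Fin.sum_univ_three]
  ring

theorem norm_axis_pos (h : ℝ) (g : E2) : 0 < ‖axis h g‖ := by
  rw [norm_axis]
  positivity

/-- unit axis -/
noncomputable def uax (h : ℝ) (g : E2) : E3 := (‖axis h g‖)⁻¹ • axis h g

theorem norm_uax (h : ℝ) (g : E2) : ‖uax h g‖ = 1 := by
  have := norm_axis_pos h g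
  rw [uax, norm_smul, norm_inv, norm_norm]
  field_simp

theorem proj_add (u x y : E3) : proj u (x + y) = proj u x + proj u y := by
  simp only [proj, inner_add_left, add_smul]; abel

theorem proj_smul (u : E3) (t : ℝ) (x : E3) : proj u (t • x) = t • proj u x := by
  simp only [proj, inner_smul_left, smul_sub, smul_smul]; simp

theorem proj_uax_axis (h : ℝ) (g : E2) : proj (uax h g) (axis h g) = 0 := by
  have hp := norm_axis_pos h g
  simp only [proj, uax, inner_smul_right, real_inner_self_eq_norm_sq, smul_smul]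
  have : (‖axis h g‖)⁻¹ * ‖axis h g‖ ^ 2 * (‖axis h g‖)⁻¹ = 1 := by field_simp
  rw [this, one_smul, sub_self]

theorem det3_Phi (h : ℝ) (a b g : E2) :
    det3 (Phi h a) (Phi h b) (uax h g) = (‖axis h g‖)⁻¹ * (h * (a 0 * b 1 - a 1 * b 0)) := by
  simp [det3, Phi, uax, axis]
  ring

theorem cross_sq (a b : E2) (hab : ‖b‖ = ‖a‖) (hin : inner ℝ a b = 0) :
    (a 0 * b 1 - a 1 * b 0) ^ 2 = (‖a‖ ^ 2) ^ 2 := by
  have h1 : ‖a‖ ^ 2 = a 0 ^ 2 + a 1 ^ 2 := by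
    simp [EuclideanSpace.norm_sq_eq, Fin.sum_univ_two]
  have h2 : ‖b‖ ^ 2 = b 0 ^ 2 + b 1 ^ 2 := by
    simp [EuclideanSpace.norm_sq_eq, Fin.sum_univ_two]
  have h3 : a 0 * b 0 + a 1 * b 1 = 0 := by
    have := hin
    simp [PiLp.inner_apply, Fin.sum_univ_two] at this
    linarith
  have h4 : b 0 ^ 2 + b 1 ^ 2 = a 0 ^ 2 + a 1 ^ 2 := by rw [← h1, ← h2, hab]
  rw [h1]
  have : (a 0 * b 1 - a 1 * b 0) ^ 2 = (a 0 ^ 2 + a 1 ^ 2) * (b 0 ^ 2 + b 1 ^ 2) - (a 0 * b 0 + a 1 * b 1) ^ 2 := by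
    ring
  rw [this, h3, h4]; ring

/-- the base parallelogram -/
def base (u c a b : E3) : Set E3 :=
  {x : E3 | ∃ s ∈ Set.Icc (0 : ℝ) 1, ∃ t ∈ Set.Icc (0 : ℝ) 1, x = proj u c + s • proj u a + t • proj u b}

theorem area_base (h : ℝ) (hh : 0 < h) (c a b g : E2) (hab : ‖b‖ = ‖a‖) (hin : inner ℝ a b = 0) :
    μHE[2] (base (uax h g) (Phi h c) (Phi h a) (Phi h b)) =
      ENNReal.ofReal (h * (‖a‖ ^ 2 / Real.sqrt (1 + (g 0) ^ 2 + h ^ 2 * (g 1) ^ 2))) := by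
  unfold base
  rw [area_parallelogram, gram_proj _ _ _ (norm_uax h g), det3_Phi, ← norm_axis]
  congr 1
  have hp := norm_axis_pos h g
  rw [mul_pow, mul_pow, cross_sq a b hab hin]
  rw [show (‖axis h g‖)⁻¹ ^ 2 * (h ^ 2 * (‖a‖ ^ 2) ^ 2) = (h * (‖a‖ ^ 2 / ‖axis h g‖)) ^ 2 by
    field_simp]
  exact Real.sqrt_sq (by positivity)

theorem base_bounded (u c a b : E3) : Bornology.IsBounded (base u c a b) := by
  rw [isBounded_iff_forall_norm_le]
  refine ⟨‖proj u c‖ + ‖proj u a‖ + ‖proj u b‖, ?_⟩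
  rintro x ⟨s, hs, t, ht, rfl⟩
  have h1 : ‖s • proj u a‖ ≤ ‖proj u a‖ := by
    rw [norm_smul, Real.norm_eq_abs, abs_of_nonneg hs.1]
    exact mul_le_of_le_one_left (norm_nonneg _) hs.2
  have h2 : ‖t • proj u b‖ ≤ ‖proj u b‖ := by
    rw [norm_smul, Real.norm_eq_abs, abs_of_nonneg ht.1]
    exact mul_le_of_le_one_left (norm_nonneg _) ht.2
  calc ‖proj u c + s • proj u a + t • proj u b‖
      ≤ ‖proj u c‖ + ‖s • proj u a‖ + ‖t • proj u b‖ := norm_add₃_le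
    _ ≤ _ := by linarith

theorem base_perp (u c a b : E3) (hu : ‖u‖ = 1) : ∀ x ∈ base u c a b, inner ℝ x u = 0 := by
  rintro x ⟨s, hs, t, ht, rfl⟩
  simp [inner_add_left, inner_smul_left, inner_proj u _ hu]

/-- Let h, M > 0, D ⊂ ℝ² be compact with Lebesgue-null boundary, and V : ℝ² → ℝ² be C¹ on an open set containing D with tr DV(p) = 0 and −1/M² < det DV(p) < 0 for p ∈ D. For every ε > 0 the set of points (x, p₁ + x V₁(p), h (p₂ + x V₂(p))) ∈ ℝ³ with p ∈ D, −M ≤ x ≤ M is covered by finitely many cylinders Bᵢ + ℝ uᵢ, ‖uᵢ‖ = 1, with bases Bᵢ bounded relatively open subsets of the planes uᵢ^⊥ and ∑ᵢ area(Bᵢ) ≤ h ∫_D (1 + V₁² + h² V₂²)^(−1/2) + ε (areas: normalised 2-dimensional Hausdorff measure). -/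
theorem result
    (h M : ℝ) (hh : 0 < h) (hM : 0 < M) (D : Set (EuclideanSpace ℝ (Fin 2))) (hD : IsCompact D)
    (hbd : volume (frontier D) = 0)
    (V : EuclideanSpace ℝ (Fin 2) → EuclideanSpace ℝ (Fin 2)) (U : Set (EuclideanSpace ℝ (Fin 2)))
    (hU : IsOpen U) (hDU : D ⊆ U) (hV : ContDiffOn ℝ 1 V U)
    (htr : ∀ p ∈ D, LinearMap.trace ℝ _ (fderiv ℝ V p).toLinearMap = 0)
    (hdet : ∀ p ∈ D, -(M ^ 2)⁻¹ < LinearMap.det (fderiv ℝ V p).toLinearMap ∧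
      LinearMap.det (fderiv ℝ V p).toLinearMap < 0)
    (ε : ℝ) (hε : 0 < ε) :
    ∃ (k : ℕ) (u : Fin k → EuclideanSpace ℝ (Fin 3)) (B : Fin k → Set (EuclideanSpace ℝ (Fin 3))),
      (∀ i, ‖u i‖ = 1) ∧
      (∀ i, Bornology.IsBounded (B i) ∧ ∃ O : Set (EuclideanSpace ℝ (Fin 3)), IsOpen O ∧
        B i = O ∩ {x | inner ℝ x (u i) = 0}) ∧
      {z : EuclideanSpace ℝ (Fin 3) | ∃ p ∈ D, ∃ x : ℝ, abs x ≤ M ∧
          z = !₂[x, p 0 + x * V p 0, h * (p 1 + x * V p 1)]} ⊆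
        ⋃ i, {z : EuclideanSpace ℝ (Fin 3) | ∃ y ∈ B i, ∃ τ : ℝ, z = y + τ • u i} ∧
      ∑ i, (μHE[2] (B i)).toReal ≤
        h * (∫ p in D, 1 / Real.sqrt (1 + (V p 0) ^ 2 + h ^ 2 * (V p 1) ^ 2)) + ε := by
  obtain ⟨k, c, a, b, g, hsq, hcov, hsum⟩ := Crest.Agent.S0326.result D hD V U hU hDU hV M h hM hh htr
    (fun p hp => ⟨(hdet p hp).1, (hdet p hp).2.le⟩) (ε / (2 * h)) (by positivity)
  set η : ℝ := ε / (2 * (k + 1)) with hη
  have hη0 : 0 < η := by positivity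
  have hB : ∀ i : Fin k, ∃ B : Set E3, Bornology.IsBounded B ∧
      (∃ O : Set E3, IsOpen O ∧ B = O ∩ {x | inner ℝ x (uax h (g i)) = 0}) ∧
      base (uax h (g i)) (Phi h (c i)) (Phi h (a i)) (Phi h (b i)) ⊆ B ∧
      μHE[2] B ≤ μHE[2] (base (uax h (g i)) (Phi h (c i)) (Phi h (a i)) (Phi h (b i)))
        + ENNReal.ofReal η := fun i =>
    exists_open_base _ (norm_uax h (g i)) _ (base_bounded _ _ _ _)
      (base_perp _ _ _ _ (norm_uax h (g i))) η hη0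
  choose B hB1 hB2 hB3 hB4 using hB
  refine ⟨k, fun i => uax h (g i), B, fun i => norm_uax h (g i), fun i => ⟨hB1 i, hB2 i⟩, ?_, ?_⟩
  · rintro z ⟨p, hp, x, hx, rfl⟩
    have hmem : ((x, p + x • V p) : ℝ × E2) ∈
        {z : ℝ × EuclideanSpace ℝ (Fin 2) | ∃ p ∈ D, abs z.1 ≤ M ∧ z.2 = p + z.1 • V p} :=
      ⟨p, hp, hx, rfl⟩
    have := hcov hmem
    simp only [Set.mem_iUnion, Set.mem_setOf_eq] at this
    obtain ⟨i, x', hx', y', hy', heq⟩ := this
    simp only [Set.mem_iUnion, Set.mem_setOf_eq]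
    have hz : (!₂[x, p 0 + x * V p 0, h * (p 1 + x * V p 1)] : E3)
        = Phi h (c i) + x' • Phi h (a i) + y' • Phi h (b i) + x • axis h (g i) := by
      have e0 := congrArg (fun w : E2 => w 0) heq
      have e1 := congrArg (fun w : E2 => w 1) heq
      simp at e0 e1
      ext j
      fin_cases j
      · simp [Phi, axis]
      · simp [Phi, axis]; linarith
      · simp [Phi, axis]; rw [e1]; ring
    refine ⟨i, proj (uax h (g i)) (!₂[x, p 0 + x * V p 0, h * (p 1 + x * V p 1)] : E3), ?_,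
      inner ℝ (!₂[x, p 0 + x * V p 0, h * (p 1 + x * V p 1)] : E3) (uax h (g i)), ?_⟩
    · apply hB3 i
      refine ⟨x', hx', y', hy', ?_⟩
      rw [hz]
      simp only [proj_add, proj_smul, proj_uax_axis, smul_zero, add_zero]
    · simp [proj]
  · have hle : ∀ i : Fin k, (μHE[2] (B i)).toReal ≤
        h * (‖a i‖ ^ 2 / Real.sqrt (1 + (g i 0) ^ 2 + h ^ 2 * (g i 1) ^ 2)) + η := by
      intro i
      have h1 := hB4 i
      rw [area_base h hh _ _ _ _ (hsq i).2.1 (hsq i).2.2, ← ENNReal.ofReal_add (by positivity) hη0.le] at h1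
      exact ENNReal.toReal_le_of_le_ofReal (by positivity) h1
    calc ∑ i, (μHE[2] (B i)).toReal
        ≤ ∑ i : Fin k, (h * (‖a i‖ ^ 2 / Real.sqrt (1 + (g i 0) ^ 2 + h ^ 2 * (g i 1) ^ 2)) + η) :=
          Finset.sum_le_sum (fun i _ => hle i)
      _ = h * ∑ i : Fin k, ‖a i‖ ^ 2 / Real.sqrt (1 + (g i 0) ^ 2 + h ^ 2 * (g i 1) ^ 2) + k * η := by
          rw [Finset.sum_add_distrib, ← Finset.mul_sum]; simp
      _ ≤ h * ((∫ p in D, 1 / Real.sqrt (1 + (V p 0) ^ 2 + h ^ 2 * (V p 1) ^ 2)) + ε / (2 * h)) + k * η := by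
          gcongr
      _ ≤ _ := by
          have h1 : h * (ε / (2 * h)) = ε / 2 := by field_simp
          have h2 : k * η ≤ ε / 2 := by
            rw [hη]
            rw [show (k : ℝ) * (ε / (2 * (k + 1))) = (ε / 2) * (k / (k + 1)) by field_simp]
            have : (k : ℝ) / (k + 1) ≤ 1 := by
              rw [div_le_one (by positivity)]; linarith
            nlinarith
          rw [mul_add, h1]
          linarith

end Crest.Agent.S0329
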