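import Mathlib
import Crest.Prelude.Def_TruncExpWeight

set_option autoImplicit false

open MeasureTheory Set Real

namespace Crest.Agent.S0423

/-- `E f(∑ a_i X_i)` for iid mean-one exponentials, written as in the statement. -/
noncomputable def EN (n : ℕ) (a : Fin n → ℝ) (f : ℝ → ℝ) : ℝ :=
  ∫ x in Set.pi Set.univ (fun _ : Fin n => Set.Ioi (0 : ℝ)),
    f (∑ i, a i * x i) * Real.exp (-∑ i, x i)

/-- `(E_a f)(y) = ∫_0^∞ f(y + a t) e^{-t} dt`. -/
noncomputable def E1 (a : ℝ) (f : ℝ → ℝ) (y : ℝ) : ℝ :=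
  ∫ t in Set.Ioi (0 : ℝ), f (y + a * t) * Real.exp (-t)

lemma exp_neg_sum (n : ℕ) (x : Fin n → ℝ) :
    Real.exp (-∑ i, x i) = ∏ i, Real.exp (-x i) := by
  rw [← Finset.sum_neg_distrib, Real.exp_sum]

lemma volume_restrict_orth (n : ℕ) :
    (volume : Measure (Fin n → ℝ)).restrict (Set.pi Set.univ (fun _ : Fin n => Set.Ioi (0 : ℝ)))
      = Measure.pi (fun _ : Fin n => (volume : Measure ℝ).restrict (Set.Ioi 0)) := by
  rw [volume_pi, Measure.restrict_pi_pi]

lemma integrable_exp_neg_sum (n : ℕ) :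
    Integrable (fun x : Fin n → ℝ => Real.exp (-∑ i, x i))
      (Measure.pi (fun _ : Fin n => (volume : Measure ℝ).restrict (Set.Ioi 0))) := by
  simp_rw [exp_neg_sum]
  exact Integrable.fintype_prod (fun _ => _root_.integrableOn_exp_neg_Ioi 0)

theorem EN_succ {n : ℕ} (a : Fin (n+1) → ℝ) (i : Fin (n+1)) {f : ℝ → ℝ} (hf : Measurable f)
    {C : ℝ} (hC : ∀ y, |f y| ≤ C) :
    EN (n+1) a f = EN n (fun j => a (i.succAbove j)) (E1 (a i) f) := by
  unfold EN
  rw [volume_restrict_orth, volume_restrict_orth]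
  have hmp := measurePreserving_piFinSuccAbove
    (fun _ : Fin (n+1) => (volume : Measure ℝ).restrict (Set.Ioi 0)) i
  let G : ℝ × (Fin n → ℝ) → ℝ := fun z =>
    f (a i * z.1 + ∑ j, a (i.succAbove j) * z.2 j) * Real.exp (-(z.1 + ∑ j, z.2 j))
  have h1 : ∀ x : Fin (n+1) → ℝ, f (∑ k, a k * x k) * Real.exp (-∑ k, x k)
      = G (MeasurableEquiv.piFinSuccAbove (fun _ => ℝ) i x) := by
    intro x
    simp only [G, Fin.sum_univ_succAbove _ i]
    rfl
  simp_rw [h1]
  rw [hmp.integral_comp']
  have hGm : Measurable G := by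
    apply Measurable.mul
    · apply hf.comp
      fun_prop
    · fun_prop
  have hGint : Integrable G (((volume : Measure ℝ).restrict (Set.Ioi 0)).prod
      (Measure.pi (fun _ : Fin n => (volume : Measure ℝ).restrict (Set.Ioi 0)))) := by
    have hdom : Integrable (fun z : ℝ × (Fin n → ℝ) => C * (Real.exp (-z.1) * Real.exp (-∑ j, z.2 j)))
        (((volume : Measure ℝ).restrict (Set.Ioi 0)).prod
      (Measure.pi (fun _ : Fin n => (volume : Measure ℝ).restrict (Set.Ioi 0)))) :=
      (Integrable.mul_prod (_root_.integrableOn_exp_neg_Ioi 0) (integrable_exp_neg_sum n)).const_mul C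
    refine hdom.mono' hGm.aestronglyMeasurable (Filter.Eventually.of_forall fun z => ?_)
    simp only [G, norm_mul, Real.norm_eq_abs, Real.abs_exp]
    rw [neg_add, Real.exp_add]
    exact mul_le_mul_of_nonneg_right (hC _) (by positivity)
  rw [integral_prod_symm _ hGint]
  refine integral_congr_ae (Filter.Eventually.of_forall fun y => ?_)
  simp only [G, E1]
  rw [← integral_mul_const]
  refine integral_congr_ae (Filter.Eventually.of_forall fun t => ?_)
  simp only
  rw [neg_add, Real.exp_add, add_comm (a i * t)]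
  ring

theorem EN_zero (a : Fin 0 → ℝ) (f : ℝ → ℝ) : EN 0 a f = f 0 := by
  unfold EN
  rw [volume_restrict_orth]
  simp [Measure.real]

lemma measurable_E1 (a : ℝ) {f : ℝ → ℝ} (hf : Measurable f) : Measurable (E1 a f) := by
  unfold E1
  have hm : StronglyMeasurable (fun p : ℝ × ℝ => f (p.1 + a * p.2) * Real.exp (-p.2)) := by
    apply Measurable.stronglyMeasurable
    apply Measurable.mul
    · apply hf.comp
      fun_prop
    · fun_prop
  exact (hm.integral_prod_right (ν := (volume : Measure ℝ).restrict (Set.Ioi 0))).measurable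

lemma integrable_E1 (a : ℝ) {f : ℝ → ℝ} (hf : Measurable f) {C : ℝ} (hC : ∀ y, |f y| ≤ C) (y : ℝ) :
    IntegrableOn (fun t => f (y + a * t) * Real.exp (-t)) (Set.Ioi 0) := by
  have hdom : IntegrableOn (fun t : ℝ => C * Real.exp (-t)) (Set.Ioi 0) :=
    (_root_.integrableOn_exp_neg_Ioi 0).const_mul C
  refine Integrable.mono' hdom ?_ (Filter.Eventually.of_forall fun t => ?_)
  · apply Measurable.aestronglyMeasurable
    apply Measurable.mul
    · apply hf.comp
      fun_prop
    · fun_prop
  · simp only [norm_mul, Real.norm_eq_abs, Real.abs_exp]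
    exact mul_le_mul_of_nonneg_right (hC _) (by positivity)

lemma abs_E1_le (a : ℝ) {f : ℝ → ℝ} {C : ℝ} (hC : ∀ y, |f y| ≤ C) (y : ℝ) :
    |E1 a f y| ≤ C := by
  unfold E1
  have h := norm_integral_le_of_norm_le (μ := (volume : Measure ℝ).restrict (Set.Ioi 0))
    (f := fun t => f (y + a * t) * Real.exp (-t)) (g := fun t : ℝ => C * Real.exp (-t))
    ((_root_.integrableOn_exp_neg_Ioi 0).const_mul C)
    (Filter.Eventually.of_forall fun t => by
      simp only [norm_mul, Real.norm_eq_abs, Real.abs_exp]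
      exact mul_le_mul_of_nonneg_right (hC _) (by positivity))
  rw [integral_const_mul, integral_exp_neg_Ioi_zero, mul_one] at h
  simpa using h

lemma E1_shift (a : ℝ) (f : ℝ → ℝ) (x y : ℝ) : E1 a (fun z => f (x + z)) y = E1 a f (x + y) := by
  simp [E1, add_assoc]

/-- Induction principle: if a class `P m F` of bounded measurable functions is stable under all
`E1 a` (with the parameter `m` shifted by `a`), then `x ↦ E F(x + ∑ a_i X_i)` is in the class. -/
theorem EN_class {P : ℝ → (ℝ → ℝ) → Prop}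
    (hP : ∀ m F, P m F → Measurable F ∧ ∃ C, ∀ y, |F y| ≤ C)
    (hstep : ∀ m F a, P m F → P (m + a) (E1 a F)) :
    ∀ (n : ℕ) (a : Fin n → ℝ) (m : ℝ) (F : ℝ → ℝ), P m F →
      P (m + ∑ i, a i) (fun x => EN n a (fun y => F (x + y))) := by
  intro n
  induction n with
  | zero =>
    intro a m F hF
    simpa [EN_zero] using hF
  | succ n ih =>
    intro a m F hF
    obtain ⟨hFm, C, hC⟩ := hP m F hF
    have h1 : (fun x => EN (n+1) a (fun y => F (x + y)))
        = (fun x => EN n (fun j => a (Fin.succ j)) (fun y => E1 (a 0) F (x + y))) := by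
      funext x
      rw [EN_succ a 0 (f := fun y => F (x + y)) (hFm.comp (by fun_prop)) (C := C) (fun y => hC _)]
      simp only [Fin.zero_succAbove]
      congr 1
      funext y
      exact E1_shift _ _ _ _
    rw [h1, Fin.sum_univ_succ, ← add_assoc]
    exact ih _ _ _ (hstep m F (a 0) hF)

end Crest.Agent.S0423
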