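import Mathlib
import Crest.Prelude.Def_TruncExpWeight
import Crest.Agent.S0423_Peel

set_option autoImplicit false

open MeasureTheory Set Real Filter Topology
open Crest.AlgGeometry

namespace Crest.Agent.S0423

lemma tew_le_one (y : ℝ) : truncExpWeight y ≤ 1 := by
  unfold truncExpWeight
  split_ifs with h
  · exact le_rfl
  · have h1 : 1 + y ≤ Real.exp y := by linarith [Real.add_one_le_exp y]
    have h2 : Real.exp y * Real.exp (-y) = 1 := by rw [← Real.exp_add]; simp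
    calc (1 + y) * Real.exp (-y) ≤ Real.exp y * Real.exp (-y) :=
          mul_le_mul_of_nonneg_right h1 (Real.exp_pos _).le
      _ = 1 := h2

lemma tew_nonneg (y : ℝ) : 0 ≤ truncExpWeight y := by
  unfold truncExpWeight
  split_ifs with h
  · exact zero_le_one
  · push Not at h
    positivity

lemma abs_tew_le (y : ℝ) : |truncExpWeight y| ≤ 1 := by
  rw [abs_of_nonneg (tew_nonneg y)]; exact tew_le_one y

lemma measurable_tew : Measurable truncExpWeight := by
  unfold truncExpWeight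
  apply Measurable.ite measurableSet_Iic
  · fun_prop
  · fun_prop

/-- antiderivative used below -/
noncomputable def Qaux (v t : ℝ) : ℝ :=
  -Real.exp (-t) + Real.exp (-v - 3 * t) * ((1 + v + 2 * t) / 3 + 2 / 9)

lemma hasDerivAt_Qaux (v t : ℝ) :
    HasDerivAt (Qaux v) (Real.exp (-t) - (1 + (v + 2 * t)) * Real.exp (-(v + 2 * t)) * Real.exp (-t)) t := by
  unfold Qaux
  have h1 : HasDerivAt (fun t : ℝ => -Real.exp (-t)) (Real.exp (-t)) t := by
    have h0 : HasDerivAt (fun t : ℝ => -t) (-1) t := (hasDerivAt_id t).fun_neg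
    have := (h0.exp).fun_neg
    simpa using this
  have h2 : HasDerivAt (fun t : ℝ => Real.exp (-v - 3 * t)) (Real.exp (-v - 3 * t) * (-3)) t := by
    have h : HasDerivAt (fun t : ℝ => -v - 3 * t) (-3) t := by
      simpa using ((hasDerivAt_id t).const_mul (3:ℝ)).const_sub (-v)
    exact h.exp
  have h3 : HasDerivAt (fun t : ℝ => (1 + v + 2 * t) / 3 + 2 / 9) (2 / 3) t := by
    have h : HasDerivAt (fun t : ℝ => 1 + v + 2 * t) 2 t := by
      simpa using ((hasDerivAt_id t).const_mul (2:ℝ)).const_add (1 + v)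
    simpa using (h.div_const 3).add_const (2/9 : ℝ)
  have h4 := h1.fun_add (h2.fun_mul h3)
  refine h4.congr_deriv ?_
  have e1 : Real.exp (-(v + 2 * t)) * Real.exp (-t) = Real.exp (-v - 3 * t) := by
    rw [← Real.exp_add]; congr 1; ring
  rw [mul_assoc (1 + (v + 2 * t)), e1]
  ring

lemma tendsto_Qaux (v : ℝ) : Tendsto (Qaux v) atTop (𝓝 0) := by
  unfold Qaux
  have h1 : Tendsto (fun t : ℝ => Real.exp (-t)) atTop (𝓝 0) := Real.tendsto_exp_neg_atTop_nhds_zero
  have h2 : Tendsto (fun t : ℝ => t * Real.exp (-t)) atTop (𝓝 0) := by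
    simpa using Real.tendsto_pow_mul_exp_neg_atTop_nhds_zero 1
  have h3 : Tendsto (fun t : ℝ => (3 * t)) atTop atTop :=
    tendsto_id.const_mul_atTop (by norm_num : (0:ℝ) < 3)
  have h4 : Tendsto (fun t : ℝ => Real.exp (-(3 * t))) atTop (𝓝 0) := h1.comp h3
  have h5 : Tendsto (fun t : ℝ => (3 * t) * Real.exp (-(3 * t))) atTop (𝓝 0) := h2.comp h3
  have h6 : Tendsto (fun t : ℝ => -Real.exp (-t) + Real.exp (-v) * (((1 + v) / 3 + 2 / 9) * Real.exp (-(3 * t))
      + (2 / 9) * ((3 * t) * Real.exp (-(3 * t))))) atTop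
      (𝓝 (-0 + Real.exp (-v) * (((1 + v) / 3 + 2 / 9) * 0 + (2 / 9) * 0))) :=
    h1.neg.add (((h4.const_mul _).add (h5.const_mul _)).const_mul _)
  simp only [neg_zero, mul_zero, add_zero] at h6
  refine h6.congr (fun t => ?_)
  have e1 : Real.exp (-v - 3 * t) = Real.exp (-v) * Real.exp (-(3 * t)) := by
    rw [← Real.exp_add]; congr 1
  rw [e1]
  ring

/-- `h(t) = (1 - g(v + 2t)) e^{-t}` -/
lemma one_sub_tew_eq (v t : ℝ) (ht : -v / 2 < t) :
    (1 - truncExpWeight (v + 2 * t)) * Real.exp (-t)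
      = Real.exp (-t) - (1 + (v + 2 * t)) * Real.exp (-(v + 2 * t)) * Real.exp (-t) := by
  have : ¬ (v + 2 * t ≤ 0) := by push Not; linarith
  simp only [truncExpWeight, this, if_false]
  ring

lemma one_sub_tew_eq_zero (v t : ℝ) (ht : t ≤ -v / 2) :
    (1 - truncExpWeight (v + 2 * t)) * Real.exp (-t) = 0 := by
  have : (v + 2 * t ≤ 0) := by linarith
  simp [truncExpWeight, this]

lemma integral_one_sub_tew (v : ℝ) :
    IntegrableOn (fun t => (1 - truncExpWeight (v + 2 * t)) * Real.exp (-t)) (Set.Ioi (-v / 2)) ∧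
    ∫ t in Set.Ioi (-v / 2), (1 - truncExpWeight (v + 2 * t)) * Real.exp (-t)
      = 4 / 9 * Real.exp (v / 2) := by
  have hpos : ∀ t ∈ Set.Ioi (-v / 2),
      0 ≤ Real.exp (-t) - (1 + (v + 2 * t)) * Real.exp (-(v + 2 * t)) * Real.exp (-t) := by
    intro t ht
    rw [← one_sub_tew_eq v t ht]
    exact mul_nonneg (by linarith [tew_le_one (v + 2 * t)]) (Real.exp_pos _).le
  have hint := integrableOn_Ioi_deriv_of_nonneg' (a := -v / 2)
    (fun t _ => hasDerivAt_Qaux v t) hpos (tendsto_Qaux v)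
  have hval := integral_Ioi_of_hasDerivAt_of_nonneg' (a := -v / 2)
    (fun t _ => hasDerivAt_Qaux v t) hpos (tendsto_Qaux v)
  have hcongr : EqOn (fun t => (1 - truncExpWeight (v + 2 * t)) * Real.exp (-t))
      (fun t => Real.exp (-t) - (1 + (v + 2 * t)) * Real.exp (-(v + 2 * t)) * Real.exp (-t))
      (Set.Ioi (-v / 2)) := fun t ht => one_sub_tew_eq v t ht
  refine ⟨(integrableOn_congr_fun hcongr measurableSet_Ioi).2 hint, ?_⟩
  rw [setIntegral_congr_fun measurableSet_Ioi hcongr, hval]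
  unfold Qaux
  have e1 : -v - 3 * (-v / 2) = v / 2 := by ring
  have e2 : -(-v / 2) = v / 2 := by ring
  rw [e1, e2]
  ring

/-- Key one-dimensional bound: `∫_0^∞ g(v+2t) e^{-t} dt ≥ 1 - (4/9) e^{v/2}`. -/
lemma E1_two_tew_ge (v : ℝ) :
    1 - 4 / 9 * Real.exp (v / 2) ≤ E1 2 truncExpWeight v := by
  obtain ⟨hint, hval⟩ := integral_one_sub_tew v
  set h : ℝ → ℝ := fun t => (1 - truncExpWeight (v + 2 * t)) * Real.exp (-t) with hh
  have hzero : ∀ t, t ∉ Set.Ioi (-v / 2) → h t = 0 := by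
    intro t ht
    exact one_sub_tew_eq_zero v t (by simpa using ht)
  have hI : Integrable h := hint.integrable_of_forall_notMem_eq_zero hzero
  have hnn : ∀ t, 0 ≤ h t := fun t =>
    mul_nonneg (by linarith [tew_le_one (v + 2 * t)]) (Real.exp_pos _).le
  have h1 : ∫ t in Set.Ioi (0:ℝ), h t ≤ ∫ t, h t :=
    setIntegral_le_integral hI (Filter.Eventually.of_forall hnn)
  have h2 : ∫ t, h t = 4 / 9 * Real.exp (v / 2) := by
    rw [← setIntegral_eq_integral_of_forall_compl_eq_zero hzero, hval]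
  have h3 : E1 2 truncExpWeight v = 1 - ∫ t in Set.Ioi (0:ℝ), h t := by
    unfold E1
    have hi1 : IntegrableOn (fun t => truncExpWeight (v + 2 * t) * Real.exp (-t)) (Set.Ioi 0) :=
      integrable_E1 2 measurable_tew abs_tew_le v
    have : ∫ t in Set.Ioi (0:ℝ), h t = ∫ t in Set.Ioi (0:ℝ), (Real.exp (-t) -
        truncExpWeight (v + 2 * t) * Real.exp (-t)) := by
      refine integral_congr_ae (Filter.Eventually.of_forall fun t => ?_)
      simp only [hh]; ring
    rw [this, integral_sub (_root_.integrableOn_exp_neg_Ioi 0) hi1, integral_exp_neg_Ioi_zero]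
    ring
  rw [h3]
  linarith

/-- the measure on the orthant -/
noncomputable abbrev piμ (n : ℕ) : Measure (Fin n → ℝ) :=
  Measure.pi (fun _ : Fin n => (volume : Measure ℝ).restrict (Set.Ioi 0))

lemma EN_eq (n : ℕ) (a : Fin n → ℝ) (f : ℝ → ℝ) :
    EN n a f = ∫ x, f (∑ i, a i * x i) * Real.exp (-∑ i, x i) ∂(piμ n) := by
  unfold EN
  rw [volume_restrict_orth]

lemma integrable_EN (n : ℕ) (a : Fin n → ℝ) {f : ℝ → ℝ} (hf : Measurable f) {C : ℝ}
    (hC : ∀ y, |f y| ≤ C) :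
    Integrable (fun x : Fin n → ℝ => f (∑ i, a i * x i) * Real.exp (-∑ i, x i)) (piμ n) := by
  refine ((integrable_exp_neg_sum n).const_mul C).mono' ?_ (Filter.Eventually.of_forall fun x => ?_)
  · apply Measurable.aestronglyMeasurable
    apply Measurable.mul
    · apply hf.comp
      fun_prop
    · fun_prop
  · simp only [norm_mul, Real.norm_eq_abs, Real.abs_exp]
    exact mul_le_mul_of_nonneg_right (hC _) (by positivity)

lemma integral_exp_neg_sum (n : ℕ) : ∫ x : Fin n → ℝ, Real.exp (-∑ i, x i) ∂(piμ n) = 1 := by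
  simp_rw [exp_neg_sum]
  rw [integral_fintype_prod_eq_pow (fun t : ℝ => Real.exp (-t)), integral_exp_neg_Ioi_zero, one_pow]

lemma exp_mul_sum (n : ℕ) (r : ℝ) (x : Fin n → ℝ) :
    Real.exp (r * ∑ i, x i) = ∏ i, Real.exp (r * x i) := by
  rw [Finset.mul_sum, Real.exp_sum]

lemma integrable_exp_mul_sum (n : ℕ) {r : ℝ} (hr : r < 0) :
    Integrable (fun x : Fin n → ℝ => Real.exp (r * ∑ i, x i)) (piμ n) := by
  simp_rw [exp_mul_sum]
  exact Integrable.fintype_prod (fun _ => integrableOn_exp_mul_Ioi hr 0)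

lemma integral_exp_mul_sum (n : ℕ) {r : ℝ} (hr : r < 0) :
    ∫ x : Fin n → ℝ, Real.exp (r * ∑ i, x i) ∂(piμ n) = ((-r)⁻¹) ^ n := by
  simp_rw [exp_mul_sum]
  rw [integral_fintype_prod_eq_pow (fun t : ℝ => Real.exp (r * t)), integral_exp_mul_Ioi hr 0]
  simp [neg_div, inv_neg]

/-- Explicit lower bound for the configuration `a = (2, -2/M, …, -2/M)`. -/
lemma EN_config_ge (M : ℕ) (hM : 1 ≤ M) :
    1 - 4 / 9 * Real.exp (2 / 3) * ((1 + 1 / (M : ℝ)) ^ M)⁻¹ ≤
      EN (M + 1) (Fin.cons 2 (fun _ => -2 / (M : ℝ))) (fun y => truncExpWeight (4 / 3 + y)) := by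
  have hMpos : (0 : ℝ) < M := by exact_mod_cast hM
  rw [EN_succ _ 0 (f := fun y => truncExpWeight (4 / 3 + y)) (measurable_tew.comp (by fun_prop))
    (C := 1) (fun y => abs_tew_le _)]
  simp only [Fin.zero_succAbove, Fin.cons_succ, Fin.cons_zero]
  have hE : E1 2 (fun y => truncExpWeight (4 / 3 + y)) = fun y => E1 2 truncExpWeight (4 / 3 + y) := by
    funext y; exact E1_shift _ _ _ _
  rw [hE, EN_eq]
  set r : ℝ := -(1 + 1 / (M : ℝ)) with hr
  have hr0 : r < 0 := by rw [hr]; have : 0 < 1 / (M:ℝ) := by positivity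
                         linarith
  have hmeas : Measurable (fun y => E1 2 truncExpWeight (4 / 3 + y)) :=
    (measurable_E1 2 measurable_tew).comp (by fun_prop)
  have hI2 := integrable_EN M (fun _ => -2 / (M : ℝ)) hmeas (C := 1)
    (fun y => abs_E1_le 2 abs_tew_le _)
  have hI1 : Integrable (fun x : Fin M → ℝ => Real.exp (-∑ i, x i)
      - 4 / 9 * Real.exp (2 / 3) * Real.exp (r * ∑ i, x i)) (piμ M) :=
    (integrable_exp_neg_sum M).sub ((integrable_exp_mul_sum M hr0).const_mul _)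
  have hle : ∫ x : Fin M → ℝ, (Real.exp (-∑ i, x i)
      - 4 / 9 * Real.exp (2 / 3) * Real.exp (r * ∑ i, x i)) ∂(piμ M) ≤
      ∫ x : Fin M → ℝ, E1 2 truncExpWeight (4 / 3 + ∑ i, -2 / (M : ℝ) * x i)
        * Real.exp (-∑ i, x i) ∂(piμ M) := by
    refine integral_mono hI1 hI2 (fun x => ?_)
    have h1 := E1_two_tew_ge (4 / 3 + ∑ i, -2 / (M : ℝ) * x i)
    have h2 : Real.exp ((4 / 3 + ∑ i, -2 / (M : ℝ) * x i) / 2) * Real.exp (-∑ i, x i)
        = Real.exp (2 / 3) * Real.exp (r * ∑ i, x i) := by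
      rw [← Real.exp_add, ← Real.exp_add, ← Finset.mul_sum]
      congr 1
      rw [hr]
      field_simp
      ring
    have h3 := mul_le_mul_of_nonneg_right h1 (Real.exp_pos (-∑ i, x i)).le
    calc Real.exp (-∑ i, x i) - 4 / 9 * Real.exp (2 / 3) * Real.exp (r * ∑ i, x i)
        = (1 - 4 / 9 * Real.exp ((4 / 3 + ∑ i, -2 / (M : ℝ) * x i) / 2)) * Real.exp (-∑ i, x i) := by
          rw [sub_mul, one_mul, mul_assoc, mul_assoc, h2]
      _ ≤ _ := h3
  refine le_trans (le_of_eq ?_) hle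
  rw [integral_sub (integrable_exp_neg_sum M) ((integrable_exp_mul_sum M hr0).const_mul _),
    integral_const_mul, integral_exp_neg_sum, integral_exp_mul_sum M hr0, hr, neg_neg, inv_pow]

theorem second_conjunct_raw : ∀ ε : ℝ, 0 < ε → ∃ (N : ℕ) (a : Fin N → ℝ), 1 ≤ N ∧ ∑ i, a i = 0 ∧
      3 / 4 * Real.exp (4 / 3) - Real.exp 1 / 3 - ε <
        Real.exp (4 / 3) / (4 / 3) *
          ∫ x in Set.pi Set.univ (fun _ : Fin N => Set.Ioi (0 : ℝ)),
            Crest.AlgGeometry.truncExpWeight (4 / 3 + ∑ i, a i * x i) * Real.exp (-∑ i, x i) := by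
  intro ε hε
  have hlim : Tendsto (fun n : ℕ => ((1 + 1 / (n : ℝ)) ^ n)⁻¹) atTop (𝓝 (Real.exp 1)⁻¹) :=
    (Real.tendsto_one_add_div_pow_exp 1).inv₀ (Real.exp_pos 1).ne'
  have hlim2 : Tendsto (fun n : ℕ => Real.exp 2 / 3 * ((1 + 1 / (n : ℝ)) ^ n)⁻¹) atTop
      (𝓝 (Real.exp 2 / 3 * (Real.exp 1)⁻¹)) := hlim.const_mul _
  have hval : Real.exp 2 / 3 * (Real.exp 1)⁻¹ = Real.exp 1 / 3 := by
    rw [← Real.exp_neg, div_mul_eq_mul_div, ← Real.exp_add]
    norm_num
  rw [hval] at hlim2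
  have hev : ∀ᶠ n : ℕ in atTop, Real.exp 2 / 3 * ((1 + 1 / (n : ℝ)) ^ n)⁻¹ < Real.exp 1 / 3 + ε :=
    hlim2.eventually (gt_mem_nhds (by linarith))
  obtain ⟨M, hM1, hM2⟩ := (hev.and (eventually_ge_atTop 1)).exists
  have hMpos : (0 : ℝ) < M := by exact_mod_cast hM2
  refine ⟨M + 1, Fin.cons 2 (fun _ => -2 / (M : ℝ)), by omega, ?_, ?_⟩
  · rw [Fin.sum_univ_succ]
    simp only [Fin.cons_zero, Fin.cons_succ, Finset.sum_const, Finset.card_univ, Fintype.card_fin,
      nsmul_eq_mul]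
    field_simp
    ring
  · have h := EN_config_ge M hM2
    unfold EN at h
    have hpos : 0 < Real.exp (4 / 3) / (4 / 3) := by positivity
    have h2 := mul_le_mul_of_nonneg_left h hpos.le
    refine lt_of_lt_of_le ?_ h2
    have e : Real.exp (4 / 3) / (4 / 3) * (1 - 4 / 9 * Real.exp (2 / 3) * ((1 + 1 / (M : ℝ)) ^ M)⁻¹)
        = 3 / 4 * Real.exp (4 / 3) - Real.exp 2 / 3 * ((1 + 1 / (M : ℝ)) ^ M)⁻¹ := by
      have : Real.exp 2 = Real.exp (4 / 3) * Real.exp (2 / 3) := by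
        rw [← Real.exp_add]; norm_num
      rw [this]; ring
    rw [e]
    linarith

theorem second_conjunct : ∀ ε : ℝ, 0 < ε → ∃ (N : ℕ) (a : Fin N → ℝ), 1 ≤ N ∧ ∑ i, a i = 0 ∧
      3 / 4 * Real.exp (4 / 3) - Real.exp 1 / 3 - ε <
        Real.exp (4 / 3) / (4 / 3) * EN N a (fun y => Crest.AlgGeometry.truncExpWeight (4 / 3 + y)) :=
  fun ε hε => second_conjunct_raw ε hε

end Crest.Agent.S0423
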