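import Crest.Agent.S0423_Defs
import Crest.Agent.S0423_Lower

set_option autoImplicit false

open MeasureTheory Set Real Filter Topology
open Crest.AlgGeometry

namespace Crest.Agent.S0423

namespace Dual

lemma measurable_H : Measurable H := by
  unfold H
  exact Measurable.ite measurableSet_Ici measurable_const measurable_const

lemma H_nonneg (x : ℝ) : 0 ≤ H x := by unfold H; split_ifs <;> norm_num

lemma H_le_one (x : ℝ) : H x ≤ 1 := by unfold H; split_ifs <;> norm_num

lemma abs_H_le (x : ℝ) : |H x| ≤ 1 := by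
  rw [abs_of_nonneg (H_nonneg x)]; exact H_le_one x

lemma measurable_w : Measurable w := by
  unfold w
  apply Measurable.ite measurableSet_Iio
  · fun_prop
  · fun_prop

lemma w_nonneg (x : ℝ) : 0 ≤ w x := by
  unfold w
  split_ifs with h
  · have : 0 < 4 / 3 - x := by linarith
    positivity
  · exact le_rfl

/-- antiderivative of `(c-x) e^{-(c-x)}` -/
lemma hasDerivAt_Paux (x : ℝ) :
    HasDerivAt (fun x : ℝ => (1 + (4 / 3 - x)) * Real.exp (-(4 / 3 - x)))
      ((4 / 3 - x) * Real.exp (-(4 / 3 - x))) x := by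
  have h0 : HasDerivAt (fun x : ℝ => 4 / 3 - x) (-1) x := by
    simpa using (hasDerivAt_id x).const_sub (4 / 3 : ℝ)
  have h1 : HasDerivAt (fun x : ℝ => 1 + (4 / 3 - x)) (-1) x := h0.const_add 1
  have h2 : HasDerivAt (fun x : ℝ => Real.exp (-(4 / 3 - x))) (Real.exp (-(4 / 3 - x)) * 1) x := by
    have : HasDerivAt (fun x : ℝ => -(4 / 3 - x)) 1 x := by simpa using h0.fun_neg
    exact this.exp
  refine (h1.fun_mul h2).congr_deriv ?_
  ring

lemma hasDerivAt_Raux (t : ℝ) :
    HasDerivAt (fun t : ℝ => -((1 + t) * Real.exp (-t))) (t * Real.exp (-t)) t := by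
  have h1 : HasDerivAt (fun t : ℝ => 1 + t) 1 t := (hasDerivAt_id t).const_add 1
  have h2 : HasDerivAt (fun t : ℝ => Real.exp (-t)) (Real.exp (-t) * (-1)) t :=
    ((hasDerivAt_id t).fun_neg).exp
  refine ((h1.fun_mul h2).fun_neg).congr_deriv ?_
  ring

lemma tendsto_Raux : Tendsto (fun t : ℝ => -((1 + t) * Real.exp (-t))) atTop (𝓝 0) := by
  have h1 : Tendsto (fun t : ℝ => Real.exp (-t)) atTop (𝓝 0) := Real.tendsto_exp_neg_atTop_nhds_zero
  have h2 : Tendsto (fun t : ℝ => t * Real.exp (-t)) atTop (𝓝 0) := by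
    simpa using Real.tendsto_pow_mul_exp_neg_atTop_nhds_zero 1
  have := (h1.add h2).neg
  simp only [add_zero, neg_zero] at this
  refine this.congr (fun t => ?_)
  ring

lemma integrableOn_t_exp : IntegrableOn (fun t : ℝ => t * Real.exp (-t)) (Set.Ioi 0) :=
  integrableOn_Ioi_deriv_of_nonneg' (fun t _ => hasDerivAt_Raux t)
    (fun _ ht => mul_nonneg (le_of_lt ht) (Real.exp_pos _).le) tendsto_Raux

lemma w_eq_comp (x : ℝ) :
    w x = Set.indicator (Set.Ioi (0:ℝ)) (fun t : ℝ => t * Real.exp (-t)) (4 / 3 - x) := by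
  simp only [w, Set.indicator, Set.mem_Ioi, sub_pos]

lemma integrable_w_aux : Integrable w := by
  have h : Integrable (Set.indicator (Set.Ioi (0:ℝ)) (fun t : ℝ => t * Real.exp (-t))) :=
    (integrable_indicator_iff measurableSet_Ioi).2 integrableOn_t_exp
  have h2 := h.comp_sub_left (4 / 3 : ℝ)
  exact h2.congr (Filter.Eventually.of_forall fun x => (w_eq_comp x).symm)

/-- pointwise duality identity -/
lemma tew_eq (y : ℝ) : truncExpWeight (4 / 3 + y) = 1 - ∫ x, H (x + y) * w x := by
  by_cases hz : 4 / 3 + y ≤ 0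
  · have h0 : ∀ x, H (x + y) * w x = 0 := by
      intro x
      by_cases hx : x < 4 / 3
      · have : ¬ (0 ≤ x + y) := by push Not; linarith
        simp [H, this]
      · simp [w, hx]
    simp [h0, truncExpWeight, hz]
  · push Not at hz
    have hle : -y ≤ 4 / 3 := by linarith
    have h1 : (fun x => H (x + y) * w x)
        = Set.indicator (Set.Ico (-y) (4 / 3)) (fun x : ℝ => (4 / 3 - x) * Real.exp (-(4 / 3 - x))) := by
      funext x
      by_cases hx1 : -y ≤ x
      · by_cases hx2 : x < 4 / 3
        · have : 0 ≤ x + y := by linarith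
          simp [H, w, this, hx2, Set.indicator, hx1]
        · simp [w, hx2, Set.indicator]
      · have : ¬ (0 ≤ x + y) := by push Not; push Not at hx1; linarith
        simp [H, this, Set.indicator, hx1]
    rw [h1, integral_indicator measurableSet_Ico, integral_Ico_eq_integral_Ioc,
      ← intervalIntegral.integral_of_le hle,
      intervalIntegral.integral_eq_sub_of_hasDerivAt (fun x _ => hasDerivAt_Paux x)
        (Continuous.intervalIntegrable (by fun_prop) _ _)]
    have : ¬ (4 / 3 + y ≤ 0) := by push Not; exact hz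
    simp only [truncExpWeight, this, if_false]
    have e : (4:ℝ) / 3 - -y = 4 / 3 + y := by ring
    rw [e]
    simp

end Dual

open _root_.Crest.Agent.S0423.Dual in
theorem EN_trunc (n : ℕ) (a : Fin n → ℝ) :
    EN n a (fun y => Crest.AlgGeometry.truncExpWeight (4 / 3 + y))
      = 1 - ∫ x, EN n a (fun y => H (x + y)) * w x := by
  have hint : Integrable (Function.uncurry (fun (x' : Fin n → ℝ) (x : ℝ) =>
      H (x + ∑ i, a i * x' i) * w x * Real.exp (-∑ i, x' i))) ((piμ n).prod volume) := by
    have hdom : Integrable (fun z : (Fin n → ℝ) × ℝ => Real.exp (-∑ i, z.1 i) * w z.2)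
        ((piμ n).prod volume) := Integrable.mul_prod (integrable_exp_neg_sum n) integrable_w_aux
    refine hdom.mono' ?_ (Filter.Eventually.of_forall fun z => ?_)
    · apply Measurable.aestronglyMeasurable
      apply Measurable.mul
      · apply Measurable.mul
        · apply measurable_H.comp
          fun_prop
        · exact measurable_w.comp measurable_snd
      · fun_prop
    · simp only [Function.uncurry, norm_mul, Real.norm_eq_abs, Real.abs_exp,
        abs_of_nonneg (w_nonneg _), abs_of_nonneg (H_nonneg _)]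
      have h1 := H_le_one (z.2 + ∑ i, a i * z.1 i)
      have h2 := w_nonneg z.2
      have h3 := Real.exp_pos (-∑ i, z.1 i)
      calc H (z.2 + ∑ i, a i * z.1 i) * w z.2 * Real.exp (-∑ i, z.1 i)
          ≤ 1 * w z.2 * Real.exp (-∑ i, z.1 i) := by gcongr
        _ = Real.exp (-∑ i, z.1 i) * w z.2 := by ring
  have hswap := integral_integral_swap hint
  rw [EN_eq]
  have h1 : ∀ x' : Fin n → ℝ, truncExpWeight (4 / 3 + ∑ i, a i * x' i) * Real.exp (-∑ i, x' i)
      = Real.exp (-∑ i, x' i) - ∫ x, H (x + ∑ i, a i * x' i) * w x * Real.exp (-∑ i, x' i) := by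
    intro x'
    rw [tew_eq, integral_mul_const]
    ring
  simp_rw [h1]
  have hleft : Integrable (fun x' : Fin n → ℝ =>
      ∫ x, H (x + ∑ i, a i * x' i) * w x * Real.exp (-∑ i, x' i)) (piμ n) := hint.integral_prod_left
  rw [integral_sub (integrable_exp_neg_sum n) hleft, integral_exp_neg_sum, hswap]
  congr 1
  refine integral_congr_ae (Filter.Eventually.of_forall fun x => ?_)
  simp only
  rw [EN_eq, ← integral_mul_const]
  refine integral_congr_ae (Filter.Eventually.of_forall fun x' => ?_)
  simp only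
  ring

end Crest.Agent.S0423
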