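import Crest.Agent.S0423_Defs

set_option autoImplicit false

open MeasureTheory Set Real

namespace Crest.Agent.S0423

theorem E1_zero (f : ℝ → ℝ) : E1 0 f = f := by
  funext y
  unfold E1
  simp only [zero_mul, add_zero]
  rw [integral_const_mul, integral_exp_neg_Ioi_zero, mul_one]

theorem E1_H_pos {a : ℝ} (ha : 0 < a) (x : ℝ) :
    E1 a H x = if 0 ≤ x then 1 else Real.exp (x / a) := by
  unfold E1
  split_ifs with hx
  · have : ∀ t ∈ Set.Ioi (0:ℝ), H (x + a * t) * Real.exp (-t) = Real.exp (-t) := by
      intro t ht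
      have ht' : (0:ℝ) < t := ht
      have : 0 ≤ x + a * t := by positivity
      simp [H, this]
    rw [setIntegral_congr_fun measurableSet_Ioi this, integral_exp_neg_Ioi_zero]
  · rw [not_le] at hx
    have hc : 0 < -x / a := div_pos (by linarith) ha
    have hsplit : Set.Ioi (0:ℝ) = Set.Ioo 0 (-x / a) ∪ Set.Ici (-x / a) :=
      (Set.Ioo_union_Ici_eq_Ioi hc).symm
    have hdisj : Disjoint (Set.Ioo 0 (-x / a)) (Set.Ici (-x / a)) := by
      rw [Set.disjoint_left]
      intro t ht ht'
      exact absurd ht.2 (not_lt.mpr ht')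
    have hint : IntegrableOn (fun t => H (x + a * t) * Real.exp (-t)) (Set.Ioi 0) := by
      apply integrable_E1 a (C := 1)
      · unfold H
        exact Measurable.ite measurableSet_Ici measurable_const measurable_const
      · intro y
        unfold H
        split_ifs <;> simp
    rw [hsplit] at hint ⊢
    rw [setIntegral_union hdisj measurableSet_Ici hint.left_of_union hint.right_of_union]
    have h1 : ∀ t ∈ Set.Ioo (0:ℝ) (-x / a), H (x + a * t) * Real.exp (-t) = 0 := by
      intro t ht
      have : a * t < -x := by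
        have := ht.2
        rw [lt_div_iff₀ ha] at this
        linarith
      have : ¬ (0 ≤ x + a * t) := by linarith
      simp [H, this]
    have h2 : ∀ t ∈ Set.Ici (-x / a), H (x + a * t) * Real.exp (-t) = Real.exp (-t) := by
      intro t ht
      have : -x ≤ a * t := by
        have : -x / a ≤ t := ht
        rw [div_le_iff₀ ha] at this
        linarith
      have : 0 ≤ x + a * t := by linarith
      simp [H, this]
    rw [setIntegral_congr_fun measurableSet_Ioo h1, setIntegral_congr_fun measurableSet_Ici h2,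
      integral_Ici_eq_integral_Ioi, integral_exp_neg_Ioi]
    simp [neg_div]

theorem E1_H_neg {a : ℝ} (ha : a < 0) (x : ℝ) :
    E1 a H x = if 0 ≤ x then 1 - Real.exp (x / a) else 0 := by
  unfold E1
  split_ifs with hx
  · have hc : 0 ≤ x / (-a) := div_nonneg hx (by linarith)
    have hsplit : Set.Ioi (0:ℝ) = Set.Ioc 0 (x / (-a)) ∪ Set.Ioi (x / (-a)) :=
      (Set.Ioc_union_Ioi_eq_Ioi hc).symm
    have hdisj : Disjoint (Set.Ioc 0 (x / (-a))) (Set.Ioi (x / (-a))) := by
      rw [Set.disjoint_left]
      intro t ht ht'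
      exact absurd ht.2 (not_le.mpr ht')
    have hint : IntegrableOn (fun t => H (x + a * t) * Real.exp (-t)) (Set.Ioi 0) := by
      apply integrable_E1 a (C := 1)
      · unfold H
        exact Measurable.ite measurableSet_Ici measurable_const measurable_const
      · intro y
        unfold H
        split_ifs <;> simp
    rw [hsplit] at hint ⊢
    rw [setIntegral_union hdisj measurableSet_Ioi hint.left_of_union hint.right_of_union]
    have h1 : ∀ t ∈ Set.Ioc (0:ℝ) (x / (-a)), H (x + a * t) * Real.exp (-t) = Real.exp (-t) := by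
      intro t ht
      have : t * (-a) ≤ x := by
        have := ht.2
        rwa [le_div_iff₀ (by linarith : 0 < -a)] at this
      have : 0 ≤ x + a * t := by nlinarith
      simp [H, this]
    have h2 : ∀ t ∈ Set.Ioi (x / (-a)), H (x + a * t) * Real.exp (-t) = 0 := by
      intro t ht
      have : x < t * (-a) := by
        have : x / (-a) < t := ht
        rwa [div_lt_iff₀ (by linarith : 0 < -a)] at this
      have : ¬ (0 ≤ x + a * t) := by nlinarith
      simp [H, this]
    rw [setIntegral_congr_fun measurableSet_Ioc h1, setIntegral_congr_fun measurableSet_Ioi h2]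
    rw [← intervalIntegral.integral_of_le hc]
    simp only [integral_zero, add_zero]
    have : ∫ t in (0:ℝ)..(x / (-a)), Real.exp (-t) = 1 - Real.exp (-(x / (-a))) := by
      rw [intervalIntegral.integral_comp_neg (fun t => Real.exp t)]
      simp
    rw [this]
    congr 2
    rw [div_neg, neg_neg]
  · rw [not_le] at hx
    have : ∀ t ∈ Set.Ioi (0:ℝ), H (x + a * t) * Real.exp (-t) = 0 := by
      intro t ht
      have ht' : (0:ℝ) < t := ht
      have : ¬ (0 ≤ x + a * t) := by nlinarith
      simp [H, this]
    rw [setIntegral_congr_fun measurableSet_Ioi this]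
    simp

lemma E1_H_sub_pos {a : ℝ} (ha : 0 < a) :
    (fun x => E1 a H x - H x) = (Set.Iio (0:ℝ)).indicator (fun x => Real.exp (a⁻¹ * x)) := by
  funext x
  rw [E1_H_pos ha]
  by_cases hx : 0 ≤ x
  · have : x ∉ Set.Iio (0:ℝ) := by simpa using hx
    simp [H, hx, this]
  · have : x ∈ Set.Iio (0:ℝ) := by simpa using hx
    simp [H, hx, this, div_eq_inv_mul]

lemma E1_H_sub_neg {a : ℝ} (ha : a < 0) :
    (fun x => E1 a H x - H x) = (Set.Ici (0:ℝ)).indicator (fun x => -Real.exp (a⁻¹ * x)) := by
  funext x
  rw [E1_H_neg ha]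
  by_cases hx : 0 ≤ x
  · have : x ∈ Set.Ici (0:ℝ) := hx
    simp [H, hx, this, div_eq_inv_mul]
  · have : x ∉ Set.Ici (0:ℝ) := hx
    simp [H, hx, this]

theorem integrable_E1_H_sub (a : ℝ) : Integrable (fun x => E1 a H x - H x) := by
  rcases lt_trichotomy a 0 with ha | ha | ha
  · rw [E1_H_sub_neg ha, integrable_indicator_iff measurableSet_Ici,
      integrableOn_Ici_iff_integrableOn_Ioi]
    exact (integrableOn_exp_mul_Ioi (inv_lt_zero.mpr ha) 0).neg
  · subst ha
    simp [E1_zero]
  · rw [E1_H_sub_pos ha, integrable_indicator_iff measurableSet_Iio,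
      ← integrableOn_Iic_iff_integrableOn_Iio]
    exact integrableOn_exp_mul_Iic (inv_pos.mpr ha) 0

theorem integral_E1_H_sub (a : ℝ) : ∫ x, (E1 a H x - H x) = a := by
  rcases lt_trichotomy a 0 with ha | ha | ha
  · rw [E1_H_sub_neg ha, integral_indicator measurableSet_Ici, integral_Ici_eq_integral_Ioi,
      integral_neg, integral_exp_mul_Ioi (inv_lt_zero.mpr ha) 0]
    simp
  · subst ha
    simp [E1_zero]
  · rw [E1_H_sub_pos ha, integral_indicator measurableSet_Iio, ← integral_Iic_eq_integral_Iio,
      integral_exp_mul_Iic (inv_pos.mpr ha) 0]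
    simp

end Crest.Agent.S0423
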