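import Crest.Agent.S0423_Defs

set_option autoImplicit false

open MeasureTheory Set Real

namespace Crest.Agent.S0423

/-- joint integrability of `(x,t) ↦ φ (x + a t) e^{-t}` on `ℝ × (0,∞)` -/
theorem integrable_E1_kernel (a : ℝ) {φ : ℝ → ℝ} (hm : Measurable φ) (hφ : Integrable φ) :
    Integrable (fun p : ℝ × ℝ => φ (p.1 + a * p.2) * Real.exp (-p.2))
      ((volume : Measure ℝ).prod ((volume : Measure ℝ).restrict (Set.Ioi 0))) := by
  have hmeas : Measurable (fun p : ℝ × ℝ => φ (p.1 + a * p.2) * Real.exp (-p.2)) := by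
    apply Measurable.mul
    · apply hm.comp
      fun_prop
    · fun_prop
  rw [integrable_prod_iff' hmeas.aestronglyMeasurable]
  constructor
  · refine Filter.Eventually.of_forall fun t => ?_
    exact (hφ.comp_add_right (a * t)).mul_const (Real.exp (-t))
  · have h : (fun t : ℝ => ∫ x, ‖φ (x + a * t) * Real.exp (-t)‖)
        = fun t : ℝ => (∫ x, ‖φ x‖) * Real.exp (-t) := by
      funext t
      simp only [norm_mul, Real.norm_eq_abs, Real.abs_exp]
      rw [integral_mul_const, integral_add_right_eq_self (fun x => |φ x|) (a * t)]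
    simp only
    rw [h]
    exact (_root_.integrableOn_exp_neg_Ioi 0).const_mul _

theorem integrable_E1_of_integrable (a : ℝ) {φ : ℝ → ℝ} (hm : Measurable φ) (hφ : Integrable φ) :
    Integrable (E1 a φ) :=
  (integrable_E1_kernel a hm hφ).integral_prod_left

theorem integral_E1_of_integrable (a : ℝ) {φ : ℝ → ℝ} (hm : Measurable φ) (hφ : Integrable φ) :
    ∫ x, E1 a φ x = ∫ x, φ x := by
  unfold E1
  rw [integral_integral_swap (f := fun x t => φ (x + a * t) * Real.exp (-t))
    (integrable_E1_kernel a hm hφ)]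
  have h : ∀ t : ℝ, ∫ x, φ (x + a * t) * Real.exp (-t) = (∫ x, φ x) * Real.exp (-t) := by
    intro t
    rw [integral_mul_const, integral_add_right_eq_self φ (a * t)]
  simp_rw [h]
  rw [integral_const_mul, integral_exp_neg_Ioi_zero, mul_one]

end Crest.Agent.S0423
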