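import Crest.Agent.S0423_Defs
import Crest.Agent.S0423_E1H
import Crest.Agent.S0423_Fubini

set_option autoImplicit false

open MeasureTheory Set Real

namespace Crest.Agent.S0423

namespace GoodAux

lemma H_mono : Monotone H := by
  intro x y hxy
  unfold H
  split_ifs with h1 h2 h2
  · exact le_rfl
  · exact absurd (h1.trans hxy) h2
  · exact zero_le_one
  · exact le_rfl

lemma H_nonneg (x : ℝ) : 0 ≤ H x := by
  unfold H; split_ifs <;> norm_num

lemma H_le_one (x : ℝ) : H x ≤ 1 := by
  unfold H; split_ifs <;> norm_num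

lemma H_abs_le (x : ℝ) : |H x| ≤ 1 := by
  rw [abs_of_nonneg (H_nonneg x)]; exact H_le_one x

lemma measurable_H : Measurable H := H_mono.measurable

lemma E1_sub (a : ℝ) {f g : ℝ → ℝ}
    (hf : ∀ y, IntegrableOn (fun t => f (y + a * t) * Real.exp (-t)) (Set.Ioi 0))
    (hg : ∀ y, IntegrableOn (fun t => g (y + a * t) * Real.exp (-t)) (Set.Ioi 0)) (y : ℝ) :
    E1 a (fun x => f x - g x) y = E1 a f y - E1 a g y := by
  unfold E1
  rw [← integral_sub (hf y) (hg y)]
  refine integral_congr_ae (Filter.Eventually.of_forall fun t => ?_)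
  simp only
  ring

end GoodAux

open GoodAux

theorem good_H : Good 0 H where
  mono := H_mono
  nonneg := H_nonneg
  le_one := H_le_one
  integrable := by simp
  integral_eq := by simp
  ordConn := by
    intro lam hlam A hA
    refine ⟨fun x hx y hy z hz => ?_⟩
    simp only [Set.mem_ofPred_eq] at hx hy ⊢
    have hx0 : 0 ≤ x := by
      by_contra hneg
      have : H x = 0 := by unfold H; rw [if_neg hneg]
      rw [this] at hx
      exact absurd hx (not_lt.mpr (by positivity))
    have hz0 : 0 ≤ z := hx0.trans hz.1
    have hHz : H z = 1 := by unfold H; rw [if_pos hz0]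
    have hHy : H y = 1 := by unfold H; rw [if_pos (hz0.trans hz.2)]
    rw [hHz]; rw [hHy] at hy
    refine lt_of_le_of_lt ?_ hy
    apply mul_le_mul_of_nonneg_left _ hA
    apply Real.exp_le_exp.mpr
    exact mul_le_mul_of_nonneg_left hz.2 hlam.le

/-- `good_E1` with the variation-diminishing input (package (B3), `ordConn_E1`) as a hypothesis. -/
theorem good_E1_of (m : ℝ) (F : ℝ → ℝ) (a : ℝ) (hF : Good m F)
    (hVD : ∀ lam : ℝ, 0 < lam → ∀ A : ℝ, 0 ≤ A →
      Set.OrdConnected {x : ℝ | A * Real.exp (lam * x) < E1 a F x}) :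
    Good (m + a) (E1 a F) := by
  have hFm : Measurable F := hF.mono.measurable
  have hFabs : ∀ y, |F y| ≤ 1 := fun y => by
    rw [abs_of_nonneg (hF.nonneg y)]; exact hF.le_one y
  have hFint := integrable_E1 a hFm hFabs
  have hHint := integrable_E1 a measurable_H H_abs_le
  have hdm : Measurable (fun x => F x - H x) := hFm.sub measurable_H
  have hdecomp : (fun x => E1 a F x - H x)
      = fun x => E1 a (fun z => F z - H z) x + (E1 a H x - H x) := by
    funext x
    rw [E1_sub a hFint hHint]
    ring
  refine ⟨?_, ?_, ?_, ?_, ?_, ?_⟩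
  · intro x y hxy
    unfold E1
    refine integral_mono (hFint x) (hFint y) fun t => ?_
    exact mul_le_mul_of_nonneg_right (hF.mono (by linarith)) (Real.exp_pos _).le
  · intro x
    unfold E1
    exact integral_nonneg fun t => mul_nonneg (hF.nonneg _) (Real.exp_pos _).le
  · intro x
    exact (le_abs_self _).trans (abs_E1_le a hFabs x)
  · rw [hdecomp]
    exact (integrable_E1_of_integrable a hdm hF.integrable).add (integrable_E1_H_sub a)
  · rw [hdecomp, integral_add (integrable_E1_of_integrable a hdm hF.integrable)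
      (integrable_E1_H_sub a), integral_E1_of_integrable a hdm hF.integrable, hF.integral_eq,
      integral_E1_H_sub]
  · exact hVD

end Crest.Agent.S0423
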