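import Crest.Agent.S0423_Compare

set_option autoImplicit false

open MeasureTheory Set Real

namespace Crest.Agent.S0423

/-- `phi1 = Ft 1 - H`. -/
noncomputable def phi1 (x : ℝ) : ℝ := Ft 1 x - H x

lemma phi1_eq_indicator (x : ℝ) :
    phi1 x = (Iic (1:ℝ)).indicator (fun x => Real.exp (-1) * Real.exp x) x
      - (Icc (0:ℝ) 1).indicator (fun _ => (1:ℝ)) x := by
  have hexp : Real.exp (-1) * Real.exp x = Real.exp (x - 1) := by
    rw [← Real.exp_add]; ring_nf
  unfold phi1 Ft H
  rw [div_one]
  by_cases h1 : x ≤ 1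
  · have hmin : min 1 (Real.exp (x - 1)) = Real.exp (x - 1) := by
      apply min_eq_right
      exact Real.exp_le_one_iff.mpr (by linarith)
    rw [hmin, indicator_of_mem (mem_Iic.mpr h1), hexp]
    by_cases h0 : 0 ≤ x
    · rw [if_pos h0, indicator_of_mem (mem_Icc.mpr ⟨h0, h1⟩)]
    · rw [if_neg h0, indicator_of_notMem (fun h => h0 h.1)]
  · have h1' : 1 < x := not_le.mp h1
    have hmin : min 1 (Real.exp (x - 1)) = 1 := by
      apply min_eq_left
      exact Real.one_le_exp_iff.mpr (by linarith)
    rw [hmin, if_pos (by linarith), indicator_of_notMem (show x ∉ Iic (1:ℝ) from fun h => h1 h),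
      indicator_of_notMem (show x ∉ Icc (0:ℝ) 1 from fun h => h1 h.2)]
    simp

lemma integrable_ind1 : Integrable ((Iic (1:ℝ)).indicator (fun x => Real.exp (-1) * Real.exp x)) := by
  rw [integrable_indicator_iff measurableSet_Iic]
  exact (integrableOn_exp_Iic 1).const_mul _

lemma integrable_ind2 : Integrable ((Icc (0:ℝ) 1).indicator (fun _ => (1:ℝ))) := by
  rw [integrable_indicator_iff measurableSet_Icc]
  exact integrableOn_const (by simp)

lemma integrable_phi1 : Integrable phi1 := by
  have : phi1 = fun x => (Iic (1:ℝ)).indicator (fun x => Real.exp (-1) * Real.exp x) x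
      - (Icc (0:ℝ) 1).indicator (fun _ => (1:ℝ)) x := funext phi1_eq_indicator
  rw [this]
  exact integrable_ind1.sub integrable_ind2

lemma integral_phi1 : ∫ x, phi1 x = 0 := by
  simp_rw [phi1_eq_indicator]
  rw [integral_sub integrable_ind1 integrable_ind2, integral_indicator measurableSet_Iic,
    integral_indicator measurableSet_Icc, integral_const_mul, integral_exp_Iic, ← Real.exp_add]
  simp

lemma phi1_of_neg {x : ℝ} (hx : x < 0) : phi1 x = Real.exp (x - 1) := by
  rw [phi1_eq_indicator, indicator_of_mem (mem_Iic.mpr (by linarith)),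
    indicator_of_notMem (fun h => absurd h.1 (not_le.mpr hx)), ← Real.exp_add]
  ring_nf

lemma phi1_nonpos_of_nonneg {x : ℝ} (hx : 0 ≤ x) : phi1 x ≤ 0 := by
  unfold phi1 Ft H
  rw [if_pos hx]
  linarith [min_le_left (1:ℝ) (Real.exp (x / 1 - 1))]

/-- the matching function -/
noncomputable def Dfun (t : ℝ) : ℝ := t * ∫ x, phi1 x * om (t * x)

lemma continuous_Dfun : Continuous Dfun := by
  unfold Dfun
  refine continuous_id.mul ?_
  refine continuous_of_dominated (bound := fun x => ‖phi1 x‖) ?_ ?_ integrable_phi1.norm ?_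
  · intro t
    exact integrable_phi1.aestronglyMeasurable.mul
      (om_continuous.comp (continuous_const.mul continuous_id)).aestronglyMeasurable
  · intro t
    refine Filter.Eventually.of_forall fun x => ?_
    rw [norm_mul]
    exact mul_le_of_le_one_right (norm_nonneg _) (om_norm_le _)
  · refine Filter.Eventually.of_forall fun x => ?_
    exact continuous_const.mul (om_continuous.comp (continuous_id.mul continuous_const))

lemma Dfun_zero : Dfun 0 = 0 := by simp [Dfun]

lemma Ft_sub_H_eq {t : ℝ} (ht : 0 < t) (x : ℝ) : Ft t x - H x = phi1 (x / t) := by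
  unfold phi1 Ft H
  rw [div_one]
  have : (0 ≤ x / t) ↔ 0 ≤ x := by
    constructor
    · intro h
      have := mul_nonneg h ht.le
      rwa [div_mul_cancel₀ _ ht.ne'] at this
    · intro h; positivity
  simp only [this]

lemma integrable_Ft_sub_H {t : ℝ} (ht : 0 < t) : Integrable (fun x => Ft t x - H x) := by
  simp_rw [Ft_sub_H_eq ht]
  exact (integrable_comp_div_iff phi1 ht.ne').mpr integrable_phi1

lemma integral_Ft_sub_H {t : ℝ} (ht : 0 < t) : ∫ x, (Ft t x - H x) = 0 := by
  simp_rw [Ft_sub_H_eq ht]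
  rw [Measure.integral_comp_div, integral_phi1]; simp

lemma integral_Ft_sub_H_mul_om {t : ℝ} (ht : 0 < t) : ∫ x, (Ft t x - H x) * om x = Dfun t := by
  simp_rw [Ft_sub_H_eq ht]
  have : (fun x => phi1 (x / t) * om x) = fun x => (fun y => phi1 y * om (t * y)) (x / t) := by
    funext x
    simp only
    rw [mul_div_cancel₀ _ ht.ne']
  rw [this, Measure.integral_comp_div (fun y => phi1 y * om (t * y)) t, abs_of_pos ht]
  rfl

lemma Dfun_le {t : ℝ} (ht : 0 ≤ t) : Dfun t ≤ -(Real.exp (-(7 / 3)) * t ^ 2 / (1 + t)) := by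
  have h1t : 0 < 1 + t := by linarith
  have hi1 : Integrable (fun x => phi1 x * om (t * x)) :=
    integrable_phi1.mul_bdd (c := 1)
      (om_continuous.comp (continuous_const.mul continuous_id)).aestronglyMeasurable
      (Filter.Eventually.of_forall fun x => om_norm_le _)
  have hi2 : Integrable (fun x => phi1 x * om 0) := integrable_phi1.mul_const _
  have e1 : ∫ x, phi1 x * om (t * x) = ∫ x, (phi1 x * om (t * x) - phi1 x * om 0) := by
    rw [integral_sub hi1 hi2, integral_mul_const, integral_phi1]; simp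
  have hA : IntegrableOn (fun x => Real.exp (-(7 / 3)) * (Real.exp ((1 + t) * x) - Real.exp x))
      (Iic 0) :=
    ((integrableOn_exp_mul_Iic h1t 0).sub (integrableOn_exp_Iic 0)).const_mul _
  have e2 : ∫ x, (phi1 x * om (t * x) - phi1 x * om 0)
      ≤ ∫ x, (Iic (0:ℝ)).indicator
          (fun x => Real.exp (-(7 / 3)) * (Real.exp ((1 + t) * x) - Real.exp x)) x := by
    apply integral_mono (hi1.sub hi2) ((integrable_indicator_iff measurableSet_Iic).mpr hA)
    intro x
    show phi1 x * om (t * x) - phi1 x * om 0 ≤ _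
    by_cases hx : x ≤ 0
    · rw [indicator_of_mem (mem_Iic.mpr hx)]
      rcases hx.eq_or_lt with rfl | hx
      · simp
      · rw [phi1_of_neg hx, om_of_le (by nlinarith : t * x ≤ 4 / 3), om_of_le (by norm_num)]
        apply le_of_eq
        rw [mul_sub, ← Real.exp_add, ← Real.exp_add, ← Real.exp_add, ← Real.exp_add]
        ring_nf
    · rw [indicator_of_notMem (show x ∉ Iic (0:ℝ) from fun h => hx h)]
      have hx' : 0 < x := not_le.mp hx
      have h1 := phi1_nonpos_of_nonneg hx'.le
      have h2 : om 0 ≤ om (t * x) := om_mono (by positivity)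
      nlinarith
  have e3 : ∫ x, (Iic (0:ℝ)).indicator
          (fun x => Real.exp (-(7 / 3)) * (Real.exp ((1 + t) * x) - Real.exp x)) x
      = Real.exp (-(7 / 3)) * (1 / (1 + t) - 1) := by
    rw [integral_indicator measurableSet_Iic, integral_const_mul,
      integral_sub (integrableOn_exp_mul_Iic h1t 0) (integrableOn_exp_Iic 0),
      integral_exp_mul_Iic h1t, integral_exp_Iic]
    simp
  unfold Dfun
  rw [e1]
  have := mul_le_mul_of_nonneg_left (e2.trans_eq e3) ht
  refine this.trans_eq ?_
  field_simp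
  ring

lemma integral_sub_H_mul_om_nonpos {F : ℝ → ℝ} (hF : Good 0 F) :
    ∫ x, (F x - H x) * om x ≤ 0 := by
  have hi1 := integrable_mul_om hF.integrable
  have hi2 : Integrable (fun x => (F x - H x) * om 0) := hF.integrable.mul_const _
  have e1 : ∫ x, (F x - H x) * om x = ∫ x, ((F x - H x) * om x - (F x - H x) * om 0) := by
    rw [integral_sub hi1 hi2, integral_mul_const, hF.integral_eq]; simp
  rw [e1]
  apply integral_nonpos
  intro x
  simp only [Pi.zero_apply]
  unfold H
  by_cases hx : 0 ≤ x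
  · rw [if_pos hx]
    have h1 := hF.le_one x
    have h2 : om 0 ≤ om x := om_mono hx
    nlinarith
  · rw [if_neg hx]
    have h1 := hF.nonneg x
    have h2 : om x ≤ om 0 := om_mono (not_le.mp hx).le
    nlinarith

lemma measurable_H_ivt : Measurable H := by
  unfold H
  exact Measurable.ite measurableSet_Ici measurable_const measurable_const

lemma measurable_Ft_ivt (t : ℝ) : Measurable (Ft t) := by
  unfold Ft
  fun_prop

/-- (C) -/
theorem exists_comparison' (hw : Integrable w) (F : ℝ → ℝ) (hF : Good 0 F) :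
    (∫ x, H x * w x ≤ ∫ x, F x * w x) ∨ ∃ t : ℝ, 0 < t ∧ ∫ x, Ft t x * w x ≤ ∫ x, F x * w x := by
  set Δ := ∫ x, (F x - H x) * om x with hΔ
  have hΔ0 : Δ ≤ 0 := integral_sub_H_mul_om_nonpos hF
  set t1 : ℝ := 1 + 2 * (-Δ) * Real.exp (7 / 3) with ht1
  have hE : 0 < Real.exp (7 / 3) := Real.exp_pos _
  have ht1' : 1 ≤ t1 := by
    have : 0 ≤ 2 * (-Δ) * Real.exp (7 / 3) := by
      apply mul_nonneg _ hE.le; linarith
    linarith
  have hD1 : Dfun t1 ≤ Δ := by
    refine (Dfun_le (by linarith)).trans ?_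
    have h1 : t1 / 2 ≤ t1 ^ 2 / (1 + t1) := by
      rw [div_le_div_iff₀ (by norm_num) (by linarith)]; nlinarith
    have h2 : Real.exp (-(7 / 3)) * Real.exp (7 / 3) = 1 := by
      rw [← Real.exp_add]; simp
    have h3 : Real.exp (-(7 / 3)) * t1 ^ 2 / (1 + t1) = Real.exp (-(7 / 3)) * (t1 ^ 2 / (1 + t1)) := by
      ring
    rw [h3]
    have h4 : Real.exp (-(7 / 3)) * (t1 / 2) ≤ Real.exp (-(7 / 3)) * (t1 ^ 2 / (1 + t1)) :=
      mul_le_mul_of_nonneg_left h1 (Real.exp_pos _).le
    have h5 : Real.exp (-(7 / 3)) * (t1 / 2) = Real.exp (-(7 / 3)) / 2 + (-Δ) := by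
      rw [ht1]
      have : Real.exp (-(7 / 3)) * ((1 + 2 * -Δ * Real.exp (7 / 3)) / 2)
          = Real.exp (-(7 / 3)) / 2 + (-Δ) * (Real.exp (-(7 / 3)) * Real.exp (7 / 3)) := by ring
      rw [this, h2, mul_one]
    have h6 := Real.exp_pos (-(7 / 3))
    linarith
  have hmem : Δ ∈ Icc (Dfun t1) (Dfun 0) := ⟨hD1, by rw [Dfun_zero]; exact hΔ0⟩
  obtain ⟨t, ⟨ht0, _⟩, htΔ⟩ :=
    intermediate_value_Icc' (by linarith : (0:ℝ) ≤ t1) continuous_Dfun.continuousOn hmem
  rcases ht0.eq_or_lt with rfl | ht0
  · left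
    rw [Dfun_zero] at htΔ
    apply compare hw hF measurable_H_ivt
    · intro x; unfold H; split_ifs <;> norm_num
    · intro x; unfold H; split_ifs <;> norm_num
    · simp
    · simp
    · rw [← hΔ, ← htΔ]; simp
    · constructor
      intro x1 hx1 x3 hx3 x2 hx2
      simp only [mem_ofPred_eq] at hx1 hx3 ⊢
      have h3 : ¬ (0 ≤ x3) := by
        intro h
        unfold H at hx3
        rw [if_pos h] at hx3
        exact absurd (hF.le_one x3) (not_le.mpr hx3)
      have h2 : ¬ (0 ≤ x2) := fun h => h3 (h.trans hx2.2)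
      have h1 : ¬ (0 ≤ x1) := fun h => h2 (h.trans hx2.1)
      unfold H at hx1 ⊢
      rw [if_neg h1] at hx1
      rw [if_neg h2]
      exact hx1.trans_le (hF.mono hx2.1)
  · right
    refine ⟨t, ht0, ?_⟩
    apply compare hw hF (measurable_Ft_ivt t)
    · intro x; unfold Ft; positivity
    · intro x; exact min_le_left _ _
    · exact integrable_Ft_sub_H ht0
    · exact integral_Ft_sub_H ht0
    · rw [integral_Ft_sub_H_mul_om ht0, htΔ]
    · have : {x : ℝ | Ft t x < F x} = {x : ℝ | Real.exp (-1) * Real.exp (1 / t * x) < F x} := by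
        ext x
        simp only [mem_ofPred_eq]
        have he : Real.exp (-1) * Real.exp (1 / t * x) = Real.exp (x / t - 1) := by
          rw [← Real.exp_add]; ring_nf
        rw [he]
        unfold Ft
        constructor
        · intro h
          rcases min_lt_iff.mp h with h | h
          · exact absurd (hF.le_one x) (not_le.mpr h)
          · exact h
        · intro h
          exact (min_le_right _ _).trans_lt h
      rw [this]
      exact hF.ordConn (1 / t) (by positivity) _ (Real.exp_pos _).le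

end Crest.Agent.S0423
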