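import Crest.Agent.S0423_Defs

set_option autoImplicit false

open MeasureTheory Set Real Filter Topology

namespace Crest.Agent.S0423

namespace OneDim

/-! ### Basic one–dimensional integrals -/

/-- antiderivative of `y * exp (-β y)` -/
lemma hasDerivAt_prim (β : ℝ) (hβ : β ≠ 0) (y : ℝ) :
    HasDerivAt (fun y : ℝ => -(Real.exp (-(β * y)) * (y / β + 1 / β ^ 2)))
      (y * Real.exp (-(β * y))) y := by
  have h1 : HasDerivAt (fun y : ℝ => -(β * y)) (-β) y := by
    have := ((hasDerivAt_id y).const_mul β).neg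
    simp only [mul_one] at this
    exact this
  have h2 : HasDerivAt (fun y : ℝ => Real.exp (-(β * y))) (Real.exp (-(β * y)) * (-β)) y :=
    h1.exp
  have h3 : HasDerivAt (fun y : ℝ => y / β + 1 / β ^ 2) (1 / β) y := by
    simpa using ((hasDerivAt_id y).div_const β).add_const (1 / β ^ 2)
  have h4 : HasDerivAt (fun y : ℝ => -(Real.exp (-(β * y)) * (y / β + 1 / β ^ 2)))
      (-(Real.exp (-(β * y)) * (-β) * (y / β + 1 / β ^ 2) + Real.exp (-(β * y)) * (1 / β))) y :=
    (h2.mul h3).neg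
  refine h4.congr_deriv ?_
  have h5 : β * (y / β + 1 / β ^ 2) = y + 1 / β := by field_simp
  linear_combination (Real.exp (-(β * y))) * h5

lemma tendsto_prim (β : ℝ) (hβ : 0 < β) :
    Tendsto (fun y : ℝ => -(Real.exp (-(β * y)) * (y / β + 1 / β ^ 2))) atTop (𝓝 0) := by
  have hlin : Tendsto (fun y : ℝ => β * y) atTop atTop :=
    tendsto_id.const_mul_atTop hβ
  have h1 : Tendsto (fun y : ℝ => (β * y) ^ 1 * Real.exp (-(β * y))) atTop (𝓝 0) :=
    (Real.tendsto_pow_mul_exp_neg_atTop_nhds_zero 1).comp hlin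
  have h0 : Tendsto (fun y : ℝ => (β * y) ^ 0 * Real.exp (-(β * y))) atTop (𝓝 0) :=
    (Real.tendsto_pow_mul_exp_neg_atTop_nhds_zero 0).comp hlin
  have h := ((h1.const_mul (1 / β ^ 2)).add (h0.const_mul (1 / β ^ 2))).neg
  simp only [mul_zero, add_zero, neg_zero] at h
  refine h.congr fun y => ?_
  field_simp

lemma integrableOn_mul_exp (β : ℝ) (hβ : 0 < β) (d : ℝ) (hd : 0 ≤ d) :
    IntegrableOn (fun y : ℝ => y * Real.exp (-(β * y))) (Ioi d) :=
  integrableOn_Ioi_deriv_of_nonneg' (fun y _ => hasDerivAt_prim β hβ.ne' y)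
    (fun _ hy => mul_nonneg (hd.trans (le_of_lt hy)) (Real.exp_pos _).le) (tendsto_prim β hβ)

lemma integral_mul_exp (β : ℝ) (hβ : 0 < β) (d : ℝ) (hd : 0 ≤ d) :
    ∫ y in Ioi d, y * Real.exp (-(β * y)) = Real.exp (-(β * d)) * (d / β + 1 / β ^ 2) := by
  rw [integral_Ioi_of_hasDerivAt_of_nonneg' (fun y _ => hasDerivAt_prim β hβ.ne' y)
    (fun y hy => mul_nonneg (hd.trans (le_of_lt hy)) (Real.exp_pos _).le) (tendsto_prim β hβ)]
  ring

/-- `w (4/3 - y)` is the `Gamma(2)` density. -/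
lemma w_sub (y : ℝ) : w (4 / 3 - y) = (Ioi (0 : ℝ)).indicator (fun y => y * Real.exp (-y)) y := by
  unfold w
  by_cases hy : 0 < y
  · rw [if_pos (by linarith), indicator_of_mem (by exact hy)]
    congr 2 <;> ring
  · rw [if_neg (by linarith), indicator_of_notMem (by exact hy)]

/-- change of variables `y = 4/3 - x`. -/
lemma integral_mul_w (F : ℝ → ℝ) :
    ∫ x, F x * w x = ∫ y in Ioi (0 : ℝ), F (4 / 3 - y) * (y * Real.exp (-y)) := by
  rw [← integral_sub_left_eq_self (fun x => F x * w x) volume (4 / 3 : ℝ),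
    ← integral_indicator measurableSet_Ioi]
  refine integral_congr_ae (Eventually.of_forall fun y => ?_)
  simp only [w_sub]
  by_cases hy : y ∈ Ioi (0 : ℝ)
  · simp [indicator_of_mem hy]
  · simp [indicator_of_notMem hy]


lemma integrableOn_id_mul_exp_neg (d : ℝ) (hd : 0 ≤ d) :
    IntegrableOn (fun y : ℝ => y * Real.exp (-y)) (Ioi d) := by
  simpa using integrableOn_mul_exp 1 one_pos d hd

lemma integral_id_mul_exp_neg (d : ℝ) (hd : 0 ≤ d) :
    ∫ y in Ioi d, y * Real.exp (-y) = Real.exp (-d) * (d + 1) := by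
  simpa using integral_mul_exp 1 one_pos d hd

theorem integrable_w : Integrable w := by
  have h : Integrable ((Ioi (0 : ℝ)).indicator (fun y : ℝ => y * Real.exp (-y))) :=
    (integrable_indicator_iff measurableSet_Ioi).2 (integrableOn_id_mul_exp_neg 0 le_rfl)
  have h2 := h.comp_sub_left (4 / 3 : ℝ)
  refine h2.congr (Eventually.of_forall fun x => ?_)
  simp only [← w_sub]
  congr 1
  ring

theorem integral_w : ∫ x, w x = 1 := by
  have := integral_mul_w (fun _ => 1)
  simp only [one_mul] at this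
  rw [this, integral_id_mul_exp_neg 0 le_rfl]
  simp

lemma continuous_Ft (t : ℝ) : Continuous (Ft t) := by
  unfold Ft
  fun_prop

lemma Ft_nonneg (t x : ℝ) : 0 ≤ Ft t x := le_min zero_le_one (Real.exp_pos _).le

lemma Ft_le_one (t x : ℝ) : Ft t x ≤ 1 := min_le_left _ _

lemma Ft_of_le {t x : ℝ} (ht : 0 < t) (hx : x ≤ t) : Ft t x = Real.exp (x / t - 1) := by
  unfold Ft
  apply min_eq_right
  rw [Real.exp_le_one_iff, sub_nonpos, div_le_one ht]
  exact hx

lemma Ft_of_ge {t x : ℝ} (ht : 0 < t) (hx : t ≤ x) : Ft t x = 1 := by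
  unfold Ft
  apply min_eq_left
  apply Real.one_le_exp
  rw [sub_nonneg, one_le_div ht]
  exact hx

lemma Ft_mul_eq {t : ℝ} (ht : 0 < t) {y : ℝ} (hy : 4 / 3 - t ≤ y) :
    Ft t (4 / 3 - y) * (y * Real.exp (-y))
      = Real.exp (4 / (3 * t) - 1) * (y * Real.exp (-((1 + 1 / t) * y))) := by
  rw [Ft_of_le ht (by linarith)]
  have : Real.exp ((4 / 3 - y) / t - 1) * Real.exp (-y)
      = Real.exp (4 / (3 * t) - 1) * Real.exp (-((1 + 1 / t) * y)) := by
    rw [← Real.exp_add, ← Real.exp_add]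
    congr 1
    field_simp
    ring
  linear_combination y * this

theorem integral_Ft_w_of_ge {t : ℝ} (ht : 4 / 3 ≤ t) :
    ∫ x, Ft t x * w x = Real.exp (4 / (3 * t) - 1) * (t / (1 + t)) ^ 2 := by
  have ht0 : 0 < t := by linarith
  rw [integral_mul_w]
  have : ∀ y ∈ Ioi (0 : ℝ), Ft t (4 / 3 - y) * (y * Real.exp (-y))
      = Real.exp (4 / (3 * t) - 1) * (y * Real.exp (-((1 + 1 / t) * y))) := by
    intro y hy
    exact Ft_mul_eq ht0 (by have := hy.out; linarith)
  rw [setIntegral_congr_fun measurableSet_Ioi this, integral_const_mul,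
    integral_mul_exp (1 + 1 / t) (by positivity) 0 le_rfl]
  simp only [mul_zero, neg_zero, Real.exp_zero, zero_div, zero_add, one_mul]
  congr 1
  field_simp
  ring

lemma setIntegral_Ioi_split {g : ℝ → ℝ} {d : ℝ} (hd : 0 ≤ d) (hg : IntegrableOn g (Ioi 0)) :
    ∫ y in Ioi (0 : ℝ), g y = (∫ y in Ioc 0 d, g y) + ∫ y in Ioi d, g y := by
  rw [← Ioc_union_Ioi_eq_Ioi hd]
  rw [← Ioc_union_Ioi_eq_Ioi hd] at hg
  exact setIntegral_union (Set.disjoint_left.2 fun x hx hx' => not_lt.2 hx.2 hx') measurableSet_Ioi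
    (hg.mono_set subset_union_left) (hg.mono_set subset_union_right)

lemma integral_Ioc_id_mul_exp_neg {d : ℝ} (hd : 0 ≤ d) :
    ∫ y in Ioc 0 d, y * Real.exp (-y) = 1 - Real.exp (-d) * (d + 1) := by
  have h := setIntegral_Ioi_split hd (integrableOn_id_mul_exp_neg 0 le_rfl)
  rw [integral_id_mul_exp_neg 0 le_rfl, integral_id_mul_exp_neg d hd] at h
  simp only [neg_zero, Real.exp_zero, zero_add, mul_one] at h
  linarith

lemma integrableOn_bdd_mul {F : ℝ → ℝ} (hm : Measurable F) (h0 : ∀ x, 0 ≤ F x) (h1 : ∀ x, F x ≤ 1) :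
    IntegrableOn (fun y : ℝ => F (4 / 3 - y) * (y * Real.exp (-y))) (Ioi 0) := by
  refine Integrable.mono' (integrableOn_id_mul_exp_neg 0 le_rfl) ?_ ?_
  · apply Measurable.aestronglyMeasurable
    exact (hm.comp (measurable_const.sub measurable_id)).mul
      (measurable_id.mul (Real.measurable_exp.comp measurable_neg))
  · rw [ae_restrict_iff' measurableSet_Ioi]
    refine Eventually.of_forall fun y hy => ?_
    have hy' : 0 < y := hy
    rw [Real.norm_eq_abs, abs_of_nonneg (mul_nonneg (h0 _) (by positivity))]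
    exact mul_le_of_le_one_left (by positivity) (h1 _)

theorem integral_Ft_w_of_le {t : ℝ} (ht0 : 0 < t) (ht : t ≤ 4 / 3) :
    ∫ x, Ft t x * w x
      = 1 - Real.exp (-(4 / 3 - t)) * ((1 + 2 * t) / (1 + t) ^ 2 + (4 / 3 - t) / (1 + t)) := by
  have hd : 0 ≤ 4 / 3 - t := by linarith
  rw [integral_mul_w, setIntegral_Ioi_split hd
    (integrableOn_bdd_mul (continuous_Ft t).measurable (Ft_nonneg t) (Ft_le_one t))]
  have h1 : ∀ y ∈ Ioc (0 : ℝ) (4 / 3 - t), Ft t (4 / 3 - y) * (y * Real.exp (-y))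
      = y * Real.exp (-y) := by
    intro y hy
    rw [Ft_of_ge ht0 (by have := hy.2; linarith), one_mul]
  have h2 : ∀ y ∈ Ioi (4 / 3 - t), Ft t (4 / 3 - y) * (y * Real.exp (-y))
      = Real.exp (4 / (3 * t) - 1) * (y * Real.exp (-((1 + 1 / t) * y))) := by
    intro y hy
    exact Ft_mul_eq ht0 (le_of_lt hy)
  rw [setIntegral_congr_fun measurableSet_Ioc h1, setIntegral_congr_fun measurableSet_Ioi h2,
    integral_const_mul, integral_mul_exp (1 + 1 / t) (by positivity) _ hd,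
    integral_Ioc_id_mul_exp_neg hd]
  have he : Real.exp (4 / (3 * t) - 1) * Real.exp (-((1 + 1 / t) * (4 / 3 - t)))
      = Real.exp (-(4 / 3 - t)) := by
    rw [← Real.exp_add]
    congr 1
    field_simp
    ring
  rw [← mul_assoc, he]
  field_simp
  ring

lemma measurable_H' : Measurable H := by
  unfold H
  exact Measurable.ite measurableSet_Ici measurable_const measurable_const

theorem integral_H_w : ∫ x, H x * w x = 1 - 7 / 3 * Real.exp (-(4 / 3)) := by
  have hd : (0 : ℝ) ≤ 4 / 3 := by norm_num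
  have hH0 : ∀ x, 0 ≤ H x := fun x => by unfold H; split_ifs <;> norm_num
  have hH1 : ∀ x, H x ≤ 1 := fun x => by unfold H; split_ifs <;> norm_num
  rw [integral_mul_w, setIntegral_Ioi_split hd (integrableOn_bdd_mul measurable_H' hH0 hH1)]
  have h1 : ∀ y ∈ Ioc (0 : ℝ) (4 / 3), H (4 / 3 - y) * (y * Real.exp (-y))
      = y * Real.exp (-y) := by
    intro y hy
    unfold H
    rw [if_pos (by have := hy.2; linarith), one_mul]
  have h2 : ∀ y ∈ Ioi (4 / 3 : ℝ), H (4 / 3 - y) * (y * Real.exp (-y)) = 0 := by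
    intro y hy
    unfold H
    rw [if_neg (by have := hy.out; linarith), zero_mul]
  rw [setIntegral_congr_fun measurableSet_Ioc h1, setIntegral_congr_fun measurableSet_Ioi h2,
    integral_Ioc_id_mul_exp_neg hd]
  simp
  ring


lemma exp_third_le : Real.exp (-(1 / 3)) ≤ 36 / 49 := by
  have h : (49 / 36 : ℝ) ≤ Real.exp (1 / 3) := by
    have := Real.quadratic_le_exp_of_nonneg (x := 1 / 3) (by norm_num)
    linarith
  rw [Real.exp_neg]
  rw [inv_le_comm₀ (Real.exp_pos _) (by norm_num)]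
  linarith

lemma cubic_le_exp {d : ℝ} (hd : 0 ≤ d) : 1 + d + d ^ 2 / 2 + d ^ 3 / 6 ≤ Real.exp d := by
  have := Real.sum_le_exp_of_nonneg hd 4
  simp only [Finset.sum_range_succ, Finset.sum_range_zero, Nat.factorial] at this
  norm_num at this
  linarith

theorem target_le_integral_Ft_w {t : ℝ} (ht0 : 0 < t) :
    4 / 9 * Real.exp (-(1 / 3)) ≤ ∫ x, Ft t x * w x := by
  rcases le_total (4 / 3) t with ht | ht
  · rw [integral_Ft_w_of_ge ht]
    set y : ℝ := 2 / (3 * t) - 1 / 3 with hy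
    have h1 : Real.exp (4 / (3 * t) - 1) = Real.exp (-(1 / 3)) * (Real.exp y) ^ 2 := by
      rw [sq, ← Real.exp_add, ← Real.exp_add]
      congr 1
      rw [hy]
      field_simp
      ring
    have h2 : 1 + y ≤ Real.exp y := by linarith [Real.add_one_le_exp y]
    have h3 : (1 + y) * (t / (1 + t)) = 2 / 3 := by
      rw [hy]
      field_simp
      ring
    have h4 : 0 ≤ t / (1 + t) := by positivity
    have h5 : 2 / 3 ≤ Real.exp y * (t / (1 + t)) := by
      rw [← h3]
      exact mul_le_mul_of_nonneg_right h2 h4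
    have h6 : (4 / 9 : ℝ) ≤ (Real.exp y * (t / (1 + t))) ^ 2 := by nlinarith
    rw [h1]
    have h7 := Real.exp_pos (-(1 / 3))
    calc 4 / 9 * Real.exp (-(1 / 3)) = Real.exp (-(1 / 3)) * (4 / 9) := by ring
      _ ≤ Real.exp (-(1 / 3)) * (Real.exp y * (t / (1 + t))) ^ 2 :=
          mul_le_mul_of_nonneg_left h6 h7.le
      _ = _ := by ring
  · rw [integral_Ft_w_of_le ht0 ht]
    set d : ℝ := 4 / 3 - t with hd
    have hd0 : 0 ≤ d := by rw [hd]; linarith
    have hd1 : d ≤ 4 / 3 := by rw [hd]; linarith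
    have ht' : t = 4 / 3 - d := by rw [hd]; ring
    have hP := cubic_le_exp hd0
    have hPpos : 0 < 1 + d + d ^ 2 / 2 + d ^ 3 / 6 := by positivity
    have hexp : Real.exp (-d) ≤ 1 / (1 + d + d ^ 2 / 2 + d ^ 3 / 6) := by
      rw [Real.exp_neg, one_div]
      exact inv_anti₀ hPpos hP
    have hN : (1 + 2 * t) / (1 + t) ^ 2 + d / (1 + t)
        = (11 / 3 + d / 3 - d ^ 2) / (7 / 3 - d) ^ 2 := by
      rw [ht']
      have : (1 + (4 / 3 - d)) = 7 / 3 - d := by ring
      rw [this]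
      have h73 : (7 / 3 - d) ≠ 0 := by
        have : 0 < 7 / 3 - d := by linarith
        exact this.ne'
      field_simp
      ring
    have h73 : 0 < 7 / 3 - d := by linarith
    have hNnonneg : 0 ≤ (11 / 3 + d / 3 - d ^ 2) / (7 / 3 - d) ^ 2 := by
      apply div_nonneg _ (by positivity)
      nlinarith
    have key : (11 / 3 + d / 3 - d ^ 2) / (7 / 3 - d) ^ 2
        ≤ 33 / 49 * (1 + d + d ^ 2 / 2 + d ^ 3 / 6) := by
      rw [div_le_iff₀ (by positivity)]
      have hq : 0 ≤ d * (28 / 3 + 107 / 6 * d - 253 / 18 * d ^ 2 - 55 / 6 * d ^ 3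
          + 11 / 2 * d ^ 4) := by
        apply mul_nonneg hd0
        nlinarith [mul_nonneg hd0 hd0, mul_nonneg hd0 (sub_nonneg.2 hd1),
          mul_nonneg (mul_nonneg hd0 hd0) (sub_nonneg.2 hd1), sq_nonneg (d ^ 2 - d),
          sq_nonneg (d - 1), sq_nonneg (d ^ 2 - 1)]
      nlinarith [hq]
    have hfin : Real.exp (-d) * ((1 + 2 * t) / (1 + t) ^ 2 + d / (1 + t)) ≤ 33 / 49 := by
      rw [hN]
      calc Real.exp (-d) * ((11 / 3 + d / 3 - d ^ 2) / (7 / 3 - d) ^ 2)
          ≤ 1 / (1 + d + d ^ 2 / 2 + d ^ 3 / 6) * (33 / 49 * (1 + d + d ^ 2 / 2 + d ^ 3 / 6)) :=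
            mul_le_mul hexp key hNnonneg (by positivity)
        _ = 33 / 49 := by field_simp
    have := exp_third_le
    linarith

theorem target_le_integral_H_w : 4 / 9 * Real.exp (-(1 / 3)) ≤ ∫ x, H x * w x := by
  rw [integral_H_w]
  have h1 := exp_third_le
  have h2 : Real.exp (-(4 / 3)) ≤ 1 / (1 + 4 / 3 + (4 / 3) ^ 2 / 2 + (4 / 3) ^ 3 / 6) := by
    rw [Real.exp_neg, one_div]
    exact inv_anti₀ (by positivity) (cubic_le_exp (by norm_num))
  norm_num at h2
  linarith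

end OneDim

/-! ### Interface (package (D) of the blueprint) -/

theorem integrable_w : Integrable w := OneDim.integrable_w
theorem integral_w : ∫ x, w x = 1 := OneDim.integral_w
theorem integral_Ft_w_of_ge {t : ℝ} (ht : 4 / 3 ≤ t) :
    ∫ x, Ft t x * w x = Real.exp (4 / (3 * t) - 1) * (t / (1 + t)) ^ 2 :=
  OneDim.integral_Ft_w_of_ge ht
theorem integral_Ft_w_of_le {t : ℝ} (ht0 : 0 < t) (ht : t ≤ 4 / 3) :
    ∫ x, Ft t x * w x
      = 1 - Real.exp (-(4 / 3 - t)) * ((1 + 2 * t) / (1 + t) ^ 2 + (4 / 3 - t) / (1 + t)) :=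
  OneDim.integral_Ft_w_of_le ht0 ht
theorem integral_H_w : ∫ x, H x * w x = 1 - 7 / 3 * Real.exp (-(4 / 3)) := OneDim.integral_H_w
theorem target_le_integral_Ft_w {t : ℝ} (ht0 : 0 < t) :
    4 / 9 * Real.exp (-(1 / 3)) ≤ ∫ x, Ft t x * w x := OneDim.target_le_integral_Ft_w ht0
theorem target_le_integral_H_w : 4 / 9 * Real.exp (-(1 / 3)) ≤ ∫ x, H x * w x :=
  OneDim.target_le_integral_H_w

end Crest.Agent.S0423
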