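import Crest.Agent.S0423_Defs

set_option autoImplicit false

open MeasureTheory Set Real

namespace Crest.Agent.S0423

namespace OrdConn

lemma integrableOn_exp_aux {a lam : ℝ} (h : lam * a < 1) (A x : ℝ) :
    IntegrableOn (fun t => (A * Real.exp (lam * (x + a * t))) * Real.exp (-t)) (Set.Ioi 0) := by
  have h1 : IntegrableOn (fun t : ℝ => Real.exp ((lam * a - 1) * t)) (Set.Ioi 0) :=
    integrableOn_exp_mul_Ioi (by linarith) 0
  have h2 := h1.const_mul (A * Real.exp (lam * x))
  refine h2.congr (Filter.Eventually.of_forall fun t => ?_)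
  simp only
  rw [mul_assoc, mul_assoc, ← Real.exp_add, ← Real.exp_add]
  congr 2
  ring

theorem E1_exp {a lam : ℝ} (h : lam * a < 1) (A x : ℝ) :
    E1 a (fun z => A * Real.exp (lam * z)) x = A * Real.exp (lam * x) / (1 - lam * a) := by
  unfold E1
  have h0 : lam * a - 1 < 0 := by linarith
  have h1 : ∀ t : ℝ, (A * Real.exp (lam * (x + a * t))) * Real.exp (-t)
      = (A * Real.exp (lam * x)) * Real.exp ((lam * a - 1) * t) := by
    intro t
    rw [mul_assoc, mul_assoc, ← Real.exp_add, ← Real.exp_add]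
    congr 2
    ring
  simp_rw [h1]
  rw [integral_const_mul, integral_exp_mul_Ioi h0 0]
  have h2 : (1 - lam * a) ≠ 0 := by linarith
  have h3 : (lam * a - 1) ≠ 0 := by linarith
  simp only [mul_zero, Real.exp_zero]
  field_simp
  ring

/-- shift of an integral over a half line -/
lemma integral_Ioi_shift (G : ℝ → ℝ) (δ : ℝ) :
    ∫ t in Set.Ioi (0:ℝ), G (t + δ) = ∫ s in Set.Ioi δ, G s := by
  have h := (measurePreserving_add_right (volume : Measure ℝ) δ).setIntegral_preimage_emb
    (measurableEmbedding_addRight δ) G (Set.Ioi δ)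
  simpa using h

/-- memoryless inequality -/
lemma exp_neg_mul_E1_le {a : ℝ} {F : ℝ → ℝ} (hm : Measurable F) (h0 : ∀ x, 0 ≤ F x)
    (h1 : ∀ x, F x ≤ 1) (x δ : ℝ) (hδ : 0 ≤ δ) :
    Real.exp (-δ) * E1 a F (x + a * δ) ≤ E1 a F x := by
  have hC : ∀ y, |F y| ≤ 1 := fun y => by rw [abs_of_nonneg (h0 y)]; exact h1 y
  unfold E1
  rw [← integral_const_mul]
  have e1 : ∀ t : ℝ, Real.exp (-δ) * (F (x + a * δ + a * t) * Real.exp (-t))
      = (fun s => F (x + a * s) * Real.exp (-s)) (t + δ) := by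
    intro t
    simp only
    have : x + a * δ + a * t = x + a * (t + δ) := by ring
    rw [this, neg_add, Real.exp_add]
    ring
  simp_rw [e1]
  rw [integral_Ioi_shift (fun s => F (x + a * s) * Real.exp (-s)) δ]
  refine setIntegral_mono_set (integrable_E1 a hm hC x)
    (Filter.Eventually.of_forall fun t => mul_nonneg (h0 _) (Real.exp_pos _).le) ?_
  exact (Set.Ioi_subset_Ioi hδ).eventuallyLE

lemma E1_nonneg {a : ℝ} {F : ℝ → ℝ} (h0 : ∀ x, 0 ≤ F x) (x : ℝ) : 0 ≤ E1 a F x := by
  unfold E1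
  exact integral_nonneg fun t => mul_nonneg (h0 _) (Real.exp_pos _).le

end OrdConn

open OrdConn in
/-- `ordConn_E1` of the blueprint, with `ordConnected_E1_pos` as a hypothesis. -/
theorem ordConn_E1_of
    (hVD : ∀ (a : ℝ) (u : ℝ → ℝ),
      (∀ y, IntegrableOn (fun t => u (y + a * t) * Real.exp (-t)) (Set.Ioi 0)) →
      Set.OrdConnected {x : ℝ | 0 < u x} → Set.OrdConnected {x : ℝ | 0 < E1 a u x})
    (a : ℝ) {F : ℝ → ℝ} (hm : Measurable F) (h0 : ∀ x, 0 ≤ F x) (h1 : ∀ x, F x ≤ 1)
    (hF : ∀ lam : ℝ, 0 < lam → ∀ A : ℝ, 0 ≤ A →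
      Set.OrdConnected {x : ℝ | A * Real.exp (lam * x) < F x}) :
    ∀ lam : ℝ, 0 < lam → ∀ A : ℝ, 0 ≤ A →
      Set.OrdConnected {x : ℝ | A * Real.exp (lam * x) < E1 a F x} := by
  intro lam hlam A hA
  have hC : ∀ y, |F y| ≤ 1 := fun y => by rw [abs_of_nonneg (h0 y)]; exact h1 y
  by_cases h : lam * a < 1
  · -- reduce to variation diminishing
    have hpos : 0 < 1 - lam * a := by linarith
    set A' : ℝ := A * (1 - lam * a) with hA'
    have hA'0 : 0 ≤ A' := mul_nonneg hA hpos.le
    set u : ℝ → ℝ := fun z => F z - A' * Real.exp (lam * z) with hu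
    have hint : ∀ y, IntegrableOn (fun t => u (y + a * t) * Real.exp (-t)) (Set.Ioi 0) := by
      intro y
      have := (integrable_E1 a hm hC y).sub (integrableOn_exp_aux h A' y)
      refine this.congr (Filter.Eventually.of_forall fun t => ?_)
      simp only [hu, Pi.sub_apply]
      ring
    have hset : {x : ℝ | 0 < u x} = {x : ℝ | A' * Real.exp (lam * x) < F x} := by
      ext x; simp [hu]
    have hconn := hVD a u hint (by rw [hset]; exact hF lam hlam A' hA'0)
    have hE : ∀ x, E1 a u x = E1 a F x - A * Real.exp (lam * x) := by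
      intro x
      have e := OrdConn.E1_exp h A' x
      have : E1 a u x = E1 a F x - E1 a (fun z => A' * Real.exp (lam * z)) x := by
        unfold E1
        rw [← integral_sub (integrable_E1 a hm hC x) (integrableOn_exp_aux h A' x)]
        refine integral_congr_ae (Filter.Eventually.of_forall fun t => ?_)
        simp only [hu]
        ring
      rw [this, e, hA']
      field_simp
    have hset2 : {x : ℝ | A * Real.exp (lam * x) < E1 a F x} = {x : ℝ | 0 < E1 a u x} := by
      ext x; simp [hE]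
    rw [hset2]; exact hconn
  · -- the set is a lower set
    push Not at h
    have ha : 0 < a := by
      by_contra hcon
      push Not at hcon
      have : lam * a ≤ 0 := mul_nonpos_of_nonneg_of_nonpos hlam.le hcon
      linarith
    refine ⟨fun x₁ hx₁ x₂ hx₂ z hz => ?_⟩
    -- `z ≤ x₂`, membership of `x₂` gives membership of `z`
    simp only [Set.mem_ofPred_eq] at hx₂ ⊢
    obtain ⟨_, hz2⟩ := hz
    set δ : ℝ := (x₂ - z) / a with hδ
    have hδ0 : 0 ≤ δ := div_nonneg (by linarith) ha.le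
    have hx : z + a * δ = x₂ := by rw [hδ]; field_simp; ring
    have hml := exp_neg_mul_E1_le (a := a) hm h0 h1 z δ hδ0
    rw [hx] at hml
    -- A e^{lam z} = A e^{lam x₂} e^{-lam (x₂ - z)} ≤ A e^{lam x₂} e^{-δ} < e^{-δ} E1 x₂ ≤ E1 z
    have h3 : δ ≤ lam * (x₂ - z) := by
      rw [hδ, div_le_iff₀ ha]
      have : (x₂ - z) * 1 ≤ (x₂ - z) * (lam * a) :=
        mul_le_mul_of_nonneg_left h (by linarith)
      nlinarith
    have h4 : Real.exp (lam * z) ≤ Real.exp (-δ) * Real.exp (lam * x₂) := by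
      rw [← Real.exp_add]
      apply Real.exp_le_exp.2
      nlinarith
    calc A * Real.exp (lam * z) ≤ A * (Real.exp (-δ) * Real.exp (lam * x₂)) :=
          mul_le_mul_of_nonneg_left h4 hA
      _ = Real.exp (-δ) * (A * Real.exp (lam * x₂)) := by ring
      _ < Real.exp (-δ) * E1 a F x₂ := mul_lt_mul_of_pos_left hx₂ (Real.exp_pos _)
      _ ≤ E1 a F z := hml

end Crest.Agent.S0423
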