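import Crest.Agent.S0423_E1H

set_option autoImplicit false

open MeasureTheory Set Real

namespace Crest.Agent.S0423
namespace VD82

lemma exists_pos_of_setIntegral_pos {s : Set ℝ} (hs : MeasurableSet s) {f : ℝ → ℝ}
    (h : 0 < ∫ x in s, f x) : ∃ x ∈ s, 0 < f x := by
  by_contra hcon
  push Not at hcon
  exact absurd (setIntegral_nonpos hs hcon) (not_le.mpr h)

lemma exists_neg_of_setIntegral_neg {s : Set ℝ} (hs : MeasurableSet s) {f : ℝ → ℝ}
    (h : ∫ x in s, f x < 0) : ∃ x ∈ s, f x < 0 := by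
  by_contra hcon
  push Not at hcon
  exact absurd (setIntegral_nonneg hs hcon) (not_le.mpr h)

lemma memoryless (a : ℝ) {u : ℝ → ℝ} (v : ℝ)
    (hint : IntegrableOn (fun t => u (v + a * t) * Real.exp (-t)) (Set.Ioi 0))
    {x0 : ℝ} (hx0 : 0 ≤ x0) :
    E1 a u v = (∫ t in Ioc 0 x0, u (v + a * t) * Real.exp (-t))
      + Real.exp (-x0) * E1 a u (v + a * x0) := by
  unfold E1
  have hsplit : ∫ t in Ioi 0, u (v + a * t) * Real.exp (-t)
      = (∫ t in Ioc 0 x0, u (v + a * t) * Real.exp (-t))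
        + ∫ t in Ioi x0, u (v + a * t) * Real.exp (-t) := by
    rw [← Ioc_union_Ioi_eq_Ioi hx0] at hint ⊢
    rw [setIntegral_union (Ioc_disjoint_Ioi le_rfl) measurableSet_Ioi hint.left_of_union
      hint.right_of_union]
  rw [hsplit]
  congr 1
  have h := (measurePreserving_add_right (volume : Measure ℝ) x0).setIntegral_preimage_emb
    (measurableEmbedding_addRight x0) (fun t : ℝ => u (v + a * t) * Real.exp (-t)) (Ioi x0)
  have hpre : (fun x => x + x0) ⁻¹' Ioi x0 = Ioi 0 := by
    ext x; simp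
  rw [hpre] at h
  rw [← h, ← integral_const_mul (Real.exp (-x0))]
  refine setIntegral_congr_fun measurableSet_Ioi (fun t _ => ?_)
  rw [neg_add, Real.exp_add]
  have : v + a * (t + x0) = v + a * x0 + a * t := by ring
  rw [this]; ring

lemma ordConnected_pos_of_pos {a : ℝ} (ha : 0 < a) {u : ℝ → ℝ}
    (hint : ∀ y, IntegrableOn (fun t => u (y + a * t) * Real.exp (-t)) (Set.Ioi 0))
    (hu : Set.OrdConnected {x : ℝ | 0 < u x}) : Set.OrdConnected {x : ℝ | 0 < E1 a u x} := by
  constructor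
  intro v1 h1 v3 h3 v2 h2
  obtain ⟨h12, h23⟩ := h2
  simp only [mem_ofPred_eq] at h1 h3 ⊢
  by_contra hcon
  have hU2 : E1 a u v2 ≤ 0 := not_lt.mp hcon
  -- first point
  have hx12 : 0 ≤ (v2 - v1) / a := div_nonneg (by linarith) ha.le
  have e12 : v1 + a * ((v2 - v1) / a) = v2 := by field_simp; ring
  have m1 := memoryless a v1 (hint v1) hx12
  rw [e12] at m1
  have hp1 : 0 < ∫ t in Ioc 0 ((v2 - v1) / a), u (v1 + a * t) * Real.exp (-t) := by
    have : Real.exp (-((v2 - v1) / a)) * E1 a u v2 ≤ 0 :=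
      mul_nonpos_of_nonneg_of_nonpos (Real.exp_pos _).le hU2
    linarith
  obtain ⟨t1, ht1, hut1⟩ := exists_pos_of_setIntegral_pos measurableSet_Ioc hp1
  have hy1 : 0 < u (v1 + a * t1) := by
    by_contra h
    exact absurd (mul_nonpos_of_nonpos_of_nonneg (not_lt.mp h) (Real.exp_pos (-t1)).le)
      (not_le.mpr hut1)
  have hy1le : v1 + a * t1 ≤ v2 := by
    rw [← e12]
    have := mul_le_mul_of_nonneg_left ht1.2 ha.le
    linarith
  -- second point
  have hx23 : 0 ≤ (v3 - v2) / a := div_nonneg (by linarith) ha.le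
  have e23 : v2 + a * ((v3 - v2) / a) = v3 := by field_simp; ring
  have m2 := memoryless a v2 (hint v2) hx23
  rw [e23] at m2
  have hp2 : ∫ t in Ioc 0 ((v3 - v2) / a), u (v2 + a * t) * Real.exp (-t) < 0 := by
    have : 0 < Real.exp (-((v3 - v2) / a)) * E1 a u v3 := mul_pos (Real.exp_pos _) h3
    linarith
  obtain ⟨t2, ht2, hut2⟩ := exists_neg_of_setIntegral_neg measurableSet_Ioc hp2
  have hy2 : u (v2 + a * t2) < 0 := by
    by_contra h
    exact absurd (mul_nonneg (not_lt.mp h) (Real.exp_pos (-t2)).le) (not_le.mpr hut2)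
  have hy2gt : v2 < v2 + a * t2 := by
    have := mul_pos ha ht2.1
    linarith
  have hy2le : v2 + a * t2 ≤ v3 := by
    rw [← e23]
    have := mul_le_mul_of_nonneg_left ht2.2 ha.le
    linarith
  -- third point
  obtain ⟨t3, ht3, hut3⟩ := exists_pos_of_setIntegral_pos measurableSet_Ioi h3
  have hy3 : 0 < u (v3 + a * t3) := by
    by_contra h
    exact absurd (mul_nonpos_of_nonpos_of_nonneg (not_lt.mp h) (Real.exp_pos (-t3)).le)
      (not_le.mpr hut3)
  have hy3gt : v3 < v3 + a * t3 := by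
    have := mul_pos ha (mem_Ioi.mp ht3)
    linarith
  have := hu.out (show v1 + a * t1 ∈ {x : ℝ | 0 < u x} from hy1)
    (show v3 + a * t3 ∈ {x : ℝ | 0 < u x} from hy3)
    (show v2 + a * t2 ∈ Icc (v1 + a * t1) (v3 + a * t3) from ⟨by linarith, by linarith⟩)
  exact absurd this (not_lt.mpr hy2.le)

lemma E1_neg_reflect (a : ℝ) (u : ℝ → ℝ) (v : ℝ) :
    E1 a u v = E1 (-a) (fun x => u (-x)) (-v) := by
  unfold E1
  refine integral_congr_ae (Filter.Eventually.of_forall fun t => ?_)
  simp only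
  have : -(-v + -a * t) = v + a * t := by ring
  rw [this]

end VD82

open VD82 in
theorem ordConnected_E1_pos (a : ℝ) {u : ℝ → ℝ}
    (hint : ∀ y, IntegrableOn (fun t => u (y + a * t) * Real.exp (-t)) (Set.Ioi 0))
    (hu : Set.OrdConnected {x : ℝ | 0 < u x}) : Set.OrdConnected {x : ℝ | 0 < E1 a u x} := by
  rcases lt_trichotomy a 0 with ha | rfl | ha
  · have hu' : Set.OrdConnected {x : ℝ | 0 < (fun x => u (-x)) x} :=
      hu.preimage_anti (f := fun x : ℝ => -x) (fun x y h => neg_le_neg h)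
    have hint' : ∀ y, IntegrableOn (fun t => (fun x => u (-x)) (y + -a * t) * Real.exp (-t))
        (Set.Ioi 0) := by
      intro y
      have := hint (-y)
      refine this.congr_fun (fun t _ => ?_) measurableSet_Ioi
      simp only
      have : -(y + -a * t) = -y + a * t := by ring
      rw [this]
    have h := ordConnected_pos_of_pos (neg_pos.mpr ha) hint' hu'
    have h2 := h.preimage_anti (f := fun x : ℝ => -x) (fun x y h => neg_le_neg h)
    have : {x : ℝ | 0 < E1 a u x} = (fun x : ℝ => -x) ⁻¹' {x : ℝ | 0 < E1 (-a) (fun x => u (-x)) x} := by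
      ext x
      simp only [mem_ofPred_eq, mem_preimage]
      rw [E1_neg_reflect]
    rw [this]; exact h2
  · rw [E1_zero]; exact hu
  · exact ordConnected_pos_of_pos ha hint hu


end Crest.Agent.S0423
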