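import Crest.Statements.S0423
-- import your own Crest.Agent.* helpers here
import Crest.Agent.S0423_IVT
import Crest.Agent.S0423_Dual
import Crest.Agent.S0423_Lower
import Crest.Agent.S0423_Good
import Crest.Agent.S0423_OrdConn
import Crest.Agent.S0423_VDpos
import Crest.Agent.S0423_OneDim

set_option autoImplicit false
open Crest Crest.AlgGeometry

namespace Crest.Agent.S0423

open MeasureTheory in
theorem good_E1 (m : ℝ) (F : ℝ → ℝ) (a : ℝ) (hF : Good m F) : Good (m + a) (E1 a F) :=
  good_E1_of m F a hF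
    (ordConn_E1_of (fun a _ h1 h2 => ordConnected_E1_pos a h1 h2) a hF.mono.measurable hF.nonneg
      hF.le_one hF.ordConn)

open MeasureTheory in
theorem main_ineq (F : ℝ → ℝ) (hF : Good 0 F) :
    4 / 9 * Real.exp (-(1 / 3)) ≤ ∫ x, F x * w x := by
  rcases exists_comparison' integrable_w F hF with h | ⟨t, ht, h⟩
  · exact target_le_integral_H_w.trans h
  · exact (target_le_integral_Ft_w ht).trans h

theorem first_conjunct (N : ℕ) (a : Fin N → ℝ) (h : ∑ i, a i = 0) :
    Real.exp (4 / 3) / (4 / 3) * EN N a (fun y => Crest.AlgGeometry.truncExpWeight (4 / 3 + y))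
      ≤ 3 / 4 * Real.exp (4 / 3) - Real.exp 1 / 3 := by
  have hG : Good (0 + ∑ i, a i) (fun x => EN N a (fun y => H (x + y))) :=
    EN_class (P := Good) (fun m F hF => ⟨hF.mono.measurable, 1, fun y => by
      rw [abs_le]; exact ⟨by linarith [hF.nonneg y], hF.le_one y⟩⟩) good_E1 N a 0 H good_H
  rw [h, add_zero] at hG
  have := main_ineq _ hG
  rw [EN_trunc]
  have e1 : Real.exp (4/3) * Real.exp (-(1/3)) = Real.exp 1 := by
    rw [← Real.exp_add]; norm_num
  have hpos := Real.exp_pos (4/3)
  nlinarith [mul_le_mul_of_nonneg_left this hpos.le]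

/-- For independent mean-one exponential random variables `X_1, …, X_N` (written as an integral over the positive orthant against the density `exp (-(x_1 + ⋯ + x_N))`), real coefficients `a_1, …, a_N` summing to zero, and the weight `g = truncExpWeight`, the quantity `(e^{4/3} / (4/3)) · E[g(4/3 + a_1 X_1 + ⋯ + a_N X_N)]` has supremum over all `N ≥ 1` and all such `a` exactly `(3/4) e^{4/3} − e/3`: it never exceeds this value, and comes within any `ε > 0` of it for some `N` and `a`. -/
theorem result :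
    (∀ (N : ℕ) (a : Fin N → ℝ), 1 ≤ N → ∑ i, a i = 0 →
      Real.exp (4 / 3) / (4 / 3) *
          ∫ x in Set.pi Set.univ (fun _ : Fin N => Set.Ioi (0 : ℝ)),
            Crest.AlgGeometry.truncExpWeight (4 / 3 + ∑ i, a i * x i) * Real.exp (-∑ i, x i)
        ≤ 3 / 4 * Real.exp (4 / 3) - Real.exp 1 / 3) ∧
    (∀ ε : ℝ, 0 < ε → ∃ (N : ℕ) (a : Fin N → ℝ), 1 ≤ N ∧ ∑ i, a i = 0 ∧
      3 / 4 * Real.exp (4 / 3) - Real.exp 1 / 3 - ε <
        Real.exp (4 / 3) / (4 / 3) *
          ∫ x in Set.pi Set.univ (fun _ : Fin N => Set.Ioi (0 : ℝ)),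
            Crest.AlgGeometry.truncExpWeight (4 / 3 + ∑ i, a i * x i) * Real.exp (-∑ i, x i)) := by
  exact ⟨fun N a _ h => first_conjunct N a h, second_conjunct_raw⟩

end Crest.Agent.S0423
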