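import Crest.Agent.S0423_Sign

set_option autoImplicit false

open MeasureTheory Set Real

namespace Crest.Agent.S0423

lemma om_aesm : AEStronglyMeasurable om volume := om_continuous.aestronglyMeasurable

lemma om_norm_le (x : ℝ) : ‖om x‖ ≤ 1 := by
  rw [Real.norm_eq_abs, abs_of_pos (om_pos x)]; exact om_le_one x

lemma integrable_mul_om {f : ℝ → ℝ} (hf : Integrable f) : Integrable (fun x => f x * om x) :=
  hf.mul_bdd (c := 1) om_aesm (Filter.Eventually.of_forall om_norm_le)

lemma integrable_bdd_mul_w (hw : Integrable w) {f : ℝ → ℝ} (hm : Measurable f) (h0 : ∀ x, 0 ≤ f x)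
    (h1 : ∀ x, f x ≤ 1) : Integrable (fun x => f x * w x) :=
  hw.bdd_mul (c := 1) hm.aestronglyMeasurable (Filter.Eventually.of_forall fun x => by
    rw [Real.norm_eq_abs, abs_of_nonneg (h0 x)]; exact h1 x)

/-- **Comparison lemma.** -/
lemma compare (hw : Integrable w) {F G : ℝ → ℝ} (hF : Good 0 F) (hGm : Measurable G)
    (hG0 : ∀ x, 0 ≤ G x) (hG1 : ∀ x, G x ≤ 1)
    (hGi : Integrable (fun x => G x - H x)) (hG : ∫ x, (G x - H x) = 0)
    (hom : ∫ x, (G x - H x) * om x = ∫ x, (F x - H x) * om x)
    (hS : OrdConnected {x : ℝ | G x < F x}) : ∫ x, G x * w x ≤ ∫ x, F x * w x := by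
  set u : ℝ → ℝ := fun x => F x - G x with hu
  have hu_eq : u = fun x => (F x - H x) - (G x - H x) := by funext x; simp [u]
  have hui : Integrable u := by rw [hu_eq]; exact hF.integrable.sub hGi
  have hu0 : ∫ x, u x = 0 := by
    rw [hu_eq, integral_sub hF.integrable hGi, hF.integral_eq, hG]; simp
  have hFo := integrable_mul_om hF.integrable
  have hGo := integrable_mul_om hGi
  have huo : Integrable (fun x => u x * om x) := integrable_mul_om hui
  have huo0 : ∫ x, u x * om x = 0 := by
    have : (fun x => u x * om x) = fun x => (F x - H x) * om x - (G x - H x) * om x := by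
      funext x; simp only [u]; ring
    rw [this, integral_sub hFo hGo, hom]; simp
  have hFw := integrable_bdd_mul_w hw hF.mono.measurable hF.nonneg hF.le_one
  have hGw := integrable_bdd_mul_w hw hGm hG0 hG1
  have huw : Integrable (fun x => u x * w x) := by
    have : (fun x => u x * w x) = fun x => F x * w x - G x * w x := by
      funext x; simp only [u]; ring
    rw [this]; exact hFw.sub hGw
  have huw' : ∫ x, u x * w x = (∫ x, F x * w x) - ∫ x, G x * w x := by
    have : (fun x => u x * w x) = fun x => F x * w x - G x * w x := by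
      funext x; simp only [u]; ring
    rw [this, integral_sub hFw hGw]
  have hS' : OrdConnected {x : ℝ | 0 < u x} := by
    have : {x : ℝ | 0 < u x} = {x : ℝ | G x < F x} := by
      ext x; simp [u]
    rw [this]; exact hS
  obtain ⟨al, be, hsign⟩ := chord_sign hS'
  have hint : 0 ≤ ∫ x, u x * (w x - al - be * om x) := integral_nonneg hsign
  have hsplit : ∫ x, u x * (w x - al - be * om x)
      = (∫ x, u x * w x) - al * (∫ x, u x) - be * ∫ x, u x * om x := by
    have : (fun x => u x * (w x - al - be * om x))
        = fun x => u x * w x - al * u x - be * (u x * om x) := by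
      funext x; ring
    rw [this, integral_sub (f := fun x => u x * w x - al * u x) (huw.sub (hui.const_mul al))
      (huo.const_mul be),
      integral_sub huw (hui.const_mul al), integral_const_mul, integral_const_mul]
  rw [hsplit, hu0, huo0, huw'] at hint
  linarith

end Crest.Agent.S0423
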