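import Crest.Agent.S0423_Defs

set_option autoImplicit false
open MeasureTheory Set Filter Topology

/-! Part (D) of S0423 (helper23): explicit integrals of the comparison family against the weight
and the one-dimensional minimisation.  Everything lives in the sub-namespace `H23`. -/

namespace Crest.Agent.S0423.H23
lemma Ft_continuous (t : ℝ) : Continuous (Ft t) := by
  unfold Ft; fun_prop

lemma Ft_le_one (t x : ℝ) : Ft t x ≤ 1 := min_le_left _ _
lemma Ft_nonneg (t x : ℝ) : 0 ≤ Ft t x := le_min zero_le_one (Real.exp_pos _).le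

lemma Ft_of_le {t x : ℝ} (ht : 0 < t) (hx : x ≤ t) : Ft t x = Real.exp (x / t - 1) := by
  unfold Ft
  apply min_eq_right
  apply Real.exp_le_one_iff.2
  have : x / t ≤ 1 := (div_le_one ht).2 hx
  linarith

lemma Ft_of_ge {t x : ℝ} (ht : 0 < t) (hx : t ≤ x) : Ft t x = 1 := by
  unfold Ft
  apply min_eq_left
  apply Real.one_le_exp_iff.2
  have : 1 ≤ x / t := (one_le_div ht).2 hx
  linarith



lemma u_anti {y y' : ℝ} (h1 : 1 ≤ y') (h : y' ≤ y) :
    y * Real.exp (-y) ≤ y' * Real.exp (-y') := by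
  have e1 : Real.exp (-y') = Real.exp (y - y') * Real.exp (-y) := by
    rw [← Real.exp_add]; congr 1; ring
  rw [e1, ← mul_assoc]
  apply mul_le_mul_of_nonneg_right _ (Real.exp_pos _).le
  have h2 : (y - y') + 1 ≤ Real.exp (y - y') := Real.add_one_le_exp _
  nlinarith

lemma u_mono {y y' : ℝ} (h0 : 0 ≤ y') (h : y' ≤ y) (h1 : y ≤ 1) :
    y' * Real.exp (-y') ≤ y * Real.exp (-y) := by
  have e1 : Real.exp (-y) = Real.exp (-(y - y')) * Real.exp (-y') := by
    rw [← Real.exp_add]; congr 1; ring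
  rw [e1, ← mul_assoc]
  apply mul_le_mul_of_nonneg_right _ (Real.exp_pos _).le
  have h2 : -(y - y') + 1 ≤ Real.exp (-(y - y')) := Real.add_one_le_exp _
  nlinarith

lemma u_le_one (y : ℝ) : y * Real.exp (-y) ≤ 1 := by
  have h2 : y + 1 ≤ Real.exp y := Real.add_one_le_exp _
  have h3 : Real.exp y * Real.exp (-y) = 1 := by rw [← Real.exp_add]; simp
  nlinarith [Real.exp_pos (-y)]


lemma w_measurable : Measurable w := by
  unfold w
  exact Measurable.ite measurableSet_Iio (by fun_prop) measurable_const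

lemma w_nonneg (x : ℝ) : 0 ≤ w x := by
  unfold w
  split_ifs with h
  · exact mul_nonneg (by linarith) (Real.exp_pos _).le
  · exact le_rfl

lemma w_le_one (x : ℝ) : w x ≤ 1 := by
  unfold w
  split_ifs with h
  · exact u_le_one _
  · exact zero_le_one

lemma w_mono_left {x x' : ℝ} (h : x ≤ x') (h' : x' ≤ 1/3) : w x ≤ w x' := by
  unfold w
  rw [if_pos (by linarith), if_pos (by linarith)]
  exact u_anti (by linarith) (by linarith)

lemma w_anti_right {x x' : ℝ} (h : 1/3 ≤ x) (h' : x ≤ x') : w x' ≤ w x := by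
  by_cases hx' : x' < 4/3
  · unfold w
    rw [if_pos hx', if_pos (by linarith)]
    exact u_mono (by linarith) (by linarith) (by linarith)
  · have : w x' = 0 := by unfold w; rw [if_neg hx']
    rw [this]; exact w_nonneg x

lemma integral_w_conv (G : ℝ → ℝ) :
    ∫ y in Ioi (0:ℝ), G (4/3 - y) * (y * Real.exp (-y)) = ∫ x, G x * w x := by
  rw [← integral_indicator measurableSet_Ioi,
    ← integral_sub_left_eq_self (fun x => G x * w x) volume (4/3)]
  congr 1
  funext y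
  by_cases hy : 0 < y
  · have : (4/3 : ℝ) - y < 4/3 := by linarith
    simp [w, hy, this]
  · have : ¬ ((4/3 : ℝ) - y < 4/3) := by linarith
    simp [w, hy, this]


/-- antiderivative computation: `∫_a^∞ y e^{-m y} dy`. -/
lemma mul_exp_Ioi {m a : ℝ} (hm : 0 < m) (ha : 0 ≤ a) :
    IntegrableOn (fun y => y * Real.exp (-(m * y))) (Ioi a) ∧
      ∫ y in Ioi a, y * Real.exp (-(m * y)) = (a / m + 1 / m ^ 2) * Real.exp (-(m * a)) := by
  set A : ℝ → ℝ := fun y => -((y / m + 1 / m ^ 2) * Real.exp (-(m * y))) with hA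
  have hderiv : ∀ y : ℝ, HasDerivAt A (y * Real.exp (-(m * y))) y := by
    intro y
    have h1 : HasDerivAt (fun y : ℝ => y / m + 1 / m ^ 2) (1 / m) y :=
      ((hasDerivAt_id y).div_const m).add_const _
    have h2 : HasDerivAt (fun y : ℝ => Real.exp (-(m * y))) (Real.exp (-(m * y)) * (-(m * 1))) y :=
      (((hasDerivAt_id y).const_mul m).neg).exp
    have h3 := (h1.mul h2).neg
    have h4 : HasDerivAt A
      (-(1 / m * Real.exp (-(m * y)) + (y / m + 1 / m ^ 2) * (Real.exp (-(m * y)) * -(m * 1)))) y := h3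
    refine h4.congr_deriv ?_
    field_simp
    ring
  have htend : Tendsto A atTop (𝓝 0) := by
    have hmy : Tendsto (fun y : ℝ => m * y) atTop atTop := tendsto_id.const_mul_atTop hm
    have t1 : Tendsto (fun y : ℝ => (m * y) ^ 1 * Real.exp (-(m * y))) atTop (𝓝 0) :=
      (Real.tendsto_pow_mul_exp_neg_atTop_nhds_zero 1).comp hmy
    have t0 : Tendsto (fun y : ℝ => (m * y) ^ 0 * Real.exp (-(m * y))) atTop (𝓝 0) :=
      (Real.tendsto_pow_mul_exp_neg_atTop_nhds_zero 0).comp hmy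
    have t2 := ((t1.const_mul (1 / m ^ 2)).add (t0.const_mul (1 / m ^ 2))).neg
    simp only [mul_zero, add_zero, neg_zero] at t2
    refine t2.congr (fun y => ?_)
    simp only [hA]
    field_simp
  have hnn : ∀ y ∈ Ioi a, 0 ≤ y * Real.exp (-(m * y)) := fun y hy =>
    mul_nonneg (le_trans ha (le_of_lt hy)) (Real.exp_pos _).le
  refine ⟨integrableOn_Ioi_deriv_of_nonneg (hderiv a).continuousAt.continuousWithinAt
    (fun y _ => hderiv y) hnn htend, ?_⟩
  rw [integral_Ioi_of_hasDerivAt_of_nonneg (hderiv a).continuousAt.continuousWithinAt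
    (fun y _ => hderiv y) hnn htend]
  simp [hA]

lemma w_eq (x : ℝ) : w x = (Ioi (0:ℝ)).indicator (fun y => y * Real.exp (-y)) (4/3 - x) := by
  by_cases hx : x < 4/3
  · have : (4/3 - x) ∈ Ioi (0:ℝ) := by simp only [mem_Ioi]; linarith
    rw [indicator_of_mem this]; simp [w, hx]
  · have : (4/3 - x) ∉ Ioi (0:ℝ) := by simp only [mem_Ioi]; linarith
    rw [indicator_of_notMem this]; simp [w, hx]

lemma w_integrable : Integrable w := by
  have h := (mul_exp_Ioi (m := 1) (a := 0) one_pos le_rfl).1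
  simp only [one_mul] at h
  have h2 : Integrable ((Ioi (0:ℝ)).indicator (fun y => y * Real.exp (-y))) :=
    (integrable_indicator_iff measurableSet_Ioi).2 h
  have h3 := h2.comp_sub_left (4/3)
  exact h3.congr (Eventually.of_forall fun x => (w_eq x).symm)


lemma J_large {t : ℝ} (ht : 4/3 ≤ t) :
    ∫ y in Ioi (0:ℝ), Ft t (4/3 - y) * (y * Real.exp (-y))
      = Real.exp ((4/3) / t - 1) * (1 / (1 + 1 / t) ^ 2) := by
  have ht0 : 0 < t := by linarith
  have hm : 0 < 1 + 1 / t := by positivity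
  have h := (mul_exp_Ioi hm (le_refl (0:ℝ))).2
  have e : ∀ y ∈ Ioi (0:ℝ), Ft t (4/3 - y) * (y * Real.exp (-y))
      = Real.exp ((4/3) / t - 1) * (y * Real.exp (-((1 + 1 / t) * y))) := by
    intro y hy
    have hy' : (0:ℝ) < y := hy
    rw [Ft_of_le ht0 (by linarith)]
    have : Real.exp ((4/3 - y) / t - 1) * Real.exp (-y)
        = Real.exp ((4/3) / t - 1) * Real.exp (-((1 + 1 / t) * y)) := by
      rw [← Real.exp_add, ← Real.exp_add]
      congr 1
      field_simp
      ring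
    calc Real.exp ((4/3 - y) / t - 1) * (y * Real.exp (-y))
        = y * (Real.exp ((4/3 - y) / t - 1) * Real.exp (-y)) := by ring
      _ = _ := by rw [this]; ring
  rw [setIntegral_congr_fun measurableSet_Ioi e, integral_const_mul, h]
  simp

lemma J_large_bound {t : ℝ} (ht : 4/3 ≤ t) :
    4 / 9 * Real.exp (-(1/3)) ≤ Real.exp ((4/3) / t - 1) * (1 / (1 + 1 / t) ^ 2) := by
  have ht0 : 0 < t := by linarith
  set r : ℝ := 1 / t with hr
  have hr0 : 0 < r := by positivity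
  have e0 : (4/3 : ℝ) / t = 4/3 * r := by rw [hr]; ring
  rw [e0]
  set z : ℝ := 2/3 * (1 + r) with hz
  have hz0 : 0 < z := by positivity
  have h1 : z ≤ Real.exp (z - 1) := by
    have := Real.add_one_le_exp (z - 1); linarith
  have h2 : z ^ 2 ≤ Real.exp (z - 1) ^ 2 := pow_le_pow_left₀ hz0.le h1 2
  have h3 : Real.exp (z - 1) ^ 2 = Real.exp (4/3 * r - 1) * Real.exp (1/3) := by
    rw [← Real.exp_add, sq, ← Real.exp_add]
    congr 1
    rw [hz]; ring
  have h4 : Real.exp (1/3) * Real.exp (-(1/3)) = 1 := by rw [← Real.exp_add]; simp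
  have h5 : (1 + r) ^ 2 * (4 / 9) = z ^ 2 := by rw [hz]; ring
  rw [mul_one_div, le_div_iff₀ (by positivity)]
  calc 4 / 9 * Real.exp (-(1/3)) * (1 + r) ^ 2 = z ^ 2 * Real.exp (-(1/3)) := by rw [← h5]; ring
    _ ≤ (Real.exp (4/3 * r - 1) * Real.exp (1/3)) * Real.exp (-(1/3)) := by
        rw [← h3]; exact mul_le_mul_of_nonneg_right h2 (Real.exp_pos _).le
    _ = Real.exp (4/3 * r - 1) := by rw [mul_assoc, h4, mul_one]

lemma J_small {t : ℝ} (ht0 : 0 < t) (ht : t ≤ 4/3) :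
    ∫ y in Ioi (0:ℝ), Ft t (4/3 - y) * (y * Real.exp (-y))
      = 1 - Real.exp (-(4/3 - t)) *
        (1 + (4/3 - t) - (4/3 - t) / (1 + 1 / t) - 1 / (1 + 1 / t) ^ 2) := by
  set δ : ℝ := 4/3 - t with hδ
  have hδ0 : 0 ≤ δ := by rw [hδ]; linarith
  have hm : 0 < 1 + 1 / t := by positivity
  obtain ⟨i0, v0⟩ := mul_exp_Ioi (m := 1) one_pos (le_refl (0:ℝ))
  obtain ⟨i1, v1⟩ := mul_exp_Ioi (m := 1) one_pos hδ0
  obtain ⟨i2, v2⟩ := mul_exp_Ioi hm hδ0
  simp only [one_mul] at i0 v0 i1 v1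
  -- on (0, δ]
  have e1 : ∀ y ∈ Ioc (0:ℝ) δ, Ft t (4/3 - y) * (y * Real.exp (-y)) = y * Real.exp (-y) := by
    intro y hy
    rw [Ft_of_ge ht0 (by have := hy.2; rw [hδ] at this; linarith), one_mul]
  have e2 : ∀ y ∈ Ioi δ, Ft t (4/3 - y) * (y * Real.exp (-y))
      = Real.exp (δ / t) * (y * Real.exp (-((1 + 1 / t) * y))) := by
    intro y hy
    have hy' : δ < y := hy
    rw [Ft_of_le ht0 (by rw [hδ] at hy'; linarith)]
    have : Real.exp ((4/3 - y) / t - 1) * Real.exp (-y)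
        = Real.exp (δ / t) * Real.exp (-((1 + 1 / t) * y)) := by
      rw [← Real.exp_add, ← Real.exp_add]
      congr 1
      rw [hδ]
      field_simp
      ring
    calc Real.exp ((4/3 - y) / t - 1) * (y * Real.exp (-y))
        = y * (Real.exp ((4/3 - y) / t - 1) * Real.exp (-y)) := by ring
      _ = _ := by rw [this]; ring
  have iA : IntegrableOn (fun y => Ft t (4/3 - y) * (y * Real.exp (-y))) (Ioc 0 δ) :=
    (i0.mono_set Ioc_subset_Ioi_self).congr_fun (fun y hy => (e1 y hy).symm) measurableSet_Ioc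
  have iB : IntegrableOn (fun y => Ft t (4/3 - y) * (y * Real.exp (-y))) (Ioi δ) := by
    have i2' : IntegrableOn (fun y => Real.exp (δ / t) * (y * Real.exp (-((1 + 1 / t) * y))))
      (Ioi δ) := i2.const_mul (Real.exp (δ / t))
    exact i2'.congr_fun (fun y hy => (e2 y hy).symm) measurableSet_Ioi
  rw [← Ioc_union_Ioi_eq_Ioi hδ0,
    setIntegral_union (Ioc_disjoint_Ioi le_rfl) measurableSet_Ioi iA iB,
    setIntegral_congr_fun measurableSet_Ioc e1, setIntegral_congr_fun measurableSet_Ioi e2,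
    integral_const_mul, v2]
  have s1 : ∫ y in Ioc (0:ℝ) δ, y * Real.exp (-y) = 1 - (δ + 1) * Real.exp (-δ) := by
    have := setIntegral_union (Ioc_disjoint_Ioi (le_refl δ)) measurableSet_Ioi
      (i0.mono_set (show Ioc (0:ℝ) δ ⊆ Ioi 0 from Ioc_subset_Ioi_self)) i1
    rw [Ioc_union_Ioi_eq_Ioi hδ0, v0, v1] at this
    simp at this
    linarith
  rw [s1]
  have s2 : Real.exp (δ / t) * Real.exp (-((1 + 1 / t) * δ)) = Real.exp (-δ) := by
    rw [← Real.exp_add]
    congr 1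
    field_simp
    ring
  calc 1 - (δ + 1) * Real.exp (-δ)
        + Real.exp (δ / t) * ((δ / (1 + 1 / t) + 1 / (1 + 1 / t) ^ 2) * Real.exp (-((1 + 1 / t) * δ)))
      = 1 - (δ + 1) * Real.exp (-δ) + (δ / (1 + 1 / t) + 1 / (1 + 1 / t) ^ 2)
          * (Real.exp (δ / t) * Real.exp (-((1 + 1 / t) * δ))) := by ring
    _ = _ := by rw [s2]; ring


lemma exp_third_bound : 4 / 9 * Real.exp (-(1/3)) ≤ 8 / 25 := by
  have h1 : (25:ℝ)/18 ≤ Real.exp (1/3) := by
    have := Real.quadratic_le_exp_of_nonneg (x := 1/3) (by norm_num)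
    norm_num at this ⊢
    linarith
  have h4 : Real.exp (1/3) * Real.exp (-(1/3)) = 1 := by rw [← Real.exp_add]; simp
  nlinarith [Real.exp_pos (-(1/3))]

lemma J_small_bound {t : ℝ} (ht1 : 1/3 ≤ t) (ht : t ≤ 4/3) :
    4 / 9 * Real.exp (-(1/3)) ≤ 1 - Real.exp (-(4/3 - t)) *
        (1 + (4/3 - t) - (4/3 - t) / (1 + 1 / t) - 1 / (1 + 1 / t) ^ 2) := by
  have ht0 : 0 < t := by linarith
  set d : ℝ := 4/3 - t with hd
  have hd0 : 0 ≤ d := by rw [hd]; linarith
  have hd1 : d ≤ 1 := by rw [hd]; linarith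
  have htd : t = 4/3 - d := by rw [hd]; ring
  have hq : 1 + 1 / t = (t + 1) / t := by field_simp
  have hQ : 1 + d - d / (1 + 1 / t) - 1 / (1 + 1 / t) ^ 2
      = (2 * t + 1 + d * (t + 1)) / (t + 1) ^ 2 := by
    rw [hq]; field_simp; ring
  have hpoly : 2 * t + 1 + d * (t + 1) ≤ 17/25 * (1 + d + d^2/2) * (t + 1)^2 := by
    rw [htd]
    nlinarith [mul_nonneg hd0 (sub_nonneg.2 hd1), mul_nonneg (mul_nonneg hd0 (sub_nonneg.2 hd1)) hd0,
      mul_nonneg (mul_nonneg hd0 (sub_nonneg.2 hd1)) (sub_nonneg.2 hd1), sq_nonneg (d - 1/2),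
      sq_nonneg (d*(1-d))]
  have hE : 1 + d + d^2/2 ≤ Real.exp d := Real.quadratic_le_exp_of_nonneg hd0
  have hQ2 : (2 * t + 1 + d * (t + 1)) / (t + 1) ^ 2 ≤ 17/25 * Real.exp d := by
    rw [div_le_iff₀ (by positivity)]
    have : 17/25 * (1 + d + d^2/2) * (t + 1)^2 ≤ 17/25 * Real.exp d * (t + 1)^2 := by
      apply mul_le_mul_of_nonneg_right _ (by positivity)
      linarith
    linarith
  have h4 : Real.exp (-d) * Real.exp d = 1 := by rw [← Real.exp_add]; simp
  have h5 : Real.exp (-d) * ((2 * t + 1 + d * (t + 1)) / (t + 1) ^ 2) ≤ 17/25 := by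
    calc Real.exp (-d) * ((2 * t + 1 + d * (t + 1)) / (t + 1) ^ 2)
        ≤ Real.exp (-d) * (17/25 * Real.exp d) := mul_le_mul_of_nonneg_left hQ2 (Real.exp_pos _).le
      _ = 17/25 * (Real.exp (-d) * Real.exp d) := by ring
      _ = 17/25 := by rw [h4, mul_one]
  rw [hQ]
  have := exp_third_bound
  linarith

lemma Ft_J_bound {t : ℝ} (ht : 1/3 ≤ t) : 4 / 9 * Real.exp (-(1/3)) ≤ ∫ x, Ft t x * w x := by
  rw [← integral_w_conv]
  rcases le_total t (4/3) with h | h
  · rw [J_small (by linarith) h]; exact J_small_bound ht h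
  · rw [J_large h]; exact J_large_bound h


lemma cubic_le_exp {x : ℝ} (hx : 0 ≤ x) : 1 + x + x^2/2 + x^3/6 ≤ Real.exp x := by
  have := Real.sum_le_exp_of_nonneg hx 4
  simp [Finset.sum_range_succ, Nat.factorial] at this
  linarith

lemma J_small_bound' {t : ℝ} (ht0 : 0 < t) (ht : t ≤ 1/3) :
    4 / 9 * Real.exp (-(1/3)) ≤ 1 - Real.exp (-(4/3 - t)) *
        (1 + (4/3 - t) - (4/3 - t) / (1 + 1 / t) - 1 / (1 + 1 / t) ^ 2) := by
  set d : ℝ := 4/3 - t with hd
  have hd0 : 1 ≤ d := by rw [hd]; linarith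
  have hd1 : d ≤ 4/3 := by rw [hd]; linarith
  have htd : t = 4/3 - d := by rw [hd]; ring
  have hq : 1 + 1 / t = (t + 1) / t := by field_simp
  have hQ : 1 + d - d / (1 + 1 / t) - 1 / (1 + 1 / t) ^ 2
      = (2 * t + 1 + d * (t + 1)) / (t + 1) ^ 2 := by
    rw [hq]; field_simp; ring
  have hpoly : 2 * t + 1 + d * (t + 1) ≤ 17/25 * (1 + d + d^2/2 + d^3/6) * (t + 1)^2 := by
    rw [htd]
    nlinarith [mul_nonneg (sub_nonneg.2 hd0) (sub_nonneg.2 hd1),
      mul_nonneg (mul_nonneg (sub_nonneg.2 hd0) (sub_nonneg.2 hd1)) (sub_nonneg.2 hd0),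
      mul_nonneg (mul_nonneg (sub_nonneg.2 hd0) (sub_nonneg.2 hd1)) (sub_nonneg.2 hd1),
      sq_nonneg (d - 7/6), sq_nonneg ((d-1)*(4/3-d)),
      mul_nonneg (mul_nonneg (mul_nonneg (sub_nonneg.2 hd0) (sub_nonneg.2 hd1)) (sub_nonneg.2 hd1))
        (sub_nonneg.2 hd0)]
  have hE : 1 + d + d^2/2 + d^3/6 ≤ Real.exp d := cubic_le_exp (by linarith)
  have hQ2 : (2 * t + 1 + d * (t + 1)) / (t + 1) ^ 2 ≤ 17/25 * Real.exp d := by
    rw [div_le_iff₀ (by positivity)]
    have : 17/25 * (1 + d + d^2/2 + d^3/6) * (t + 1)^2 ≤ 17/25 * Real.exp d * (t + 1)^2 := by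
      apply mul_le_mul_of_nonneg_right _ (by positivity)
      linarith
    linarith
  have h4 : Real.exp (-d) * Real.exp d = 1 := by rw [← Real.exp_add]; simp
  have h5 : Real.exp (-d) * ((2 * t + 1 + d * (t + 1)) / (t + 1) ^ 2) ≤ 17/25 := by
    calc Real.exp (-d) * ((2 * t + 1 + d * (t + 1)) / (t + 1) ^ 2)
        ≤ Real.exp (-d) * (17/25 * Real.exp d) := mul_le_mul_of_nonneg_left hQ2 (Real.exp_pos _).le
      _ = 17/25 * (Real.exp (-d) * Real.exp d) := by ring
      _ = 17/25 := by rw [h4, mul_one]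
  rw [hQ]
  have := exp_third_bound
  linarith

/-- blueprint (D): `integrable_w`. -/
theorem integrable_w : Integrable w := w_integrable

/-- blueprint (D): `target_le_integral_Ft_w`. -/
theorem target_le_integral_Ft_w {t : ℝ} (ht0 : 0 < t) :
    4 / 9 * Real.exp (-(1 / 3)) ≤ ∫ x, Ft t x * w x := by
  rcases le_total t (1/3) with h | h
  · rw [← integral_w_conv, J_small ht0 (by linarith)]; exact J_small_bound' ht0 h
  · exact Ft_J_bound h

/-- blueprint (D): `integral_H_w`. -/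
theorem integral_H_w : ∫ x, H x * w x = 1 - 7 / 3 * Real.exp (-(4 / 3)) := by
  rw [← integral_w_conv]
  obtain ⟨i0, v0⟩ := mul_exp_Ioi (m := 1) one_pos (le_refl (0:ℝ))
  obtain ⟨i1, v1⟩ := mul_exp_Ioi (m := 1) (a := 4/3) one_pos (by norm_num)
  simp only [one_mul] at i0 v0 i1 v1
  have e1 : ∀ y ∈ Ioc (0:ℝ) (4/3), H (4/3 - y) * (y * Real.exp (-y)) = y * Real.exp (-y) := by
    intro y hy
    have : (0:ℝ) ≤ 4/3 - y := by linarith [hy.2]
    simp [H, this]
  have e2 : ∀ y ∈ Ioi (4/3 : ℝ), H (4/3 - y) * (y * Real.exp (-y)) = 0 := by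
    intro y hy
    have hy' : (4/3 : ℝ) < y := hy
    have : ¬ ((0:ℝ) ≤ 4/3 - y) := by linarith
    simp [H, this]
  have iA : IntegrableOn (fun y => H (4/3 - y) * (y * Real.exp (-y))) (Ioc 0 (4/3)) :=
    (i0.mono_set Ioc_subset_Ioi_self).congr_fun (fun y hy => (e1 y hy).symm) measurableSet_Ioc
  have iB : IntegrableOn (fun y => H (4/3 - y) * (y * Real.exp (-y))) (Ioi (4/3)) :=
    (integrableOn_zero).congr_fun (fun y hy => (e2 y hy).symm) measurableSet_Ioi
  rw [← Ioc_union_Ioi_eq_Ioi (show (0:ℝ) ≤ 4/3 by norm_num),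
    setIntegral_union (Ioc_disjoint_Ioi le_rfl) measurableSet_Ioi iA iB,
    setIntegral_congr_fun measurableSet_Ioc e1, setIntegral_congr_fun measurableSet_Ioi e2]
  have := setIntegral_union (Ioc_disjoint_Ioi (le_refl (4/3 : ℝ))) measurableSet_Ioi
      (i0.mono_set (show Ioc (0:ℝ) (4/3) ⊆ Ioi 0 from Ioc_subset_Ioi_self)) i1
  rw [Ioc_union_Ioi_eq_Ioi (show (0:ℝ) ≤ 4/3 by norm_num), v0, v1] at this
  simp at this ⊢
  linarith

/-- blueprint (D): `target_le_integral_H_w`. -/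
theorem target_le_integral_H_w : 4 / 9 * Real.exp (-(1 / 3)) ≤ ∫ x, H x * w x := by
  rw [integral_H_w]
  have h1 := cubic_le_exp (x := 4/3) (by norm_num)
  have h4 : Real.exp (-(4/3)) * Real.exp (4/3) = 1 := by rw [← Real.exp_add]; simp
  have h5 := exp_third_bound
  have h6 : (0:ℝ) < Real.exp (-(4/3)) := Real.exp_pos _
  norm_num at h1
  nlinarith

end Crest.Agent.S0423.H23
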