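import Crest.Agent.S0423_Peel

set_option autoImplicit false

open MeasureTheory Set Real

namespace Crest.Agent.S0423

/-- Heaviside function, the CDF of the point mass at `0`. -/
noncomputable def H (x : ℝ) : ℝ := if 0 ≤ x then 1 else 0

/-- The weight `w(x) = (c-x) e^{-(c-x)}` for `x < c = 4/3`, `0` otherwise
(density of `c - Gamma(2)`). -/
noncomputable def w (x : ℝ) : ℝ := if x < 4 / 3 then (4 / 3 - x) * Real.exp (-(4 / 3 - x)) else 0

/-- Comparison family: the CDF of `t (1 - X)`, `X` exponential (`t > 0`). -/
noncomputable def Ft (t x : ℝ) : ℝ := min 1 (Real.exp (x / t - 1))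

/-- The invariant class: CDF-like functions of "mean `-m`" all of whose super-level sets
with respect to increasing exponentials are intervals (a derivative-free form of log-concavity). -/
structure Good (m : ℝ) (F : ℝ → ℝ) : Prop where
  mono : Monotone F
  nonneg : ∀ x, 0 ≤ F x
  le_one : ∀ x, F x ≤ 1
  integrable : Integrable (fun x => F x - H x)
  integral_eq : ∫ x, (F x - H x) = m
  ordConn : ∀ lam : ℝ, 0 < lam → ∀ A : ℝ, 0 ≤ A →
    Set.OrdConnected {x : ℝ | A * Real.exp (lam * x) < F x}

end Crest.Agent.S0423
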