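import Crest.Agent.S0423_Defs

set_option autoImplicit false

open MeasureTheory Set Real

namespace Crest.Agent.S0423

/-- `om x = min 1 (e^{x - c})`; the weight `w` is the concave function `negMulLog` of `om`. -/
noncomputable def om (x : ℝ) : ℝ := min 1 (Real.exp (x - 4 / 3))

lemma om_pos (x : ℝ) : 0 < om x := lt_min one_pos (Real.exp_pos _)

lemma om_le_one (x : ℝ) : om x ≤ 1 := min_le_left _ _

lemma om_mono : Monotone om := by
  intro x y hxy
  unfold om
  exact min_le_min le_rfl (Real.exp_le_exp.mpr (by linarith))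

lemma om_continuous : Continuous om := by
  unfold om
  fun_prop

lemma om_of_le {x : ℝ} (hx : x ≤ 4 / 3) : om x = Real.exp (x - 4 / 3) := by
  unfold om
  apply min_eq_right
  rw [← Real.exp_zero]
  exact Real.exp_le_exp.mpr (by linarith)

lemma om_of_ge {x : ℝ} (hx : 4 / 3 ≤ x) : om x = 1 := by
  unfold om
  apply min_eq_left
  rw [← Real.exp_zero]
  exact Real.exp_le_exp.mpr (by linarith)

lemma w_eq_negMulLog_om (x : ℝ) : w x = Real.negMulLog (om x) := by
  unfold w
  split_ifs with h
  · rw [om_of_le h.le, Real.negMulLog, Real.log_exp]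
    have : -(4 / 3 - x) = x - 4 / 3 := by ring
    rw [this]; ring
  · rw [om_of_ge (not_lt.mp h)]; simp

/-- three point inequality for `negMulLog`. -/
lemma negMulLog_three {x y z : ℝ} (hx : 0 ≤ x) (hxy : x < y) (hyz : y < z) :
    (negMulLog z - negMulLog y) * (y - x) ≤ (negMulLog y - negMulLog x) * (z - y) := by
  have h := Real.concaveOn_negMulLog.slope_anti_adjacent (x := x) (y := y) (z := z)
    (mem_Ici.mpr hx) (mem_Ici.mpr (by linarith)) hxy hyz
  rwa [div_le_div_iff₀ (by linarith) (by linarith)] at h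

lemma negMulLog_le_tangent {x0 y : ℝ} (hx0 : 0 < x0) (hy : 0 ≤ y) :
    negMulLog y ≤ x0 - (Real.log x0 + 1) * y := by
  rcases hy.eq_or_lt with rfl | hy
  · simp [hx0.le]
  · have h := Real.log_le_sub_one_of_pos (div_pos hx0 hy)
    rw [Real.log_div hx0.ne' hy.ne'] at h
    have h2 := mul_le_mul_of_nonneg_left h hy.le
    have h3 : y * (x0 / y - 1) = x0 - y := by field_simp
    rw [h3] at h2
    unfold negMulLog
    nlinarith

/-- **Sign lemma.** If the positivity set of `u` is an interval there is a combination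
`w - al - be * om` having the same sign as `u` everywhere. -/
lemma chord_sign {u : ℝ → ℝ} (hu : OrdConnected {x : ℝ | 0 < u x}) :
    ∃ al be : ℝ, ∀ x, 0 ≤ u x * (w x - al - be * om x) := by
  by_cases hS : {x : ℝ | 0 < u x}.Nonempty
  swap
  · refine ⟨1, -(Real.log 1 + 1), fun x => ?_⟩
    have hux : u x ≤ 0 := by
      by_contra h
      exact hS ⟨x, not_le.mp h⟩
    have := negMulLog_le_tangent (x0 := 1) one_pos (om_pos x).le
    rw [w_eq_negMulLog_om]
    apply mul_nonneg_of_nonpos_of_nonpos hux
    linarith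
  set S : Set ℝ := {x : ℝ | 0 < u x} with hSdef
  set P : Set ℝ := om '' S with hP
  have hPne : P.Nonempty := hS.image _
  have hPb : BddBelow P := ⟨0, by rintro _ ⟨x, _, rfl⟩; exact (om_pos x).le⟩
  have hPa : BddAbove P := ⟨1, by rintro _ ⟨x, _, rfl⟩; exact om_le_one x⟩
  set xp := sInf P with hxp
  set xq := sSup P with hxq
  have hp_le : ∀ x ∈ S, xp ≤ om x := fun x hx => csInf_le hPb ⟨x, hx, rfl⟩
  have hle_q : ∀ x ∈ S, om x ≤ xq := fun x hx => le_csSup hPa ⟨x, hx, rfl⟩
  have hxp0 : 0 ≤ xp := le_csInf hPne (by rintro _ ⟨x, _, rfl⟩; exact (om_pos x).le)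
  have hout : ∀ x, x ∉ S → om x ≤ xp ∨ xq ≤ om x := by
    intro x hx
    by_contra hcon
    push Not at hcon
    obtain ⟨h1, h2⟩ := hcon
    obtain ⟨_, ⟨s1, hs1, rfl⟩, hs1'⟩ := exists_lt_of_csInf_lt hPne h1
    obtain ⟨_, ⟨s2, hs2, rfl⟩, hs2'⟩ := exists_lt_of_lt_csSup hPne h2
    have h3 : s1 ≤ x := by
      by_contra h; exact absurd (om_mono (not_le.mp h).le) (not_le.mpr hs1')
    have h4 : x ≤ s2 := by
      by_contra h; exact absurd (om_mono (not_le.mp h).le) (not_le.mpr hs2')
    exact hx (hu.out hs1 hs2 ⟨h3, h4⟩)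
  obtain ⟨s0, hs0⟩ := hS
  have hpq : xp ≤ xq := (hp_le s0 hs0).trans (hle_q s0 hs0)
  rcases hpq.eq_or_lt with heq | hlt
  · -- degenerate: tangent
    have hx0 : 0 < xp := by
      have : om s0 = xp := le_antisymm (heq ▸ hle_q s0 hs0) (hp_le s0 hs0)
      rw [← this]; exact om_pos s0
    refine ⟨xp, -(Real.log xp + 1), fun x => ?_⟩
    rw [w_eq_negMulLog_om]
    by_cases hx : x ∈ S
    · have : om x = xp := le_antisymm (heq ▸ hle_q x hx) (hp_le x hx)
      rw [this]
      have : negMulLog xp - xp - -(Real.log xp + 1) * xp = 0 := by unfold negMulLog; ring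
      rw [this, mul_zero]
    · have hux : u x ≤ 0 := not_lt.mp hx
      have := negMulLog_le_tangent hx0 (om_pos x).le
      apply mul_nonneg_of_nonpos_of_nonpos hux
      linarith
  · -- chord
    set be := (negMulLog xq - negMulLog xp) / (xq - xp) with hbe
    have hd : 0 < xq - xp := by linarith
    have hbe' : be * (xq - xp) = negMulLog xq - negMulLog xp := by
      rw [hbe]; field_simp
    refine ⟨negMulLog xp - be * xp, be, fun x => ?_⟩
    rw [w_eq_negMulLog_om]
    set y := om x with hy
    have hy0 : 0 < y := om_pos x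
    -- sign of (xq - xp) * theta
    have key : negMulLog y - (negMulLog xp - be * xp) - be * y
        = ((negMulLog y - negMulLog xp) * (xq - xp) - (negMulLog xq - negMulLog xp) * (y - xp))
            / (xq - xp) := by
      rw [← hbe']; field_simp; ring
    by_cases hx : x ∈ S
    · have h1 : xp ≤ y := hp_le x hx
      have h2 : y ≤ xq := hle_q x hx
      apply mul_nonneg (le_of_lt hx)
      rw [key]
      apply div_nonneg _ hd.le
      rcases h1.eq_or_lt with h1 | h1
      · rw [← h1]; simp
      rcases h2.eq_or_lt with h2 | h2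
      · rw [h2]; linarith
      have := negMulLog_three hxp0 h1 h2
      nlinarith
    · have hux : u x ≤ 0 := not_lt.mp hx
      apply mul_nonneg_of_nonpos_of_nonpos hux
      rw [key]
      apply div_nonpos_of_nonpos_of_nonneg _ hd.le
      have hout' : y ≤ xp ∨ xq ≤ y := hout x hx
      rcases hout' with h1 | h1
      · rcases h1.eq_or_lt with h1 | h1
        · rw [h1]; simp
        have := negMulLog_three hy0.le h1 hlt
        nlinarith
      · rcases h1.eq_or_lt with h1 | h1
        · rw [← h1]; linarith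
        have := negMulLog_three hxp0 hlt h1
        nlinarith

end Crest.Agent.S0423
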