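import Crest.Agent.S0423_VDpos

set_option autoImplicit false

open MeasureTheory Set Real

namespace Crest.Agent.S0423

namespace VD

lemma integrableOn_exp_part {a lam : ℝ} (h : lam * a < 1) (A x : ℝ) :
    IntegrableOn (fun t => (A * Real.exp (lam * (x + a * t))) * Real.exp (-t)) (Set.Ioi 0) := by
  have h1 : IntegrableOn (fun t : ℝ => Real.exp ((lam * a - 1) * t)) (Set.Ioi 0) :=
    integrableOn_exp_mul_Ioi (by linarith) 0
  have h2 := h1.const_mul (A * Real.exp (lam * x))
  refine h2.congr (Filter.Eventually.of_forall fun t => ?_)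
  simp only
  rw [mul_assoc, mul_assoc, ← Real.exp_add, ← Real.exp_add]
  congr 2
  ring

end VD

theorem E1_exp {a lam : ℝ} (h : lam * a < 1) (A x : ℝ) :
    E1 a (fun z => A * Real.exp (lam * z)) x = A * Real.exp (lam * x) / (1 - lam * a) := by
  unfold E1
  have h1 : ∫ t in Set.Ioi (0:ℝ), Real.exp ((lam * a - 1) * t) = 1 / (1 - lam * a) := by
    rw [integral_exp_mul_Ioi (by linarith) 0]
    simp only [mul_zero, Real.exp_zero]
    have hne : lam * a - 1 ≠ 0 := by linarith
    have hne' : 1 - lam * a ≠ 0 := by linarith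
    field_simp
    ring
  have h2 : ∀ t : ℝ, (A * Real.exp (lam * (x + a * t))) * Real.exp (-t)
      = (A * Real.exp (lam * x)) * Real.exp ((lam * a - 1) * t) := by
    intro t
    rw [mul_assoc, mul_assoc, ← Real.exp_add, ← Real.exp_add]
    congr 2
    ring
  simp_rw [h2]
  rw [integral_const_mul, h1]
  ring

theorem ordConn_E1 (a : ℝ) {F : ℝ → ℝ} (hm : Measurable F) (h0 : ∀ x, 0 ≤ F x) (h1 : ∀ x, F x ≤ 1)
    (hF : ∀ lam : ℝ, 0 < lam → ∀ A : ℝ, 0 ≤ A → Set.OrdConnected {x : ℝ | A * Real.exp (lam * x) < F x}) :
    ∀ lam : ℝ, 0 < lam → ∀ A : ℝ, 0 ≤ A → Set.OrdConnected {x : ℝ | A * Real.exp (lam * x) < E1 a F x} := by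
  intro lam hlam A hA
  have habs : ∀ y, |F y| ≤ 1 := fun y => by
    rw [abs_le]; exact ⟨by linarith [h0 y], h1 y⟩
  have hFint := integrable_E1 a hm habs
  rcases lt_or_ge (lam * a) 1 with h | h
  · -- variation diminishing case
    have hpos : 0 < 1 - lam * a := by linarith
    set A' : ℝ := A * (1 - lam * a) with hA'
    have hA'0 : 0 ≤ A' := mul_nonneg hA hpos.le
    set u : ℝ → ℝ := fun z => F z - A' * Real.exp (lam * z) with hu
    have hint : ∀ y, IntegrableOn (fun t => u (y + a * t) * Real.exp (-t)) (Set.Ioi 0) := by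
      intro y
      have := (hFint y).sub (VD.integrableOn_exp_part h A' y)
      refine this.congr (Filter.Eventually.of_forall fun t => ?_)
      simp only [hu, Pi.sub_apply]
      ring
    have hE : ∀ x, E1 a u x = E1 a F x - A * Real.exp (lam * x) := by
      intro x
      have e1 : E1 a u x = E1 a F x - E1 a (fun z => A' * Real.exp (lam * z)) x := by
        unfold E1
        rw [← integral_sub (hFint x) (VD.integrableOn_exp_part h A' x)]
        refine integral_congr_ae (Filter.Eventually.of_forall fun t => ?_)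
        simp only [hu]
        ring
      rw [e1, E1_exp h, hA']
      field_simp
    have hset : {x : ℝ | 0 < u x} = {x : ℝ | A' * Real.exp (lam * x) < F x} := by
      ext x
      simp only [hu, Set.mem_ofPred_eq, sub_pos]
    have hoc := ordConnected_E1_pos a hint (by rw [hset]; exact hF lam hlam A' hA'0)
    have hset2 : {x : ℝ | A * Real.exp (lam * x) < E1 a F x} = {x : ℝ | 0 < E1 a u x} := by
      ext x
      simp only [Set.mem_ofPred_eq, hE, sub_pos]
    rw [hset2]
    exact hoc
  · -- lower set case
    have ha : 0 < a := by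
      by_contra hc
      push Not at hc
      have : lam * a ≤ 0 := mul_nonpos_of_nonneg_of_nonpos hlam.le hc
      linarith
    constructor
    intro x _ y hy z hz
    simp only [Set.mem_ofPred_eq] at hy ⊢
    have hzy : z ≤ y := hz.2
    have hx0 : 0 ≤ (y - z) / a := div_nonneg (by linarith) ha.le
    have hmem := VD82.memoryless a z (hFint z) hx0
    have e0 : z + a * ((y - z) / a) = y := by
      rw [mul_div_cancel₀ _ ha.ne']; ring
    rw [e0] at hmem
    have hnn : 0 ≤ ∫ t in Set.Ioc 0 ((y - z) / a), F (z + a * t) * Real.exp (-t) :=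
      setIntegral_nonneg measurableSet_Ioc fun t _ => mul_nonneg (h0 _) (Real.exp_pos _).le
    have hexp := Real.exp_pos (-((y - z) / a))
    have h3 : Real.exp (-((y - z) / a)) * (A * Real.exp (lam * y))
        < Real.exp (-((y - z) / a)) * E1 a F y := mul_lt_mul_of_pos_left hy hexp
    have h4 : A * Real.exp (lam * z) ≤ Real.exp (-((y - z) / a)) * (A * Real.exp (lam * y)) := by
      have : Real.exp (-((y - z) / a)) * (A * Real.exp (lam * y))
          = A * Real.exp (-((y - z) / a) + lam * y) := by
        rw [Real.exp_add]; ring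
      rw [this]
      apply mul_le_mul_of_nonneg_left _ hA
      apply Real.exp_le_exp.mpr
      have h5 : (y - z) / a ≤ lam * (y - z) := by
        rw [div_le_iff₀ ha]
        nlinarith
      linarith
    linarith

end Crest.Agent.S0423
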