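import Mathlib
import Crest.Prelude.Def_SwitchChain

/-!
# S0453, package MIX: from a Poincare inequality to total variation mixing

Abstract part: a symmetric, lazy, stochastic matrix `K` on a finite type which leaves a finite
set `Ω` invariant and satisfies a Poincare inequality with constant `c` on `Ω` contracts the
(unnormalised) variance by `1 - 1/c` in every step.
-/

namespace Crest.Agent.S0453Mix

open Finset

set_option linter.unusedSectionVars false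

variable {α : Type*} [Fintype α] [DecidableEq α]

/-- unnormalised variance on `Ω`. -/
noncomputable def V (Ω : Finset α) (f : α → ℝ) : ℝ :=
  (∑ x ∈ Ω, f x ^ 2) - (∑ x ∈ Ω, f x) ^ 2 / (Ω.card : ℝ)

/-- action of `K` restricted to `Ω`. -/
noncomputable def act (K : Matrix α α ℝ) (Ω : Finset α) (f : α → ℝ) : α → ℝ :=
  fun x => ∑ y ∈ Ω, K x y * f y

/-- weighted Jensen inequality for the square. -/
theorem sq_sum_le {ι : Type*} (s : Finset ι) (w a : ι → ℝ) (hw : ∀ i ∈ s, 0 ≤ w i)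
    (h1 : ∑ i ∈ s, w i = 1) :
    (∑ i ∈ s, w i * a i) ^ 2 ≤ ∑ i ∈ s, w i * a i ^ 2 := by
  obtain ⟨m, hm⟩ : ∃ m, m = ∑ i ∈ s, w i * a i := ⟨_, rfl⟩
  have h0 : 0 ≤ ∑ i ∈ s, w i * (a i - m) ^ 2 :=
    Finset.sum_nonneg fun i hi => mul_nonneg (hw i hi) (sq_nonneg _)
  have h2 : ∑ i ∈ s, w i * (a i - m) ^ 2
      = (∑ i ∈ s, w i * a i ^ 2) - 2 * m * (∑ i ∈ s, w i * a i) + m ^ 2 * ∑ i ∈ s, w i := by
    rw [Finset.mul_sum, Finset.mul_sum, ← Finset.sum_sub_distrib, ← Finset.sum_add_distrib]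
    refine Finset.sum_congr rfl fun i _ => ?_
    ring
  rw [h2, h1, ← hm] at h0
  rw [← hm]
  nlinarith

structure Good (K : Matrix α α ℝ) (Ω : Finset α) : Prop where
  symm : ∀ x y, K x y = K y x
  nonneg : ∀ x y, 0 ≤ K x y
  row : ∀ x ∈ Ω, ∑ y ∈ Ω, K x y = 1
  inv : ∀ x ∈ Ω, ∀ y, y ∉ Ω → K x y = 0
  lazy : ∀ x, 1 / 2 ≤ K x x

variable {K : Matrix α α ℝ} {Ω : Finset α}

theorem sum_act (h : Good K Ω) (f : α → ℝ) :
    ∑ x ∈ Ω, act K Ω f x = ∑ x ∈ Ω, f x := by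
  unfold act
  rw [Finset.sum_comm]
  refine Finset.sum_congr rfl fun y hy => ?_
  rw [← Finset.sum_mul]
  have : ∑ x ∈ Ω, K x y = 1 := by
    rw [← h.row y hy]
    exact Finset.sum_congr rfl fun x _ => h.symm x y
  rw [this, one_mul]

/-- the non-lazy part `P = 2 K - 1`. -/
noncomputable def P (K : Matrix α α ℝ) : α → α → ℝ :=
  fun x y => 2 * K x y - if x = y then 1 else 0

theorem P_nonneg (h : Good K Ω) (x y : α) : 0 ≤ P K x y := by
  unfold P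
  split_ifs with hxy
  · subst hxy; have := h.lazy x; linarith
  · have := h.nonneg x y; linarith

theorem P_row (h : Good K Ω) (x : α) (hx : x ∈ Ω) : ∑ y ∈ Ω, P K x y = 1 := by
  unfold P
  rw [Finset.sum_sub_distrib, ← Finset.mul_sum, h.row x hx, Finset.sum_ite_eq, if_pos hx]
  norm_num

theorem P_symm (h : Good K Ω) (x y : α) : P K x y = P K y x := by
  unfold P
  rw [h.symm x y]
  by_cases hxy : x = y
  · subst hxy; rfl
  · rw [if_neg hxy, if_neg (Ne.symm hxy)]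

theorem act_eq (x : α) (hx : x ∈ Ω) (f : α → ℝ) :
    act K Ω f x = (f x + ∑ y ∈ Ω, P K x y * f y) / 2 := by
  unfold act P
  have : ∑ y ∈ Ω, (2 * K x y - if x = y then 1 else 0) * f y
      = 2 * ∑ y ∈ Ω, K x y * f y - ∑ y ∈ Ω, (if x = y then f y else 0) := by
    rw [Finset.mul_sum, ← Finset.sum_sub_distrib]
    refine Finset.sum_congr rfl fun y _ => ?_
    split_ifs <;> ring
  rw [this, Finset.sum_ite_eq, if_pos hx]
  ring

theorem sum_P_sq_le (h : Good K Ω) (f : α → ℝ) :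
    ∑ x ∈ Ω, (∑ y ∈ Ω, P K x y * f y) ^ 2 ≤ ∑ x ∈ Ω, f x ^ 2 := by
  calc ∑ x ∈ Ω, (∑ y ∈ Ω, P K x y * f y) ^ 2
      ≤ ∑ x ∈ Ω, ∑ y ∈ Ω, P K x y * f y ^ 2 :=
        Finset.sum_le_sum fun x hx =>
          sq_sum_le Ω (P K x) f (fun y _ => P_nonneg h x y) (P_row h x hx)
    _ = ∑ y ∈ Ω, f y ^ 2 := by
        rw [Finset.sum_comm]
        refine Finset.sum_congr rfl fun y hy => ?_
        rw [← Finset.sum_mul]
        have : ∑ x ∈ Ω, P K x y = 1 := by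
          rw [← P_row h y hy]
          exact Finset.sum_congr rfl fun x _ => P_symm h x y
        rw [this, one_mul]

/-- key inequality for lazy chains: `⟨Kf,Kf⟩ ≤ ⟨f,Kf⟩`. -/
theorem sum_act_sq_le (h : Good K Ω) (f : α → ℝ) :
    ∑ x ∈ Ω, act K Ω f x ^ 2 ≤ ∑ x ∈ Ω, f x * act K Ω f x := by
  have h1 := sum_P_sq_le h f
  have e1 : ∑ x ∈ Ω, act K Ω f x ^ 2
      = (∑ x ∈ Ω, f x ^ 2 + 2 * ∑ x ∈ Ω, f x * (∑ y ∈ Ω, P K x y * f y)
          + ∑ x ∈ Ω, (∑ y ∈ Ω, P K x y * f y) ^ 2) / 4 := by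
    rw [Finset.mul_sum, ← Finset.sum_add_distrib, ← Finset.sum_add_distrib, Finset.sum_div]
    refine Finset.sum_congr rfl fun x hx => ?_
    rw [act_eq x hx]; ring
  have e2 : ∑ x ∈ Ω, f x * act K Ω f x
      = (∑ x ∈ Ω, f x ^ 2 + ∑ x ∈ Ω, f x * (∑ y ∈ Ω, P K x y * f y)) / 2 := by
    rw [← Finset.sum_add_distrib, Finset.sum_div]
    refine Finset.sum_congr rfl fun x hx => ?_
    rw [act_eq x hx]; ring
  rw [e1, e2]
  linarith

/-- The Poincare inequality in the shape of statement S0453. -/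
def Poincare (K : Matrix α α ℝ) (Ω : Finset α) (c : ℝ) : Prop :=
  ∀ f : α → ℝ, (Ω.card : ℝ) * (∑ x ∈ Ω, f x ^ 2) - (∑ x ∈ Ω, f x) ^ 2 ≤
    c * (Ω.card : ℝ) * ∑ x ∈ Ω, f x * (f x - ∑ y ∈ Ω, K x y * f y)

theorem V_act_le (h : Good K Ω) (hΩ : Ω.Nonempty) {c : ℝ} (hc : 0 < c) (hP : Poincare K Ω c)
    (f : α → ℝ) : V Ω (act K Ω f) ≤ (1 - 1 / c) * V Ω f := by
  have hN : (0 : ℝ) < Ω.card := by exact_mod_cast hΩ.card_pos
  have h1 := sum_act_sq_le h f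
  have h2 := hP f
  have h3 : ∑ x ∈ Ω, f x * (f x - ∑ y ∈ Ω, K x y * f y)
      = ∑ x ∈ Ω, f x ^ 2 - ∑ x ∈ Ω, f x * act K Ω f x := by
    rw [← Finset.sum_sub_distrib]
    refine Finset.sum_congr rfl fun x _ => ?_
    unfold act; ring
  have h4 : V Ω f ≤ c * (∑ x ∈ Ω, f x ^ 2 - ∑ x ∈ Ω, f x * act K Ω f x) := by
    rw [h3] at h2
    have e : V Ω f * (Ω.card : ℝ)
        = (Ω.card : ℝ) * (∑ x ∈ Ω, f x ^ 2) - (∑ x ∈ Ω, f x) ^ 2 := by
      unfold V; field_simp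
    have : V Ω f * (Ω.card : ℝ)
        ≤ (c * (∑ x ∈ Ω, f x ^ 2 - ∑ x ∈ Ω, f x * act K Ω f x)) * (Ω.card : ℝ) := by
      rw [e]; linarith
    exact le_of_mul_le_mul_right this hN
  have h5 : V Ω (act K Ω f) ≤ V Ω f - (∑ x ∈ Ω, f x ^ 2 - ∑ x ∈ Ω, f x * act K Ω f x) := by
    unfold V
    rw [sum_act h f]
    linarith
  have h6 : V Ω f / c ≤ ∑ x ∈ Ω, f x ^ 2 - ∑ x ∈ Ω, f x * act K Ω f x := by
    rw [div_le_iff₀ hc]; linarith
  have : (1 - 1 / c) * V Ω f = V Ω f - V Ω f / c := by ring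
  rw [this]
  linarith

theorem pow_outside (h : Good K Ω) (x : α) (hx : x ∈ Ω) (t : ℕ) :
    ∀ y, y ∉ Ω → (K ^ t) x y = 0 := by
  induction t with
  | zero =>
    intro y hy
    rw [pow_zero, Matrix.one_apply, if_neg]
    rintro rfl; exact hy hx
  | succ t ih =>
    intro y hy
    rw [pow_succ, Matrix.mul_apply]
    refine Finset.sum_eq_zero fun z _ => ?_
    by_cases hz : z ∈ Ω
    · rw [h.inv z hz y hy, mul_zero]
    · rw [ih z hz, zero_mul]

theorem pow_succ_row (h : Good K Ω) (x : α) (hx : x ∈ Ω) (t : ℕ) (y : α) :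
    (K ^ (t + 1)) x y = act K Ω (fun z => (K ^ t) x z) y := by
  rw [pow_succ, Matrix.mul_apply]
  unfold act
  symm
  rw [← Finset.sum_subset (Finset.subset_univ Ω)]
  · exact Finset.sum_congr rfl fun z _ => by rw [h.symm y z, mul_comm]
  · intro z _ hz
    rw [pow_outside h x hx t z hz, zero_mul]

theorem sum_pow_row (h : Good K Ω) (x : α) (hx : x ∈ Ω) (t : ℕ) :
    ∑ y ∈ Ω, (K ^ t) x y = 1 := by
  induction t with
  | zero =>
    simp only [pow_zero, Matrix.one_apply]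
    rw [Finset.sum_ite_eq, if_pos hx]
  | succ t ih =>
    rw [← ih, ← sum_act h (fun z => (K ^ t) x z)]
    exact Finset.sum_congr rfl fun y _ => pow_succ_row h x hx t y

theorem V_pow_row (h : Good K Ω) (hΩ : Ω.Nonempty) {c : ℝ} (hc : 1 ≤ c) (hP : Poincare K Ω c)
    (x : α) (hx : x ∈ Ω) (t : ℕ) :
    V Ω (fun y => (K ^ t) x y) ≤ (1 - 1 / c) ^ t := by
  have hc0 : 0 < c := by linarith
  have hq : 0 ≤ 1 - 1 / c := by
    rw [sub_nonneg, div_le_one hc0]; exact hc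
  induction t with
  | zero =>
    unfold V
    simp only [pow_zero, Matrix.one_apply]
    have : ∑ y ∈ Ω, (if x = y then (1 : ℝ) else 0) ^ 2 = 1 := by
      have : ∀ y, (if x = y then (1 : ℝ) else 0) ^ 2 = if x = y then 1 else 0 := by
        intro y; split_ifs <;> norm_num
      simp only [this]
      rw [Finset.sum_ite_eq, if_pos hx]
    rw [this]
    have : 0 ≤ (∑ y ∈ Ω, (if x = y then (1 : ℝ) else 0)) ^ 2 / (Ω.card : ℝ) := by positivity
    linarith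
  | succ t ih =>
    have e : (fun y => (K ^ (t + 1)) x y) = act K Ω (fun z => (K ^ t) x z) := by
      funext y; exact pow_succ_row h x hx t y
    rw [e, pow_succ, mul_comm]
    exact (V_act_le h hΩ hc0 hP _).trans (mul_le_mul_of_nonneg_left ih hq)

theorem sum_sq_dev (h : Good K Ω) (hΩ : Ω.Nonempty) (x : α) (hx : x ∈ Ω) (t : ℕ) :
    ∑ y ∈ Ω, ((K ^ t) x y - 1 / (Ω.card : ℝ)) ^ 2 = V Ω (fun y => (K ^ t) x y) := by
  have hN : (Ω.card : ℝ) ≠ 0 := by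
    have := hΩ.card_pos
    positivity
  unfold V
  rw [sum_pow_row h x hx t]
  have : ∀ y, ((K ^ t) x y - 1 / (Ω.card : ℝ)) ^ 2
      = (K ^ t) x y ^ 2 - 2 / (Ω.card : ℝ) * (K ^ t) x y + (1 / (Ω.card : ℝ)) ^ 2 := by
    intro y; ring
  simp only [this]
  rw [Finset.sum_add_distrib, Finset.sum_sub_distrib, ← Finset.mul_sum, sum_pow_row h x hx t,
    Finset.sum_const, nsmul_eq_mul]
  field_simp
  ring

open Crest.SwitchChain in
/-- Abstract mixing bound. -/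
theorem tv_le (h : Good K Ω) (hΩ : Ω.Nonempty) {c : ℝ} (hc : 1 ≤ c) (hP : Poincare K Ω c)
    (x : α) (hx : x ∈ Ω) (t : ℕ) (hb : (Ω.card : ℝ) * (1 - 1 / c) ^ t ≤ 1 / 4) :
    tvDist (fun y => (K ^ t) x y) (unifOn Ω) ≤ 1 / 4 := by
  unfold tvDist
  have e : ∑ a, |(K ^ t) x a - unifOn Ω a| = ∑ a ∈ Ω, |(K ^ t) x a - 1 / (Ω.card : ℝ)| := by
    symm
    rw [← Finset.sum_subset (Finset.subset_univ Ω)]
    · refine Finset.sum_congr rfl fun a ha => ?_
      unfold unifOn; rw [if_pos ha]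
    · intro a _ ha
      unfold unifOn
      rw [if_neg ha, pow_outside h x hx t a ha]; simp
  rw [e]
  have h1 : (∑ a ∈ Ω, |(K ^ t) x a - 1 / (Ω.card : ℝ)|) ^ 2
      ≤ (Ω.card : ℝ) * ∑ a ∈ Ω, |(K ^ t) x a - 1 / (Ω.card : ℝ)| ^ 2 :=
    sq_sum_le_card_mul_sum_sq
  simp only [sq_abs] at h1
  rw [sum_sq_dev h hΩ x hx t] at h1
  have h2 := V_pow_row h hΩ hc hP x hx t
  have hN : (0 : ℝ) ≤ Ω.card := by positivity
  have h3 : (∑ a ∈ Ω, |(K ^ t) x a - 1 / (Ω.card : ℝ)|) ^ 2 ≤ (1 / 2) ^ 2 := by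
    calc _ ≤ (Ω.card : ℝ) * V Ω (fun y => (K ^ t) x y) := h1
      _ ≤ (Ω.card : ℝ) * (1 - 1 / c) ^ t := mul_le_mul_of_nonneg_left h2 hN
      _ ≤ 1 / 4 := hb
      _ = (1 / 2) ^ 2 := by norm_num
  have h4 : ∑ a ∈ Ω, |(K ^ t) x a - 1 / (Ω.card : ℝ)| ≤ 1 / 2 :=
    (abs_le_of_sq_le_sq' h3 (by norm_num)).2
  linarith

section numerics

open Crest.SwitchChain

theorem card_realizations_le (n : ℕ) (d : Fin n → ℕ) :
    ((realizations d).card : ℝ) ≤ 2 ^ (n ^ 2) := by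
  have h1 : (realizations d).card ≤ 2 ^ Fintype.card (Edge n) := by
    calc (realizations d).card ≤ (Finset.univ : Finset (Finset (Edge n))).card :=
          Finset.card_le_card (Finset.subset_univ _)
      _ = 2 ^ Fintype.card (Edge n) := by rw [Finset.card_univ, Fintype.card_finset]
  have h2 : Fintype.card (Edge n) ≤ n ^ 2 := by
    calc Fintype.card (Edge n) ≤ Fintype.card (Sym2 (Fin n)) := Fintype.card_subtype_le _
      _ = (n + 1).choose 2 := by rw [Sym2.card, Fintype.card_fin]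
      _ ≤ n ^ 2 := by
        rw [Nat.choose_two_right]
        simp only [Nat.add_sub_cancel]
        apply Nat.div_le_of_le_mul
        nlinarith
  have h3 : (realizations d).card ≤ 2 ^ (n ^ 2) :=
    h1.trans (Nat.pow_le_pow_right (by norm_num) h2)
  exact_mod_cast h3

theorem const_le (n : ℕ) : 24 * (n : ℝ) ^ 2 * (n.choose 4 : ℝ) ≤ (n : ℝ) ^ 6 := by
  have h1 : 24 * n.choose 4 ≤ n ^ 4 := by
    have := Nat.descFactorial_eq_factorial_mul_choose n 4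
    have h2 := Nat.descFactorial_le_pow n 4
    have h3 : Nat.factorial 4 = 24 := by decide
    rw [this, h3] at h2
    exact h2
  have h2 : (24 : ℝ) * (n.choose 4 : ℝ) ≤ (n : ℝ) ^ 4 := by exact_mod_cast h1
  have h3 : (0 : ℝ) ≤ (n : ℝ) ^ 2 := by positivity
  calc 24 * (n : ℝ) ^ 2 * (n.choose 4 : ℝ) = (n : ℝ) ^ 2 * (24 * (n.choose 4 : ℝ)) := by ring
    _ ≤ (n : ℝ) ^ 2 * (n : ℝ) ^ 4 := mul_le_mul_of_nonneg_left h2 h3
    _ = (n : ℝ) ^ 6 := by ring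

theorem one_le_const (n : ℕ) (hn : 4 ≤ n) : 1 ≤ 24 * (n : ℝ) ^ 2 * (n.choose 4 : ℝ) := by
  have h1 : 1 ≤ n.choose 4 := Nat.choose_pos hn
  have h2 : (1 : ℝ) ≤ (n.choose 4 : ℝ) := by exact_mod_cast h1
  have h3 : (4 : ℝ) ≤ n := by exact_mod_cast hn
  have h4 : (1 : ℝ) ≤ 24 * (n : ℝ) ^ 2 := by nlinarith
  calc (1 : ℝ) = 1 * 1 := by norm_num
    _ ≤ (24 * (n : ℝ) ^ 2) * (n.choose 4 : ℝ) := by
      apply mul_le_mul h4 h2 (by norm_num) (by positivity)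

theorem numeric_bound (n : ℕ) (hn : 4 ≤ n) (N : ℝ) (_hN0 : 0 ≤ N) (hN : N ≤ 2 ^ (n ^ 2)) :
    N * (1 - 1 / (24 * (n : ℝ) ^ 2 * (n.choose 4 : ℝ))) ^ (2 * n ^ 8) ≤ 1 / 4 := by
  set c : ℝ := 24 * (n : ℝ) ^ 2 * (n.choose 4 : ℝ) with hc
  have hc1 : 1 ≤ c := one_le_const n hn
  have hc0 : 0 < c := by linarith
  have hc6 : c ≤ (n : ℝ) ^ 6 := const_le n
  have hn0 : (0 : ℝ) < n := by
    have : 0 < n := by omega
    exact_mod_cast this
  have hq : 0 ≤ 1 - 1 / c := by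
    rw [sub_nonneg, div_le_one hc0]; exact hc1
  have h1 : 1 - 1 / c ≤ Real.exp (-(1 / c)) := by
    have := Real.add_one_le_exp (-(1 / c))
    linarith
  have h2 : (1 - 1 / c) ^ (2 * n ^ 8) ≤ Real.exp (-(2 * (n : ℝ) ^ 2)) := by
    calc (1 - 1 / c) ^ (2 * n ^ 8) ≤ Real.exp (-(1 / c)) ^ (2 * n ^ 8) :=
          pow_le_pow_left₀ hq h1 _
      _ = Real.exp (((2 * n ^ 8 : ℕ) : ℝ) * (-(1 / c))) := by rw [Real.exp_nat_mul]
      _ ≤ Real.exp (-(2 * (n : ℝ) ^ 2)) := by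
        apply Real.exp_le_exp.mpr
        push_cast
        have : 2 * (n : ℝ) ^ 2 ≤ 2 * (n : ℝ) ^ 8 * (1 / c) := by
          rw [mul_one_div, le_div_iff₀ hc0]
          calc 2 * (n : ℝ) ^ 2 * c ≤ 2 * (n : ℝ) ^ 2 * (n : ℝ) ^ 6 :=
                mul_le_mul_of_nonneg_left hc6 (by positivity)
            _ = 2 * (n : ℝ) ^ 8 := by ring
        linarith
  have h3 : (2 : ℝ) ^ (n ^ 2) ≤ Real.exp ((n : ℝ) ^ 2) := by
    have h2e : (2 : ℝ) ≤ Real.exp 1 := by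
      have := Real.add_one_le_exp 1
      linarith
    calc (2 : ℝ) ^ (n ^ 2) ≤ Real.exp 1 ^ (n ^ 2) := pow_le_pow_left₀ (by norm_num) h2e _
      _ = Real.exp (((n ^ 2 : ℕ) : ℝ) * 1) := by rw [Real.exp_nat_mul]
      _ = Real.exp ((n : ℝ) ^ 2) := by push_cast; rw [mul_one]
  have h4 : Real.exp ((n : ℝ) ^ 2) * Real.exp (-(2 * (n : ℝ) ^ 2)) = Real.exp (-((n : ℝ) ^ 2)) := by
    rw [← Real.exp_add]; congr 1; ring
  have h5 : Real.exp (-((n : ℝ) ^ 2)) ≤ 1 / 4 := by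
    rw [Real.exp_neg, ← one_div]
    apply one_div_le_one_div_of_le (by norm_num)
    have := Real.add_one_le_exp ((n : ℝ) ^ 2)
    have h4n : (4 : ℝ) ≤ n := by exact_mod_cast hn
    nlinarith
  calc N * (1 - 1 / c) ^ (2 * n ^ 8)
      ≤ Real.exp ((n : ℝ) ^ 2) * Real.exp (-(2 * (n : ℝ) ^ 2)) :=
        mul_le_mul (hN.trans h3) h2 (pow_nonneg hq _) (Real.exp_pos _).le
    _ = Real.exp (-((n : ℝ) ^ 2)) := h4
    _ ≤ 1 / 4 := h5

/-- **Package MIX**: the mixing half of S0453 from the Poincare half and the basic kernel facts. -/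
theorem mixing_of_poincare (n : ℕ) (hn : 4 ≤ n) (d : Fin n → ℕ)
    (hd : (realizations d).Nonempty) (hK : Good (kernel n) (realizations d))
    (hP : ∀ f : Finset (Edge n) → ℝ,
        ((realizations d).card : ℝ) * (∑ G ∈ realizations d, f G ^ 2) -
            (∑ G ∈ realizations d, f G) ^ 2 ≤
          24 * (n : ℝ) ^ 2 * (n.choose 4 : ℝ) * (realizations d).card *
            ∑ G ∈ realizations d,
              f G * (f G - ∑ G' ∈ realizations d, kernel n G G' * f G')) :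
    ∃ t : ℕ, t ≤ 2 * n ^ 8 ∧ ∀ G ∈ realizations d,
        tvDist (fun G' => (kernel n ^ t) G G') (unifOn (realizations d)) ≤ 1 / 4 := by
  refine ⟨2 * n ^ 8, le_rfl, fun G hG => ?_⟩
  exact tv_le hK hd (one_le_const n hn) hP G hG _
    (numeric_bound n hn _ (by positivity) (card_realizations_le n d))

end numerics

end Crest.Agent.S0453Mix
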