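import Mathlib
import Crest.Prelude.Def_SwitchChain
import Crest.Agent.S0453_Mix

/-!
Basic facts on the kernel of the lazy switch chain (`Crest.SwitchChain.kernel`).
-/

set_option autoImplicit false
set_option linter.unusedSimpArgs false
open Finset Crest.SwitchChain

namespace Crest.Agent.S0453K

variable {n : ℕ}

/-- the edge `ab` -/
def mkE (a b : Fin n) (h : a ≠ b) : Edge n := ⟨s(a, b), by simpa using h⟩

@[simp] lemma mem_mkE {a b : Fin n} (h : a ≠ b) (v : Fin n) :
    v ∈ (mkE a b h).1 ↔ v = a ∨ v = b := by simp [mkE]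

lemma mkE_eq_iff {a b c d : Fin n} (h : a ≠ b) (h' : c ≠ d) :
    mkE a b h = mkE c d h' ↔ (a = c ∧ b = d) ∨ (a = d ∧ b = c) := by
  simp [mkE, Subtype.ext_iff, Sym2.eq_iff]

lemma mkE_comm {a b : Fin n} (h : a ≠ b) : mkE a b h = mkE b a h.symm := by
  simp [mkE, Subtype.ext_iff, Sym2.eq_swap]

lemma exists_mkE_of_mem {e : Edge n} {a : Fin n} (ha : a ∈ e.1) :
    ∃ (x : Fin n) (h : a ≠ x), e = mkE a x h := by
  obtain ⟨x, hx⟩ := ha
  have hne : a ≠ x := by
    intro h
    apply e.2
    rw [hx, h]; simp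
  exact ⟨x, hne, Subtype.ext hx⟩

/-! ### symmetry -/

lemma switchResult_symm_aux {E E' F F' : Finset (Edge n)} (hne : E ≠ E')
    (h : switchResult E F F' = E') : switchResult E' F' F = E := by
  unfold switchResult at h ⊢
  split_ifs at h with hc
  · obtain ⟨h1, h2⟩ := hc
    subst h
    have hFF' : Disjoint F F' := (Finset.disjoint_of_subset_left h1 h2.symm)
    have c1 : F' ⊆ E \ F ∪ F' := Finset.subset_union_right
    have c2 : Disjoint F (E \ F ∪ F') := by
      rw [Finset.disjoint_union_right]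
      exact ⟨Finset.disjoint_sdiff, hFF'⟩
    rw [if_pos ⟨c1, c2⟩]
    ext e
    simp only [Finset.mem_union, Finset.mem_sdiff]
    constructor
    · rintro (⟨(⟨h3, _⟩ | h3), h4⟩ | h3)
      · exact h3
      · exact absurd h3 h4
      · exact h1 h3
    · intro he
      by_cases hF : e ∈ F
      · exact Or.inr hF
      · exact Or.inl ⟨Or.inl ⟨he, hF⟩, fun h5 => (Finset.disjoint_left.mp h2 h5) he⟩
  · exact absurd h hne

lemma switchResult_symm {E E' F F' : Finset (Edge n)} (hne : E ≠ E') :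
    switchResult E F F' = E' ↔ switchResult E' F' F = E :=
  ⟨switchResult_symm_aux hne, switchResult_symm_aux hne.symm⟩

lemma sum_erase_comm {β : Type*} [DecidableEq β] (A : Finset β) (φ : β → β → ℕ) :
    ∑ F ∈ A, ∑ F' ∈ A.erase F, φ F F' = ∑ F ∈ A, ∑ F' ∈ A.erase F, φ F' F := by
  rw [Finset.sum_comm' (t' := A) (s' := fun F' => A.erase F')]
  intro x y
  simp only [Finset.mem_erase]
  constructor
  · rintro ⟨h1, h2, h3⟩; exact ⟨⟨fun e => h2 e.symm, h1⟩, h3⟩
  · rintro ⟨⟨h1, h2⟩, h3⟩; exact ⟨h2, fun e => h1 e.symm, h3⟩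

lemma proposalCount_symm (E E' : Finset (Edge n)) : proposalCount E E' = proposalCount E' E := by
  by_cases hne : E = E'
  · rw [hne]
  unfold proposalCount
  refine Finset.sum_congr rfl (fun S _ => ?_)
  rw [sum_erase_comm]
  refine Finset.sum_congr rfl (fun F _ => Finset.sum_congr rfl (fun F' _ => ?_))
  simp only [switchResult_symm hne]


/-! ### the three perfect matchings of a 4-set -/

lemma mem_pmSet {S : Finset (Fin n)} {F : Finset (Edge n)} :
    F ∈ pmSet S ↔ F.card = 2 ∧ (∀ e ∈ F, ∀ v : Fin n, v ∈ e.1 → v ∈ S) ∧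
      ∀ v ∈ S, (F.filter fun e => v ∈ e.1).card = 1 := by
  simp [pmSet, Finset.mem_powersetCard, and_assoc]

/-- the matching `{ab, cd}` -/
def mkM (a b c d : Fin n) (hab : a ≠ b) (hcd : c ≠ d) : Finset (Edge n) :=
  {mkE a b hab, mkE c d hcd}

lemma mkM_mem_pmSet {a b c d : Fin n} (hab : a ≠ b) (hac : a ≠ c) (had : a ≠ d) (hbc : b ≠ c)
    (hbd : b ≠ d) (hcd : c ≠ d) : mkM a b c d hab hcd ∈ pmSet ({a, b, c, d} : Finset (Fin n)) := by
  have hne : mkE a b hab ≠ mkE c d hcd := by
    rw [Ne, mkE_eq_iff]; rintro (⟨h, _⟩ | ⟨h, _⟩)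
    · exact hac h
    · exact had h
  rw [mem_pmSet]
  refine ⟨Finset.card_pair hne, ?_, ?_⟩
  · intro e he v hv
    simp only [mkM, Finset.mem_insert, Finset.mem_singleton] at he
    rcases he with rfl | rfl <;> simp only [mem_mkE] at hv <;> rcases hv with rfl | rfl <;> simp
  · intro v hv
    simp only [Finset.mem_insert, Finset.mem_singleton] at hv
    rcases hv with rfl | rfl | rfl | rfl
    · rw [mkM, Finset.filter_insert, Finset.filter_singleton]
      simp [hac, had]
    · rw [mkM, Finset.filter_insert, Finset.filter_singleton]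
      simp [hbc, hbd]
    · rw [mkM, Finset.filter_insert, Finset.filter_singleton]
      simp [hac.symm, hbc.symm]
    · rw [mkM, Finset.filter_insert, Finset.filter_singleton]
      simp [had.symm, hbd.symm]

lemma eq_of_mem_filter_card_one {F : Finset (Edge n)} {v : Fin n}
    (h : (F.filter fun e => v ∈ e.1).card = 1) {e e' : Edge n} (he : e ∈ F) (he' : e' ∈ F)
    (hv : v ∈ e.1) (hv' : v ∈ e'.1) : e = e' := by
  rw [Finset.card_eq_one] at h
  obtain ⟨x, hx⟩ := h
  have h1 : e ∈ F.filter fun e => v ∈ e.1 := Finset.mem_filter.mpr ⟨he, hv⟩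
  have h2 : e' ∈ F.filter fun e => v ∈ e.1 := Finset.mem_filter.mpr ⟨he', hv'⟩
  rw [hx, Finset.mem_singleton] at h1 h2
  rw [h1, h2]

lemma exists_of_filter_card_one {F : Finset (Edge n)} {v : Fin n}
    (h : (F.filter fun e => v ∈ e.1).card = 1) : ∃ e ∈ F, v ∈ e.1 := by
  rw [Finset.card_eq_one] at h
  obtain ⟨x, hx⟩ := h
  have : x ∈ F.filter fun e => v ∈ e.1 := by rw [hx]; simp
  exact ⟨x, (Finset.mem_filter.mp this).1, (Finset.mem_filter.mp this).2⟩

lemma eq_mkM_of_mem {a b c d : Fin n} (hab : a ≠ b) (hac : a ≠ c) (hbc : b ≠ c)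
    (hcd : c ≠ d) {F : Finset (Edge n)}
    (hF : F ∈ pmSet ({a, b, c, d} : Finset (Fin n))) (hm : mkE a b hab ∈ F) :
    F = mkM a b c d hab hcd := by
  rw [mem_pmSet] at hF
  obtain ⟨h2, hS, h1⟩ := hF
  obtain ⟨e₂, he₂, hc⟩ := exists_of_filter_card_one (h1 c (by simp))
  obtain ⟨y, hcy, rfl⟩ := exists_mkE_of_mem hc
  have hy : y ∈ ({a, b, c, d} : Finset (Fin n)) := hS _ he₂ y (by simp)
  have hya : y ≠ a := by
    rintro rfl
    have := eq_of_mem_filter_card_one (h1 y (by simp)) he₂ hm (by simp) (by simp)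
    rw [mkE_eq_iff] at this
    rcases this with ⟨h, _⟩ | ⟨h, _⟩
    · exact hcy h
    · exact hbc h.symm
  have hyb : y ≠ b := by
    rintro rfl
    have := eq_of_mem_filter_card_one (h1 y (by simp)) he₂ hm (by simp) (by simp)
    rw [mkE_eq_iff] at this
    rcases this with ⟨h, _⟩ | ⟨h, _⟩
    · exact hac h.symm
    · exact hcy h
  have hyd : y = d := by
    simp only [Finset.mem_insert, Finset.mem_singleton] at hy
    rcases hy with h | h | h | h
    · exact absurd h hya
    · exact absurd h hyb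
    · exact absurd h.symm hcy
    · exact h
  subst hyd
  symm
  apply Finset.eq_of_subset_of_card_le
  · intro e he
    simp only [mkM, Finset.mem_insert, Finset.mem_singleton] at he
    rcases he with rfl | rfl
    · exact hm
    · exact he₂
  · rw [h2, mkM, Finset.card_pair]
    rw [Ne, mkE_eq_iff]; rintro (⟨h, _⟩ | ⟨_, h⟩)
    · exact hac h
    · exact hbc h

lemma pmSet_eq {a b c d : Fin n} (hab : a ≠ b) (hac : a ≠ c) (had : a ≠ d) (hbc : b ≠ c)
    (hbd : b ≠ d) (hcd : c ≠ d) :
    pmSet ({a, b, c, d} : Finset (Fin n)) =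
      {mkM a b c d hab hcd, mkM a c b d hac hbd, mkM a d b c had hbc} := by
  have e1 : ({a, c, b, d} : Finset (Fin n)) = {a, b, c, d} := by
    ext v; simp only [Finset.mem_insert, Finset.mem_singleton]; tauto
  have e2 : ({a, d, b, c} : Finset (Fin n)) = {a, b, c, d} := by
    ext v; simp only [Finset.mem_insert, Finset.mem_singleton]; tauto
  ext F
  simp only [Finset.mem_insert, Finset.mem_singleton]
  constructor
  · intro hF
    have hF' := mem_pmSet.mp hF
    obtain ⟨e₁, he₁, ha⟩ := exists_of_filter_card_one (hF'.2.2 a (by simp))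
    obtain ⟨x, hax, rfl⟩ := exists_mkE_of_mem ha
    have hx : x ∈ ({a, b, c, d} : Finset (Fin n)) := hF'.2.1 _ he₁ x (by simp)
    simp only [Finset.mem_insert, Finset.mem_singleton] at hx
    rcases hx with h | rfl | rfl | rfl
    · exact absurd h.symm hax
    · exact Or.inl (eq_mkM_of_mem hab hac hbc hcd hF he₁)
    · exact Or.inr (Or.inl (eq_mkM_of_mem hac hab hbc.symm hbd (e1 ▸ hF) he₁))
    · exact Or.inr (Or.inr (eq_mkM_of_mem had hab hbd.symm hbc (e2 ▸ hF) he₁))
  · rintro (rfl | rfl | rfl)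
    · exact mkM_mem_pmSet hab hac had hbc hbd hcd
    · exact e1 ▸ mkM_mem_pmSet hac hab had hbc.symm hcd hbd
    · exact e2 ▸ mkM_mem_pmSet had hab hac hbd.symm hcd.symm hbc

lemma mkM_ne {a b c d : Fin n} (hab : a ≠ b) (hac : a ≠ c) (had : a ≠ d) (hbc : b ≠ c)
    (hbd : b ≠ d) (hcd : c ≠ d) : mkM a b c d hab hcd ≠ mkM a c b d hac hbd := by
  intro h
  have : mkE a b hab ∈ mkM a c b d hac hbd := by rw [← h]; simp [mkM]
  simp only [mkM, Finset.mem_insert, Finset.mem_singleton, mkE_eq_iff] at this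
  rcases this with (⟨_, h⟩ | ⟨h, _⟩) | (⟨h, _⟩ | ⟨h, _⟩)
  · exact hbc h
  · exact hac h
  · exact hab h
  · exact had h

lemma card_pmSet {S : Finset (Fin n)} (hS : S.card = 4) : (pmSet S).card = 3 := by
  obtain ⟨a, S₁, ha, rfl, hS₁⟩ := Finset.card_eq_succ.mp hS
  obtain ⟨b, S₂, hb, rfl, hS₂⟩ := Finset.card_eq_succ.mp hS₁
  obtain ⟨c, d, hcd, rfl⟩ := Finset.card_eq_two.mp hS₂
  simp only [Finset.mem_insert, Finset.mem_singleton, not_or] at ha hb
  obtain ⟨hab, hac, had⟩ := ha
  obtain ⟨hbc, hbd⟩ := hb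
  replace hab : a ≠ b := hab
  replace hac : a ≠ c := hac
  replace had : a ≠ d := had
  replace hbc : b ≠ c := hbc
  replace hbd : b ≠ d := hbd
  rw [pmSet_eq hab hac had hbc hbd hcd]
  have n1 := mkM_ne hab hac had hbc hbd hcd
  have n2 : mkM a b c d hab hcd ≠ mkM a d b c had hbc := by
    have := mkM_ne hab had hac hbd hbc hcd.symm
    have e : mkM a b d c hab hcd.symm = mkM a b c d hab hcd := by
      simp only [mkM]; rw [mkE_comm hcd]
    rwa [e] at this
  have n3 : mkM a c b d hac hbd ≠ mkM a d b c had hbc := by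
    have := mkM_ne hac had hab hcd hbc.symm hbd.symm
    have e1 : mkM a c d b hac hbd.symm = mkM a c b d hac hbd := by
      simp only [mkM]; rw [mkE_comm hbd]
    have e2 : mkM a d c b had hbc.symm = mkM a d b c had hbc := by
      simp only [mkM]; rw [mkE_comm hbc]
    rwa [e1, e2] at this
  rw [Finset.card_insert_of_notMem, Finset.card_pair n3]
  simp only [Finset.mem_insert, Finset.mem_singleton, not_or]
  exact ⟨n1, n2⟩

/-! ### row sums -/

lemma sum_proposalCount (E : Finset (Edge n)) :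
    ∑ E' : Finset (Edge n), proposalCount E E' = 6 * n.choose 4 := by
  unfold proposalCount
  rw [Finset.sum_comm]
  have h1 : ∀ S ∈ (univ : Finset (Fin n)).powersetCard 4,
      ∑ E' : Finset (Edge n), ∑ F ∈ pmSet S, ∑ F' ∈ (pmSet S).erase F,
        (if switchResult E F F' = E' then 1 else 0) = 6 := by
    intro S hS
    have hc := card_pmSet (Finset.mem_powersetCard.mp hS).2
    rw [Finset.sum_comm]
    have h2 : ∀ F ∈ pmSet S, ∑ E' : Finset (Edge n), ∑ F' ∈ (pmSet S).erase F,
        (if switchResult E F F' = E' then 1 else 0) = 2 := by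
      intro F hF
      rw [Finset.sum_comm]
      simp only [Finset.sum_ite_eq, Finset.mem_univ, if_true, Finset.sum_const, smul_eq_mul,
        mul_one]
      rw [Finset.card_erase_of_mem hF, hc]
    rw [Finset.sum_congr rfl h2]
    simp [hc]
  rw [Finset.sum_congr rfl h1]
  simp [Finset.card_powersetCard, mul_comm]

/-! ### degrees are preserved -/

lemma deg_pm {S : Finset (Fin n)} {F : Finset (Edge n)} (hF : F ∈ pmSet S) (v : Fin n) :
    deg F v = if v ∈ S then 1 else 0 := by
  rw [mem_pmSet] at hF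
  unfold deg
  split_ifs with hv
  · exact hF.2.2 v hv
  · rw [Finset.card_eq_zero, Finset.filter_eq_empty_iff]
    intro e he hve
    exact hv (hF.2.1 e he v hve)

lemma deg_switch {E F F' : Finset (Edge n)} (h1 : F ⊆ E) (h2 : Disjoint F' E) (v : Fin n) :
    deg (E \ F ∪ F') v + deg F v = deg E v + deg F' v := by
  unfold deg
  rw [Finset.filter_union, Finset.card_union_of_disjoint]
  · have : ((E \ F).filter fun e => v ∈ e.1).card + (F.filter fun e => v ∈ e.1).card
        = (E.filter fun e => v ∈ e.1).card := by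
      rw [← Finset.card_union_of_disjoint, ← Finset.filter_union, Finset.sdiff_union_of_subset h1]
      exact Finset.disjoint_filter_filter Finset.sdiff_disjoint
    omega
  · exact Finset.disjoint_filter_filter
      (Finset.disjoint_of_subset_left Finset.sdiff_subset h2.symm)

lemma switchResult_mem_realizations {d : Fin n → ℕ} {E : Finset (Edge n)}
    (hE : E ∈ realizations d) {S : Finset (Fin n)} {F F' : Finset (Edge n)}
    (hF : F ∈ pmSet S) (hF' : F' ∈ pmSet S) : switchResult E F F' ∈ realizations d := by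
  unfold switchResult
  split_ifs with hc
  · simp only [realizations, Finset.mem_filter, Finset.mem_univ, true_and] at hE ⊢
    intro v
    have := deg_switch hc.1 hc.2 v
    rw [deg_pm hF, deg_pm hF', hE v] at this
    omega
  · exact hE

lemma proposalCount_eq_zero {d : Fin n → ℕ} {E E' : Finset (Edge n)}
    (hE : E ∈ realizations d) (hE' : E' ∉ realizations d) : proposalCount E E' = 0 := by
  unfold proposalCount
  refine Finset.sum_eq_zero (fun S _ => Finset.sum_eq_zero (fun F hF =>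
    Finset.sum_eq_zero (fun F' hF' => ?_)))
  rw [if_neg]
  intro h
  exact hE' (h ▸ switchResult_mem_realizations hE hF (Finset.mem_of_mem_erase hF'))

/-! ### the kernel -/

lemma kernel_symm (E E' : Finset (Edge n)) : kernel n E E' = kernel n E' E := by
  unfold kernel
  rw [proposalCount_symm E E']
  by_cases h : E = E'
  · rw [h]
  · have h' : ¬ E' = E := fun e => h e.symm
    simp [h, h']

lemma kernel_nonneg (E E' : Finset (Edge n)) : 0 ≤ kernel n E E' := by
  unfold kernel
  have : (0 : ℝ) ≤ (proposalCount E E' : ℝ) / (12 * (n.choose 4 : ℝ)) := by positivity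
  split_ifs <;> linarith

lemma kernel_lazy (E : Finset (Edge n)) : 1 / 2 ≤ kernel n E E := by
  unfold kernel
  have : (0 : ℝ) ≤ (proposalCount E E : ℝ) / (12 * (n.choose 4 : ℝ)) := by positivity
  simp only [if_true]
  linarith

lemma kernel_ne {E E' : Finset (Edge n)} (h : E ≠ E') :
    kernel n E E' = (proposalCount E E' : ℝ) / (12 * (n.choose 4 : ℝ)) := by
  unfold kernel
  simp [h]

lemma kernel_sum (hn : 4 ≤ n) (E : Finset (Edge n)) : ∑ E', kernel n E E' = 1 := by
  have hC : (0 : ℝ) < (n.choose 4 : ℝ) := by exact_mod_cast Nat.choose_pos hn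
  unfold kernel
  rw [Finset.sum_add_distrib, ← Finset.sum_div, ← Nat.cast_sum, sum_proposalCount]
  simp only [Finset.sum_ite_eq, Finset.mem_univ, if_true]
  push_cast
  field_simp
  norm_num

lemma kernel_inv {d : Fin n → ℕ} {E E' : Finset (Edge n)}
    (hE : E ∈ realizations d) (hE' : E' ∉ realizations d) : kernel n E E' = 0 := by
  have hne : E ≠ E' := fun e => hE' (e ▸ hE)
  rw [kernel_ne hne, proposalCount_eq_zero hE hE']
  simp

lemma kernel_row (hn : 4 ≤ n) {d : Fin n → ℕ} {E : Finset (Edge n)} (hE : E ∈ realizations d) :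
    ∑ E' ∈ realizations d, kernel n E E' = 1 := by
  rw [← kernel_sum hn E]
  exact Finset.sum_subset (Finset.subset_univ _) (fun E' _ hE' => kernel_inv hE hE')

/-- the kernel facts needed by package MIX. -/
theorem kernel_good (n : ℕ) (hn : 4 ≤ n) (d : Fin n → ℕ) :
    Crest.Agent.S0453Mix.Good (kernel n) (realizations d) where
  symm := kernel_symm
  nonneg := kernel_nonneg
  row := fun _ hx => kernel_row hn hx
  inv := fun _ hx _ hy => kernel_inv hx hy
  lazy := kernel_lazy

/-- Dirichlet form identity on `realizations d`. -/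
theorem dirichlet_identity (hn : 4 ≤ n) (d : Fin n → ℕ) (f : Finset (Edge n) → ℝ) :
    ∑ G ∈ realizations d, f G * (f G - ∑ G' ∈ realizations d, kernel n G G' * f G')
      = (1 / 2) * ∑ G ∈ realizations d, ∑ G' ∈ realizations d,
          kernel n G G' * (f G - f G') ^ 2 := by
  set Ω := realizations d with hΩ
  have h1 : ∑ G ∈ Ω, ∑ G' ∈ Ω, kernel n G G' * (f G - f G') ^ 2
      = ∑ G ∈ Ω, ∑ G' ∈ Ω, kernel n G G' * f G ^ 2
        + ∑ G ∈ Ω, ∑ G' ∈ Ω, kernel n G G' * f G' ^ 2
        - 2 * ∑ G ∈ Ω, ∑ G' ∈ Ω, kernel n G G' * (f G * f G') := by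
    rw [Finset.mul_sum, ← Finset.sum_add_distrib, ← Finset.sum_sub_distrib]
    refine Finset.sum_congr rfl (fun G _ => ?_)
    rw [Finset.mul_sum, ← Finset.sum_add_distrib, ← Finset.sum_sub_distrib]
    exact Finset.sum_congr rfl (fun G' _ => by ring)
  have h2 : ∑ G ∈ Ω, ∑ G' ∈ Ω, kernel n G G' * f G ^ 2 = ∑ G ∈ Ω, f G ^ 2 := by
    refine Finset.sum_congr rfl (fun G hG => ?_)
    rw [← Finset.sum_mul, kernel_row hn hG, one_mul]
  have h3 : ∑ G ∈ Ω, ∑ G' ∈ Ω, kernel n G G' * f G' ^ 2 = ∑ G ∈ Ω, f G ^ 2 := by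
    rw [Finset.sum_comm]
    refine Finset.sum_congr rfl (fun G hG => ?_)
    rw [← Finset.sum_mul]
    have : ∑ G' ∈ Ω, kernel n G' G = 1 := by
      rw [← kernel_row hn hG]
      exact Finset.sum_congr rfl (fun G' _ => kernel_symm G' G)
    rw [this, one_mul]
  have h4 : ∑ G ∈ Ω, f G * (f G - ∑ G' ∈ Ω, kernel n G G' * f G')
      = ∑ G ∈ Ω, f G ^ 2 - ∑ G ∈ Ω, ∑ G' ∈ Ω, kernel n G G' * (f G * f G') := by
    rw [← Finset.sum_sub_distrib]
    refine Finset.sum_congr rfl (fun G _ => ?_)
    rw [mul_sub, Finset.mul_sum, sq]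
    congr 1
    exact Finset.sum_congr rfl (fun G' _ => by ring)
  rw [h1, h2, h3, h4]
  ring

/-! ### lower bound of the kernel on switch pairs -/

lemma one_le_proposalCount_of_pm {S : Finset (Fin n)} (hS : S.card = 4) {F F' E : Finset (Edge n)}
    (hF : F ∈ pmSet S) (hF' : F' ∈ pmSet S) (hne : F' ≠ F) (h1 : F ⊆ E) (h2 : Disjoint F' E) :
    1 ≤ proposalCount E (E \ F ∪ F') := by
  unfold proposalCount
  have hS' : S ∈ (univ : Finset (Fin n)).powersetCard 4 :=
    Finset.mem_powersetCard.mpr ⟨Finset.subset_univ _, hS⟩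
  have hF'' : F' ∈ (pmSet S).erase F := Finset.mem_erase.mpr ⟨hne, hF'⟩
  calc 1 = (if switchResult E F F' = E \ F ∪ F' then 1 else 0) := by
        rw [if_pos]; unfold switchResult; rw [if_pos ⟨h1, h2⟩]
    _ ≤ ∑ F₂ ∈ (pmSet S).erase F, (if switchResult E F F₂ = E \ F ∪ F' then 1 else 0) :=
        Finset.single_le_sum (f := fun F₂ => if switchResult E F F₂ = E \ F ∪ F' then 1 else 0)
          (fun _ _ => Nat.zero_le _) hF''
    _ ≤ ∑ F₁ ∈ pmSet S, ∑ F₂ ∈ (pmSet S).erase F₁,
          (if switchResult E F₁ F₂ = E \ F ∪ F' then 1 else 0) :=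
        Finset.single_le_sum (f := fun F₁ => ∑ F₂ ∈ (pmSet S).erase F₁,
          (if switchResult E F₁ F₂ = E \ F ∪ F' then 1 else 0)) (fun _ _ => Nat.zero_le _) hF
    _ ≤ _ := Finset.single_le_sum (f := fun S => ∑ F₁ ∈ pmSet S, ∑ F₂ ∈ (pmSet S).erase F₁,
          (if switchResult E F₁ F₂ = E \ F ∪ F' then 1 else 0)) (fun _ _ => Nat.zero_le _) hS'

lemma card_four {a b c d : Fin n} (hab : a ≠ b) (hac : a ≠ c) (had : a ≠ d) (hbc : b ≠ c)
    (hbd : b ≠ d) (hcd : c ≠ d) : ({a, b, c, d} : Finset (Fin n)).card = 4 := by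
  rw [Finset.card_insert_of_notMem, Finset.card_insert_of_notMem, Finset.card_pair hcd]
  · simp [hbc, hbd]
  · simp [hab, hac, had]

/-- the switch `ab, cd → ac, bd` is proposed at least once. -/
lemma one_le_proposalCount {a b c d : Fin n} (hab : a ≠ b) (hac : a ≠ c) (had : a ≠ d)
    (hbc : b ≠ c) (hbd : b ≠ d) (hcd : c ≠ d) {E : Finset (Edge n)}
    (h1 : mkE a b hab ∈ E) (h2 : mkE c d hcd ∈ E) (h3 : mkE a c hac ∉ E) (h4 : mkE b d hbd ∉ E) :
    1 ≤ proposalCount E (E \ mkM a b c d hab hcd ∪ mkM a c b d hac hbd) := by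
  have e1 : ({a, c, b, d} : Finset (Fin n)) = {a, b, c, d} := by
    ext v; simp only [Finset.mem_insert, Finset.mem_singleton]; tauto
  refine one_le_proposalCount_of_pm (card_four hab hac had hbc hbd hcd)
    (mkM_mem_pmSet hab hac had hbc hbd hcd)
    (e1 ▸ mkM_mem_pmSet hac hab had hbc.symm hcd hbd)
    (mkM_ne hab hac had hbc hbd hcd).symm ?_ ?_
  · intro e he
    simp only [mkM, Finset.mem_insert, Finset.mem_singleton] at he
    rcases he with rfl | rfl
    · exact h1
    · exact h2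
  · rw [Finset.disjoint_left]
    intro e he
    simp only [mkM, Finset.mem_insert, Finset.mem_singleton] at he
    rcases he with rfl | rfl
    · exact h3
    · exact h4

/-- kernel lower bound on any pair with a proposal. -/
lemma kernel_ge {E E' : Finset (Edge n)} (hne : E ≠ E') (h : 1 ≤ proposalCount E E') :
    1 / (12 * (n.choose 4 : ℝ)) ≤ kernel n E E' := by
  rw [kernel_ne hne]
  have : (1 : ℝ) ≤ (proposalCount E E' : ℝ) := by exact_mod_cast h
  gcongr

end Crest.Agent.S0453K
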