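import Crest.Agent.S0453_Defs
import Crest.Agent.S0453_Kernel

/-!
# S0453, packages B1 (`poincare_of_energy`) and B2 (`mixing`) in the interface of `S0453_Defs`.
-/

set_option autoImplicit false
open Finset
open Crest.SwitchChain
open Crest.Agent.S0453K

namespace Crest.Agent.S0453D

variable {n : ℕ}

namespace B1

lemma adj_iff_mkE {G : Gr n} {u v : Fin n} (h : u ≠ v) : adj G u v ↔ mkE u v h ∈ G := by
  constructor
  · rintro ⟨e, he, hs⟩
    have : e = mkE u v h := Subtype.ext hs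
    rwa [← this]
  · intro hm
    exact ⟨_, hm, rfl⟩

lemma mkE_val {u v : Fin n} (h : u ≠ v) : (mkE u v h).1 = s(u, v) := rfl

lemma exists_mkE (e : Edge n) : ∃ (x y : Fin n) (h : x ≠ y), e = mkE x y h := by
  obtain ⟨e, he⟩ := e
  induction e using Sym2.ind with
  | _ x y =>
    have h : x ≠ y := by simpa using he
    exact ⟨x, y, h, rfl⟩

lemma eq_of_isSwitch {G G' : Gr n} {a b c d : Fin n} (h : IsSwitch G G' a b c d) :
    G' = G \ mkM a b c d h.1 h.2.2.2.2.2.1 ∪ mkM a c b d h.2.1 h.2.2.2.2.1 := by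
  obtain ⟨hab, hac, had, hbc, hbd, hcd, h1, h2, h3, h4, h5⟩ := h
  ext e
  obtain ⟨x, y, hxy, rfl⟩ := exists_mkE e
  rw [← adj_iff_mkE hxy, h5 x y]
  simp only [Finset.mem_union, Finset.mem_sdiff, mkM, Finset.mem_insert, Finset.mem_singleton,
    not_or, adj_iff_mkE hxy]
  have e1 : ∀ (p q : Fin n) (hpq : p ≠ q), mkE x y hxy = mkE p q hpq ↔ s(x, y) = s(p, q) := by
    intro p q hpq
    constructor
    · intro h; exact congrArg Subtype.val h
    · intro h; exact Subtype.ext h
  simp only [e1, Ne]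

lemma kernel_ge_of_sw {G G' : Gr n} (h : Sw G G') : 1 / (12 * (n.choose 4 : ℝ)) ≤ kernel n G G' := by
  obtain ⟨a, b, c, d, h⟩ := h
  have hG' := eq_of_isSwitch h
  obtain ⟨hab, hac, had, hbc, hbd, hcd, h1, h2, h3, h4, h5⟩ := h
  rw [adj_iff_mkE hab] at h1
  rw [adj_iff_mkE hcd] at h2
  rw [adj_iff_mkE hac] at h3
  rw [adj_iff_mkE hbd] at h4
  have hne : G ≠ G' := by
    intro e
    have : mkE a c hac ∈ G' := by
      rw [hG']; simp [mkM]
    exact h3 (e ▸ this)
  apply kernel_ge hne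
  rw [hG']
  exact one_le_proposalCount hab hac had hbc hbd hcd h1 h2 h3 h4

lemma energy_le_dirichlet (hn : 4 ≤ n) (d : Fin n → ℕ) (f : Gr n → ℝ) :
    En d f ≤ 24 * (n.choose 4 : ℝ) *
      ∑ G ∈ realizations d, f G * (f G - ∑ G' ∈ realizations d, kernel n G G' * f G') := by
  classical
  have hC : (0 : ℝ) < (n.choose 4 : ℝ) := by exact_mod_cast Nat.choose_pos hn
  rw [dirichlet_identity hn d f]
  have key : ∀ G ∈ realizations d,
      ∑ G' ∈ (realizations d).filter (fun G' => Sw G G'), (f G - f G') ^ 2 ≤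
        12 * (n.choose 4 : ℝ) * ∑ G' ∈ realizations d, kernel n G G' * (f G - f G') ^ 2 := by
    intro G _
    calc ∑ G' ∈ (realizations d).filter (fun G' => Sw G G'), (f G - f G') ^ 2
        ≤ ∑ G' ∈ (realizations d).filter (fun G' => Sw G G'),
            12 * (n.choose 4 : ℝ) * (kernel n G G' * (f G - f G') ^ 2) := by
          refine Finset.sum_le_sum (fun G' hG' => ?_)
          have hk := kernel_ge_of_sw (Finset.mem_filter.mp hG').2
          have h1 : 1 ≤ 12 * (n.choose 4 : ℝ) * kernel n G G' := by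
            have : 12 * (n.choose 4 : ℝ) * (1 / (12 * (n.choose 4 : ℝ))) = 1 := by
              field_simp
            calc (1 : ℝ) = 12 * (n.choose 4 : ℝ) * (1 / (12 * (n.choose 4 : ℝ))) := this.symm
              _ ≤ 12 * (n.choose 4 : ℝ) * kernel n G G' := by gcongr
          nlinarith [sq_nonneg (f G - f G')]
      _ ≤ ∑ G' ∈ realizations d, 12 * (n.choose 4 : ℝ) * (kernel n G G' * (f G - f G') ^ 2) := by
          refine Finset.sum_le_sum_of_subset_of_nonneg (Finset.filter_subset _ _)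
            (fun G' _ _ => ?_)
          have := kernel_nonneg G G'
          positivity
      _ = _ := by rw [Finset.mul_sum]
  unfold En
  calc _ ≤ ∑ G ∈ realizations d,
        12 * (n.choose 4 : ℝ) * ∑ G' ∈ realizations d, kernel n G G' * (f G - f G') ^ 2 := by
        refine Finset.sum_le_sum (fun G hG => ?_)
        convert key G hG
    _ = _ := by rw [← Finset.mul_sum]; ring

lemma card_mul_var {α : Type*} (Ω : Finset α) (f : α → ℝ) :
    (Ω.card : ℝ) * (∑ x ∈ Ω, f x ^ 2) - (∑ x ∈ Ω, f x) ^ 2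
      = (Ω.card : ℝ) * ∑ x ∈ Ω, (f x - mean Ω f) ^ 2 := by
  rcases Ω.eq_empty_or_nonempty with rfl | hΩ
  · simp
  have hN : (Ω.card : ℝ) ≠ 0 := by exact_mod_cast hΩ.card_pos.ne'
  have h1 : ∑ x ∈ Ω, (f x - mean Ω f) ^ 2
      = ∑ x ∈ Ω, f x ^ 2 - 2 * mean Ω f * ∑ x ∈ Ω, f x + Ω.card * mean Ω f ^ 2 := by
    have : ∀ x ∈ Ω, (f x - mean Ω f) ^ 2 = f x ^ 2 - 2 * mean Ω f * f x + mean Ω f ^ 2 :=
      fun x _ => by ring
    rw [Finset.sum_congr rfl this, Finset.sum_add_distrib, Finset.sum_sub_distrib,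
      ← Finset.mul_sum, Finset.sum_const, nsmul_eq_mul]
  rw [h1]
  unfold mean
  field_simp
  ring

end B1

open B1 in
/-- **B1**. -/
theorem poincare_of_energy (hn : 4 ≤ n) (d : Fin n → ℕ) (f : Gr n → ℝ)
    (h : ∑ G ∈ realizations d, (f G - mean (realizations d) f) ^ 2 ≤ (n : ℝ) ^ 2 * En d f) :
    ((realizations d).card : ℝ) * (∑ G ∈ realizations d, f G ^ 2) -
        (∑ G ∈ realizations d, f G) ^ 2 ≤
      24 * (n : ℝ) ^ 2 * (n.choose 4 : ℝ) * (realizations d).card *
        ∑ G ∈ realizations d,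
          f G * (f G - ∑ G' ∈ realizations d, kernel n G G' * f G') := by
  rw [card_mul_var]
  have h2 := energy_le_dirichlet hn d f
  set D := ∑ G ∈ realizations d, f G * (f G - ∑ G' ∈ realizations d, kernel n G G' * f G')
  have hN : (0 : ℝ) ≤ ((realizations d).card : ℝ) := Nat.cast_nonneg _
  have hn2 : (0 : ℝ) ≤ (n : ℝ) ^ 2 := by positivity
  calc ((realizations d).card : ℝ) * ∑ G ∈ realizations d, (f G - mean (realizations d) f) ^ 2
      ≤ ((realizations d).card : ℝ) * ((n : ℝ) ^ 2 * En d f) := mul_le_mul_of_nonneg_left h hN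
    _ ≤ ((realizations d).card : ℝ) * ((n : ℝ) ^ 2 * (24 * (n.choose 4 : ℝ) * D)) := by gcongr
    _ = _ := by ring

/-- **B2**. -/
theorem mixing (hn : 4 ≤ n) (d : Fin n → ℕ) (hd : (realizations d).Nonempty)
    (hP : ∀ f : Gr n → ℝ,
      ((realizations d).card : ℝ) * (∑ G ∈ realizations d, f G ^ 2) -
        (∑ G ∈ realizations d, f G) ^ 2 ≤
      24 * (n : ℝ) ^ 2 * (n.choose 4 : ℝ) * (realizations d).card *
        ∑ G ∈ realizations d,
          f G * (f G - ∑ G' ∈ realizations d, kernel n G G' * f G')) :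
    ∃ t : ℕ, t ≤ 2 * n ^ 8 ∧ ∀ G ∈ realizations d,
      tvDist (fun G' => (kernel n ^ t) G G') (unifOn (realizations d)) ≤ 1 / 4 :=
  Crest.Agent.S0453Mix.mixing_of_poincare n hn d hd (kernel_good n hn d) hP

end Crest.Agent.S0453D
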