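import Mathlib
import Crest.Prelude.Def_SwitchChain

/-!
# S0453, package CONN: the switch graph on the realizations of a degree vector is connected

Everything is stated on the frozen Prelude objects (`Crest.SwitchChain.*`).
-/

set_option autoImplicit false
open Finset
open scoped symmDiff
open Crest.SwitchChain

namespace Crest.Agent.S0453Conn

variable {n : ℕ}

/-- The edge `{a,b}`. -/
def mk (a b : Fin n) (h : a ≠ b) : Edge n := ⟨s(a, b), by simpa using h⟩

@[simp] lemma mk_val (a b : Fin n) (h : a ≠ b) : (mk a b h).1 = s(a, b) := rfl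

lemma mk_comm (a b : Fin n) (h : a ≠ b) : mk a b h = mk b a h.symm :=
  Subtype.ext Sym2.eq_swap

lemma mk_eq_mk_iff {a b c e : Fin n} (h : a ≠ b) (h' : c ≠ e) :
    mk a b h = mk c e h' ↔ (a = c ∧ b = e) ∨ (a = e ∧ b = c) := by
  rw [Subtype.ext_iff]; exact Sym2.eq_iff

lemma mem_mk_iff {a b v : Fin n} (h : a ≠ b) : v ∈ (mk a b h).1 ↔ v = a ∨ v = b := by
  simp

lemma exists_mk (e : Edge n) : ∃ (a b : Fin n) (h : a ≠ b), e = mk a b h := by
  obtain ⟨e, he⟩ := e
  induction e using Sym2.ind with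
  | _ a b => exact ⟨a, b, by simpa using he, rfl⟩

/-- One switch: `ab, ce ∈ G`, `ae, cb ∉ G`, replace the former by the latter. -/
def IsSwitch (G G1 : Finset (Edge n)) : Prop :=
  ∃ (a b c e : Fin n) (hab : a ≠ b) (hce : c ≠ e) (hae : a ≠ e) (hcb : c ≠ b)
    (_hac : a ≠ c) (_hbe : b ≠ e),
    mk a b hab ∈ G ∧ mk c e hce ∈ G ∧ mk a e hae ∉ G ∧ mk c b hcb ∉ G ∧
      G1 = (G \ {mk a b hab, mk c e hce}) ∪ {mk a e hae, mk c b hcb}

lemma IsSwitch.symm {G G1 : Finset (Edge n)} (h : IsSwitch G G1) : IsSwitch G1 G := by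
  obtain ⟨a, b, c, e, hab, hce, hae, hcb, hac, hbe, h1, h2, h3, h4, rfl⟩ := h
  have n1 : mk a b hab ≠ mk a e hae := by
    rw [Ne, mk_eq_mk_iff]; rintro (⟨-, h⟩ | ⟨h, -⟩); exacts [hbe h, hae h]
  have n2 : mk a b hab ≠ mk c b hcb := by
    rw [Ne, mk_eq_mk_iff]; rintro (⟨h, -⟩ | ⟨h, -⟩); exacts [hac h, hab h]
  have n3 : mk c e hce ≠ mk a e hae := by
    rw [Ne, mk_eq_mk_iff]; rintro (⟨h, -⟩ | ⟨h, -⟩); exacts [hac h.symm, hce h]
  have n4 : mk c e hce ≠ mk c b hcb := by
    rw [Ne, mk_eq_mk_iff]; rintro (⟨-, h⟩ | ⟨h, -⟩); exacts [hbe h.symm, hcb h]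
  refine ⟨a, e, c, b, hae, hcb, hab, hce, hac, hbe.symm, ?_, ?_, ?_, ?_, ?_⟩
  · simp
  · simp
  · simp [n1, n2]
  · simp [n3, n4]
  · ext x
    simp only [mem_union, mem_sdiff, mem_insert, mem_singleton]
    by_cases x1 : x = mk a b hab
    · subst x1; simp [h1, n1, n2]
    by_cases x2 : x = mk c e hce
    · subst x2; simp [h2, n3, n4]
    by_cases x3 : x = mk a e hae
    · subst x3; simp [h3, x1, x2]
    by_cases x4 : x = mk c b hcb
    · subst x4; simp [h4, x1, x2]
    simp [x1, x2, x3, x4]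


lemma deg_eq_sum (E : Finset (Edge n)) (v : Fin n) :
    deg E v = ∑ e ∈ E, if v ∈ e.1 then 1 else 0 := by
  unfold deg; rw [Finset.card_filter]

lemma IsSwitch.deg_eq {G G1 : Finset (Edge n)} (h : IsSwitch G G1) (v : Fin n) :
    deg G1 v = deg G v := by
  obtain ⟨a, b, c, e, hab, hce, hae, hcb, hac, hbe, h1, h2, h3, h4, rfl⟩ := h
  have m1 : mk a b hab ≠ mk c e hce := by
    rw [Ne, mk_eq_mk_iff]; rintro (⟨h, -⟩ | ⟨h, -⟩); exacts [hac h, hae h]
  have m2 : mk a e hae ≠ mk c b hcb := by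
    rw [Ne, mk_eq_mk_iff]; rintro (⟨h, -⟩ | ⟨h, -⟩); exacts [hac h, hab h]
  have hsub : ({mk a b hab, mk c e hce} : Finset (Edge n)) ⊆ G := by
    intro x hx
    simp only [mem_insert, mem_singleton] at hx
    rcases hx with rfl | rfl <;> assumption
  have hdisj : Disjoint (G \ {mk a b hab, mk c e hce}) ({mk a e hae, mk c b hcb} : Finset (Edge n)) := by
    rw [Finset.disjoint_right]
    intro x hx
    simp only [mem_insert, mem_singleton] at hx
    rcases hx with rfl | rfl <;> simp [h3, h4]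
  rw [deg_eq_sum, deg_eq_sum, Finset.sum_union hdisj, ← Finset.sum_sdiff hsub,
    Finset.sum_pair m1, Finset.sum_pair m2]
  congr 1
  simp only [mem_mk_iff]
  by_cases va : v = a
  · subst va; simp [hab, hae, hac]
  by_cases vb : v = b
  · subst vb; simp [hab.symm, hbe, hcb.symm]
  by_cases vc : v = c
  · subst vc; simp [hac.symm, hce, hcb]
  by_cases ve : v = e
  · subst ve; simp [hae.symm, hbe.symm, hce.symm]
  simp [va, vb, vc, ve]

lemma IsSwitch.mem_realizations {G G1 : Finset (Edge n)} (h : IsSwitch G G1) {d : Fin n → ℕ}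
    (hG : G ∈ realizations d) : G1 ∈ realizations d := by
  simp only [realizations, mem_filter, mem_univ, true_and] at hG ⊢
  intro v; rw [h.deg_eq, hG]

/-- adjacency -/
def Adj (G : Finset (Edge n)) (a b : Fin n) : Prop := ∃ h : a ≠ b, mk a b h ∈ G

lemma Adj.symm {G : Finset (Edge n)} {a b : Fin n} (h : Adj G a b) : Adj G b a :=
  ⟨h.fst.symm, by rw [← mk_comm]; exact h.snd⟩

lemma adj_comm {G : Finset (Edge n)} {a b : Fin n} : Adj G a b ↔ Adj G b a :=
  ⟨Adj.symm, Adj.symm⟩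

lemma adj_iff {G : Finset (Edge n)} {a b : Fin n} (h : a ≠ b) : Adj G a b ↔ mk a b h ∈ G :=
  ⟨fun h' => h'.snd, fun h' => ⟨h, h'⟩⟩

lemma not_adj_self (G : Finset (Edge n)) (a : Fin n) : ¬ Adj G a a := fun h => h.fst rfl

open Classical in
/-- integer indicator of adjacency -/
noncomputable def ind (G : Finset (Edge n)) (a b : Fin n) : ℤ := if Adj G a b then 1 else 0

lemma ind_comm (G : Finset (Edge n)) (a b : Fin n) : ind G a b = ind G b a := by
  unfold ind; rw [adj_comm]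

lemma ind_of_adj {G : Finset (Edge n)} {a b : Fin n} (h : Adj G a b) : ind G a b = 1 := by
  simp [ind, h]

lemma ind_of_not_adj {G : Finset (Edge n)} {a b : Fin n} (h : ¬ Adj G a b) : ind G a b = 0 := by
  simp [ind, h]

lemma ind_congr {G G' : Finset (Edge n)} {a b : Fin n} (h : Adj G a b ↔ Adj G' a b) :
    ind G a b = ind G' a b := by
  by_cases h' : Adj G a b
  · rw [ind_of_adj h', ind_of_adj (h.1 h')]
  · rw [ind_of_not_adj h', ind_of_not_adj (mt h.2 h')]

lemma ind_nonneg (G : Finset (Edge n)) (a b : Fin n) : 0 ≤ ind G a b := by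
  unfold ind; split_ifs <;> simp

lemma ind_le_one (G : Finset (Edge n)) (a b : Fin n) : ind G a b ≤ 1 := by
  unfold ind; split_ifs <;> simp

lemma deg_eq_sum_ind (G : Finset (Edge n)) (v : Fin n) : (deg G v : ℤ) = ∑ w, ind G v w := by
  classical
  have h1 : deg G v = (univ.filter (fun w => Adj G v w)).card := by
    unfold deg
    symm
    refine Finset.card_bij (fun w hw => mk v w (mem_filter.1 hw).2.fst) ?_ ?_ ?_
    · intro w hw
      exact mem_filter.2 ⟨(mem_filter.1 hw).2.snd, by simp⟩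
    · intro w hw w' hw' h
      rw [mk_eq_mk_iff] at h
      rcases h with ⟨-, h⟩ | ⟨h, h'⟩
      · exact h
      · exact absurd h (mem_filter.1 hw').2.fst
    · intro e he
      obtain ⟨he1, he2⟩ := mem_filter.1 he
      obtain ⟨w, hw⟩ := Sym2.mem_iff_exists.1 he2
      have hvw : v ≠ w := by
        intro h
        apply e.2
        rw [hw, h]; simp
      have hE : e = mk v w hvw := Subtype.ext hw
      exact ⟨w, mem_filter.2 ⟨mem_univ _, hvw, hE ▸ he1⟩, hE.symm⟩
  rw [h1, Finset.card_filter]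
  push_cast
  rfl


/-- least endpoint -/
def lo (e : Edge n) : Fin n := e.1.inf

lemma lo_mk (a b : Fin n) (h : a ≠ b) : lo (mk a b h) = a ⊓ b := rfl

/-- weight of an edge -/
def wt (e : Edge n) : ℕ := n - (lo e : ℕ)

/-- the potential -/
def M (G G' : Finset (Edge n)) : ℕ := ∑ e ∈ G ∆ G', wt e

lemma M_comm (G G' : Finset (Edge n)) : M G G' = M G' G := by
  unfold M; rw [symmDiff_comm]

lemma exists_mk_lt (e : Edge n) : ∃ (a b : Fin n) (h : a < b), e = mk a b h.ne := by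
  obtain ⟨a, b, h, rfl⟩ := exists_mk e
  rcases lt_or_gt_of_ne h with h' | h'
  · exact ⟨a, b, h', rfl⟩
  · exact ⟨b, a, h', mk_comm _ _ _⟩

lemma descent (G G' : Finset (Edge n)) (x y z w : Fin n) (hxy : x < y) (hxz : x < z) (hxw : x < w)
    (hyz : y ≠ z) (hwy : w ≠ y) (hwz : w ≠ z)
    (h1 : mk x y hxy.ne ∈ G) (h1' : mk x y hxy.ne ∉ G')
    (h2 : mk x z hxz.ne ∉ G) (h2' : mk x z hxz.ne ∈ G') :
    M ((G \ {mk x y hxy.ne, mk w z hwz}) ∪ {mk x z hxz.ne, mk w y hwy}) G' < M G G' := by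
  set exy := mk x y hxy.ne with hexy
  set exz := mk x z hxz.ne with hexz
  set ewz := mk w z hwz with hewz
  set ewy := mk w y hwy with hewy
  have n1 : exy ≠ exz := by
    rw [Ne, mk_eq_mk_iff]; rintro (⟨-, h⟩ | ⟨h, -⟩); exacts [hyz h, hxz.ne h]
  have n2 : ewz ≠ ewy := by
    rw [Ne, mk_eq_mk_iff]; rintro (⟨-, h⟩ | ⟨h, -⟩); exacts [hyz h.symm, hwy h]
  have hsub : ((G \ {exy, ewz}) ∪ {exz, ewy}) ∆ G' ⊆ ((G ∆ G') \ {exy, exz}) ∪ {ewz, ewy} := by
    intro e he
    simp only [mem_symmDiff, mem_union, mem_sdiff, mem_insert, mem_singleton] at he ⊢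
    by_cases e1 : e = exy
    · subst e1; simp [n1, h1'] at he; tauto
    by_cases e2 : e = exz
    · subst e2; simp [h2'] at he
    by_cases e3 : e = ewz
    · right; left; exact e3
    by_cases e4 : e = ewy
    · right; right; exact e4
    simp only [e1, e2, e3, e4, or_self, not_false_eq_true, and_true, or_false] at he ⊢
    exact he
  have hpair : ({exy, exz} : Finset (Edge n)) ⊆ G ∆ G' := by
    intro e he
    simp only [mem_insert, mem_singleton] at he
    rcases he with rfl | rfl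
    · exact mem_symmDiff.2 (Or.inl ⟨h1, h1'⟩)
    · exact mem_symmDiff.2 (Or.inr ⟨h2', h2⟩)
  have s1 : M ((G \ {exy, ewz}) ∪ {exz, ewy}) G' ≤
      ∑ e ∈ (G ∆ G') \ {exy, exz}, wt e + (wt ewz + wt ewy) := by
    unfold M
    calc _ ≤ ∑ e ∈ ((G ∆ G') \ {exy, exz}) ∪ {ewz, ewy}, wt e :=
          Finset.sum_le_sum_of_subset hsub
      _ ≤ ∑ e ∈ ((G ∆ G') \ {exy, exz}) ∪ {ewz, ewy}, wt e +
            ∑ e ∈ ((G ∆ G') \ {exy, exz}) ∩ {ewz, ewy}, wt e := Nat.le_add_right _ _
      _ = _ := by rw [Finset.sum_union_inter, Finset.sum_pair n2]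
  have s2 : M G G' = ∑ e ∈ (G ∆ G') \ {exy, exz}, wt e + (wt exy + wt exz) := by
    unfold M
    rw [← Finset.sum_sdiff hpair, Finset.sum_pair n1]
  have w1 : wt exy = n - (x : ℕ) := by
    simp only [wt, hexy, lo_mk, inf_eq_left.2 hxy.le]
  have w2 : wt exz = n - (x : ℕ) := by
    simp only [wt, hexz, lo_mk, inf_eq_left.2 hxz.le]
  have w3 : wt ewz ≤ n - ((x : ℕ) + 1) := by
    have : x < w ⊓ z := lt_inf_iff.2 ⟨hxw, hxz⟩
    have h' : (x : ℕ) < ((w ⊓ z : Fin n) : ℕ) := this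
    simp only [wt, hewz, lo_mk]
    omega
  have w4 : wt ewy ≤ n - ((x : ℕ) + 1) := by
    have : x < w ⊓ y := lt_inf_iff.2 ⟨hxw, hxy⟩
    have h' : (x : ℕ) < ((w ⊓ y : Fin n) : ℕ) := this
    simp only [wt, hewy, lo_mk]
    omega
  have hx : (x : ℕ) < n := x.2
  omega

lemma exists_other (G G' : Finset (Edge n)) (hdeg : ∀ v, deg G v = deg G' v) (x y : Fin n)
    (h1 : Adj G x y) (h2 : ¬ Adj G' x y) : ∃ z, Adj G' x z ∧ ¬ Adj G x z := by
  by_contra hcon
  push Not at hcon
  have hs : ∑ w, (ind G' x w - ind G x w) = 0 := by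
    rw [Finset.sum_sub_distrib, ← deg_eq_sum_ind, ← deg_eq_sum_ind, hdeg]; simp
  have hlt : ∑ w, (ind G' x w - ind G x w) < ∑ _w : Fin n, (0 : ℤ) := by
    refine Finset.sum_lt_sum (fun w _ => ?_) ⟨y, mem_univ _, ?_⟩
    · by_cases hw : Adj G' x w
      · rw [ind_of_adj hw, ind_of_adj (hcon w hw)]; simp
      · rw [ind_of_not_adj hw]; have := ind_nonneg G x w; omega
    · rw [ind_of_adj h1, ind_of_not_adj h2]; simp
  simp [hs] at hlt

lemma exists_w (G G' : Finset (Edge n)) (hdeg : ∀ v, deg G v = deg G' v) (x y z : Fin n)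
    (hxy : x ≠ y) (hxz : x ≠ z) (hyz : y ≠ z)
    (h1 : Adj G x y) (h1' : ¬ Adj G' x y) (h2 : ¬ Adj G x z) (h2' : Adj G' x z) :
    ∃ w, w ≠ x ∧ w ≠ y ∧ w ≠ z ∧
      0 < (ind G z w - ind G y w) + (ind G' y w - ind G' z w) := by
  by_contra hcon
  push Not at hcon
  set g : Fin n → ℤ := fun w => (ind G z w - ind G y w) + (ind G' y w - ind G' z w) with hg
  have hs : ∑ w, g w = 0 := by
    simp only [hg, Finset.sum_add_distrib, Finset.sum_sub_distrib, ← deg_eq_sum_ind, hdeg]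
    ring
  have hsplit : ∑ w ∈ univ \ {x, y, z}, g w + (g x + (g y + g z)) = ∑ w, g w := by
    rw [← Finset.sum_sdiff (Finset.subset_univ ({x, y, z} : Finset (Fin n)))]
    congr 1
    rw [Finset.sum_insert (by simp [hxy, hxz]), Finset.sum_pair hyz]
  have hrest : ∑ w ∈ univ \ {x, y, z}, g w ≤ 0 := by
    refine Finset.sum_nonpos (fun w hw => ?_)
    simp only [mem_sdiff, mem_univ, mem_insert, mem_singleton, true_and, not_or] at hw
    exact hcon w hw.1 hw.2.1 hw.2.2
  have gx : g x = -2 := by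
    simp only [hg]
    rw [ind_of_not_adj (fun h => h2 h.symm), ind_of_adj h1.symm,
      ind_of_not_adj (fun h => h1' h.symm), ind_of_adj h2'.symm]
    norm_num
  have gyz : g y + g z = 0 := by
    simp only [hg]
    rw [ind_of_not_adj (not_adj_self G y), ind_of_not_adj (not_adj_self G' y),
      ind_of_not_adj (not_adj_self G z), ind_of_not_adj (not_adj_self G' z),
      ind_comm G z y, ind_comm G' z y]
    ring
  omega

theorem reach (G G' : Finset (Edge n)) (hdeg : ∀ v, deg G v = deg G' v) :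
    Relation.ReflTransGen IsSwitch G G' := by
  induction hm : M G G' using Nat.strong_induction_on generalizing G G' with
  | _ m ih =>
  obtain rfl | hne := eq_or_ne G G'
  · exact Relation.ReflTransGen.refl
  have hD : (G ∆ G').Nonempty := by
    rw [Finset.nonempty_iff_ne_empty]
    intro h
    exact hne (symmDiff_eq_bot.1 h)
  obtain ⟨e₀, he₀, hmin⟩ := Finset.exists_min_image (G ∆ G') lo hD
  obtain ⟨x, w₀, hxw₀, rfl⟩ := exists_mk_lt e₀
  have hlo : lo (mk x w₀ hxw₀.ne) = x := by rw [lo_mk]; exact inf_eq_left.2 hxw₀.le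
  rw [hlo] at hmin
  -- agreement below x
  have agree : ∀ u v : Fin n, u < x → (Adj G u v ↔ Adj G' u v) := by
    intro u v hu
    by_contra hcon
    have huv : u ≠ v := by
      rintro rfl
      exact hcon ⟨fun h => absurd h (not_adj_self _ _), fun h => absurd h (not_adj_self _ _)⟩
    rw [adj_iff huv, adj_iff huv] at hcon
    have hmem : mk u v huv ∈ G ∆ G' := by
      rw [mem_symmDiff]; tauto
    have := hmin _ hmem
    rw [lo_mk] at this
    exact absurd (lt_of_le_of_lt (le_trans this inf_le_left) hu) (lt_irrefl _)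
  -- the two edges at x
  obtain ⟨y, z, h1, h1', h2, h2'⟩ : ∃ y z, Adj G x y ∧ ¬ Adj G' x y ∧ ¬ Adj G x z ∧ Adj G' x z := by
    rcases mem_symmDiff.1 he₀ with ⟨ha, hb⟩ | ⟨ha, hb⟩
    · have a1 : Adj G x w₀ := ⟨_, ha⟩
      have a2 : ¬ Adj G' x w₀ := fun h => hb h.snd
      obtain ⟨z, hz1, hz2⟩ := exists_other G G' hdeg x w₀ a1 a2
      exact ⟨w₀, z, a1, a2, hz2, hz1⟩
    · have a1 : Adj G' x w₀ := ⟨_, ha⟩
      have a2 : ¬ Adj G x w₀ := fun h => hb h.snd
      obtain ⟨y, hy1, hy2⟩ := exists_other G' G (fun v => (hdeg v).symm) x w₀ a1 a2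
      exact ⟨y, w₀, hy1, hy2, a2, a1⟩
  have hxy : x < y := by
    have hmem : mk x y h1.fst ∈ G ∆ G' :=
      mem_symmDiff.2 (Or.inl ⟨h1.snd, fun h => h1' ⟨_, h⟩⟩)
    have := hmin _ hmem
    rw [lo_mk] at this
    exact lt_of_le_of_ne (le_trans this inf_le_right) h1.fst
  have hxz : x < z := by
    have hmem : mk x z h2'.fst ∈ G ∆ G' :=
      mem_symmDiff.2 (Or.inr ⟨h2'.snd, fun h => h2 ⟨_, h⟩⟩)
    have := hmin _ hmem
    rw [lo_mk] at this
    exact lt_of_le_of_ne (le_trans this inf_le_right) h2'.fst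
  have hyz : y ≠ z := by rintro rfl; exact h2 h1
  obtain ⟨w, hwx, hwy, hwz, hw⟩ := exists_w G G' hdeg x y z hxy.ne hxz.ne hyz h1 h1' h2 h2'
  have hxw : x < w := by
    rcases lt_or_gt_of_ne hwx with h | h
    · exfalso
      have e1 : ind G z w = ind G' z w := by
        rw [ind_comm G, ind_comm G']; exact ind_congr (agree w z h)
      have e2 : ind G y w = ind G' y w := by
        rw [ind_comm G, ind_comm G']; exact ind_congr (agree w y h)
      rw [e1, e2] at hw
      omega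
    · exact h
  have hcases : (Adj G z w ∧ ¬ Adj G y w) ∨ (Adj G' y w ∧ ¬ Adj G' z w) := by
    by_contra hcon
    push Not at hcon
    have c1 : ind G z w - ind G y w ≤ 0 := by
      by_cases h : Adj G z w
      · rw [ind_of_adj h, ind_of_adj (hcon.1 h)]; simp
      · rw [ind_of_not_adj h]; have := ind_nonneg G y w; omega
    have c2 : ind G' y w - ind G' z w ≤ 0 := by
      by_cases h : Adj G' y w
      · rw [ind_of_adj h, ind_of_adj (hcon.2 h)]; simp
      · rw [ind_of_not_adj h]; have := ind_nonneg G' z w; omega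
    omega
  rcases hcases with ⟨c1, c2⟩ | ⟨c1, c2⟩
  · -- switch in G
    have hsw : IsSwitch G ((G \ {mk x y hxy.ne, mk w z hwz}) ∪ {mk x z hxz.ne, mk w y hwy}) :=
      ⟨x, y, w, z, hxy.ne, hwz, hxz.ne, hwy, hwx.symm, hyz, h1.snd, c1.symm.snd,
        fun h => h2 ⟨_, h⟩, fun h => c2 (Adj.symm ⟨_, h⟩), rfl⟩
    have hlt := descent G G' x y z w hxy hxz hxw hyz hwy hwz h1.snd (fun h => h1' ⟨_, h⟩)
      (fun h => h2 ⟨_, h⟩) h2'.snd
    exact Relation.ReflTransGen.head hsw
      (ih _ (hm ▸ hlt) _ _ (fun v => by rw [hsw.deg_eq, hdeg]) rfl)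
  · -- switch in G'
    have hsw : IsSwitch G' ((G' \ {mk x z hxz.ne, mk w y hwy}) ∪ {mk x y hxy.ne, mk w z hwz}) :=
      ⟨x, z, w, y, hxz.ne, hwy, hxy.ne, hwz, hwx.symm, hyz.symm, h2'.snd, c1.symm.snd,
        fun h => h1' ⟨_, h⟩, fun h => c2 (Adj.symm ⟨_, h⟩), rfl⟩
    have hlt := descent G' G x z y w hxz hxy hxw hyz.symm hwz hwy h2'.snd (fun h => h2 ⟨_, h⟩)
      (fun h => h1' ⟨_, h⟩) h1.snd
    rw [M_comm, M_comm G' G] at hlt
    exact Relation.ReflTransGen.tail
      (ih _ (hm ▸ hlt) _ _ (fun v => by rw [hsw.deg_eq, hdeg]) rfl) hsw.symm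

theorem connected {d : Fin n → ℕ} {G G' : Finset (Edge n)} (hG : G ∈ realizations d)
    (hG' : G' ∈ realizations d) : Relation.ReflTransGen IsSwitch G G' := by
  simp only [realizations, mem_filter, mem_univ, true_and] at hG hG'
  exact reach G G' (fun v => by rw [hG, hG'])

/-- A function that is invariant under switches is constant on the realizations. -/
theorem const_of_switch_invariant {α : Type*} {d : Fin n → ℕ} (f : Finset (Edge n) → α)
    (h : ∀ G ∈ realizations d, ∀ G1, IsSwitch G G1 → f G = f G1) :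
    ∀ G ∈ realizations d, ∀ G' ∈ realizations d, f G = f G' := by
  intro G hG G' hG'
  have key : ∀ G1, Relation.ReflTransGen IsSwitch G G1 → G1 ∈ realizations d ∧ f G = f G1 := by
    intro G1 hr
    induction hr with
    | refl => exact ⟨hG, rfl⟩
    | tail _ hs ih => exact ⟨hs.mem_realizations ih.1, ih.2.trans (h _ ih.1 _ hs)⟩
  exact (key G' (connected hG hG')).2

end Crest.Agent.S0453Conn
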