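import Crest.Agent.S0453_Defs
import Crest.Agent.S0453_Conn

/-!
# S0453, package B3 (`sw_connected`) in the interface of `S0453_Defs`.
-/

set_option autoImplicit false
open Finset
open Crest.SwitchChain

namespace Crest.Agent.S0453D

variable {n : ℕ}

namespace B3

lemma adj_iff_mk {G : Gr n} {u v : Fin n} (h : u ≠ v) :
    adj G u v ↔ Crest.Agent.S0453Conn.mk u v h ∈ G := by
  constructor
  · rintro ⟨e, he, hs⟩
    have : e = Crest.Agent.S0453Conn.mk u v h := Subtype.ext hs
    rwa [← this]
  · intro hm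
    exact ⟨_, hm, rfl⟩

lemma not_adj_self (G : Gr n) (u : Fin n) : ¬ adj G u u := by
  rintro ⟨e, _, hs⟩
  apply e.2
  rw [hs]; simp

lemma sw_of_conn {G G' : Gr n} (h : Crest.Agent.S0453Conn.IsSwitch G G') : Sw G G' := by
  obtain ⟨a, b, c, e, hab, hce, hae, hcb, hac, hbe, h1, h2, h3, h4, rfl⟩ := h
  refine ⟨a, b, e, c, hab, hae, hac, hbe, hcb.symm, hce.symm, (adj_iff_mk hab).mpr h1, ?_,
    fun h => h3 ((adj_iff_mk hae).mp h), ?_, ?_⟩
  · rw [adj_iff_mk hce.symm, Crest.Agent.S0453Conn.mk_comm e c hce.symm]; exact h2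
  · intro h
    rw [adj_iff_mk hcb.symm, Crest.Agent.S0453Conn.mk_comm b c hcb.symm] at h
    exact h4 h
  · intro x y
    by_cases hxy : x = y
    · subst hxy
      constructor
      · intro h; exact absurd h (not_adj_self _ _)
      · rintro (⟨h, _⟩ | h | h)
        · exact absurd h (not_adj_self _ _)
        · exfalso
          rw [Sym2.eq_iff] at h
          rcases h with ⟨h5, h6⟩ | ⟨h5, h6⟩
          · exact hae (h5 ▸ h6)
          · exact hae (h6 ▸ h5)
        · exfalso
          rw [Sym2.eq_iff] at h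
          rcases h with ⟨h5, h6⟩ | ⟨h5, h6⟩
          · exact hcb (h6.symm.trans h5)
          · exact hcb (h5.symm.trans h6)
    · rw [adj_iff_mk hxy, adj_iff_mk hxy]
      have e1 : ∀ (p q : Fin n) (hpq : p ≠ q),
          Crest.Agent.S0453Conn.mk x y hxy = Crest.Agent.S0453Conn.mk p q hpq ↔
            s(x, y) = s(p, q) := by
        intro p q hpq
        constructor
        · intro h; exact congrArg Subtype.val h
        · intro h; exact Subtype.ext h
      simp only [Finset.mem_union, Finset.mem_sdiff, Finset.mem_insert, Finset.mem_singleton,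
        not_or, e1, Ne]
      have s1 : s(c, e) = s(e, c) := Sym2.eq_swap
      have s2 : s(c, b) = s(b, c) := Sym2.eq_swap
      rw [s1, s2]

end B3

open B3 in
/-- **B3**. -/
theorem sw_connected (d : Fin n → ℕ) (f : Gr n → ℝ)
    (hf : ∀ G ∈ realizations d, ∀ G' ∈ realizations d, Sw G G' → f G = f G') :
    ∀ G ∈ realizations d, ∀ G' ∈ realizations d, f G = f G' :=
  Crest.Agent.S0453Conn.const_of_switch_invariant f
    (fun G hG G1 h => hf G hG G1 (h.mem_realizations hG) (sw_of_conn h))

end Crest.Agent.S0453D
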