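import Crest.Agent.S0453_Defs

/-! # S0453, package B0 : graph API (adjacency language for `Finset (Edge n)`) -/

set_option autoImplicit false
open Finset
open Crest.SwitchChain

namespace Crest.Agent.S0453D

variable {n : ℕ}

/-- the edge `uv`. -/
def mkE (u v : Fin n) (h : u ≠ v) : Edge n := ⟨s(u, v), by simpa using h⟩

lemma mkE_val (u v : Fin n) (h : u ≠ v) : (mkE u v h).1 = s(u, v) := rfl

lemma mkE_comm (u v : Fin n) (h : u ≠ v) : mkE u v h = mkE v u h.symm := by
  apply Subtype.ext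
  simp [mkE, Sym2.eq_swap]

lemma mkE_eq_iff {u v x y : Fin n} (h : u ≠ v) (h' : x ≠ y) :
    mkE u v h = mkE x y h' ↔ s(u, v) = s(x, y) := by
  simp [mkE, Subtype.ext_iff]

lemma exists_mkE (e : Edge n) : ∃ u v, ∃ h : u ≠ v, e = mkE u v h := by
  obtain ⟨e, he⟩ := e
  induction e using Sym2.ind with
  | _ u v => exact ⟨u, v, by simpa using he, rfl⟩

lemma adj_congr {G : Gr n} {u v x y : Fin n} (h : s(u, v) = s(x, y)) :
    adj G u v ↔ adj G x y := by
  unfold adj; rw [h]

lemma adj_comm {G : Gr n} {u v : Fin n} : adj G u v ↔ adj G v u :=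
  adj_congr Sym2.eq_swap

lemma adj.ne {G : Gr n} {u v : Fin n} (h : adj G u v) : u ≠ v := by
  obtain ⟨e, _, he⟩ := h
  have := e.2
  rw [he] at this
  simpa using this

lemma not_adj_self (G : Gr n) (u : Fin n) : ¬ adj G u u := fun h => h.ne rfl

lemma mkE_mem_iff {G : Gr n} {u v : Fin n} (h : u ≠ v) : mkE u v h ∈ G ↔ adj G u v := by
  constructor
  · intro hm; exact ⟨_, hm, rfl⟩
  · rintro ⟨e, he, heq⟩
    have : e = mkE u v h := Subtype.ext heq
    rwa [← this]

lemma ext_adj {G G' : Gr n} (h : ∀ u v, adj G u v ↔ adj G' u v) : G = G' := by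
  ext e
  obtain ⟨u, v, huv, rfl⟩ := exists_mkE e
  rw [mkE_mem_iff, mkE_mem_iff, h]

lemma mem_mkE {u v x : Fin n} (h : u ≠ v) : x ∈ (mkE u v h).1 ↔ x = u ∨ x = v := by
  simp [mkE]

open Classical in
/-- the graph with adjacency relation `r` (meant for symmetric `r`; the diagonal is ignored). -/
noncomputable def ofRel (r : Fin n → Fin n → Prop) : Gr n :=
  univ.filter fun e => ∃ u v, e.1 = s(u, v) ∧ r u v

lemma adj_ofRel {r : Fin n → Fin n → Prop} (hr : ∀ u v, r u v → r v u) {u v : Fin n} :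
    adj (ofRel r) u v ↔ u ≠ v ∧ r u v := by
  constructor
  · intro h
    refine ⟨h.ne, ?_⟩
    obtain ⟨e, he, heq⟩ := h
    simp only [ofRel, mem_filter, mem_univ, true_and] at he
    obtain ⟨x, y, hxy, hrxy⟩ := he
    rw [heq, Sym2.eq_iff] at hxy
    rcases hxy with ⟨rfl, rfl⟩ | ⟨rfl, rfl⟩
    · exact hrxy
    · exact hr _ _ hrxy
  · rintro ⟨hne, hruv⟩
    refine ⟨mkE u v hne, ?_, rfl⟩
    simp only [ofRel, mem_filter, mem_univ, true_and]
    exact ⟨u, v, rfl, hruv⟩

open Classical in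
/-- neighbourhood. -/
noncomputable def nb (G : Gr n) (u : Fin n) : Finset (Fin n) := univ.filter fun v => adj G u v

lemma mem_nb {G : Gr n} {u v : Fin n} : v ∈ nb G u ↔ adj G u v := by
  simp [nb]

lemma deg_eq_card_nb (G : Gr n) (u : Fin n) : deg G u = (nb G u).card := by
  symm
  unfold deg
  refine Finset.card_bij (fun v hv => mkE u v (mem_nb.1 hv).ne) ?_ ?_ ?_
  · intro v hv
    rw [mem_filter]
    exact ⟨(mkE_mem_iff _).2 (mem_nb.1 hv), (mem_mkE _).2 (Or.inl rfl)⟩
  · intro v hv w hw h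
    rw [mkE_eq_iff, Sym2.eq_iff] at h
    rcases h with ⟨_, h⟩ | ⟨h1, h2⟩
    · exact h
    · exact absurd h2.symm (mem_nb.1 hv).ne
  · intro e he
    rw [mem_filter] at he
    obtain ⟨x, y, hxy, rfl⟩ := exists_mkE e
    rcases (mem_mkE hxy).1 he.2 with rfl | rfl
    · exact ⟨y, mem_nb.2 ((mkE_mem_iff _).1 he.1), rfl⟩
    · exact ⟨x, mem_nb.2 (adj_comm.1 ((mkE_mem_iff _).1 he.1)), (mkE_comm _ _ _)⟩

lemma mem_realizations {d : Fin n → ℕ} {G : Gr n} :
    G ∈ realizations d ↔ ∀ v, (nb G v).card = d v := by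
  simp [realizations, deg_eq_card_nb]

/-- splitting a degree along a partition of the vertex set into `S` and its complement. -/
lemma card_nb_split (G : Gr n) (u : Fin n) (S : Finset (Fin n)) :
    (nb G u).card = (nb G u ∩ S).card + (nb G u \ S).card :=
  (Finset.card_inter_add_card_sdiff _ _).symm

lemma adj_filter {G : Gr n} {p : Edge n → Prop} [DecidablePred p] {u v : Fin n} :
    adj (G.filter p) u v ↔ ∃ h : u ≠ v, adj G u v ∧ p (mkE u v h) := by
  constructor
  · intro h
    have hne := h.ne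
    have := (mkE_mem_iff hne).2 h
    rw [mem_filter] at this
    exact ⟨hne, (mkE_mem_iff hne).1 this.1, this.2⟩
  · rintro ⟨hne, h1, h2⟩
    exact (mkE_mem_iff hne).1 (mem_filter.2 ⟨(mkE_mem_iff hne).2 h1, h2⟩)

lemma filter_eq_filter_iff {G G' : Gr n} {p : Edge n → Prop} [DecidablePred p] :
    G.filter p = G'.filter p ↔ ∀ u v, ∀ h : u ≠ v, p (mkE u v h) → (adj G u v ↔ adj G' u v) := by
  constructor
  · intro h u v hne hp
    have h1 : mkE u v hne ∈ G.filter p ↔ mkE u v hne ∈ G'.filter p := by rw [h]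
    simp only [mem_filter, hp, and_true, mkE_mem_iff] at h1
    exact h1
  · intro h
    ext e
    obtain ⟨u, v, hne, rfl⟩ := exists_mkE e
    simp only [mem_filter, mkE_mem_iff]
    constructor
    · rintro ⟨h1, h2⟩; exact ⟨(h u v hne h2).1 h1, h2⟩
    · rintro ⟨h1, h2⟩; exact ⟨(h u v hne h2).2 h1, h2⟩

lemma keyP_eq_iff {G G' : Gr n} {u v : Fin n} :
    keyP u v G = keyP u v G' ↔
      ∀ x y, ((x ≠ u ∧ x ≠ v ∧ y ≠ u ∧ y ≠ v) ∨ s(x, y) = s(u, v)) →
        (adj G x y ↔ adj G' x y) := by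
  unfold keyP
  rw [filter_eq_filter_iff]
  constructor
  · intro h x y hxy
    by_cases hne : x = y
    · subst hne
      exact iff_of_false (not_adj_self _ _) (not_adj_self _ _)
    · apply h x y hne
      rcases hxy with ⟨h1, h2, h3, h4⟩ | h5
      · left
        rw [mem_mkE, mem_mkE]
        exact ⟨fun h => h.elim (fun h => h1 h.symm) (fun h => h3 h.symm),
          fun h => h.elim (fun h => h2 h.symm) (fun h => h4 h.symm)⟩
      · right; exact h5
  · intro h x y hne hp
    apply h x y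
    rcases hp with ⟨h1, h2⟩ | h5
    · left
      rw [mem_mkE] at h1 h2
      exact ⟨fun h => h1 (Or.inl h.symm), fun h => h2 (Or.inl h.symm),
        fun h => h1 (Or.inr h.symm), fun h => h2 (Or.inr h.symm)⟩
    · right; exact h5

lemma mkE_mem_cross {u v w z x y : Fin n} (hxy : x ≠ y) :
    mkE x y hxy ∈ cross u v w z ↔
      (s(x, y) = s(u, w) ∨ s(x, y) = s(u, z) ∨ s(x, y) = s(v, w) ∨ s(x, y) = s(v, z)) := by
  simp [cross, mkE]

lemma adj_flipB {G : Gr n} {u v w z x y : Fin n} (hxy : x ≠ y) :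
    adj (flipB u v w z G) x y ↔
      Xor (adj G x y) (s(x, y) = s(u, w) ∨ s(x, y) = s(u, z) ∨ s(x, y) = s(v, w) ∨
        s(x, y) = s(v, z)) := by
  rw [← mkE_mem_iff hxy, flipB, Finset.mem_symmDiff, mkE_mem_cross, mkE_mem_iff]
  rfl

lemma isP_symm {G : Gr n} {u v w z : Fin n} : isP u v w z G ↔ isP w z u v G := by
  unfold isP
  rw [adj_comm (u := w) (v := u), adj_comm (u := z) (v := v), adj_comm (u := w) (v := v),
    adj_comm (u := z) (v := u)]
  tauto

lemma OmP_symm (d : Fin n → ℕ) (u v w z : Fin n) : OmP d u v w z = OmP d w z u v := by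
  unfold OmP
  ext G
  simp only [mem_filter]
  rw [isP_symm]

/-- auxiliary: distinctness facts for unordered pairs. -/
lemma sym2_ne_of_ne {a b c d : Fin n} (h1 : a ≠ c ∨ b ≠ d) (h2 : a ≠ d ∨ b ≠ c) :
    s(a, b) ≠ s(c, d) := by
  intro h
  rw [Sym2.eq_iff] at h
  rcases h with ⟨rfl, rfl⟩ | ⟨rfl, rfl⟩
  · simp at h1
  · simp at h2

/-- existence of the switched graph. -/
lemma exists_isSwitch {G : Gr n} {a b c d : Fin n} (hab : a ≠ b) (hac : a ≠ c) (had : a ≠ d)
    (hbc : b ≠ c) (hbd : b ≠ d) (hcd : c ≠ d) (h1 : adj G a b) (h2 : adj G c d)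
    (h3 : ¬ adj G a c) (h4 : ¬ adj G b d) : ∃ G', IsSwitch G G' a b c d := by
  refine ⟨ofRel (fun x y => (adj G x y ∧ s(x, y) ≠ s(a, b) ∧ s(x, y) ≠ s(c, d)) ∨
    s(x, y) = s(a, c) ∨ s(x, y) = s(b, d)), hab, hac, had, hbc, hbd, hcd, h1, h2, h3, h4, ?_⟩
  intro x y
  rw [adj_ofRel]
  · constructor
    · exact fun h => h.2
    · intro h
      refine ⟨?_, h⟩
      rintro rfl
      rcases h with h | h | h
      · exact not_adj_self _ _ h.1
      · rw [Sym2.eq_iff] at h
        rcases h with ⟨h, h'⟩ | ⟨h, h'⟩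
        · exact hac (h.symm.trans h')
        · exact hac (h'.symm.trans h)
      · rw [Sym2.eq_iff] at h
        rcases h with ⟨h, h'⟩ | ⟨h, h'⟩
        · exact hbd (h.symm.trans h')
        · exact hbd (h'.symm.trans h)
  · intro u v h
    rw [adj_comm, Sym2.eq_swap (a := v) (b := u)]
    exact h

lemma IsSwitch.card_nb {G G' : Gr n} {a b c d : Fin n} (h : IsSwitch G G' a b c d) (v : Fin n) :
    (nb G' v).card = (nb G v).card := by
  classical
  obtain ⟨hab, hac, had, hbc, hbd, hcd, h1, h2, h3, h4, h5⟩ := h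
  set Rem : Finset (Fin n) :=
    univ.filter (fun y => s(v, y) = s(a, b) ∨ s(v, y) = s(c, d)) with hRem
  set Add : Finset (Fin n) :=
    univ.filter (fun y => s(v, y) = s(a, c) ∨ s(v, y) = s(b, d)) with hAdd
  have hnb : nb G' v = (nb G v \ Rem) ∪ Add := by
    ext y
    simp only [mem_nb, mem_union, mem_sdiff, hRem, hAdd, mem_filter, mem_univ, true_and, not_or]
    exact h5 v y
  have hsub : Rem ⊆ nb G v := by
    intro y hy
    simp only [hRem, mem_filter, mem_univ, true_and] at hy
    rw [mem_nb]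
    rcases hy with hy | hy
    · exact (adj_congr hy).2 h1
    · exact (adj_congr hy).2 h2
  have hdisj : Disjoint (nb G v \ Rem) Add := by
    rw [Finset.disjoint_left]
    intro y hy hy'
    simp only [hAdd, mem_filter, mem_univ, true_and] at hy'
    have hy1 := mem_nb.1 (mem_sdiff.1 hy).1
    rcases hy' with hy' | hy'
    · exact h3 ((adj_congr hy').1 hy1)
    · exact h4 ((adj_congr hy').1 hy1)
  have hcard : Rem.card = Add.card := by
    by_cases va : v = a
    · subst va
      have r1 : Rem = {b} := by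
        ext y; simp [hRem, hab, hac, had]
      have r2 : Add = {c} := by
        ext y; simp [hAdd, hab, hac, had]
      rw [r1, r2]; simp
    by_cases vb : v = b
    · subst vb
      have r1 : Rem = {a} := by
        ext y; simp [hRem, hab.symm, hbc, hbd]
      have r2 : Add = {d} := by
        ext y; simp [hAdd, hab.symm, hbc, hbd]
      rw [r1, r2]; simp
    by_cases vc : v = c
    · subst vc
      have r1 : Rem = {d} := by
        ext y; simp [hRem, hac.symm, hbc.symm, hcd]
      have r2 : Add = {a} := by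
        ext y; simp [hAdd, hac.symm, hbc.symm, hcd]
      rw [r1, r2]; simp
    by_cases vd : v = d
    · subst vd
      have r1 : Rem = {c} := by
        ext y; simp [hRem, had.symm, hbd.symm, hcd.symm]
      have r2 : Add = {b} := by
        ext y; simp [hAdd, had.symm, hbd.symm, hcd.symm]
      rw [r1, r2]; simp
    have r1 : Rem = ∅ := by
      ext y; simp [hRem, va, vb, vc, vd]
    have r2 : Add = ∅ := by
      ext y; simp [hAdd, va, vb, vc, vd]
    rw [r1, r2]
  rw [hnb, card_union_of_disjoint hdisj, card_sdiff_of_subset hsub]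
  have := card_le_card hsub
  omega

/-- a switch preserves the degrees. -/
lemma IsSwitch.mem_realizations {G G' : Gr n} {a b c d : Fin n} (h : IsSwitch G G' a b c d)
    {dd : Fin n → ℕ} (hG : G ∈ realizations dd) : G' ∈ realizations dd := by
  rw [S0453D.mem_realizations] at hG ⊢
  intro v
  rw [h.card_nb, hG]

lemma IsSwitch.symm {G G' : Gr n} {a b c d : Fin n} (h : IsSwitch G G' a b c d) :
    IsSwitch G' G a c b d := by
  obtain ⟨hab, hac, had, hbc, hbd, hcd, h1, h2, h3, h4, h5⟩ := h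
  have e1 : s(a, b) ≠ s(a, c) := sym2_ne_of_ne (Or.inr hbc) (Or.inl hac)
  have e2 : s(a, b) ≠ s(b, d) := sym2_ne_of_ne (Or.inl hab) (Or.inl had)
  have e3 : s(c, d) ≠ s(a, c) := sym2_ne_of_ne (Or.inl hac.symm) (Or.inr had.symm)
  have e4 : s(c, d) ≠ s(b, d) := sym2_ne_of_ne (Or.inl hbc.symm) (Or.inl hcd)
  have e5 : s(a, b) ≠ s(c, d) := sym2_ne_of_ne (Or.inl hac) (Or.inl had)
  have e6 : s(a, c) ≠ s(b, d) := sym2_ne_of_ne (Or.inl hab) (Or.inl had)
  refine ⟨hac, hab, had, hbc.symm, hcd, hbd, (h5 a c).2 (Or.inr (Or.inl rfl)),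
    (h5 b d).2 (Or.inr (Or.inr rfl)), ?_, ?_, ?_⟩
  · rw [h5]
    rintro (h | h | h)
    · exact h.2.1 rfl
    · exact e1 h
    · exact e2 h
  · rw [h5]
    rintro (h | h | h)
    · exact h.2.2 rfl
    · exact e3 h
    · exact e4 h
  · intro x y
    rw [h5]
    constructor
    · intro h
      by_cases hx1 : s(x, y) = s(a, b)
      · exact Or.inr (Or.inl hx1)
      by_cases hx2 : s(x, y) = s(c, d)
      · exact Or.inr (Or.inr hx2)
      refine Or.inl ⟨Or.inl ⟨h, hx1, hx2⟩, ?_, ?_⟩
      · intro hx; exact h3 ((adj_congr hx).1 h)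
      · intro hx; exact h4 ((adj_congr hx).1 h)
    · rintro (⟨h | h | h, h6, h7⟩ | h | h)
      · exact h.1
      · exact absurd h h6
      · exact absurd h h7
      · exact (adj_congr h).2 h1
      · exact (adj_congr h).2 h2

/-- edge-set form of a switch (link with `switchResult`). -/
lemma IsSwitch.eq {G G' : Gr n} {a b c d : Fin n} (h : IsSwitch G G' a b c d) :
    G' = G \ {mkE a b h.1, mkE c d h.2.2.2.2.2.1} ∪ {mkE a c h.2.1, mkE b d h.2.2.2.2.1} := by
  ext e
  obtain ⟨x, y, hxy, rfl⟩ := exists_mkE e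
  simp only [mem_union, mem_sdiff, mem_insert, mem_singleton, mkE_mem_iff, mkE_eq_iff, not_or]
  exact h.2.2.2.2.2.2.2.2.2.2 x y

/-- on `isP` graphs `flipB` is a switch. -/
lemma isSwitch_flipB {G : Gr n} {u v w z : Fin n}
    (huv : u ≠ v) (huw : u ≠ w) (huz : u ≠ z) (hvw : v ≠ w) (hvz : v ≠ z) (hwz : w ≠ z)
    (h : isP u v w z G) : Sw G (flipB u v w z G) := by
  rcases h with ⟨h1, h2, h3, h4⟩ | ⟨h1, h2, h3, h4⟩
  · refine ⟨u, w, z, v, huw, huz, huv, hwz, hvw.symm, hvz.symm, h1, adj_comm.1 h2, h3,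
      fun h => h4 (adj_comm.1 h), ?_⟩
    intro x y
    by_cases hxy : x = y
    · subst hxy
      refine iff_of_false (not_adj_self _ _) ?_
      rintro (h | h | h)
      · exact not_adj_self _ _ h.1
      · exact huz (by rw [Sym2.eq_iff] at h; rcases h with ⟨h, h'⟩ | ⟨h, h'⟩
                      · exact h.symm.trans h'
                      · exact h'.symm.trans h)
      · exact hvw (by rw [Sym2.eq_iff] at h; rcases h with ⟨h, h'⟩ | ⟨h, h'⟩
                      · exact h'.symm.trans h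
                      · exact h.symm.trans h')
    · rw [adj_flipB hxy, Sym2.eq_swap (a := z) (b := v), Sym2.eq_swap (a := w) (b := v)]
      have i1 : s(x, y) = s(u, w) → adj G x y := fun h => (adj_congr h).2 h1
      have i2 : s(x, y) = s(v, z) → adj G x y := fun h => (adj_congr h).2 h2
      have i3 : s(x, y) = s(u, z) → ¬ adj G x y := fun h h' => h3 ((adj_congr h).1 h')
      have i4 : s(x, y) = s(v, w) → ¬ adj G x y := fun h h' => h4 ((adj_congr h).1 h')
      unfold Xor
      tauto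
  · refine ⟨u, z, w, v, huz, huw, huv, hwz.symm, hvz.symm, hvw.symm, h1, adj_comm.1 h2, h3,
      fun h => h4 (adj_comm.1 h), ?_⟩
    intro x y
    by_cases hxy : x = y
    · subst hxy
      refine iff_of_false (not_adj_self _ _) ?_
      rintro (h | h | h)
      · exact not_adj_self _ _ h.1
      · exact huw (by rw [Sym2.eq_iff] at h; rcases h with ⟨h, h'⟩ | ⟨h, h'⟩
                      · exact h.symm.trans h'
                      · exact h'.symm.trans h)
      · exact hvz (by rw [Sym2.eq_iff] at h; rcases h with ⟨h, h'⟩ | ⟨h, h'⟩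
                      · exact h'.symm.trans h
                      · exact h.symm.trans h')
    · rw [adj_flipB hxy, Sym2.eq_swap (a := w) (b := v), Sym2.eq_swap (a := z) (b := v)]
      have i1 : s(x, y) = s(u, z) → adj G x y := fun h => (adj_congr h).2 h1
      have i2 : s(x, y) = s(v, w) → adj G x y := fun h => (adj_congr h).2 h2
      have i3 : s(x, y) = s(u, w) → ¬ adj G x y := fun h h' => h3 ((adj_congr h).1 h')
      have i4 : s(x, y) = s(v, z) → ¬ adj G x y := fun h h' => h4 ((adj_congr h).1 h')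
      unfold Xor
      tauto

end Crest.Agent.S0453D
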