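import Crest.Agent.S0453_DisjDefs
import Crest.Agent.S0453_Graph

/-! # S0453, package B5, parts L5 + L6 : the block, the keys and `flipB` -/

set_option autoImplicit false
set_option linter.unusedVariables false
open Finset
open Crest.SwitchChain

namespace Crest.Agent.S0453D

variable {n : ℕ}

namespace DisjFlip

lemma blk_eq_iff {u v w z : Fin n} {G G' : Gr n} :
    blk u v w z G = blk u v w z G' ↔
      (adj G u w ↔ adj G' u w) ∧ (adj G u z ↔ adj G' u z) ∧ (adj G v w ↔ adj G' v w) ∧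
        (adj G v z ↔ adj G' v z) := by
  classical
  simp only [blk, Prod.mk.injEq, decide_eq_decide]

end DisjFlip

open DisjFlip

/-- L5 : the three pieces determine the graph (the two pairs must be disjoint). -/
theorem ext_of_keys (u v w z : Fin n)
    (huw : u ≠ w) (huz : u ≠ z) (hvw : v ≠ w) (hvz : v ≠ z) {G G' : Gr n}
    (hp : keyP w z G = keyP w z G') (hq : keyP u v G = keyP u v G')
    (hb : blk u v w z G = blk u v w z G') : G = G' := by
  rw [keyP_eq_iff] at hp hq
  rw [blk_eq_iff] at hb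
  obtain ⟨b1, b2, b3, b4⟩ := hb
  apply ext_adj
  intro x y
  by_cases hxu : x = u
  · subst hxu
    by_cases hyw : y = w
    · subst hyw; exact b1
    by_cases hyz : y = z
    · subst hyz; exact b2
    exact hp x y (Or.inl ⟨huw, huz, hyw, hyz⟩)
  by_cases hxv : x = v
  · subst hxv
    by_cases hyw : y = w
    · subst hyw; exact b3
    by_cases hyz : y = z
    · subst hyz; exact b4
    exact hp x y (Or.inl ⟨hvw, hvz, hyw, hyz⟩)
  by_cases hyu : y = u
  · subst hyu
    by_cases hxw : x = w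
    · subst hxw; rw [adj_comm, adj_comm (G := G')]; exact b1
    by_cases hxz : x = z
    · subst hxz; rw [adj_comm, adj_comm (G := G')]; exact b2
    exact hp x y (Or.inl ⟨hxw, hxz, huw, huz⟩)
  by_cases hyv : y = v
  · subst hyv
    by_cases hxw : x = w
    · subst hxw; rw [adj_comm, adj_comm (G := G')]; exact b3
    by_cases hxz : x = z
    · subst hxz; rw [adj_comm, adj_comm (G := G')]; exact b4
    exact hp x y (Or.inl ⟨hxw, hxz, hvw, hvz⟩)
  exact hq x y (Or.inl ⟨hxu, hxv, hyu, hyv⟩)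

theorem isP_iff_blk (u v w z : Fin n) (G : Gr n) :
    isP u v w z G ↔ blk u v w z G = (true, false, false, true) ∨
      blk u v w z G = (false, true, true, false) := by
  classical
  simp only [isP, blk, Prod.mk.injEq, decide_eq_true_eq, decide_eq_false_iff_not]
  tauto

theorem blk_flipB (u v w z : Fin n)
    (huv : u ≠ v) (huw : u ≠ w) (huz : u ≠ z) (hvw : v ≠ w) (hvz : v ≠ z) (hwz : w ≠ z)
    (G : Gr n) : blk u v w z (flipB u v w z G) = notB (blk u v w z G) := by
  classical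
  simp only [blk, notB, Prod.mk.injEq]
  refine ⟨?_, ?_, ?_, ?_⟩
  · rw [← decide_not, decide_eq_decide, adj_flipB huw]; unfold Xor; simp
  · rw [← decide_not, decide_eq_decide, adj_flipB huz]; unfold Xor; simp
  · rw [← decide_not, decide_eq_decide, adj_flipB hvw]; unfold Xor; simp
  · rw [← decide_not, decide_eq_decide, adj_flipB hvz]; unfold Xor; simp

theorem keyP_wz_flipB (u v w z : Fin n)
    (huv : u ≠ v) (huw : u ≠ w) (huz : u ≠ z) (hvw : v ≠ w) (hvz : v ≠ z) (hwz : w ≠ z)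
    (G : Gr n) : keyP w z (flipB u v w z G) = keyP w z G := by
  rw [keyP_eq_iff]
  intro x y h
  by_cases hxy : x = y
  · subst hxy
    exact ⟨fun h => absurd h (not_adj_self _ _), fun h => absurd h (not_adj_self _ _)⟩
  rw [adj_flipB hxy]
  have hc : ¬ (s(x, y) = s(u, w) ∨ s(x, y) = s(u, z) ∨ s(x, y) = s(v, w) ∨ s(x, y) = s(v, z)) := by
    rcases h with ⟨h1, h2, h3, h4⟩ | h
    · simp only [Sym2.eq_iff]
      rintro ((⟨_, e⟩ | ⟨e, _⟩) | (⟨_, e⟩ | ⟨e, _⟩) | (⟨_, e⟩ | ⟨e, _⟩) | (⟨_, e⟩ | ⟨e, _⟩))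
      · exact h3 e
      · exact h1 e
      · exact h4 e
      · exact h2 e
      · exact h3 e
      · exact h1 e
      · exact h4 e
      · exact h2 e
    · rw [h]
      simp only [Sym2.eq_iff]
      rintro ((⟨e, _⟩ | ⟨_, e⟩) | (⟨e, _⟩ | ⟨e, _⟩) | (⟨e, _⟩ | ⟨_, e⟩) | (⟨e, _⟩ | ⟨e, _⟩))
      · exact huw e.symm
      · exact huz e.symm
      · exact huw e.symm
      · exact hwz e
      · exact hvw e.symm
      · exact hvz e.symm
      · exact hvw e.symm
      · exact hwz e
  unfold Xor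
  tauto

theorem keyP_uv_flipB (u v w z : Fin n)
    (huv : u ≠ v) (huw : u ≠ w) (huz : u ≠ z) (hvw : v ≠ w) (hvz : v ≠ z) (hwz : w ≠ z)
    (G : Gr n) : keyP u v (flipB u v w z G) = keyP u v G := by
  rw [keyP_eq_iff]
  intro x y h
  by_cases hxy : x = y
  · subst hxy
    exact ⟨fun h => absurd h (not_adj_self _ _), fun h => absurd h (not_adj_self _ _)⟩
  rw [adj_flipB hxy]
  have hc : ¬ (s(x, y) = s(u, w) ∨ s(x, y) = s(u, z) ∨ s(x, y) = s(v, w) ∨ s(x, y) = s(v, z)) := by
    rcases h with ⟨h1, h2, h3, h4⟩ | h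
    · simp only [Sym2.eq_iff]
      rintro ((⟨e, _⟩ | ⟨_, e⟩) | (⟨e, _⟩ | ⟨_, e⟩) | (⟨e, _⟩ | ⟨_, e⟩) | (⟨e, _⟩ | ⟨_, e⟩))
      · exact h1 e
      · exact h3 e
      · exact h1 e
      · exact h3 e
      · exact h2 e
      · exact h4 e
      · exact h2 e
      · exact h4 e
    · rw [h]
      simp only [Sym2.eq_iff]
      rintro ((⟨_, e⟩ | ⟨e, _⟩) | (⟨_, e⟩ | ⟨e, _⟩) | (⟨e, _⟩ | ⟨e, _⟩) | (⟨e, _⟩ | ⟨e, _⟩))
      · exact hvw e
      · exact huw e
      · exact hvz e
      · exact huz e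
      · exact huv e
      · exact huw e
      · exact huv e
      · exact huz e
  unfold Xor
  tauto

theorem flipB_flipB (u v w z : Fin n) (G : Gr n) :
    flipB u v w z (flipB u v w z G) = G := by
  unfold flipB
  exact symmDiff_symmDiff_cancel_right _ _

theorem flipB_mem (d : Fin n → ℕ) (u v w z : Fin n)
    (huv : u ≠ v) (huw : u ≠ w) (huz : u ≠ z) (hvw : v ≠ w) (hvz : v ≠ z) (hwz : w ≠ z)
    {G : Gr n} (hG : G ∈ realizations d) (hP : isP u v w z G) :
    flipB u v w z G ∈ realizations d := by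
  obtain ⟨a, b, c, e, h⟩ := isSwitch_flipB huv huw huz hvw hvz hwz hP
  exact h.mem_realizations hG

end Crest.Agent.S0453D
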