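import Crest.Agent.S0453_DisjDefs
import Crest.Agent.S0453_Graph

/-! # S0453, package B5 (L3) : the gluing lemma (closure property `cl` of the fibre product) -/

set_option autoImplicit false
set_option linter.unusedSimpArgs false
open Finset
open Crest.SwitchChain

namespace Crest.Agent.S0453D

variable {n : ℕ}

lemma ind_congr {G G' : Gr n} {x y x' y' : Fin n} (h : adj G x y ↔ adj G' x' y') :
    ind G x y = ind G' x' y' := by
  unfold ind
  by_cases h1 : adj G x y
  · rw [if_pos h1, if_pos (h.1 h1)]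
  · rw [if_neg h1, if_neg (fun h2 => h1 (h.2 h2))]

lemma ind_comm (G : Gr n) (x y : Fin n) : ind G x y = ind G y x := ind_congr adj_comm

lemma ind_self (G : Gr n) (x : Fin n) : ind G x x = 0 := by
  unfold ind; rw [if_neg (not_adj_self G x)]

lemma ind_le_one (G : Gr n) (x y : Fin n) : ind G x y ≤ 1 := by
  unfold ind; split_ifs <;> simp

lemma ind_eq_one {G : Gr n} {x y : Fin n} : ind G x y = 1 ↔ adj G x y := by
  unfold ind; split_ifs with h <;> simp [h]

lemma ind_eq_zero {G : Gr n} {x y : Fin n} : ind G x y = 0 ↔ ¬ adj G x y := by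
  unfold ind; split_ifs with h <;> simp [h]

lemma ind_eq_ind_iff {G G' : Gr n} {x y x' y' : Fin n} :
    ind G x y = ind G' x' y' ↔ (adj G x y ↔ adj G' x' y') := by
  constructor
  · intro h
    constructor
    · intro h1; rw [← ind_eq_one, ← h, ind_eq_one]; exact h1
    · intro h1; rw [← ind_eq_one, h, ind_eq_one]; exact h1
  · exact ind_congr

open Classical in
lemma toNat_decide_adj (G : Gr n) (x y : Fin n) : (decide (adj G x y)).toNat = ind G x y := by
  unfold ind
  by_cases h : adj G x y <;> simp [h]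

lemma ind_eq_toNat {G : Gr n} {x y : Fin n} {b : Bool} (h : adj G x y ↔ b = true) :
    ind G x y = b.toNat := by
  unfold ind
  cases b
  · rw [if_neg (by simpa using h)]; rfl
  · rw [if_pos (by simpa using h)]; rfl

lemma decide_eq_of_iff {p : Prop} [Decidable p] {b : Bool} (h : p ↔ b = true) : decide p = b := by
  cases b <;> simp_all

lemma card_nb_eq_sum_ind (G : Gr n) (x : Fin n) : (nb G x).card = ∑ y, ind G x y := by
  classical
  unfold nb ind
  rw [Finset.card_filter]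

lemma mem_restY {u v w z y : Fin n} : y ∈ restY u v w z ↔ y ≠ u ∧ y ≠ v ∧ y ≠ w ∧ y ≠ z := by
  simp [restY]

lemma sum_split4 {u v w z : Fin n} (huv : u ≠ v) (huw : u ≠ w) (huz : u ≠ z) (hvw : v ≠ w)
    (hvz : v ≠ z) (hwz : w ≠ z) (F : Fin n → ℕ) :
    ∑ y, F y = F u + F v + F w + F z + ∑ y ∈ restY u v w z, F y := by
  classical
  have h1 : (univ : Finset (Fin n)) = insert u (insert v (insert w (insert z (restY u v w z)))) := by
    ext y
    simp only [mem_univ, mem_insert, mem_restY, true_iff]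
    tauto
  rw [h1, sum_insert, sum_insert, sum_insert, sum_insert]
  · ring
  · simp [mem_restY]
  · simp [mem_restY, hwz]
  · simp [mem_restY, hvw, hvz]
  · simp [mem_restY, huv, huw, huz]

lemma mem_realizations_ind {d : Fin n → ℕ} {G : Gr n} :
    G ∈ realizations d ↔ ∀ x, ∑ y, ind G x y = d x := by
  rw [mem_realizations]
  constructor
  · intro h x; rw [← card_nb_eq_sum_ind]; exact h x
  · intro h x; rw [card_nb_eq_sum_ind]; exact h x

/-- what `c0 G = c0 G'` means. -/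
lemma c0_eq_iff {u v w z : Fin n} {G G' : Gr n} :
    c0 u v w z G = c0 u v w z G' ↔
      (∀ x ∈ restY u v w z, ∀ y ∈ restY u v w z, (adj G x y ↔ adj G' x y)) ∧
      (adj G u v ↔ adj G' u v) ∧ (adj G w z ↔ adj G' w z) := by
  unfold c0
  rw [filter_eq_filter_iff]
  constructor
  · intro h
    refine ⟨?_, ?_, ?_⟩
    · intro x hx y hy
      rw [mem_restY] at hx hy
      by_cases hxy : x = y
      · subst hxy
        exact ⟨fun h1 => absurd h1 (not_adj_self _ _), fun h1 => absurd h1 (not_adj_self _ _)⟩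
      · apply h x y hxy
        left
        simp only [mkE, Sym2.mem_iff, not_or]
        exact ⟨⟨hx.1.symm, hy.1.symm⟩, ⟨hx.2.1.symm, hy.2.1.symm⟩, ⟨hx.2.2.1.symm, hy.2.2.1.symm⟩,
          ⟨hx.2.2.2.symm, hy.2.2.2.symm⟩⟩
    · by_cases huv : u = v
      · subst huv
        exact ⟨fun h1 => absurd h1 (not_adj_self _ _), fun h1 => absurd h1 (not_adj_self _ _)⟩
      · exact h u v huv (Or.inr (Or.inl rfl))
    · by_cases hwz : w = z
      · subst hwz
        exact ⟨fun h1 => absurd h1 (not_adj_self _ _), fun h1 => absurd h1 (not_adj_self _ _)⟩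
      · exact h w z hwz (Or.inr (Or.inr rfl))
  · rintro ⟨hY, huv, hwz⟩ x y hxy hp
    rcases hp with hp | hp | hp
    · simp only [mkE, Sym2.mem_iff, not_or] at hp
      exact hY x (mem_restY.2 ⟨Ne.symm hp.1.1, Ne.symm hp.2.1.1, Ne.symm hp.2.2.1.1,
        Ne.symm hp.2.2.2.1⟩) y (mem_restY.2 ⟨Ne.symm hp.1.2, Ne.symm hp.2.1.2,
        Ne.symm hp.2.2.1.2, Ne.symm hp.2.2.2.2⟩)
    · simp only [mkE, Sym2.eq_iff] at hp
      rcases hp with ⟨rfl, rfl⟩ | ⟨rfl, rfl⟩
      · exact huv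
      · rw [adj_comm, adj_comm (G := G')]; exact huv
    · simp only [mkE, Sym2.eq_iff] at hp
      rcases hp with ⟨rfl, rfl⟩ | ⟨rfl, rfl⟩
      · exact hwz
      · rw [adj_comm, adj_comm (G := G')]; exact hwz

lemma tY_apply {u v w z y : Fin n} (G : Gr n) (hy : y ∈ restY u v w z) :
    tY u v w z G y = ind G y u + ind G y v := by
  rw [mem_restY] at hy
  unfold tY
  rw [if_neg (by tauto)]

/-- the glued relation. -/
def glueRel (u v w z : Fin n) (G2 G3 : Gr n) (M : B4) (x y : Fin n) : Prop :=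
  ((x ≠ w ∧ x ≠ z ∧ y ≠ w ∧ y ≠ z) ∧ adj G2 x y) ∨
  ((x ≠ u ∧ x ≠ v ∧ y ≠ u ∧ y ≠ v) ∧ adj G3 x y) ∨
  (((x = u ∧ y = w) ∨ (x = w ∧ y = u)) ∧ M.1 = true) ∨
  (((x = u ∧ y = z) ∨ (x = z ∧ y = u)) ∧ M.2.1 = true) ∨
  (((x = v ∧ y = w) ∨ (x = w ∧ y = v)) ∧ M.2.2.1 = true) ∨
  (((x = v ∧ y = z) ∨ (x = z ∧ y = v)) ∧ M.2.2.2 = true)

lemma glueRel_symm (u v w z : Fin n) (G2 G3 : Gr n) (M : B4) (x y : Fin n)
    (h : glueRel u v w z G2 G3 M x y) : glueRel u v w z G2 G3 M y x := by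
  unfold glueRel at *
  rcases h with h | h | h | h | h | h
  · exact Or.inl ⟨⟨h.1.2.2.1, h.1.2.2.2, h.1.1, h.1.2.1⟩, adj_comm.1 h.2⟩
  · exact Or.inr (Or.inl ⟨⟨h.1.2.2.1, h.1.2.2.2, h.1.1, h.1.2.1⟩, adj_comm.1 h.2⟩)
  · exact Or.inr (Or.inr (Or.inl ⟨h.1.symm.imp And.symm And.symm, h.2⟩))
  · exact Or.inr (Or.inr (Or.inr (Or.inl ⟨h.1.symm.imp And.symm And.symm, h.2⟩)))
  · exact Or.inr (Or.inr (Or.inr (Or.inr (Or.inl ⟨h.1.symm.imp And.symm And.symm, h.2⟩))))
  · exact Or.inr (Or.inr (Or.inr (Or.inr (Or.inr ⟨h.1.symm.imp And.symm And.symm, h.2⟩))))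

lemma adj_glue {u v w z : Fin n} (huw : u ≠ w) (huz : u ≠ z)
    (hvw : v ≠ w) (hvz : v ≠ z) {G2 G3 : Gr n} {M : B4} {x y : Fin n} :
    adj (ofRel (glueRel u v w z G2 G3 M)) x y ↔ glueRel u v w z G2 G3 M x y := by
  rw [adj_ofRel (glueRel_symm u v w z G2 G3 M)]
  constructor
  · exact fun h => h.2
  · intro h
    refine ⟨?_, h⟩
    rcases h with h | h | h | h | h | h
    · exact h.2.ne
    · exact h.2.ne
    · rcases h.1 with ⟨rfl, rfl⟩ | ⟨rfl, rfl⟩
      · exact huw
      · exact huw.symm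
    · rcases h.1 with ⟨rfl, rfl⟩ | ⟨rfl, rfl⟩
      · exact huz
      · exact huz.symm
    · rcases h.1 with ⟨rfl, rfl⟩ | ⟨rfl, rfl⟩
      · exact hvw
      · exact hvw.symm
    · rcases h.1 with ⟨rfl, rfl⟩ | ⟨rfl, rfl⟩
      · exact hvz
      · exact hvz.symm

/-- L3 : the gluing lemma. -/
theorem glue (d : Fin n → ℕ) (u v w z : Fin n)
    (huv : u ≠ v) (huw : u ≠ w) (huz : u ≠ z) (hvw : v ≠ w) (hvz : v ≠ z) (hwz : w ≠ z)
    {G₂ G₃ : Gr n} (h₂ : G₂ ∈ realizations d) (h₃ : G₃ ∈ realizations d)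
    (hc : c0 u v w z G₂ = c0 u v w z G₃) (ht : tY u v w z G₂ = tY u v w z G₃) (M : B4)
    (hrU : rU M = rU (blk u v w z G₂)) (hrV : rV M = rV (blk u v w z G₂))
    (hcW : cW M = cW (blk u v w z G₃)) (hcZ : cZ M = cZ (blk u v w z G₃)) :
    ∃ H ∈ realizations d, keyP w z H = keyP w z G₂ ∧ keyP u v H = keyP u v G₃ ∧
      blk u v w z H = M := by
  classical
  obtain ⟨hY, hauv, hawz⟩ := c0_eq_iff.1 hc
  have ht' : ∀ y ∈ restY u v w z, ind G₂ y u + ind G₂ y v = ind G₃ y u + ind G₃ y v := by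
    intro y hy
    rw [← tY_apply G₂ hy, ← tY_apply G₃ hy, ht]
  simp only [rU, rV, cW, cZ, blk, toNat_decide_adj] at hrU hrV hcW hcZ
  set H : Gr n := ofRel (glueRel u v w z G₂ G₃ M) with hH
  -- adjacency of `H` by classes
  have a2 : ∀ x y, x ≠ w → x ≠ z → y ≠ w → y ≠ z → (adj H x y ↔ adj G₂ x y) := by
    intro x y hxw hxz hyw hyz
    rw [hH, adj_glue huw huz hvw hvz]
    unfold glueRel
    constructor
    · rintro (h | h | h | h | h | h)
      · exact h.2
      · exact (hY x (mem_restY.2 ⟨h.1.1, h.1.2.1, hxw, hxz⟩) y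
          (mem_restY.2 ⟨h.1.2.2.1, h.1.2.2.2, hyw, hyz⟩)).2 h.2
      all_goals
        exfalso
        rcases h.1 with ⟨h1, h2⟩ | ⟨h1, h2⟩ <;>
          first | exact hxw h1 | exact hxz h1 | exact hyw h2 | exact hyz h2
    · intro h; exact Or.inl ⟨⟨hxw, hxz, hyw, hyz⟩, h⟩
  have a3 : ∀ x y, x ≠ u → x ≠ v → y ≠ u → y ≠ v → (adj H x y ↔ adj G₃ x y) := by
    intro x y hxu hxv hyu hyv
    rw [hH, adj_glue huw huz hvw hvz]
    unfold glueRel
    constructor
    · rintro (h | h | h | h | h | h)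
      · exact (hY x (mem_restY.2 ⟨hxu, hxv, h.1.1, h.1.2.1⟩) y
          (mem_restY.2 ⟨hyu, hyv, h.1.2.2.1, h.1.2.2.2⟩)).1 h.2
      · exact h.2
      all_goals
        exfalso
        rcases h.1 with ⟨h1, h2⟩ | ⟨h1, h2⟩ <;>
          first | exact hxu h1 | exact hxv h1 | exact hyu h2 | exact hyv h2
    · intro h; exact Or.inr (Or.inl ⟨⟨hxu, hxv, hyu, hyv⟩, h⟩)
  have m1 : adj H u w ↔ M.1 = true := by
    rw [hH, adj_glue huw huz hvw hvz]
    simp [glueRel, huv, huw, huz, hvw, hvz, hwz, huv.symm, huw.symm, huz.symm, hvw.symm,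
      hvz.symm, hwz.symm]
  have m2 : adj H u z ↔ M.2.1 = true := by
    rw [hH, adj_glue huw huz hvw hvz]
    simp [glueRel, huv, huw, huz, hvw, hvz, hwz, huv.symm, huw.symm, huz.symm, hvw.symm,
      hvz.symm, hwz.symm]
  have m3 : adj H v w ↔ M.2.2.1 = true := by
    rw [hH, adj_glue huw huz hvw hvz]
    simp [glueRel, huv, huw, huz, hvw, hvz, hwz, huv.symm, huw.symm, huz.symm, hvw.symm,
      hvz.symm, hwz.symm]
  have m4 : adj H v z ↔ M.2.2.2 = true := by
    rw [hH, adj_glue huw huz hvw hvz]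
    simp [glueRel, huv, huw, huz, hvw, hvz, hwz, huv.symm, huw.symm, huz.symm, hvw.symm,
      hvz.symm, hwz.symm]
  have i1 := ind_eq_toNat m1
  have i2 := ind_eq_toNat m2
  have i3 := ind_eq_toNat m3
  have i4 := ind_eq_toNat m4
  rw [mem_realizations_ind] at h₂ h₃
  refine ⟨H, ?_, ?_, ?_, ?_⟩
  · rw [mem_realizations_ind]
    intro x
    by_cases hxu : x = u
    · subst hxu
      rw [← h₂ x, sum_split4 huv huw huz hvw hvz hwz, sum_split4 huv huw huz hvw hvz hwz]
      rw [ind_self, ind_self, ind_congr (a2 x v huw huz hvw hvz), i1, i2]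
      have : ∑ y ∈ restY x v w z, ind H x y = ∑ y ∈ restY x v w z, ind G₂ x y := by
        apply sum_congr rfl
        intro y hy
        rw [mem_restY] at hy
        exact ind_congr (a2 x y huw huz hy.2.2.1 hy.2.2.2)
      rw [this]; omega
    by_cases hxv : x = v
    · subst hxv
      rw [← h₂ x, sum_split4 huv huw huz hvw hvz hwz, sum_split4 huv huw huz hvw hvz hwz]
      rw [ind_self, ind_self, ind_congr (a2 x u hvw hvz huw huz), i3, i4]
      have : ∑ y ∈ restY u x w z, ind H x y = ∑ y ∈ restY u x w z, ind G₂ x y := by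
        apply sum_congr rfl
        intro y hy
        rw [mem_restY] at hy
        exact ind_congr (a2 x y hvw hvz hy.2.2.1 hy.2.2.2)
      rw [this]; omega
    by_cases hxw : x = w
    · subst hxw
      rw [← h₃ x, sum_split4 huv huw huz hvw hvz hwz, sum_split4 huv huw huz hvw hvz hwz]
      rw [ind_self, ind_self, ind_congr (a3 x z huw.symm hvw.symm huz.symm hvz.symm),
        ind_comm H x u, ind_comm H x v, i1, i3, ind_comm G₃ x u, ind_comm G₃ x v]
      have : ∑ y ∈ restY u v x z, ind H x y = ∑ y ∈ restY u v x z, ind G₃ x y := by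
        apply sum_congr rfl
        intro y hy
        rw [mem_restY] at hy
        exact ind_congr (a3 x y huw.symm hvw.symm hy.1 hy.2.1)
      rw [this]; omega
    by_cases hxz : x = z
    · subst hxz
      rw [← h₃ x, sum_split4 huv huw huz hvw hvz hwz, sum_split4 huv huw huz hvw hvz hwz]
      rw [ind_self, ind_self, ind_congr (a3 x w huz.symm hvz.symm huw.symm hvw.symm),
        ind_comm H x u, ind_comm H x v, i2, i4, ind_comm G₃ x u, ind_comm G₃ x v]
      have : ∑ y ∈ restY u v w x, ind H x y = ∑ y ∈ restY u v w x, ind G₃ x y := by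
        apply sum_congr rfl
        intro y hy
        rw [mem_restY] at hy
        exact ind_congr (a3 x y huz.symm hvz.symm hy.1 hy.2.1)
      rw [this]; omega
    · rw [← h₃ x, sum_split4 huv huw huz hvw hvz hwz, sum_split4 huv huw huz hvw hvz hwz]
      rw [ind_congr (a2 x u hxw hxz huw huz), ind_congr (a2 x v hxw hxz hvw hvz),
        ind_congr (a3 x w hxu hxv huw.symm hvw.symm), ind_congr (a3 x z hxu hxv huz.symm hvz.symm)]
      have : ∑ y ∈ restY u v w z, ind H x y = ∑ y ∈ restY u v w z, ind G₃ x y := by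
        apply sum_congr rfl
        intro y hy
        rw [mem_restY] at hy
        exact ind_congr (a3 x y hxu hxv hy.1 hy.2.1)
      have ht'' := ht' x (mem_restY.2 ⟨hxu, hxv, hxw, hxz⟩)
      rw [this]; omega
  · rw [keyP_eq_iff]
    rintro x y (h | h)
    · exact a2 x y h.1 h.2.1 h.2.2.1 h.2.2.2
    · rw [Sym2.eq_iff] at h
      rcases h with ⟨rfl, rfl⟩ | ⟨rfl, rfl⟩
      · rw [a3 x y huw.symm hvw.symm huz.symm hvz.symm]; exact hawz.symm
      · rw [a3 x y huz.symm hvz.symm huw.symm hvw.symm, adj_comm, adj_comm (G := G₂)]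
        exact hawz.symm
  · rw [keyP_eq_iff]
    rintro x y (h | h)
    · exact a3 x y h.1 h.2.1 h.2.2.1 h.2.2.2
    · rw [Sym2.eq_iff] at h
      rcases h with ⟨rfl, rfl⟩ | ⟨rfl, rfl⟩
      · rw [a2 x y huw huz hvw hvz]; exact hauv
      · rw [a2 x y hvw hvz huw huz, adj_comm, adj_comm (G := G₃)]
        exact hauv
  · unfold blk
    obtain ⟨M1, M2, M3, M4⟩ := M
    simp only [Prod.mk.injEq]
    refine ⟨?_, ?_, ?_, ?_⟩
    · exact decide_eq_of_iff m1
    · exact decide_eq_of_iff m2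
    · exact decide_eq_of_iff m3
    · exact decide_eq_of_iff m4

end Crest.Agent.S0453D
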