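import Crest.Agent.S0453_DisjDefs
import Crest.Agent.S0453_Graph

/-! # S0453, package B5, part L2 : what `q = keyP u v` determines -/

set_option autoImplicit false
open Finset
open Crest.SwitchChain

namespace Crest.Agent.S0453D

variable {n : ℕ}

namespace DisjQ

lemma card_nb_eq_sum (G : Gr n) (a : Fin n) : (nb G a).card = ∑ b, ind G a b := by
  classical
  unfold nb ind
  rw [Finset.card_filter]

lemma ind_congr {G G' : Gr n} {a b : Fin n} (h : adj G a b ↔ adj G' a b) :
    ind G a b = ind G' a b := by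
  classical
  unfold ind
  by_cases h1 : adj G a b
  · rw [if_pos h1, if_pos (h.1 h1)]
  · rw [if_neg h1, if_neg (fun h2 => h1 (h.2 h2))]

lemma toNat_decide_adj (G : Gr n) (a b : Fin n) [Decidable (adj G a b)] :
    (decide (adj G a b)).toNat = ind G b a := by
  classical
  unfold ind
  by_cases h1 : adj G a b
  · rw [if_pos (adj_comm.1 h1)]; simp [h1]
  · rw [if_neg (fun h2 => h1 (adj_comm.1 h2))]; simp [h1]

/-- the number of neighbours of `a ∉ {u,v}` in `{u,v}` is determined by `keyP u v`. -/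
lemma ind_add_ind (d : Fin n → ℕ) (u v : Fin n) (huv : u ≠ v)
    {G G' : Gr n} (hG : G ∈ realizations d) (hG' : G' ∈ realizations d)
    (h : keyP u v G = keyP u v G') (a : Fin n) (hau : a ≠ u) (hav : a ≠ v) :
    ind G a u + ind G a v = ind G' a u + ind G' a v := by
  classical
  have h1 : (nb G a).card = (nb G' a).card := by
    rw [mem_realizations.1 hG a, mem_realizations.1 hG' a]
  rw [card_nb_eq_sum, card_nb_eq_sum] at h1
  have hv : v ∈ (univ : Finset (Fin n)).erase u := by simp [huv.symm]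
  have e1 : ∀ H : Gr n, ∑ b, ind H a b
      = ind H a u + (ind H a v + ∑ b ∈ ((univ : Finset (Fin n)).erase u).erase v, ind H a b) := by
    intro H
    rw [Finset.add_sum_erase _ (fun b => ind H a b) hv,
      Finset.add_sum_erase _ (fun b => ind H a b) (mem_univ u)]
  have e2 : ∑ b ∈ ((univ : Finset (Fin n)).erase u).erase v, ind G a b
      = ∑ b ∈ ((univ : Finset (Fin n)).erase u).erase v, ind G' a b := by
    refine Finset.sum_congr rfl fun b hb => ?_
    have hbv : b ≠ v := (Finset.mem_erase.1 hb).1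
    have hbu : b ≠ u := (Finset.mem_erase.1 (Finset.mem_erase.1 hb).2).1
    exact ind_congr ((keyP_eq_iff.1 h) a b (Or.inl ⟨hau, hav, hbu, hbv⟩))
  rw [e1 G, e1 G', e2] at h1
  omega

end DisjQ

/-- L2 : what `q = keyP u v` determines. -/
theorem keyH_of_q (d : Fin n → ℕ) (u v w z : Fin n)
    (huv : u ≠ v) (huw : u ≠ w) (huz : u ≠ z) (hvw : v ≠ w) (hvz : v ≠ z) (hwz : w ≠ z)
    {G G' : Gr n} (hG : G ∈ realizations d) (hG' : G' ∈ realizations d)
    (h : keyP u v G = keyP u v G') :
    c0 u v w z G = c0 u v w z G' ∧ tY u v w z G = tY u v w z G' ∧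
      cW (blk u v w z G) = cW (blk u v w z G') ∧ cZ (blk u v w z G) = cZ (blk u v w z G') := by
  classical
  have hk := keyP_eq_iff.1 h
  refine ⟨?_, ?_, ?_, ?_⟩
  · unfold c0
    rw [filter_eq_filter_iff]
    intro x y hxy hp
    rcases hp with ⟨h1, h2, -, -⟩ | h1 | h1
    · rw [mem_mkE] at h1 h2
      push Not at h1 h2
      exact hk x y (Or.inl ⟨h1.1.symm, h2.1.symm, h1.2.symm, h2.2.symm⟩)
    · exact hk x y (Or.inr h1)
    · have h1' : s(x, y) = s(w, z) := h1
      rw [Sym2.eq_iff] at h1'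
      rcases h1' with ⟨rfl, rfl⟩ | ⟨rfl, rfl⟩
      · exact hk _ _ (Or.inl ⟨huw.symm, hvw.symm, huz.symm, hvz.symm⟩)
      · exact hk _ _ (Or.inl ⟨huz.symm, hvz.symm, huw.symm, hvw.symm⟩)
  · funext y
    unfold tY
    by_cases hy : y = u ∨ y = v ∨ y = w ∨ y = z
    · rw [if_pos hy, if_pos hy]
    · rw [if_neg hy, if_neg hy]
      push Not at hy
      exact DisjQ.ind_add_ind d u v huv hG hG' h y hy.1 hy.2.1
  · have := DisjQ.ind_add_ind d u v huv hG hG' h w huw.symm hvw.symm
    simp only [cW, blk, DisjQ.toNat_decide_adj]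
    exact this
  · have := DisjQ.ind_add_ind d u v huv hG hG' h z huz.symm hvz.symm
    simp only [cZ, blk, DisjQ.toNat_decide_adj]
    exact this

end Crest.Agent.S0453D
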