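import Crest.Agent.S0453_CE

/-! # S0453, package A5a : fibre products, the six commuting squares -/

set_option autoImplicit false
set_option linter.unusedSectionVars false
open Finset

namespace Crest.Agent.S0453D

/-- two fibre averages agree if there is a bijection between the fibres preserving `g`. -/
lemma cE_eq_of_bij {α κ : Type*} [DecidableEq κ] (Φ : Finset α) (key : α → κ) (g : α → ℝ)
    (x x' : α)
    (i : ∀ y ∈ Φ.filter (fun y => key y = key x), α)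
    (hi : ∀ y hy, i y hy ∈ Φ.filter (fun y => key y = key x'))
    (hinj : ∀ y₁ h₁ y₂ h₂, i y₁ h₁ = i y₂ h₂ → y₁ = y₂)
    (hsurj : ∀ z ∈ Φ.filter (fun y => key y = key x'), ∃ y hy, i y hy = z)
    (hg : ∀ y hy, g y = g (i y hy)) :
    cE Φ key g x = cE Φ key g x' := by
  unfold cE
  rw [Finset.sum_bij i hi hinj hsurj hg, Finset.card_bij i hi hinj hsurj]

section FP
variable {α A₁ A₂ A₃ I J : Type*} [DecidableEq A₁] [DecidableEq A₂] [DecidableEq A₃]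
  [DecidableEq I] [DecidableEq J]
  (Φ : Finset α) (m : α → A₁) (p : α → A₂) (q : α → A₃) (ρ : α → I) (γ : α → J)

/-- the hypotheses "`Φ` is the fibre product `p ×_ρ m ×_γ q`". -/
structure IsFP : Prop where
  inj : ∀ x ∈ Φ, ∀ y ∈ Φ, m x = m y → p x = p y → q x = q y → x = y
  rho_m : ∀ x ∈ Φ, ∀ y ∈ Φ, m x = m y → ρ x = ρ y
  rho_p : ∀ x ∈ Φ, ∀ y ∈ Φ, p x = p y → ρ x = ρ y
  gam_m : ∀ x ∈ Φ, ∀ y ∈ Φ, m x = m y → γ x = γ y
  gam_q : ∀ x ∈ Φ, ∀ y ∈ Φ, q x = q y → γ x = γ y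
  cl : ∀ x₁ ∈ Φ, ∀ x₂ ∈ Φ, ∀ x₃ ∈ Φ, ρ x₁ = ρ x₂ → γ x₁ = γ x₃ →
    ∃ x ∈ Φ, m x = m x₁ ∧ p x = p x₂ ∧ q x = q x₃

variable {Φ m p q ρ γ}

/-- the roles of `(p, ρ)` and `(q, γ)` are symmetric. -/
theorem IsFP.symm (h : IsFP Φ m p q ρ γ) : IsFP Φ m q p γ ρ where
  inj := fun x hx y hy h1 h2 h3 => h.inj x hx y hy h1 h3 h2
  rho_m := h.gam_m
  rho_p := h.gam_q
  gam_m := h.rho_m
  gam_q := h.rho_p
  cl := fun x₁ h₁ x₂ h₂ x₃ h₃ e1 e2 => by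
    obtain ⟨x, hx, a, b, c⟩ := h.cl x₁ h₁ x₃ h₃ x₂ h₂ e2 e1
    exact ⟨x, hx, a, c, b⟩

/-- bijection lemma for `(m,q)`-fibres. -/
theorem IsFP.cE_mq_eq (h : IsFP Φ m p q ρ γ) (g : α → ℝ) {x x' : α} (hx : x ∈ Φ) (hx' : x' ∈ Φ)
    (hρ : ρ x = ρ x')
    (hg : ∀ y ∈ Φ, ∀ y' ∈ Φ, m y = m x → m y' = m x' → p y = p y' → g y = g y') :
    cE Φ (fun y => (m y, q y)) g x = cE Φ (fun y => (m y, q y)) g x' := by
  have ex : ∀ y ∈ Φ.filter (fun y => (m y, q y) = (m x, q x)),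
      ∃ y' ∈ Φ, m y' = m x' ∧ p y' = p y ∧ q y' = q x' := by
    intro y hy
    rw [Finset.mem_filter, Prod.mk.injEq] at hy
    refine h.cl x' hx' y hy.1 x' hx' ?_ rfl
    rw [← hρ]; exact (h.rho_m y hy.1 x hx hy.2.1).symm
  refine cE_eq_of_bij Φ _ g x x' (fun y hy => Classical.choose (ex y hy)) ?_ ?_ ?_ ?_
  · intro y hy
    obtain ⟨h1, h2, _, h4⟩ := Classical.choose_spec (ex y hy)
    rw [Finset.mem_filter, Prod.mk.injEq]
    exact ⟨h1, h2, h4⟩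
  · intro y₁ h₁ y₂ h₂ e
    obtain ⟨_, _, a3, _⟩ := Classical.choose_spec (ex y₁ h₁)
    obtain ⟨_, _, b3, _⟩ := Classical.choose_spec (ex y₂ h₂)
    rw [Finset.mem_filter, Prod.mk.injEq] at h₁ h₂
    refine h.inj y₁ h₁.1 y₂ h₂.1 (h₁.2.1.trans h₂.2.1.symm) ?_ (h₁.2.2.trans h₂.2.2.symm)
    rw [← a3, ← b3, e]
  · intro z hz
    rw [Finset.mem_filter, Prod.mk.injEq] at hz
    obtain ⟨y, hy, c1, c2, c3⟩ := h.cl x hx z hz.1 x hx
      (by rw [hρ]; exact (h.rho_m z hz.1 x' hx' hz.2.1).symm) rfl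
    have hy' : y ∈ Φ.filter (fun y => (m y, q y) = (m x, q x)) := by
      rw [Finset.mem_filter, Prod.mk.injEq]; exact ⟨hy, c1, c3⟩
    refine ⟨y, hy', ?_⟩
    obtain ⟨a1, a2, a3, a4⟩ := Classical.choose_spec (ex y hy')
    exact h.inj _ a1 z hz.1 (a2.trans hz.2.1.symm) (a3.trans c2) (a4.trans hz.2.2.symm)
  · intro y hy
    obtain ⟨a1, a2, a3, _⟩ := Classical.choose_spec (ex y hy)
    rw [Finset.mem_filter, Prod.mk.injEq] at hy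
    exact hg y hy.1 _ a1 hy.2.1 a2 a3.symm

/-- bijection lemma for `p`-fibres. -/
theorem IsFP.cE_p_eq (h : IsFP Φ m p q ρ γ) (g : α → ℝ) {x x' : α} (hx : x ∈ Φ) (hx' : x' ∈ Φ)
    (hρ : ρ x = ρ x') (hg : ∀ y ∈ Φ, ∀ y' ∈ Φ, m y = m y' → g y = g y') :
    cE Φ p g x = cE Φ p g x' := by
  have ex : ∀ (a b : α), a ∈ Φ → b ∈ Φ → ρ a = ρ b → ∀ y ∈ Φ.filter (fun y => p y = p a),
      ∃ y' ∈ Φ, m y' = m y ∧ p y' = p b ∧ q y' = q y := by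
    intro a b ha hb hab y hy
    rw [Finset.mem_filter] at hy
    refine h.cl y hy.1 b hb y hy.1 ?_ rfl
    rw [← hab]; exact h.rho_p y hy.1 a ha hy.2
  refine cE_eq_of_bij Φ _ g x x' (fun y hy => Classical.choose (ex x x' hx hx' hρ y hy)) ?_ ?_ ?_ ?_
  · intro y hy
    obtain ⟨h1, _, h3, _⟩ := Classical.choose_spec (ex x x' hx hx' hρ y hy)
    rw [Finset.mem_filter]
    exact ⟨h1, h3⟩
  · intro y₁ h₁ y₂ h₂ e
    obtain ⟨_, a2, _, a4⟩ := Classical.choose_spec (ex x x' hx hx' hρ y₁ h₁)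
    obtain ⟨_, b2, _, b4⟩ := Classical.choose_spec (ex x x' hx hx' hρ y₂ h₂)
    rw [Finset.mem_filter] at h₁ h₂
    refine h.inj y₁ h₁.1 y₂ h₂.1 ?_ (h₁.2.trans h₂.2.symm) ?_
    · rw [← a2, ← b2, e]
    · rw [← a4, ← b4, e]
  · intro z hz
    obtain ⟨y, hy, c1, c2, c3⟩ := ex x' x hx' hx hρ.symm z hz
    have hy' : y ∈ Φ.filter (fun y => p y = p x) := by
      rw [Finset.mem_filter]; exact ⟨hy, c2⟩
    refine ⟨y, hy', ?_⟩
    obtain ⟨a1, a2, a3, a4⟩ := Classical.choose_spec (ex x x' hx hx' hρ y hy')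
    rw [Finset.mem_filter] at hz
    exact h.inj _ a1 z hz.1 (a2.trans c1) (a3.trans hz.2.symm) (a4.trans c3)
  · intro y hy
    obtain ⟨a1, a2, _, _⟩ := Classical.choose_spec (ex x x' hx hx' hρ y hy)
    rw [Finset.mem_filter] at hy
    exact hg y hy.1 _ a1 a2.symm

/-- commuting squares. -/
theorem IsFP.cE_mq_mp (h : IsFP Φ m p q ρ γ) (f : α → ℝ) {x : α} (hx : x ∈ Φ) :
    cE Φ (fun y => (m y, q y)) (cE Φ (fun y => (m y, p y)) f) x = cE Φ m f x := by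
  set g := cE Φ (fun y => (m y, p y)) f with hgdef
  have hmeas : ∀ a ∈ Φ, ∀ b ∈ Φ, m a = m b →
      cE Φ (fun y => (m y, q y)) g a = cE Φ (fun y => (m y, q y)) g b := by
    intro a ha b hb hab
    refine h.cE_mq_eq g ha hb (h.rho_m a ha b hb hab) ?_
    intro y _ y' _ e1 e2 e3
    refine cE_eq_of_key_eq Φ (fun y => (m y, p y)) f ?_
    show (m y, p y) = (m y', p y')
    rw [e1, e2, hab, e3]
  rw [← cE_of_meas Φ m hmeas hx,
    cE_tower Φ (fun y => (m y, q y)) m (fun a _ b _ e => (Prod.mk.injEq _ _ _ _ ▸ e).1) g hx,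
    hgdef,
    cE_tower Φ (fun y => (m y, p y)) m (fun a _ b _ e => (Prod.mk.injEq _ _ _ _ ▸ e).1) f hx]

theorem IsFP.cE_mp_mq (h : IsFP Φ m p q ρ γ) (f : α → ℝ) {x : α} (hx : x ∈ Φ) :
    cE Φ (fun y => (m y, p y)) (cE Φ (fun y => (m y, q y)) f) x = cE Φ m f x :=
  h.symm.cE_mq_mp f hx

theorem IsFP.cE_m_p (h : IsFP Φ m p q ρ γ) (f : α → ℝ) {x : α} (hx : x ∈ Φ) :
    cE Φ m (cE Φ p f) x = cE Φ ρ f x := by
  set g := cE Φ p f with hgdef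
  have hgp : ∀ a ∈ Φ, ∀ b ∈ Φ, p a = p b → g a = g b := fun a _ b _ e =>
    cE_eq_of_key_eq Φ p f e
  -- `E_m g = E_mq g`
  have e1 : ∀ a ∈ Φ, cE Φ m g a = cE Φ (fun y => (m y, q y)) g a := by
    intro a ha
    rw [← h.cE_mq_mp g ha]
    refine cE_congr Φ _ (fun b hb => ?_) a
    exact cE_of_meas Φ (fun y => (m y, p y))
      (fun c hc e he hce => hgp c hc e he (Prod.mk.injEq _ _ _ _ ▸ hce).2) hb
  have hmeas : ∀ a ∈ Φ, ∀ b ∈ Φ, ρ a = ρ b → cE Φ m g a = cE Φ m g b := by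
    intro a ha b hb hab
    rw [e1 a ha, e1 b hb]
    exact h.cE_mq_eq g ha hb hab (fun y hy y' hy' _ _ e3 => hgp y hy y' hy' e3)
  rw [← cE_of_meas Φ ρ hmeas hx, cE_tower Φ m ρ h.rho_m g hx, hgdef, cE_tower Φ p ρ h.rho_p f hx]

theorem IsFP.cE_p_m (h : IsFP Φ m p q ρ γ) (f : α → ℝ) {x : α} (hx : x ∈ Φ) :
    cE Φ p (cE Φ m f) x = cE Φ ρ f x := by
  set g := cE Φ m f with hgdef
  have hmeas : ∀ a ∈ Φ, ∀ b ∈ Φ, ρ a = ρ b → cE Φ p g a = cE Φ p g b := by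
    intro a ha b hb hab
    exact h.cE_p_eq g ha hb hab (fun y _ y' _ e => cE_eq_of_key_eq Φ m f e)
  rw [← cE_of_meas Φ ρ hmeas hx, cE_tower Φ p ρ h.rho_p g hx, hgdef, cE_tower Φ m ρ h.rho_m f hx]

theorem IsFP.cE_m_q (h : IsFP Φ m p q ρ γ) (f : α → ℝ) {x : α} (hx : x ∈ Φ) :
    cE Φ m (cE Φ q f) x = cE Φ γ f x :=
  h.symm.cE_m_p f hx

theorem IsFP.cE_q_m (h : IsFP Φ m p q ρ γ) (f : α → ℝ) {x : α} (hx : x ∈ Φ) :
    cE Φ q (cE Φ m f) x = cE Φ γ f x :=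
  h.symm.cE_p_m f hx

end FP

end Crest.Agent.S0453D
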