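import Crest.Agent.S0453_CE
import Crest.Agent.S0453_FP

/-! # S0453, package A5b : the fibre product inequality `IsFP.ineq` and Lemma PLUS `IsFP.plus` -/

set_option autoImplicit false
open Finset

namespace Crest.Agent.S0453D

section aux
variable {α κ₁ κ₂ κ₃ : Type*} [DecidableEq κ₁] [DecidableEq κ₂] [DecidableEq κ₃]

/-- inner product of two conditional expectations whose composition is a third one. -/
lemma sum_cE_mul_cE_of_comp (Φ : Finset α) (k₁ : α → κ₁) (k₂ : α → κ₂) (k₃ : α → κ₃) (f : α → ℝ)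
    (hc : ∀ x ∈ Φ, cE Φ k₁ (cE Φ k₂ f) x = cE Φ k₃ f x) :
    ∑ x ∈ Φ, cE Φ k₁ f x * cE Φ k₂ f x = ∑ x ∈ Φ, (cE Φ k₃ f x) ^ 2 := by
  rw [sum_cE_mul, sum_cE_sq]
  exact Finset.sum_congr rfl (fun x hx => by rw [hc x hx])

lemma sum_sq4 (Φ : Finset α) (a b c e : α → ℝ) :
    ∑ x ∈ Φ, (a x - b x - c x + e x) ^ 2 =
      ∑ x ∈ Φ, a x ^ 2 + ∑ x ∈ Φ, b x ^ 2 + ∑ x ∈ Φ, c x ^ 2 + ∑ x ∈ Φ, e x ^ 2
        - 2 * ∑ x ∈ Φ, a x * b x - 2 * ∑ x ∈ Φ, a x * c x + 2 * ∑ x ∈ Φ, a x * e x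
        + 2 * ∑ x ∈ Φ, b x * c x - 2 * ∑ x ∈ Φ, b x * e x - 2 * ∑ x ∈ Φ, c x * e x := by
  simp only [Finset.mul_sum, ← Finset.sum_add_distrib, ← Finset.sum_sub_distrib]
  exact Finset.sum_congr rfl (fun x _ => by ring)

/-- `cE` only depends on the fibre through the point. -/
lemma cE_eq_of_fibre_eq (Φ : Finset α) (k₁ : α → κ₁) (k₂ : α → κ₂) (f : α → ℝ) (x : α)
    (h : ∀ y ∈ Φ, k₁ y = k₁ x ↔ k₂ y = k₂ x) : cE Φ k₁ f x = cE Φ k₂ f x := by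
  unfold cE
  rw [Finset.filter_congr h]

/-- invariance of `cE` under a bijection of `Φ` preserving the key. -/
lemma cE_comp_inv (Φ : Finset α) (k : α → κ₁) (τ : α → α) (hτ : Set.BijOn τ Φ Φ)
    (hk : ∀ x ∈ Φ, k (τ x) = k x) (g : α → ℝ) {x : α} (hx : x ∈ Φ) :
    cE Φ k (fun y => g (τ y)) x = cE Φ k g x := by
  rw [cE_comp_of_bij Φ k τ hτ (fun x hx y hy => by rw [hk x hx, hk y hy]) g hx]
  exact cE_eq_of_key_eq Φ k g (hk x hx)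

/-- symmetrisation does not change `cE` for an invariant key. -/
lemma cE_symm_inv (Φ : Finset α) (k : α → κ₁) (τ : α → α) (hτ : Set.BijOn τ Φ Φ)
    (hk : ∀ x ∈ Φ, k (τ x) = k x) (g : α → ℝ) {x : α} (hx : x ∈ Φ) :
    cE Φ k (fun y => (g y + g (τ y)) / 2) x = cE Φ k g x := by
  have e1 : cE Φ k (fun y => (g y + g (τ y)) / 2) x
      = cE Φ k (fun y => (1 / 2 : ℝ) * (g y + g (τ y))) x :=
    cE_congr Φ k (fun y _ => by ring) x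
  rw [e1, cE_const_mul, cE_add, cE_comp_inv Φ k τ hτ hk g hx]
  ring

lemma sum_eq_zero_of_odd (Φ : Finset α) (τ : α → α) (hm : ∀ x ∈ Φ, τ x ∈ Φ)
    (hi : ∀ x ∈ Φ, τ (τ x) = x) (g : α → ℝ) (ho : ∀ x ∈ Φ, g (τ x) = - g x) :
    ∑ x ∈ Φ, g x = 0 := by
  have h1 : ∑ x ∈ Φ, g (τ x) = ∑ x ∈ Φ, g x :=
    Finset.sum_nbij' τ τ hm hm hi hi (fun _ _ => rfl)
  have h2 : ∑ x ∈ Φ, g (τ x) = - ∑ x ∈ Φ, g x := by
    rw [← Finset.sum_neg_distrib]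
    exact Finset.sum_congr rfl ho
  linarith

end aux

section FP
variable {α A₁ A₂ A₃ I J : Type*} [DecidableEq A₁] [DecidableEq A₂] [DecidableEq A₃]
  [DecidableEq I] [DecidableEq J]
  {Φ : Finset α} {m : α → A₁} {p : α → A₂} {q : α → A₃} {ρ : α → I} {γ : α → J}

/-- the fibre product inequality. -/
theorem IsFP.ineq (h : IsFP Φ m p q ρ γ) (f : α → ℝ) :
    ∑ x ∈ Φ, (cE Φ m f x - cE Φ γ f x) * (cE Φ m f x - cE Φ ρ f x) ≤
      ∑ x ∈ Φ, cD Φ q f x * cD Φ p f x := by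
  classical
  -- abbreviations
  set Emp := cE Φ (fun y => (m y, p y)) f with hEmp
  set Emq := cE Φ (fun y => (m y, q y)) f with hEmq
  set Em := cE Φ m f with hEm
  set Ep := cE Φ p f with hEp
  set Eq := cE Φ q f with hEq
  set Er := cE Φ ρ f with hEr
  set Eg := cE Φ γ f with hEg
  -- norms
  have n_mp : ∑ x ∈ Φ, f x * Emp x = ∑ x ∈ Φ, Emp x ^ 2 := (sum_cE_sq Φ _ f).symm
  have n_mq : ∑ x ∈ Φ, f x * Emq x = ∑ x ∈ Φ, Emq x ^ 2 := (sum_cE_sq Φ _ f).symm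
  have n_m : ∑ x ∈ Φ, f x * Em x = ∑ x ∈ Φ, Em x ^ 2 := (sum_cE_sq Φ _ f).symm
  have n_p : ∑ x ∈ Φ, f x * Ep x = ∑ x ∈ Φ, Ep x ^ 2 := (sum_cE_sq Φ _ f).symm
  have n_q : ∑ x ∈ Φ, f x * Eq x = ∑ x ∈ Φ, Eq x ^ 2 := (sum_cE_sq Φ _ f).symm
  -- inner products
  have i_mq_mp : ∑ x ∈ Φ, Emq x * Emp x = ∑ x ∈ Φ, Em x ^ 2 :=
    sum_cE_mul_cE_of_comp Φ _ _ m f (fun x hx => h.cE_mq_mp f hx)
  have i_mq_m : ∑ x ∈ Φ, Emq x * Em x = ∑ x ∈ Φ, Em x ^ 2 :=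
    sum_cE_mul_cE_of_comp Φ _ _ m f (fun x hx =>
      cE_tower' Φ (fun y => (m y, q y)) m (fun x _ y _ hxy => (Prod.ext_iff.1 hxy).1) f hx)
  have i_mp_m : ∑ x ∈ Φ, Emp x * Em x = ∑ x ∈ Φ, Em x ^ 2 :=
    sum_cE_mul_cE_of_comp Φ _ _ m f (fun x hx =>
      cE_tower' Φ (fun y => (m y, p y)) m (fun x _ y _ hxy => (Prod.ext_iff.1 hxy).1) f hx)
  have i_mp_p : ∑ x ∈ Φ, Emp x * Ep x = ∑ x ∈ Φ, Ep x ^ 2 :=
    sum_cE_mul_cE_of_comp Φ _ _ p f (fun x hx =>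
      cE_tower' Φ (fun y => (m y, p y)) p (fun x _ y _ hxy => (Prod.ext_iff.1 hxy).2) f hx)
  have i_mq_q : ∑ x ∈ Φ, Emq x * Eq x = ∑ x ∈ Φ, Eq x ^ 2 :=
    sum_cE_mul_cE_of_comp Φ _ _ q f (fun x hx =>
      cE_tower' Φ (fun y => (m y, q y)) q (fun x _ y _ hxy => (Prod.ext_iff.1 hxy).2) f hx)
  have i_mp_r : ∑ x ∈ Φ, Emp x * Er x = ∑ x ∈ Φ, Er x ^ 2 :=
    sum_cE_mul_cE_of_comp Φ _ _ ρ f (fun x hx =>
      cE_tower' Φ (fun y => (m y, p y)) ρ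
        (fun x hx y hy hxy => h.rho_m x hx y hy (Prod.ext_iff.1 hxy).1) f hx)
  have i_mq_g : ∑ x ∈ Φ, Emq x * Eg x = ∑ x ∈ Φ, Eg x ^ 2 :=
    sum_cE_mul_cE_of_comp Φ _ _ γ f (fun x hx =>
      cE_tower' Φ (fun y => (m y, q y)) γ
        (fun x hx y hy hxy => h.gam_m x hx y hy (Prod.ext_iff.1 hxy).1) f hx)
  have i_p_m : ∑ x ∈ Φ, Ep x * Em x = ∑ x ∈ Φ, Er x ^ 2 :=
    sum_cE_mul_cE_of_comp Φ _ _ ρ f (fun x hx => h.cE_p_m f hx)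
  have i_q_m : ∑ x ∈ Φ, Eq x * Em x = ∑ x ∈ Φ, Eg x ^ 2 :=
    sum_cE_mul_cE_of_comp Φ _ _ γ f (fun x hx => h.cE_q_m f hx)
  have i_p_r : ∑ x ∈ Φ, Ep x * Er x = ∑ x ∈ Φ, Er x ^ 2 :=
    sum_cE_mul_cE_of_comp Φ _ _ ρ f (fun x hx => cE_tower' Φ p ρ h.rho_p f hx)
  have i_q_g : ∑ x ∈ Φ, Eq x * Eg x = ∑ x ∈ Φ, Eg x ^ 2 :=
    sum_cE_mul_cE_of_comp Φ _ _ γ f (fun x hx => cE_tower' Φ q γ h.gam_q f hx)
  have i_m_r : ∑ x ∈ Φ, Em x * Er x = ∑ x ∈ Φ, Er x ^ 2 :=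
    sum_cE_mul_cE_of_comp Φ _ _ ρ f (fun x hx => cE_tower' Φ m ρ h.rho_m f hx)
  have i_m_g : ∑ x ∈ Φ, Em x * Eg x = ∑ x ∈ Φ, Eg x ^ 2 :=
    sum_cE_mul_cE_of_comp Φ _ _ γ f (fun x hx => cE_tower' Φ m γ h.gam_m f hx)
  -- `⟨E_q f, E_p f⟩ = ⟨E_γ f, E_ρ f⟩`
  have i_q_p : ∑ x ∈ Φ, Eq x * Ep x = ∑ x ∈ Φ, Eg x * Er x := by
    -- E_q E_p f = E_q E_mq E_mp E_p f = E_q E_m E_p f = E_q E_ρ f,  E_γ E_ρ f = E_q E_m E_ρ f = E_q E_ρ f
    have h1 : ∀ x ∈ Φ, cE Φ q Ep x = cE Φ q Er x := by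
      intro x hx
      have a1 : cE Φ q Ep x = cE Φ q (cE Φ (fun y => (m y, q y)) Ep) x :=
        (cE_tower Φ (fun y => (m y, q y)) q (fun x _ y _ hxy => (Prod.ext_iff.1 hxy).2) Ep hx).symm
      have a2 : ∀ y ∈ Φ, cE Φ (fun y => (m y, q y)) Ep y = Er y := by
        intro y hy
        have b1 : cE Φ (fun y => (m y, q y)) Ep y
            = cE Φ (fun y => (m y, q y)) (cE Φ (fun y => (m y, p y)) Ep) y := by
          refine cE_congr Φ _ (fun z hz => ?_) y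
          exact (cE_tower' Φ (fun y => (m y, p y)) p
            (fun x _ y _ hxy => (Prod.ext_iff.1 hxy).2) f hz).symm
        rw [b1, h.cE_mq_mp Ep hy]
        exact h.cE_m_p f hy
      rw [a1]
      exact cE_congr Φ q a2 x
    have h2 : ∀ x ∈ Φ, cE Φ γ Er x = cE Φ q Er x := by
      intro x hx
      have a1 : cE Φ γ Er x = cE Φ q (cE Φ m Er) x := (h.cE_q_m Er hx).symm
      rw [a1]
      exact cE_congr Φ q (fun y hy => cE_tower' Φ m ρ h.rho_m f hy) x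
    calc ∑ x ∈ Φ, Eq x * Ep x = ∑ x ∈ Φ, f x * cE Φ q Ep x := sum_cE_mul Φ q f Ep
      _ = ∑ x ∈ Φ, f x * cE Φ γ Er x :=
          Finset.sum_congr rfl (fun x hx => by rw [h1 x hx, h2 x hx])
      _ = ∑ x ∈ Φ, Eg x * Er x := (sum_cE_mul Φ γ f Er).symm
  -- three squares
  have q1 : 0 ≤ ∑ x ∈ Φ, (f x - Emq x - Emp x + Em x) ^ 2 :=
    Finset.sum_nonneg (fun x _ => sq_nonneg _)
  have q2 : 0 ≤ ∑ x ∈ Φ, (Emp x - Ep x - Em x + Er x) ^ 2 :=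
    Finset.sum_nonneg (fun x _ => sq_nonneg _)
  have q3 : 0 ≤ ∑ x ∈ Φ, (Emq x - Eq x - Em x + Eg x) ^ 2 :=
    Finset.sum_nonneg (fun x _ => sq_nonneg _)
  rw [sum_sq4] at q1 q2 q3
  -- expand both sides
  have eL : ∑ x ∈ Φ, (Em x - Eg x) * (Em x - Er x) =
      ∑ x ∈ Φ, Em x ^ 2 - ∑ x ∈ Φ, Em x * Er x - ∑ x ∈ Φ, Em x * Eg x + ∑ x ∈ Φ, Eg x * Er x := by
    simp only [← Finset.sum_add_distrib, ← Finset.sum_sub_distrib]
    exact Finset.sum_congr rfl (fun x _ => by ring)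
  have eR : ∑ x ∈ Φ, cD Φ q f x * cD Φ p f x =
      ∑ x ∈ Φ, f x ^ 2 - ∑ x ∈ Φ, f x * Ep x - ∑ x ∈ Φ, f x * Eq x + ∑ x ∈ Φ, Eq x * Ep x := by
    simp only [← Finset.sum_add_distrib, ← Finset.sum_sub_distrib]
    exact Finset.sum_congr rfl (fun x _ => by simp only [cD, hEp, hEq]; ring)
  rw [eL, eR]
  linarith

/-- Lemma PLUS. -/
theorem IsFP.plus (h : IsFP Φ m p q ρ γ) (P : α → Prop) [DecidablePred P] (σ : α → α)
    (hσ : ∀ x ∈ Φ, P x → σ x ∈ Φ ∧ P (σ x) ∧ σ (σ x) = x ∧ p (σ x) = p x ∧ q (σ x) = q x ∧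
      m (σ x) ≠ m x)
    (hP : ∀ x ∈ Φ, ∀ y ∈ Φ, P x → ρ y = ρ x → γ y = γ x → P y ∧ (m y = m x ∨ m y = m (σ x)))
    (hnP : ∀ x ∈ Φ, ¬ P x →
      (∀ y ∈ Φ, ρ y = ρ x → m y = m x) ∨ (∀ y ∈ Φ, γ y = γ x → m y = m x))
    (hPp : ∀ x ∈ Φ, ∀ y ∈ Φ, P x → P y → p x = p y → γ x = γ y)
    (hPq : ∀ x ∈ Φ, ∀ y ∈ Φ, P x → P y → q x = q y → ρ x = ρ y)
    (f : α → ℝ) :
    ∑ x ∈ Φ.filter P, ((f x - f (σ x)) / 2) ^ 2
      - (1 / 2) * (∑ x ∈ Φ.filter P, (cE (Φ.filter P) p (cD Φ p f) x) ^ 2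
          + ∑ x ∈ Φ.filter P, (cE (Φ.filter P) q (cD Φ q f) x) ^ 2) ≤
      ∑ x ∈ Φ, cD Φ q f x * cD Φ p f x := by
  classical
  -- the involution
  set τ : α → α := fun x => if P x then σ x else x with hτdef
  have τP : ∀ x, P x → τ x = σ x := fun x hx => by simp [hτdef, hx]
  have τnP : ∀ x, ¬ P x → τ x = x := fun x hx => by simp [hτdef, hx]
  have τmem : ∀ x ∈ Φ, τ x ∈ Φ := by
    intro x hx
    by_cases hp : P x
    · rw [τP x hp]; exact (hσ x hx hp).1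
    · rw [τnP x hp]; exact hx
  have ττ : ∀ x ∈ Φ, τ (τ x) = x := by
    intro x hx
    by_cases hp : P x
    · rw [τP x hp, τP _ (hσ x hx hp).2.1]; exact (hσ x hx hp).2.2.1
    · rw [τnP x hp, τnP x hp]
  have τp : ∀ x ∈ Φ, p (τ x) = p x := by
    intro x hx
    by_cases hp : P x
    · rw [τP x hp]; exact (hσ x hx hp).2.2.2.1
    · rw [τnP x hp]
  have τq : ∀ x ∈ Φ, q (τ x) = q x := by
    intro x hx
    by_cases hp : P x
    · rw [τP x hp]; exact (hσ x hx hp).2.2.2.2.1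
    · rw [τnP x hp]
  have τρ : ∀ x ∈ Φ, ρ (τ x) = ρ x := fun x hx => h.rho_p _ (τmem x hx) _ hx (τp x hx)
  have τγ : ∀ x ∈ Φ, γ (τ x) = γ x := fun x hx => h.gam_q _ (τmem x hx) _ hx (τq x hx)
  have τbij : Set.BijOn τ Φ Φ := by
    refine ⟨fun x hx => τmem x hx, fun x hx y hy hxy => ?_, fun y hy => ⟨τ y, τmem y hy, ττ y hy⟩⟩
    rw [← ττ x hx, ← ττ y hy, hxy]
  -- `τ` is compatible with `m`
  have τm1 : ∀ x ∈ Φ, ∀ y ∈ Φ, m x = m y → m (τ x) = m (τ y) := by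
    intro x hx y hy hxy
    have hr : ρ y = ρ x := (h.rho_m x hx y hy hxy).symm
    have hg : γ y = γ x := (h.gam_m x hx y hy hxy).symm
    by_cases hp : P x
    · have hpy : P y := (hP x hx y hy hp hr hg).1
      rw [τP x hp, τP y hpy]
      have hy' := hσ y hy hpy
      have h1 : ρ (σ y) = ρ x := by
        rw [← hr]; exact h.rho_p _ hy'.1 _ hy hy'.2.2.2.1
      have h2 : γ (σ y) = γ x := by
        rw [← hg]; exact h.gam_q _ hy'.1 _ hy hy'.2.2.2.2.1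
      rcases (hP x hx (σ y) hy'.1 hp h1 h2).2 with h3 | h3
      · exact absurd (h3.trans hxy) hy'.2.2.2.2.2
      · exact h3.symm
    · have hpy : ¬ P y := fun hpy => hp (hP y hy x hx hpy hr.symm hg.symm).1
      rw [τnP x hp, τnP y hpy]; exact hxy
  have τm : ∀ x ∈ Φ, ∀ y ∈ Φ, m x = m y ↔ m (τ x) = m (τ y) := by
    intro x hx y hy
    refine ⟨τm1 x hx y hy, fun hxy => ?_⟩
    have := τm1 _ (τmem x hx) _ (τmem y hy) hxy
    rwa [ττ x hx, ττ y hy] at this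
  -- even and odd parts
  set fp : α → ℝ := fun x => (f x + f (τ x)) / 2 with hfp
  set fm : α → ℝ := fun x => (f x - f (τ x)) / 2 with hfm
  have fp_even : ∀ x ∈ Φ, fp (τ x) = fp x := by
    intro x hx; simp only [hfp]; rw [ττ x hx]; ring
  have fm_odd : ∀ x ∈ Φ, fm (τ x) = - fm x := by
    intro x hx; simp only [hfm]; rw [ττ x hx]; ring
  have Ep_fp : ∀ x ∈ Φ, cE Φ p fp x = cE Φ p f x := fun x hx => cE_symm_inv Φ p τ τbij τp f hx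
  have Eq_fp : ∀ x ∈ Φ, cE Φ q fp x = cE Φ q f x := fun x hx => cE_symm_inv Φ q τ τbij τq f hx
  have Er_fp : ∀ x ∈ Φ, cE Φ ρ fp x = cE Φ ρ f x := fun x hx => cE_symm_inv Φ ρ τ τbij τρ f hx
  have Eg_fp : ∀ x ∈ Φ, cE Φ γ fp x = cE Φ γ f x := fun x hx => cE_symm_inv Φ γ τ τbij τγ f hx
  -- decomposition of the left hand side
  have dq : ∀ x ∈ Φ, cD Φ q f x = fm x + cD Φ q fp x := by
    intro x hx; simp only [cD]; rw [Eq_fp x hx]; simp only [hfp, hfm]; ring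
  have dp : ∀ x ∈ Φ, cD Φ p f x = fm x + cD Φ p fp x := by
    intro x hx; simp only [cD]; rw [Ep_fp x hx]; simp only [hfp, hfm]; ring
  have dq_even : ∀ x ∈ Φ, cD Φ q fp (τ x) = cD Φ q fp x := by
    intro x hx; simp only [cD]; rw [fp_even x hx, cE_eq_of_key_eq Φ q fp (τq x hx)]
  have dp_even : ∀ x ∈ Φ, cD Φ p fp (τ x) = cD Φ p fp x := by
    intro x hx; simp only [cD]; rw [fp_even x hx, cE_eq_of_key_eq Φ p fp (τp x hx)]
  have cross0 : ∑ x ∈ Φ, fm x * (cD Φ q fp x + cD Φ p fp x) = 0 := by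
    refine sum_eq_zero_of_odd Φ τ τmem ττ _ (fun x hx => ?_)
    rw [fm_odd x hx, dq_even x hx, dp_even x hx]; ring
  have main1 : ∑ x ∈ Φ, cD Φ q f x * cD Φ p f x =
      ∑ x ∈ Φ, fm x ^ 2 + ∑ x ∈ Φ, cD Φ q fp x * cD Φ p fp x := by
    have : ∑ x ∈ Φ, cD Φ q f x * cD Φ p f x =
        ∑ x ∈ Φ, fm x ^ 2 + ∑ x ∈ Φ, fm x * (cD Φ q fp x + cD Φ p fp x)
          + ∑ x ∈ Φ, cD Φ q fp x * cD Φ p fp x := by
      simp only [← Finset.sum_add_distrib]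
      exact Finset.sum_congr rfl (fun x hx => by rw [dq x hx, dp x hx]; ring)
    rw [this, cross0, add_zero]
  have main2 : ∑ x ∈ Φ, fm x ^ 2 = ∑ x ∈ Φ.filter P, ((f x - f (σ x)) / 2) ^ 2 := by
    rw [Finset.sum_filter]
    refine Finset.sum_congr rfl (fun x _ => ?_)
    by_cases hp : P x
    · simp only [hfm, if_pos hp]; rw [τP x hp]
    · simp only [hfm, if_neg hp]; rw [τnP x hp]; simp
  -- the key `R = (ρ, γ)`
  set R : α → I × J := fun y => (ρ y, γ y) with hR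
  have τR : ∀ x ∈ Φ, R (τ x) = R x := fun x hx => by simp only [hR]; rw [τρ x hx, τγ x hx]
  have Rm : ∀ x ∈ Φ, ∀ y ∈ Φ, m x = m y → R x = R y := fun x hx y hy hxy => by
    simp only [hR]; rw [h.rho_m x hx y hy hxy, h.gam_m x hx y hy hxy]
  have Em_τ : ∀ x ∈ Φ, cE Φ m fp (τ x) = cE Φ m fp x := by
    intro x hx
    rw [← cE_comp_of_bij Φ m τ τbij τm fp hx]
    exact cE_congr Φ m fp_even x
  have Em_meas : ∀ x ∈ Φ, ∀ y ∈ Φ, R x = R y → cE Φ m fp x = cE Φ m fp y := by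
    intro x hx y hy hxy
    have hr : ρ y = ρ x := (Prod.ext_iff.1 hxy).1.symm
    have hg : γ y = γ x := (Prod.ext_iff.1 hxy).2.symm
    by_cases hp : P x
    · rcases (hP x hx y hy hp hr hg).2 with h3 | h3
      · exact (cE_eq_of_key_eq Φ m fp h3).symm
      · rw [cE_eq_of_key_eq Φ m fp h3, ← τP x hp, Em_τ x hx]
    · rcases hnP x hx hp with h3 | h3
      · exact (cE_eq_of_key_eq Φ m fp (h3 y hy hr)).symm
      · exact (cE_eq_of_key_eq Φ m fp (h3 y hy hg)).symm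
  have claimA : ∀ x ∈ Φ, cE Φ m fp x = cE Φ R f x := by
    intro x hx
    rw [← cE_symm_inv Φ R τ τbij τR f hx, ← cE_tower Φ m R Rm fp hx]
    exact (cE_of_meas Φ R Em_meas hx).symm
  have claimBq : ∀ x ∈ Φ, cE Φ γ fp x = cE Φ R (cE Φ q f) x := by
    intro x hx
    rw [Eg_fp x hx, ← cE_tower Φ m R Rm (cE Φ q f) hx,
      cE_congr Φ R (fun y hy => h.cE_m_q f hy) x]
    exact (cE_tower' Φ R γ (fun x _ y _ hxy => (Prod.ext_iff.1 hxy).2) f hx).symm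
  have claimBp : ∀ x ∈ Φ, cE Φ ρ fp x = cE Φ R (cE Φ p f) x := by
    intro x hx
    rw [Er_fp x hx, ← cE_tower Φ m R Rm (cE Φ p f) hx,
      cE_congr Φ R (fun y hy => h.cE_m_p f hy) x]
    exact (cE_tower' Φ R ρ (fun x _ y _ hxy => (Prod.ext_iff.1 hxy).1) f hx).symm
  have hX : ∀ x ∈ Φ, cE Φ m fp x - cE Φ γ fp x = cE Φ R (cD Φ q f) x := by
    intro x hx
    rw [claimA x hx, claimBq x hx, ← cE_sub]
    rfl
  have hY : ∀ x ∈ Φ, cE Φ m fp x - cE Φ ρ fp x = cE Φ R (cD Φ p f) x := by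
    intro x hx
    rw [claimA x hx, claimBp x hx, ← cE_sub]
    rfl
  -- off `P` one factor vanishes
  have offP : ∀ x ∈ Φ, (cE Φ m fp x - cE Φ γ fp x) * (cE Φ m fp x - cE Φ ρ fp x) ≠ 0 → P x := by
    intro x hx hne
    by_contra hp
    apply hne
    rcases hnP x hx hp with h3 | h3
    · have : cE Φ m fp x = cE Φ ρ fp x :=
        cE_eq_of_fibre_eq Φ m ρ fp x (fun y hy => ⟨fun e => h.rho_m y hy x hx e, h3 y hy⟩)
      rw [this]; ring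
    · have : cE Φ m fp x = cE Φ γ fp x :=
        cE_eq_of_fibre_eq Φ m γ fp x (fun y hy => ⟨fun e => h.gam_m y hy x hx e, h3 y hy⟩)
      rw [this]; ring
  -- on `P` the `R`-fibres of `Φ` and of `Φ.filter P` coincide
  have locR : ∀ (g : α → ℝ), ∀ x ∈ Φ.filter P, cE Φ R g x = cE (Φ.filter P) R g x := by
    intro g x hx
    have hxΦ := (Finset.mem_filter.1 hx).1
    have hxP := (Finset.mem_filter.1 hx).2
    have : (Φ.filter P).filter (fun y => R y = R x) = Φ.filter (fun y => R y = R x) := by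
      ext y
      simp only [Finset.mem_filter]
      constructor
      · rintro ⟨⟨h1, _⟩, h3⟩; exact ⟨h1, h3⟩
      · rintro ⟨h1, h3⟩
        exact ⟨⟨h1, (hP x hxΦ y h1 hxP (Prod.ext_iff.1 h3).1 (Prod.ext_iff.1 h3).2).1⟩, h3⟩
    unfold cE
    rw [this]
  have main3 : ∑ x ∈ Φ, (cE Φ m fp x - cE Φ γ fp x) * (cE Φ m fp x - cE Φ ρ fp x) =
      ∑ x ∈ Φ.filter P, cE (Φ.filter P) R (cD Φ q f) x * cE (Φ.filter P) R (cD Φ p f) x := by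
    rw [← Finset.sum_filter_of_ne offP]
    refine Finset.sum_congr rfl (fun x hx => ?_)
    have hxΦ := (Finset.mem_filter.1 hx).1
    rw [hX x hxΦ, hY x hxΦ, locR _ x hx, locR _ x hx]
  have cq : ∑ x ∈ Φ.filter P, (cE (Φ.filter P) R (cD Φ q f) x) ^ 2 ≤
      ∑ x ∈ Φ.filter P, (cE (Φ.filter P) q (cD Φ q f) x) ^ 2 := by
    refine sum_cE_sq_le_of_coarser (Φ.filter P) q R (fun x hx y hy hxy => ?_) _
    have hx' := Finset.mem_filter.1 hx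
    have hy' := Finset.mem_filter.1 hy
    simp only [hR]
    rw [hPq x hx'.1 y hy'.1 hx'.2 hy'.2 hxy, h.gam_q x hx'.1 y hy'.1 hxy]
  have cp : ∑ x ∈ Φ.filter P, (cE (Φ.filter P) R (cD Φ p f) x) ^ 2 ≤
      ∑ x ∈ Φ.filter P, (cE (Φ.filter P) p (cD Φ p f) x) ^ 2 := by
    refine sum_cE_sq_le_of_coarser (Φ.filter P) p R (fun x hx y hy hxy => ?_) _
    have hx' := Finset.mem_filter.1 hx
    have hy' := Finset.mem_filter.1 hy
    simp only [hR]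
    rw [hPp x hx'.1 y hy'.1 hx'.2 hy'.2 hxy, h.rho_p x hx'.1 y hy'.1 hxy]
  have amgm : - (1 / 2) * (∑ x ∈ Φ.filter P, (cE (Φ.filter P) R (cD Φ q f) x) ^ 2
        + ∑ x ∈ Φ.filter P, (cE (Φ.filter P) R (cD Φ p f) x) ^ 2) ≤
      ∑ x ∈ Φ.filter P, cE (Φ.filter P) R (cD Φ q f) x * cE (Φ.filter P) R (cD Φ p f) x := by
    rw [← Finset.sum_add_distrib, Finset.mul_sum]
    refine Finset.sum_le_sum (fun x _ => ?_)
    nlinarith [sq_nonneg (cE (Φ.filter P) R (cD Φ q f) x + cE (Φ.filter P) R (cD Φ p f) x)]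
  have hin := h.ineq fp
  rw [main3] at hin
  rw [main1, main2]
  linarith

end FP

end Crest.Agent.S0453D
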