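import Crest.Agent.S0453_DisjP
import Crest.Agent.S0453_DisjQ
import Crest.Agent.S0453_DisjGlue
import Crest.Agent.S0453_DisjFlip
import Crest.Agent.S0453_FP2

/-! # S0453, package B5 : the disjoint-pair inequality `disj_pair` -/

set_option autoImplicit false
open Finset
open Crest.SwitchChain

namespace Crest.Agent.S0453D

variable {n : ℕ}

namespace Disj

/-- second component of `keyM`. -/
def iM (M : B4) : B4 := if tot M = 2 then M else (false, false, false, false)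
/-- second component of `keyR`. -/
def iR (M : B4) : ℕ := if tot M = 2 then rU M else 0
/-- second component of `keyC`. -/
def iC (M : B4) : ℕ := if tot M = 2 then cW M else 0

/-- permutation blocks. -/
def isPerm (M : B4) : Prop := M = (true, false, false, true) ∨ M = (false, true, true, false)

instance : DecidablePred isPerm := fun M => by unfold isPerm; infer_instance

lemma tot_rows : ∀ M : B4, tot M = rU M + rV M := by decide
lemma tot_cols : ∀ M : B4, tot M = cW M + cZ M := by decide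

lemma b_inj : ∀ M M' : B4, rU M = rU M' → rV M = rV M' → cW M = cW M' → cZ M = cZ M' →
    iM M = iM M' → M = M' := by decide

lemma b_rho_m : ∀ M M' : B4, iM M = iM M' → iR M = iR M' := by decide
lemma b_gam_m : ∀ M M' : B4, iM M = iM M' → iC M = iC M' := by decide

/-- the block with prescribed margins (total `≠ 2`). -/
def mkB (t ru rv cw cz : ℕ) : B4 :=
  (decide ((if t ≤ 1 then 2 else 3) ≤ ru + cw), decide ((if t ≤ 1 then 2 else 3) ≤ ru + cz),
    decide ((if t ≤ 1 then 2 else 3) ≤ rv + cw), decide ((if t ≤ 1 then 2 else 3) ≤ rv + cz))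

/-- the block used in the gluing. -/
def pick (M₁ M₂ M₃ : B4) : B4 :=
  if tot M₁ = 2 then M₁ else mkB (tot M₁) (rU M₂) (rV M₂) (cW M₃) (cZ M₃)

lemma b_cl2r : ∀ M₁ M₂ : B4, tot M₁ = 2 → tot M₁ = tot M₂ → iR M₁ = iR M₂ →
    rU M₁ = rU M₂ ∧ rV M₁ = rV M₂ := by decide
lemma b_cl2c : ∀ M₁ M₃ : B4, tot M₁ = 2 → tot M₁ = tot M₃ → iC M₁ = iC M₃ →
    cW M₁ = cW M₃ ∧ cZ M₁ = cZ M₃ := by decide
lemma b_clN : ∀ M₂ M₃ : B4, tot M₂ = tot M₃ → tot M₂ ≠ 2 →
    rU (mkB (tot M₂) (rU M₂) (rV M₂) (cW M₃) (cZ M₃)) = rU M₂ ∧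
    rV (mkB (tot M₂) (rU M₂) (rV M₂) (cW M₃) (cZ M₃)) = rV M₂ ∧
    cW (mkB (tot M₂) (rU M₂) (rV M₂) (cW M₃) (cZ M₃)) = cW M₃ ∧
    cZ (mkB (tot M₂) (rU M₂) (rV M₂) (cW M₃) (cZ M₃)) = cZ M₃ ∧
    tot (mkB (tot M₂) (rU M₂) (rV M₂) (cW M₃) (cZ M₃)) = tot M₂ := by decide

lemma b_cl (M₁ M₂ M₃ : B4) (h2 : tot M₁ = tot M₂) (h3 : tot M₁ = tot M₃) (hR : iR M₁ = iR M₂)
    (hC : iC M₁ = iC M₃) : rU (pick M₁ M₂ M₃) = rU M₂ ∧ rV (pick M₁ M₂ M₃) = rV M₂ ∧
      cW (pick M₁ M₂ M₃) = cW M₃ ∧ cZ (pick M₁ M₂ M₃) = cZ M₃ ∧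
      tot (pick M₁ M₂ M₃) = tot M₁ ∧ iM (pick M₁ M₂ M₃) = iM M₁ := by
  by_cases h : tot M₁ = 2
  · have e : pick M₁ M₂ M₃ = M₁ := by simp [pick, h]
    rw [e]
    exact ⟨(b_cl2r _ _ h h2 hR).1, (b_cl2r _ _ h h2 hR).2, (b_cl2c _ _ h h3 hC).1,
      (b_cl2c _ _ h h3 hC).2, rfl, rfl⟩
  · have e : pick M₁ M₂ M₃ = mkB (tot M₂) (rU M₂) (rV M₂) (cW M₃) (cZ M₃) := by
      unfold pick; rw [if_neg h, h2]
    have h' : tot M₂ ≠ 2 := h2 ▸ h
    obtain ⟨a1, a2, a3, a4, a5⟩ := b_clN M₂ M₃ (h2.symm.trans h3) h'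
    rw [e]
    refine ⟨a1, a2, a3, a4, a5.trans h2.symm, ?_⟩
    have a6 : tot (mkB (tot M₂) (rU M₂) (rV M₂) (cW M₃) (cZ M₃)) ≠ 2 := by rw [a5]; exact h'
    simp [iM, a6, h]

lemma b_sigma : ∀ M : B4, isPerm M → isPerm (notB M) ∧ iM (notB M) ≠ iM M ∧
    tot (notB M) = tot M := by decide

lemma b_hP : ∀ M M' : B4, isPerm M → tot M' = tot M → iR M' = iR M → iC M' = iC M →
    isPerm M' ∧ (iM M' = iM M ∨ iM M' = iM (notB M)) := by decide

lemma b_hnP_a : ∀ M M' : B4, (tot M ≠ 2 ∨ rU M ≠ 1) → tot M' = tot M → iR M' = iR M →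
    iM M' = iM M := by decide
lemma b_hnP_b : ∀ M M' : B4, (tot M = 2 ∧ cW M ≠ 1) → tot M' = tot M → iC M' = iC M →
    iM M' = iM M := by decide
lemma b_hnP_c : ∀ M : B4, ¬ isPerm M → (tot M ≠ 2 ∨ rU M ≠ 1) ∨ (tot M = 2 ∧ cW M ≠ 1) := by
  decide

lemma b_hnP (M : B4) (h : ¬ isPerm M) :
    (∀ M' : B4, tot M' = tot M → iR M' = iR M → iM M' = iM M) ∨
    (∀ M' : B4, tot M' = tot M → iC M' = iC M → iM M' = iM M) := by
  rcases b_hnP_c M h with h | h
  · exact Or.inl fun M' => b_hnP_a M M' h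
  · exact Or.inr fun M' => b_hnP_b M M' h

lemma b_perm : ∀ M M' : B4, isPerm M → isPerm M' → iR M = iR M' ∧ iC M = iC M' ∧
    tot M = tot M' := by decide

end Disj

open Disj

section
variable (d : Fin n → ℕ) (u v w z : Fin n)

lemma Disj.keyM_eq (G : Gr n) : keyM u v w z G = (keyH u v w z G, iM (blk u v w z G)) := rfl
lemma Disj.keyR_eq (G : Gr n) : keyR u v w z G = (keyH u v w z G, iR (blk u v w z G)) := rfl
lemma Disj.keyC_eq (G : Gr n) : keyC u v w z G = (keyH u v w z G, iC (blk u v w z G)) := rfl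
lemma Disj.keyH_eq (G : Gr n) :
    keyH u v w z G = (c0 u v w z G, tY u v w z G, tot (blk u v w z G)) := rfl

variable {d u v w z}
variable (huv : u ≠ v) (huw : u ≠ w) (huz : u ≠ z) (hvw : v ≠ w) (hvz : v ≠ z) (hwz : w ≠ z)

include huv huw huz hvw hvz hwz

lemma Disj.keyH_p {G G' : Gr n} (hG : G ∈ realizations d) (hG' : G' ∈ realizations d)
    (h : keyP w z G = keyP w z G') :
    keyH u v w z G = keyH u v w z G' ∧ rU (blk u v w z G) = rU (blk u v w z G') := by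
  obtain ⟨h1, h2, h3, h4⟩ := keyH_of_p d u v w z huv huw huz hvw hvz hwz hG hG' h
  refine ⟨?_, h3⟩
  rw [keyH_eq, keyH_eq, h1, h2, tot_rows, tot_rows, h3, h4]

lemma Disj.keyH_q {G G' : Gr n} (hG : G ∈ realizations d) (hG' : G' ∈ realizations d)
    (h : keyP u v G = keyP u v G') :
    keyH u v w z G = keyH u v w z G' ∧ cW (blk u v w z G) = cW (blk u v w z G') := by
  obtain ⟨h1, h2, h3, h4⟩ := keyH_of_q d u v w z huv huw huz hvw hvz hwz hG hG' h
  refine ⟨?_, h3⟩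
  rw [keyH_eq, keyH_eq, h1, h2, tot_cols, tot_cols, h3, h4]

omit huv huw huz hvw hvz hwz in
lemma Disj.tot_of_keyH {G G' : Gr n} (h : keyH u v w z G = keyH u v w z G') :
    tot (blk u v w z G) = tot (blk u v w z G') := by
  rw [keyH_eq, keyH_eq] at h
  exact (Prod.ext_iff.1 (Prod.ext_iff.1 h).2).2

theorem Disj.isFP :
    IsFP (realizations d) (keyM u v w z) (keyP w z) (keyP u v) (keyR u v w z) (keyC u v w z) where
  inj := by
    intro x hx y hy hm hp hq
    obtain ⟨-, -, h3, h4⟩ := keyH_of_p d u v w z huv huw huz hvw hvz hwz hx hy hp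
    obtain ⟨-, -, h5, h6⟩ := keyH_of_q d u v w z huv huw huz hvw hvz hwz hx hy hq
    rw [keyM_eq, keyM_eq] at hm
    exact ext_of_keys u v w z huw huz hvw hvz hp hq (b_inj _ _ h3 h4 h5 h6 (Prod.ext_iff.1 hm).2)
  rho_m := by
    intro x _ y _ hm
    rw [keyM_eq, keyM_eq] at hm
    obtain ⟨hm1, hm2⟩ := Prod.mk.inj hm
    rw [keyR_eq, keyR_eq, hm1, b_rho_m _ _ hm2]
  rho_p := by
    intro x hx y hy hp
    obtain ⟨h1, h2⟩ := keyH_p huv huw huz hvw hvz hwz hx hy hp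
    have h3 := tot_of_keyH h1
    rw [keyR_eq, keyR_eq, h1]
    simp only [iR, h2, h3]
  gam_m := by
    intro x _ y _ hm
    rw [keyM_eq, keyM_eq] at hm
    obtain ⟨hm1, hm2⟩ := Prod.mk.inj hm
    rw [keyC_eq, keyC_eq, hm1, b_gam_m _ _ hm2]
  gam_q := by
    intro x hx y hy hq
    obtain ⟨h1, h2⟩ := keyH_q huv huw huz hvw hvz hwz hx hy hq
    have h3 := tot_of_keyH h1
    rw [keyC_eq, keyC_eq, h1]
    simp only [iC, h2, h3]
  cl := by
    intro x₁ h₁ x₂ h₂ x₃ h₃ hr hc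
    rw [keyR_eq, keyR_eq] at hr
    rw [keyC_eq, keyC_eq] at hc
    have hH2 := (Prod.ext_iff.1 hr).1
    have hH3 := (Prod.ext_iff.1 hc).1
    simp only at hH2 hH3
    obtain ⟨m1, m2, m3, m4, m5, m6⟩ := b_cl _ _ _
      (tot_of_keyH hH2) (tot_of_keyH hH3)
      (Prod.ext_iff.1 hr).2 (Prod.ext_iff.1 hc).2
    have hH23 : keyH u v w z x₂ = keyH u v w z x₃ := hH2.symm.trans hH3
    rw [keyH_eq, keyH_eq] at hH23
    obtain ⟨H, hH, hp, hq, hb⟩ := glue d u v w z huv huw huz hvw hvz hwz h₂ h₃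
      (Prod.ext_iff.1 hH23).1 (Prod.ext_iff.1 (Prod.ext_iff.1 hH23).2).1 _ m1 m2 m3 m4
    refine ⟨H, hH, ?_, hp, hq⟩
    obtain ⟨k1, k2, -, -⟩ := keyH_of_p d u v w z huv huw huz hvw hvz hwz hH h₂ hp
    rw [keyM_eq, keyM_eq, hb, m6]
    congr 1
    rw [hH2, keyH_eq, keyH_eq, k1, k2, hb, m5, tot_of_keyH hH2]

end

theorem disj_pair (d : Fin n → ℕ) (u v w z : Fin n)
    (huv : u ≠ v) (huw : u ≠ w) (huz : u ≠ z) (hvw : v ≠ w) (hvz : v ≠ z) (hwz : w ≠ z)
    (f : Gr n → ℝ) :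
    Qf d u v w z f - (1 / 2) * (Lo d u v w z f + Lo d w z u v f) ≤
      ∑ G ∈ realizations d, Dp d u v f G * Dp d w z f G := by
  classical
  have hperm : ∀ G : Gr n, isP u v w z G ↔ isPerm (blk u v w z G) := fun G => isP_iff_blk u v w z G
  have key := (Disj.isFP (d := d) huv huw huz hvw hvz hwz).plus (isP u v w z) (flipB u v w z)
    (by
      intro x hx hP
      have hb := b_sigma _ ((hperm x).1 hP)
      refine ⟨flipB_mem d u v w z huv huw huz hvw hvz hwz hx hP, ?_, flipB_flipB u v w z x,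
        keyP_wz_flipB u v w z huv huw huz hvw hvz hwz x,
        keyP_uv_flipB u v w z huv huw huz hvw hvz hwz x, ?_⟩
      · rw [hperm, blk_flipB u v w z huv huw huz hvw hvz hwz]; exact hb.1
      · rw [keyM_eq, keyM_eq, blk_flipB u v w z huv huw huz hvw hvz hwz]
        intro h
        exact hb.2.1 (Prod.ext_iff.1 h).2)
    (by
      intro x hx y hy hP hr hc
      rw [keyR_eq, keyR_eq] at hr
      rw [keyC_eq, keyC_eq] at hc
      have hH : keyH u v w z y = keyH u v w z x := (Prod.ext_iff.1 hr).1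
      obtain ⟨h1, h2⟩ := b_hP _ _ ((hperm x).1 hP) (tot_of_keyH hH)
        (Prod.ext_iff.1 hr).2 (Prod.ext_iff.1 hc).2
      refine ⟨(hperm y).2 h1, ?_⟩
      rcases h2 with h2 | h2
      · left; rw [keyM_eq, keyM_eq, hH, h2]
      · right
        have hσ := flipB_mem d u v w z huv huw huz hvw hvz hwz hx hP
        have hk := (keyH_p huv huw huz hvw hvz hwz hσ hx
          (keyP_wz_flipB u v w z huv huw huz hvw hvz hwz x)).1
        rw [keyM_eq, keyM_eq, hH, h2, hk, blk_flipB u v w z huv huw huz hvw hvz hwz])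
    (by
      intro x hx hP
      rcases b_hnP _ (fun h => hP ((hperm x).2 h)) with h | h
      · left
        intro y hy hr
        rw [keyR_eq, keyR_eq] at hr
        have hH : keyH u v w z y = keyH u v w z x := (Prod.ext_iff.1 hr).1
        rw [keyM_eq, keyM_eq, hH,
          h _ (tot_of_keyH hH) (Prod.ext_iff.1 hr).2]
      · right
        intro y hy hr
        rw [keyC_eq, keyC_eq] at hr
        have hH : keyH u v w z y = keyH u v w z x := (Prod.ext_iff.1 hr).1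
        rw [keyM_eq, keyM_eq, hH,
          h _ (tot_of_keyH hH) (Prod.ext_iff.1 hr).2])
    (by
      intro x hx y hy hPx hPy hp
      rw [keyC_eq, keyC_eq, (keyH_p huv huw huz hvw hvz hwz hx hy hp).1,
        (b_perm _ _ ((hperm x).1 hPx) ((hperm y).1 hPy)).2.1])
    (by
      intro x hx y hy hPx hPy hq
      rw [keyR_eq, keyR_eq, (keyH_q huv huw huz hvw hvz hwz hx hy hq).1,
        (b_perm _ _ ((hperm x).1 hPx) ((hperm y).1 hPy)).1])
    f
  have e1 : OmP d u v w z = (realizations d).filter (isP u v w z) := by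
    unfold OmP; congr
  have e2 : OmP d w z u v = (realizations d).filter (isP u v w z) := by
    rw [OmP_symm, e1]
  unfold Qf Lo Dp
  rw [e1, e2]
  exact key

end Crest.Agent.S0453D
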