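import Crest.Agent.S0453_Graph

/-! # S0453, package B4 (helper23): `keyP_comm`, `keyP_eq_of_isSwitch` -/

set_option autoImplicit false
open Finset
open Crest.SwitchChain

namespace Crest.Agent.S0453D

variable {n : ℕ}

theorem keyP_comm (u v : Fin n) : keyP u v = keyP v u := by
  funext G
  unfold keyP
  refine Finset.filter_congr fun e _ => ?_
  rw [Sym2.eq_swap (a := u) (b := v)]
  tauto

theorem keyP_eq_of_isSwitch {G G' : Gr n} {a b c d : Fin n} (h : IsSwitch G G' a b c d) :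
    keyP a d G = keyP a d G' := by
  obtain ⟨hab, hac, had, hbc, hbd, hcd, h1, h2, h3, h4, h5⟩ := h
  rw [keyP_eq_iff]
  intro x y hxy
  rw [h5 x y]
  rcases hxy with ⟨hxa, hxd, hya, hyd⟩ | hxy
  · have e1 : s(x, y) ≠ s(a, b) := by
      intro e; rcases Sym2.eq_iff.mp e with ⟨r, _⟩ | ⟨_, r⟩ <;> tauto
    have e2 : s(x, y) ≠ s(c, d) := by
      intro e; rcases Sym2.eq_iff.mp e with ⟨_, r⟩ | ⟨r, _⟩ <;> tauto
    have e3 : s(x, y) ≠ s(a, c) := by
      intro e; rcases Sym2.eq_iff.mp e with ⟨r, _⟩ | ⟨_, r⟩ <;> tauto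
    have e4 : s(x, y) ≠ s(b, d) := by
      intro e; rcases Sym2.eq_iff.mp e with ⟨_, r⟩ | ⟨r, _⟩ <;> tauto
    tauto
  · have e1 : s(x, y) ≠ s(a, b) := by
      rw [hxy]; intro e; rcases Sym2.eq_iff.mp e with ⟨_, r⟩ | ⟨r, _⟩
      · exact hbd r.symm
      · exact hab r
    have e2 : s(x, y) ≠ s(c, d) := by
      rw [hxy]; intro e; rcases Sym2.eq_iff.mp e with ⟨r, _⟩ | ⟨r, _⟩
      · exact hac r
      · exact had r
    have e3 : s(x, y) ≠ s(a, c) := by
      rw [hxy]; intro e; rcases Sym2.eq_iff.mp e with ⟨_, r⟩ | ⟨r, _⟩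
      · exact hcd r.symm
      · exact hac r
    have e4 : s(x, y) ≠ s(b, d) := by
      rw [hxy]; intro e; rcases Sym2.eq_iff.mp e with ⟨r, _⟩ | ⟨r, _⟩
      · exact hab r
      · exact had r
    tauto

end Crest.Agent.S0453D
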