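import Mathlib
import Crest.Prelude.Def_SwitchChain

/-!
# S0453 (switch chain): common definitions

Everything lives in the namespace `Crest.Agent.S0453D`.
See `notes/ROW299_proof.md` for the paper proof and the list of packages.
-/

set_option autoImplicit false
open Finset
open Crest.SwitchChain

namespace Crest.Agent.S0453D

/-! ### averaging operators (conditional expectations for the uniform measure on a finset) -/

/-- `cE Ω key f x` : the average of `f` over the fibre `{y ∈ Ω | key y = key x}`. -/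
noncomputable def cE {α κ : Type*} [DecidableEq κ] (Ω : Finset α) (key : α → κ) (f : α → ℝ)
    (x : α) : ℝ :=
  (∑ y ∈ Ω.filter (fun y => key y = key x), f y) /
    ((Ω.filter (fun y => key y = key x)).card : ℝ)

/-- `cD Ω key f = f - cE Ω key f`. -/
noncomputable def cD {α κ : Type*} [DecidableEq κ] (Ω : Finset α) (key : α → κ) (f : α → ℝ)
    (x : α) : ℝ :=
  f x - cE Ω key f x

/-- the mean of `f` over `Ω`. -/
noncomputable def mean {α : Type*} (Ω : Finset α) (f : α → ℝ) : ℝ :=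
  (∑ y ∈ Ω, f y) / (Ω.card : ℝ)

/-! ### graphs -/

/-- graphs on `Fin n` = finite sets of edges. -/
abbrev Gr (n : ℕ) := Finset (Edge n)

variable {n : ℕ}

/-- adjacency. -/
def adj (G : Gr n) (u v : Fin n) : Prop := ∃ e ∈ G, e.1 = s(u, v)

/-- `G'` arises from `G` by the switch removing `ab, cd` and inserting `ac, bd`
(the alternating 4-cycle is `a b d c`, its diagonals are `{a,d}` and `{b,c}`). -/
def IsSwitch (G G' : Gr n) (a b c d : Fin n) : Prop :=
  a ≠ b ∧ a ≠ c ∧ a ≠ d ∧ b ≠ c ∧ b ≠ d ∧ c ≠ d ∧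
  adj G a b ∧ adj G c d ∧ ¬ adj G a c ∧ ¬ adj G b d ∧
  ∀ x y : Fin n, adj G' x y ↔
    (adj G x y ∧ s(x, y) ≠ s(a, b) ∧ s(x, y) ≠ s(c, d)) ∨ s(x, y) = s(a, c) ∨ s(x, y) = s(b, d)

/-- switch adjacency. -/
def Sw (G G' : Gr n) : Prop := ∃ a b c d, IsSwitch G G' a b c d

open Classical in
/-- the switch energy (sum over ORDERED switch-adjacent pairs of realizations). -/
noncomputable def En (d : Fin n → ℕ) (f : Gr n → ℝ) : ℝ :=
  ∑ G ∈ realizations d, ∑ G' ∈ (realizations d).filter (fun G' => Sw G G'), (f G - f G') ^ 2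

/-- key of the pair block `{u,v}`: reveal all edges avoiding `u` and `v`, and the edge `uv`. -/
def keyP (u v : Fin n) (G : Gr n) : Gr n :=
  G.filter fun e => (u ∉ e.1 ∧ v ∉ e.1) ∨ e.1 = s(u, v)

/-- `Dp d u v f = f - E[f | keyP u v]` on the realizations of `d`. -/
noncomputable def Dp (d : Fin n → ℕ) (u v : Fin n) (f : Gr n → ℝ) : Gr n → ℝ :=
  cD (realizations d) (keyP u v) f

/-- the `2 × 2` block between `{u,v}` and `{w,z}` is a permutation matrix. -/
def isP (u v w z : Fin n) (G : Gr n) : Prop :=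
  (adj G u w ∧ adj G v z ∧ ¬ adj G u z ∧ ¬ adj G v w) ∨
  (adj G u z ∧ adj G v w ∧ ¬ adj G u w ∧ ¬ adj G v z)

/-- the four cross edges between `{u,v}` and `{w,z}`. -/
def cross (u v w z : Fin n) : Gr n :=
  univ.filter fun e => e.1 = s(u, w) ∨ e.1 = s(u, z) ∨ e.1 = s(v, w) ∨ e.1 = s(v, z)

/-- flip the four cross edges (on `isP` graphs: the switch with diagonals `{u,v}`, `{w,z}`). -/
def flipB (u v w z : Fin n) (G : Gr n) : Gr n := symmDiff G (cross u v w z)

open Classical in
/-- realizations whose `{u,v} × {w,z}` block is a permutation matrix. -/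
noncomputable def OmP (d : Fin n → ℕ) (u v w z : Fin n) : Finset (Gr n) :=
  (realizations d).filter (isP u v w z)

/-- `‖D_{bb'} f‖²`, `b = {u,v}`, `b' = {w,z}`. -/
noncomputable def Qf (d : Fin n → ℕ) (u v w z : Fin n) (f : Gr n → ℝ) : ℝ :=
  ∑ G ∈ OmP d u v w z, ((f G - f (flipB u v w z G)) / 2) ^ 2

/-- the loss term: `∑_{F : {w,z}-fibres} |F ∩ P| (avg_{F ∩ P} (D_{wz} f))²`. -/
noncomputable def Lo (d : Fin n → ℕ) (u v w z : Fin n) (f : Gr n → ℝ) : ℝ :=
  ∑ G ∈ OmP d u v w z, (cE (OmP d u v w z) (keyP w z) (Dp d w z f) G) ^ 2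

end Crest.Agent.S0453D
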