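import Mathlib
import Crest.Agent.S0453_Defs

/-!
# Sharp spectral gap of the Johnson graph (package JOHNSON of ROW299 = S0453)

For a finite set `X` with `m` elements and the slice `X.powersetCard k`, the (unnormalised)
Laplacian of the Johnson graph has spectral gap `m`.  Elementary proof: induction on `k` with the
up/down operators.
-/

set_option autoImplicit false
open Finset

namespace Crest.Agent.S0453.Johnson

variable {α : Type*} [DecidableEq α]

/-- down operator: from functions on `(k+1)`-sets to functions on `k`-sets. -/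
def dn (X : Finset α) (f : Finset α → ℝ) (B : Finset α) : ℝ := ∑ b ∈ X \ B, f (insert b B)

/-- up operator: from functions on `k`-sets to functions on `(k+1)`-sets. -/
def up (g : Finset α → ℝ) (A : Finset α) : ℝ := ∑ a ∈ A, g (A.erase a)

/-- adjacency operator of the Johnson graph. -/
def adj (X : Finset α) (f : Finset α → ℝ) (A : Finset α) : ℝ :=
  ∑ a ∈ A, ∑ b ∈ X \ A, f (insert b (A.erase a))

lemma adjoint (X : Finset α) (k : ℕ) (f g : Finset α → ℝ) :
    ∑ B ∈ X.powersetCard k, dn X f B * g B = ∑ A ∈ X.powersetCard (k+1), f A * up g A := by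
  unfold dn up
  simp_rw [Finset.sum_mul, Finset.mul_sum]
  rw [Finset.sum_sigma', Finset.sum_sigma']
  refine Finset.sum_bij' (fun p _ => ⟨insert p.2 p.1, p.2⟩) (fun q _ => ⟨q.1.erase q.2, q.2⟩)
    ?_ ?_ ?_ ?_ ?_
  · rintro ⟨B, b⟩ h
    simp only [mem_sigma, mem_powersetCard, mem_sdiff] at h ⊢
    obtain ⟨⟨hB, hc⟩, hb, hbB⟩ := h
    refine ⟨⟨insert_subset hb hB, ?_⟩, mem_insert_self _ _⟩
    rw [card_insert_of_notMem hbB, hc]
  · rintro ⟨A, a⟩ h
    simp only [mem_sigma, mem_powersetCard, mem_sdiff] at h ⊢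
    obtain ⟨⟨hA, hc⟩, ha⟩ := h
    refine ⟨⟨(erase_subset _ _).trans hA, ?_⟩, hA ha, notMem_erase _ _⟩
    rw [card_erase_of_mem ha, hc]; rfl
  · rintro ⟨B, b⟩ h
    simp only [mem_sigma, mem_powersetCard, mem_sdiff] at h
    obtain ⟨⟨hB, hc⟩, hb, hbB⟩ := h
    simp [erase_insert hbB]
  · rintro ⟨A, a⟩ h
    simp only [mem_sigma, mem_powersetCard] at h
    obtain ⟨⟨hA, hc⟩, ha⟩ := h
    simp [insert_erase ha]
  · rintro ⟨B, b⟩ h
    simp only [mem_sigma, mem_powersetCard, mem_sdiff] at h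
    obtain ⟨⟨hB, hc⟩, hb, hbB⟩ := h
    simp [erase_insert hbB]

lemma dn_up (X : Finset α) (k : ℕ) (g : Finset α → ℝ) (B : Finset α)
    (hB : B ∈ X.powersetCard k) :
    dn X (up g) B = ((X.card : ℝ) - k) * g B + adj X g B := by
  rw [mem_powersetCard] at hB
  obtain ⟨hB, hc⟩ := hB
  unfold dn up adj
  have h1 : ∀ b ∈ X \ B, ∑ a ∈ insert b B, g ((insert b B).erase a)
      = g B + ∑ a ∈ B, g (insert b (B.erase a)) := by
    intro b hb
    rw [mem_sdiff] at hb
    rw [sum_insert hb.2, erase_insert hb.2]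
    congr 1
    refine sum_congr rfl fun a ha => ?_
    have hab : b ≠ a := fun h => hb.2 (h ▸ ha)
    rw [erase_insert_of_ne hab]
  rw [sum_congr rfl h1, sum_add_distrib, sum_const, sum_comm, card_sdiff_of_subset hB, hc,
    nsmul_eq_mul, Nat.cast_sub (hc ▸ card_le_card hB)]

lemma up_dn (X : Finset α) (k : ℕ) (f : Finset α → ℝ) (A : Finset α)
    (hA : A ∈ X.powersetCard k) :
    up (dn X f) A = (k : ℝ) * f A + adj X f A := by
  rw [mem_powersetCard] at hA
  obtain ⟨hA, hc⟩ := hA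
  unfold dn up adj
  have h1 : ∀ a ∈ A, ∑ b ∈ X \ A.erase a, f (insert b (A.erase a))
      = f A + ∑ b ∈ X \ A, f (insert b (A.erase a)) := by
    intro a ha
    have : X \ A.erase a = insert a (X \ A) := by
      ext x
      simp only [mem_sdiff, mem_erase, mem_insert, not_and]
      constructor
      · rintro ⟨hx, h⟩
        by_cases hxa : x = a
        · exact Or.inl hxa
        · exact Or.inr ⟨hx, fun hxA => hxa (by simpa using (h hxa) hxA)⟩
      · rintro (rfl | ⟨hx, hxA⟩)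
        · exact ⟨hA ha, fun h => absurd rfl h⟩
        · exact ⟨hx, fun _ => hxA⟩
    rw [this, sum_insert (by simp [ha]), insert_erase ha]
  rw [sum_congr rfl h1, sum_add_distrib, sum_const, hc, nsmul_eq_mul]


lemma up_one (X : Finset α) (k : ℕ) (A : Finset α) (hA : A ∈ X.powersetCard k) :
    up (fun _ => (1 : ℝ)) A = k := by
  rw [mem_powersetCard] at hA
  simp [up, hA.2]

lemma dn_one (X : Finset α) (k : ℕ) (B : Finset α) (hB : B ∈ X.powersetCard k) :
    dn X (fun _ => (1 : ℝ)) B = (X.card : ℝ) - k := by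
  rw [mem_powersetCard] at hB
  simp [dn, card_sdiff_of_subset hB.1, hB.2, Nat.cast_sub (hB.2 ▸ card_le_card hB.1)]

/-- total mass of `dn f`. -/
lemma sum_dn (X : Finset α) (k : ℕ) (f : Finset α → ℝ) :
    ∑ B ∈ X.powersetCard k, dn X f B = ((k : ℝ) + 1) * ∑ A ∈ X.powersetCard (k+1), f A := by
  have h := adjoint X k f (fun _ => 1)
  simp only [mul_one] at h
  rw [h, mul_sum]
  refine sum_congr rfl fun A hA => ?_
  rw [up_one X (k+1) A hA]; push_cast; ring

/-- total mass of `up g`. -/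
lemma sum_up (X : Finset α) (k : ℕ) (g : Finset α → ℝ) :
    ∑ A ∈ X.powersetCard (k+1), up g A = ((X.card : ℝ) - k) * ∑ B ∈ X.powersetCard k, g B := by
  have h := adjoint X k (fun _ => 1) g
  simp only [one_mul] at h
  rw [← h, mul_sum]
  refine sum_congr rfl fun B hB => ?_
  rw [dn_one X k B hB]

/-- total mass of `adj h`. -/
lemma sum_adj (X : Finset α) (k : ℕ) (h : Finset α → ℝ) :
    ∑ A ∈ X.powersetCard k, adj X h A
      = (k : ℝ) * ((X.card : ℝ) - k) * ∑ A ∈ X.powersetCard k, h A := by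
  have h1 : ∑ A ∈ X.powersetCard k, dn X (up h) A
      = ∑ A ∈ X.powersetCard k, (((X.card : ℝ) - k) * h A + adj X h A) :=
    sum_congr rfl fun A hA => dn_up X k h A hA
  rw [sum_dn, sum_up, sum_add_distrib, ← mul_sum] at h1
  linarith

/-- The Dirichlet form in terms of the adjacency operator. -/
lemma dirichlet_eq (X : Finset α) (k : ℕ) (f : Finset α → ℝ) :
    (1 / 2 : ℝ) * ∑ A ∈ X.powersetCard k, ∑ a ∈ A, ∑ b ∈ X \ A,
        (f A - f (insert b (A.erase a))) ^ 2
      = (k : ℝ) * ((X.card : ℝ) - k) * ∑ A ∈ X.powersetCard k, f A ^ 2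
        - ∑ A ∈ X.powersetCard k, f A * adj X f A := by
  have h1 : ∀ A ∈ X.powersetCard k, ∑ a ∈ A, ∑ b ∈ X \ A, (f A - f (insert b (A.erase a))) ^ 2
      = (k : ℝ) * ((X.card : ℝ) - k) * f A ^ 2 - 2 * (f A * adj X f A)
        + adj X (fun B => f B ^ 2) A := by
    intro A hA
    rw [mem_powersetCard] at hA
    have h2 : ∀ a ∈ A, ∀ b ∈ X \ A, (f A - f (insert b (A.erase a))) ^ 2
        = f A ^ 2 - 2 * (f A * f (insert b (A.erase a))) + f (insert b (A.erase a)) ^ 2 := by
      intro a _ b _; ring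
    rw [sum_congr rfl fun a ha => sum_congr rfl (h2 a ha)]
    simp only [sum_add_distrib, sum_sub_distrib, sum_const, ← mul_sum, adj, nsmul_eq_mul,
      card_sdiff_of_subset hA.1, hA.2, Nat.cast_sub (hA.2 ▸ card_le_card hA.1)]
    ring
  rw [sum_congr rfl h1, sum_add_distrib, sum_sub_distrib, sum_adj, ← mul_sum, ← mul_sum]
  ring

/-- Mean-zero form of the Johnson gap, in terms of the adjacency operator. -/
lemma gap_aux (X : Finset α) (k : ℕ) : ∀ f : Finset α → ℝ, ∑ A ∈ X.powersetCard k, f A = 0 →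
    (X.card : ℝ) * ∑ A ∈ X.powersetCard k, f A ^ 2
      ≤ (k : ℝ) * ((X.card : ℝ) - k) * ∑ A ∈ X.powersetCard k, f A ^ 2
        - ∑ A ∈ X.powersetCard k, f A * adj X f A := by
  induction k with
  | zero =>
    intro f hf
    simp only [powersetCard_zero, sum_singleton] at hf ⊢
    simp [hf]
  | succ k ih =>
    intro f hf
    by_cases hk : X.card < k + 1
    · rw [powersetCard_eq_empty.2 hk]; simp
    rw [not_lt] at hk
    set m : ℝ := (X.card : ℝ) with hm
    have hkm : (k : ℝ) + 1 ≤ m := by rw [hm]; exact_mod_cast hk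
    set g := dn X f with hg
    set F : ℝ := ∑ A ∈ X.powersetCard (k+1), f A ^ 2 with hF
    set G : ℝ := ∑ B ∈ X.powersetCard k, g B ^ 2 with hG
    have hF0 : 0 ≤ F := sum_nonneg fun _ _ => sq_nonneg _
    have hG0 : 0 ≤ G := sum_nonneg fun _ _ => sq_nonneg _
    have hg0 : ∑ B ∈ X.powersetCard k, g B = 0 := by rw [hg, sum_dn, hf, mul_zero]
    have hih := ih g hg0
    -- `G = ⟨f, up g⟩`
    have hGf : G = ∑ A ∈ X.powersetCard (k+1), f A * up g A := by
      rw [← adjoint, hG]; exact sum_congr rfl fun B _ => by rw [sq]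
    -- `‖up g‖² = (m-k) G + ⟨g, adj g⟩`
    have hU : ∑ A ∈ X.powersetCard (k+1), up g A ^ 2
        = (m - k) * G + ∑ B ∈ X.powersetCard k, g B * adj X g B := by
      have : ∑ A ∈ X.powersetCard (k+1), up g A ^ 2
          = ∑ B ∈ X.powersetCard k, dn X (up g) B * g B := by
        rw [adjoint]; exact sum_congr rfl fun B _ => by rw [sq]
      rw [this, hG, mul_sum, ← sum_add_distrib]
      refine sum_congr rfl fun B hB => ?_
      rw [dn_up X k g B hB]; ring
    have hU' : ∑ A ∈ X.powersetCard (k+1), up g A ^ 2 ≤ (k : ℝ) * (m - k - 1) * G := by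
      rw [hU]; nlinarith [hih]
    -- Cauchy-Schwarz
    have hCS : G ^ 2 ≤ F * ((k : ℝ) * (m - k - 1) * G) := by
      calc G ^ 2 = (∑ A ∈ X.powersetCard (k+1), f A * up g A) ^ 2 := by rw [← hGf]
        _ ≤ F * ∑ A ∈ X.powersetCard (k+1), up g A ^ 2 := sum_mul_sq_le_sq_mul_sq _ _ _
        _ ≤ F * ((k : ℝ) * (m - k - 1) * G) := mul_le_mul_of_nonneg_left hU' hF0
    have hc0 : 0 ≤ (k : ℝ) * (m - k - 1) := mul_nonneg (Nat.cast_nonneg _) (by linarith)
    have hGF : G ≤ (k : ℝ) * (m - k - 1) * F := by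
      rcases hG0.eq_or_lt with h0 | hpos
      · rw [← h0]; exact mul_nonneg hc0 hF0
      · have : G * G ≤ ((k : ℝ) * (m - k - 1) * F) * G := by nlinarith [hCS]
        exact le_of_mul_le_mul_right this hpos
    -- `⟨f, adj f⟩ = G - (k+1) F`
    have hA : ∑ A ∈ X.powersetCard (k+1), f A * adj X f A = G - ((k : ℝ) + 1) * F := by
      rw [hGf, hF, mul_sum, ← sum_sub_distrib]
      refine sum_congr rfl fun A hA => ?_
      rw [hg, up_dn X (k+1) f A hA]; push_cast; ring
    rw [hA]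
    push_cast
    nlinarith [hGF]

/-- **Sharp Johnson gap, mean-zero form.** -/
theorem johnson_gap_of_sum_eq_zero (X : Finset α) (k : ℕ) (f : Finset α → ℝ)
    (hf : ∑ A ∈ X.powersetCard k, f A = 0) :
    (X.card : ℝ) * ∑ A ∈ X.powersetCard k, f A ^ 2
      ≤ (1 / 2 : ℝ) * ∑ A ∈ X.powersetCard k, ∑ a ∈ A, ∑ b ∈ X \ A,
        (f A - f (insert b (A.erase a))) ^ 2 := by
  rw [dirichlet_eq]; exact gap_aux X k f hf

/-- **Sharp Johnson gap, variance form.** -/
theorem johnson_gap (X : Finset α) (k : ℕ) (f : Finset α → ℝ) :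
    (X.card : ℝ) * (((X.powersetCard k).card : ℝ) * ∑ A ∈ X.powersetCard k, f A ^ 2
        - (∑ A ∈ X.powersetCard k, f A) ^ 2)
      ≤ ((X.powersetCard k).card : ℝ) * ((1 / 2 : ℝ) * ∑ A ∈ X.powersetCard k, ∑ a ∈ A,
          ∑ b ∈ X \ A, (f A - f (insert b (A.erase a))) ^ 2) := by
  set N : ℝ := ((X.powersetCard k).card : ℝ) with hN
  have hN0 : 0 ≤ N := Nat.cast_nonneg _
  rcases hN0.eq_or_lt with h0 | hpos
  · have : X.powersetCard k = ∅ := by
      rw [← card_eq_zero]; exact_mod_cast (h0.trans hN).symm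
    simp [this]
  set μ : ℝ := (∑ A ∈ X.powersetCard k, f A) / N with hμ
  have hsum : ∑ A ∈ X.powersetCard k, f A = N * μ := by rw [hμ]; field_simp
  have h := johnson_gap_of_sum_eq_zero X k (fun A => f A - μ) (by
    rw [sum_sub_distrib, sum_const, nsmul_eq_mul, ← hN, hsum]; ring)
  have h1 : ∑ A ∈ X.powersetCard k, (f A - μ) ^ 2
      = ∑ A ∈ X.powersetCard k, f A ^ 2 - N * μ ^ 2 := by
    have : ∀ A ∈ X.powersetCard k, (f A - μ) ^ 2 = f A ^ 2 - 2 * μ * f A + μ ^ 2 := by
      intro A _; ring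
    rw [sum_congr rfl this, sum_add_distrib, sum_sub_distrib, ← mul_sum, sum_const, nsmul_eq_mul,
      ← hN, hsum]; ring
  simp only [sub_sub_sub_cancel_right] at h
  rw [h1] at h
  rw [hsum]
  have := mul_le_mul_of_nonneg_left h hN0
  nlinarith [this]

end Crest.Agent.S0453.Johnson


/-! ## Package A3 of `notes/ROW299_proof.md`: the forms used by the rest of ROW299 -/

namespace Crest.Agent.S0453D

/-- image of a set under the transposition `(u v)`. -/
def swapS {ι : Type*} [DecidableEq ι] (u v : ι) (W : Finset ι) : Finset ι :=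
  W.image (Equiv.swap u v)

/-- the sets of the slice separating `u` and `v`. -/
def sepS {ι : Type*} [DecidableEq ι] (A : Finset ι) (k : ℕ) (u v : ι) : Finset (Finset ι) :=
  (A.powersetCard k).filter fun W => (u ∈ W ∧ v ∉ W) ∨ (u ∉ W ∧ v ∈ W)

section
variable {ι : Type*} [DecidableEq ι]

lemma mem_swapS {u v x : ι} {W : Finset ι} : x ∈ swapS u v W ↔ Equiv.swap u v x ∈ W := by
  unfold swapS
  constructor
  · intro h
    obtain ⟨y, hy, rfl⟩ := mem_image.1 h
    simpa using hy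
  · intro h
    exact mem_image.2 ⟨_, h, by simp⟩

lemma swapS_of_mem_mem {u v : ι} {W : Finset ι} (hu : u ∈ W) (hv : v ∈ W) : swapS u v W = W := by
  ext x
  rw [mem_swapS]
  by_cases hxu : x = u
  · subst hxu; simp [hu, hv]
  by_cases hxv : x = v
  · subst hxv; simp [hu, hv]
  rw [Equiv.swap_apply_of_ne_of_ne hxu hxv]

lemma swapS_of_notMem_notMem {u v : ι} {W : Finset ι} (hu : u ∉ W) (hv : v ∉ W) :
    swapS u v W = W := by
  ext x
  rw [mem_swapS]
  by_cases hxu : x = u
  · subst hxu; simp [hu, hv]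
  by_cases hxv : x = v
  · subst hxv; simp [hu, hv]
  rw [Equiv.swap_apply_of_ne_of_ne hxu hxv]

lemma swapS_of_mem_notMem {u v : ι} {W : Finset ι} (hu : u ∈ W) (hv : v ∉ W) :
    swapS u v W = insert v (W.erase u) := by
  have huv : u ≠ v := fun h => hv (h ▸ hu)
  ext x
  rw [mem_swapS, mem_insert, mem_erase]
  by_cases hxu : x = u
  · subst hxu; simp [hv, huv]
  by_cases hxv : x = v
  · subst hxv; simp [hu]
  rw [Equiv.swap_apply_of_ne_of_ne hxu hxv]
  simp [hxu, hxv]

lemma swapS_comm (u v : ι) (W : Finset ι) : swapS u v W = swapS v u W := by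
  unfold swapS; rw [Equiv.swap_comm]

lemma swapS_of_notMem_mem {u v : ι} {W : Finset ι} (hu : u ∉ W) (hv : v ∈ W) :
    swapS u v W = insert u (W.erase v) := by
  rw [swapS_comm, swapS_of_mem_notMem hv hu]

lemma swapS_self (u : ι) (W : Finset ι) : swapS u u W = W := by
  unfold swapS; simp

/-- variance form of the Johnson gap with `mean`. -/
theorem johnson_gap_mean (A : Finset ι) (k : ℕ) (g : Finset ι → ℝ) :
    (A.card : ℝ) * ∑ W ∈ A.powersetCard k, (g W - mean (A.powersetCard k) g) ^ 2 ≤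
      (1 / 2 : ℝ) * ∑ W ∈ A.powersetCard k, ∑ a ∈ W, ∑ b ∈ A \ W,
        (g W - g (insert b (W.erase a))) ^ 2 := by
  rcases (A.powersetCard k).eq_empty_or_nonempty with h0 | hne
  · simp [h0]
  have hN : ((A.powersetCard k).card : ℝ) ≠ 0 := by
    exact_mod_cast (card_pos.2 hne).ne'
  have h := Crest.Agent.S0453.Johnson.johnson_gap_of_sum_eq_zero A k
    (fun W => g W - mean (A.powersetCard k) g) (by
      rw [sum_sub_distrib, sum_const, nsmul_eq_mul, mean]; field_simp; ring)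
  simpa only [sub_sub_sub_cancel_right] using h

/-- the swap form of the local Dirichlet form at `W`. -/
lemma sum_swap_eq (A : Finset ι) (g : Finset ι → ℝ) {W : Finset ι} (hW : W ⊆ A) :
    ∑ u ∈ A, ∑ v ∈ A.erase u, ((g W - g (swapS u v W)) / 2) ^ 2
      = (1 / 2 : ℝ) * ∑ a ∈ W, ∑ b ∈ A \ W, (g W - g (insert b (W.erase a))) ^ 2 := by
  have h1 : ∀ u ∈ A, ∑ v ∈ A.erase u, ((g W - g (swapS u v W)) / 2) ^ 2
      = ∑ v ∈ A, ((g W - g (swapS u v W)) / 2) ^ 2 := by
    intro u hu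
    rw [← add_sum_erase A _ hu, swapS_self]; simp
  rw [sum_congr rfl h1]
  have h2 : ∀ u ∈ W, ∑ v ∈ A, ((g W - g (swapS u v W)) / 2) ^ 2
      = (1 / 4 : ℝ) * ∑ b ∈ A \ W, (g W - g (insert b (W.erase u))) ^ 2 := by
    intro u hu
    rw [← sum_sdiff hW]
    have : ∑ v ∈ W, ((g W - g (swapS u v W)) / 2) ^ 2 = 0 :=
      sum_eq_zero fun v hv => by rw [swapS_of_mem_mem hu hv]; simp
    rw [this, add_zero, mul_sum]
    refine sum_congr rfl fun v hv => ?_
    rw [swapS_of_mem_notMem hu (mem_sdiff.1 hv).2]; ring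
  have h3 : ∀ u ∈ A \ W, ∑ v ∈ A, ((g W - g (swapS u v W)) / 2) ^ 2
      = (1 / 4 : ℝ) * ∑ a ∈ W, (g W - g (insert u (W.erase a))) ^ 2 := by
    intro u hu
    rw [← sum_sdiff hW]
    have : ∑ v ∈ A \ W, ((g W - g (swapS u v W)) / 2) ^ 2 = 0 :=
      sum_eq_zero fun v hv => by
        rw [swapS_of_notMem_notMem (mem_sdiff.1 hu).2 (mem_sdiff.1 hv).2]; simp
    rw [this, zero_add, mul_sum]
    refine sum_congr rfl fun v hv => ?_
    rw [swapS_of_notMem_mem (mem_sdiff.1 hu).2 hv]; ring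
  rw [← sum_sdiff hW, sum_congr rfl h2, sum_congr rfl h3, ← mul_sum, ← mul_sum, sum_comm]
  ring

theorem johnson_gap_swap (A : Finset ι) (k : ℕ) (g : Finset ι → ℝ) :
    (A.card : ℝ) * ∑ W ∈ A.powersetCard k, (g W - mean (A.powersetCard k) g) ^ 2 ≤
      ∑ u ∈ A, ∑ v ∈ A.erase u, ∑ W ∈ A.powersetCard k, ((g W - g (swapS u v W)) / 2) ^ 2 := by
  refine (johnson_gap_mean A k g).trans (le_of_eq ?_)
  have : ∑ u ∈ A, ∑ v ∈ A.erase u, ∑ W ∈ A.powersetCard k, ((g W - g (swapS u v W)) / 2) ^ 2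
      = ∑ W ∈ A.powersetCard k, ∑ u ∈ A, ∑ v ∈ A.erase u, ((g W - g (swapS u v W)) / 2) ^ 2 := by
    rw [sum_congr rfl (fun u _ => sum_comm), sum_comm]
  rw [this, mul_sum]
  refine sum_congr rfl fun W hW => ?_
  rw [sum_swap_eq A g (mem_powersetCard.1 hW).1]

/-- the Johnson neighbours of `W` are the sets `W - a + b`. -/
lemma filter_adj_eq (A : Finset ι) (k : ℕ) {W : Finset ι} (hW : W ∈ A.powersetCard k) :
    (A.powersetCard k).filter (fun W' => (W \ W').card = 1)
      = (W ×ˢ (A \ W)).image (fun p => insert p.2 (W.erase p.1)) := by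
  obtain ⟨hWA, hWk⟩ := mem_powersetCard.1 hW
  ext W'
  simp only [mem_filter, mem_powersetCard, mem_image, mem_product, mem_sdiff, Prod.exists]
  constructor
  · rintro ⟨⟨hA', hk'⟩, h1⟩
    have h2 : (W' \ W).card = 1 := by
      rw [← h1]; exact card_sdiff_comm (hk'.trans hWk.symm)
    obtain ⟨a, ha⟩ := card_eq_one.1 h1
    obtain ⟨b, hb⟩ := card_eq_one.1 h2
    have haW : a ∈ W ∧ a ∉ W' := by
      have : a ∈ W \ W' := by rw [ha]; exact mem_singleton_self _
      exact mem_sdiff.1 this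
    have hbW : b ∈ W' ∧ b ∉ W := by
      have : b ∈ W' \ W := by rw [hb]; exact mem_singleton_self _
      exact mem_sdiff.1 this
    refine ⟨a, b, ⟨haW.1, hA' hbW.1, hbW.2⟩, ?_⟩
    ext x
    rw [mem_insert, mem_erase]
    constructor
    · rintro (rfl | ⟨hxa, hxW⟩)
      · exact hbW.1
      · by_contra hx
        have : x ∈ W \ W' := mem_sdiff.2 ⟨hxW, hx⟩
        rw [ha, mem_singleton] at this
        exact hxa this
    · intro hx
      by_cases hxW : x ∈ W
      · exact Or.inr ⟨fun h => haW.2 (h ▸ hx), hxW⟩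
      · have : x ∈ W' \ W := mem_sdiff.2 ⟨hx, hxW⟩
        rw [hb, mem_singleton] at this
        exact Or.inl this
  · rintro ⟨a, b, ⟨ha, hbA, hbW⟩, rfl⟩
    have hb' : b ∉ W.erase a := fun h => hbW (mem_of_mem_erase h)
    refine ⟨⟨insert_subset hbA ((erase_subset _ _).trans hWA), ?_⟩, ?_⟩
    · rw [card_insert_of_notMem hb', card_erase_of_mem ha, hWk]
      have : 0 < k := hWk ▸ card_pos.2 ⟨a, ha⟩
      omega
    · have : W \ insert b (W.erase a) = {a} := by
        ext x
        simp only [mem_sdiff, mem_insert, mem_erase, mem_singleton, not_or, not_and]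
        constructor
        · rintro ⟨hx, _, h⟩
          by_contra hxa
          exact h hxa hx
        · rintro rfl
          exact ⟨ha, fun h => hbW (h ▸ ha), fun h => absurd rfl h⟩
      rw [this, card_singleton]

lemma sum_adj_eq (A : Finset ι) (k : ℕ) {W : Finset ι} (hW : W ∈ A.powersetCard k)
    (F : Finset ι → ℝ) :
    ∑ W' ∈ (A.powersetCard k).filter (fun W' => (W \ W').card = 1), F W'
      = ∑ a ∈ W, ∑ b ∈ A \ W, F (insert b (W.erase a)) := by
  rw [filter_adj_eq A k hW, sum_image, sum_product]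
  rintro ⟨a, b⟩ hab ⟨a', b'⟩ hab' h
  simp only [coe_product, Set.mem_prod, mem_coe, mem_sdiff] at hab hab'
  simp only at h
  obtain ⟨ha, hbA, hbW⟩ := hab
  obtain ⟨ha', hbA', hbW'⟩ := hab'
  have hb : b = b' := by
    have : b ∈ insert b' (W.erase a') := h ▸ mem_insert_self _ _
    rcases mem_insert.1 this with h1 | h1
    · exact h1
    · exact absurd (mem_of_mem_erase h1) hbW
  have ha2 : a = a' := by
    by_contra hne
    have : a' ∈ insert b (W.erase a) := mem_insert_of_mem (mem_erase.2 ⟨fun h => hne h.symm, ha'⟩)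
    rw [h] at this
    rcases mem_insert.1 this with h1 | h1
    · exact hbW' (h1 ▸ ha')
    · exact (notMem_erase _ _) h1
  rw [ha2, hb]

theorem johnson_gap_adj (A : Finset ι) (k : ℕ) (g : Finset ι → ℝ) :
    (A.card : ℝ) * ∑ W ∈ A.powersetCard k, (g W - mean (A.powersetCard k) g) ^ 2 ≤
      (1 / 2) * ∑ W ∈ A.powersetCard k,
        ∑ W' ∈ (A.powersetCard k).filter (fun W' => (W \ W').card = 1), (g W - g W') ^ 2 := by
  refine (johnson_gap_mean A k g).trans (le_of_eq ?_)
  congr 1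
  refine sum_congr rfl fun W hW => ?_
  rw [sum_adj_eq A k hW]

end

end Crest.Agent.S0453D
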