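import Crest.Agent.S0453_Graph
import Crest.Agent.S0453_Johnson
import Crest.Agent.S0453_PairA

/-! # S0453, package B4 (helper23): a fibre of `keyP w z` is a slice (encoding E1-E4).
All names live in the sub-namespace `Crest.Agent.S0453D.PairEnc`. -/

set_option autoImplicit false
open Finset
open Crest.SwitchChain

namespace Crest.Agent.S0453D.PairEnc

variable {n : ℕ}

/-- the fibre of `keyP w z` through `G0`. -/
def fibP (d : Fin n → ℕ) (w z : Fin n) (G0 : Gr n) : Finset (Gr n) :=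
  (realizations d).filter fun G => keyP w z G = keyP w z G0

open Classical in
/-- the free columns of the fibre. -/
noncomputable def AA (w z : Fin n) (G0 : Gr n) : Finset (Fin n) :=
  univ.filter fun y => y ≠ w ∧ y ≠ z ∧ Xor (adj G0 w y) (adj G0 z y)

/-- the encoding of a graph of the fibre. -/
noncomputable def enc (w z : Fin n) (G0 G : Gr n) : Finset (Fin n) := nb G w ∩ AA w z G0

lemma mem_AA {w z y : Fin n} {G0 : Gr n} :
    y ∈ AA w z G0 ↔ y ≠ w ∧ y ≠ z ∧ Xor (adj G0 w y) (adj G0 z y) := by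
  unfold AA; simp

lemma mem_enc {w z y : Fin n} {G0 G : Gr n} :
    y ∈ enc w z G0 G ↔ adj G w y ∧ y ∈ AA w z G0 := by
  unfold enc; rw [Finset.mem_inter, mem_nb]

lemma mem_fibP {d : Fin n → ℕ} {w z : Fin n} {G0 G : Gr n} :
    G ∈ fibP d w z G0 ↔ G ∈ realizations d ∧ keyP w z G = keyP w z G0 := by
  unfold fibP; rw [Finset.mem_filter]

open Classical in
lemma card_inter_pair (G : Gr n) {y w z : Fin n} (hwz : w ≠ z) :
    (nb G y ∩ {w, z}).card = (if adj G w y then 1 else 0) + (if adj G z y then 1 else 0) := by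
  have : nb G y ∩ {w, z} = ({w, z} : Finset (Fin n)).filter fun x => adj G x y := by
    ext x
    simp only [Finset.mem_inter, mem_nb, Finset.mem_filter, adj_comm (u := y)]
    tauto
  rw [this, Finset.filter_insert, Finset.filter_singleton]
  split_ifs <;> simp [hwz]

lemma t_eq {d : Fin n → ℕ} {w z : Fin n} {G0 G : Gr n} (hG0 : G0 ∈ realizations d)
    (hG : G ∈ fibP d w z G0) {y : Fin n} (hyw : y ≠ w) (hyz : y ≠ z) :
    (nb G y ∩ {w, z}).card = (nb G0 y ∩ {w, z}).card := by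
  obtain ⟨hGr, hk⟩ := mem_fibP.mp hG
  have h1 := card_nb_split G y {w, z}
  have h2 := card_nb_split G0 y {w, z}
  rw [mem_realizations.mp hGr y] at h1
  rw [mem_realizations.mp hG0 y] at h2
  have h3 : nb G y \ {w, z} = nb G0 y \ {w, z} := by
    ext x
    simp only [Finset.mem_sdiff, mem_nb, Finset.mem_insert, Finset.mem_singleton, not_or]
    constructor
    · rintro ⟨h, hxw, hxz⟩
      exact ⟨((keyP_eq_iff.mp hk) y x (Or.inl ⟨hyw, hyz, hxw, hxz⟩)).mp h, hxw, hxz⟩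
    · rintro ⟨h, hxw, hxz⟩
      exact ⟨((keyP_eq_iff.mp hk) y x (Or.inl ⟨hyw, hyz, hxw, hxz⟩)).mpr h, hxw, hxz⟩
  rw [h3] at h1
  omega

/-- the set of free columns is the same for all graphs of the fibre. -/
lemma xor_iff {d : Fin n → ℕ} {w z : Fin n} (hwz : w ≠ z) {G0 G : Gr n}
    (hG0 : G0 ∈ realizations d) (hG : G ∈ fibP d w z G0) {y : Fin n} (hyw : y ≠ w) (hyz : y ≠ z) :
    Xor (adj G w y) (adj G z y) ↔ Xor (adj G0 w y) (adj G0 z y) := by
  classical
  have h := t_eq hG0 hG hyw hyz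
  rw [card_inter_pair G hwz, card_inter_pair G0 hwz] at h
  unfold Xor
  split_ifs at h <;> first | omega | tauto

/-- outside the free columns nothing changes. -/
lemma adj_iff_of_not_mem {d : Fin n → ℕ} {w z : Fin n} (hwz : w ≠ z) {G0 G : Gr n}
    (hG0 : G0 ∈ realizations d) (hG : G ∈ fibP d w z G0) {y : Fin n} (hyw : y ≠ w) (hyz : y ≠ z)
    (hy : y ∉ AA w z G0) : (adj G w y ↔ adj G0 w y) ∧ (adj G z y ↔ adj G0 z y) := by
  classical
  have h := t_eq hG0 hG hyw hyz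
  rw [card_inter_pair G hwz, card_inter_pair G0 hwz] at h
  rw [mem_AA] at hy
  unfold Xor at hy
  split_ifs at h <;> first | omega | tauto

lemma xor_of_mem {d : Fin n → ℕ} {w z : Fin n} (hwz : w ≠ z) {G0 G : Gr n}
    (hG0 : G0 ∈ realizations d) (hG : G ∈ fibP d w z G0) {y : Fin n} (hy : y ∈ AA w z G0) :
    Xor (adj G w y) (adj G z y) := by
  obtain ⟨h1, h2, h3⟩ := mem_AA.mp hy
  exact (xor_iff hwz hG0 hG h1 h2).mpr h3


/-- (E2) -/
lemma isP_iff {d : Fin n → ℕ} {w z : Fin n} (hwz : w ≠ z) {G0 G : Gr n}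
    (hG0 : G0 ∈ realizations d) (hG : G ∈ fibP d w z G0) {u v : Fin n}
    (huw : u ≠ w) (huz : u ≠ z) (hvw : v ≠ w) (hvz : v ≠ z) :
    isP u v w z G ↔ u ∈ AA w z G0 ∧ v ∈ AA w z G0 ∧
      ((u ∈ enc w z G0 G ∧ v ∉ enc w z G0 G) ∨ (u ∉ enc w z G0 G ∧ v ∈ enc w z G0 G)) := by
  have hu := xor_iff hwz hG0 hG huw huz
  have hv := xor_iff hwz hG0 hG hvw hvz
  simp only [mem_enc, mem_AA, ← hu, ← hv]
  unfold isP Xor
  rw [adj_comm (u := u) (v := w), adj_comm (u := u) (v := z), adj_comm (u := v) (v := w),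
    adj_comm (u := v) (v := z)]
  by_cases a1 : adj G w u <;> by_cases a2 : adj G z u <;> by_cases a3 : adj G w v <;>
    by_cases a4 : adj G z v <;> simp [a1, a2, a3, a4, huw, huz, hvw, hvz]

lemma not_cross_of {u v w z x y : Fin n} (huw : u ≠ w) (huz : u ≠ z) (hvw : v ≠ w) (hvz : v ≠ z)
    (h : (x ≠ w ∧ x ≠ z ∧ y ≠ w ∧ y ≠ z) ∨ s(x, y) = s(w, z)) :
    ¬ (s(x, y) = s(u, w) ∨ s(x, y) = s(u, z) ∨ s(x, y) = s(v, w) ∨ s(x, y) = s(v, z)) := by
  rcases h with ⟨h1, h2, h3, h4⟩ | h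
  · simp only [Sym2.eq_iff]; tauto
  · rw [h]; simp only [Sym2.eq_iff]
    have := huw.symm; have := huz.symm; have := hvw.symm; have := hvz.symm
    tauto

/-- (E3a) -/
lemma flipB_mem_fibP {d : Fin n → ℕ} {w z : Fin n} (hwz : w ≠ z) {G0 G : Gr n}
    (hG : G ∈ fibP d w z G0) {u v : Fin n} (huv : u ≠ v)
    (huw : u ≠ w) (huz : u ≠ z) (hvw : v ≠ w) (hvz : v ≠ z) (hP : isP u v w z G) :
    flipB u v w z G ∈ fibP d w z G0 := by
  obtain ⟨hGr, hk⟩ := mem_fibP.mp hG
  rw [mem_fibP]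
  constructor
  · obtain ⟨a, b, c, e, hs⟩ := isSwitch_flipB huv huw huz hvw hvz hwz hP
    exact hs.mem_realizations hGr
  · rw [← hk, keyP_eq_iff]
    intro x y hxy
    by_cases hne : x = y
    · subst hne
      exact iff_of_false (not_adj_self _ _) (not_adj_self _ _)
    · rw [adj_flipB hne]
      have := not_cross_of huw huz hvw hvz hxy
      unfold Xor
      tauto

lemma swapS_eq {ι : Type*} [DecidableEq ι] {a b : ι} {E : Finset ι} (ha : a ∈ E) (hb : b ∉ E) :
    swapS a b E = insert b (E.erase a) := by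
  have hab : a ≠ b := fun h => hb (h ▸ ha)
  ext y
  rw [mem_swapS, Finset.mem_insert, Finset.mem_erase]
  by_cases hya : y = a
  · subst hya
    rw [Equiv.swap_apply_left]
    tauto
  · by_cases hyb : y = b
    · subst hyb
      rw [Equiv.swap_apply_right]
      tauto
    · rw [Equiv.swap_apply_of_ne_of_ne hya hyb]
      tauto

lemma swapS_eq_self {ι : Type*} [DecidableEq ι] {a b : ι} {E : Finset ι}
    (h : a ∈ E ↔ b ∈ E) : swapS a b E = E := by
  ext y
  rw [mem_swapS]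
  by_cases hya : y = a
  · subst hya
    rw [Equiv.swap_apply_left]
    exact h.symm
  · by_cases hyb : y = b
    · subst hyb
      rw [Equiv.swap_apply_right]
      exact h
    · rw [Equiv.swap_apply_of_ne_of_ne hya hyb]

lemma cross_w_iff {u v w z y : Fin n} (hwz : w ≠ z) (huw : u ≠ w) (hvw : v ≠ w) :
    (s(w, y) = s(u, w) ∨ s(w, y) = s(u, z) ∨ s(w, y) = s(v, w) ∨ s(w, y) = s(v, z)) ↔
      y = u ∨ y = v := by
  simp only [Sym2.eq_iff]
  have := huw.symm; have := hvw.symm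
  tauto

/-- (E3b) -/
lemma enc_flipB {d : Fin n → ℕ} {w z : Fin n} (hwz : w ≠ z) {G0 G : Gr n}
    (hG0 : G0 ∈ realizations d) (hG : G ∈ fibP d w z G0) {u v : Fin n} (huv : u ≠ v)
    (huw : u ≠ w) (huz : u ≠ z) (hvw : v ≠ w) (hvz : v ≠ z) (hP : isP u v w z G) :
    enc w z G0 (flipB u v w z G) = swapS u v (enc w z G0 G) := by
  obtain ⟨hu, hv, hsep⟩ := (isP_iff hwz hG0 hG huw huz hvw hvz).mp hP
  ext y
  rw [mem_swapS, mem_enc]
  by_cases hyw : y = w
  · subst hyw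
    rw [Equiv.swap_apply_of_ne_of_ne huw.symm hvw.symm, mem_enc]
    exact iff_of_false (fun h => not_adj_self _ _ h.1) (fun h => not_adj_self _ _ h.1)
  rw [adj_flipB (Ne.symm hyw), cross_w_iff hwz huw hvw]
  simp only [mem_enc] at hsep
  by_cases hya : y = u
  · subst hya
    rw [Equiv.swap_apply_left, mem_enc]
    unfold Xor
    tauto
  · by_cases hyb : y = v
    · subst hyb
      rw [Equiv.swap_apply_right, mem_enc]
      unfold Xor
      tauto
    · rw [Equiv.swap_apply_of_ne_of_ne hya hyb, mem_enc]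
      unfold Xor
      tauto

lemma adj_w_iff {d : Fin n → ℕ} {w z : Fin n} (hwz : w ≠ z) {G0 G : Gr n}
    (hG0 : G0 ∈ realizations d) (hG : G ∈ fibP d w z G0) (y : Fin n) :
    adj G w y ↔ (y ∈ enc w z G0 G) ∨ (y ∉ AA w z G0 ∧ adj G0 w y) := by
  rw [mem_enc]
  by_cases hy : y ∈ AA w z G0
  · tauto
  · by_cases hyw : y = w
    · subst hyw
      have := not_adj_self G y; have := not_adj_self G0 y
      tauto
    · by_cases hyz : y = z
      · subst hyz
        have := (keyP_eq_iff.mp (mem_fibP.mp hG).2) w y (Or.inr rfl)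
        tauto
      · have := (adj_iff_of_not_mem hwz hG0 hG hyw hyz hy).1
        tauto

lemma adj_z_iff {d : Fin n → ℕ} {w z : Fin n} (hwz : w ≠ z) {G0 G : Gr n}
    (hG0 : G0 ∈ realizations d) (hG : G ∈ fibP d w z G0) (y : Fin n) :
    adj G z y ↔ (y ∈ AA w z G0 ∧ y ∉ enc w z G0 G) ∨ (y ∉ AA w z G0 ∧ adj G0 z y) := by
  rw [mem_enc]
  by_cases hy : y ∈ AA w z G0
  · have := xor_of_mem hwz hG0 hG hy
    unfold Xor at this
    tauto
  · by_cases hyz : y = z
    · subst hyz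
      have := not_adj_self G y; have := not_adj_self G0 y
      tauto
    · by_cases hyw : y = w
      · subst hyw
        have := (keyP_eq_iff.mp (mem_fibP.mp hG).2) z y (Or.inr Sym2.eq_swap)
        tauto
      · have := (adj_iff_of_not_mem hwz hG0 hG hyw hyz hy).2
        tauto

/-- (E1, cardinality) -/
lemma card_enc {d : Fin n → ℕ} {w z : Fin n} (hwz : w ≠ z) {G0 G : Gr n}
    (hG0 : G0 ∈ realizations d) (hG : G ∈ fibP d w z G0) :
    (enc w z G0 G).card = (enc w z G0 G0).card := by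
  have h1 := card_nb_split G w (AA w z G0)
  have h2 := card_nb_split G0 w (AA w z G0)
  rw [mem_realizations.mp (mem_fibP.mp hG).1 w] at h1
  rw [mem_realizations.mp hG0 w] at h2
  have h3 : nb G w \ AA w z G0 = nb G0 w \ AA w z G0 := by
    ext y
    simp only [Finset.mem_sdiff, mem_nb]
    have := adj_w_iff hwz hG0 hG y
    rw [mem_enc] at this
    tauto
  rw [h3] at h1
  unfold enc
  omega

lemma self_mem_fibP {d : Fin n → ℕ} {w z : Fin n} {G0 : Gr n} (hG0 : G0 ∈ realizations d) :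
    G0 ∈ fibP d w z G0 := mem_fibP.mpr ⟨hG0, rfl⟩

lemma enc_subset (w z : Fin n) (G0 G : Gr n) : enc w z G0 G ⊆ AA w z G0 :=
  Finset.inter_subset_right

/-- (E1, injectivity) -/
lemma enc_inj {d : Fin n → ℕ} {w z : Fin n} (hwz : w ≠ z) {G0 G G' : Gr n}
    (hG0 : G0 ∈ realizations d) (hG : G ∈ fibP d w z G0) (hG' : G' ∈ fibP d w z G0)
    (h : enc w z G0 G = enc w z G0 G') : G = G' := by
  have hw : ∀ y, adj G w y ↔ adj G' w y := fun y => by
    rw [adj_w_iff hwz hG0 hG y, adj_w_iff hwz hG0 hG' y, h]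
  have hz : ∀ y, adj G z y ↔ adj G' z y := fun y => by
    rw [adj_z_iff hwz hG0 hG y, adj_z_iff hwz hG0 hG' y, h]
  apply ext_adj
  intro x y
  by_cases hxw : x = w
  · subst hxw; exact hw y
  by_cases hxz : x = z
  · subst hxz; exact hz y
  by_cases hyw : y = w
  · subst hyw; rw [adj_comm, adj_comm (G := G')]; exact hw x
  by_cases hyz : y = z
  · subst hyz; rw [adj_comm, adj_comm (G := G')]; exact hz x
  have hk : keyP w z G = keyP w z G' := by
    rw [(mem_fibP.mp hG).2, (mem_fibP.mp hG').2]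
  exact (keyP_eq_iff.mp hk) x y (Or.inl ⟨hxw, hxz, hyw, hyz⟩)

/-- two free columns which are separated give an `isP` block. -/
lemma isP_of_mem {d : Fin n → ℕ} {w z : Fin n} (hwz : w ≠ z) {G0 G : Gr n}
    (hG0 : G0 ∈ realizations d) (hG : G ∈ fibP d w z G0) {a b : Fin n}
    (ha : a ∈ enc w z G0 G) (hb : b ∈ AA w z G0) (hb' : b ∉ enc w z G0 G) :
    isP a b w z G := by
  have haA := enc_subset _ _ _ _ ha
  obtain ⟨h1, h2, -⟩ := mem_AA.mp haA
  obtain ⟨h3, h4, -⟩ := mem_AA.mp hb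
  exact (isP_iff hwz hG0 hG h1 h2 h3 h4).mpr ⟨haA, hb, Or.inl ⟨ha, hb'⟩⟩

lemma surj_aux {d : Fin n → ℕ} {w z : Fin n} (hwz : w ≠ z) {G0 : Gr n}
    (hG0 : G0 ∈ realizations d) {W : Finset (Fin n)} (hW : W ⊆ AA w z G0)
    (hc : W.card = (enc w z G0 G0).card) :
    ∀ m : ℕ, ∀ G ∈ fibP d w z G0, (W \ enc w z G0 G).card = m →
      ∃ G' ∈ fibP d w z G0, enc w z G0 G' = W := by
  intro m
  induction m with
  | zero =>
    intro G hG h0
    refine ⟨G, hG, ?_⟩
    rw [Finset.card_eq_zero, Finset.sdiff_eq_empty_iff_subset] at h0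
    exact (Finset.eq_of_subset_of_card_le h0 (by rw [card_enc hwz hG0 hG, hc])).symm
  | succ m ih =>
    intro G hG hm
    have hcard : W.card = (enc w z G0 G).card := by rw [card_enc hwz hG0 hG, hc]
    have hm' : (enc w z G0 G \ W).card = m + 1 := by
      rw [← hm]; exact (Finset.card_sdiff_comm hcard).symm
    obtain ⟨b, hb⟩ := Finset.card_pos.mp (by rw [hm]; exact Nat.succ_pos m)
    obtain ⟨a, ha⟩ := Finset.card_pos.mp (by rw [hm']; exact Nat.succ_pos m)
    rw [Finset.mem_sdiff] at ha hb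
    have hab : a ≠ b := fun h => ha.2 (h ▸ hb.1)
    have haA := enc_subset _ _ _ _ ha.1
    obtain ⟨h1, h2, -⟩ := mem_AA.mp haA
    obtain ⟨h3, h4, -⟩ := mem_AA.mp (hW hb.1)
    have hP := isP_of_mem hwz hG0 hG ha.1 (hW hb.1) hb.2
    refine ih (flipB a b w z G) (flipB_mem_fibP hwz hG hab h1 h2 h3 h4 hP) ?_
    rw [enc_flipB hwz hG0 hG hab h1 h2 h3 h4 hP, swapS_eq ha.1 hb.2]
    have : W \ insert b ((enc w z G0 G).erase a) = (W \ enc w z G0 G).erase b := by
      ext y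
      simp only [Finset.mem_sdiff, Finset.mem_insert, Finset.mem_erase, not_or, not_and]
      constructor
      · rintro ⟨hy, hyb, hy2⟩
        refine ⟨hyb, hy, fun hyE => ?_⟩
        have hya : y ≠ a := fun e => ha.2 (e ▸ hy)
        exact hy2 hya hyE
      · rintro ⟨hyb, hy, hyE⟩
        exact ⟨hy, hyb, fun _ h => hyE h⟩
    rw [this, Finset.card_erase_of_mem (Finset.mem_sdiff.mpr hb), hm]
    rfl

/-- (E1) the fibre is a slice. -/
lemma image_enc {d : Fin n → ℕ} {w z : Fin n} (hwz : w ≠ z) {G0 : Gr n}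
    (hG0 : G0 ∈ realizations d) :
    (fibP d w z G0).image (enc w z G0) =
      (AA w z G0).powersetCard (enc w z G0 G0).card := by
  ext W
  rw [Finset.mem_image, Finset.mem_powersetCard]
  constructor
  · rintro ⟨G, hG, rfl⟩
    exact ⟨enc_subset _ _ _ _, card_enc hwz hG0 hG⟩
  · rintro ⟨hW, hc⟩
    exact surj_aux hwz hG0 hW hc _ G0 (self_mem_fibP hG0) rfl

lemma enc_injOn {d : Fin n → ℕ} {w z : Fin n} (hwz : w ≠ z) {G0 : Gr n}
    (hG0 : G0 ∈ realizations d) : Set.InjOn (enc w z G0) (fibP d w z G0) :=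
  fun _ hG _ hG' h => enc_inj hwz hG0 hG hG' h

/-- (E4) Johnson-adjacent graphs of a fibre are switch-adjacent. -/
lemma sw_of_enc {d : Fin n → ℕ} {w z : Fin n} (hwz : w ≠ z) {G0 G G1 : Gr n}
    (hG0 : G0 ∈ realizations d) (hG : G ∈ fibP d w z G0) (hG1 : G1 ∈ fibP d w z G0)
    (h : (enc w z G0 G \ enc w z G0 G1).card = 1) : Sw G G1 := by
  have hcard : (enc w z G0 G).card = (enc w z G0 G1).card := by
    rw [card_enc hwz hG0 hG, card_enc hwz hG0 hG1]
  have h' : (enc w z G0 G1 \ enc w z G0 G).card = 1 := by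
    rw [← h]; exact (Finset.card_sdiff_comm hcard).symm
  obtain ⟨a, ha⟩ := Finset.card_eq_one.mp h
  obtain ⟨b, hb⟩ := Finset.card_eq_one.mp h'
  have ha1 : ∀ y, (y ∈ enc w z G0 G ∧ y ∉ enc w z G0 G1) ↔ y = a := fun y => by
    rw [← Finset.mem_sdiff, ha, Finset.mem_singleton]
  have hb1 : ∀ y, (y ∈ enc w z G0 G1 ∧ y ∉ enc w z G0 G) ↔ y = b := fun y => by
    rw [← Finset.mem_sdiff, hb, Finset.mem_singleton]
  have haE := (ha1 a).mpr rfl
  have hbE := (hb1 b).mpr rfl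
  have hab : a ≠ b := fun e => hbE.2 (e ▸ haE.1)
  have haA := enc_subset _ _ _ _ haE.1
  have hbA := enc_subset _ _ _ _ hbE.1
  obtain ⟨h1, h2, -⟩ := mem_AA.mp haA
  obtain ⟨h3, h4, -⟩ := mem_AA.mp hbA
  have hP := isP_of_mem hwz hG0 hG haE.1 hbA hbE.2
  have : G1 = flipB a b w z G := by
    apply enc_inj hwz hG0 hG1 (flipB_mem_fibP hwz hG hab h1 h2 h3 h4 hP)
    rw [enc_flipB hwz hG0 hG hab h1 h2 h3 h4 hP, swapS_eq haE.1 hbE.2]
    ext y
    rw [Finset.mem_insert, Finset.mem_erase]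
    constructor
    · intro hy2
      by_cases hy1 : y ∈ enc w z G0 G
      · right; exact ⟨fun e => haE.2 (e ▸ hy2), hy1⟩
      · left; exact (hb1 y).mp ⟨hy2, hy1⟩
    · rintro (rfl | ⟨hya, hy1⟩)
      · exact hbE.1
      · by_contra hy2; exact hya ((ha1 y).mp ⟨hy1, hy2⟩)
  rw [this]
  exact isSwitch_flipB hab h1 h2 h3 h4 hwz hP

end Crest.Agent.S0453D.PairEnc
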