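import Crest.Agent.S0453_CE
import Crest.Agent.S0453_PairEnc

/-! # S0453, package B4 (helper23): `energy_pair` -/

set_option autoImplicit false
open Finset
open Crest.SwitchChain

namespace Crest.Agent.S0453D

variable {n : ℕ}

namespace PairEnc

lemma var_eq_zero_of_card_le_one {α : Type*} (S : Finset α) (g : α → ℝ) (h : S.card ≤ 1) :
    ∑ W ∈ S, (g W - mean S g) ^ 2 = 0 := by
  rcases Finset.eq_empty_or_nonempty S with rfl | ⟨W0, hW0⟩
  · simp
  · have : S = {W0} := by
      rw [Finset.eq_singleton_iff_unique_mem]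
      exact ⟨hW0, fun x hx => Finset.card_le_one.mp h x hx W0 hW0⟩
    subst this
    simp [mean]

open Classical in
lemma fibre_ineq (d : Fin n → ℕ) (u v : Fin n) (huv : u ≠ v) (f : Gr n → ℝ) {G0 : Gr n}
    (hG0 : G0 ∈ realizations d) :
    ∑ G ∈ fibP d u v G0, (Dp d u v f G) ^ 2 ≤
      (1 / 4) * ∑ G ∈ fibP d u v G0,
        ∑ G' ∈ (realizations d).filter (fun G' => Sw G G'), (f G - f G') ^ 2 := by
  set Φ := fibP d u v G0 with hΦ
  set e := enc u v G0 with he
  set A := AA u v G0 with hA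
  set k := (enc u v G0 G0).card with hk
  set S := A.powersetCard k with hS
  have himg : Φ.image e = S := image_enc huv hG0
  have hinj : Set.InjOn e Φ := enc_injOn huv hG0
  let g : Finset (Fin n) → ℝ := fun W => ∑ G ∈ Φ.filter (fun G => e G = W), f G
  have hg : ∀ G ∈ Φ, g (e G) = f G := by
    intro G hG
    have : Φ.filter (fun G' => e G' = e G) = {G} := by
      ext G'
      simp only [Finset.mem_filter, Finset.mem_singleton]
      constructor
      · rintro ⟨h1, h2⟩; exact hinj h1 hG h2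
      · rintro rfl; exact ⟨hG, rfl⟩
    simp only [g, this, Finset.sum_singleton]
  have hDp : ∀ G ∈ Φ, Dp d u v f G = f G - mean Φ f := by
    intro G hG
    unfold Dp cD cE mean
    rw [(mem_fibP.mp hG).2]
    rfl
  have hmean : mean S g = mean Φ f := by
    unfold mean
    rw [← himg, Finset.sum_image hinj, Finset.card_image_of_injOn hinj]
    congr 1
    exact Finset.sum_congr rfl hg
  have hL : ∑ G ∈ Φ, (Dp d u v f G) ^ 2 = ∑ W ∈ S, (g W - mean S g) ^ 2 := by
    rw [hmean, ← himg, Finset.sum_image hinj]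
    refine Finset.sum_congr rfl fun G hG => ?_
    rw [hDp G hG, hg G hG]
  have hR : ∑ W ∈ S, ∑ W' ∈ S.filter (fun W' => (W \ W').card = 1), (g W - g W') ^ 2 =
      ∑ G ∈ Φ, ∑ G' ∈ Φ.filter (fun G' => (e G \ e G').card = 1), (f G - f G') ^ 2 := by
    rw [← himg, Finset.sum_image hinj]
    refine Finset.sum_congr rfl fun G hG => ?_
    rw [Finset.filter_image, Finset.sum_image (hinj.mono (Finset.filter_subset _ _))]
    refine Finset.sum_congr rfl fun G' hG' => ?_
    rw [hg G hG, hg G' (Finset.mem_of_mem_filter _ hG')]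
  have hle : ∑ G ∈ Φ, ∑ G' ∈ Φ.filter (fun G' => (e G \ e G').card = 1), (f G - f G') ^ 2 ≤
      ∑ G ∈ Φ, ∑ G' ∈ (realizations d).filter (fun G' => Sw G G'), (f G - f G') ^ 2 := by
    refine Finset.sum_le_sum fun G hG => ?_
    refine Finset.sum_le_sum_of_subset_of_nonneg (fun G' hG' => ?_) (fun _ _ _ => sq_nonneg _)
    rw [Finset.mem_filter] at hG' ⊢
    exact ⟨(mem_fibP.mp hG'.1).1, sw_of_enc huv hG0 hG hG'.1 hG'.2⟩
  have hJ := johnson_gap_adj A k g
  rw [hL]
  by_cases hA2 : 2 ≤ A.card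
  · have hX : 0 ≤ ∑ W ∈ S, (g W - mean S g) ^ 2 := Finset.sum_nonneg fun _ _ => sq_nonneg _
    have hA2' : (2 : ℝ) ≤ (A.card : ℝ) := by exact_mod_cast hA2
    rw [hR] at hJ
    nlinarith
  · have hc : S.card ≤ 1 := by
      rw [hS, Finset.card_powersetCard]
      have h1 := Nat.choose_le_middle k A.card
      have h2 : A.card = 0 ∨ A.card = 1 := by omega
      rcases h2 with h2 | h2 <;> rw [h2] at h1 ⊢ <;> simpa using h1
    rw [var_eq_zero_of_card_le_one S g hc]
    exact mul_nonneg (by norm_num)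
      (Finset.sum_nonneg fun _ _ => Finset.sum_nonneg fun _ _ => sq_nonneg _)

end PairEnc

theorem energy_pair (d : Fin n → ℕ) (u v : Fin n) (huv : u ≠ v) (f : Gr n → ℝ) :
    ∑ G ∈ realizations d, (Dp d u v f G) ^ 2 ≤ (1 / 4) * En d f := by
  classical
  unfold En
  rw [sum_eq_sum_fibres (realizations d) (keyP u v) (fun G => (Dp d u v f G) ^ 2),
    sum_eq_sum_fibres (realizations d) (keyP u v)
      (fun G => ∑ G' ∈ (realizations d).filter (fun G' => Sw G G'), (f G - f G') ^ 2),
    Finset.mul_sum]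
  refine Finset.sum_le_sum fun κ hκ => ?_
  obtain ⟨G0, hG0, rfl⟩ := Finset.mem_image.mp hκ
  exact PairEnc.fibre_ineq d u v huv f hG0

end Crest.Agent.S0453D
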