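import Mathlib
import Crest.Prelude.Def_SwitchChain
import Crest.Agent.S0453_Defs

/-!
# S0453, package CMP, part A : adjacency API for `Finset (Edge n)`
-/

set_option autoImplicit false

namespace Crest.Agent.S0453Cmp

open Finset Crest.SwitchChain
open scoped Classical
open Crest.Agent.S0453D (adj keyP Gr)

variable {n : ℕ}

lemma adj_comm {G : Finset (Edge n)} {a b : Fin n} : adj G a b ↔ adj G b a := by
  unfold adj; simp only [Sym2.eq_swap]

lemma _root_.Crest.Agent.S0453D.adj.symmC {G : Finset (Edge n)} {a b : Fin n} (h : adj G a b) : adj G b a := adj_comm.1 h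

lemma _root_.Crest.Agent.S0453D.adj.neC {G : Finset (Edge n)} {a b : Fin n} (h : adj G a b) : a ≠ b := by
  obtain ⟨e, -, he⟩ := h
  have := e.2
  rw [he] at this
  simpa using this

lemma mem_iff_adj {G : Finset (Edge n)} {e : Edge n} {a b : Fin n} (he : e.1 = s(a, b)) :
    e ∈ G ↔ adj G a b := by
  constructor
  · intro h; exact ⟨e, h, he⟩
  · rintro ⟨e', h', he'⟩
    have : e = e' := Subtype.ext (he.trans he'.symm)
    rwa [this]

lemma ext_adj {G G' : Finset (Edge n)} (h : ∀ a b, adj G a b ↔ adj G' a b) : G = G' := by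
  ext e
  obtain ⟨e, he⟩ := e
  induction e using Sym2.ind with
  | _ x y => rw [mem_iff_adj (a := x) (b := y) rfl, mem_iff_adj (a := x) (b := y) rfl, h]

/-- degree = number of neighbours. -/
lemma deg_eq (G : Finset (Edge n)) (w : Fin n) :
    deg G w = (univ.filter fun x => adj G w x).card := by
  unfold deg
  have h1 : ((G.filter fun e => w ∈ e.1).image Subtype.val).card
      = (G.filter fun e => w ∈ e.1).card :=
    card_image_of_injective _ Subtype.val_injective
  have h2 : ((univ.filter fun x => adj G w x).image fun x => s(w, x)).card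
      = (univ.filter fun x => adj G w x).card := by
    apply card_image_of_injective
    intro x y hxy
    have hxy' : s(w, x) = s(w, y) := hxy
    rw [Sym2.eq_iff] at hxy'
    rcases hxy' with ⟨-, h⟩ | ⟨h1, h2⟩
    · exact h
    · rw [h2, h1]
  rw [← h1, ← h2]
  congr 1
  ext z
  simp only [mem_image, mem_filter, mem_univ, true_and]
  constructor
  · rintro ⟨e, ⟨heG, hw⟩, rfl⟩
    obtain ⟨x, hx⟩ := Sym2.mem_iff_exists.mp hw
    exact ⟨x, ⟨e, heG, hx⟩, hx.symm⟩
  · rintro ⟨x, ⟨e, heG, he⟩, rfl⟩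
    exact ⟨e, ⟨heG, by rw [he]; simp⟩, he⟩

/-- the graph with a prescribed (not necessarily symmetric) relation. -/
noncomputable def mkG (R : Fin n → Fin n → Prop) : Finset (Edge n) :=
  univ.filter fun e => ∃ a b, e.1 = s(a, b) ∧ R a b

lemma adj_mkG (R : Fin n → Fin n → Prop) (a b : Fin n) :
    adj (mkG R) a b ↔ a ≠ b ∧ (R a b ∨ R b a) := by
  constructor
  · intro h
    refine ⟨h.neC, ?_⟩
    obtain ⟨e, he, hab⟩ := h
    simp only [mkG, mem_filter, mem_univ, true_and] at he
    obtain ⟨x, y, hxy, hR⟩ := he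
    rw [hab, Sym2.eq_iff] at hxy
    rcases hxy with ⟨rfl, rfl⟩ | ⟨rfl, rfl⟩
    · exact Or.inl hR
    · exact Or.inr hR
  · rintro ⟨hne, h⟩
    refine ⟨⟨s(a, b), by simpa using hne⟩, ?_, rfl⟩
    simp only [mkG, mem_filter, mem_univ, true_and]
    rcases h with h | h
    · exact ⟨a, b, rfl, h⟩
    · exact ⟨b, a, Sym2.eq_swap, h⟩

end Crest.Agent.S0453Cmp
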