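import Mathlib
import Crest.Prelude.Def_SwitchChain
import Crest.Agent.S0453_CmpA

/-!
# S0453, package CMP, part B : a pair fibre is a Johnson slice
-/

set_option autoImplicit false

namespace Crest.Agent.S0453Cmp

open Finset Crest.SwitchChain
open scoped Classical
open Crest.Agent.S0453D (adj keyP Gr)

variable {n : ℕ}

/-- `G` and `G'` agree outside the rows `u, v`, and on the slot `uv`. -/
def SameOut (u v : Fin n) (G G' : Finset (Edge n)) : Prop :=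
  (∀ a b, a ≠ u → a ≠ v → b ≠ u → b ≠ v → (adj G a b ↔ adj G' a b)) ∧ (adj G u v ↔ adj G' u v)

lemma adj_keyP (u v : Fin n) (G : Finset (Edge n)) (a b : Fin n) :
    adj (keyP u v G) a b ↔ adj G a b ∧
      ((a ≠ u ∧ a ≠ v ∧ b ≠ u ∧ b ≠ v) ∨ (a = u ∧ b = v) ∨ (a = v ∧ b = u)) := by
  unfold adj keyP
  constructor
  · rintro ⟨e, he, hab⟩
    rw [mem_filter] at he
    refine ⟨⟨e, he.1, hab⟩, ?_⟩
    have h2 := he.2
    rw [hab] at h2
    simp only [Sym2.mem_iff, not_or, Sym2.eq_iff] at h2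
    rcases h2 with ⟨⟨h1, h2⟩, h3, h4⟩ | h | h
    · exact Or.inl ⟨Ne.symm h1, Ne.symm h3, Ne.symm h2, Ne.symm h4⟩
    · exact Or.inr (Or.inl h)
    · exact Or.inr (Or.inr h)
  · rintro ⟨⟨e, he, hab⟩, h⟩
    refine ⟨e, ?_, hab⟩
    rw [mem_filter]
    refine ⟨he, ?_⟩
    rw [hab]
    simp only [Sym2.mem_iff, not_or, Sym2.eq_iff]
    rcases h with ⟨h1, h2, h3, h4⟩ | h | h
    · exact Or.inl ⟨⟨Ne.symm h1, Ne.symm h3⟩, Ne.symm h2, Ne.symm h4⟩
    · exact Or.inr (Or.inl h)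
    · exact Or.inr (Or.inr h)

lemma keyP_eq_iff (u v : Fin n) (G G' : Finset (Edge n)) :
    keyP u v G = keyP u v G' ↔ SameOut u v G G' := by
  constructor
  · intro h
    have h' : ∀ a b, adj (keyP u v G) a b ↔ adj (keyP u v G') a b := by rw [h]; simp
    simp only [adj_keyP] at h'
    refine ⟨fun a b h1 h2 h3 h4 => ?_, ?_⟩
    · have := h' a b
      simpa [h1, h2, h3, h4] using this
    · have := h' u v
      simpa using this
  · rintro ⟨h1, h2⟩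
    apply ext_adj
    intro a b
    rw [adj_keyP, adj_keyP]
    constructor
    · rintro ⟨h, hc⟩
      refine ⟨?_, hc⟩
      rcases hc with ⟨c1, c2, c3, c4⟩ | ⟨rfl, rfl⟩ | ⟨rfl, rfl⟩
      · exact (h1 a b c1 c2 c3 c4).1 h
      · exact h2.1 h
      · exact (h2.1 h.symmC).symmC
    · rintro ⟨h, hc⟩
      refine ⟨?_, hc⟩
      rcases hc with ⟨c1, c2, c3, c4⟩ | ⟨rfl, rfl⟩ | ⟨rfl, rfl⟩
      · exact (h1 a b c1 c2 c3 c4).2 h
      · exact h2.2 h
      · exact (h2.2 h.symmC).symmC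

lemma ext_rows {u v : Fin n} {G G' : Finset (Edge n)} (hu : ∀ y, adj G u y ↔ adj G' u y)
    (hv : ∀ y, adj G v y ↔ adj G' v y)
    (ho : ∀ a b, a ≠ u → a ≠ v → b ≠ u → b ≠ v → (adj G a b ↔ adj G' a b)) : G = G' := by
  apply ext_adj
  intro a b
  by_cases h1 : a = u
  · subst h1; exact hu b
  by_cases h2 : a = v
  · subst h2; exact hv b
  by_cases h3 : b = u
  · subst h3; rw [adj_comm, hu a, adj_comm]
  by_cases h4 : b = v
  · subst h4; rw [adj_comm, hv a, adj_comm]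
  exact ho a b h1 h2 h3 h4

/-- neighbours of `u` that are not neighbours of `v` (and are not `v`). -/
noncomputable def NA (u v : Fin n) (G : Finset (Edge n)) : Finset (Fin n) :=
  univ.filter fun y => adj G u y ∧ ¬ adj G v y ∧ y ≠ v

lemma mem_NA {u v : Fin n} {G : Finset (Edge n)} {y : Fin n} :
    y ∈ NA u v G ↔ adj G u y ∧ ¬ adj G v y ∧ y ≠ v := by
  simp [NA]

/-- the free columns of the pair block. -/
noncomputable def WW (u v : Fin n) (G : Finset (Edge n)) : Finset (Fin n) :=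
  NA u v G ∪ NA v u G

lemma mem_WW {u v : Fin n} {G : Finset (Edge n)} {y : Fin n} :
    y ∈ WW u v G ↔ y ≠ u ∧ y ≠ v ∧ (adj G u y ↔ ¬ adj G v y) := by
  simp only [WW, mem_union, mem_NA]
  constructor
  · rintro (⟨h1, h2, h3⟩ | ⟨h1, h2, h3⟩)
    · exact ⟨h1.neC.symm, h3, by tauto⟩
    · exact ⟨h3, h1.neC.symm, by tauto⟩
  · rintro ⟨h1, h2, h3⟩
    by_cases h : adj G u y
    · left; exact ⟨h, h3.1 h, h2⟩
    · right; exact ⟨by tauto, h, h1⟩

/-- re-assign the free columns: `A'` goes to `u`, the rest to `v`. -/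
noncomputable def reas (u v : Fin n) (G : Finset (Edge n)) (A' : Finset (Fin n)) :
    Finset (Edge n) :=
  mkG fun a b => (a = u ∧ b ∈ A') ∨ (a = v ∧ b ∈ WW u v G \ A') ∨
    (adj G a b ∧ ¬ ((a = u ∨ a = v) ∧ b ∈ WW u v G) ∧ ¬ ((b = u ∨ b = v) ∧ a ∈ WW u v G))

section reas
variable {u v : Fin n} (huv : u ≠ v) {G : Finset (Edge n)} {A' : Finset (Fin n)}
  (hA : A' ⊆ WW u v G)
include huv hA

lemma adj_reas_u (y : Fin n) :
    adj (reas u v G A') u y ↔ y ∈ A' ∨ (adj G u y ∧ y ∉ WW u v G) := by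
  have hW : ∀ z, z ∈ WW u v G → z ≠ u ∧ z ≠ v := fun z hz => ⟨(mem_WW.1 hz).1, (mem_WW.1 hz).2.1⟩
  have hu : u ∉ WW u v G := fun h => (hW u h).1 rfl
  have hv : v ∉ WW u v G := fun h => (hW v h).2 rfl
  rw [reas, adj_mkG]
  constructor
  · rintro ⟨hne, h | h⟩
    · rcases h with ⟨-, h⟩ | ⟨h, -⟩ | ⟨h1, h2, h3⟩
      · exact Or.inl h
      · exact absurd h huv
      · right; exact ⟨h1, fun h => h2 ⟨Or.inl rfl, h⟩⟩
    · rcases h with ⟨rfl, h⟩ | ⟨rfl, h⟩ | ⟨h1, h2, h3⟩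
      · exact absurd rfl hne
      · exact absurd (mem_sdiff.1 h).1 hu
      · right; exact ⟨h1.symmC, fun h => h3 ⟨Or.inl rfl, h⟩⟩
  · rintro (h | ⟨h1, h2⟩)
    · exact ⟨((hW y (hA h)).1).symm, Or.inl (Or.inl ⟨rfl, h⟩)⟩
    · refine ⟨h1.neC, Or.inl (Or.inr (Or.inr ⟨h1, fun h => h2 h.2, fun h => hu h.2⟩))⟩

lemma adj_reas_v (y : Fin n) :
    adj (reas u v G A') v y ↔ (y ∈ WW u v G ∧ y ∉ A') ∨ (adj G v y ∧ y ∉ WW u v G) := by
  have hW : ∀ z, z ∈ WW u v G → z ≠ u ∧ z ≠ v := fun z hz => ⟨(mem_WW.1 hz).1, (mem_WW.1 hz).2.1⟩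
  have hu : u ∉ WW u v G := fun h => (hW u h).1 rfl
  have hv : v ∉ WW u v G := fun h => (hW v h).2 rfl
  rw [reas, adj_mkG]
  constructor
  · rintro ⟨hne, h | h⟩
    · rcases h with ⟨h, -⟩ | ⟨-, h⟩ | ⟨h1, h2, h3⟩
      · exact absurd h.symm huv
      · exact Or.inl (mem_sdiff.1 h)
      · right; exact ⟨h1, fun h => h2 ⟨Or.inr rfl, h⟩⟩
    · rcases h with ⟨rfl, h⟩ | ⟨rfl, h⟩ | ⟨h1, h2, h3⟩
      · exact absurd (hA h) hv
      · exact absurd rfl hne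
      · right; exact ⟨h1.symmC, fun h => h3 ⟨Or.inr rfl, h⟩⟩
  · rintro (h | ⟨h1, h2⟩)
    · exact ⟨((hW y h.1).2).symm, Or.inl (Or.inr (Or.inl ⟨rfl, mem_sdiff.2 h⟩))⟩
    · refine ⟨h1.neC, Or.inl (Or.inr (Or.inr ⟨h1, fun h => h2 h.2, fun h => hv h.2⟩))⟩

omit huv hA in
lemma adj_reas_o (a b : Fin n) (h1 : a ≠ u) (h2 : a ≠ v) (h3 : b ≠ u) (h4 : b ≠ v) :
    adj (reas u v G A') a b ↔ adj G a b := by
  rw [reas, adj_mkG]
  constructor
  · rintro ⟨hne, h | h⟩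
    · rcases h with ⟨h, -⟩ | ⟨h, -⟩ | ⟨h, -, -⟩
      · exact absurd h h1
      · exact absurd h h2
      · exact h
    · rcases h with ⟨h, -⟩ | ⟨h, -⟩ | ⟨h, -, -⟩
      · exact absurd h h3
      · exact absurd h h4
      · exact h.symmC
  · intro h
    refine ⟨h.neC, Or.inl (Or.inr (Or.inr ⟨h, ?_, ?_⟩))⟩
    · rintro ⟨h | h, -⟩
      · exact h1 h
      · exact h2 h
    · rintro ⟨h | h, -⟩
      · exact h3 h
      · exact h4 h

end reas

end Crest.Agent.S0453Cmp
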