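import Mathlib
import Crest.Prelude.Def_SwitchChain
import Crest.Agent.S0453_CmpB

/-!
# S0453, package B4 (CMP), part C : a pair fibre is a Johnson slice (the bijection)
-/

set_option autoImplicit false

namespace Crest.Agent.S0453Cmp

open Finset Crest.SwitchChain
open scoped Classical
open Crest.Agent.S0453D (adj keyP Gr)

variable {n : ℕ}

/-- the fibre of `keyP u v` through `G0` (same shape as in the definition of `cE`). -/
noncomputable def fib (d : Fin n → ℕ) (u v : Fin n) (G0 : Gr n) : Finset (Gr n) :=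
  (realizations d).filter fun G => keyP u v G = keyP u v G0

/-- the slice corresponding to the fibre through `G0`. -/
noncomputable def slice (u v : Fin n) (G0 : Gr n) : Finset (Finset (Fin n)) :=
  (WW u v G0).powersetCard (NA u v G0).card

lemma not_adj_self (G : Gr n) (a : Fin n) : ¬ adj G a a := fun h => h.neC rfl

lemma card_row_split (G : Gr n) {y u v : Fin n} (huv : u ≠ v) :
    (univ.filter fun x => adj G y x).card
      = (univ.filter fun x => adj G y x ∧ x ≠ u ∧ x ≠ v).card
        + (if adj G u y then 1 else 0) + (if adj G v y then 1 else 0) := by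
  simp only [card_filter]
  have : ∀ x, (if adj G y x then 1 else 0 : ℕ)
      = (if adj G y x ∧ x ≠ u ∧ x ≠ v then 1 else 0)
        + (if x = u then (if adj G u y then 1 else 0) else 0)
        + (if x = v then (if adj G v y then 1 else 0) else 0) := by
    intro x
    by_cases h1 : x = u
    · subst h1
      simp [huv, adj_comm (a := y)]
    · by_cases h2 : x = v
      · subst h2
        simp [h1, adj_comm (a := y)]
      · simp [h1, h2]
  rw [sum_congr rfl fun x _ => this x, sum_add_distrib, sum_add_distrib]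
  simp

lemma mem_fib {d : Fin n → ℕ} {u v : Fin n} {G0 G : Gr n} :
    G ∈ fib d u v G0 ↔ G ∈ realizations d ∧ SameOut u v G G0 := by
  rw [fib, mem_filter, keyP_eq_iff]

lemma self_mem_fib {d : Fin n → ℕ} {u v : Fin n} {G0 : Gr n} (h : G0 ∈ realizations d) :
    G0 ∈ fib d u v G0 := by
  rw [fib, mem_filter]; exact ⟨h, rfl⟩

lemma deg_of_mem {d : Fin n → ℕ} {G : Gr n} (h : G ∈ realizations d) (x : Fin n) :
    (univ.filter fun y => adj G x y).card = d x := by
  rw [← deg_eq]
  simp only [realizations, mem_filter, mem_univ, true_and] at h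
  exact h x

lemma mem_real_iff {d : Fin n → ℕ} {G : Gr n} :
    G ∈ realizations d ↔ ∀ x, (univ.filter fun y => adj G x y).card = d x := by
  simp only [realizations, mem_filter, mem_univ, true_and, deg_eq]

variable {d : Fin n → ℕ} {u v : Fin n} {G0 G : Gr n}

lemma col_sum (huv : u ≠ v) (hG0 : G0 ∈ realizations d) (hG : G ∈ fib d u v G0) {y : Fin n}
    (hyu : y ≠ u) (hyv : y ≠ v) :
    (if adj G u y then 1 else 0 : ℕ) + (if adj G v y then 1 else 0)
      = (if adj G0 u y then 1 else 0) + (if adj G0 v y then 1 else 0) := by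
  obtain ⟨hGr, hS⟩ := mem_fib.1 hG
  have h1 := deg_of_mem hGr y
  have h2 := deg_of_mem hG0 y
  rw [card_row_split G huv] at h1
  rw [card_row_split G0 huv] at h2
  have h3 : (univ.filter fun x => adj G y x ∧ x ≠ u ∧ x ≠ v)
      = (univ.filter fun x => adj G0 y x ∧ x ≠ u ∧ x ≠ v) := by
    apply filter_congr
    intro x _
    constructor
    · rintro ⟨h, hu, hv⟩; exact ⟨(hS.1 y x hyu hyv hu hv).1 h, hu, hv⟩
    · rintro ⟨h, hu, hv⟩; exact ⟨(hS.1 y x hyu hyv hu hv).2 h, hu, hv⟩
  rw [h3] at h1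
  omega

/-- structure of the graphs of the fibre. -/
theorem fib_rows (huv : u ≠ v) (hG0 : G0 ∈ realizations d) (hG : G ∈ fib d u v G0) :
    WW u v G = WW u v G0 ∧
    (∀ y, y ∉ WW u v G0 → (adj G u y ↔ adj G0 u y)) ∧
    (∀ y, y ∉ WW u v G0 → (adj G v y ↔ adj G0 v y)) ∧
    (∀ y, y ∈ WW u v G0 → (adj G u y ↔ y ∈ NA u v G)) ∧
    (∀ y, y ∈ WW u v G0 → (adj G v y ↔ y ∉ NA u v G)) ∧
    (∀ a b, a ≠ u → a ≠ v → b ≠ u → b ≠ v → (adj G a b ↔ adj G0 a b)) := by
  obtain ⟨hGr, hS⟩ := mem_fib.1 hG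
  have hW : WW u v G = WW u v G0 := by
    ext y
    rw [mem_WW, mem_WW]
    by_cases hyu : y = u
    · simp [hyu]
    by_cases hyv : y = v
    · simp [hyv]
    have := col_sum huv hG0 hG hyu hyv
    by_cases a1 : adj G u y <;> by_cases a2 : adj G v y <;> by_cases a3 : adj G0 u y <;>
      by_cases a4 : adj G0 v y <;> simp [a1, a2, a3, a4, hyu, hyv] at this ⊢
  refine ⟨hW, ?_, ?_, ?_, ?_, hS.1⟩
  · intro y hy
    by_cases hyu : y = u
    · subst hyu; simp [not_adj_self]
    by_cases hyv : y = v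
    · subst hyv; exact hS.2
    have := col_sum huv hG0 hG hyu hyv
    have hy' := hy
    rw [← hW] at hy'
    rw [mem_WW] at hy hy'
    by_cases a1 : adj G u y <;> by_cases a2 : adj G v y <;> by_cases a3 : adj G0 u y <;>
      by_cases a4 : adj G0 v y <;> simp [a1, a2, a3, a4, hyu, hyv] at this hy hy' ⊢
  · intro y hy
    by_cases hyu : y = u
    · subst hyu; rw [adj_comm, hS.2, adj_comm]
    by_cases hyv : y = v
    · subst hyv; simp [not_adj_self]
    have := col_sum huv hG0 hG hyu hyv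
    have hy' := hy
    rw [← hW] at hy'
    rw [mem_WW] at hy hy'
    by_cases a1 : adj G u y <;> by_cases a2 : adj G v y <;> by_cases a3 : adj G0 u y <;>
      by_cases a4 : adj G0 v y <;> simp [a1, a2, a3, a4, hyu, hyv] at this hy hy' ⊢
  · intro y hy
    rw [← hW, mem_WW] at hy
    rw [mem_NA]
    tauto
  · intro y hy
    rw [← hW, mem_WW] at hy
    rw [mem_NA]
    tauto

lemma NA_subset_WW (u v : Fin n) (G : Gr n) : NA u v G ⊆ WW u v G := subset_union_left

lemma card_row_u (huv : u ≠ v) (hG0 : G0 ∈ realizations d) (hG : G ∈ fib d u v G0) :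
    (univ.filter fun x => adj G u x).card
      = (NA u v G).card + (univ.filter fun x => adj G0 u x ∧ x ∉ WW u v G0).card := by
  obtain ⟨hW, h2, h3, h4, h5, h6⟩ := fib_rows huv hG0 hG
  rw [← card_filter_add_card_filter_not (s := univ.filter fun x => adj G u x)
    (fun x => x ∈ WW u v G0)]
  congr 1
  · congr 1
    ext x
    simp only [mem_filter, mem_univ, true_and]
    constructor
    · rintro ⟨h, hx⟩; exact (h4 x hx).1 h
    · intro h
      have hx : x ∈ WW u v G0 := hW ▸ NA_subset_WW u v G h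
      exact ⟨(h4 x hx).2 h, hx⟩
  · congr 1
    ext x
    simp only [mem_filter, mem_univ, true_and]
    constructor
    · rintro ⟨h, hx⟩; exact ⟨(h2 x hx).1 h, hx⟩
    · rintro ⟨h, hx⟩; exact ⟨(h2 x hx).2 h, hx⟩

lemma card_row_v (huv : u ≠ v) (hG0 : G0 ∈ realizations d) (hG : G ∈ fib d u v G0) :
    (univ.filter fun x => adj G v x).card
      = (WW u v G0 \ NA u v G).card + (univ.filter fun x => adj G0 v x ∧ x ∉ WW u v G0).card := by
  obtain ⟨hW, h2, h3, h4, h5, h6⟩ := fib_rows huv hG0 hG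
  rw [← card_filter_add_card_filter_not (s := univ.filter fun x => adj G v x)
    (fun x => x ∈ WW u v G0)]
  congr 1
  · congr 1
    ext x
    simp only [mem_filter, mem_univ, true_and, mem_sdiff]
    constructor
    · rintro ⟨h, hx⟩; exact ⟨hx, (h5 x hx).1 h⟩
    · rintro ⟨hx, h⟩
      exact ⟨(h5 x hx).2 h, hx⟩
  · congr 1
    ext x
    simp only [mem_filter, mem_univ, true_and]
    constructor
    · rintro ⟨h, hx⟩; exact ⟨(h3 x hx).1 h, hx⟩
    · rintro ⟨h, hx⟩; exact ⟨(h3 x hx).2 h, hx⟩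

theorem NA_mem_slice (huv : u ≠ v) (hG0 : G0 ∈ realizations d) (hG : G ∈ fib d u v G0) :
    NA u v G ∈ slice u v G0 := by
  rw [slice, mem_powersetCard]
  refine ⟨(fib_rows huv hG0 hG).1 ▸ NA_subset_WW u v G, ?_⟩
  have h1 := card_row_u huv hG0 hG
  have h2 := card_row_u huv hG0 (self_mem_fib hG0)
  rw [deg_of_mem (mem_fib.1 hG).1] at h1
  rw [deg_of_mem hG0] at h2
  omega

theorem reas_NA (huv : u ≠ v) (hG0 : G0 ∈ realizations d) (hG : G ∈ fib d u v G0) :
    reas u v G0 (NA u v G) = G := by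
  obtain ⟨hW, h2, h3, h4, h5, h6⟩ := fib_rows huv hG0 hG
  have hA : NA u v G ⊆ WW u v G0 := hW ▸ NA_subset_WW u v G
  apply ext_rows (u := u) (v := v)
  · intro y
    rw [adj_reas_u huv hA]
    by_cases hy : y ∈ WW u v G0
    · rw [h4 y hy]; tauto
    · rw [h2 y hy]
      have : y ∉ NA u v G := fun h => hy (hA h)
      tauto
  · intro y
    rw [adj_reas_v huv hA]
    by_cases hy : y ∈ WW u v G0
    · rw [h5 y hy]; tauto
    · rw [h3 y hy]
      tauto
  · intro a b a1 a2 a3 a4
    rw [adj_reas_o a b a1 a2 a3 a4, h6 a b a1 a2 a3 a4]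

theorem NA_reas (huv : u ≠ v) {W : Finset (Fin n)} (hW : W ⊆ WW u v G0) :
    NA u v (reas u v G0 W) = W := by
  ext y
  rw [mem_NA, adj_reas_u huv hW, adj_reas_v huv hW]
  constructor
  · rintro ⟨h1 | ⟨h1, h1'⟩, h2, h3⟩
    · exact h1
    · exfalso
      apply h1'
      rw [mem_WW]
      refine ⟨h1.neC.symm, h3, ?_⟩
      have : ¬ adj G0 v y := fun h => h2 (Or.inr ⟨h, h1'⟩)
      tauto
  · intro h
    have hy := hW h
    refine ⟨Or.inl h, ?_, (mem_WW.1 hy).2.1⟩
    tauto

theorem reas_mem_fib (huv : u ≠ v) (hG0 : G0 ∈ realizations d) {W : Finset (Fin n)}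
    (hW : W ∈ slice u v G0) : reas u v G0 W ∈ fib d u v G0 := by
  rw [slice, mem_powersetCard] at hW
  obtain ⟨hWs, hWc⟩ := hW
  have hv : v ∉ WW u v G0 := fun h => (mem_WW.1 h).2.1 rfl
  have hS : SameOut u v (reas u v G0 W) G0 := by
    refine ⟨fun a b a1 a2 a3 a4 => adj_reas_o a b a1 a2 a3 a4, ?_⟩
    rw [adj_reas_u huv hWs]
    have : v ∉ W := fun h => hv (hWs h)
    tauto
  rw [mem_fib]
  refine ⟨?_, hS⟩
  rw [mem_real_iff]
  intro x
  by_cases hxu : x = u
  · subst hxu
    have h0 := card_row_u huv hG0 (self_mem_fib hG0)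
    rw [deg_of_mem hG0] at h0
    rw [h0, ← hWc]
    have : (univ.filter fun y => adj (reas x v G0 W) x y)
        = W ∪ (univ.filter fun y => adj G0 x y ∧ y ∉ WW x v G0) := by
      ext y
      simp only [mem_filter, mem_univ, true_and, mem_union]
      exact adj_reas_u huv hWs y
    rw [this, card_union_of_disjoint]
    rw [disjoint_left]
    intro y hy hy'
    exact (mem_filter.1 hy').2.2 (hWs hy)
  by_cases hxv : x = v
  · subst hxv
    have h0 := card_row_v huv hG0 (self_mem_fib hG0)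
    rw [deg_of_mem hG0] at h0
    rw [h0]
    have : (univ.filter fun y => adj (reas u x G0 W) x y)
        = (WW u x G0 \ W) ∪ (univ.filter fun y => adj G0 x y ∧ y ∉ WW u x G0) := by
      ext y
      simp only [mem_filter, mem_univ, true_and, mem_union, mem_sdiff]
      exact adj_reas_v huv hWs y
    rw [this, card_union_of_disjoint]
    · rw [card_sdiff_of_subset hWs, card_sdiff_of_subset (NA_subset_WW u x G0), hWc]
    rw [disjoint_left]
    intro y hy hy'
    exact (mem_filter.1 hy').2.2 (mem_sdiff.1 hy).1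
  · rw [← deg_of_mem hG0 x, card_row_split _ huv, card_row_split G0 huv]
    have h3 : (univ.filter fun y => adj (reas u v G0 W) x y ∧ y ≠ u ∧ y ≠ v)
        = (univ.filter fun y => adj G0 x y ∧ y ≠ u ∧ y ≠ v) := by
      apply filter_congr
      intro y _
      constructor
      · rintro ⟨h, hu, hv⟩; exact ⟨(adj_reas_o x y hxu hxv hu hv).1 h, hu, hv⟩
      · rintro ⟨h, hu, hv⟩; exact ⟨(adj_reas_o x y hxu hxv hu hv).2 h, hu, hv⟩
    rw [h3, add_assoc, add_assoc]
    congr 1
    have e1 := adj_reas_u huv hWs x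
    have e2 := adj_reas_v huv hWs x
    by_cases hx : x ∈ WW u v G0
    · have hx' := (mem_WW.1 hx).2.2
      by_cases hxW : x ∈ W <;> by_cases a3 : adj G0 u x <;> by_cases a4 : adj G0 v x <;>
        simp [hx, hxW, a3, a4] at e1 e2 hx' ⊢ <;> simp [e1, e2]
    · have hxW : x ∉ W := fun h => hx (hWs h)
      simp only [hx, hxW, false_or, not_false_eq_true, and_true] at e1 e2
      simp only [e1, e2]

/-- transport of sums. -/
theorem sum_fib_eq (huv : u ≠ v) (hG0 : G0 ∈ realizations d) (F : Gr n → ℝ) :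
    ∑ G ∈ fib d u v G0, F G = ∑ W ∈ slice u v G0, F (reas u v G0 W) := by
  refine sum_nbij' (fun G => NA u v G) (fun W => reas u v G0 W) ?_ ?_ ?_ ?_ ?_
  · intro G hG; exact NA_mem_slice huv hG0 hG
  · intro W hW; exact reas_mem_fib huv hG0 hW
  · intro G hG; exact reas_NA huv hG0 hG
  · intro W hW; exact NA_reas huv (mem_powersetCard.1 hW).1
  · intro G hG; rw [reas_NA huv hG0 hG]

theorem card_fib_eq (huv : u ≠ v) (hG0 : G0 ∈ realizations d) :
    (fib d u v G0).card = (slice u v G0).card := by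
  have := sum_fib_eq (d := d) huv hG0 (fun _ => 1)
  simpa using this

end Crest.Agent.S0453Cmp
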