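import Mathlib
import Crest.Prelude.Def_SwitchChain
import Crest.Agent.S0453_CmpC
import Crest.Agent.S0453_Johnson
import Crest.Agent.S0453_Graph

/-!
# S0453, package B4 (CMP), part D : `isP` and `flipB` in the slice picture
-/

set_option autoImplicit false

namespace Crest.Agent.S0453Cmp

open Finset Crest.SwitchChain
open scoped Classical
open Crest.Agent.S0453D (adj keyP Gr isP flipB swapS sepS mem_swapS)

variable {n : ℕ} {d : Fin n → ℕ} {u v w z : Fin n} {G0 G : Gr n}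

theorem isP_iff_sep (hwz : w ≠ z) (hG0 : G0 ∈ realizations d) (hG : G ∈ fib d w z G0)
    (huw : u ≠ w) (huz : u ≠ z) (hvw : v ≠ w) (hvz : v ≠ z) :
    isP u v w z G ↔ u ∈ WW w z G0 ∧ v ∈ WW w z G0 ∧
      ((u ∈ NA w z G ∧ v ∉ NA w z G) ∨ (u ∉ NA w z G ∧ v ∈ NA w z G)) := by
  obtain ⟨hW, h2, h3, h4, h5, h6⟩ := fib_rows hwz hG0 hG
  have mu := @mem_WW n w z G u
  have mv := @mem_WW n w z G v
  rw [hW] at mu mv
  unfold isP
  rw [adj_comm (a := u) (b := w), adj_comm (a := u) (b := z), adj_comm (a := v) (b := w),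
    adj_comm (a := v) (b := z)]
  by_cases hu : u ∈ WW w z G0
  · by_cases hv : v ∈ WW w z G0
    · rw [h4 u hu, h5 u hu, h4 v hv, h5 v hv]
      simp only [hu, hv, true_and, not_not]
      clear h2 h3 h4 h5 h6 mu mv hW hG hG0
      by_cases p : u ∈ NA w z G <;> by_cases q : v ∈ NA w z G <;> simp [p, q]
    · have := mv.not.1 hv
      simp only [hv, false_and, and_false, iff_false]
      clear h2 h3 h4 h5 h6 mu mv hW hG hG0
      by_cases p : adj G w v <;> by_cases q : adj G z v <;> simp [p, q, hvw, hvz] at this ⊢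
  · have := mu.not.1 hu
    simp only [hu, false_and, iff_false]
    clear h2 h3 h4 h5 h6 mu mv hW hG hG0
    by_cases p : adj G w u <;> by_cases q : adj G z u <;> simp [p, q, huw, huz] at this ⊢

theorem swapS_subset {A W : Finset (Fin n)} (hu : u ∈ A) (hv : v ∈ A) (hW : W ⊆ A) :
    swapS u v W ⊆ A := by
  intro y hy
  rw [mem_swapS] at hy
  by_cases h1 : y = u
  · rw [h1]; exact hu
  by_cases h2 : y = v
  · rw [h2]; exact hv
  rw [Equiv.swap_apply_of_ne_of_ne h1 h2] at hy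
  exact hW hy

theorem flipB_reas (hwz : w ≠ z) (huv : u ≠ v) (hu : u ∈ WW w z G0) (hv : v ∈ WW w z G0)
    {W : Finset (Fin n)} (hW : W ⊆ WW w z G0) (hsep : (u ∈ W ∧ v ∉ W) ∨ (u ∉ W ∧ v ∈ W)) :
    flipB u v w z (reas w z G0 W) = reas w z G0 (swapS u v W) := by
  have hW' := swapS_subset hu hv hW
  obtain ⟨huw, huz, -⟩ := mem_WW.1 hu
  obtain ⟨hvw, hvz, -⟩ := mem_WW.1 hv
  apply ext_rows (u := w) (v := z)
  · intro y
    by_cases hy : w = y
    · subst hy; simp [not_adj_self]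
    rw [S0453D.adj_flipB hy, adj_reas_u hwz hW, adj_reas_u hwz hW', mem_swapS]
    have hC : (s(w, y) = s(u, w) ∨ s(w, y) = s(u, z) ∨ s(w, y) = s(v, w) ∨ s(w, y) = s(v, z))
        ↔ (y = u ∨ y = v) := by
      simp [huw.symm, hvw.symm, hwz]
    rw [hC]
    unfold Xor
    by_cases h1 : y = u
    · subst h1
      rw [Equiv.swap_apply_left]
      rcases hsep with ⟨a, b⟩ | ⟨a, b⟩ <;> simp [a, b, hu]
    by_cases h2 : y = v
    · subst h2
      rw [Equiv.swap_apply_right]
      rcases hsep with ⟨a, b⟩ | ⟨a, b⟩ <;> simp [a, b, hv]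
    rw [Equiv.swap_apply_of_ne_of_ne h1 h2]
    simp [h1, h2]
  · intro y
    by_cases hy : z = y
    · subst hy; simp [not_adj_self]
    rw [S0453D.adj_flipB hy, adj_reas_v hwz hW, adj_reas_v hwz hW', mem_swapS]
    have hC : (s(z, y) = s(u, w) ∨ s(z, y) = s(u, z) ∨ s(z, y) = s(v, w) ∨ s(z, y) = s(v, z))
        ↔ (y = u ∨ y = v) := by
      simp [huz.symm, hvz.symm, hwz.symm]
    rw [hC]
    unfold Xor
    by_cases h1 : y = u
    · subst h1
      rw [Equiv.swap_apply_left]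
      rcases hsep with ⟨a, b⟩ | ⟨a, b⟩ <;> simp [a, b, hu]
    by_cases h2 : y = v
    · subst h2
      rw [Equiv.swap_apply_right]
      rcases hsep with ⟨a, b⟩ | ⟨a, b⟩ <;> simp [a, b, hv]
    rw [Equiv.swap_apply_of_ne_of_ne h1 h2]
    simp [h1, h2]
  · intro a b a1 a2 a3 a4
    by_cases hab : a = b
    · subst hab; simp [not_adj_self]
    rw [S0453D.adj_flipB hab, adj_reas_o a b a1 a2 a3 a4, adj_reas_o a b a1 a2 a3 a4]
    have hC : ¬ (s(a, b) = s(u, w) ∨ s(a, b) = s(u, z) ∨ s(a, b) = s(v, w) ∨ s(a, b) = s(v, z)) := by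
      simp [a1, a2, a3, a4]
    unfold Xor
    simp only [hC, not_false_eq_true, and_true, false_and, or_false]

end Crest.Agent.S0453Cmp
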