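import Mathlib

/-! # S0453 : the slice inequality (S'), elementary proof (pair Poincaré + transposition coupling) -/

set_option autoImplicit false
open Finset

namespace Crest.Agent.S0453SP

variable {ι : Type*} [DecidableEq ι]

/-- image under the transposition `(u v)`. -/
def sw (u v : ι) (W : Finset ι) : Finset ι := W.image (Equiv.swap u v)

/-- real indicator of `u ∈ W`. -/
def chi (u : ι) (W : Finset ι) : ℝ := if u ∈ W then 1 else 0

/-- real indicator of "`W` separates `u` and `v`". -/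
def ind (u v : ι) (W : Finset ι) : ℝ := (chi u W - chi v W) ^ 2

lemma mem_sw (u v x : ι) (W : Finset ι) : x ∈ sw u v W ↔ Equiv.swap u v x ∈ W := by
  unfold sw
  rw [Finset.mem_image]
  constructor
  · rintro ⟨y, hy, rfl⟩
    simpa using hy
  · intro h
    exact ⟨_, h, by simp⟩

lemma chi_sw (u v x : ι) (W : Finset ι) : chi x (sw u v W) = chi (Equiv.swap u v x) W := by
  simp [chi, mem_sw]

lemma ind_sw (u v x y : ι) (W : Finset ι) :
    ind x y (sw u v W) = ind (Equiv.swap u v x) (Equiv.swap u v y) W := by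
  simp [ind, chi_sw]

lemma sw_sw (u v : ι) (W : Finset ι) : sw u v (sw u v W) = W := by
  ext x
  simp [mem_sw]

lemma sw_comm (u v : ι) (W : Finset ι) : sw u v W = sw v u W := by
  unfold sw
  rw [Equiv.swap_comm]

lemma chi_cases (u : ι) (W : Finset ι) : chi u W = 0 ∨ chi u W = 1 := by
  unfold chi
  split_ifs <;> simp

lemma ind_comm (u v : ι) (W : Finset ι) : ind u v W = ind v u W := by
  unfold ind; ring

lemma ind_self (u : ι) (W : Finset ι) : ind u u W = 0 := by
  unfold ind; ring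

lemma ind_cases (u v : ι) (W : Finset ι) : ind u v W = 0 ∨ ind u v W = 1 := by
  unfold ind
  rcases chi_cases u W with h | h <;> rcases chi_cases v W with h' | h' <;> simp [h, h']

lemma ind_sq (u v : ι) (W : Finset ι) : ind u v W ^ 2 = ind u v W := by
  rcases ind_cases u v W with h | h <;> simp [h]

lemma ind_nonneg (u v : ι) (W : Finset ι) : 0 ≤ ind u v W := by
  unfold ind; positivity

lemma sw_eq_self {u v : ι} {W : Finset ι} (h : ind u v W = 0) : sw u v W = W := by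
  have h1 : (u ∈ W ↔ v ∈ W) := by
    unfold ind chi at h
    by_cases hu : u ∈ W <;> by_cases hv : v ∈ W <;> simp [hu, hv] at h ⊢
  ext x
  rw [mem_sw]
  by_cases hxu : x = u
  · subst hxu; simp [h1]
  · by_cases hxv : x = v
    · subst hxv; simp [h1]
    · rw [Equiv.swap_apply_of_ne_of_ne hxu hxv]

lemma swap_mem {A : Finset ι} {u v x : ι} (hu : u ∈ A) (hv : v ∈ A) (hx : x ∈ A) :
    Equiv.swap u v x ∈ A := by
  by_cases hxu : x = u
  · subst hxu; simpa using hv
  · by_cases hxv : x = v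
    · subst hxv; simpa using hu
    · rwa [Equiv.swap_apply_of_ne_of_ne hxu hxv]

lemma sw_mem {A : Finset ι} {k : ℕ} {u v : ι} (hu : u ∈ A) (hv : v ∈ A) {W : Finset ι}
    (hW : W ∈ A.powersetCard k) : sw u v W ∈ A.powersetCard k := by
  rw [Finset.mem_powersetCard] at hW ⊢
  refine ⟨?_, ?_⟩
  · intro x hx
    rw [mem_sw] at hx
    have := swap_mem hu hv (hW.1 hx)
    simpa using this
  · unfold sw
    rw [Finset.card_image_of_injective _ (Equiv.injective _)]
    exact hW.2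

lemma sum_sw {A : Finset ι} {k : ℕ} {u v : ι} (hu : u ∈ A) (hv : v ∈ A) (F : Finset ι → ℝ) :
    ∑ W ∈ A.powersetCard k, F (sw u v W) = ∑ W ∈ A.powersetCard k, F W := by
  refine Finset.sum_nbij' (sw u v) (sw u v) ?_ ?_ ?_ ?_ ?_
  · intro W hW; exact sw_mem hu hv hW
  · intro W hW; exact sw_mem hu hv hW
  · intro W _; exact sw_sw u v W
  · intro W _; exact sw_sw u v W
  · intro W _; rfl

omit [DecidableEq ι] in
lemma sum_sum_sub_sq (B : Finset ι) (a : ι → ℝ) :
    ∑ z ∈ B, ∑ z' ∈ B, (a z - a z') ^ 2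
      = 2 * (B.card : ℝ) * ∑ z ∈ B, a z ^ 2 - 2 * (∑ z ∈ B, a z) ^ 2 := by
  have h1 : ∀ z ∈ B, ∑ z' ∈ B, (a z - a z') ^ 2
      = (B.card : ℝ) * a z ^ 2 - 2 * a z * (∑ z' ∈ B, a z') + ∑ z' ∈ B, a z' ^ 2 := by
    intro z _
    simp_rw [sub_sq]
    rw [Finset.sum_add_distrib, Finset.sum_sub_distrib, Finset.sum_const, ← Finset.mul_sum]
    simp
  rw [Finset.sum_congr rfl h1, Finset.sum_add_distrib, Finset.sum_sub_distrib, ← Finset.mul_sum,
    ← Finset.sum_mul, ← Finset.mul_sum, Finset.sum_const]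
  simp
  ring

omit [DecidableEq ι] in
lemma sum_sum_add_sq (B : Finset ι) (a : ι → ℝ) :
    ∑ z ∈ B, ∑ z' ∈ B, (a z + a z') ^ 2
      = 2 * (B.card : ℝ) * ∑ z ∈ B, a z ^ 2 + 2 * (∑ z ∈ B, a z) ^ 2 := by
  have h1 : ∀ z ∈ B, ∑ z' ∈ B, (a z + a z') ^ 2
      = (B.card : ℝ) * a z ^ 2 + 2 * a z * (∑ z' ∈ B, a z') + ∑ z' ∈ B, a z' ^ 2 := by
    intro z _
    simp_rw [add_sq]
    rw [Finset.sum_add_distrib, Finset.sum_add_distrib, Finset.sum_const, ← Finset.mul_sum]
    simp
  rw [Finset.sum_congr rfl h1, Finset.sum_add_distrib, Finset.sum_add_distrib, ← Finset.mul_sum,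
    ← Finset.sum_mul, ← Finset.mul_sum, Finset.sum_const]
  simp
  ring

/-- key estimate: `2 ∑ s_w² ≤ (m-2) Q`. -/
lemma pair_key (A : Finset ι) (h : ι → ι → ℝ) (hsymm : ∀ u v, h u v = h v u)
    (hdiag : ∀ u, h u u = 0) (h0 : ∑ u ∈ A, ∑ v ∈ A, h u v = 0) :
    2 * ∑ w ∈ A, (∑ z ∈ A, h w z) ^ 2 ≤ ((A.card : ℝ) - 2) * ∑ u ∈ A, ∑ v ∈ A, (h u v) ^ 2 := by
  set m : ℝ := (A.card : ℝ) with hm
  set s : ι → ℝ := fun w => ∑ z ∈ A, h w z with hs
  set Q : ℝ := ∑ u ∈ A, ∑ v ∈ A, (h u v) ^ 2 with hQ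
  set S2 : ℝ := ∑ w ∈ A, s w ^ 2 with hS2
  have hs0 : ∑ w ∈ A, s w = 0 := h0
  -- the full double sum
  have hall : ∑ w ∈ A, ∑ z ∈ A, ((m - 2) * h w z - (s w + s z)) ^ 2
      = (m - 2) ^ 2 * Q - 4 * (m - 2) * S2 + 2 * m * S2 := by
    have e1 : ∀ w ∈ A, ∀ z ∈ A, ((m - 2) * h w z - (s w + s z)) ^ 2
        = (m - 2) ^ 2 * (h w z) ^ 2 - 2 * (m - 2) * (s w * h w z) - 2 * (m - 2) * (h w z * s z)
          + (s w + s z) ^ 2 := by
      intro w _ z _; ring
    rw [Finset.sum_congr rfl (fun w hw => Finset.sum_congr rfl (e1 w hw))]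
    simp_rw [Finset.sum_add_distrib, Finset.sum_sub_distrib, ← Finset.mul_sum]
    have c1 : ∑ w ∈ A, s w * ∑ z ∈ A, h w z = S2 := by
      apply Finset.sum_congr rfl; intro w _; simp only [hs]; ring
    have c2 : ∑ w ∈ A, ∑ z ∈ A, h w z * s z = S2 := by
      rw [Finset.sum_comm]
      apply Finset.sum_congr rfl; intro z _
      rw [← Finset.sum_mul]
      have : ∑ w ∈ A, h w z = s z := by
        simp only [hs]; apply Finset.sum_congr rfl; intro w _; exact hsymm w z
      rw [this]; ring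
    rw [c1, c2, sum_sum_add_sq, hs0]
    ring
  have hdiagsum : ∑ w ∈ A, ((m - 2) * h w w - (s w + s w)) ^ 2 = 4 * S2 := by
    rw [hS2, Finset.mul_sum]
    apply Finset.sum_congr rfl; intro w _; rw [hdiag]; ring
  have hge : ∑ w ∈ A, ((m - 2) * h w w - (s w + s w)) ^ 2
      ≤ ∑ w ∈ A, ∑ z ∈ A, ((m - 2) * h w z - (s w + s z)) ^ 2 := by
    apply Finset.sum_le_sum
    intro w hw
    exact Finset.single_le_sum (f := fun z => ((m - 2) * h w z - (s w + s z)) ^ 2)
      (fun z _ => sq_nonneg _) hw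
  rw [hall, hdiagsum] at hge
  have hfac : 0 ≤ (m - 2) * ((m - 2) * Q - 2 * S2) := by nlinarith
  -- case analysis on the cardinality
  rcases Nat.lt_or_ge 2 A.card with h3 | h2
  · have hm2 : 0 < m - 2 := by
      have : (2 : ℝ) < m := by rw [hm]; exact_mod_cast h3
      linarith
    have := nonneg_of_mul_nonneg_right hfac hm2
    linarith
  · -- `A.card ≤ 2`
    clear hfac hge hdiagsum hall
    interval_cases hc : A.card
    · rw [Finset.card_eq_zero] at hc
      simp [hS2, hQ, hc]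
    · obtain ⟨a, rfl⟩ := Finset.card_eq_one.mp hc
      simp [hS2, hQ, hs, hdiag]
    · obtain ⟨a, b, hab, rfl⟩ := Finset.card_eq_two.mp hc
      have e : h a b = 0 := by
        have := h0
        simp only [hs, Finset.sum_pair hab, hdiag] at this
        rw [hsymm b a] at this
        linarith
      have e' : h b a = 0 := by rw [hsymm b a]; exact e
      simp [hS2, hm, hs, Finset.sum_pair hab, hdiag, e, e']


/-- Poincaré inequality on (ordered) pairs = sharp gap of the triangular graph. -/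
theorem pair_gap (A : Finset ι) (h : ι → ι → ℝ) (hsymm : ∀ u v, h u v = h v u)
    (hdiag : ∀ u, h u u = 0) (h0 : ∑ u ∈ A, ∑ v ∈ A, h u v = 0) :
    (A.card : ℝ) * ∑ u ∈ A, ∑ v ∈ A, (h u v) ^ 2 ≤
      ∑ w ∈ A, ∑ z ∈ A.erase w, ∑ z' ∈ A.erase w, (h w z - h w z') ^ 2 := by
  have key := pair_key A h hsymm hdiag h0
  have h1 : ∀ w ∈ A, ∑ z ∈ A.erase w, ∑ z' ∈ A.erase w, (h w z - h w z') ^ 2
      = 2 * ((A.card : ℝ) - 1) * ∑ z ∈ A, (h w z) ^ 2 - 2 * (∑ z ∈ A, h w z) ^ 2 := by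
    intro w hw
    rw [sum_sum_sub_sq]
    have c : ((A.erase w).card : ℝ) = (A.card : ℝ) - 1 := by
      rw [Finset.card_erase_of_mem hw]
      have : 1 ≤ A.card := Finset.card_pos.mpr ⟨w, hw⟩
      push_cast [Nat.cast_sub this]
      ring
    rw [c, Finset.sum_erase A (by rw [hdiag]; ring), Finset.sum_erase A (hdiag w)]
  rw [Finset.sum_congr rfl h1, Finset.sum_sub_distrib, ← Finset.mul_sum, ← Finset.mul_sum]
  linarith

section main
variable (A : Finset ι) (k : ℕ) (g : Finset ι → ℝ)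

/-- number of separating sets. -/
def Nn (u v : ι) : ℝ := ∑ W ∈ A.powersetCard k, ind u v W

/-- sum of `g` over the separating sets. -/
def Ss (u v : ι) : ℝ := ∑ W ∈ A.powersetCard k, ind u v W * g W

/-- Dirichlet form in direction `(z z')`. -/
def Ee (z z' : ι) : ℝ := ∑ W ∈ A.powersetCard k, (g W - g (sw z z' W)) ^ 2

/-- the coupling term. -/
def Rr (w z z' : ι) : ℝ :=
  ∑ W ∈ A.powersetCard k, ind w z W * ind z z' W * (g W - g (sw z z' W)) ^ 2

variable {A k}

lemma sum_chi {W : Finset ι} (hW : W ∈ A.powersetCard k) : ∑ w ∈ A, chi w W = k := by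
  rw [Finset.mem_powersetCard] at hW
  unfold chi
  rw [Finset.sum_boole, Finset.filter_mem_eq_inter, Finset.inter_eq_right.mpr hW.1, hW.2]

lemma chi_sq (u : ι) (W : Finset ι) : chi u W ^ 2 = chi u W := by
  rcases chi_cases u W with h | h <;> simp [h]

lemma sum_ind {W : Finset ι} (hW : W ∈ A.powersetCard k) (z : ι) :
    ∑ w ∈ A, ind w z W = k + ((A.card : ℝ) - 2 * k) * chi z W := by
  have e : ∀ w ∈ A, ind w z W = chi w W - 2 * chi z W * chi w W + chi z W := by
    intro w _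
    unfold ind
    have h1 := chi_sq w W
    have h2 := chi_sq z W
    nlinarith
  rw [Finset.sum_congr rfl e, Finset.sum_add_distrib, Finset.sum_sub_distrib, ← Finset.mul_sum,
    sum_chi hW, Finset.sum_const]
  simp
  ring

lemma Nn_swap {a b : ι} (ha : a ∈ A) (hb : b ∈ A) (u v : ι) :
    Nn A k (Equiv.swap a b u) (Equiv.swap a b v) = Nn A k u v := by
  unfold Nn
  rw [← sum_sw ha hb (fun W => ind u v W)]
  apply Finset.sum_congr rfl
  intro W _
  rw [ind_sw]

lemma Nn_const {u v u' v' : ι} (hu : u ∈ A) (hv : v ∈ A) (hu' : u' ∈ A) (hv' : v' ∈ A)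
    (huv : u ≠ v) (huv' : u' ≠ v') : Nn A k u v = Nn A k u' v' := by
  have h1 := Nn_swap (k := k) hu hu' u v
  rw [Equiv.swap_apply_left] at h1
  set v1 := Equiv.swap u u' v with hv1
  have hv1A : v1 ∈ A := swap_mem hu hu' hv
  have hne : u' ≠ v1 := by
    intro h
    have : Equiv.swap u u' u = Equiv.swap u u' v := by rw [Equiv.swap_apply_left]; exact h
    exact huv ((Equiv.swap u u').injective this)
  have h2 := Nn_swap (k := k) hv1A hv' u' v1
  rw [Equiv.swap_apply_left, Equiv.swap_apply_of_ne_of_ne hne huv'] at h2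
  rw [← h1, ← h2]

lemma Nn_nonneg (u v : ι) : 0 ≤ Nn A k u v :=
  Finset.sum_nonneg (fun W _ => ind_nonneg u v W)

/-- half of the sets separating `w,z` also separate `z,z'`. -/
lemma two_mul_sum_ind_ind {w z z' : ι} (hw : w ∈ A) (hz : z ∈ A) (hwz : w ≠ z) (hwz' : w ≠ z')
    (hzz' : z ≠ z') :
    2 * ∑ W ∈ A.powersetCard k, ind w z W * ind z z' W = Nn A k w z := by
  have pw : ∀ W : Finset ι, ind w z W * (1 - ind w z' W) = ind w z W * ind z z' W := by
    intro W
    unfold ind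
    rcases chi_cases w W with h1 | h1 <;> rcases chi_cases z W with h2 | h2 <;>
      rcases chi_cases z' W with h3 | h3 <;> simp [h1, h2, h3]
  have re : ∑ W ∈ A.powersetCard k, ind w z W * (1 - ind z z' W)
      = ∑ W ∈ A.powersetCard k, ind w z W * (1 - ind w z' W) := by
    rw [← sum_sw hw hz (fun W => ind w z W * (1 - ind z z' W))]
    apply Finset.sum_congr rfl
    intro W _
    rw [ind_sw, ind_sw, Equiv.swap_apply_left, Equiv.swap_apply_right,
      Equiv.swap_apply_of_ne_of_ne hwz'.symm hzz'.symm, ind_comm z w]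
  have e : ∑ W ∈ A.powersetCard k, ind w z W * (1 - ind z z' W)
      = Nn A k w z - ∑ W ∈ A.powersetCard k, ind w z W * ind z z' W := by
    unfold Nn
    rw [← Finset.sum_sub_distrib]
    apply Finset.sum_congr rfl
    intro W _; ring
  rw [re, Finset.sum_congr rfl (fun W _ => pw W)] at e
  linarith

lemma grad_eq (z z' : ι) (W : Finset ι) :
    g W - g (sw z z' W) = ind z z' W * (g W - g (sw z z' W)) := by
  rcases ind_cases z z' W with h | h
  · rw [sw_eq_self h, h]; ring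
  · rw [h]; ring

/-- the coupling identity. -/
lemma Ss_sub {w z z' : ι} (hz : z ∈ A) (hz' : z' ∈ A) (hwz : w ≠ z) (hwz' : w ≠ z') :
    Ss A k g w z - Ss A k g w z'
      = ∑ W ∈ A.powersetCard k, (ind w z W * ind z z' W) * (g W - g (sw z z' W)) := by
  have e : Ss A k g w z' = ∑ W ∈ A.powersetCard k, ind w z W * g (sw z z' W) := by
    unfold Ss
    rw [← sum_sw hz hz' (fun W => ind w z' W * g W)]
    apply Finset.sum_congr rfl
    intro W _
    rw [ind_sw, Equiv.swap_apply_right, Equiv.swap_apply_of_ne_of_ne hwz hwz']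
  rw [e]
  unfold Ss
  rw [← Finset.sum_sub_distrib]
  apply Finset.sum_congr rfl
  intro W _
  have := grad_eq g z z' W
  calc ind w z W * g W - ind w z W * g (sw z z' W)
      = ind w z W * (g W - g (sw z z' W)) := by ring
    _ = ind w z W * (ind z z' W * (g W - g (sw z z' W))) := by rw [← this]
    _ = _ := by ring

lemma Rr_nonneg (w z z' : ι) : 0 ≤ Rr A k g w z z' :=
  Finset.sum_nonneg (fun W _ =>
    mul_nonneg (mul_nonneg (ind_nonneg _ _ _) (ind_nonneg _ _ _)) (sq_nonneg _))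

/-- Cauchy-Schwarz for the coupling. -/
lemma Ss_sub_sq_le {w z z' : ι} (hw : w ∈ A) (hz : z ∈ A) (hz' : z' ∈ A) (hwz : w ≠ z)
    (hwz' : w ≠ z') (hzz' : z ≠ z') :
    (Ss A k g w z - Ss A k g w z') ^ 2 ≤ Nn A k w z / 2 * Rr A k g w z z' := by
  rw [Ss_sub g hz hz' hwz hwz']
  have cs := Finset.sum_mul_sq_le_sq_mul_sq (A.powersetCard k)
    (fun W => ind w z W * ind z z' W)
    (fun W => (ind w z W * ind z z' W) * (g W - g (sw z z' W)))
  have e1 : ∀ W ∈ A.powersetCard k, (ind w z W * ind z z' W) *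
      ((ind w z W * ind z z' W) * (g W - g (sw z z' W)))
      = (ind w z W * ind z z' W) * (g W - g (sw z z' W)) := by
    intro W _
    have h1 := ind_sq w z W
    have h2 := ind_sq z z' W
    calc _ = (ind w z W ^ 2 * ind z z' W ^ 2) * (g W - g (sw z z' W)) := by ring
      _ = _ := by rw [h1, h2]
  have e2 : ∀ W ∈ A.powersetCard k, (ind w z W * ind z z' W) ^ 2 = ind w z W * ind z z' W := by
    intro W _
    rw [mul_pow, ind_sq, ind_sq]
  have e3 : ∀ W ∈ A.powersetCard k, ((ind w z W * ind z z' W) * (g W - g (sw z z' W))) ^ 2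
      = ind w z W * ind z z' W * (g W - g (sw z z' W)) ^ 2 := by
    intro W _
    rw [mul_pow, mul_pow, ind_sq, ind_sq]
  rw [Finset.sum_congr rfl e1, Finset.sum_congr rfl e2, Finset.sum_congr rfl e3] at cs
  have h2 := two_mul_sum_ind_ind (k := k) hw hz hwz hwz' hzz'
  have : ∑ W ∈ A.powersetCard k, ind w z W * ind z z' W = Nn A k w z / 2 := by linarith
  rw [this] at cs
  exact cs

/-- summing the coupling term over `w`. -/
lemma sum_Rr {z z' : ι} (hz : z ∈ A) (hz' : z' ∈ A) :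
    ∑ w ∈ A, Rr A k g w z z' = (A.card : ℝ) / 2 * Ee A k g z z' := by
  set φ : Finset ι → ℝ := fun W => (g W - g (sw z z' W)) ^ 2 with hφ
  have hφ1 : ∀ W, ind z z' W * φ W = φ W := by
    intro W
    rcases ind_cases z z' W with h | h
    · simp only [hφ]; rw [sw_eq_self h, h]; ring
    · rw [h]; ring
  have hφτ : ∀ W, φ (sw z z' W) = φ W := by
    intro W; simp only [hφ]; rw [sw_sw]; ring
  -- half of the energy sits on `z ∈ W`
  have half : 2 * ∑ W ∈ A.powersetCard k, chi z W * φ W = ∑ W ∈ A.powersetCard k, φ W := by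
    have r : ∑ W ∈ A.powersetCard k, chi z W * φ W = ∑ W ∈ A.powersetCard k, chi z' W * φ W := by
      rw [← sum_sw hz hz' (fun W => chi z W * φ W)]
      apply Finset.sum_congr rfl
      intro W _
      rw [chi_sw, hφτ, Equiv.swap_apply_left]
    have s : ∑ W ∈ A.powersetCard k, chi z W * φ W + ∑ W ∈ A.powersetCard k, chi z' W * φ W
        = ∑ W ∈ A.powersetCard k, φ W := by
      rw [← Finset.sum_add_distrib]
      apply Finset.sum_congr rfl
      intro W _
      rcases ind_cases z z' W with h | h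
      · have : φ W = 0 := by rw [← hφ1 W, h]; ring
        rw [this]; ring
      · have : chi z W + chi z' W = 1 := by
          unfold ind at h
          rcases chi_cases z W with h1 | h1 <;> rcases chi_cases z' W with h2 | h2 <;>
            simp [h1, h2] at h ⊢
        calc chi z W * φ W + chi z' W * φ W = (chi z W + chi z' W) * φ W := by ring
          _ = φ W := by rw [this]; ring
    linarith
  unfold Rr
  rw [Finset.sum_comm]
  have e : ∀ W ∈ A.powersetCard k, ∑ w ∈ A, ind w z W * ind z z' W * (g W - g (sw z z' W)) ^ 2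
      = (k : ℝ) * φ W + ((A.card : ℝ) - 2 * k) * (chi z W * φ W) := by
    intro W hW
    have : ∀ w ∈ A, ind w z W * ind z z' W * (g W - g (sw z z' W)) ^ 2 = ind w z W * φ W := by
      intro w _
      rw [mul_assoc]
      have := hφ1 W
      simp only [hφ] at this ⊢
      rw [this]
    rw [Finset.sum_congr rfl this, ← Finset.sum_mul, sum_ind hW]
    ring
  rw [Finset.sum_congr rfl e, Finset.sum_add_distrib, ← Finset.mul_sum, ← Finset.mul_sum]
  have : ∑ W ∈ A.powersetCard k, chi z W * φ W = (∑ W ∈ A.powersetCard k, φ W) / 2 := by linarith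
  rw [this]
  unfold Ee
  ring

lemma Ss_symm (u v : ι) : Ss A k g u v = Ss A k g v u := by
  unfold Ss
  apply Finset.sum_congr rfl
  intro W _
  rw [ind_comm]

lemma Ss_self (u : ι) : Ss A k g u u = 0 := by
  unfold Ss
  apply Finset.sum_eq_zero
  intro W _
  rw [ind_self]; ring

lemma Ee_self (u : ι) : Ee A k g u u = 0 := by
  unfold Ee
  apply Finset.sum_eq_zero
  intro W _
  rw [sw_eq_self (ind_self u W)]; ring

lemma Ee_nonneg (u v : ι) : 0 ≤ Ee A k g u v :=
  Finset.sum_nonneg (fun W _ => sq_nonneg _)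

lemma sum_Ss (hg : ∑ W ∈ A.powersetCard k, g W = 0) : ∑ u ∈ A, ∑ v ∈ A, Ss A k g u v = 0 := by
  unfold Ss
  have e : ∀ u ∈ A, ∑ v ∈ A, ∑ W ∈ A.powersetCard k, ind u v W * g W
      = ∑ W ∈ A.powersetCard k, (∑ v ∈ A, ind v u W) * g W := by
    intro u _
    rw [Finset.sum_comm]
    apply Finset.sum_congr rfl
    intro W _
    rw [Finset.sum_mul]
    apply Finset.sum_congr rfl
    intro v _
    rw [ind_comm]
  rw [Finset.sum_congr rfl e, Finset.sum_comm]
  have e2 : ∀ W ∈ A.powersetCard k, ∑ u ∈ A, (∑ v ∈ A, ind v u W) * g W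
      = (2 * (k : ℝ) * ((A.card : ℝ) - k)) * g W := by
    intro W hW
    rw [← Finset.sum_mul]
    congr 1
    rw [Finset.sum_congr rfl (fun u _ => sum_ind hW u), Finset.sum_add_distrib, ← Finset.mul_sum,
      sum_chi hW, Finset.sum_const]
    simp
    ring
  rw [Finset.sum_congr rfl e2, ← Finset.mul_sum, hg]
  ring

/-- main estimate in unnormalised form. -/
theorem main_est (hg : ∑ W ∈ A.powersetCard k, g W = 0) (n0 : ℝ) (hn0 : 0 ≤ n0)
    (hN : ∀ u ∈ A, ∀ v ∈ A, u ≠ v → Nn A k u v = n0) :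
    ∑ u ∈ A, ∑ v ∈ A, (Ss A k g u v) ^ 2 ≤ n0 / 4 * ∑ u ∈ A, ∑ v ∈ A, Ee A k g u v := by
  rcases Finset.eq_empty_or_nonempty A with rfl | hne
  · simp
  have hm : 0 < (A.card : ℝ) := by exact_mod_cast Finset.card_pos.mpr hne
  have h1 := pair_gap A (Ss A k g) (Ss_symm g) (Ss_self g) (sum_Ss g hg)
  have h2 : ∑ w ∈ A, ∑ z ∈ A.erase w, ∑ z' ∈ A.erase w, (Ss A k g w z - Ss A k g w z') ^ 2
      ≤ ∑ w ∈ A, ∑ z ∈ A, ∑ z' ∈ A, n0 / 2 * Rr A k g w z z' := by
    apply Finset.sum_le_sum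
    intro w hw
    have nn : ∀ z z', 0 ≤ n0 / 2 * Rr A k g w z z' := fun z z' =>
      mul_nonneg (by linarith) (Rr_nonneg g w z z')
    calc ∑ z ∈ A.erase w, ∑ z' ∈ A.erase w, (Ss A k g w z - Ss A k g w z') ^ 2
        ≤ ∑ z ∈ A.erase w, ∑ z' ∈ A.erase w, n0 / 2 * Rr A k g w z z' := by
          apply Finset.sum_le_sum
          intro z hz
          apply Finset.sum_le_sum
          intro z' hz'
          rw [Finset.mem_erase] at hz hz'
          by_cases hzz : z = z'
          · subst hzz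
            simpa using nn z z
          · have := Ss_sub_sq_le (k := k) g hw hz.2 hz'.2 hz.1.symm hz'.1.symm hzz
            rwa [hN w hw z hz.2 hz.1.symm] at this
      _ ≤ ∑ z ∈ A.erase w, ∑ z' ∈ A, n0 / 2 * Rr A k g w z z' := by
          apply Finset.sum_le_sum
          intro z _
          exact Finset.sum_le_sum_of_subset_of_nonneg (Finset.erase_subset _ _)
            (fun z' _ _ => nn z z')
      _ ≤ ∑ z ∈ A, ∑ z' ∈ A, n0 / 2 * Rr A k g w z z' :=
          Finset.sum_le_sum_of_subset_of_nonneg (Finset.erase_subset _ _)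
            (fun z _ _ => Finset.sum_nonneg (fun z' _ => nn z z'))
  have h3 : ∑ w ∈ A, ∑ z ∈ A, ∑ z' ∈ A, n0 / 2 * Rr A k g w z z'
      = n0 / 2 * ((A.card : ℝ) / 2 * ∑ z ∈ A, ∑ z' ∈ A, Ee A k g z z') := by
    rw [Finset.sum_comm]
    have : ∀ z ∈ A, ∑ w ∈ A, ∑ z' ∈ A, n0 / 2 * Rr A k g w z z'
        = n0 / 2 * ((A.card : ℝ) / 2 * ∑ z' ∈ A, Ee A k g z z') := by
      intro z hz
      rw [Finset.sum_comm, Finset.mul_sum, Finset.mul_sum]
      apply Finset.sum_congr rfl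
      intro z' hz'
      rw [← Finset.mul_sum, sum_Rr g hz hz']
    rw [Finset.sum_congr rfl this, ← Finset.mul_sum, ← Finset.mul_sum]
  rw [h3] at h2
  have h4 := h1.trans h2
  have h5 : (A.card : ℝ) * ∑ u ∈ A, ∑ v ∈ A, (Ss A k g u v) ^ 2
      ≤ (A.card : ℝ) * (n0 / 4 * ∑ u ∈ A, ∑ v ∈ A, Ee A k g u v) := by
    calc _ ≤ _ := h4
      _ = _ := by ring
  exact le_of_mul_le_mul_left h5 hm

end main

lemma ind_eq_ite (u v : ι) (W : Finset ι) :
    ind u v W = if (u ∈ W ∧ v ∉ W) ∨ (u ∉ W ∧ v ∈ W) then 1 else 0 := by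
  unfold ind chi
  by_cases hu : u ∈ W <;> by_cases hv : v ∈ W <;> simp [hu, hv]

/-- the slice inequality (S'), with all definitions unfolded. -/
theorem sprime_unfolded (A : Finset ι) (k : ℕ) (g : Finset ι → ℝ)
    (hg : ∑ W ∈ A.powersetCard k, g W = 0) :
    ∑ u ∈ A, ∑ v ∈ A.erase u,
        (∑ W ∈ (A.powersetCard k).filter (fun W => (u ∈ W ∧ v ∉ W) ∨ (u ∉ W ∧ v ∈ W)), g W) ^ 2 /
          (((A.powersetCard k).filter
            (fun W => (u ∈ W ∧ v ∉ W) ∨ (u ∉ W ∧ v ∈ W))).card : ℝ) ≤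
      ∑ u ∈ A, ∑ v ∈ A.erase u, ∑ W ∈ A.powersetCard k,
        ((g W - g (W.image (Equiv.swap u v))) / 2) ^ 2 := by
  have hS : ∀ u v, ∑ W ∈ (A.powersetCard k).filter
      (fun W => (u ∈ W ∧ v ∉ W) ∨ (u ∉ W ∧ v ∈ W)), g W = Ss A k g u v := by
    intro u v
    unfold Ss
    rw [Finset.sum_filter]
    apply Finset.sum_congr rfl
    intro W _
    rw [ind_eq_ite]
    split_ifs <;> simp
  have hC : ∀ u v, (((A.powersetCard k).filter
      (fun W => (u ∈ W ∧ v ∉ W) ∨ (u ∉ W ∧ v ∈ W))).card : ℝ) = Nn A k u v := by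
    intro u v
    unfold Nn
    rw [Finset.card_filter]
    push_cast
    apply Finset.sum_congr rfl
    intro W _
    rw [ind_eq_ite]
  have hE : ∀ u v, ∑ W ∈ A.powersetCard k, ((g W - g (W.image (Equiv.swap u v))) / 2) ^ 2
      = Ee A k g u v / 4 := by
    intro u v
    unfold Ee
    rw [Finset.sum_div]
    apply Finset.sum_congr rfl
    intro W _
    unfold sw
    ring
  simp_rw [hS, hC, hE]
  -- the common value of `Nn`
  obtain ⟨n0, hn0, hN⟩ : ∃ n0 : ℝ, 0 ≤ n0 ∧ ∀ u ∈ A, ∀ v ∈ A, u ≠ v → Nn A k u v = n0 := by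
    by_cases hex : ∃ u ∈ A, ∃ v ∈ A, u ≠ v
    · obtain ⟨u0, hu0, v0, hv0, h0⟩ := hex
      exact ⟨Nn A k u0 v0, Nn_nonneg _ _, fun u hu v hv huv => Nn_const hu hv hu0 hv0 huv h0⟩
    · refine ⟨0, le_refl _, fun u hu v hv huv => ?_⟩
      exact absurd ⟨u, hu, v, hv, huv⟩ hex
  have hmain := main_est g hg n0 hn0 hN
  have hL : ∑ u ∈ A, ∑ v ∈ A.erase u, Ss A k g u v ^ 2 / Nn A k u v
      = (∑ u ∈ A, ∑ v ∈ A, Ss A k g u v ^ 2) / n0 := by
    rw [Finset.sum_div]
    apply Finset.sum_congr rfl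
    intro u hu
    rw [Finset.sum_div, ← Finset.sum_erase A (a := u) (by rw [Ss_self]; simp)]
    apply Finset.sum_congr rfl
    intro v hv
    rw [Finset.mem_erase] at hv
    rw [hN u hu v hv.2 hv.1.symm]
  have hR : ∑ u ∈ A, ∑ v ∈ A.erase u, Ee A k g u v / 4
      = (∑ u ∈ A, ∑ v ∈ A, Ee A k g u v) / 4 := by
    rw [Finset.sum_div]
    apply Finset.sum_congr rfl
    intro u hu
    rw [Finset.sum_div, ← Finset.sum_erase A (a := u) (by rw [Ee_self]; simp)]
  rw [hL, hR]
  rcases hn0.eq_or_lt with h0 | hpos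
  · rw [← h0]
    simp only [div_zero]
    exact div_nonneg (Finset.sum_nonneg (fun u _ => Finset.sum_nonneg (fun v _ => Ee_nonneg g u v)))
      (by norm_num)
  · rw [div_le_iff₀ hpos]
    calc _ ≤ _ := hmain
      _ = _ := by ring

end Crest.Agent.S0453SP
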