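import Crest.Agent.S0453_Johnson
import Crest.Agent.S0453_SPrimeB

/-! # S0453, package A4 : the slice inequality (S') in the form of the interface -/

set_option autoImplicit false
open Finset

namespace Crest.Agent.S0453D

/-- the slice inequality (S'). -/
theorem sprime {ι : Type*} [DecidableEq ι] (A : Finset ι) (k : ℕ) (g : Finset ι → ℝ)
    (hg : ∑ W ∈ A.powersetCard k, g W = 0) :
    ∑ u ∈ A, ∑ v ∈ A.erase u, (∑ W ∈ sepS A k u v, g W) ^ 2 / ((sepS A k u v).card : ℝ) ≤
      ∑ u ∈ A, ∑ v ∈ A.erase u, ∑ W ∈ A.powersetCard k, ((g W - g (swapS u v W)) / 2) ^ 2 :=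
  Crest.Agent.S0453SP.sprime_unfolded A k g hg

end Crest.Agent.S0453D
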