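import Crest.Agent.S0453_CE
import Crest.Agent.S0453_CmpD
import Crest.Agent.S0453_SPrime

/-!
# S0453, package B4 : `offP`, `lo_le_Q`  (inequality (Zb) of the notes)
-/

set_option autoImplicit false

namespace Crest.Agent.S0453Cmp

open Finset Crest.SwitchChain
open scoped Classical
open Crest.Agent.S0453D

variable {n : ℕ} {d : Fin n → ℕ} {u v w z : Fin n} {G0 : Gr n}

/-- transport of a sum over `F ∩ P(uv,wz)` to the slice. -/
lemma sum_OmP_fibre (hwz : w ≠ z) (hG0 : G0 ∈ realizations d)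
    (huw : u ≠ w) (huz : u ≠ z) (hvw : v ≠ w) (hvz : v ≠ z) (F : Gr n → ℝ) :
    ∑ G ∈ (OmP d u v w z).filter (fun G => keyP w z G = keyP w z G0), F G
      = if u ∈ WW w z G0 ∧ v ∈ WW w z G0 then
          ∑ W ∈ sepS (WW w z G0) (NA w z G0).card u v, F (reas w z G0 W) else 0 := by
  have h1 : (OmP d u v w z).filter (fun G => keyP w z G = keyP w z G0)
      = (fib d w z G0).filter (isP u v w z) := by
    ext G
    simp only [OmP, fib, mem_filter]
    tauto
  rw [h1, sum_filter, sum_fib_eq hwz hG0]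
  have key : ∀ W ∈ slice w z G0, (isP u v w z (reas w z G0 W) ↔
      u ∈ WW w z G0 ∧ v ∈ WW w z G0 ∧ ((u ∈ W ∧ v ∉ W) ∨ (u ∉ W ∧ v ∈ W))) := by
    intro W hW
    have := isP_iff_sep hwz hG0 (reas_mem_fib hwz hG0 hW) huw huz hvw hvz
    rwa [NA_reas hwz (mem_powersetCard.1 hW).1] at this
  by_cases hc : u ∈ WW w z G0 ∧ v ∈ WW w z G0
  · rw [if_pos hc]
    unfold sepS
    rw [sum_filter]
    apply sum_congr rfl
    intro W hW
    by_cases hs : (u ∈ W ∧ v ∉ W) ∨ (u ∉ W ∧ v ∈ W)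
    · rw [if_pos ((key W hW).2 ⟨hc.1, hc.2, hs⟩), if_pos hs]
    · rw [if_neg (fun h => hs ((key W hW).1 h).2.2), if_neg hs]
  · rw [if_neg hc]
    apply sum_eq_zero
    intro W hW
    rw [if_neg]
    intro h
    exact hc ⟨((key W hW).1 h).1, ((key W hW).1 h).2.1⟩

lemma card_OmP_fibre (hwz : w ≠ z) (hG0 : G0 ∈ realizations d)
    (huw : u ≠ w) (huz : u ≠ z) (hvw : v ≠ w) (hvz : v ≠ z) :
    (((OmP d u v w z).filter (fun G => keyP w z G = keyP w z G0)).card : ℝ)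
      = if u ∈ WW w z G0 ∧ v ∈ WW w z G0 then
          ((sepS (WW w z G0) (NA w z G0).card u v).card : ℝ) else 0 := by
  have := sum_OmP_fibre (d := d) hwz hG0 huw huz hvw hvz (fun _ => 1)
  simpa using this

/-- re-indexing of the sum over pairs. -/
lemma sum_offP (A : Finset (Fin n)) (hw : w ∉ A) (hz : z ∉ A) (φ : Fin n → Fin n → ℝ) :
    ∑ p ∈ (univ.filter fun p : Fin n × Fin n =>
        p.1 ≠ p.2 ∧ p.1 ≠ w ∧ p.1 ≠ z ∧ p.2 ≠ w ∧ p.2 ≠ z),
      (if p.1 ∈ A ∧ p.2 ∈ A then φ p.1 p.2 else 0) = ∑ a ∈ A, ∑ b ∈ A.erase a, φ a b := by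
  rw [sum_filter, Fintype.sum_prod_type]
  have h1 : ∀ a ∈ A, ∑ b ∈ A.erase a, φ a b
      = ∑ b, if (b ∈ A ∧ b ≠ a) then φ a b else 0 := by
    intro a _
    rw [← sum_filter]
    apply sum_congr _ fun _ _ => rfl
    ext b
    simp only [mem_erase, mem_filter, mem_univ, true_and]
    tauto
  rw [sum_congr rfl h1]
  have h2 : ∑ a ∈ A, ∑ b, (if (b ∈ A ∧ b ≠ a) then φ a b else 0)
      = ∑ a, if a ∈ A then ∑ b, (if (b ∈ A ∧ b ≠ a) then φ a b else 0) else 0 := by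
    rw [← sum_filter]
    apply sum_congr _ fun _ _ => rfl
    ext a
    simp
  rw [h2]
  apply sum_congr rfl
  intro a _
  by_cases ha : a ∈ A
  · rw [if_pos ha]
    apply sum_congr rfl
    intro b _
    have haw : a ≠ w := fun h => hw (h ▸ ha)
    have haz : a ≠ z := fun h => hz (h ▸ ha)
    by_cases hb : b ∈ A
    · have hbw : b ≠ w := fun h => hw (h ▸ hb)
      have hbz : b ≠ z := fun h => hz (h ▸ hb)
      by_cases hab : a = b
      · subst hab; simp
      · simp [ha, hb, hab, haw, haz, hbw, hbz, Ne.symm hab]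
    · simp [hb]
  · rw [if_neg ha]
    apply sum_eq_zero
    intro b _
    simp [ha]

lemma swapS_mem_slice (hu : u ∈ WW w z G0) (hv : v ∈ WW w z G0) {W : Finset (Fin n)}
    (hW : W ∈ slice w z G0) : swapS u v W ∈ slice w z G0 := by
  rw [slice, mem_powersetCard] at hW ⊢
  refine ⟨swapS_subset hu hv hW.1, ?_⟩
  rw [← hW.2]
  unfold swapS
  exact card_image_of_injective _ (Equiv.swap u v).injective

/-- the inequality on one fibre of `keyP w z`. -/
lemma fibre_ineq (hwz : w ≠ z) (hG0 : G0 ∈ realizations d) (f : Gr n → ℝ) :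
    ∑ p ∈ (univ.filter fun p : Fin n × Fin n =>
        p.1 ≠ p.2 ∧ p.1 ≠ w ∧ p.1 ≠ z ∧ p.2 ≠ w ∧ p.2 ≠ z),
      (∑ G ∈ (OmP d p.1 p.2 w z).filter (fun G => keyP w z G = keyP w z G0), Dp d w z f G) ^ 2 /
        (((OmP d p.1 p.2 w z).filter (fun G => keyP w z G = keyP w z G0)).card : ℝ)
    ≤ ∑ p ∈ (univ.filter fun p : Fin n × Fin n =>
        p.1 ≠ p.2 ∧ p.1 ≠ w ∧ p.1 ≠ z ∧ p.2 ≠ w ∧ p.2 ≠ z),
      ∑ G ∈ (OmP d p.1 p.2 w z).filter (fun G => keyP w z G = keyP w z G0),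
        ((f G - f (flipB p.1 p.2 w z G)) / 2) ^ 2 := by
  set A := WW w z G0 with hA
  set k := (NA w z G0).card with hk
  have hwA : w ∉ A := fun h => (mem_WW.1 h).1 rfl
  have hzA : z ∉ A := fun h => (mem_WW.1 h).2.1 rfl
  set h : Finset (Fin n) → ℝ := fun W => Dp d w z f (reas w z G0 W) with hh
  have hL : ∀ p ∈ (univ.filter fun p : Fin n × Fin n =>
        p.1 ≠ p.2 ∧ p.1 ≠ w ∧ p.1 ≠ z ∧ p.2 ≠ w ∧ p.2 ≠ z),
      (∑ G ∈ (OmP d p.1 p.2 w z).filter (fun G => keyP w z G = keyP w z G0), Dp d w z f G) ^ 2 /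
        (((OmP d p.1 p.2 w z).filter (fun G => keyP w z G = keyP w z G0)).card : ℝ)
      = if p.1 ∈ A ∧ p.2 ∈ A then
          (fun a b => (∑ W ∈ sepS A k a b, h W) ^ 2 / ((sepS A k a b).card : ℝ)) p.1 p.2 else 0 := by
    intro p hp
    obtain ⟨-, h1, h2, h3, h4, h5⟩ := mem_filter.1 hp
    rw [sum_OmP_fibre hwz hG0 h2 h3 h4 h5, card_OmP_fibre hwz hG0 h2 h3 h4 h5]
    by_cases hc : p.1 ∈ A ∧ p.2 ∈ A
    · rw [if_pos hc, if_pos hc, if_pos hc]
    · rw [if_neg hc, if_neg hc, if_neg hc]; simp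
  have hR : ∀ p ∈ (univ.filter fun p : Fin n × Fin n =>
        p.1 ≠ p.2 ∧ p.1 ≠ w ∧ p.1 ≠ z ∧ p.2 ≠ w ∧ p.2 ≠ z),
      ∑ G ∈ (OmP d p.1 p.2 w z).filter (fun G => keyP w z G = keyP w z G0),
        ((f G - f (flipB p.1 p.2 w z G)) / 2) ^ 2
      = if p.1 ∈ A ∧ p.2 ∈ A then
          (fun a b => ∑ W ∈ sepS A k a b,
            ((f (reas w z G0 W) - f (flipB a b w z (reas w z G0 W))) / 2) ^ 2) p.1 p.2 else 0 := by
    intro p hp
    obtain ⟨-, h1, h2, h3, h4, h5⟩ := mem_filter.1 hp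
    rw [sum_OmP_fibre hwz hG0 h2 h3 h4 h5]
  rw [sum_congr rfl hL, sum_congr rfl hR,
    sum_offP A hwA hzA (fun a b => (∑ W ∈ sepS A k a b, h W) ^ 2 / ((sepS A k a b).card : ℝ)),
    sum_offP A hwA hzA (fun a b => ∑ W ∈ sepS A k a b,
            ((f (reas w z G0 W) - f (flipB a b w z (reas w z G0 W))) / 2) ^ 2)]
  have hg : ∑ W ∈ A.powersetCard k, h W = 0 := by
    have e := sum_fib_eq (d := d) hwz hG0 (Dp d w z f)
    have e' : ∑ W ∈ A.powersetCard k, h W = ∑ G ∈ fib d w z G0, Dp d w z f G := e.symm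
    rw [e']
    unfold Dp cD fib
    rw [sum_sub_distrib, sum_fibre_cE, sub_self]
  refine (sprime A k h hg).trans (le_of_eq ?_)
  apply sum_congr rfl
  intro a ha
  apply sum_congr rfl
  intro b hb
  have hab : a ≠ b := (ne_of_mem_erase hb).symm
  have hbA : b ∈ A := mem_of_mem_erase hb
  unfold sepS
  rw [sum_filter]
  apply sum_congr rfl
  intro W hW
  by_cases hs : (a ∈ W ∧ b ∉ W) ∨ (a ∉ W ∧ b ∈ W)
  · rw [if_pos hs, flipB_reas hwz hab ha hbA (mem_powersetCard.1 hW).1 hs]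
    have k1 : keyP w z (reas w z G0 W) = keyP w z G0 :=
      (mem_filter.1 (reas_mem_fib (d := d) hwz hG0 hW)).2
    have k2 : keyP w z (reas w z G0 (swapS a b W)) = keyP w z G0 :=
      (mem_filter.1 (reas_mem_fib (d := d) hwz hG0 (swapS_mem_slice ha hbA hW))).2
    have : h W - h (swapS a b W)
        = f (reas w z G0 W) - f (reas w z G0 (swapS a b W)) := by
      simp only [hh, Dp, cD]
      rw [cE_eq_of_key_eq (realizations d) (keyP w z) f (k1.trans k2.symm)]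
      ring
    rw [this]
  · rw [if_neg hs]
    have : swapS a b W = W := by
      by_cases h1 : a ∈ W
      · by_cases h2 : b ∈ W
        · exact swapS_of_mem_mem h1 h2
        · exact absurd (Or.inl ⟨h1, h2⟩) hs
      · by_cases h2 : b ∈ W
        · exact absurd (Or.inr ⟨h1, h2⟩) hs
        · exact swapS_of_notMem_notMem h1 h2
    rw [this]; simp

end Crest.Agent.S0453Cmp

namespace Crest.Agent.S0453D

open Finset Crest.SwitchChain

variable {n : ℕ}

/-- ordered pairs `(u,v)`, `u ≠ v`, disjoint from `{w,z}`. -/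
def offP (w z : Fin n) : Finset (Fin n × Fin n) :=
  univ.filter fun p => p.1 ≠ p.2 ∧ p.1 ≠ w ∧ p.1 ≠ z ∧ p.2 ≠ w ∧ p.2 ≠ z

theorem lo_le_Q (d : Fin n → ℕ) (w z : Fin n) (hwz : w ≠ z) (f : Gr n → ℝ) :
    ∑ p ∈ offP w z, Lo d p.1 p.2 w z f ≤ ∑ p ∈ offP w z, Qf d p.1 p.2 w z f := by
  classical
  have hsub : ∀ u v : Fin n, (OmP d u v w z).image (keyP w z) ⊆ (realizations d).image (keyP w z) := by
    intro u v
    apply image_subset_image
    unfold OmP
    exact filter_subset _ _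
  have hempty : ∀ u v : Fin n, ∀ κ ∈ (realizations d).image (keyP w z),
      κ ∉ (OmP d u v w z).image (keyP w z) →
      (OmP d u v w z).filter (fun G => keyP w z G = κ) = ∅ := by
    intro u v κ _ hκ
    rw [filter_eq_empty_iff]
    intro G hG hGκ
    exact hκ (mem_image.2 ⟨G, hG, hGκ⟩)
  have hLo : ∀ u v : Fin n, Lo d u v w z f = ∑ κ ∈ (realizations d).image (keyP w z),
      (∑ G ∈ (OmP d u v w z).filter (fun G => keyP w z G = κ), Dp d w z f G) ^ 2 /
        (((OmP d u v w z).filter (fun G => keyP w z G = κ)).card : ℝ) := by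
    intro u v
    unfold Lo
    rw [sum_cE_sq_eq_fibres]
    apply sum_subset (hsub u v)
    intro κ h1 h2
    rw [hempty u v κ h1 h2]; simp
  have hQ : ∀ u v : Fin n, Qf d u v w z f = ∑ κ ∈ (realizations d).image (keyP w z),
      ∑ G ∈ (OmP d u v w z).filter (fun G => keyP w z G = κ),
        ((f G - f (flipB u v w z G)) / 2) ^ 2 := by
    intro u v
    unfold Qf
    rw [sum_eq_sum_fibres (OmP d u v w z) (keyP w z)]
    apply sum_subset (hsub u v)
    intro κ h1 h2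
    rw [hempty u v κ h1 h2]; simp
  simp only [hLo, hQ]
  rw [sum_comm, sum_comm (s := offP w z)]
  apply sum_le_sum
  intro κ hκ
  obtain ⟨G0, hG0, rfl⟩ := mem_image.1 hκ
  have := S0453Cmp.fibre_ineq hwz hG0 f
  unfold offP
  convert this using 1

end Crest.Agent.S0453D
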