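import Crest.Agent.S0453_Defs

/-! # S0453 : definitions of the 3-label model (packages A6, A7) -/

set_option autoImplicit false
open Finset

namespace Crest.Agent.S0453D

section L3
variable {C : Type*} [Fintype C] [DecidableEq C]

/-- number of columns of `S` with label `i`. -/
def cnt (S : Finset C) (c : C → Fin 3) (i : Fin 3) : ℕ := (S.filter fun j => c j = i).card

/-- the 3-label model: labellings `c` of the columns, label `0` outside `P ∪ Q`, with
`#{j ∈ P | c j = i} - #{j ∈ Q | c j = i} = s i`. -/
def L3Set (P Q : Finset C) (s : Fin 3 → ℤ) : Finset (C → Fin 3) :=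
  univ.filter fun c => (∀ j, j ∉ P ∪ Q → c j = 0) ∧ ∀ i, (cnt P c i : ℤ) - (cnt Q c i : ℤ) = s i

/-- the information "row `i`" : the set of columns with label `i`. -/
def rowKey (i : Fin 3) (c : C → Fin 3) : Finset C := univ.filter fun j => c j = i

end L3

end Crest.Agent.S0453D
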