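import Crest.Agent.S0453_L3mono

/-! # S0453, package A7b (part) : `L3_int` (the range of `b_i` is an interval) -/

set_option autoImplicit false
set_option linter.unusedSectionVars false
open Finset

namespace Crest.Agent.S0453D

section L3int
variable {C : Type*} [Fintype C] [DecidableEq C]

namespace L3int
open L3mono

lemma exists_of_cnt_pos (S : Finset C) (c : C → Fin 3) (l : Fin 3) (h : 0 < cnt S c l) :
    ∃ p ∈ S, c p = l := by
  unfold cnt at h
  obtain ⟨p, hp⟩ := Finset.card_pos.1 h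
  rw [mem_filter] at hp
  exact ⟨p, hp.1, hp.2⟩

lemma step_aux (P Q : Finset C) (hPQ : Disjoint P Q) (s : Fin 3 → ℤ) {i l : Fin 3} (hil : i ≠ l)
    {c c' : C → Fin 3} (hc : c ∈ L3Set P Q s) (hc' : c' ∈ L3Set P Q s)
    (hl : cnt Q c' l < cnt Q c l) : ∃ c₁ ∈ L3Set P Q s, cnt Q c₁ i = cnt Q c i + 1 := by
  have h1 : (cnt P c l : ℤ) - (cnt Q c l : ℤ) = s l := by
    simp only [L3Set, mem_filter, mem_univ, true_and] at hc
    exact hc.2 l
  have h2 : (cnt P c' l : ℤ) - (cnt Q c' l : ℤ) = s l := by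
    simp only [L3Set, mem_filter, mem_univ, true_and] at hc'
    exact hc'.2 l
  have hQ : 0 < cnt Q c l := by omega
  have hP : 0 < cnt P c l := by omega
  obtain ⟨p, hp, hcp⟩ := exists_of_cnt_pos P c l hP
  obtain ⟨q, hq, hcq⟩ := exists_of_cnt_pos Q c l hQ
  refine ⟨relab c p q i, relab_mem P Q hPQ s hc hp hq hil hcp hcq, ?_⟩
  rw [cntQ_relab P Q hPQ c hp, cnt_update_new Q c hq (by rw [hcq]; exact hil.symm)]

lemma step (P Q : Finset C) (hPQ : Disjoint P Q) (s : Fin 3 → ℤ) (i : Fin 3)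
    {c c' : C → Fin 3} (hc : c ∈ L3Set P Q s) (hc' : c' ∈ L3Set P Q s)
    (hlt : cnt Q c i < cnt Q c' i) : ∃ c₁ ∈ L3Set P Q s, cnt Q c₁ i = cnt Q c i + 1 := by
  obtain ⟨j, l, hij, hil, hjl⟩ : ∃ j l : Fin 3, i ≠ j ∧ i ≠ l ∧ j ≠ l :=
    (by decide : ∀ i : Fin 3, ∃ j l : Fin 3, i ≠ j ∧ i ≠ l ∧ j ≠ l) i
  have e1 := cnt_add Q c hij hil hjl
  have e2 := cnt_add Q c' hij hil hjl
  have : cnt Q c' j < cnt Q c j ∨ cnt Q c' l < cnt Q c l := by omega
  rcases this with h | h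
  · exact step_aux P Q hPQ s hij hc hc' h
  · exact step_aux P Q hPQ s hil hc hc' h

end L3int

/-- A7b : (Int) the range of `b_i` is an interval. -/
theorem L3_int (P Q : Finset C) (hPQ : Disjoint P Q) (s : Fin 3 → ℤ) (i : Fin 3) :
    ∀ c ∈ L3Set P Q s, ∀ c' ∈ L3Set P Q s, ∀ t, cnt Q c i ≤ t → t ≤ cnt Q c' i →
      ∃ c'' ∈ L3Set P Q s, cnt Q c'' i = t := by
  intro c hc c' hc' t ht
  induction t, ht using Nat.le_induction with
  | base => intro _; exact ⟨c, hc, rfl⟩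
  | succ t _ ih =>
    intro h
    obtain ⟨c₂, hc₂, e⟩ := ih (by omega)
    obtain ⟨c₁, hc₁, e₁⟩ := L3int.step P Q hPQ s i hc₂ hc' (by omega)
    exact ⟨c₁, hc₁, by omega⟩

end L3int

end Crest.Agent.S0453D
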