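import Crest.Agent.S0453_L3Defs

/-! # S0453, package A7b (part) : stochastic monotonicity `L3_mono` in the 3-label model

(DC) double counting + Chebyshev's sum inequality, see `notes/ROW299_proof.md`, section 5.1. -/

set_option autoImplicit false
set_option linter.unusedSectionVars false
set_option linter.unusedSimpArgs false
open Finset

namespace Crest.Agent.S0453D

section L3mono
variable {C : Type*} [Fintype C] [DecidableEq C]

namespace L3mono

/-! ### `cnt` and `Function.update` -/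

lemma cnt_update_of_notMem (S : Finset C) (c : C → Fin 3) {p : C} (hp : p ∉ S) (a t : Fin 3) :
    cnt S (Function.update c p a) t = cnt S c t := by
  unfold cnt
  congr 1
  apply Finset.filter_congr
  intro j hj
  have : j ≠ p := fun h => hp (h ▸ hj)
  simp [Function.update_of_ne this]

lemma cnt_update_new (S : Finset C) (c : C → Fin 3) {p : C} (hp : p ∈ S) {a : Fin 3}
    (hne : c p ≠ a) : cnt S (Function.update c p a) a = cnt S c a + 1 := by
  unfold cnt
  have h1 : S.filter (fun j => Function.update c p a j = a) = insert p (S.filter fun j => c j = a) := by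
    ext j
    by_cases hj : j = p
    · subst hj; simp [hp]
    · simp [Function.update_of_ne hj, hj]
  rw [h1, Finset.card_insert_of_notMem]
  simp [hne]

lemma cnt_update_old (S : Finset C) (c : C → Fin 3) {p : C} (hp : p ∈ S) {a : Fin 3}
    (hne : c p ≠ a) : cnt S (Function.update c p a) (c p) + 1 = cnt S c (c p) := by
  unfold cnt
  have h1 : S.filter (fun j => Function.update c p a j = c p) = (S.filter fun j => c j = c p).erase p := by
    ext j
    by_cases hj : j = p
    · subst hj; simp [Ne.symm hne]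
    · simp [Function.update_of_ne hj, hj]
  rw [h1, Finset.card_erase_of_mem (by simp [hp])]
  have : 0 < (S.filter fun j => c j = c p).card := Finset.card_pos.2 ⟨p, by simp [hp]⟩
  omega

lemma cnt_update_other (S : Finset C) (c : C → Fin 3) (p : C) {a t : Fin 3}
    (h1 : t ≠ a) (h2 : t ≠ c p) : cnt S (Function.update c p a) t = cnt S c t := by
  unfold cnt
  congr 1
  apply Finset.filter_congr
  intro j _
  by_cases hj : j = p
  · subst hj; simp [Ne.symm h1, Ne.symm h2]
  · simp [Function.update_of_ne hj]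

lemma sum_fin3 {M : Type*} [AddCommMonoid M] (g : Fin 3 → M) {i j l : Fin 3} (hij : i ≠ j)
    (hil : i ≠ l) (hjl : j ≠ l) : ∑ t, g t = g i + g j + g l := by
  have hu : (univ : Finset (Fin 3)) = {i, j, l} := by
    revert i j l; decide
  rw [hu, Finset.sum_insert (by simp [hij, hil]), Finset.sum_insert (by simp [hjl]),
    Finset.sum_singleton, add_assoc]

lemma cnt_add (S : Finset C) (c : C → Fin 3) {i j l : Fin 3} (hij : i ≠ j)
    (hil : i ≠ l) (hjl : j ≠ l) : cnt S c i + cnt S c j + cnt S c l = S.card := by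
  rw [← sum_fin3 (fun t => cnt S c t) hij hil hjl]
  unfold cnt
  exact (Finset.card_eq_sum_card_fiberwise (f := c) (t := univ) (fun _ _ => by simp)).symm

/-- relabel the columns `p` and `q` by `a`. -/
def relab (c : C → Fin 3) (p q : C) (a : Fin 3) : C → Fin 3 :=
  Function.update (Function.update c p a) q a


lemma relab_p (c : C → Fin 3) {p q : C} (a : Fin 3) : relab c p q a p = a := by
  unfold relab
  by_cases h : p = q
  · subst h; simp
  · rw [Function.update_of_ne h]; simp

lemma relab_q (c : C → Fin 3) {p q : C} (a : Fin 3) : relab c p q a q = a := by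
  unfold relab; simp

lemma relab_relab (c : C → Fin 3) {p q : C} (a : Fin 3) {l : Fin 3} (hp : c p = l) (hq : c q = l) :
    relab (relab c p q a) p q l = c := by
  funext x
  unfold relab
  by_cases hxq : x = q
  · subst hxq; simp [hq]
  · by_cases hxp : x = p
    · subst hxp; simp [Function.update_of_ne hxq, hp]
    · simp [Function.update_of_ne hxq, Function.update_of_ne hxp]

lemma cntP_relab (P Q : Finset C) (hPQ : Disjoint P Q) (c : C → Fin 3) {p q : C} (hq : q ∈ Q)
    (a t : Fin 3) : cnt P (relab c p q a) t = cnt P (Function.update c p a) t := by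
  unfold relab
  exact cnt_update_of_notMem P _ (fun h => (Finset.disjoint_left.1 hPQ h) hq) a t

lemma cntQ_relab (P Q : Finset C) (hPQ : Disjoint P Q) (c : C → Fin 3) {p q : C} (hp : p ∈ P)
    (a t : Fin 3) : cnt Q (relab c p q a) t = cnt Q (Function.update c q a) t := by
  have hpQ : p ∉ Q := Finset.disjoint_left.1 hPQ hp
  unfold relab
  by_cases h : p = q
  · subst h; simp
  · rw [Function.update_comm h]
    exact cnt_update_of_notMem Q _ hpQ a t

lemma relab_mem (P Q : Finset C) (hPQ : Disjoint P Q) (s : Fin 3 → ℤ) {c : C → Fin 3}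
    (hc : c ∈ L3Set P Q s) {p q : C} (hp : p ∈ P) (hq : q ∈ Q) {a l : Fin 3} (hal : a ≠ l)
    (hcp : c p = l) (hcq : c q = l) : relab c p q a ∈ L3Set P Q s := by
  simp only [L3Set, mem_filter, mem_univ, true_and] at hc ⊢
  obtain ⟨h0, h1⟩ := hc
  refine ⟨?_, ?_⟩
  · intro j hj
    have hjp : j ≠ p := fun h => hj (by rw [h]; exact Finset.mem_union_left _ hp)
    have hjq : j ≠ q := fun h => hj (by rw [h]; exact Finset.mem_union_right _ hq)
    unfold relab
    rw [Function.update_of_ne hjq, Function.update_of_ne hjp]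
    exact h0 j hj
  · intro t
    rw [cntP_relab P Q hPQ c hq, cntQ_relab P Q hPQ c hp]
    have hpa : c p ≠ a := by rw [hcp]; exact hal.symm
    have hqa : c q ≠ a := by rw [hcq]; exact hal.symm
    by_cases hta : t = a
    · subst hta
      rw [cnt_update_new P c hp hpa, cnt_update_new Q c hq hqa]
      have := h1 t
      push_cast; linarith
    · by_cases htl : t = l
      · subst htl
        have e1 := cnt_update_old P c hp hpa
        have e2 := cnt_update_old Q c hq hqa
        rw [hcp] at e1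
        rw [hcq] at e2
        have := h1 t
        have e1' : (cnt P (Function.update c p a) t : ℤ) + 1 = cnt P c t := by exact_mod_cast e1
        have e2' : (cnt Q (Function.update c q a) t : ℤ) + 1 = cnt Q c t := by exact_mod_cast e2
        linarith
      · rw [cnt_update_other P c p hta (by rw [hcp]; exact htl),
          cnt_update_other Q c q hta (by rw [hcq]; exact htl)]
        exact h1 t

/-- (DC) double counting. -/
lemma L3_dc (P Q : Finset C) (hPQ : Disjoint P Q) (s : Fin 3 → ℤ) {i j l : Fin 3} (hij : i ≠ j)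
    (hil : i ≠ l) (hjl : j ≠ l) (Ψ : ℕ → ℝ) (x : ℕ) :
    ∑ c ∈ (L3Set P Q s).filter (fun c => cnt Q c i = x),
        Ψ (cnt Q c j) * ((cnt P c l : ℝ) * (cnt Q c l : ℝ)) =
      ∑ c ∈ (L3Set P Q s).filter (fun c => cnt Q c i = x + 1),
        Ψ (cnt Q c j) * ((cnt P c i : ℝ) * (cnt Q c i : ℝ)) := by
  have key : ∀ (y : ℕ) (a : Fin 3),
      ∑ c ∈ (L3Set P Q s).filter (fun c => cnt Q c i = y),
        Ψ (cnt Q c j) * ((cnt P c a : ℝ) * (cnt Q c a : ℝ)) =
      ∑ t ∈ ((L3Set P Q s).filter (fun c => cnt Q c i = y)).sigma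
          (fun c => (P.filter fun z => c z = a) ×ˢ (Q.filter fun z => c z = a)),
        Ψ (cnt Q t.1 j) := by
    intro y a
    rw [Finset.sum_sigma]
    apply Finset.sum_congr rfl
    intro c _
    simp only
    rw [Finset.sum_const, Finset.card_product, nsmul_eq_mul]
    unfold cnt
    push_cast
    ring
  rw [key, key]
  refine Finset.sum_bij' (fun t _ => ⟨relab t.1 t.2.1 t.2.2 i, t.2⟩)
    (fun t _ => ⟨relab t.1 t.2.1 t.2.2 l, t.2⟩) ?_ ?_ ?_ ?_ ?_
  · rintro ⟨c, p, q⟩ h
    simp only [mem_sigma, mem_filter, mem_product] at h ⊢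
    obtain ⟨⟨hc, hx⟩, ⟨hp, hcp⟩, ⟨hq, hcq⟩⟩ := h
    refine ⟨⟨relab_mem P Q hPQ s hc hp hq hil hcp hcq, ?_⟩, ⟨hp, relab_p c i⟩, ⟨hq, relab_q c i⟩⟩
    rw [cntQ_relab P Q hPQ c hp, cnt_update_new Q c hq (by rw [hcq]; exact hil.symm), hx]
  · rintro ⟨c, p, q⟩ h
    simp only [mem_sigma, mem_filter, mem_product] at h ⊢
    obtain ⟨⟨hc, hx⟩, ⟨hp, hcp⟩, ⟨hq, hcq⟩⟩ := h
    refine ⟨⟨relab_mem P Q hPQ s hc hp hq hil.symm hcp hcq, ?_⟩, ⟨hp, relab_p c l⟩, ⟨hq, relab_q c l⟩⟩
    rw [cntQ_relab P Q hPQ c hp]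
    have := cnt_update_old Q c hq (a := l) (by rw [hcq]; exact hil)
    rw [hcq] at this
    omega
  · rintro ⟨c, p, q⟩ h
    simp only [mem_sigma, mem_filter, mem_product] at h
    obtain ⟨⟨hc, hx⟩, ⟨hp, hcp⟩, ⟨hq, hcq⟩⟩ := h
    simp only [relab_relab c i hcp hcq]
  · rintro ⟨c, p, q⟩ h
    simp only [mem_sigma, mem_filter, mem_product] at h
    obtain ⟨⟨hc, hx⟩, ⟨hp, hcp⟩, ⟨hq, hcq⟩⟩ := h
    simp only [relab_relab c l hcp hcq]
  · rintro ⟨c, p, q⟩ h
    simp only [mem_sigma, mem_filter, mem_product] at h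
    obtain ⟨⟨hc, hx⟩, ⟨hp, hcp⟩, ⟨hq, hcq⟩⟩ := h
    simp only
    rw [cntQ_relab P Q hPQ c hp, cnt_update_other Q c q hij.symm (by rw [hcq]; exact hjl)]

end L3mono

open L3mono in
/-- A7b : (Mono) stochastic monotonicity. -/
theorem L3_mono (P Q : Finset C) (hPQ : Disjoint P Q) (s : Fin 3 → ℤ) (i j : Fin 3) (hij : i ≠ j)
    (ψ : ℕ → ℝ) (hψ : Monotone ψ) :
    ∀ c ∈ L3Set P Q s, ∀ c' ∈ L3Set P Q s, cnt Q c' i = cnt Q c i + 1 →
      cE (L3Set P Q s) (fun x => cnt Q x i) (fun x => ψ (cnt Q x j)) c' ≤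
        cE (L3Set P Q s) (fun x => cnt Q x i) (fun x => ψ (cnt Q x j)) c := by
  intro c hc c' hc' hcc
  obtain ⟨l, hil, hjl⟩ : ∃ l : Fin 3, i ≠ l ∧ j ≠ l :=
    (by decide : ∀ i j : Fin 3, ∃ l : Fin 3, i ≠ l ∧ j ≠ l) i j
  set x := cnt Q c i with hx
  set Φ := L3Set P Q s with hΦ
  set F := Φ.filter (fun y => cnt Q y i = x) with hF
  set F' := Φ.filter (fun y => cnt Q y i = x + 1) with hF'
  have hmem : ∀ y ∈ Φ, ∀ t, (cnt P y t : ℤ) - (cnt Q y t : ℤ) = s t := by
    intro y hy
    simp only [hΦ, L3Set, mem_filter, mem_univ, true_and] at hy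
    exact hy.2
  -- the constant `K = a_i` on `F'`
  set K : ℝ := ((cnt P c i : ℝ) + 1) * ((x : ℝ) + 1) with hK
  have hKpos : 0 < K := by positivity
  have hconst : ∀ y ∈ F', ((cnt P y i : ℝ) * (cnt Q y i : ℝ)) = K := by
    intro y hy
    simp only [hF', mem_filter] at hy
    have h1 := hmem y hy.1 i
    have h2 := hmem c hc i
    have h3 : (cnt P y i : ℤ) = (cnt P c i : ℤ) + 1 := by
      rw [hy.2] at h1
      rw [← hx] at h2
      push_cast at h1
      linarith
    have h3' : (cnt P y i : ℝ) = (cnt P c i : ℝ) + 1 := by exact_mod_cast h3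
    rw [h3', hy.2, hK]
    push_cast
    ring
  have dc : ∀ Ψ : ℕ → ℝ, ∑ y ∈ F, Ψ (cnt Q y j) * ((cnt P y l : ℝ) * (cnt Q y l : ℝ)) =
      K * ∑ y ∈ F', Ψ (cnt Q y j) := by
    intro Ψ
    rw [hF, hF', L3_dc P Q hPQ s hij hil hjl Ψ x, Finset.mul_sum]
    apply Finset.sum_congr rfl
    intro y hy
    rw [hconst y hy, mul_comm]
  have dc1 := dc ψ
  have dc2 := dc (fun _ => 1)
  simp only [one_mul, Finset.sum_const, nsmul_eq_mul, mul_one] at dc2
  -- Chebyshev
  have hanti : AntivaryOn (fun y : C → Fin 3 => ψ (cnt Q y j))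
      (fun y => (cnt P y l : ℝ) * (cnt Q y l : ℝ)) (F : Set (C → Fin 3)) := by
    intro y hy y' hy' hlt
    simp only [hF, Finset.mem_coe, mem_filter] at hy hy'
    apply hψ
    by_contra hcon
    rw [not_le] at hcon
    -- `b_j y < b_j y'` so `b_l y' < b_l y`
    have e1 := cnt_add Q y hij hil hjl
    have e2 := cnt_add Q y' hij hil hjl
    rw [hy.2] at e1
    rw [hy'.2] at e2
    have hb : cnt Q y' l ≤ cnt Q y l := by omega
    have h1 := hmem y hy.1 l
    have h2 := hmem y' hy'.1 l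
    have ha : cnt P y' l ≤ cnt P y l := by
      have : (cnt P y' l : ℤ) ≤ (cnt P y l : ℤ) := by
        have hb' : (cnt Q y' l : ℤ) ≤ (cnt Q y l : ℤ) := by exact_mod_cast hb
        linarith
      exact_mod_cast this
    have : (cnt P y' l : ℝ) * (cnt Q y' l : ℝ) ≤ (cnt P y l : ℝ) * (cnt Q y l : ℝ) := by
      have ha' : (cnt P y' l : ℝ) ≤ (cnt P y l : ℝ) := by exact_mod_cast ha
      have hb' : (cnt Q y' l : ℝ) ≤ (cnt Q y l : ℝ) := by exact_mod_cast hb
      exact mul_le_mul ha' hb' (by positivity) (by positivity)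
    exact absurd hlt (not_lt.2 this)
  have cheb := hanti.card_mul_sum_le_sum_mul_sum
  rw [dc1, dc2] at cheb
  have hFpos : (0 : ℝ) < (F.card : ℝ) := by
    have : 0 < F.card := Finset.card_pos.2 ⟨c, by simp [hF, hc, hx]⟩
    exact_mod_cast this
  have hF'pos : (0 : ℝ) < (F'.card : ℝ) := by
    have : 0 < F'.card := Finset.card_pos.2 ⟨c', by simp [hF', hc', hcc]⟩
    exact_mod_cast this
  have e1 : cE Φ (fun x => cnt Q x i) (fun x => ψ (cnt Q x j)) c' =
      (∑ y ∈ F', ψ (cnt Q y j)) / (F'.card : ℝ) := by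
    unfold cE
    simp only [hcc, hF']
  have e2 : cE Φ (fun x => cnt Q x i) (fun x => ψ (cnt Q x j)) c =
      (∑ y ∈ F, ψ (cnt Q y j)) / (F.card : ℝ) := by
    unfold cE
    simp only [hF, hx]
  rw [e1, e2, div_le_div_iff₀ hF'pos hFpos]
  have : K * ((∑ y ∈ F', ψ (cnt Q y j)) * (F.card : ℝ)) ≤
      K * ((∑ y ∈ F, ψ (cnt Q y j)) * (F'.card : ℝ)) := by
    calc K * ((∑ y ∈ F', ψ (cnt Q y j)) * (F.card : ℝ))
        = (F.card : ℝ) * (K * ∑ y ∈ F', ψ (cnt Q y j)) := by ring
      _ ≤ (∑ y ∈ F, ψ (cnt Q y j)) * (K * (F'.card : ℝ)) := cheb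
      _ = K * ((∑ y ∈ F, ψ (cnt Q y j)) * (F'.card : ℝ)) := by ring
  exact le_of_mul_le_mul_left this hKpos

end L3mono

end Crest.Agent.S0453D
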