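import Crest.Agent.S0453_CE

/-! # S0453, package A7a : the abstract Perron-type lemma `perron3` -/

set_option autoImplicit false
open Finset

namespace Crest.Agent.S0453D

namespace Perron

/-- total variation of `φ` on `[0,t]`. -/
noncomputable def tv (φ : ℕ → ℝ) (t : ℕ) : ℝ := ∑ u ∈ range t, |φ (u + 1) - φ u|

lemma tv_succ (φ : ℕ → ℝ) (t : ℕ) : tv φ (t + 1) = tv φ t + |φ (t + 1) - φ t| :=
  sum_range_succ _ _

lemma tv_mono (φ : ℕ → ℝ) : Monotone (tv φ) :=
  monotone_nat_of_le_succ (fun t => by rw [tv_succ]; linarith [abs_nonneg (φ (t + 1) - φ t)])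

lemma tv_add_mono (φ : ℕ → ℝ) (m : ℝ) : Monotone (fun t => tv φ t - m + φ t) :=
  monotone_nat_of_le_succ (fun t => by
    simp only [tv_succ]; linarith [neg_abs_le (φ (t + 1) - φ t)])

lemma tv_sub_mono (φ : ℕ → ℝ) (m : ℝ) : Monotone (fun t => tv φ t - m - φ t) :=
  monotone_nat_of_le_succ (fun t => by
    simp only [tv_succ]; linarith [le_abs_self (φ (t + 1) - φ t)])

end Perron

open Perron

/-- A7a : abstract Perron-type lemma (three integer statistics with negative monotone dependence). -/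
theorem perron3 {α : Type*} (Φ : Finset α) (X : Fin 3 → α → ℕ)
    (hint : ∀ i, ∀ x ∈ Φ, ∀ y ∈ Φ, ∀ t, X i x ≤ t → t ≤ X i y → ∃ z ∈ Φ, X i z = t)
    (hmono : ∀ i j, i ≠ j → ∀ ψ : ℕ → ℝ, Monotone ψ → ∀ x ∈ Φ, ∀ y ∈ Φ, X i y = X i x + 1 →
      cE Φ (X i) (fun z => ψ (X j z)) y ≤ cE Φ (X i) (fun z => ψ (X j z)) x)
    (g : Fin 3 → α → ℝ) (hg : ∀ i, ∀ x ∈ Φ, ∀ y ∈ Φ, X i x = X i y → g i x = g i y)
    (hg0 : ∀ i, ∑ x ∈ Φ, g i x = 0) (mu : ℝ)
    (heq : ∀ i, ∀ x ∈ Φ, ∑ j ∈ univ.erase i, cE Φ (X i) (g j) x = mu * g i x)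
    (hne : ∃ i, ∃ x ∈ Φ, g i x ≠ 0) : mu ≤ 1 := by
  classical
  obtain ⟨i0, x0, hx0, hgx0⟩ := hne
  have hφ : ∀ i, ∃ φ : ℕ → ℝ, ∀ x ∈ Φ, g i x = φ (X i x) := by
    intro i
    refine ⟨fun t => if h : ∃ z ∈ Φ, X i z = t then g i h.choose else 0, fun x hx => ?_⟩
    have h : ∃ z ∈ Φ, X i z = X i x := ⟨x, hx, rfl⟩
    show g i x = if h : ∃ z ∈ Φ, X i z = X i x then g i h.choose else 0
    rw [dif_pos h]
    exact hg i x hx _ h.choose_spec.1 h.choose_spec.2.symm
  choose φ hφ using hφ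
  set m : Fin 3 → ℝ := fun i => mean Φ (fun x => tv (φ i) (X i x)) with hm
  set G : Fin 3 → α → ℝ := fun i x => tv (φ i) (X i x) - m i with hG
  have hG0 : ∀ i, ∑ x ∈ Φ, G i x = 0 := fun i => sum_sub_mean Φ _
  have hGmeas : ∀ i, ∀ x ∈ Φ, ∀ y ∈ Φ, X i x = X i y → G i x = G i y := by
    intro i x _ y _ h; simp only [hG, h]
  set η : Fin 3 → α → ℝ :=
    fun i x => - ∑ j ∈ univ.erase i, cE Φ (X i) (G j) x - mu * G i x with hη
  -- unit increments
  have hstep : ∀ i, ∀ x ∈ Φ, ∀ y ∈ Φ, X i y = X i x + 1 → η i x ≤ η i y := by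
    intro i x hx y hy hxy
    have h1 : ∀ j ∈ univ.erase i, cE Φ (X i) (G j) y + cE Φ (X i) (g j) y
        ≤ cE Φ (X i) (G j) x + cE Φ (X i) (g j) x := by
      intro j hj
      have hij : i ≠ j := (Finset.ne_of_mem_erase hj).symm
      have := hmono i j hij _ (tv_add_mono (φ j) (m j)) x hx y hy hxy
      have e : ∀ w, cE Φ (X i) (fun z => tv (φ j) (X j z) - m j + φ j (X j z)) w
          = cE Φ (X i) (G j) w + cE Φ (X i) (g j) w := by
        intro w
        rw [← cE_add]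
        exact cE_congr _ _ (fun z hz => by rw [hφ j z hz]) w
      rw [e, e] at this
      exact this
    have h2 : ∀ j ∈ univ.erase i, cE Φ (X i) (G j) y - cE Φ (X i) (g j) y
        ≤ cE Φ (X i) (G j) x - cE Φ (X i) (g j) x := by
      intro j hj
      have hij : i ≠ j := (Finset.ne_of_mem_erase hj).symm
      have := hmono i j hij _ (tv_sub_mono (φ j) (m j)) x hx y hy hxy
      have e : ∀ w, cE Φ (X i) (fun z => tv (φ j) (X j z) - m j - φ j (X j z)) w
          = cE Φ (X i) (G j) w - cE Φ (X i) (g j) w := by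
        intro w
        rw [← cE_sub]
        exact cE_congr _ _ (fun z hz => by rw [hφ j z hz]) w
      rw [e, e] at this
      exact this
    have s1 := Finset.sum_le_sum h1
    have s2 := Finset.sum_le_sum h2
    rw [Finset.sum_add_distrib, Finset.sum_add_distrib, heq i y hy, heq i x hx] at s1
    rw [Finset.sum_sub_distrib, Finset.sum_sub_distrib, heq i y hy, heq i x hx] at s2
    have hGd : G i y - G i x = |g i y - g i x| := by
      simp only [hG]
      rw [hxy, tv_succ, hφ i y hy, hφ i x hx, hxy]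
      ring
    have habs : mu * |g i y - g i x| ≤ |mu * (g i y - g i x)| := by
      rw [abs_mul]
      exact mul_le_mul_of_nonneg_right (le_abs_self mu) (abs_nonneg _)
    have hcase : |mu * (g i y - g i x)| ≤
        ∑ j ∈ univ.erase i, cE Φ (X i) (G j) x - ∑ j ∈ univ.erase i, cE Φ (X i) (G j) y := by
      rw [abs_le]
      constructor <;> linarith
    simp only [hη]
    have : mu * G i y - mu * G i x = mu * |g i y - g i x| := by rw [← hGd]; ring
    linarith
  have hηeq : ∀ i, ∀ x ∈ Φ, ∀ y ∈ Φ, X i x = X i y → η i x = η i y := by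
    intro i x hx y hy hxy
    simp only [hη]
    rw [hGmeas i x hx y hy hxy]
    congr 2
    exact Finset.sum_congr rfl (fun j _ => cE_eq_of_key_eq _ _ _ hxy)
  have hηmono : ∀ i, ∀ x ∈ Φ, ∀ y ∈ Φ, X i x ≤ X i y → η i x ≤ η i y := by
    intro i
    have key : ∀ d : ℕ, ∀ x ∈ Φ, ∀ y ∈ Φ, X i y = X i x + d → η i x ≤ η i y := by
      intro d
      induction d with
      | zero =>
        intro x hx y hy hxy
        exact le_of_eq (hηeq i x hx y hy (by simpa using hxy.symm))
      | succ d ih =>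
        intro x hx y hy hxy
        obtain ⟨z, hz, hzt⟩ := hint i x hx y hy (X i x + d) (by omega) (by omega)
        exact le_trans (ih x hx z hz hzt) (hstep i z hz y hy (by omega))
    intro x hx y hy hxy
    exact key (X i y - X i x) x hx y hy (by omega)
  have hcard : (0 : ℝ) < (Φ.card : ℝ) := by
    exact_mod_cast Finset.card_pos.2 ⟨x0, hx0⟩
  have hcheb : ∀ i, 0 ≤ ∑ x ∈ Φ, η i x * G i x := by
    intro i
    have hmv : MonovaryOn (η i) (G i) Φ := by
      intro x hx y hy hlt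
      apply hηmono i x hx y hy
      by_contra hcon
      rw [not_le] at hcon
      have : G i y ≤ G i x := by
        simp only [hG]
        linarith [tv_mono (φ i) hcon.le]
      linarith
    have := hmv.sum_mul_sum_le_card_mul_sum
    rw [hG0 i, mul_zero] at this
    exact (mul_nonneg_iff_of_pos_left hcard).1 this
  have hcross : ∀ i j, ∑ x ∈ Φ, cE Φ (X i) (G j) x * G i x = ∑ x ∈ Φ, G j x * G i x := by
    intro i j
    rw [sum_cE_mul]
    exact Finset.sum_congr rfl (fun x hx => by rw [cE_of_meas Φ (X i) (hGmeas i) hx])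
  have hexp : ∀ i, ∑ x ∈ Φ, η i x * G i x
      = - ∑ j ∈ univ.erase i, ∑ x ∈ Φ, G j x * G i x - mu * ∑ x ∈ Φ, G i x ^ 2 := by
    intro i
    simp only [hη]
    have : ∀ x ∈ Φ, (-∑ j ∈ univ.erase i, cE Φ (X i) (G j) x - mu * G i x) * G i x
        = - ∑ j ∈ univ.erase i, cE Φ (X i) (G j) x * G i x - mu * G i x ^ 2 := by
      intro x _
      rw [← Finset.sum_mul]; ring
    rw [Finset.sum_congr rfl this, Finset.sum_sub_distrib, Finset.sum_neg_distrib,
      Finset.sum_comm, ← Finset.mul_sum]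
    rw [Finset.sum_congr rfl (fun j _ => hcross i j)]
  have hsq : 0 ≤ ∑ i, (∑ x ∈ Φ, G i x ^ 2 + ∑ j ∈ univ.erase i, ∑ x ∈ Φ, G j x * G i x) := by
    have h0 : 0 ≤ ∑ x ∈ Φ, (∑ i, G i x) ^ 2 := Finset.sum_nonneg (fun _ _ => sq_nonneg _)
    have h1 : ∀ x ∈ Φ, (∑ i, G i x) ^ 2
        = ∑ i, (G i x ^ 2 + ∑ j ∈ univ.erase i, G j x * G i x) := by
      intro x _
      rw [sq, Finset.mul_sum]
      refine Finset.sum_congr rfl (fun i _ => ?_)
      rw [← Finset.add_sum_erase univ (fun j => G j x) (mem_univ i), add_mul, Finset.sum_mul]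
      ring
    rw [Finset.sum_congr rfl h1, Finset.sum_comm] at h0
    refine le_of_le_of_eq h0 (Finset.sum_congr rfl (fun i _ => ?_))
    rw [Finset.sum_add_distrib, Finset.sum_comm]
  have hsum : 0 ≤ ∑ i, (- ∑ j ∈ univ.erase i, ∑ x ∈ Φ, G j x * G i x
      - mu * ∑ x ∈ Φ, G i x ^ 2) :=
    Finset.sum_nonneg (fun i _ => by rw [← hexp i]; exact hcheb i)
  rw [Finset.sum_sub_distrib, Finset.sum_neg_distrib, ← Finset.mul_sum] at hsum
  rw [Finset.sum_add_distrib] at hsq
  set S := ∑ i, ∑ x ∈ Φ, G i x ^ 2 with hS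
  have hSle : mu * S ≤ S := by linarith
  have hS0 : 0 ≤ S := Finset.sum_nonneg (fun i _ => Finset.sum_nonneg (fun _ _ => sq_nonneg _))
  rcases hS0.lt_or_eq with hpos | hzero
  · by_contra hmu
    rw [not_le] at hmu
    nlinarith
  · exfalso
    have hz1 : ∑ x ∈ Φ, G i0 x ^ 2 = 0 := by
      have := (Finset.sum_eq_zero_iff_of_nonneg
        (fun i _ => Finset.sum_nonneg (fun x _ => sq_nonneg (G i x)))).1 hzero.symm
      exact this i0 (mem_univ i0)
    have hz2 : ∀ x ∈ Φ, G i0 x = 0 := by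
      intro x hx
      have := (Finset.sum_eq_zero_iff_of_nonneg (fun x _ => sq_nonneg (G i0 x))).1 hz1 x hx
      exact pow_eq_zero_iff (two_ne_zero) |>.1 this
    have hle : ∀ x ∈ Φ, ∀ y ∈ Φ, X i0 x ≤ X i0 y → g i0 x = g i0 y := by
      intro x hx y hy hxy
      have a1 := tv_add_mono (φ i0) (m i0) hxy
      have a2 := tv_sub_mono (φ i0) (m i0) hxy
      have b1 := hz2 x hx
      have b2 := hz2 y hy
      simp only [hG] at b1 b2
      simp only at a1 a2
      rw [hφ i0 x hx, hφ i0 y hy]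
      linarith
    have hconst : ∀ x ∈ Φ, g i0 x = g i0 x0 := by
      intro x hx
      rcases le_total (X i0 x) (X i0 x0) with h | h
      · exact hle x hx x0 hx0 h
      · exact (hle x0 hx0 x hx h).symm
    have := hg0 i0
    rw [Finset.sum_congr rfl hconst, Finset.sum_const, nsmul_eq_mul] at this
    rcases mul_eq_zero.1 this with h | h
    · exact hcard.ne' h
    · exact hgx0 h

end Crest.Agent.S0453D
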