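import Crest.Agent.S0453_CE
import Crest.Agent.S0453_L3Defs
import Crest.Agent.S0453_L3mono
import Crest.Agent.S0453_L3int
import Crest.Agent.S0453_Perron3

/-! # S0453, package A7 : the radial case `radial_le` (reduction to `perron3`) -/

set_option autoImplicit false
open Finset

namespace Crest.Agent.S0453D

section L3
variable {C : Type*} [Fintype C] [DecidableEq C]

/-- A7 : the radial case. -/
theorem radial_le (P Q : Finset C) (hPQ : Disjoint P Q) (s : Fin 3 → ℤ) (h : (C → Fin 3) → ℝ)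
    (lam : ℝ) (hmean : ∑ c ∈ L3Set P Q s, h c = 0) (hne : ∃ c ∈ L3Set P Q s, h c ≠ 0)
    (heig : ∀ c ∈ L3Set P Q s, ∑ i : Fin 3, cE (L3Set P Q s) (rowKey i) h c = lam * h c)
    (hrad : ∀ i, ∀ c ∈ L3Set P Q s, ∀ c' ∈ L3Set P Q s, cnt Q c i = cnt Q c' i →
      cE (L3Set P Q s) (rowKey i) h c = cE (L3Set P Q s) (rowKey i) h c') :
    lam ≤ 2 := by
  set Φ := L3Set P Q s with hΦ
  set X : Fin 3 → (C → Fin 3) → ℕ := fun i c => cnt Q c i with hX
  set g : Fin 3 → (C → Fin 3) → ℝ := fun i => cE Φ (rowKey i) h with hg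
  have hco : ∀ i, ∀ x ∈ Φ, ∀ y ∈ Φ, rowKey i x = rowKey i y → X i x = X i y := by
    intro i x _ y _ hxy
    have hxy' : ∀ j, x j = i ↔ y j = i := by
      intro j
      have := Finset.ext_iff.1 hxy j
      simpa [rowKey] using this
    simp only [hX, cnt]
    congr 1
    exact Finset.filter_congr (fun j _ => hxy' j)
  by_cases hall : ∀ i, ∀ x ∈ Φ, g i x = 0
  · obtain ⟨c, hc, hc0⟩ := hne
    have h1 := heig c hc
    rw [Finset.sum_eq_zero (fun i _ => hall i c hc)] at h1
    rcases mul_eq_zero.1 h1.symm with h2 | h2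
    · rw [h2]; norm_num
    · exact absurd h2 hc0
  · push Not at hall
    obtain ⟨i0, x0, hx0, hgx0⟩ := hall
    have hgm : ∀ i, ∀ x ∈ Φ, ∀ y ∈ Φ, X i x = X i y → g i x = g i y :=
      fun i x hx y hy hxy => hrad i x hx y hy hxy
    have heq : ∀ i, ∀ x ∈ Φ, ∑ j ∈ univ.erase i, cE Φ (X i) (g j) x = (lam - 1) * g i x := by
      intro i x hx
      have e1 : cE Φ (X i) (fun y => ∑ j, g j y) x = lam * cE Φ (X i) h x := by
        rw [← cE_const_mul]
        exact cE_congr _ _ (fun y hy => heig y hy) x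
      have e2 : cE Φ (X i) (g i) x = g i x := cE_of_meas Φ (X i) (hgm i) hx
      have e3 : cE Φ (X i) (g i) x = cE Φ (X i) h x :=
        cE_tower Φ (rowKey i) (X i) (hco i) h hx
      rw [cE_finset_sum, ← Finset.add_sum_erase univ _ (mem_univ i), e2, ← e3, e2] at e1
      linarith
    have := perron3 Φ X (fun i => L3_int P Q hPQ s i)
      (fun i j hij ψ hψ => L3_mono P Q hPQ s i j hij ψ hψ) g hgm
      (fun i => by rw [hg]; simp only; rw [sum_cE]; exact hmean) (lam - 1) heq ⟨i0, x0, hx0, hgx0⟩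
    linarith

end L3

end Crest.Agent.S0453D
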