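import Crest.Agent.S0453_L3a
import Crest.Agent.S0453_L3rad

/-! # S0453, package A6 (second part) : `star3` and `L3_abstract` -/

set_option autoImplicit false
open Finset

namespace Crest.Agent.S0453D

section L3
variable {C : Type*} [Fintype C] [DecidableEq C]

/-- (★)₃ in the model. -/
theorem star3 (P Q : Finset C) (hPQ : Disjoint P Q) (s : Fin 3 → ℤ) (h : (C → Fin 3) → ℝ)
    (hh : ∑ c ∈ L3Set P Q s, h c = 0) :
    ∑ i : Fin 3, ∑ c ∈ L3Set P Q s, (cE (L3Set P Q s) (rowKey i) h c) ^ 2 ≤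
      2 * ∑ c ∈ L3Set P Q s, h c ^ 2 := by
  refine bound_of_eigen (L3Set P Q s) univ (fun i => rowKey i) 2 (by norm_num) ?_ h hh
  intro f lam hf hne heig
  set Φ := L3Set P Q s with hΦ
  by_cases hinv : ∀ j j' : C, ((j ∈ P ∧ j' ∈ P) ∨ (j ∈ Q ∧ j' ∈ Q)) →
      ∀ c ∈ Φ, f (fun x => c (Equiv.swap j j' x)) = f c
  · exact radial_le P Q hPQ s f lam hf hne heig (radial_of_inv P Q hPQ s f hinv)
  · push Not at hinv
    obtain ⟨j, j', hjj, c0, hc0, hne0⟩ := hinv
    refine odd_le P Q hPQ s (fun c => f c - f (tauL j j' c)) lam ⟨c0, hc0, ?_⟩ ?_ j j' hjj ?_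
    · intro h0
      apply hne0
      have : f c0 - f (tauL j j' c0) = 0 := h0
      have h1 : f (tauL j j' c0) = f c0 := by linarith
      exact h1
    · intro c hc
      have e1 : ∀ i : Fin 3, cE Φ (rowKey i) (fun c => f c - f (tauL j j' c)) c
          = cE Φ (rowKey i) f c - cE Φ (rowKey i) f (tauL j j' c) := by
        intro i
        rw [cE_sub, cE_tauL hPQ s hjj i f hc]
      rw [Finset.sum_congr rfl (fun i _ => e1 i), Finset.sum_sub_distrib, heig c hc,
        heig _ (tauL_mem hPQ hjj hc)]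
      ring
    · intro c _
      have : tauL j j' (tauL j j' c) = c := tauL_tauL j j' c
      change f (tauL j j' c) - f (tauL j j' (tauL j j' c)) = - (f c - f (tauL j j' c))
      rw [this]; ring

/-- Lemma L3 : the transported form used by the graph side. -/
theorem L3_abstract {α K : Type*} [DecidableEq K] (Φ : Finset α) (P Q : Finset C)
    (hPQ : Disjoint P Q) (s : Fin 3 → ℤ) (lab : α → C → Fin 3) (key : Fin 3 → α → K)
    (hmem : ∀ x ∈ Φ, lab x ∈ L3Set P Q s)
    (hinj : ∀ x ∈ Φ, ∀ y ∈ Φ, lab x = lab y → x = y)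
    (hsurj : ∀ c ∈ L3Set P Q s, ∃ x ∈ Φ, lab x = c)
    (hkey : ∀ i, ∀ x ∈ Φ, ∀ y ∈ Φ, key i x = key i y ↔ ∀ j, lab x j = i ↔ lab y j = i)
    (f : α → ℝ) :
    ∑ i : Fin 3, ∑ x ∈ Φ, (cD Φ (key i) f x) ^ 2 ≤
      ∑ x ∈ Φ, (∑ i : Fin 3, cD Φ (key i) f x) ^ 2 := by
  classical
  refine sq_of_star Φ univ key ?_ f
  intro h hh
  have himg : Φ.image lab = L3Set P Q s := by
    ext c
    rw [mem_image]
    constructor
    · rintro ⟨x, hx, rfl⟩; exact hmem x hx
    · intro hc; exact hsurj c hc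
  have hinj' : Set.InjOn lab Φ := fun x hx y hy hxy => hinj x hx y hy hxy
  -- the transported function
  let g : (C → Fin 3) → ℝ := fun c => ∑ x ∈ Φ.filter (fun x => lab x = c), h x
  have hg : ∀ x ∈ Φ, g (lab x) = h x := by
    intro x hx
    have : Φ.filter (fun y => lab y = lab x) = {x} := by
      ext y
      simp only [mem_filter, mem_singleton]
      constructor
      · rintro ⟨hy, hxy⟩; exact hinj y hy x hx hxy
      · rintro rfl; exact ⟨hx, rfl⟩
    simp only [g, this, sum_singleton]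
  have hsum : ∀ F : (C → Fin 3) → ℝ, ∑ c ∈ L3Set P Q s, F c = ∑ x ∈ Φ, F (lab x) := by
    intro F
    rw [← himg, Finset.sum_image (fun x hx y hy hxy => hinj x hx y hy hxy)]
  have hcE : ∀ i, ∀ x ∈ Φ, cE Φ (key i) h x = cE (L3Set P Q s) (rowKey i) g (lab x) := by
    intro i x hx
    rw [← himg, ← cE_image Φ (key i) lab hinj' (rowKey i)
      (fun x hx y hy => by rw [rowKey_eq_iff]; exact hkey i x hx y hy) g hx]
    exact cE_congr _ _ (fun y hy => (hg y hy).symm) x
  have hg0 : ∑ c ∈ L3Set P Q s, g c = 0 := by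
    rw [hsum, Finset.sum_congr rfl hg, hh]
  have := star3 P Q hPQ s g hg0
  have e1 : ∀ i : Fin 3, ∑ x ∈ Φ, (cE Φ (key i) h x) ^ 2
      = ∑ c ∈ L3Set P Q s, (cE (L3Set P Q s) (rowKey i) g c) ^ 2 := by
    intro i
    rw [hsum]
    exact Finset.sum_congr rfl (fun x hx => by rw [hcE i x hx])
  have e2 : ∑ x ∈ Φ, h x ^ 2 = ∑ c ∈ L3Set P Q s, g c ^ 2 := by
    rw [hsum]
    exact Finset.sum_congr rfl (fun x hx => by rw [hg x hx])
  rw [Finset.sum_congr rfl (fun i _ => e1 i), e2]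
  have hcard : ((univ : Finset (Fin 3)).card : ℝ) - 1 = 2 := by
    simp; norm_num
  rw [hcard]
  exact this

end L3

end Crest.Agent.S0453D
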