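import Crest.Agent.S0453_TriDefs
import Crest.Agent.S0453_Graph

/-! # S0453, package B6 / T-DEG : degrees in terms of the table -/

set_option autoImplicit false
open Finset
open Crest.SwitchChain

namespace Crest.Agent.S0453D
namespace Tri

variable {n : ℕ}

lemma xi_comm (G : Gr n) (u w : Fin n) : xi G u w = xi G w u := by
  classical
  unfold xi
  by_cases h : adj G u w
  · rw [if_pos h, if_pos (adj_comm.1 h)]
  · rw [if_neg h, if_neg (fun h' => h (adj_comm.1 h'))]

lemma xi_self (G : Gr n) (u : Fin n) : xi G u u = 0 := by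
  unfold xi
  simp [not_adj_self]

lemma deg_eq_sum (G : Gr n) (u : Fin n) : (deg G u : ℤ) = ∑ w, xi G u w := by
  classical
  rw [deg_eq_card_nb]
  unfold nb xi
  rw [Finset.card_filter]
  push_cast
  rfl

lemma sum_split (v : Fin 3 → Fin n) (hv : Function.Injective v) (F : Fin n → ℤ) :
    ∑ w, F w = ∑ w ∈ offS v, F w + ∑ a, F (v a) := by
  classical
  rw [← Finset.sum_filter_add_sum_filter_not univ (off v) F]
  congr 1
  have : (univ.filter fun w => ¬ off v w) = univ.image v := by
    ext w
    simp only [mem_filter, mem_univ, true_and, mem_image, off, not_forall, not_not]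
    constructor
    · rintro ⟨b, hb⟩; exact ⟨b, hb.symm⟩
    · rintro ⟨b, hb⟩; exact ⟨b, hb.symm⟩
  rw [this, Finset.sum_image (fun a _ b _ h => hv h)]

lemma ind_tab_some (v : Fin 3 → Fin n) (G : Gr n) (y : Fin n) (a : Fin 3) :
    ind (tab v G (some y) a) = if off v y then xi G (v a) y else 0 := by
  classical
  unfold ind tab xi
  by_cases h1 : off v y <;> by_cases h2 : adj G (v a) y <;> simp [h1, h2]

lemma ind_tab_none (v : Fin 3 → Fin n) (G : Gr n) (a : Fin 3) :
    ind (tab v G none a) = 1 - xi G (v (a + 1)) (v (a + 2)) := by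
  classical
  unfold ind tab xi
  by_cases h2 : adj G (v (a + 1)) (v (a + 2)) <;> simp [h2]

/-- degree of a vertex outside the triple (ANY graph). -/
lemma deg_off (v : Fin 3 → Fin n) (hv : Function.Injective v) (G : Gr n) (y : Fin n)
    (hy : off v y) :
    (deg G y : ℤ) = ∑ w ∈ offS v, xi G y w + (sm (tab v G (some y)) : ℤ) := by
  rw [deg_eq_sum, sum_split v hv, sm_eq_sum]
  congr 1
  refine Finset.sum_congr rfl fun a _ => ?_
  rw [ind_tab_some, if_pos hy, xi_comm]

lemma rs_tab (v : Fin 3 → Fin n) (G : Gr n) (a : Fin 3) :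
    rs (tab v G) a = (1 - xi G (v (a + 1)) (v (a + 2))) + ∑ y ∈ offS v, xi G (v a) y := by
  unfold rs
  rw [Fintype.sum_option, ind_tab_none]
  congr 1
  unfold offS
  rw [Finset.sum_filter]
  exact Finset.sum_congr rfl fun y _ => ind_tab_some v G y a

/-- degree of a vertex of the triple (ANY graph). -/
lemma deg_tri (v : Fin 3 → Fin n) (hv : Function.Injective v) (G : Gr n) (a : Fin 3) :
    (deg G (v a) : ℤ) = rs (tab v G) a + 2 - (sm (tab v G none) : ℤ) := by
  rw [deg_eq_sum, sum_split v hv, rs_tab, sm_eq_sum]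
  simp only [ind_tab_none, Fin.sum_univ_three]
  have e01 := xi_comm G (v 0) (v 1)
  have e02 := xi_comm G (v 0) (v 2)
  have e12 := xi_comm G (v 1) (v 2)
  have s0 := xi_self G (v 0)
  have s1 := xi_self G (v 1)
  have s2 := xi_self G (v 2)
  fin_cases a <;> simp only [Fin.zero_eta, Fin.mk_one, Fin.reduceFinMk, Fin.reduceAdd, Fin.isValue,
    zero_add] <;> linarith

lemma keyT_adj {v : Fin 3 → Fin n} {G G' : Gr n} (h : keyT v G = keyT v G') {x y : Fin n}
    (hx : off v x) (hy : off v y) : adj G x y ↔ adj G' x y := by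
  by_cases hxy : x = y
  · subst hxy
    exact iff_of_false (not_adj_self _ _) (not_adj_self _ _)
  · unfold keyT at h
    rw [filter_eq_filter_iff] at h
    refine h x y hxy fun a => ?_
    rw [mem_mkE]
    rintro (h1 | h1)
    · exact hx a h1.symm
    · exact hy a h1.symm

lemma keyT_xi {v : Fin 3 → Fin n} {G G' : Gr n} (h : keyT v G = keyT v G') {x y : Fin n}
    (hx : off v x) (hy : off v y) : xi G x y = xi G' x y := by
  classical
  unfold xi
  simp only [keyT_adj h hx hy]

lemma tab_some_not_off (v : Fin 3 → Fin n) (G : Gr n) (y : Fin n) (hy : ¬ off v y) (a : Fin 3) :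
    tab v G (some y) a = false := by
  classical
  unfold tab
  simp [hy]

/-- double counting. -/
lemma sum_rs (τ : Option (Fin n) → Fin 3 → Bool) : ∑ a, rs τ a = ∑ c, (sm (τ c) : ℤ) := by
  unfold rs
  rw [Finset.sum_comm]
  exact Finset.sum_congr rfl fun c _ => (sm_eq_sum _).symm

variable (d : Fin n → ℕ) (v : Fin 3 → Fin n) (hv : Function.Injective v) (G0 : Gr n)
  (hG0 : G0 ∈ realizations d)

lemma deg_of_mem {d : Fin n → ℕ} {G : Gr n} (hG : G ∈ realizations d) (u : Fin n) :
    deg G u = d u := by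
  unfold realizations at hG
  exact (Finset.mem_filter.1 hG).2 u

include hv hG0 in
lemma colsum_some {G : Gr n} (hG : G ∈ Fib d v G0) (y : Fin n) :
    sm (tab v G (some y)) = sm (tab v G0 (some y)) := by
  obtain ⟨hGd, hk⟩ := Finset.mem_filter.1 hG
  by_cases hy : off v y
  · have h1 := deg_off v hv G y hy
    have h2 := deg_off v hv G0 y hy
    rw [deg_of_mem hGd] at h1
    rw [deg_of_mem hG0] at h2
    have h3 : ∑ w ∈ offS v, xi G y w = ∑ w ∈ offS v, xi G0 y w :=
      Finset.sum_congr rfl fun w hw => keyT_xi hk hy (Finset.mem_filter.1 hw).2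
    have : (sm (tab v G (some y)) : ℤ) = sm (tab v G0 (some y)) := by linarith
    exact_mod_cast this
  · have e1 : tab v G (some y) = tab v G0 (some y) := by
      funext a
      rw [tab_some_not_off v G y hy, tab_some_not_off v G0 y hy]
    rw [e1]

include hv hG0 in
lemma colsum_none {G : Gr n} (hG : G ∈ Fib d v G0) :
    sm (tab v G none) = sm (tab v G0 none) := by
  obtain ⟨hGd, hk⟩ := Finset.mem_filter.1 hG
  have h1 : ∀ a, (d (v a) : ℤ) = rs (tab v G) a + 2 - (sm (tab v G none) : ℤ) := fun a => by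
    rw [← deg_tri v hv G a, deg_of_mem hGd]
  have h2 : ∀ a, (d (v a) : ℤ) = rs (tab v G0) a + 2 - (sm (tab v G0 none) : ℤ) := fun a => by
    rw [← deg_tri v hv G0 a, deg_of_mem hG0]
  have s1 := sum_rs (tab v G)
  have s2 := sum_rs (tab v G0)
  rw [Fintype.sum_option] at s1 s2
  have s3 : ∑ y, (sm (tab v G (some y)) : ℤ) = ∑ y, (sm (tab v G0 (some y)) : ℤ) :=
    Finset.sum_congr rfl fun y _ => by rw [colsum_some d v hv G0 hG0 hG y]
  rw [Fin.sum_univ_three] at s1 s2
  have a0 := h1 0
  have a1 := h1 1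
  have a2 := h1 2
  have b0 := h2 0
  have b1 := h2 1
  have b2 := h2 2
  have : (sm (tab v G none) : ℤ) = sm (tab v G0 none) := by linarith
  exact_mod_cast this

include hv hG0 in
/-- (L1) column sums are constant on the fibre. -/
lemma colsum_eq {G : Gr n} (hG : G ∈ Fib d v G0) (c : Option (Fin n)) :
    sm (tab v G c) = sm (tab v G0 c) := by
  cases c with
  | none => exact colsum_none d v hv G0 hG0 hG
  | some y => exact colsum_some d v hv G0 hG0 hG y

include hv hG0 in
/-- (L2) row sums are constant on the fibre. -/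
lemma rowsum_eq {G : Gr n} (hG : G ∈ Fib d v G0) (a : Fin 3) :
    rs (tab v G) a = rs (tab v G0) a := by
  obtain ⟨hGd, hk⟩ := Finset.mem_filter.1 hG
  have h1 := deg_tri v hv G a
  have h2 := deg_tri v hv G0 a
  rw [deg_of_mem hGd] at h1
  rw [deg_of_mem hG0] at h2
  have h3 := colsum_none d v hv G0 hG0 hG
  rw [h3] at h1
  linarith

end Tri
end Crest.Agent.S0453D
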