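import Crest.Agent.S0453_TriDefs
import Crest.Agent.S0453_Graph
import Crest.Agent.S0453_TriDeg

/-! # S0453, package B6 / T-EX : every table with the right margins comes from a graph -/

set_option autoImplicit false
open Finset
open Crest.SwitchChain

namespace Crest.Agent.S0453D
namespace Tri

variable {n : ℕ}

namespace Ex

/-- the adjacency relation of the graph built from the table `τ`. -/
def rel (v : Fin 3 → Fin n) (G0 : Gr n) (τ : Option (Fin n) → Fin 3 → Bool) (u w : Fin n) : Prop :=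
  (off v u ∧ off v w ∧ adj G0 u w) ∨
  (∃ a, u = v a ∧ off v w ∧ τ (some w) a = true) ∨
  (∃ a, w = v a ∧ off v u ∧ τ (some u) a = true) ∨
  (∃ a, ((u = v (a + 1) ∧ w = v (a + 2)) ∨ (u = v (a + 2) ∧ w = v (a + 1))) ∧ τ none a = false)

lemma rel_symm (v : Fin 3 → Fin n) (G0 : Gr n) (τ : Option (Fin n) → Fin 3 → Bool) (u w : Fin n)
    (h : rel v G0 τ u w) : rel v G0 τ w u := by
  rcases h with ⟨h1, h2, h3⟩ | ⟨a, h1, h2, h3⟩ | ⟨a, h1, h2, h3⟩ | ⟨a, h1 | h1, h2⟩
  · exact Or.inl ⟨h2, h1, adj_comm.1 h3⟩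
  · exact Or.inr (Or.inr (Or.inl ⟨a, h1, h2, h3⟩))
  · exact Or.inr (Or.inl ⟨a, h1, h2, h3⟩)
  · exact Or.inr (Or.inr (Or.inr ⟨a, Or.inr ⟨h1.2, h1.1⟩, h2⟩))
  · exact Or.inr (Or.inr (Or.inr ⟨a, Or.inl ⟨h1.2, h1.1⟩, h2⟩))

lemma not_off (v : Fin 3 → Fin n) (a : Fin 3) : ¬ off v (v a) := fun h => h a rfl

lemma rel_off (v : Fin 3 → Fin n) (G0 : Gr n) (τ : Option (Fin n) → Fin 3 → Bool) {x y : Fin n}
    (hx : off v x) (hy : off v y) : rel v G0 τ x y ↔ adj G0 x y := by
  constructor
  · rintro (⟨_, _, h3⟩ | ⟨a, h1, _, _⟩ | ⟨a, h1, _, _⟩ | ⟨a, h1 | h1, _⟩)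
    · exact h3
    · exact absurd h1 (hx a)
    · exact absurd h1 (hy a)
    · exact absurd h1.1 (hx _)
    · exact absurd h1.1 (hx _)
  · intro h
    exact Or.inl ⟨hx, hy, h⟩

lemma rel_row (v : Fin 3 → Fin n) (hv : Function.Injective v) (G0 : Gr n)
    (τ : Option (Fin n) → Fin 3 → Bool) (a : Fin 3) {y : Fin n} (hy : off v y) :
    rel v G0 τ (v a) y ↔ τ (some y) a = true := by
  constructor
  · rintro (⟨h1, _, _⟩ | ⟨b, h1, _, h3⟩ | ⟨b, h1, _, _⟩ | ⟨b, h1 | h1, _⟩)
    · exact absurd h1 (not_off v a)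
    · rw [hv h1]; exact h3
    · exact absurd h1 (hy b)
    · exact absurd h1.2 (hy _)
    · exact absurd h1.2 (hy _)
  · intro h
    exact Or.inr (Or.inl ⟨a, rfl, hy, h⟩)

lemma fin3_aux : ∀ a b : Fin 3, ((a + 1 = b + 1 ∧ a + 2 = b + 2) ∨ (a + 1 = b + 2 ∧ a + 2 = b + 1)) →
    a = b := by decide

lemma fin3_ne : ∀ a : Fin 3, a + 1 ≠ a + 2 := by decide

lemma rel_tri (v : Fin 3 → Fin n) (hv : Function.Injective v) (G0 : Gr n)
    (τ : Option (Fin n) → Fin 3 → Bool) (a : Fin 3) :
    rel v G0 τ (v (a + 1)) (v (a + 2)) ↔ τ none a = false := by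
  constructor
  · rintro (⟨h1, _, _⟩ | ⟨b, _, h2, _⟩ | ⟨b, _, h2, _⟩ | ⟨b, h1, h2⟩)
    · exact absurd h1 (not_off v _)
    · exact absurd h2 (not_off v _)
    · exact absurd h2 (not_off v _)
    · have : a = b := by
        apply fin3_aux
        rcases h1 with h1 | h1
        · exact Or.inl ⟨hv h1.1, hv h1.2⟩
        · exact Or.inr ⟨hv h1.1, hv h1.2⟩
      rw [this]; exact h2
  · intro h
    exact Or.inr (Or.inr (Or.inr ⟨a, Or.inl ⟨rfl, rfl⟩, h⟩))

lemma keyT_eq_of {v : Fin 3 → Fin n} {G G' : Gr n}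
    (h : ∀ x y, off v x → off v y → (adj G x y ↔ adj G' x y)) : keyT v G = keyT v G' := by
  unfold keyT
  rw [filter_eq_filter_iff]
  intro x y hxy hp
  apply h
  · intro b hb
    exact hp b ((mem_mkE hxy).2 (Or.inl hb.symm))
  · intro b hb
    exact hp b ((mem_mkE hxy).2 (Or.inr hb.symm))

end Ex

variable (d : Fin n → ℕ) (v : Fin 3 → Fin n) (hv : Function.Injective v) (G0 : Gr n)
  (hG0 : G0 ∈ realizations d)

include hv hG0 in
/-- (L3) every table with the right margins comes from a graph of the fibre. -/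
lemma exists_of_tab (τ : Option (Fin n) → Fin 3 → Bool)
    (h0 : ∀ y a, ¬ off v y → τ (some y) a = false)
    (hc : ∀ c, sm (τ c) = sm (tab v G0 c)) (hr : ∀ a, rs τ a = rs (tab v G0) a) :
    ∃ G ∈ Fib d v G0, tab v G = τ := by
  classical
  have hadj : ∀ u w, adj (ofRel (Ex.rel v G0 τ)) u w ↔ u ≠ w ∧ Ex.rel v G0 τ u w :=
    fun u w => adj_ofRel (Ex.rel_symm v G0 τ)
  set G : Gr n := ofRel (Ex.rel v G0 τ) with hG
  -- adjacency off the triple
  have hoff : ∀ x y, off v x → off v y → (adj G x y ↔ adj G0 x y) := by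
    intro x y hx hy
    rw [hadj, Ex.rel_off v G0 τ hx hy]
    exact ⟨fun h => h.2, fun h => ⟨h.ne, h⟩⟩
  -- the table
  have htab : tab v G = τ := by
    funext c a
    cases c with
    | some y =>
      by_cases hy : off v y
      · have : (adj G (v a) y ∧ off v y) ↔ τ (some y) a = true := by
          rw [hadj, Ex.rel_row v hv G0 τ a hy]
          exact ⟨fun h => h.1.2, fun h => ⟨⟨(hy a).symm, h⟩, hy⟩⟩
        simp only [tab]
        by_cases ht : τ (some y) a = true
        · rw [ht]; exact decide_eq_true (this.2 ht)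
        · rw [Bool.not_eq_true] at ht
          rw [ht]
          apply decide_eq_false
          intro h
          rw [this.1 h] at ht
          exact absurd ht (by decide)
      · rw [h0 y a hy]
        simp only [tab]
        exact decide_eq_false (fun h => hy h.2)
    | none =>
      have : adj G (v (a + 1)) (v (a + 2)) ↔ τ none a = false := by
        rw [hadj, Ex.rel_tri v hv G0 τ a]
        exact ⟨fun h => h.2, fun h => ⟨fun e => Ex.fin3_ne a (hv e), h⟩⟩
      simp only [tab]
      by_cases ht : τ none a = true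
      · rw [ht]
        apply decide_eq_true
        intro h
        rw [this.1 h] at ht
        exact absurd ht (by decide)
      · rw [Bool.not_eq_true] at ht
        rw [ht]
        apply decide_eq_false
        intro h
        exact h (this.2 ht)
  have hkey : keyT v G = keyT v G0 := Ex.keyT_eq_of hoff
  have hd0 : ∀ u, deg G0 u = d u := by
    simpa [realizations] using hG0
  refine ⟨G, ?_, htab⟩
  simp only [Fib, mem_filter]
  refine ⟨?_, hkey⟩
  simp only [realizations, mem_filter, mem_univ, true_and]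
  intro u
  rw [← hd0 u]
  by_cases hu : off v u
  · have h1 := deg_off v hv G u hu
    have h2 := deg_off v hv G0 u hu
    have h3 : ∑ w ∈ offS v, xi G u w = ∑ w ∈ offS v, xi G0 u w := by
      apply Finset.sum_congr rfl
      intro w hw
      have hw' : off v w := by simpa [offS] using hw
      unfold xi
      simp only [hoff u w hu hw']
    rw [htab, hc (some u), h3] at h1
    have : (deg G u : ℤ) = (deg G0 u : ℤ) := by rw [h1, h2]
    exact_mod_cast this
  · have : ∃ a, u = v a := by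
      simpa [off] using hu
    obtain ⟨a, rfl⟩ := this
    have h1 := deg_tri v hv G a
    have h2 := deg_tri v hv G0 a
    rw [htab, hc none, hr a] at h1
    have : (deg G (v a) : ℤ) = (deg G0 (v a) : ℤ) := by rw [h1, h2]
    exact_mod_cast this

end Tri
end Crest.Agent.S0453D
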