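import Crest.Agent.S0453_TriDefs
import Crest.Agent.S0453_Graph

/-! # S0453, package B6 / T-KEY : `keyT_eq_iff`, `tab_inj`, `keyP_iff` -/

set_option autoImplicit false
open Finset
open Crest.SwitchChain

namespace Crest.Agent.S0453D
namespace Tri

variable {n : ℕ}

lemma off_or (v : Fin 3 → Fin n) (y : Fin n) : off v y ∨ ∃ a, y = v a := by
  by_cases h : off v y
  · exact Or.inl h
  · right
    unfold off at h
    push Not at h
    exact h

lemma not_off (v : Fin 3 → Fin n) (a : Fin 3) : ¬ off v (v a) := fun h => h a rfl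

lemma fin3_opp (a b : Fin 3) (h : a ≠ b) :
    ∃ c : Fin 3, (a = c + 1 ∧ b = c + 2) ∨ (a = c + 2 ∧ b = c + 1) := by
  revert a b; decide

lemma fin3_third (a b : Fin 3) (h1 : b ≠ a + 1) (h2 : b ≠ a + 2) : b = a := by
  revert a b; decide

lemma fin3_ne1 (a : Fin 3) : a ≠ a + 1 := by revert a; decide

lemma fin3_ne2 (a : Fin 3) : a ≠ a + 2 := by revert a; decide

lemma fin3_ne12 (a : Fin 3) : a + 1 ≠ a + 2 := by revert a; decide

lemma tab_some_eq_iff (v : Fin 3 → Fin n) {G G' : Gr n} {y : Fin n} (hy : off v y) (a : Fin 3) :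
    tab v G (some y) a = tab v G' (some y) a ↔ (adj G (v a) y ↔ adj G' (v a) y) := by
  simp only [tab, decide_eq_decide, hy, and_true]

lemma tab_some_of_not_off (v : Fin 3 → Fin n) (G : Gr n) {y : Fin n} (hy : ¬ off v y) (a : Fin 3) :
    tab v G (some y) a = false := by
  simp only [tab, hy, and_false, decide_false]

lemma tab_none_eq_iff (v : Fin 3 → Fin n) {G G' : Gr n} (a : Fin 3) :
    tab v G none a = tab v G' none a ↔
      (adj G (v (a + 1)) (v (a + 2)) ↔ adj G' (v (a + 1)) (v (a + 2))) := by
  simp only [tab, decide_eq_decide, not_iff_not]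

variable (d : Fin n → ℕ) (v : Fin 3 → Fin n) (hv : Function.Injective v) (G0 : Gr n)

lemma keyT_eq_iff {G G' : Gr n} :
    keyT v G = keyT v G' ↔ ∀ x y, off v x → off v y → (adj G x y ↔ adj G' x y) := by
  unfold keyT
  rw [filter_eq_filter_iff]
  constructor
  · intro h x y hx hy
    by_cases hne : x = y
    · subst hne
      simp [not_adj_self]
    · apply h x y hne
      intro a
      rw [mem_mkE]
      rintro (h1 | h1)
      · exact hx a h1.symm
      · exact hy a h1.symm
  · intro h x y hne hp
    apply h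
    · intro b hb
      exact hp b (by rw [mem_mkE]; exact Or.inl hb.symm)
    · intro b hb
      exact hp b (by rw [mem_mkE]; exact Or.inr hb.symm)

lemma keyT_eq_of_mem {G G' : Gr n} (hG : G ∈ Fib d v G0) (hG' : G' ∈ Fib d v G0) :
    keyT v G = keyT v G' := by
  simp only [Fib, mem_filter] at hG hG'
  rw [hG.2, hG'.2]

include hv in
/-- (L4) the table determines the graph in the fibre. -/
lemma tab_inj {G G' : Gr n} (hG : G ∈ Fib d v G0) (hG' : G' ∈ Fib d v G0)
    (h : tab v G = tab v G') : G = G' := by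
  have hk := (keyT_eq_iff v).1 (keyT_eq_of_mem d v G0 hG hG')
  have hs : ∀ (a : Fin 3) (y : Fin n), off v y → (adj G (v a) y ↔ adj G' (v a) y) := by
    intro a y hy
    rw [← tab_some_eq_iff v hy a, h]
  have hn : ∀ a : Fin 3, adj G (v (a + 1)) (v (a + 2)) ↔ adj G' (v (a + 1)) (v (a + 2)) := by
    intro a
    rw [← tab_none_eq_iff v a, h]
  apply ext_adj
  intro x y
  rcases off_or v x with hx | ⟨a, rfl⟩ <;> rcases off_or v y with hy | ⟨b, rfl⟩
  · exact hk x y hx hy
  · rw [adj_comm, @adj_comm _ G']
    exact hs b x hx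
  · exact hs a y hy
  · by_cases hab : a = b
    · subst hab
      simp [not_adj_self]
    · obtain ⟨c, ⟨rfl, rfl⟩ | ⟨rfl, rfl⟩⟩ := fin3_opp a b hab
      · exact hn c
      · rw [adj_comm, @adj_comm _ G']
        exact hn c

include hv in
/-- (L5) the pair key opposite to `v a` reveals exactly row `a`. -/
lemma keyP_iff {G G' : Gr n} (hG : G ∈ Fib d v G0) (hG' : G' ∈ Fib d v G0) (a : Fin 3) :
    keyP (v (a + 1)) (v (a + 2)) G = keyP (v (a + 1)) (v (a + 2)) G' ↔
      ∀ c, tab v G c a = tab v G' c a := by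
  have hk := (keyT_eq_iff v).1 (keyT_eq_of_mem d v G0 hG hG')
  rw [keyP_eq_iff]
  constructor
  · intro h c
    cases c with
    | none =>
      rw [tab_none_eq_iff]
      exact h _ _ (Or.inr rfl)
    | some y =>
      by_cases hy : off v y
      · rw [tab_some_eq_iff v hy]
        exact h _ _ (Or.inl ⟨fun e => fin3_ne1 a (hv e), fun e => fin3_ne2 a (hv e), hy _, hy _⟩)
      · rw [tab_some_of_not_off v G hy, tab_some_of_not_off v G' hy]
  · intro h x y hxy
    have hs : ∀ y : Fin n, off v y → (adj G (v a) y ↔ adj G' (v a) y) := by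
      intro y hy
      rw [← tab_some_eq_iff v hy a]
      exact h (some y)
    rcases hxy with ⟨hx1, hx2, hy1, hy2⟩ | hxy
    · rcases off_or v x with hx | ⟨b, rfl⟩ <;> rcases off_or v y with hy | ⟨c, rfl⟩
      · exact hk x y hx hy
      · have hc : c = a := fin3_third a c (fun e => hy1 (by rw [e])) (fun e => hy2 (by rw [e]))
        subst hc
        rw [adj_comm, @adj_comm _ G']
        exact hs x hx
      · have hb : b = a := fin3_third a b (fun e => hx1 (by rw [e])) (fun e => hx2 (by rw [e]))
        subst hb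
        exact hs y hy
      · have hc : c = a := fin3_third a c (fun e => hy1 (by rw [e])) (fun e => hy2 (by rw [e]))
        have hb : b = a := fin3_third a b (fun e => hx1 (by rw [e])) (fun e => hx2 (by rw [e]))
        subst hc
        subst hb
        simp [not_adj_self]
    · rw [adj_congr hxy, adj_congr hxy, ← tab_none_eq_iff]
      exact h none

end Tri
end Crest.Agent.S0453D
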