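import Crest.Agent.S0453_TriLabA
import Crest.Agent.S0453_TriDeg
import Crest.Agent.S0453_TriEx
import Crest.Agent.S0453_TriKey

/-! # S0453, package B6 / T-LAB : `lab_mem`, `lab_inj`, `lab_surj`, `lab_key`
(`rs_eq` is in `S0453_TriLabA.lean`). -/

set_option autoImplicit false
open Finset
open Crest.SwitchChain

namespace Crest.Agent.S0453D
namespace Tri

variable {n : ℕ}
variable (d : Fin n → ℕ) (v : Fin 3 → Fin n) (hv : Function.Injective v) (G0 : Gr n)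
  (hG0 : G0 ∈ realizations d)

include hv hG0 in
lemma lab_mem {G : Gr n} (hG : G ∈ Fib d v G0) :
    lab v G ∈ L3Set (colS v G0 1) (colS v G0 2) (sch v G0) :=
  Lab.mem_of v G0 (colsum_eq d v hv G0 hG0 hG) (rowsum_eq d v hv G0 hG0 hG)

include hv hG0 in
lemma lab_inj {G G' : Gr n} (hG : G ∈ Fib d v G0) (hG' : G' ∈ Fib d v G0)
    (h : lab v G = lab v G') : G = G' :=
  tab_inj d v hv G0 hG hG'
    (Lab.tab_eq_of v G0 (colsum_eq d v hv G0 hG0 hG) (colsum_eq d v hv G0 hG0 hG') h)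

include hv hG0 in
lemma lab_surj (c : Option (Fin n) → Fin 3)
    (hc : c ∈ L3Set (colS v G0 1) (colS v G0 2) (sch v G0)) :
    ∃ G ∈ Fib d v G0, lab v G = c := by
  obtain ⟨G, hG, hT⟩ := exists_of_tab d v hv G0 hG0 (Lab.tbl v G0 c)
    (fun y a hy => Lab.tbl_off v G0 c y a hy) (Lab.sm_tbl v G0 c) (Lab.rs_tbl v G0 c hc)
  exact ⟨G, hG, Lab.lab_eq_of_tab v G0 c hc hT⟩

include hv hG0 in
lemma lab_key {G G' : Gr n} (hG : G ∈ Fib d v G0) (hG' : G' ∈ Fib d v G0) (a : Fin 3) :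
    keyP (v (a + 1)) (v (a + 2)) G = keyP (v (a + 1)) (v (a + 2)) G' ↔
      ∀ c, lab v G c = a ↔ lab v G' c = a :=
  (keyP_iff d v hv G0 hG hG' a).trans
    (Lab.row_iff v G0 (colsum_eq d v hv G0 hG0 hG) (colsum_eq d v hv G0 hG0 hG') a)

end Tri
end Crest.Agent.S0453D
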