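import Crest.Agent.S0453_CE
import Crest.Agent.S0453_TriLab
import Crest.Agent.S0453_L3

/-! # S0453, package B6 / T-FIN : the triple inequality -/

set_option autoImplicit false
open Finset
open Crest.SwitchChain

namespace Crest.Agent.S0453D
namespace Tri

variable {n : ℕ}

lemma keyP_comm' (u w : Fin n) : keyP u w = keyP w u := by
  funext G
  unfold keyP
  refine Finset.filter_congr fun e _ => ?_
  rw [and_comm, Sym2.eq_swap]

lemma keyT_of_keyP (v : Fin 3 → Fin n) (a b : Fin 3) (G : Gr n) :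
    keyT v G = (keyP (v a) (v b) G).filter (fun e => ∀ c, v c ∉ e.1) := by
  unfold keyT keyP
  rw [Finset.filter_filter]
  refine Finset.filter_congr fun e _ => ?_
  constructor
  · intro h; exact ⟨Or.inl ⟨h _, h _⟩, h⟩
  · intro h; exact h.2

lemma Dp_local (d : Fin n → ℕ) (v : Fin 3 → Fin n) (G0 : Gr n) (a b : Fin 3) (f : Gr n → ℝ)
    {G : Gr n} (hG : G ∈ Fib d v G0) :
    Dp d (v a) (v b) f G = cD (Fib d v G0) (keyP (v a) (v b)) f G := by
  obtain ⟨hGd, hk⟩ := Finset.mem_filter.1 hG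
  unfold Dp cD
  rw [cE_local (realizations d) (keyP (v a) (v b)) (keyT v)
    (fun x _ y _ h => by rw [keyT_of_keyP v a b x, keyT_of_keyP v a b y, h]) f hGd]
  unfold Fib
  rw [hk]

/-- the inequality on one fibre. -/
lemma triple_fibre (d : Fin n → ℕ) (v : Fin 3 → Fin n) (hv : Function.Injective v) (G0 : Gr n)
    (hG0 : G0 ∈ realizations d) (f : Gr n → ℝ) :
    ∑ a : Fin 3, ∑ G ∈ Fib d v G0, (cD (Fib d v G0) (keyP (v (a + 1)) (v (a + 2))) f G) ^ 2 ≤
      ∑ G ∈ Fib d v G0, (∑ a : Fin 3, cD (Fib d v G0) (keyP (v (a + 1)) (v (a + 2))) f G) ^ 2 :=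
  L3_abstract (Fib d v G0) (colS v G0 1) (colS v G0 2) (disj_colS v G0) (sch v G0) (lab v)
    (fun a => keyP (v (a + 1)) (v (a + 2)))
    (fun _ hG => lab_mem d v hv G0 hG0 hG)
    (fun _ hG _ hG' h => lab_inj d v hv G0 hG0 hG hG' h)
    (fun c hc => lab_surj d v hv G0 hG0 c hc)
    (fun a _ hG _ hG' => lab_key d v hv G0 hG0 hG hG' a) f

/-- localisation. -/
lemma triple_v (d : Fin n → ℕ) (v : Fin 3 → Fin n) (hv : Function.Injective v) (f : Gr n → ℝ) :
    ∑ a : Fin 3, ∑ G ∈ realizations d, (Dp d (v (a + 1)) (v (a + 2)) f G) ^ 2 ≤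
      ∑ G ∈ realizations d, (∑ a : Fin 3, Dp d (v (a + 1)) (v (a + 2)) f G) ^ 2 := by
  rw [Finset.sum_comm, sum_eq_sum_fibres (realizations d) (keyT v),
    sum_eq_sum_fibres (realizations d) (keyT v) (fun G => (∑ a : Fin 3, Dp d (v (a + 1)) (v (a + 2)) f G) ^ 2)]
  refine Finset.sum_le_sum fun k hk => ?_
  obtain ⟨G0, hG0, rfl⟩ := Finset.mem_image.1 hk
  have key := triple_fibre d v hv G0 hG0 f
  rw [Finset.sum_comm] at key
  have e1 : ∀ G ∈ Fib d v G0, ∑ a : Fin 3, (Dp d (v (a + 1)) (v (a + 2)) f G) ^ 2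
      = ∑ a : Fin 3, (cD (Fib d v G0) (keyP (v (a + 1)) (v (a + 2))) f G) ^ 2 := fun G hG =>
    Finset.sum_congr rfl fun a _ => by rw [Dp_local d v G0 _ _ f hG]
  have e2 : ∀ G ∈ Fib d v G0, (∑ a : Fin 3, Dp d (v (a + 1)) (v (a + 2)) f G) ^ 2
      = (∑ a : Fin 3, cD (Fib d v G0) (keyP (v (a + 1)) (v (a + 2))) f G) ^ 2 := fun G hG => by
    congr 1
    exact Finset.sum_congr rfl fun a _ => by rw [Dp_local d v G0 _ _ f hG]
  calc _ = ∑ G ∈ Fib d v G0, ∑ a : Fin 3, (Dp d (v (a + 1)) (v (a + 2)) f G) ^ 2 := rfl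
    _ = _ := Finset.sum_congr rfl e1
    _ ≤ _ := key
    _ = ∑ G ∈ Fib d v G0, (∑ a : Fin 3, Dp d (v (a + 1)) (v (a + 2)) f G) ^ 2 :=
        (Finset.sum_congr rfl e2).symm
    _ = _ := rfl

end Tri

theorem triple {n : ℕ} (d : Fin n → ℕ) (i j k : Fin n) (hij : i ≠ j) (hik : i ≠ k) (hjk : j ≠ k)
    (f : Gr n → ℝ) :
    ∑ G ∈ realizations d, ((Dp d i j f G) ^ 2 + (Dp d i k f G) ^ 2 + (Dp d j k f G) ^ 2) ≤
      ∑ G ∈ realizations d, (Dp d i j f G + Dp d i k f G + Dp d j k f G) ^ 2 := by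
  have hv : Function.Injective ![i, j, k] := by
    intro a b h
    fin_cases a <;> fin_cases b <;> simp_all [eq_comm]
  have key := Tri.triple_v d ![i, j, k] hv f
  rw [Finset.sum_comm] at key
  have hD : Dp d k i f = Dp d i k f := by
    unfold Dp; rw [Tri.keyP_comm']
  simp only [Fin.sum_univ_three] at key
  have h0 : (![i, j, k] : Fin 3 → Fin n) (0 + 1) = j := rfl
  have h1 : (![i, j, k] : Fin 3 → Fin n) (0 + 2) = k := rfl
  have h2 : (![i, j, k] : Fin 3 → Fin n) (1 + 1) = k := rfl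
  have h3 : (![i, j, k] : Fin 3 → Fin n) (1 + 2) = i := rfl
  have h4 : (![i, j, k] : Fin 3 → Fin n) (2 + 1) = i := rfl
  have h5 : (![i, j, k] : Fin 3 → Fin n) (2 + 2) = j := rfl
  rw [h0, h1, h2, h3, h4, h5, hD] at key
  calc _ = ∑ G ∈ realizations d, ((Dp d j k f G) ^ 2 + (Dp d i k f G) ^ 2 + (Dp d i j f G) ^ 2) :=
        Finset.sum_congr rfl fun G _ => by ring
    _ ≤ _ := key
    _ = _ := Finset.sum_congr rfl fun G _ => by ring

end Crest.Agent.S0453D
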