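import Crest.Agent.S0453_Hilbert
import Crest.Agent.S0453_B1
import Crest.Agent.S0453_B3
import Crest.Agent.S0453_PairA
import Crest.Agent.S0453_PairE
import Crest.Agent.S0453_PairQ
import Crest.Agent.S0453_Disj
import Crest.Agent.S0453_Triple

/-! # S0453 : assembly (notes/ROW299_proof.md, sections 1 and 2) -/

set_option autoImplicit false
open Finset
open Crest.SwitchChain

namespace Crest.Agent.S0453D

variable {n : ℕ}

/-- splitting a double sum over ordered pairs `w ≠ z` relative to a fixed pair `u ≠ v`. -/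
lemma split_sum (u v : Fin n) (huv : u ≠ v) (A : Fin n → Fin n → ℝ) :
    ∑ w, ∑ z, (if w ≠ z then A w z else 0) =
      A u v + A v u + ∑ z, (if z ≠ u ∧ z ≠ v then A u z + A v z + A z u + A z v else 0) +
        ∑ w, ∑ z, (if w ≠ z ∧ w ≠ u ∧ w ≠ v ∧ z ≠ u ∧ z ≠ v then A w z else 0) := by
  have key : ∀ w z, (if w ≠ z then A w z else 0) =
      (if w = u then (if z = v then A u v else 0) else 0)
      + (if w = v then (if z = u then A v u else 0) else 0)
      + (if w = u then (if z ≠ u ∧ z ≠ v then A u z else 0) else 0)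
      + (if w = v then (if z ≠ u ∧ z ≠ v then A v z else 0) else 0)
      + (if z = u then (if w ≠ u ∧ w ≠ v then A w u else 0) else 0)
      + (if z = v then (if w ≠ u ∧ w ≠ v then A w v else 0) else 0)
      + (if w ≠ z ∧ w ≠ u ∧ w ≠ v ∧ z ≠ u ∧ z ≠ v then A w z else 0) := by
    intro w z
    by_cases h1 : w = u
    · subst h1
      by_cases h3 : z = w
      · subst h3; simp [huv]
      · by_cases h4 : z = v
        · subst h4; simp [huv, Ne.symm huv]
        · simp [h3, h4, huv, Ne.symm h3]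
    · by_cases h2 : w = v
      · subst h2
        by_cases h3 : z = u
        · subst h3; simp [huv, Ne.symm huv]
        · by_cases h4 : z = w
          · subst h4; simp [huv, Ne.symm huv]
          · simp [h3, h4, huv, Ne.symm huv, Ne.symm h4]
      · by_cases h3 : z = u
        · subst h3; simp [h1, h2, huv]
        · by_cases h4 : z = v
          · subst h4; simp [h1, h2, huv, Ne.symm huv]
          · simp [h1, h2, h3, h4]
  simp_rw [key, Finset.sum_add_distrib]
  have e1 : ∑ w, ∑ z, (if w = u then (if z = v then A u v else 0) else 0) = A u v := by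
    simp [Finset.sum_ite_eq']
  have e2 : ∑ w, ∑ z, (if w = v then (if z = u then A v u else 0) else 0) = A v u := by
    simp [Finset.sum_ite_eq']
  have e3 : ∑ w, ∑ z, (if w = u then (if z ≠ u ∧ z ≠ v then A u z else 0) else 0)
      = ∑ z, (if z ≠ u ∧ z ≠ v then A u z else 0) := by
    rw [Finset.sum_comm]; simp [Finset.sum_ite_eq']
  have e4 : ∑ w, ∑ z, (if w = v then (if z ≠ u ∧ z ≠ v then A v z else 0) else 0)
      = ∑ z, (if z ≠ u ∧ z ≠ v then A v z else 0) := by
    rw [Finset.sum_comm]; simp [Finset.sum_ite_eq']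
  have e5 : ∑ w, ∑ z, (if z = u then (if w ≠ u ∧ w ≠ v then A w u else 0) else 0)
      = ∑ z, (if z ≠ u ∧ z ≠ v then A z u else 0) := by
    simp [Finset.sum_ite_eq']
  have e6 : ∑ w, ∑ z, (if z = v then (if w ≠ u ∧ w ≠ v then A w v else 0) else 0)
      = ∑ z, (if z ≠ u ∧ z ≠ v then A z v else 0) := by
    simp [Finset.sum_ite_eq']
  rw [e1, e2, e3, e4, e5, e6]
  have e7 : ∑ z, (if z ≠ u ∧ z ≠ v then A u z + A v z + A z u + A z v else 0)
      = ∑ z, (if z ≠ u ∧ z ≠ v then A u z else 0) + ∑ z, (if z ≠ u ∧ z ≠ v then A v z else 0)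
        + ∑ z, (if z ≠ u ∧ z ≠ v then A z u else 0) + ∑ z, (if z ≠ u ∧ z ≠ v then A z v else 0) := by
    simp_rw [← Finset.sum_add_distrib]
    refine Finset.sum_congr rfl fun z _ => ?_
    split_ifs <;> simp
  rw [e7]; ring

end Crest.Agent.S0453D

namespace Crest.Agent.S0453D

variable {n : ℕ}

/-- `A(uv,wz) = ⟨D_uv f, D_wz f⟩`. -/
noncomputable def A4 (d : Fin n → ℕ) (f : Gr n → ℝ) (u v w z : Fin n) : ℝ :=
  ∑ G ∈ realizations d, Dp d u v f G * Dp d w z f G

lemma Dp_comm (d : Fin n → ℕ) (u v : Fin n) (f : Gr n → ℝ) : Dp d u v f = Dp d v u f := by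
  unfold Dp; rw [keyP_comm]

lemma A4_swap12 (d : Fin n → ℕ) (f : Gr n → ℝ) (u v w z : Fin n) :
    A4 d f u v w z = A4 d f v u w z := by
  unfold A4; rw [Dp_comm d u v]

lemma A4_swap34 (d : Fin n → ℕ) (f : Gr n → ℝ) (u v w z : Fin n) :
    A4 d f u v w z = A4 d f u v z w := by
  unfold A4; rw [Dp_comm d w z]

lemma A4_symm (d : Fin n → ℕ) (f : Gr n → ℝ) (u v w z : Fin n) :
    A4 d f u v w z = A4 d f w z u v := by
  unfold A4; exact Finset.sum_congr rfl fun G _ => mul_comm _ _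

/-- the triple inequality in terms of `A4`. -/
lemma triple_A4 (d : Fin n → ℕ) (f : Gr n → ℝ) (u v z : Fin n) (huv : u ≠ v) (huz : u ≠ z)
    (hvz : v ≠ z) : 0 ≤ A4 d f u v u z + A4 d f v u v z + A4 d f z u z v := by
  have h := triple d u v z huv huz hvz f
  have e : ∑ G ∈ realizations d, (Dp d u v f G + Dp d u z f G + Dp d v z f G) ^ 2
      = ∑ G ∈ realizations d, ((Dp d u v f G) ^ 2 + (Dp d u z f G) ^ 2 + (Dp d v z f G) ^ 2)
        + 2 * (A4 d f u v u z + A4 d f u v v z + A4 d f u z v z) := by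
    unfold A4
    rw [← Finset.sum_add_distrib, ← Finset.sum_add_distrib, Finset.mul_sum,
      ← Finset.sum_add_distrib]
    exact Finset.sum_congr rfl fun G _ => by ring
  rw [e] at h
  have e1 : A4 d f v u v z = A4 d f u v v z := (A4_swap12 d f u v v z).symm
  have e2 : A4 d f z u z v = A4 d f u z v z := by
    rw [A4_swap12 d f z u z v, A4_swap34 d f u z z v]
  rw [e1, e2]; linarith

/-- guard for three distinct vertices -/
def d3 (u v z : Fin n) : Prop := u ≠ v ∧ z ≠ u ∧ z ≠ v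

instance (u v z : Fin n) : Decidable (d3 u v z) := by unfold d3; infer_instance

/-- guard for four distinct vertices -/
def d4 (u v w z : Fin n) : Prop := u ≠ v ∧ w ≠ z ∧ w ≠ u ∧ w ≠ v ∧ z ≠ u ∧ z ≠ v

instance (u v w z : Fin n) : Decidable (d4 u v w z) := by unfold d4; infer_instance

/-- the overlap sum is nonnegative. -/
lemma overlap_nonneg (d : Fin n → ℕ) (f : Gr n → ℝ) :
    0 ≤ ∑ u, ∑ v, ∑ z, (if d3 u v z then A4 d f u v u z else 0) := by
  set c : Fin n → Fin n → Fin n → ℝ := fun u v z => if d3 u v z then A4 d f u v u z else 0 with hc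
  have h1 : ∑ u, ∑ v, ∑ z, c v u z = ∑ u, ∑ v, ∑ z, c u v z := by
    rw [Finset.sum_comm]
  have h2 : ∑ u, ∑ v, ∑ z, c z u v = ∑ u, ∑ v, ∑ z, c u v z := by
    calc ∑ u, ∑ v, ∑ z, c z u v = ∑ u, ∑ z, ∑ v, c z u v := by
          refine Finset.sum_congr rfl fun u _ => Finset.sum_comm
      _ = ∑ z, ∑ u, ∑ v, c z u v := Finset.sum_comm
  have h3 : 0 ≤ ∑ u, ∑ v, ∑ z, (c u v z + c v u z + c z u v) := by
    refine Finset.sum_nonneg fun u _ => Finset.sum_nonneg fun v _ => Finset.sum_nonneg fun z _ => ?_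
    by_cases h : d3 u v z
    · have h' : d3 v u z := ⟨h.1.symm, h.2.2, h.2.1⟩
      have h'' : d3 z u v := ⟨h.2.1, h.2.2.symm, h.1.symm⟩
      simp only [hc, h, h', h'', if_true]
      exact triple_A4 d f u v z h.1 h.2.1.symm h.2.2.symm
    · have h' : ¬ d3 v u z := fun k => h ⟨k.1.symm, k.2.2, k.2.1⟩
      have h'' : ¬ d3 z u v := fun k => h ⟨k.2.2.symm, k.1, k.2.1.symm⟩
      simp [hc, h, h', h'']
  simp only [Finset.sum_add_distrib] at h3
  rw [h1, h2] at h3
  linarith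

end Crest.Agent.S0453D

namespace Crest.Agent.S0453D

variable {n : ℕ}

lemma sum_offP (w z : Fin n) (F : Fin n → Fin n → ℝ) :
    ∑ p ∈ offP w z, F p.1 p.2 =
      ∑ u, ∑ v, (if u ≠ v ∧ u ≠ w ∧ u ≠ z ∧ v ≠ w ∧ v ≠ z then F u v else 0) := by
  unfold offP
  rw [Finset.sum_filter, Fintype.sum_prod_type]

lemma disjoint_nonneg (d : Fin n → ℕ) (f : Gr n → ℝ) :
    0 ≤ ∑ u, ∑ v, ∑ w, ∑ z, (if d4 u v w z then A4 d f u v w z else 0) := by
  set q : Fin n → Fin n → Fin n → Fin n → ℝ :=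
    fun u v w z => if d4 u v w z then Qf d u v w z f else 0 with hq
  set l : Fin n → Fin n → Fin n → Fin n → ℝ :=
    fun u v w z => if d4 u v w z then Lo d u v w z f else 0 with hl
  -- pointwise lower bound
  have h1 : ∑ u, ∑ v, ∑ w, ∑ z, (q u v w z - (1 / 2) * (l u v w z + l w z u v)) ≤
      ∑ u, ∑ v, ∑ w, ∑ z, (if d4 u v w z then A4 d f u v w z else 0) := by
    refine Finset.sum_le_sum fun u _ => Finset.sum_le_sum fun v _ => Finset.sum_le_sum fun w _ =>
      Finset.sum_le_sum fun z _ => ?_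
    by_cases h : d4 u v w z
    · have h' : d4 w z u v := ⟨h.2.1, h.1, h.2.2.1.symm, h.2.2.2.2.1.symm, h.2.2.2.1.symm,
        h.2.2.2.2.2.symm⟩
      simp only [hq, hl, h, h', if_true]
      exact disj_pair d u v w z h.1 h.2.2.1.symm h.2.2.2.2.1.symm h.2.2.2.1.symm
        h.2.2.2.2.2.symm h.2.1 f
    · have h' : ¬ d4 w z u v := fun k => h ⟨k.2.1, k.1, k.2.2.1.symm, k.2.2.2.2.1.symm,
        k.2.2.2.1.symm, k.2.2.2.2.2.symm⟩
      simp [hq, hl, h, h']
  -- relabelling
  have h2 : ∑ u, ∑ v, ∑ w, ∑ z, l w z u v = ∑ u, ∑ v, ∑ w, ∑ z, l u v w z := by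
    calc ∑ u, ∑ v, ∑ w, ∑ z, l w z u v
        = ∑ u, ∑ w, ∑ v, ∑ z, l w z u v := by
          refine Finset.sum_congr rfl fun u _ => Finset.sum_comm
      _ = ∑ w, ∑ u, ∑ v, ∑ z, l w z u v := Finset.sum_comm
      _ = ∑ w, ∑ u, ∑ z, ∑ v, l w z u v := by
          refine Finset.sum_congr rfl fun w _ => Finset.sum_congr rfl fun u _ => Finset.sum_comm
      _ = ∑ w, ∑ z, ∑ u, ∑ v, l w z u v := by
          refine Finset.sum_congr rfl fun w _ => Finset.sum_comm
  -- (Zb)
  have h3 : ∑ u, ∑ v, ∑ w, ∑ z, l u v w z ≤ ∑ u, ∑ v, ∑ w, ∑ z, q u v w z := by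
    have reorder : ∀ F : Fin n → Fin n → Fin n → Fin n → ℝ,
        ∑ u, ∑ v, ∑ w, ∑ z, F u v w z = ∑ w, ∑ z, ∑ u, ∑ v, F u v w z := by
      intro F
      calc ∑ u, ∑ v, ∑ w, ∑ z, F u v w z
          = ∑ u, ∑ w, ∑ v, ∑ z, F u v w z := by
            refine Finset.sum_congr rfl fun u _ => Finset.sum_comm
        _ = ∑ w, ∑ u, ∑ v, ∑ z, F u v w z := Finset.sum_comm
        _ = ∑ w, ∑ u, ∑ z, ∑ v, F u v w z := by
            refine Finset.sum_congr rfl fun w _ => Finset.sum_congr rfl fun u _ => Finset.sum_comm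
        _ = ∑ w, ∑ z, ∑ u, ∑ v, F u v w z := by
            refine Finset.sum_congr rfl fun w _ => Finset.sum_comm
    rw [reorder l, reorder q]
    refine Finset.sum_le_sum fun w _ => Finset.sum_le_sum fun z _ => ?_
    by_cases hwz : w = z
    · have : ∀ u v, ¬ d4 u v w z := fun u v k => k.2.1 hwz
      simp [hq, hl, this]
    · have := lo_le_Q d w z hwz f
      rw [sum_offP w z (fun u v => Lo d u v w z f), sum_offP w z (fun u v => Qf d u v w z f)] at this
      have conv : ∀ u v, (u ≠ v ∧ u ≠ w ∧ u ≠ z ∧ v ≠ w ∧ v ≠ z) ↔ d4 u v w z := by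
        intro u v
        constructor
        · rintro ⟨a, b, c, e, g⟩; exact ⟨a, hwz, b.symm, e.symm, c.symm, g.symm⟩
        · rintro ⟨a, _, b, c, e, g⟩; exact ⟨a, b.symm, e.symm, c.symm, g.symm⟩
      simp only [conv] at this
      exact this
  have h4 : ∑ u, ∑ v, ∑ w, ∑ z, (q u v w z - (1 / 2) * (l u v w z + l w z u v))
      = ∑ u, ∑ v, ∑ w, ∑ z, q u v w z - ∑ u, ∑ v, ∑ w, ∑ z, l u v w z := by
    have : ∑ u, ∑ v, ∑ w, ∑ z, (q u v w z - (1 / 2) * (l u v w z + l w z u v))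
        = ∑ u, ∑ v, ∑ w, ∑ z, q u v w z - (1 / 2) * (∑ u, ∑ v, ∑ w, ∑ z, l u v w z
          + ∑ u, ∑ v, ∑ w, ∑ z, l w z u v) := by
      simp only [Finset.sum_sub_distrib, ← Finset.mul_sum, Finset.sum_add_distrib]
    rw [this, h2]; ring
  linarith

end Crest.Agent.S0453D

namespace Crest.Agent.S0453D

variable {n : ℕ}

/-- index set: ordered pairs of distinct vertices. -/
def Ipairs (n : ℕ) : Finset (Fin n × Fin n) := univ.filter fun p => p.1 ≠ p.2

lemma sum_Ipairs (F : Fin n → Fin n → ℝ) :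
    ∑ p ∈ Ipairs n, F p.1 p.2 = ∑ u, ∑ v, (if u ≠ v then F u v else 0) := by
  unfold Ipairs
  rw [Finset.sum_filter, Fintype.sum_prod_type]

lemma main_sq (d : Fin n → ℕ) (f : Gr n → ℝ) :
    2 * ∑ p ∈ Ipairs n, ∑ G ∈ realizations d, (cD (realizations d) (keyP p.1 p.2) f G) ^ 2 ≤
      ∑ G ∈ realizations d, (∑ p ∈ Ipairs n, cD (realizations d) (keyP p.1 p.2) f G) ^ 2 := by
  -- expand the square
  have e0 : ∑ G ∈ realizations d, (∑ p ∈ Ipairs n, cD (realizations d) (keyP p.1 p.2) f G) ^ 2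
      = ∑ p ∈ Ipairs n, ∑ p' ∈ Ipairs n, A4 d f p.1 p.2 p'.1 p'.2 := by
    unfold A4 Dp
    simp_rw [sq, Finset.sum_mul_sum]
    rw [Finset.sum_comm]
    refine Finset.sum_congr rfl fun p _ => ?_
    rw [Finset.sum_comm]
  have e1 : ∑ p ∈ Ipairs n, ∑ p' ∈ Ipairs n, A4 d f p.1 p.2 p'.1 p'.2
      = ∑ u, ∑ v, (if u ≠ v then ∑ w, ∑ z, (if w ≠ z then A4 d f u v w z else 0) else 0) := by
    rw [sum_Ipairs (fun u v => ∑ p' ∈ Ipairs n, A4 d f u v p'.1 p'.2)]
    refine Finset.sum_congr rfl fun u _ => Finset.sum_congr rfl fun v _ => ?_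
    rw [sum_Ipairs (fun w z => A4 d f u v w z)]
  have e2 : ∑ p ∈ Ipairs n, ∑ G ∈ realizations d, (cD (realizations d) (keyP p.1 p.2) f G) ^ 2
      = ∑ u, ∑ v, (if u ≠ v then A4 d f u v u v else 0) := by
    rw [sum_Ipairs (fun u v => ∑ G ∈ realizations d, (cD (realizations d) (keyP u v) f G) ^ 2)]
    refine Finset.sum_congr rfl fun u _ => Finset.sum_congr rfl fun v _ => ?_
    unfold A4 Dp
    simp_rw [sq]
  rw [e0, e1, e2]
  -- split
  have e3 : ∀ u v : Fin n,
      (if u ≠ v then ∑ w, ∑ z, (if w ≠ z then A4 d f u v w z else 0) else 0)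
      = 2 * (if u ≠ v then A4 d f u v u v else 0)
        + (2 * ∑ z, (if d3 u v z then A4 d f u v u z else 0)
            + 2 * ∑ z, (if d3 v u z then A4 d f v u v z else 0))
        + ∑ w, ∑ z, (if d4 u v w z then A4 d f u v w z else 0) := by
    intro u v
    by_cases huv : u = v
    · have a3 : ∀ z, ¬ d3 u v z := fun z k => k.1 huv
      have a3' : ∀ z, ¬ d3 v u z := fun z k => k.1 huv.symm
      have a4 : ∀ w z, ¬ d4 u v w z := fun w z k => k.1 huv
      simp only [a3, a3', a4, if_false, Finset.sum_const_zero]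
      simp [huv]
    · rw [if_pos huv, if_pos huv, split_sum u v huv (fun w z => A4 d f u v w z)]
      have b1 : A4 d f u v v u = A4 d f u v u v := (A4_swap34 d f u v u v).symm
      have b2 : ∑ z, (if z ≠ u ∧ z ≠ v then
            A4 d f u v u z + A4 d f u v v z + A4 d f u v z u + A4 d f u v z v else 0)
          = 2 * ∑ z, (if d3 u v z then A4 d f u v u z else 0)
            + 2 * ∑ z, (if d3 v u z then A4 d f v u v z else 0) := by
        rw [Finset.mul_sum, Finset.mul_sum, ← Finset.sum_add_distrib]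
        refine Finset.sum_congr rfl fun z _ => ?_
        by_cases hz : z ≠ u ∧ z ≠ v
        · have c1 : d3 u v z := ⟨huv, hz.1, hz.2⟩
          have c2 : d3 v u z := ⟨fun k => huv k.symm, hz.2, hz.1⟩
          rw [if_pos hz, if_pos c1, if_pos c2, ← A4_swap34 d f u v u z, ← A4_swap34 d f u v v z,
            A4_swap12 d f u v v z]
          ring
        · have c1 : ¬ d3 u v z := fun k => hz ⟨k.2.1, k.2.2⟩
          have c2 : ¬ d3 v u z := fun k => hz ⟨k.2.2, k.2.1⟩
          rw [if_neg hz, if_neg c1, if_neg c2]; ring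
      have b3 : ∑ w, ∑ z, (if w ≠ z ∧ w ≠ u ∧ w ≠ v ∧ z ≠ u ∧ z ≠ v then A4 d f u v w z else 0)
          = ∑ w, ∑ z, (if d4 u v w z then A4 d f u v w z else 0) := by
        refine Finset.sum_congr rfl fun w _ => Finset.sum_congr rfl fun z _ => ?_
        have : (w ≠ z ∧ w ≠ u ∧ w ≠ v ∧ z ≠ u ∧ z ≠ v) ↔ d4 u v w z :=
          ⟨fun k => ⟨huv, k⟩, fun k => k.2⟩
        simp only [this]
      rw [b1, b2, b3]; ring
  simp_rw [e3, Finset.sum_add_distrib, ← Finset.mul_sum]
  have o1 := overlap_nonneg d f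
  have o2 : ∑ u, ∑ v, ∑ z, (if d3 v u z then A4 d f v u v z else 0)
      = ∑ u, ∑ v, ∑ z, (if d3 u v z then A4 d f u v u z else 0) := by
    rw [Finset.sum_comm]
  have o3 := disjoint_nonneg d f
  rw [o2]
  linarith

end Crest.Agent.S0453D

namespace Crest.Agent.S0453D

variable {n : ℕ}

lemma En_nonneg (d : Fin n → ℕ) (f : Gr n → ℝ) : 0 ≤ En d f := by
  unfold En
  exact Finset.sum_nonneg fun G _ => Finset.sum_nonneg fun G' _ => sq_nonneg _

lemma ker_const (d : Fin n → ℕ) (f : Gr n → ℝ)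
    (h : ∀ p ∈ Ipairs n, ∀ G ∈ realizations d, cD (realizations d) (keyP p.1 p.2) f G = 0) :
    ∀ G ∈ realizations d, ∀ G' ∈ realizations d, f G = f G' := by
  refine sw_connected d f ?_
  rintro G hG G' hG' ⟨a, b, c, e, hsw⟩
  have hk := keyP_eq_of_isSwitch hsw
  have hae : a ≠ e := hsw.2.2.1
  have hp : ((a, e) : Fin n × Fin n) ∈ Ipairs n := by
    unfold Ipairs; simp [hae]
  have h1 := h (a, e) hp G hG
  have h2 := h (a, e) hp G' hG'
  unfold cD cE at h1 h2
  simp only at h1 h2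
  rw [hk] at h1
  linarith

theorem energy_bound (d : Fin n → ℕ) (f : Gr n → ℝ) :
    ∑ G ∈ realizations d, (f G - mean (realizations d) f) ^ 2 ≤ (n : ℝ) ^ 2 * En d f := by
  have h := gap_of_sq (realizations d) (Ipairs n) (fun p => keyP p.1 p.2) 2 (by norm_num)
    (fun f => main_sq d f) (fun f => ker_const d f) f
  have h2 : ∑ p ∈ Ipairs n, ∑ G ∈ realizations d, (cD (realizations d) (keyP p.1 p.2) f G) ^ 2
      ≤ ∑ p ∈ Ipairs n, (1 / 4) * En d f := by
    refine Finset.sum_le_sum fun p hp => ?_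
    have hne : p.1 ≠ p.2 := by
      unfold Ipairs at hp; simpa using hp
    exact energy_pair d p.1 p.2 hne f
  have h3 : ((Ipairs n).card : ℝ) ≤ (n : ℝ) ^ 2 := by
    have : (Ipairs n).card ≤ (univ : Finset (Fin n × Fin n)).card := Finset.card_filter_le _ _
    have h4 : (univ : Finset (Fin n × Fin n)).card = n ^ 2 := by
      simp [Finset.card_univ, Fintype.card_prod, sq]
    rw [h4] at this
    exact_mod_cast this
  rw [Finset.sum_const, nsmul_eq_mul] at h2
  have hE := En_nonneg d f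
  have hn : (0 : ℝ) ≤ (n : ℝ) ^ 2 := by positivity
  nlinarith [mul_le_mul_of_nonneg_right h3 hE]

end Crest.Agent.S0453D
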