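import Crest.Agent.S0453_Defs

/-! # S0453, package A1 : basic facts on the averaging operators `cE`, `cD`, `mean` -/

set_option autoImplicit false
open Finset

namespace Crest.Agent.S0453D

section
variable {α β κ κ' : Type*} [DecidableEq κ] [DecidableEq κ'] (Ω : Finset α) (key : α → κ)

lemma cE_congr {f g : α → ℝ} (h : ∀ x ∈ Ω, f x = g x) (x : α) : cE Ω key f x = cE Ω key g x := by
  unfold cE
  congr 1
  exact sum_congr rfl (fun y hy => h y (mem_filter.1 hy).1)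

lemma cE_eq_of_key_eq (f : α → ℝ) {x y : α} (h : key x = key y) : cE Ω key f x = cE Ω key f y := by
  unfold cE
  rw [h]

lemma cE_add (f g : α → ℝ) (x : α) :
    cE Ω key (fun y => f y + g y) x = cE Ω key f x + cE Ω key g x := by
  unfold cE
  rw [sum_add_distrib, add_div]

lemma cE_sub (f g : α → ℝ) (x : α) :
    cE Ω key (fun y => f y - g y) x = cE Ω key f x - cE Ω key g x := by
  unfold cE
  rw [sum_sub_distrib, sub_div]

lemma cE_neg (f : α → ℝ) (x : α) : cE Ω key (fun y => - f y) x = - cE Ω key f x := by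
  unfold cE
  rw [sum_neg_distrib, neg_div]

lemma cE_const_mul (c : ℝ) (f : α → ℝ) (x : α) :
    cE Ω key (fun y => c * f y) x = c * cE Ω key f x := by
  unfold cE
  rw [← mul_sum, mul_div_assoc]

lemma cE_finset_sum {ι : Type*} (I : Finset ι) (f : ι → α → ℝ) (x : α) :
    cE Ω key (fun y => ∑ i ∈ I, f i y) x = ∑ i ∈ I, cE Ω key (f i) x := by
  unfold cE
  rw [sum_comm, sum_div]

/-- the fibre of a point of `Ω` is not empty. -/
lemma card_fibre_ne_zero {x : α} (hx : x ∈ Ω) :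
    ((Ω.filter (fun y => key y = key x)).card : ℝ) ≠ 0 := by
  have : 0 < (Ω.filter (fun y => key y = key x)).card :=
    card_pos.2 ⟨x, mem_filter.2 ⟨hx, rfl⟩⟩
  exact_mod_cast this.ne'

lemma cE_const (c : ℝ) {x : α} (hx : x ∈ Ω) : cE Ω key (fun _ => c) x = c := by
  unfold cE
  rw [sum_const, nsmul_eq_mul, mul_div_cancel_left₀ _ (card_fibre_ne_zero Ω key hx)]

/-- pulling out a measurable factor. -/
lemma cE_mul_of_meas {g : α → ℝ} (hg : ∀ x ∈ Ω, ∀ y ∈ Ω, key x = key y → g x = g y) (f : α → ℝ)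
    {x : α} (hx : x ∈ Ω) : cE Ω key (fun y => g y * f y) x = g x * cE Ω key f x := by
  rw [← cE_const_mul]
  unfold cE
  congr 1
  refine sum_congr rfl (fun y hy => ?_)
  rw [mem_filter] at hy
  show g y * f y = g x * f y
  rw [hg y hy.1 x hx hy.2]

/-- a `key`-measurable function is fixed by `cE`. -/
lemma cE_of_meas {f : α → ℝ} (hf : ∀ x ∈ Ω, ∀ y ∈ Ω, key x = key y → f x = f y) {x : α}
    (hx : x ∈ Ω) : cE Ω key f x = f x := by
  have h := cE_mul_of_meas Ω key hf (fun _ => 1) hx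
  rw [cE_const Ω key 1 hx] at h
  simpa using h

lemma cE_idem (f : α → ℝ) {x : α} (hx : x ∈ Ω) : cE Ω key (cE Ω key f) x = cE Ω key f x :=
  cE_of_meas Ω key (fun _ _ _ _ h => cE_eq_of_key_eq Ω key f h) hx

lemma cE_eq_sum_ite (f : α → ℝ) (x : α) :
    cE Ω key f x = ∑ y ∈ Ω, if key y = key x then
      f y / ((Ω.filter (fun y => key y = key x)).card : ℝ) else 0 := by
  unfold cE
  rw [sum_div, sum_filter]

/-- self-adjointness. -/
lemma sum_cE_mul (f g : α → ℝ) :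
    ∑ x ∈ Ω, cE Ω key f x * g x = ∑ x ∈ Ω, f x * cE Ω key g x := by
  simp only [cE_eq_sum_ite, sum_mul, mul_sum]
  rw [sum_comm]
  refine sum_congr rfl (fun x _ => sum_congr rfl (fun y _ => ?_))
  by_cases h : key x = key y
  · rw [if_pos h, if_pos h.symm, h]
    ring
  · rw [if_neg h, if_neg (fun h' => h h'.symm)]
    ring

lemma sum_cE_mul_cE (f g : α → ℝ) :
    ∑ x ∈ Ω, cE Ω key f x * cE Ω key g x = ∑ x ∈ Ω, f x * cE Ω key g x := by
  rw [sum_cE_mul]
  exact sum_congr rfl (fun x hx => by rw [cE_idem Ω key g hx])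

lemma sum_cE (f : α → ℝ) : ∑ x ∈ Ω, cE Ω key f x = ∑ x ∈ Ω, f x := by
  have h := sum_cE_mul Ω key f (fun _ => 1)
  simp only [mul_one] at h
  rw [h]
  exact sum_congr rfl (fun x hx => by rw [cE_const Ω key 1 hx, mul_one])

/-- sum of `cE f` over one fibre. -/
lemma sum_fibre_cE (f : α → ℝ) (x : α) :
    ∑ y ∈ Ω.filter (fun y => key y = key x), cE Ω key f y
      = ∑ y ∈ Ω.filter (fun y => key y = key x), f y := by
  have h1 : ∑ y ∈ Ω.filter (fun y => key y = key x), cE Ω key f y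
      = ∑ y ∈ Ω.filter (fun y => key y = key x), cE Ω key f x :=
    sum_congr rfl (fun y hy => cE_eq_of_key_eq Ω key f (mem_filter.1 hy).2)
  rw [h1, sum_const, nsmul_eq_mul]
  by_cases hc : ((Ω.filter (fun y => key y = key x)).card : ℝ) = 0
  · have : Ω.filter (fun y => key y = key x) = ∅ := by
      rw [← card_eq_zero]
      exact_mod_cast hc
    rw [this]
    simp
  · unfold cE
    rw [mul_div_cancel₀ _ hc]

/-- localisation to the fibres of a coarser key. -/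
lemma cE_local (H : α → κ') (h : ∀ x ∈ Ω, ∀ y ∈ Ω, key x = key y → H x = H y)
    (f : α → ℝ) {x : α} (hx : x ∈ Ω) :
    cE Ω key f x = cE (Ω.filter (fun y => H y = H x)) key f x := by
  have : (Ω.filter (fun y => H y = H x)).filter (fun y => key y = key x)
      = Ω.filter (fun y => key y = key x) := by
    ext y
    simp only [mem_filter]
    constructor
    · rintro ⟨⟨h1, _⟩, h3⟩
      exact ⟨h1, h3⟩
    · rintro ⟨h1, h3⟩
      exact ⟨⟨h1, h y h1 x hx h3⟩, h3⟩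
  unfold cE
  rw [this]

/-- tower property (`key'` coarser than `key` on `Ω`). -/
lemma cE_tower (key' : α → κ') (h : ∀ x ∈ Ω, ∀ y ∈ Ω, key x = key y → key' x = key' y)
    (f : α → ℝ) {x : α} (hx : x ∈ Ω) : cE Ω key' (cE Ω key f) x = cE Ω key' f x := by
  have h1 : ∑ y ∈ Ω.filter (fun y => key' y = key' x), cE Ω key f y
      = ∑ y ∈ Ω.filter (fun y => key' y = key' x),
          cE (Ω.filter (fun y => key' y = key' x)) key f y := by
    refine sum_congr rfl (fun y hy => ?_)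
    rw [mem_filter] at hy
    rw [cE_local Ω key key' h f hy.1, hy.2]
  unfold cE at h1 ⊢
  rw [h1]
  congr 1
  exact sum_cE (Ω.filter (fun y => key' y = key' x)) key f

lemma cE_tower' (key' : α → κ') (h : ∀ x ∈ Ω, ∀ y ∈ Ω, key x = key y → key' x = key' y)
    (f : α → ℝ) {x : α} (hx : x ∈ Ω) : cE Ω key (cE Ω key' f) x = cE Ω key' f x :=
  cE_of_meas Ω key (fun a ha b hb hab => cE_eq_of_key_eq Ω key' f (h a ha b hb hab)) hx

/-- only the partition induced by the key matters. -/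
lemma cE_key_congr (key' : α → κ') (h : ∀ x ∈ Ω, ∀ y ∈ Ω, key x = key y ↔ key' x = key' y)
    (f : α → ℝ) {x : α} (hx : x ∈ Ω) : cE Ω key f x = cE Ω key' f x := by
  have : Ω.filter (fun y => key y = key x) = Ω.filter (fun y => key' y = key' x) :=
    filter_congr (fun y hy => h y hy x hx)
  unfold cE
  rw [this]

/-- summation fibre by fibre. -/
lemma sum_eq_sum_fibres (F : α → ℝ) :
    ∑ x ∈ Ω, F x = ∑ k ∈ Ω.image key, ∑ x ∈ Ω.filter (fun y => key y = k), F x :=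
  (sum_fiberwise_of_maps_to (fun x hx => mem_image_of_mem key hx) F).symm

lemma sum_cE_sq (f : α → ℝ) :
    ∑ x ∈ Ω, (cE Ω key f x) ^ 2 = ∑ x ∈ Ω, f x * cE Ω key f x := by
  rw [← sum_cE_mul_cE]
  exact sum_congr rfl (fun x _ => pow_two _)

lemma sum_cE_sq_eq_fibres (f : α → ℝ) :
    ∑ x ∈ Ω, (cE Ω key f x) ^ 2 = ∑ k ∈ Ω.image key,
      (∑ x ∈ Ω.filter (fun y => key y = k), f x) ^ 2 /
        ((Ω.filter (fun y => key y = k)).card : ℝ) := by
  rw [sum_eq_sum_fibres Ω key]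
  refine sum_congr rfl (fun k hk => ?_)
  obtain ⟨x0, hx0, rfl⟩ := mem_image.1 hk
  have h1 : ∑ x ∈ Ω.filter (fun y => key y = key x0), (cE Ω key f x) ^ 2
      = ∑ x ∈ Ω.filter (fun y => key y = key x0), (cE Ω key f x0) ^ 2 :=
    sum_congr rfl (fun y hy => by rw [cE_eq_of_key_eq Ω key f (mem_filter.1 hy).2])
  rw [h1, sum_const, nsmul_eq_mul]
  have hc := card_fibre_ne_zero Ω key hx0
  unfold cE
  field_simp

lemma sum_cD_sq (f : α → ℝ) :
    ∑ x ∈ Ω, (cD Ω key f x) ^ 2 = ∑ x ∈ Ω, f x ^ 2 - ∑ x ∈ Ω, (cE Ω key f x) ^ 2 := by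
  have h : ∑ x ∈ Ω, (cD Ω key f x) ^ 2
      = ∑ x ∈ Ω, f x ^ 2 - 2 * ∑ x ∈ Ω, f x * cE Ω key f x + ∑ x ∈ Ω, (cE Ω key f x) ^ 2 := by
    rw [mul_sum, ← sum_sub_distrib, ← sum_add_distrib]
    refine sum_congr rfl (fun x _ => ?_)
    unfold cD
    ring
  rw [h, ← sum_cE_sq]
  ring

lemma sum_cD_sq' (f : α → ℝ) :
    ∑ x ∈ Ω, (cD Ω key f x) ^ 2 = ∑ x ∈ Ω, f x * cD Ω key f x := by
  rw [sum_cD_sq, sum_cE_sq, ← sum_sub_distrib]
  refine sum_congr rfl (fun x _ => ?_)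
  unfold cD
  ring

lemma sum_cD_mul (f g : α → ℝ) :
    ∑ x ∈ Ω, cD Ω key f x * g x = ∑ x ∈ Ω, f x * cD Ω key g x := by
  unfold cD
  simp only [sub_mul, mul_sub, sum_sub_distrib]
  rw [sum_cE_mul]

lemma sum_cE_sq_le (f : α → ℝ) : ∑ x ∈ Ω, (cE Ω key f x) ^ 2 ≤ ∑ x ∈ Ω, f x ^ 2 := by
  have h := sum_cD_sq Ω key f
  have h0 : 0 ≤ ∑ x ∈ Ω, (cD Ω key f x) ^ 2 := sum_nonneg (fun x _ => sq_nonneg _)
  linarith

/-- the coarser conditional expectation has the smaller norm. -/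
lemma sum_cE_sq_le_of_coarser (key' : α → κ')
    (h : ∀ x ∈ Ω, ∀ y ∈ Ω, key x = key y → key' x = key' y) (f : α → ℝ) :
    ∑ x ∈ Ω, (cE Ω key' f x) ^ 2 ≤ ∑ x ∈ Ω, (cE Ω key f x) ^ 2 := by
  have h1 : ∑ x ∈ Ω, (cE Ω key' f x) ^ 2 = ∑ x ∈ Ω, (cE Ω key' (cE Ω key f) x) ^ 2 :=
    sum_congr rfl (fun x hx => by rw [cE_tower Ω key key' h f hx])
  rw [h1]
  exact sum_cE_sq_le Ω key' _

lemma cE_cD (f : α → ℝ) {x : α} (hx : x ∈ Ω) : cE Ω key (cD Ω key f) x = 0 := by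
  have : cE Ω key (cD Ω key f) x = cE Ω key f x - cE Ω key (cE Ω key f) x :=
    cE_sub Ω key f (cE Ω key f) x
  rw [this, cE_idem Ω key f hx, sub_self]

lemma cD_add_const (f : α → ℝ) (c : ℝ) {x : α} (hx : x ∈ Ω) :
    cD Ω key (fun y => f y + c) x = cD Ω key f x := by
  unfold cD
  rw [cE_add Ω key f (fun _ => c) x, cE_const Ω key c hx]
  ring

lemma mean_eq_cE (f : α → ℝ) (x : α) : mean Ω f = cE Ω (fun _ => ()) f x := by
  simp [mean, cE]

lemma sum_sub_mean (f : α → ℝ) : ∑ x ∈ Ω, (f x - mean Ω f) = 0 := by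
  rw [sum_sub_distrib, sum_const, nsmul_eq_mul]
  by_cases hc : (Ω.card : ℝ) = 0
  · have : Ω = ∅ := by
      rw [← card_eq_zero]
      exact_mod_cast hc
    subst this
    simp
  · unfold mean
    rw [mul_div_cancel₀ _ hc, sub_self]

lemma sum_sub_mean_sq (f : α → ℝ) :
    (Ω.card : ℝ) * ∑ x ∈ Ω, (f x - mean Ω f) ^ 2
      = (Ω.card : ℝ) * ∑ x ∈ Ω, f x ^ 2 - (∑ x ∈ Ω, f x) ^ 2 := by
  have h : ∑ x ∈ Ω, (f x - mean Ω f) ^ 2
      = ∑ x ∈ Ω, f x ^ 2 - 2 * mean Ω f * ∑ x ∈ Ω, f x + (Ω.card : ℝ) * mean Ω f ^ 2 := by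
    rw [mul_sum, ← sum_sub_distrib, ← nsmul_eq_mul, ← sum_const, ← sum_add_distrib]
    exact sum_congr rfl (fun x _ => by ring)
  rw [h]
  by_cases hc : (Ω.card : ℝ) = 0
  · have : Ω = ∅ := by
      rw [← card_eq_zero]
      exact_mod_cast hc
    subst this
    simp
  · unfold mean
    field_simp
    ring

/-- transport along a bijection `e : Ω → Ω'` compatible with the keys. -/
lemma cE_transport (Ω' : Finset β) (e : α → β) (he : Set.BijOn e Ω Ω') (key' : β → κ')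
    (hk : ∀ x ∈ Ω, ∀ y ∈ Ω, key x = key y ↔ key' (e x) = key' (e y))
    (g : β → ℝ) {x : α} (hx : x ∈ Ω) :
    cE Ω key (fun y => g (e y)) x = cE Ω' key' g (e x) := by
  have hmaps : ∀ a ∈ Ω.filter (fun y => key y = key x),
      e a ∈ Ω'.filter (fun y => key' y = key' (e x)) := by
    intro a ha
    rw [mem_filter] at ha ⊢
    exact ⟨he.mapsTo ha.1, (hk a ha.1 x hx).1 ha.2⟩
  have hinj : Set.InjOn e (Ω.filter (fun y => key y = key x) : Finset α) :=
    he.injOn.mono (fun a ha => (mem_filter.1 ha).1)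
  have hsurj : Set.SurjOn e (Ω.filter (fun y => key y = key x) : Finset α)
      (Ω'.filter (fun y => key' y = key' (e x)) : Finset β) := by
    intro b hb
    have hb' := mem_filter.1 hb
    obtain ⟨a, ha, rfl⟩ := he.surjOn hb'.1
    exact ⟨a, mem_filter.2 ⟨ha, (hk a ha x hx).2 hb'.2⟩, rfl⟩
  unfold cE
  rw [sum_nbij e hmaps hinj hsurj (fun _ _ => rfl), card_nbij e hmaps hinj hsurj]

/-- invariance under a bijection `τ` of `Ω` compatible with the key. -/
lemma cE_comp_of_bij (τ : α → α) (hτ : Set.BijOn τ Ω Ω)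
    (hk : ∀ x ∈ Ω, ∀ y ∈ Ω, key x = key y ↔ key (τ x) = key (τ y))
    (f : α → ℝ) {x : α} (hx : x ∈ Ω) : cE Ω key (fun y => f (τ y)) x = cE Ω key f (τ x) :=
  cE_transport Ω key Ω τ hτ key hk f hx

/-- transport along a map `e` which is injective on `Ω`. -/
lemma cE_image [DecidableEq β] (e : α → β) (he : Set.InjOn e Ω) (key' : β → κ')
    (hk : ∀ x ∈ Ω, ∀ y ∈ Ω, key x = key y ↔ key' (e x) = key' (e y))
    (g : β → ℝ) {x : α} (hx : x ∈ Ω) :
    cE Ω key (fun y => g (e y)) x = cE (Ω.image e) key' g (e x) := by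
  refine cE_transport Ω key (Ω.image e) e ⟨?_, he, ?_⟩ key' hk g hx
  · intro a ha
    exact mem_coe.2 (mem_image_of_mem e ha)
  · intro b hb
    obtain ⟨a, ha, rfl⟩ := mem_image.1 (mem_coe.1 hb)
    exact ⟨a, ha, rfl⟩

end

end Crest.Agent.S0453D
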