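import Mathlib
import Crest.Prelude.Def_SwitchChain

/-!
# Connectivity of the switch graph (package CONN of S0453)

Stated on the frozen Prelude objects `Crest.SwitchChain.*`.
-/

set_option autoImplicit false
open Finset
open Crest.SwitchChain

namespace Crest.Agent.S0453ConnB

variable {n : ℕ}

/-- the edge `ab`. -/
def mkE (a b : Fin n) (h : a ≠ b) : Edge n := ⟨s(a, b), by simpa using h⟩

lemma mkE_comm (a b : Fin n) (h : a ≠ b) : mkE a b h = mkE b a h.symm :=
  Subtype.ext Sym2.eq_swap

lemma mem_mkE {a b v : Fin n} {h : a ≠ b} : v ∈ (mkE a b h).1 ↔ v = a ∨ v = b := by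
  simp [mkE]

lemma mkE_eq_iff {a b c e : Fin n} {h : a ≠ b} {h' : c ≠ e} :
    mkE a b h = mkE c e h' ↔ (a = c ∧ b = e) ∨ (a = e ∧ b = c) := by
  simp [mkE, Subtype.ext_iff]

lemma exists_mkE (e : Edge n) : ∃ a b, ∃ h : a ≠ b, e = mkE a b h := by
  obtain ⟨e, he⟩ := e
  induction e using Sym2.ind with
  | _ a b => exact ⟨a, b, by simpa using he, rfl⟩

/-- adjacency in the graph with edge set `G`. -/
def Adj (G : Finset (Edge n)) (a b : Fin n) : Prop := ∃ h : a ≠ b, mkE a b h ∈ G

lemma Adj.symm {G : Finset (Edge n)} {a b : Fin n} (h : Adj G a b) : Adj G b a := by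
  obtain ⟨h1, h2⟩ := h
  exact ⟨h1.symm, by rwa [mkE_comm] at h2⟩

lemma adj_comm {G : Finset (Edge n)} {a b : Fin n} : Adj G a b ↔ Adj G b a :=
  ⟨Adj.symm, Adj.symm⟩

lemma Adj.ne {G : Finset (Edge n)} {a b : Fin n} (h : Adj G a b) : a ≠ b := h.1

lemma adj_iff {G : Finset (Edge n)} {a b : Fin n} (h : a ≠ b) : Adj G a b ↔ mkE a b h ∈ G :=
  ⟨fun h' => h'.2, fun h' => ⟨h, h'⟩⟩

open scoped Classical in
/-- neighbourhood of `v`. -/
noncomputable def nbr (G : Finset (Edge n)) (v : Fin n) : Finset (Fin n) :=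
  univ.filter (fun x => Adj G v x)

lemma mem_nbr {G : Finset (Edge n)} {v x : Fin n} : x ∈ nbr G v ↔ Adj G v x := by
  simp [nbr]

lemma deg_eq_card_nbr (G : Finset (Edge n)) (v : Fin n) : deg G v = (nbr G v).card := by
  symm
  unfold deg
  refine Finset.card_bij (fun x hx => mkE v x (mem_nbr.1 hx).1) ?_ ?_ ?_
  · intro x hx
    simp only [mem_filter]
    exact ⟨(mem_nbr.1 hx).2, by simp [mem_mkE]⟩
  · intro x hx y hy hxy
    rw [mkE_eq_iff] at hxy
    rcases hxy with ⟨_, h⟩ | ⟨h1, h2⟩
    · exact h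
    · exact absurd h2.symm (mem_nbr.1 hx).1
  · intro e he
    simp only [mem_filter] at he
    obtain ⟨a, b, hab, rfl⟩ := exists_mkE e
    rcases mem_mkE.1 he.2 with rfl | rfl
    · exact ⟨b, mem_nbr.2 ⟨hab, he.1⟩, rfl⟩
    · exact ⟨a, mem_nbr.2 ⟨hab.symm, by rw [mkE_comm]; exact he.1⟩, by rw [mkE_comm]⟩

lemma ext_adj {G G' : Finset (Edge n)} (h : ∀ a b, Adj G a b ↔ Adj G' a b) : G = G' := by
  ext e
  obtain ⟨a, b, hab, rfl⟩ := exists_mkE e
  constructor
  · intro he; exact ((h a b).1 ⟨hab, he⟩).2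
  · intro he; exact ((h a b).2 ⟨hab, he⟩).2

/-- four pairwise distinct vertices. -/
structure Quad (a b c e : Fin n) : Prop where
  ab : a ≠ b
  ce : c ≠ e
  ac : a ≠ c
  be : b ≠ e
  ae : a ≠ e
  bc : b ≠ c

/-- remove `ab, ce`, insert `ac, be`. -/
def sw (E : Finset (Edge n)) {a b c e : Fin n} (q : Quad a b c e) : Finset (Edge n) :=
  (E \ {mkE a b q.ab, mkE c e q.ce}) ∪ {mkE a c q.ac, mkE b e q.be}

/-- one elementary switch. -/
def SwitchStep (E E' : Finset (Edge n)) : Prop :=
  ∃ (a b c e : Fin n) (q : Quad a b c e), mkE a b q.ab ∈ E ∧ mkE c e q.ce ∈ E ∧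
    mkE a c q.ac ∉ E ∧ mkE b e q.be ∉ E ∧ E' = sw E q

lemma card_filter_pair {a b c e : Fin n} (q : Quad a b c e) (v : Fin n) :
    (({mkE a b q.ab, mkE c e q.ce} : Finset (Edge n)).filter (fun x => v ∈ x.1)).card =
      if v ∈ ({a, b, c, e} : Finset (Fin n)) then 1 else 0 := by
  obtain ⟨hab, hce, hac, hbe, hae, hbc⟩ := q
  rw [Finset.filter_insert, Finset.filter_singleton]
  simp only [mem_mkE, mem_insert, mem_singleton]
  by_cases h1 : v = a
  · subst h1
    simp [hac, hae]
  by_cases h2 : v = b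
  · subst h2
    simp [hbc, hbe]
  by_cases h3 : v = c
  · subst h3
    simp [hac.symm, hbc.symm]
  by_cases h4 : v = e
  · subst h4
    simp [hae.symm, hbe.symm]
  simp [h1, h2, h3, h4]

lemma sdiff_union_sdiff_union {α : Type*} [DecidableEq α] {E F F' : Finset α} (hF : F ⊆ E)
    (hF' : Disjoint F' E) : ((E \ F) ∪ F') \ F' ∪ F = E := by
  ext x
  simp only [mem_union, mem_sdiff]
  have h1 := @hF x
  have h2 : x ∈ F' → x ∉ E := fun h => Finset.disjoint_left.1 hF' h
  tauto

lemma deg_switch {E F F' : Finset (Edge n)} (hF : F ⊆ E) (hF' : Disjoint F' E)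
    (v : Fin n) (h : (F.filter (fun x => v ∈ x.1)).card = (F'.filter (fun x => v ∈ x.1)).card) :
    deg (E \ F ∪ F') v = deg E v := by
  unfold deg
  have h0 : (E \ F).filter (fun x => v ∈ x.1) =
      E.filter (fun x => v ∈ x.1) \ F.filter (fun x => v ∈ x.1) := by
    ext x
    simp only [mem_filter, mem_sdiff]
    tauto
  rw [Finset.filter_union, Finset.card_union_of_disjoint, h0,
    Finset.card_sdiff_of_subset]
  · have : (F.filter (fun x => v ∈ x.1)).card ≤ (E.filter (fun x => v ∈ x.1)).card :=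
      Finset.card_le_card (Finset.filter_subset_filter _ hF)
    omega
  · exact Finset.filter_subset_filter _ hF
  · refine Finset.disjoint_left.2 ?_
    intro x hx hx'
    simp only [mem_filter, mem_sdiff] at hx hx'
    exact Finset.disjoint_left.1 hF' hx'.1 hx.1.1

/-- the same four vertices, read for the reverse switch. -/
lemma Quad.rev {a b c e : Fin n} (q : Quad a b c e) : Quad a c b e :=
  ⟨q.ac, q.be, q.ab, q.ce, q.ae, q.bc.symm⟩

lemma pair_subset {E : Finset (Edge n)} {x y : Edge n} (hx : x ∈ E) (hy : y ∈ E) :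
    ({x, y} : Finset (Edge n)) ⊆ E := by
  intro z hz
  simp only [mem_insert, mem_singleton] at hz
  rcases hz with rfl | rfl <;> assumption

lemma pair_disjoint {E : Finset (Edge n)} {x y : Edge n} (hx : x ∉ E) (hy : y ∉ E) :
    Disjoint ({x, y} : Finset (Edge n)) E := by
  refine Finset.disjoint_left.2 ?_
  intro z hz
  simp only [mem_insert, mem_singleton] at hz
  rcases hz with rfl | rfl <;> assumption

lemma SwitchStep.symm {E E' : Finset (Edge n)} (h : SwitchStep E E') : SwitchStep E' E := by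
  obtain ⟨a, b, c, e, q, h1, h2, h3, h4, rfl⟩ := h
  refine ⟨a, c, b, e, q.rev, ?_, ?_, ?_, ?_, ?_⟩
  · simp [sw]
  · simp [sw]
  · have := q.bc
    have := q.ae
    have := q.ab
    simp [sw, mkE_eq_iff]
    tauto
  · have := q.bc
    have := q.ae
    have := q.ce
    have := q.ac
    have := q.be
    simp [sw, mkE_eq_iff]
    tauto
  · exact (sdiff_union_sdiff_union (pair_subset h1 h2) (pair_disjoint h3 h4)).symm

lemma SwitchStep.deg_eq {E E' : Finset (Edge n)} (h : SwitchStep E E') (v : Fin n) :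
    deg E' v = deg E v := by
  obtain ⟨a, b, c, e, q, h1, h2, h3, h4, rfl⟩ := h
  refine deg_switch (pair_subset h1 h2) (pair_disjoint h3 h4) v ?_
  rw [card_filter_pair q, card_filter_pair q.rev]
  have : v ∈ ({a, b, c, e} : Finset (Fin n)) ↔ v ∈ ({a, c, b, e} : Finset (Fin n)) := by
    simp only [mem_insert, mem_singleton]
    tauto
  simp only [this]

lemma SwitchStep.mem_realizations {d : Fin n → ℕ} {E E' : Finset (Edge n)} (h : SwitchStep E E')
    (hE : E ∈ realizations d) : E' ∈ realizations d := by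
  simp only [realizations, mem_filter, mem_univ, true_and] at hE ⊢
  intro v
  rw [h.deg_eq v, hE v]

lemma adj_sw {E : Finset (Edge n)} {a b c e : Fin n} (q : Quad a b c e) (x y : Fin n) :
    Adj (sw E q) x y ↔ (Adj E x y ∧ s(x, y) ≠ s(a, b) ∧ s(x, y) ≠ s(c, e)) ∨
      s(x, y) = s(a, c) ∨ s(x, y) = s(b, e) := by
  constructor
  · rintro ⟨hxy, h⟩
    simp only [sw, mem_union, mem_sdiff, mem_insert, mem_singleton, mkE, Subtype.mk.injEq,
      not_or] at h
    rcases h with ⟨h1, h2, h3⟩ | h | h
    · exact Or.inl ⟨⟨hxy, h1⟩, h2, h3⟩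
    · exact Or.inr (Or.inl h)
    · exact Or.inr (Or.inr h)
  · rintro (⟨⟨hxy, h1⟩, h2, h3⟩ | h | h)
    · refine ⟨hxy, ?_⟩
      simp only [sw, mem_union, mem_sdiff, mem_insert, mem_singleton, mkE, Subtype.mk.injEq,
        not_or]
      exact Or.inl ⟨h1, h2, h3⟩
    · have hxy : x ≠ y := by
        intro hxy
        subst hxy
        have := q.ac
        simp only [Sym2.eq_iff] at h
        rcases h with ⟨rfl, h⟩ | ⟨rfl, h⟩ <;> simp_all
      refine ⟨hxy, ?_⟩
      simp only [sw, mem_union, mem_sdiff, mem_insert, mem_singleton, mkE, Subtype.mk.injEq,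
        not_or]
      exact Or.inr (Or.inl h)
    · have hxy : x ≠ y := by
        intro hxy
        subst hxy
        have := q.be
        simp only [Sym2.eq_iff] at h
        rcases h with ⟨rfl, h⟩ | ⟨rfl, h⟩ <;> simp_all
      refine ⟨hxy, ?_⟩
      simp only [sw, mem_union, mem_sdiff, mem_insert, mem_singleton, mkE, Subtype.mk.injEq,
        not_or]
      exact Or.inr (Or.inr h)

/-- `G` and `G'` agree on every pair not contained in `W`. -/
def AgreeOff (W : Finset (Fin n)) (G G' : Finset (Edge n)) : Prop :=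
  ∀ x y, (x ∉ W ∨ y ∉ W) → (Adj G x y ↔ Adj G' x y)

lemma AgreeOff.symm {W : Finset (Fin n)} {G G' : Finset (Edge n)} (h : AgreeOff W G G') :
    AgreeOff W G' G := fun x y hxy => (h x y hxy).symm

/-- same degree vector. -/
def SameDeg (G G' : Finset (Edge n)) : Prop := ∀ v, (nbr G v).card = (nbr G' v).card

lemma SameDeg.symm {G G' : Finset (Edge n)} (h : SameDeg G G') : SameDeg G' G :=
  fun v => (h v).symm

lemma SameDeg.trans {G G' G'' : Finset (Edge n)} (h : SameDeg G G') (h' : SameDeg G' G'') :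
    SameDeg G G'' := fun v => (h v).trans (h' v)

lemma SwitchStep.sameDeg {E E' : Finset (Edge n)} (h : SwitchStep E E') : SameDeg E E' := by
  intro v
  rw [← deg_eq_card_nbr, ← deg_eq_card_nbr, h.deg_eq v]

lemma card_nbrW_eq {W : Finset (Fin n)} {G G' : Finset (Edge n)} (hA : AgreeOff W G G')
    (hD : SameDeg G G') (y : Fin n) :
    ((nbr G y).filter (fun x => x ∈ W)).card = ((nbr G' y).filter (fun x => x ∈ W)).card := by
  have h1 := Finset.card_filter_add_card_filter_not (s := nbr G y) (fun x => x ∈ W)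
  have h2 := Finset.card_filter_add_card_filter_not (s := nbr G' y) (fun x => x ∈ W)
  have h3 : (nbr G y).filter (fun x => ¬ x ∈ W) = (nbr G' y).filter (fun x => ¬ x ∈ W) := by
    ext x
    simp only [mem_filter, mem_nbr]
    constructor
    · rintro ⟨h, hx⟩
      exact ⟨(hA y x (Or.inr hx)).1 h, hx⟩
    · rintro ⟨h, hx⟩
      exact ⟨(hA y x (Or.inr hx)).2 h, hx⟩
  have h4 := hD y
  rw [h3] at h1
  omega

lemma exists_exchange {W : Finset (Fin n)} {G : Finset (Edge n)} {v u w : Fin n}
    (hvw : Adj G v w) (hvu : ¬ Adj G v u) (huv : u ≠ v) (hv : v ∈ W) (hu : u ∈ W)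
    (hcard : ((nbr G w).filter (fun x => x ∈ W)).card ≤
      ((nbr G u).filter (fun x => x ∈ W)).card) :
    ∃ x ∈ W, x ≠ u ∧ x ≠ w ∧ x ≠ v ∧ Adj G u x ∧ ¬ Adj G w x := by
  by_contra hcon
  push Not at hcon
  have hvmem : v ∈ (nbr G w).filter (fun x => x ∈ W) := by
    simp only [mem_filter, mem_nbr]
    exact ⟨hvw.symm, hv⟩
  have h1 : ((nbr G u).filter (fun x => x ∈ W)).card ≤
      (((nbr G w).filter (fun x => x ∈ W)).erase v).card := by
    apply Finset.card_le_card_of_injOn (fun x => if x = w then u else x)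
    · intro x hx
      simp only [coe_filter, mem_nbr, Set.mem_ofPred_eq] at hx
      obtain ⟨hux, hxW⟩ := hx
      have hxv : x ≠ v := by
        rintro rfl
        exact hvu hux.symm
      simp only [coe_erase, coe_filter, mem_nbr, Set.mem_sdiff, Set.mem_ofPred_eq,
        Set.mem_singleton_iff]
      by_cases hxw : x = w
      · subst hxw
        simp only [if_true]
        exact ⟨⟨hux.symm, hu⟩, huv⟩
      · simp only [hxw, if_false]
        exact ⟨⟨hcon x hxW hux.ne.symm hxw hxv hux, hxW⟩, hxv⟩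
    · intro x hx y hy hxy
      simp only [coe_filter, mem_nbr, Set.mem_ofPred_eq] at hx hy
      have hxu : x ≠ u := hx.1.ne.symm
      have hyu : y ≠ u := hy.1.ne.symm
      by_cases hxw : x = w <;> by_cases hyw : y = w <;> simp_all
  rw [Finset.card_erase_of_mem hvmem] at h1
  have h2 : 0 < ((nbr G w).filter (fun x => x ∈ W)).card := Finset.card_pos.2 ⟨v, hvmem⟩
  omega

lemma step {W : Finset (Fin n)} {v : Fin n} (hv : v ∈ W) {G G' : Finset (Edge n)}
    (hA : AgreeOff W G G') {u w : Fin n}
    (hw : Adj G v w) (hw' : ¬ Adj G' v w) (hu : ¬ Adj G v u) (hu' : Adj G' v u)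
    (hcard : ((nbr G w).filter (fun x => x ∈ W)).card ≤
      ((nbr G u).filter (fun x => x ∈ W)).card) :
    ∃ G₁, SwitchStep G G₁ ∧ AgreeOff W G₁ G' ∧ nbr G₁ v = insert u ((nbr G v).erase w) := by
  have huW : u ∈ W := by
    by_contra h
    exact hu ((hA v u (Or.inr h)).2 hu')
  have hwW : w ∈ W := by
    by_contra h
    exact hw' ((hA v w (Or.inr h)).1 hw)
  have huv : u ≠ v := hu'.ne.symm
  obtain ⟨x, hxW, hxu, hxw, hxv, hux, hwx⟩ := exists_exchange hw hu huv hv huW hcard
  have huw : u ≠ w := by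
    rintro rfl
    exact hu hw
  have q : Quad v w u x := ⟨hw.ne, hxu.symm, huv.symm, hxw.symm, hxv.symm, huw.symm⟩
  refine ⟨sw G q, ⟨v, w, u, x, q, hw.2, hux.2, ?_, ?_, rfl⟩, ?_, ?_⟩
  · exact fun h => hu ⟨_, h⟩
  · exact fun h => hwx ⟨_, h⟩
  · intro a b hab
    rw [adj_sw, ← hA a b hab]
    have key : ∀ p r, p ∈ W → r ∈ W → s(a, b) ≠ s(p, r) := by
      intro p r hp hr h
      simp only [Sym2.eq_iff] at h
      rcases h with ⟨rfl, rfl⟩ | ⟨rfl, rfl⟩ <;> tauto
    have h1 := key v w hv hwW
    have h2 := key u x huW hxW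
    have h3 := key v u hv huW
    have h4 := key w x hwW hxW
    tauto
  · ext y
    have hvw := hw.ne
    simp only [mem_nbr, adj_sw, mem_insert, mem_erase, Sym2.eq_iff, ne_eq]
    constructor
    · rintro (⟨h1, h2, h3⟩ | h | h)
      · refine Or.inr ⟨?_, h1⟩
        rintro rfl
        exact h2 (Or.inl ⟨trivial, rfl⟩)
      · rcases h with ⟨_, h⟩ | ⟨h, _⟩
        · exact Or.inl h
        · exact absurd h huv.symm
      · rcases h with ⟨h, _⟩ | ⟨h, _⟩
        · exact absurd h hvw
        · exact absurd h hxv.symm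
    · rintro (rfl | ⟨h1, h2⟩)
      · exact Or.inr (Or.inl (Or.inl ⟨trivial, rfl⟩))
      · refine Or.inl ⟨h2, ?_, ?_⟩
        · rintro (⟨_, h⟩ | ⟨h, _⟩)
          · exact h1 h
          · exact hvw h
        · rintro (⟨h, _⟩ | ⟨h, _⟩)
          · exact huv h.symm
          · exact hxv h.symm

lemma measure_lt {A B : Finset (Fin n)} {u w : Fin n} (hwA : w ∈ A) (hwB : w ∉ B)
    (huB : u ∈ B) :
    (insert u (A.erase w) \ B).card + (B \ insert u (A.erase w)).card <
      (A \ B).card + (B \ A).card := by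
  have h1 : (insert u (A.erase w) \ B).card < (A \ B).card := by
    apply Finset.card_lt_card
    rw [Finset.ssubset_iff_of_subset]
    · refine ⟨w, by simp [hwA, hwB], ?_⟩
      simp only [mem_sdiff, mem_insert, mem_erase, not_and, not_not]
      rintro (rfl | h)
      · exact absurd huB hwB
      · exact absurd rfl h.1
    · intro y hy
      simp only [mem_sdiff, mem_insert, mem_erase] at hy ⊢
      rcases hy with ⟨rfl | h, h'⟩
      · exact absurd huB h'
      · exact ⟨h.2, h'⟩
  have h2 : (B \ insert u (A.erase w)).card ≤ (B \ A).card := by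
    apply Finset.card_le_card
    intro y hy
    simp only [mem_sdiff, mem_insert, mem_erase, not_or, not_and] at hy ⊢
    refine ⟨hy.1, fun hyA => hy.2.2 ?_ hyA⟩
    rintro rfl
    exact hwB hy.1
  omega

/-- reachability by switches. -/
abbrev Reach : Finset (Edge n) → Finset (Edge n) → Prop := Relation.ReflTransGen SwitchStep

lemma Reach.symm {G G' : Finset (Edge n)} (h : Reach G G') : Reach G' G := by
  induction h with
  | refl => exact Relation.ReflTransGen.refl
  | tail _ b c => exact Relation.ReflTransGen.head b.symm c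

lemma agree_of_nbr_eq {W' : Finset (Fin n)} {v : Fin n} {G G' : Finset (Edge n)}
    (hA : AgreeOff (insert v W') G G') (h : nbr G v = nbr G' v) : AgreeOff W' G G' := by
  intro x y hxy
  by_cases hx : x = v
  · subst hx
    rw [← mem_nbr, ← mem_nbr, h]
  by_cases hy : y = v
  · subst hy
    rw [adj_comm, @adj_comm _ G', ← mem_nbr, ← mem_nbr, h]
  apply hA
  simp only [mem_insert, not_or]
  tauto

lemma inner {W' : Finset (Fin n)} {v : Fin n}
    (IH : ∀ G G' : Finset (Edge n), SameDeg G G' → AgreeOff W' G G' → Reach G G') :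
    ∀ (k : ℕ) (G G' : Finset (Edge n)), SameDeg G G' → AgreeOff (insert v W') G G' →
      (nbr G v \ nbr G' v).card + (nbr G' v \ nbr G v).card ≤ k → Reach G G' := by
  intro k
  induction k with
  | zero =>
    intro G G' hD hA hk
    have h1 : nbr G v \ nbr G' v = ∅ := card_eq_zero.1 (by omega)
    have h2 : nbr G' v \ nbr G v = ∅ := card_eq_zero.1 (by omega)
    have h3 : nbr G v = nbr G' v :=
      Subset.antisymm (sdiff_eq_empty_iff_subset.1 h1) (sdiff_eq_empty_iff_subset.1 h2)
    exact IH G G' hD (agree_of_nbr_eq hA h3)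
  | succ k ih =>
    intro G G' hD hA hk
    by_cases h3 : nbr G v = nbr G' v
    · exact IH G G' hD (agree_of_nbr_eq hA h3)
    · obtain ⟨w, hw, hw'⟩ : ∃ w ∈ nbr G v, w ∉ nbr G' v := by
        by_contra hcon
        push Not at hcon
        exact h3 (eq_of_subset_of_card_le hcon (hD v).symm.le)
      obtain ⟨u, hu', hu⟩ : ∃ u ∈ nbr G' v, u ∉ nbr G v := by
        by_contra hcon
        push Not at hcon
        exact h3 (eq_of_subset_of_card_le hcon (hD v).le).symm
      rcases le_total ((nbr G w).filter (fun x => x ∈ insert v W')).card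
        ((nbr G u).filter (fun x => x ∈ insert v W')).card with hc | hc
      · obtain ⟨G₁, hs, hA₁, hn⟩ := step (mem_insert_self v W') hA (mem_nbr.1 hw)
          (fun h => hw' (mem_nbr.2 h)) (fun h => hu (mem_nbr.2 h)) (mem_nbr.1 hu') hc
        refine Relation.ReflTransGen.head hs (ih G₁ G' (hs.sameDeg.symm.trans hD) hA₁ ?_)
        rw [hn]
        have := measure_lt hw hw' hu'
        omega
      · rw [card_nbrW_eq hA hD, card_nbrW_eq hA hD] at hc
        obtain ⟨G₁, hs, hA₁, hn⟩ := step (mem_insert_self v W') hA.symm (mem_nbr.1 hu')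
          (fun h => hu (mem_nbr.2 h)) (fun h => hw' (mem_nbr.2 h)) (mem_nbr.1 hw) hc
        refine Relation.ReflTransGen.tail (ih G G₁ (hD.trans hs.sameDeg) hA₁.symm ?_) hs.symm
        rw [hn]
        have := measure_lt hu' hu hw
        omega

theorem reach_of_agreeOff (W : Finset (Fin n)) :
    ∀ G G' : Finset (Edge n), SameDeg G G' → AgreeOff W G G' → Reach G G' := by
  induction W using Finset.induction_on with
  | empty =>
    intro G G' _ hA
    have : G = G' := ext_adj (fun a b => hA a b (Or.inl (notMem_empty a)))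
    subst this
    exact Relation.ReflTransGen.refl
  | insert v W' hv IH =>
    intro G G' hD hA
    exact inner IH _ G G' hD hA le_rfl

/-- **Connectivity of the switch graph.** -/
theorem switch_connected {d : Fin n → ℕ} {G G' : Finset (Edge n)} (hG : G ∈ realizations d)
    (hG' : G' ∈ realizations d) : Relation.ReflTransGen SwitchStep G G' := by
  simp only [realizations, mem_filter, mem_univ, true_and] at hG hG'
  refine reach_of_agreeOff univ G G' ?_ ?_
  · intro v
    rw [← deg_eq_card_nbr, ← deg_eq_card_nbr, hG v, hG' v]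
  · intro x y h
    simp at h

/-- A function which is invariant under every switch is constant on the realizations. -/
theorem const_of_switch_invariant {β : Type*} {d : Fin n → ℕ} (f : Finset (Edge n) → β)
    (h : ∀ E ∈ realizations d, ∀ E', SwitchStep E E' → f E = f E') :
    ∀ G ∈ realizations d, ∀ G' ∈ realizations d, f G = f G' := by
  intro G hG G' hG'
  have key : ∀ E, Relation.ReflTransGen SwitchStep G E → E ∈ realizations d ∧ f G = f E := by
    intro E hE
    induction hE with
    | refl => exact ⟨hG, rfl⟩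
    | tail _ hs ih => exact ⟨hs.mem_realizations ih.1, ih.2.trans (h _ ih.1 _ hs)⟩
  exact (key G' (switch_connected hG hG')).2

/-! ### Bridge to the proposals of the kernel -/

lemma pair_mem_pmSet {a b c e : Fin n} (q : Quad a b c e) :
    ({mkE a b q.ab, mkE c e q.ce} : Finset (Edge n)) ∈ pmSet ({a, b, c, e} : Finset (Fin n)) := by
  simp only [pmSet, mem_filter, mem_powersetCard, subset_univ, true_and]
  refine ⟨?_, ?_, ?_⟩
  · apply Finset.card_pair
    rw [Ne, mkE_eq_iff]
    have := q.ac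
    have := q.ae
    tauto
  · intro x hx v hv
    simp only [mem_insert, mem_singleton] at hx ⊢
    rcases hx with rfl | rfl
    · rw [mem_mkE] at hv
      tauto
    · rw [mem_mkE] at hv
      tauto
  · intro v hv
    rw [card_filter_pair q v, if_pos hv]

lemma Quad.card_eq {a b c e : Fin n} (q : Quad a b c e) :
    ({a, b, c, e} : Finset (Fin n)).card = 4 := by
  obtain ⟨hab, hce, hac, hbe, hae, hbc⟩ := q
  rw [card_insert_of_notMem, card_insert_of_notMem, card_insert_of_notMem, card_singleton]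
  · simpa using hce
  · simp [hbc, hbe]
  · simp [hab, hac, hae]

lemma SwitchStep.ne {E E' : Finset (Edge n)} (h : SwitchStep E E') : E ≠ E' := by
  obtain ⟨a, b, c, e, q, h1, h2, h3, h4, rfl⟩ := h
  intro h
  apply h3
  rw [h]
  simp [sw]

theorem SwitchStep.exists_proposal {E E' : Finset (Edge n)} (h : SwitchStep E E') :
    ∃ S ∈ (univ : Finset (Fin n)).powersetCard 4, ∃ F ∈ pmSet S, ∃ F' ∈ (pmSet S).erase F,
      F ⊆ E ∧ Disjoint F' E ∧ switchResult E F F' = E' := by
  obtain ⟨a, b, c, e, q, h1, h2, h3, h4, rfl⟩ := h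
  have hS : ({a, c, b, e} : Finset (Fin n)) = {a, b, c, e} := by
    ext x
    simp only [mem_insert, mem_singleton]
    tauto
  refine ⟨{a, b, c, e}, ?_, {mkE a b q.ab, mkE c e q.ce}, pair_mem_pmSet q,
    {mkE a c q.ac, mkE b e q.be}, ?_, pair_subset h1 h2, pair_disjoint h3 h4, ?_⟩
  · simp only [mem_powersetCard, subset_univ, true_and]
    exact q.card_eq
  · rw [mem_erase]
    refine ⟨?_, ?_⟩
    · intro h
      apply h3
      have : mkE a c q.ac ∈ ({mkE a b q.ab, mkE c e q.ce} : Finset (Edge n)) := by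
        rw [← h]
        simp
      exact pair_subset h1 h2 this
    · have := pair_mem_pmSet q.rev
      rwa [hS] at this
  · unfold switchResult
    rw [if_pos ⟨pair_subset h1 h2, pair_disjoint h3 h4⟩]
    rfl

theorem SwitchStep.one_le_proposalCount {E E' : Finset (Edge n)} (h : SwitchStep E E') :
    1 ≤ proposalCount E E' := by
  obtain ⟨S, hS, F, hF, F', hF', -, -, hr⟩ := h.exists_proposal
  unfold proposalCount
  calc 1 = (if switchResult E F F' = E' then 1 else 0) := by rw [if_pos hr]
    _ ≤ ∑ F' ∈ (pmSet S).erase F, (if switchResult E F F' = E' then 1 else 0) :=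
        Finset.single_le_sum (f := fun F' => if switchResult E F F' = E' then 1 else 0)
          (fun _ _ => Nat.zero_le _) hF'
    _ ≤ ∑ F ∈ pmSet S, ∑ F' ∈ (pmSet S).erase F,
          (if switchResult E F F' = E' then 1 else 0) :=
        Finset.single_le_sum (f := fun F => ∑ F' ∈ (pmSet S).erase F,
          (if switchResult E F F' = E' then 1 else 0)) (fun _ _ => Nat.zero_le _) hF
    _ ≤ _ :=
        Finset.single_le_sum (f := fun S => ∑ F ∈ pmSet S, ∑ F' ∈ (pmSet S).erase F,
          (if switchResult E F F' = E' then 1 else 0)) (fun _ _ => Nat.zero_le _) hS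

theorem SwitchStep.kernel_ge {E E' : Finset (Edge n)} (h : SwitchStep E E') :
    1 / (12 * (n.choose 4 : ℝ)) ≤ kernel n E E' := by
  unfold kernel
  rw [if_neg h.ne, zero_add]
  have h1 : (1 : ℝ) ≤ (proposalCount E E' : ℝ) := by exact_mod_cast h.one_le_proposalCount
  gcongr

end Crest.Agent.S0453ConnB
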