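import Mathlib
import Crest.Prelude.Def_SwitchChain
/-! S0453 package KER (helper23): a four-set carries exactly three perfect matchings (`card_pmSet`). -/
set_option autoImplicit false
open Finset

namespace Crest.Agent.S0453Ker

open Crest.SwitchChain

variable {n : ℕ}

/-- the edge `xy` -/
def mkE (x y : Fin n) (h : x ≠ y) : Edge n := ⟨s(x, y), by simpa using h⟩

lemma mem_mkE {x y : Fin n} (h : x ≠ y) (v : Fin n) : v ∈ (mkE x y h).1 ↔ v = x ∨ v = y := by
  simp [mkE]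

lemma edge_eq_mkE (e : Edge n) : ∃ x y, ∃ h : x ≠ y, e = mkE x y h := by
  obtain ⟨e, he⟩ := e
  induction e using Sym2.ind with
  | _ x y => exact ⟨x, y, by simpa using he, rfl⟩

lemma mkE_eq_iff {x y x' y' : Fin n} (h : x ≠ y) (h' : x' ≠ y') :
    mkE x y h = mkE x' y' h' ↔ (x = x' ∧ y = y') ∨ (x = y' ∧ y = x') := by
  simp [mkE, Subtype.ext_iff]

lemma mkE_comm {x y : Fin n} (h : x ≠ y) : mkE x y h = mkE y x h.symm := by
  simp [mkE, Sym2.eq_swap]

lemma edge_of_mem {e : Edge n} {a : Fin n} (ha : a ∈ e.1) : ∃ x, ∃ h : a ≠ x, e = mkE a x h := by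
  obtain ⟨x, y, h, rfl⟩ := edge_eq_mkE e
  rcases (mem_mkE h a).mp ha with rfl | rfl
  · exact ⟨y, h, rfl⟩
  · exact ⟨x, h.symm, mkE_comm h⟩

lemma two_of {c d y z : Fin n} (hcd : c ≠ d) (hyz : y ≠ z) (hy : y = c ∨ y = d) (hz : z = c ∨ z = d) :
    mkE y z hyz = mkE c d hcd := by
  rw [mkE_eq_iff]
  rcases hy with rfl | rfl <;> rcases hz with rfl | rfl <;> simp_all

lemma pm_aux {a b c d : Fin n} (hab : a ≠ b) (hac : a ≠ c) (had : a ≠ d) (hbc : b ≠ c)
    (hbd : b ≠ d) (hcd : c ≠ d) {e1 e2 : Edge n}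
    (h1 : ∀ v ∈ e1.1, v ∈ ({a, b, c, d} : Finset (Fin n)))
    (h2 : ∀ v ∈ e2.1, v ∈ ({a, b, c, d} : Finset (Fin n)))
    (key : ∀ v ∈ ({a, b, c, d} : Finset (Fin n)), ¬ (v ∈ e1.1 ∧ v ∈ e2.1))
    (ha : a ∈ e1.1) :
    (e1 = mkE a b hab ∧ e2 = mkE c d hcd) ∨ (e1 = mkE a c hac ∧ e2 = mkE b d hbd) ∨
      (e1 = mkE a d had ∧ e2 = mkE b c hbc) := by
  obtain ⟨x, hax, rfl⟩ := edge_of_mem ha
  obtain ⟨y, z, hyz, rfl⟩ := edge_eq_mkE e2
  have hx := h1 x ((mem_mkE _ _).mpr (Or.inr rfl))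
  have hy := h2 y ((mem_mkE _ _).mpr (Or.inl rfl))
  have hz := h2 z ((mem_mkE _ _).mpr (Or.inr rfl))
  have ky := key y hy
  have kz := key z hz
  simp only [mem_mkE, true_or, or_true, and_true, not_or] at ky kz
  simp only [Finset.mem_insert, Finset.mem_singleton] at hx hy hz
  rcases hx with rfl | rfl | rfl | rfl
  · exact absurd rfl hax
  · left; refine ⟨rfl, two_of _ _ ?_ ?_⟩ <;> tauto
  · right; left; refine ⟨rfl, two_of _ _ ?_ ?_⟩ <;> tauto
  · right; right; refine ⟨rfl, two_of _ _ ?_ ?_⟩ <;> tauto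

lemma pm_cases {a b c d : Fin n} (hab : a ≠ b) (hac : a ≠ c) (had : a ≠ d) (hbc : b ≠ c)
    (hbd : b ≠ d) (hcd : c ≠ d) {F : Finset (Edge n)} (hF : F ∈ pmSet {a, b, c, d}) :
    F = {mkE a b hab, mkE c d hcd} ∨ F = {mkE a c hac, mkE b d hbd} ∨
      F = {mkE a d had, mkE b c hbc} := by
  unfold pmSet at hF
  rw [Finset.mem_filter, Finset.mem_powersetCard] at hF
  obtain ⟨⟨-, hcard⟩, hin, hone⟩ := hF
  obtain ⟨e1, e2, hne, rfl⟩ := Finset.card_eq_two.mp hcard
  have key : ∀ v ∈ ({a, b, c, d} : Finset (Fin n)),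
      (v ∈ e1.1 ∨ v ∈ e2.1) ∧ ¬ (v ∈ e1.1 ∧ v ∈ e2.1) := by
    intro v hv
    have := hone v hv
    rw [Finset.filter_insert, Finset.filter_singleton] at this
    split_ifs at this with h1 h2 h2
    · rw [Finset.card_pair hne] at this; omega
    · tauto
    · tauto
    · simp at this
  have h1 : ∀ v ∈ e1.1, v ∈ ({a, b, c, d} : Finset (Fin n)) := hin e1 (by simp)
  have h2 : ∀ v ∈ e2.1, v ∈ ({a, b, c, d} : Finset (Fin n)) := hin e2 (by simp)
  rcases (key a (by simp)).1 with ha | ha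
  · rcases pm_aux hab hac had hbc hbd hcd h1 h2 (fun v hv => (key v hv).2) ha with
      ⟨rfl, rfl⟩ | ⟨rfl, rfl⟩ | ⟨rfl, rfl⟩ <;> simp
  · rcases pm_aux hab hac had hbc hbd hcd h2 h1 (fun v hv h => (key v hv).2 h.symm) ha with
      ⟨rfl, rfl⟩ | ⟨rfl, rfl⟩ | ⟨rfl, rfl⟩ <;> simp [Finset.pair_comm]

lemma mem_pm {a b c d : Fin n} (hab : a ≠ b) (hac : a ≠ c) (had : a ≠ d) (hbc : b ≠ c)
    (hbd : b ≠ d) (hcd : c ≠ d) :
    ({mkE a b hab, mkE c d hcd} : Finset (Edge n)) ∈ pmSet {a, b, c, d} := by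
  unfold pmSet
  rw [Finset.mem_filter, Finset.mem_powersetCard]
  have hne : mkE a b hab ≠ mkE c d hcd := by
    rw [Ne, mkE_eq_iff]; tauto
  refine ⟨⟨Finset.subset_univ _, Finset.card_pair hne⟩, ?_, ?_⟩
  · intro e he v hv
    simp only [Finset.mem_insert, Finset.mem_singleton] at he ⊢
    rcases he with rfl | rfl
    · rcases (mem_mkE _ _).mp hv with rfl | rfl <;> simp
    · rcases (mem_mkE _ _).mp hv with rfl | rfl <;> simp
  · intro v hv
    simp only [Finset.mem_insert, Finset.mem_singleton] at hv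
    rw [Finset.filter_insert, Finset.filter_singleton]
    simp only [mem_mkE]
    rcases hv with rfl | rfl | rfl | rfl
    · simp [hac, had]
    · simp [hbc, hbd, hab.symm]
    · simp [hac.symm, hbc.symm, hcd]
    · simp [had.symm, hbd.symm, hcd.symm]

lemma card_pmSet {S : Finset (Fin n)} (hS : S.card = 4) : (pmSet S).card = 3 := by
  obtain ⟨a, t, hat, rfl, ht⟩ := Finset.card_eq_succ.mp hS
  obtain ⟨b, c, d, hbc, hbd, hcd, rfl⟩ := Finset.card_eq_three.mp ht
  simp only [Finset.mem_insert, Finset.mem_singleton, not_or] at hat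
  obtain ⟨hab, hac, had⟩ := hat
  have hset : pmSet {a, b, c, d} = {{mkE a b hab, mkE c d hcd}, {mkE a c hac, mkE b d hbd},
      {mkE a d had, mkE b c hbc}} := by
    ext F
    simp only [Finset.mem_insert, Finset.mem_singleton]
    constructor
    · exact pm_cases hab hac had hbc hbd hcd
    · rintro (rfl | rfl | rfl)
      · exact mem_pm hab hac had hbc hbd hcd
      · have := mem_pm hac hab had hbc.symm hcd hbd
        have e : ({a, c, b, d} : Finset (Fin n)) = {a, b, c, d} := by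
          ext v; simp only [Finset.mem_insert, Finset.mem_singleton]; tauto
        rwa [e] at this
      · have := mem_pm had hab hac hbd.symm hcd.symm hbc
        have e : ({a, d, b, c} : Finset (Fin n)) = {a, b, c, d} := by
          ext v; simp only [Finset.mem_insert, Finset.mem_singleton]; tauto
        rwa [e] at this
  rw [hset]
  have hmem : ∀ {x y z w : Fin n} (hxy : x ≠ y) (hzw : z ≠ w) (u : Fin n) (hau : a ≠ u),
      mkE a u hau ∈ ({mkE x y hxy, mkE z w hzw} : Finset (Edge n)) →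
        ((a = x ∧ u = y) ∨ (a = y ∧ u = x)) ∨ ((a = z ∧ u = w) ∨ (a = w ∧ u = z)) := by
    intro x y z w hxy hzw u hau h
    simpa only [Finset.mem_insert, Finset.mem_singleton, mkE_eq_iff] using h
  have n12 : ({mkE a b hab, mkE c d hcd} : Finset (Edge n)) ≠ {mkE a c hac, mkE b d hbd} := by
    intro h
    have := hmem hac hbd b hab (h ▸ (by simp))
    tauto
  have n13 : ({mkE a b hab, mkE c d hcd} : Finset (Edge n)) ≠ {mkE a d had, mkE b c hbc} := by
    intro h
    have := hmem had hbc b hab (h ▸ (by simp))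
    tauto
  have n23 : ({mkE a c hac, mkE b d hbd} : Finset (Edge n)) ≠ {mkE a d had, mkE b c hbc} := by
    intro h
    have := hmem had hbc c hac (h ▸ (by simp))
    tauto
  exact Finset.card_eq_three.mpr ⟨_, _, _, n12, n13, n23, rfl⟩

end Crest.Agent.S0453Ker
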