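import Mathlib
import Crest.Prelude.Def_SwitchChain
import Crest.Agent.S0453_Conn
import Crest.Agent.S0453_PmCard

/-!
# S0453: bridge between `IsSwitch` (package CONN) and the Prelude proposals / kernel
-/

set_option autoImplicit false
open Finset
open Crest.SwitchChain

namespace Crest.Agent.S0453Conn

variable {n : ℕ}

lemma mk_eq_mkE (a b : Fin n) (h : a ≠ b) : mk a b h = Crest.Agent.S0453Ker.mkE a b h := rfl

/-- A switch is a Prelude proposal. -/
theorem IsSwitch.exists_proposal {G G1 : Finset (Edge n)} (h : IsSwitch G G1) :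
    ∃ S ∈ (univ : Finset (Fin n)).powersetCard 4, ∃ F ∈ pmSet S, ∃ F1 ∈ (pmSet S).erase F,
      F ⊆ G ∧ Disjoint F1 G ∧ G1 = G \ F ∪ F1 := by
  obtain ⟨a, b, c, e, hab, hce, hae, hcb, hac, hbe, h1, h2, h3, h4, rfl⟩ := h
  have hS : ({a, b, c, e} : Finset (Fin n)).card = 4 := by
    rw [Finset.card_insert_of_notMem (by simp [hab, hac, hae]),
      Finset.card_insert_of_notMem (by simp [hcb.symm, hbe]), Finset.card_pair hce]
  have hF : ({mk a b hab, mk c e hce} : Finset (Edge n)) ∈ pmSet {a, b, c, e} :=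
    Crest.Agent.S0453Ker.mem_pm hab hac hae hcb.symm hbe hce
  have hF1 : ({mk a e hae, mk c b hcb} : Finset (Edge n)) ∈ pmSet {a, b, c, e} := by
    have := Crest.Agent.S0453Ker.mem_pm hae hac hab hce.symm hbe.symm hcb
    have e' : ({a, e, c, b} : Finset (Fin n)) = {a, b, c, e} := by
      ext v; simp only [Finset.mem_insert, Finset.mem_singleton]; tauto
    rwa [e'] at this
  have hne : ({mk a e hae, mk c b hcb} : Finset (Edge n)) ≠ {mk a b hab, mk c e hce} := by
    intro hh
    have : mk a e hae ∈ ({mk a b hab, mk c e hce} : Finset (Edge n)) := by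
      rw [← hh]; simp
    simp only [mem_insert, mem_singleton] at this
    rcases this with h | h
    · exact h3 (h ▸ h1)
    · exact h3 (h ▸ h2)
  refine ⟨{a, b, c, e}, mem_powersetCard.2 ⟨subset_univ _, hS⟩, _, hF, _,
    mem_erase.2 ⟨hne, hF1⟩, ?_, ?_, rfl⟩
  · intro x hx
    simp only [mem_insert, mem_singleton] at hx
    rcases hx with rfl | rfl <;> assumption
  · rw [Finset.disjoint_left]
    intro x hx
    simp only [mem_insert, mem_singleton] at hx
    rcases hx with rfl | rfl <;> assumption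

lemma IsSwitch.ne {G G1 : Finset (Edge n)} (h : IsSwitch G G1) : G ≠ G1 := by
  obtain ⟨a, b, c, e, hab, hce, hae, hcb, hac, hbe, h1, h2, h3, h4, rfl⟩ := h
  intro hh
  apply h3
  rw [hh]
  simp

theorem IsSwitch.one_le_proposalCount {G G1 : Finset (Edge n)} (h : IsSwitch G G1) :
    1 ≤ proposalCount G G1 := by
  obtain ⟨S, hS, F, hF, F1, hF1, h1, h2, rfl⟩ := h.exists_proposal
  unfold proposalCount
  have hres : switchResult G F F1 = G \ F ∪ F1 := by
    unfold switchResult; rw [if_pos ⟨h1, h2⟩]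
  calc 1 = (if switchResult G F F1 = G \ F ∪ F1 then 1 else 0) := by rw [if_pos hres]
    _ ≤ ∑ F' ∈ (pmSet S).erase F, (if switchResult G F F' = G \ F ∪ F1 then 1 else 0) :=
        Finset.single_le_sum (f := fun F' => if switchResult G F F' = G \ F ∪ F1 then 1 else 0)
          (fun _ _ => Nat.zero_le _) hF1
    _ ≤ ∑ F0 ∈ pmSet S, ∑ F' ∈ (pmSet S).erase F0,
          (if switchResult G F0 F' = G \ F ∪ F1 then 1 else 0) :=
        Finset.single_le_sum (f := fun F0 => ∑ F' ∈ (pmSet S).erase F0,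
          (if switchResult G F0 F' = G \ F ∪ F1 then 1 else 0)) (fun _ _ => Nat.zero_le _) hF
    _ ≤ _ := Finset.single_le_sum (f := fun S => ∑ F0 ∈ pmSet S, ∑ F' ∈ (pmSet S).erase F0,
          (if switchResult G F0 F' = G \ F ∪ F1 then 1 else 0)) (fun _ _ => Nat.zero_le _) hS

/-- On a switch pair the kernel is at least `1/(12 C(n,4))`. -/
theorem IsSwitch.le_kernel {G G1 : Finset (Edge n)} (h : IsSwitch G G1) :
    1 / (12 * (n.choose 4 : ℝ)) ≤ kernel n G G1 := by
  unfold kernel
  rw [if_neg h.ne, zero_add]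
  have h1 : (1 : ℝ) ≤ (proposalCount G G1 : ℝ) := by exact_mod_cast h.one_le_proposalCount
  gcongr

/-- Conversely every effective proposal is a switch. -/
theorem isSwitch_of_proposal {G : Finset (Edge n)} {S : Finset (Fin n)} (hS : S.card = 4)
    {F F1 : Finset (Edge n)} (hF : F ∈ pmSet S) (hF1 : F1 ∈ pmSet S) (hne : F1 ≠ F)
    (h1 : F ⊆ G) (h2 : Disjoint F1 G) : IsSwitch G (G \ F ∪ F1) := by
  obtain ⟨a, t, hat, rfl, ht⟩ := Finset.card_eq_succ.mp hS
  obtain ⟨b, c, e, hbc, hbe, hce, rfl⟩ := Finset.card_eq_three.mp ht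
  simp only [Finset.mem_insert, Finset.mem_singleton, not_or] at hat
  obtain ⟨hab, hac, hae⟩ := hat
  have key : ∀ (a b c e : Fin n) (hab : a ≠ b) (hce : c ≠ e) (hae : a ≠ e) (hcb : c ≠ b)
      (hac : a ≠ c) (hbe : b ≠ e),
      ({mk a b hab, mk c e hce} : Finset (Edge n)) ⊆ G →
      Disjoint ({mk a e hae, mk c b hcb} : Finset (Edge n)) G →
      IsSwitch G (G \ {mk a b hab, mk c e hce} ∪ {mk a e hae, mk c b hcb}) := by
    intro a b c e hab hce hae hcb hac hbe hs hd
    rw [Finset.disjoint_left] at hd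
    exact ⟨a, b, c, e, hab, hce, hae, hcb, hac, hbe, hs (by simp), hs (by simp),
      hd (by simp), hd (by simp), rfl⟩
  rcases Crest.Agent.S0453Ker.pm_cases hab hac hae hbc hbe hce hF with rfl | rfl | rfl <;>
  rcases Crest.Agent.S0453Ker.pm_cases hab hac hae hbc hbe hce hF1 with rfl | rfl | rfl
  · exact absurd rfl hne
  · -- ab, ce -> ac, be
    have := key a b e c hab hce.symm hac hbe.symm hae hbc
    rw [mk_comm e c, mk_comm e b] at this
    exact this h1 h2
  · -- ab, ce -> ae, bc
    have := key a b c e hab hce hae hbc.symm hac hbe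
    rw [mk_comm c b] at this
    exact this h1 h2
  · -- ac, be -> ab, ce
    have := key a c e b hac hbe.symm hab hce.symm hae hbc.symm
    rw [mk_comm e b, mk_comm e c] at this
    exact this h1 h2
  · exact absurd rfl hne
  · -- ac, be -> ae, bc
    have := key a c b e hac hbe hae hbc hab hce
    exact this h1 h2
  · -- ae, bc -> ab, ce
    have := key a e c b hae hbc.symm hab hce hac hbe.symm
    rw [mk_comm c b] at this
    exact this h1 h2
  · -- ae, bc -> ac, be
    have := key a e b c hae hbc hac hbe hab hce.symm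
    exact this h1 h2
  · exact absurd rfl hne

theorem isSwitch_iff {G G1 : Finset (Edge n)} :
    IsSwitch G G1 ↔ ∃ S ∈ (univ : Finset (Fin n)).powersetCard 4, ∃ F ∈ pmSet S,
      ∃ F1 ∈ (pmSet S).erase F, F ⊆ G ∧ Disjoint F1 G ∧ G1 = G \ F ∪ F1 := by
  constructor
  · exact IsSwitch.exists_proposal
  · rintro ⟨S, hS, F, hF, F1, hF1, h1, h2, rfl⟩
    exact isSwitch_of_proposal (mem_powersetCard.1 hS).2 hF (mem_erase.1 hF1).2
      (mem_erase.1 hF1).1 h1 h2

end Crest.Agent.S0453Conn
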