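import Crest.Agent.S0453_Defs

/-! # S0453, package B5 : definitions for the disjoint-pair lemma `disj_pair`

`b = {u,v}`, `b' = {w,z}` disjoint, `Y = V \ {u,v,w,z}`.
See `notes/ROW299_proof.md`, section 4.2. -/

set_option autoImplicit false
open Finset
open Crest.SwitchChain

namespace Crest.Agent.S0453D

variable {n : ℕ}

/-- a `2 × 2` zero-one block, entries in the order `(uw, uz, vw, vz)`. -/
abbrev B4 := Bool × Bool × Bool × Bool

/-- row sum of `u`. -/
def rU (M : B4) : ℕ := M.1.toNat + M.2.1.toNat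
/-- row sum of `v`. -/
def rV (M : B4) : ℕ := M.2.2.1.toNat + M.2.2.2.toNat
/-- column sum of `w`. -/
def cW (M : B4) : ℕ := M.1.toNat + M.2.2.1.toNat
/-- column sum of `z`. -/
def cZ (M : B4) : ℕ := M.2.1.toNat + M.2.2.2.toNat
/-- total. -/
def tot (M : B4) : ℕ := M.1.toNat + M.2.1.toNat + M.2.2.1.toNat + M.2.2.2.toNat
/-- complement. -/
def notB (M : B4) : B4 := (!M.1, !M.2.1, !M.2.2.1, !M.2.2.2)

open Classical in
/-- indicator of adjacency. -/
noncomputable def ind (G : Gr n) (a b : Fin n) : ℕ := if adj G a b then 1 else 0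

open Classical in
/-- the block of `G` between `{u,v}` and `{w,z}`. -/
noncomputable def blk (u v w z : Fin n) (G : Gr n) : B4 :=
  (decide (adj G u w), decide (adj G u z), decide (adj G v w), decide (adj G v z))

/-- the part of `G` revealed by both keys: edges inside `Y`, the edge `uv`, the edge `wz`. -/
def c0 (u v w z : Fin n) (G : Gr n) : Gr n :=
  G.filter fun e => (u ∉ e.1 ∧ v ∉ e.1 ∧ w ∉ e.1 ∧ z ∉ e.1) ∨ e.1 = s(u, v) ∨ e.1 = s(w, z)

/-- `t_y = |N(y) ∩ {u,v}|` for `y ∈ Y` (and `0` for `y ∈ {u,v,w,z}`). -/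
noncomputable def tY (u v w z : Fin n) (G : Gr n) : Fin n → ℕ := fun y =>
  if y = u ∨ y = v ∨ y = w ∨ y = z then 0 else ind G y u + ind G y v

/-- the common coarse key. -/
noncomputable def keyH (u v w z : Fin n) (G : Gr n) : Gr n × (Fin n → ℕ) × ℕ :=
  (c0 u v w z G, tY u v w z G, tot (blk u v w z G))

/-- the key `m`. -/
noncomputable def keyM (u v w z : Fin n) (G : Gr n) : (Gr n × (Fin n → ℕ) × ℕ) × B4 :=
  (keyH u v w z G,
    if tot (blk u v w z G) = 2 then blk u v w z G else (false, false, false, false))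

/-- the key `ρ`. -/
noncomputable def keyR (u v w z : Fin n) (G : Gr n) : (Gr n × (Fin n → ℕ) × ℕ) × ℕ :=
  (keyH u v w z G, if tot (blk u v w z G) = 2 then rU (blk u v w z G) else 0)

/-- the key `γ`. -/
noncomputable def keyC (u v w z : Fin n) (G : Gr n) : (Gr n × (Fin n → ℕ) × ℕ) × ℕ :=
  (keyH u v w z G, if tot (blk u v w z G) = 2 then cW (blk u v w z G) else 0)

/-- the vertices outside `{u,v,w,z}`. -/
def restY (u v w z : Fin n) : Finset (Fin n) :=
  univ.filter fun y => y ≠ u ∧ y ≠ v ∧ y ≠ w ∧ y ≠ z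

end Crest.Agent.S0453D
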