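import Crest.Agent.S0453_DisjDefs
import Crest.Agent.S0453_Graph
import Crest.Agent.S0453_DisjQ

/-! # S0453, package B5, parts L0 + L1 : degree formula, what `p = keyP w z` determines -/

set_option autoImplicit false
open Finset
open Crest.SwitchChain

namespace Crest.Agent.S0453D

variable {n : ℕ}

namespace DisjP

lemma toNat_decide_adj' (G : Gr n) (a b : Fin n) [Decidable (adj G a b)] :
    (decide (adj G a b)).toNat = ind G a b := by
  classical
  unfold ind
  by_cases h1 : adj G a b
  · rw [if_pos h1]; simp [h1]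
  · rw [if_neg h1]; simp [h1]

lemma restY_eq (u v w z : Fin n) :
    restY u v w z = ((((univ : Finset (Fin n)).erase u).erase v).erase w).erase z := by
  ext y
  simp only [restY, mem_filter, mem_univ, true_and, mem_erase, and_true]
  tauto

end DisjP

/-- L0 : degree formula. -/
theorem card_nb_split4 (G : Gr n) (a u v w z : Fin n)
    (huv : u ≠ v) (huw : u ≠ w) (huz : u ≠ z) (hvw : v ≠ w) (hvz : v ≠ z) (hwz : w ≠ z) :
    (nb G a).card = ind G a u + ind G a v + ind G a w + ind G a z
      + ∑ y ∈ restY u v w z, ind G a y := by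
  classical
  rw [DisjQ.card_nb_eq_sum, DisjP.restY_eq]
  have hv : v ∈ (univ : Finset (Fin n)).erase u := by simp [huv.symm]
  have hw : w ∈ ((univ : Finset (Fin n)).erase u).erase v := by simp [huw.symm, hvw.symm]
  have hz : z ∈ (((univ : Finset (Fin n)).erase u).erase v).erase w := by
    simp [huz.symm, hvz.symm, hwz.symm]
  have e1 := Finset.add_sum_erase _ (fun b => ind G a b) (mem_univ u)
  have e2 := Finset.add_sum_erase _ (fun b => ind G a b) hv
  have e3 := Finset.add_sum_erase _ (fun b => ind G a b) hw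
  have e4 := Finset.add_sum_erase _ (fun b => ind G a b) hz
  omega

/-- L1 : what `p = keyP w z` determines. -/
theorem keyH_of_p (d : Fin n → ℕ) (u v w z : Fin n)
    (huv : u ≠ v) (huw : u ≠ w) (huz : u ≠ z) (hvw : v ≠ w) (hvz : v ≠ z) (hwz : w ≠ z)
    {G G' : Gr n} (hG : G ∈ realizations d) (hG' : G' ∈ realizations d)
    (h : keyP w z G = keyP w z G') :
    c0 u v w z G = c0 u v w z G' ∧ tY u v w z G = tY u v w z G' ∧
      rU (blk u v w z G) = rU (blk u v w z G') ∧ rV (blk u v w z G) = rV (blk u v w z G') := by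
  classical
  have hk := keyP_eq_iff.1 h
  refine ⟨?_, ?_, ?_, ?_⟩
  · unfold c0
    rw [filter_eq_filter_iff]
    intro x y hxy hp
    rcases hp with ⟨-, -, h1, h2⟩ | h1 | h1
    · rw [mem_mkE] at h1 h2
      push Not at h1 h2
      exact hk x y (Or.inl ⟨h1.1.symm, h2.1.symm, h1.2.symm, h2.2.symm⟩)
    · have h1' : s(x, y) = s(u, v) := h1
      rw [Sym2.eq_iff] at h1'
      rcases h1' with ⟨rfl, rfl⟩ | ⟨rfl, rfl⟩
      · exact hk _ _ (Or.inl ⟨huw, huz, hvw, hvz⟩)
      · exact hk _ _ (Or.inl ⟨hvw, hvz, huw, huz⟩)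
    · exact hk x y (Or.inr h1)
  · funext y
    unfold tY
    by_cases hy : y = u ∨ y = v ∨ y = w ∨ y = z
    · rw [if_pos hy, if_pos hy]
    · rw [if_neg hy, if_neg hy]
      push Not at hy
      rw [DisjQ.ind_congr (hk y u (Or.inl ⟨hy.2.2.1, hy.2.2.2, huw, huz⟩)),
        DisjQ.ind_congr (hk y v (Or.inl ⟨hy.2.2.1, hy.2.2.2, hvw, hvz⟩))]
  · have := DisjQ.ind_add_ind d w z hwz hG hG' h u huw huz
    simp only [rU, blk, DisjP.toNat_decide_adj']
    exact this
  · have := DisjQ.ind_add_ind d w z hwz hG hG' h v hvw hvz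
    simp only [rV, blk, DisjP.toNat_decide_adj']
    exact this

end Crest.Agent.S0453D
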