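import Mathlib

set_option autoImplicit false

/-!
# S0453, package HILB

Generic "Caputo trick" lemma: a symmetric positive semidefinite operator `L` on a finite dimensional
space with `c ⟨f, L f⟩ ≤ ‖L f‖²` has spectral gap at least `c` above its kernel.
No spectral theorem is used: `(ker L)ᗮ = range L` and Cauchy-Schwarz for the form `⟨·, L ·⟩`.
-/

namespace Crest.Agent.S0453Hilb

open Finset

section abstract

variable {E : Type*} [NormedAddCommGroup E] [InnerProductSpace ℝ E]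

/-- Cauchy-Schwarz for the positive semidefinite form `⟨a, T b⟩`. -/
theorem cs_form (T : E →ₗ[ℝ] E) (hT : T.IsSymmetric)
    (hpos : ∀ v, 0 ≤ inner ℝ v (T v)) (a b : E) :
    (inner ℝ a (T b)) ^ 2 ≤ inner ℝ a (T a) * inner ℝ b (T b) := by
  have key : ∀ t : ℝ, 0 ≤ inner ℝ b (T b) * (t * t) + (2 * inner ℝ a (T b)) * t
      + inner ℝ a (T a) := by
    intro t
    have h := hpos (a + t • b)
    have hba : inner ℝ b (T a) = inner ℝ a (T b) := by
      rw [← hT b a, real_inner_comm]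
    simp only [map_add, map_smul, inner_add_left, inner_add_right, inner_smul_left,
      inner_smul_right, hba] at h
    simp only [conj_trivial] at h
    nlinarith [h]
  have := discrim_le_zero key
  unfold discrim at this
  nlinarith [this]

theorem abstract_gap [FiniteDimensional ℝ E] (T : E →ₗ[ℝ] E) (hT : T.IsSymmetric) (c : ℝ) (hc : 0 < c)
    (hpos : ∀ v, 0 ≤ inner ℝ v (T v))
    (hsq : ∀ v, c * inner ℝ v (T v) ≤ ‖T v‖ ^ 2)
    (u : E) (hu : u ∈ (LinearMap.ker T)ᗮ) : c * ‖u‖ ^ 2 ≤ inner ℝ u (T u) := by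
  rw [LinearMap.orthogonal_ker, hT.adjoint_eq] at hu
  obtain ⟨g, rfl⟩ := hu
  set u := T g with hu
  have h1 : inner ℝ g (T u) = ‖u‖ ^ 2 := by
    rw [← hT g u, real_inner_self_eq_norm_sq]
  have h2 := cs_form T hT hpos g u
  rw [h1] at h2
  have h3 := hsq g
  have h4 := hpos u
  have h5 := hpos g
  by_cases h0 : ‖u‖ ^ 2 = 0
  · rw [h0]; simpa using h4
  have h6 : 0 < ‖u‖ ^ 2 := lt_of_le_of_ne (by positivity) (Ne.symm h0)
  -- ‖u‖⁴ ≤ B(g,g) B(u,u) ≤ ‖u‖²/c B(u,u)
  have h7 : c * (‖u‖ ^ 2) ^ 2 ≤ ‖u‖ ^ 2 * inner ℝ u (T u) := by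
    calc c * (‖u‖ ^ 2) ^ 2 ≤ c * (inner ℝ g (T g) * inner ℝ u (T u)) :=
          mul_le_mul_of_nonneg_left h2 hc.le
      _ = (c * inner ℝ g (T g)) * inner ℝ u (T u) := by ring
      _ ≤ ‖u‖ ^ 2 * inner ℝ u (T u) := mul_le_mul_of_nonneg_right h3 h4
  have h8 : ‖u‖ ^ 2 * (c * ‖u‖ ^ 2) ≤ ‖u‖ ^ 2 * inner ℝ u (T u) := by
    calc ‖u‖ ^ 2 * (c * ‖u‖ ^ 2) = c * (‖u‖ ^ 2) ^ 2 := by ring
      _ ≤ _ := h7
  exact le_of_mul_le_mul_left h8 h6

end abstract

section fintype

variable {Ω : Type*} [Fintype Ω]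

/-- transport of an operator on `Ω → ℝ` to `EuclideanSpace ℝ Ω`. -/
noncomputable def toEuc (L : (Ω → ℝ) →ₗ[ℝ] (Ω → ℝ)) : EuclideanSpace ℝ Ω →ₗ[ℝ] EuclideanSpace ℝ Ω :=
  (WithLp.linearEquiv 2 ℝ (Ω → ℝ)).symm.toLinearMap ∘ₗ L ∘ₗ
    (WithLp.linearEquiv 2 ℝ (Ω → ℝ)).toLinearMap

omit [Fintype Ω] in
theorem toEuc_apply (L : (Ω → ℝ) →ₗ[ℝ] (Ω → ℝ)) (v : EuclideanSpace ℝ Ω) :
    (toEuc L v).ofLp = L v.ofLp := rfl

theorem inner_euc (v w : EuclideanSpace ℝ Ω) : inner ℝ v w = ∑ x, v.ofLp x * w.ofLp x := by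
  rw [PiLp.inner_apply]
  refine Finset.sum_congr rfl fun x _ => ?_
  simp [mul_comm]

/-- **HILB, Fintype version, arbitrary kernel.** -/
theorem gap_fintype (L : (Ω → ℝ) →ₗ[ℝ] (Ω → ℝ)) (c : ℝ) (hc : 0 < c)
    (hsymm : ∀ f g, ∑ x, f x * L g x = ∑ x, L f x * g x)
    (hpos : ∀ f, 0 ≤ ∑ x, f x * L f x)
    (hsq : ∀ f, c * ∑ x, f x * L f x ≤ ∑ x, (L f x) ^ 2)
    (f : Ω → ℝ) (hf : ∀ g, L g = 0 → ∑ x, g x * f x = 0) :
    c * ∑ x, f x ^ 2 ≤ ∑ x, f x * L f x := by
  have hT : (toEuc L).IsSymmetric := by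
    intro v w
    rw [inner_euc, inner_euc]
    simp only [toEuc_apply]
    exact (hsymm _ _).symm
  have h := abstract_gap (toEuc L) hT c hc
    (fun v => by rw [inner_euc]; simp only [toEuc_apply]; exact hpos _)
    (fun v => by
      rw [inner_euc, EuclideanSpace.real_norm_sq_eq]; simp only [toEuc_apply]; exact hsq _)
    (WithLp.toLp 2 f)
    (by
      rw [Submodule.mem_orthogonal]
      intro g hg
      rw [inner_euc]
      apply hf
      have : (toEuc L g).ofLp = 0 := by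
        rw [LinearMap.mem_ker] at hg
        rw [hg]; rfl
      rwa [toEuc_apply] at this)
  rw [inner_euc, EuclideanSpace.real_norm_sq_eq] at h
  simpa only [toEuc_apply] using h

/-- **HILB, Fintype version, kernel inside the constants.** -/
theorem poincare_fintype (L : (Ω → ℝ) →ₗ[ℝ] (Ω → ℝ)) (c : ℝ) (hc : 0 < c)
    (hsymm : ∀ f g, ∑ x, f x * L g x = ∑ x, L f x * g x)
    (hpos : ∀ f, 0 ≤ ∑ x, f x * L f x)
    (hsq : ∀ f, c * ∑ x, f x * L f x ≤ ∑ x, (L f x) ^ 2)
    (hker : ∀ g, L g = 0 → ∀ x y, g x = g y) (f : Ω → ℝ) :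
    c * ((Fintype.card Ω : ℝ) * ∑ x, f x ^ 2 - (∑ x, f x) ^ 2) ≤
      (Fintype.card Ω : ℝ) * ∑ x, f x * L f x := by
  classical
  rcases isEmpty_or_nonempty Ω with hE | hE
  · simp
  set N : ℝ := (Fintype.card Ω : ℝ) with hN
  have hN0 : 0 < N := by
    rw [hN]; exact_mod_cast Fintype.card_pos
  set m : ℝ := (∑ x, f x) / N with hm
  -- split into the two cases `L 1 = 0` and `ker L = 0`
  by_cases h1 : L (fun _ => (1 : ℝ)) = 0
  · -- apply to `f - m`
    set f0 : Ω → ℝ := fun x => f x - m with hf0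
    have hLf0 : L f0 = L f := by
      have : f0 = f - m • (fun _ => (1 : ℝ)) := by
        ext x; simp [hf0]
      rw [this, map_sub, map_smul, h1]; simp
    have hsum0 : ∑ x, f0 x = 0 := by
      simp only [hf0, Finset.sum_sub_distrib, Finset.sum_const, Finset.card_univ, nsmul_eq_mul]
      rw [hm]; field_simp; simp [hN]
    have horth : ∀ g, L g = 0 → ∑ x, g x * f0 x = 0 := by
      intro g hg
      obtain ⟨x0⟩ := hE
      have : ∀ x, g x = g x0 := fun x => hker g hg x x0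
      calc ∑ x, g x * f0 x = ∑ x, g x0 * f0 x := by
            refine Finset.sum_congr rfl fun x _ => by rw [this x]
        _ = g x0 * ∑ x, f0 x := by rw [Finset.mul_sum]
        _ = 0 := by rw [hsum0, mul_zero]
    have h := gap_fintype L c hc hsymm hpos hsq f0 horth
    rw [hLf0] at h
    have e1 : ∑ x, f0 x * L f x = ∑ x, f x * L f x := by
      have hz : ∑ x, (1 : ℝ) * L f x = 0 := by
        have := hsymm (fun _ => (1 : ℝ)) f
        rw [this, h1]; simp
      have : ∑ x, f0 x * L f x = ∑ x, f x * L f x - m * ∑ x, (1 : ℝ) * L f x := by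
        rw [Finset.mul_sum, ← Finset.sum_sub_distrib]
        refine Finset.sum_congr rfl fun x _ => by simp only [hf0]; ring
      rw [this, hz]; ring
    have e2 : N * ∑ x, f0 x ^ 2 = N * ∑ x, f x ^ 2 - (∑ x, f x) ^ 2 := by
      have : ∑ x, f0 x ^ 2 = ∑ x, f x ^ 2 - 2 * m * ∑ x, f x + N * m ^ 2 := by
        have : ∀ x, f0 x ^ 2 = f x ^ 2 - 2 * m * f x + m ^ 2 := fun x => by
          simp only [hf0]; ring
        simp only [this, Finset.sum_add_distrib, Finset.sum_sub_distrib, ← Finset.mul_sum,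
          Finset.sum_const, Finset.card_univ, nsmul_eq_mul, hN]
      rw [this, hm]; field_simp; ring
    rw [e1] at h
    calc c * (N * ∑ x, f x ^ 2 - (∑ x, f x) ^ 2) = N * (c * ∑ x, f0 x ^ 2) := by
          rw [← e2]; ring
      _ ≤ N * ∑ x, f x * L f x := mul_le_mul_of_nonneg_left h hN0.le
  · -- the kernel is trivial
    have hk : ∀ g, L g = 0 → g = 0 := by
      intro g hg
      obtain ⟨x0⟩ := hE
      have hgc : g = g x0 • (fun _ => (1 : ℝ)) := by
        ext x; simp [hker g hg x x0]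
      by_contra hne
      have hx0 : g x0 ≠ 0 := by
        intro h0; apply hne; rw [hgc, h0]; simp
      apply h1
      have : g x0 • L (fun _ => (1 : ℝ)) = 0 := by rw [← map_smul, ← hgc, hg]
      exact (smul_eq_zero.mp this).resolve_left hx0
    have h := gap_fintype L c hc hsymm hpos hsq f (fun g hg => by rw [hk g hg]; simp)
    have h2 : 0 ≤ (∑ x, f x) ^ 2 := sq_nonneg _
    calc c * (N * ∑ x, f x ^ 2 - (∑ x, f x) ^ 2) ≤ c * (N * ∑ x, f x ^ 2) := by
          apply mul_le_mul_of_nonneg_left _ hc.le; linarith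
      _ = N * (c * ∑ x, f x ^ 2) := by ring
      _ ≤ N * ∑ x, f x * L f x := mul_le_mul_of_nonneg_left h hN0.le

end fintype

section finset

variable {β : Type*} [DecidableEq β]

/-- extension by zero of a function on the subtype `Ω`. -/
noncomputable def ext0 (Ω : Finset β) (g : Ω → ℝ) : β → ℝ :=
  fun y => if h : y ∈ Ω then g ⟨y, h⟩ else 0

theorem ext0_apply (Ω : Finset β) (g : Ω → ℝ) (x : Ω) : ext0 Ω g x.1 = g x := by
  simp [ext0]

theorem ext0_restrict (Ω : Finset β) (f : β → ℝ) (x : β) (hx : x ∈ Ω) :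
    ext0 Ω (fun y : Ω => f y.1) x = f x := by
  simp [ext0, hx]

/-- **HILB, Finset version.**  `L` is an operator on functions `β → ℝ`, which on `Ω` is linear,
local (`L f` on `Ω` depends only on `f` on `Ω`), symmetric, positive semidefinite, satisfies
`c ⟨f, L f⟩ ≤ ‖L f‖²` and whose kernel consists of functions constant on `Ω`.  Then the Poincare
inequality `c Var f ≤ ⟨f, L f⟩` holds. -/
theorem poincare_finset (Ω : Finset β) (L : (β → ℝ) → (β → ℝ)) (c : ℝ) (hc : 0 < c)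
    (hadd : ∀ f g, ∀ x ∈ Ω, L (f + g) x = L f x + L g x)
    (hsmul : ∀ (a : ℝ) f, ∀ x ∈ Ω, L (a • f) x = a * L f x)
    (hloc : ∀ f g, (∀ x ∈ Ω, f x = g x) → ∀ x ∈ Ω, L f x = L g x)
    (hsymm : ∀ f g, ∑ x ∈ Ω, f x * L g x = ∑ x ∈ Ω, L f x * g x)
    (hpos : ∀ f, 0 ≤ ∑ x ∈ Ω, f x * L f x)
    (hsq : ∀ f, c * ∑ x ∈ Ω, f x * L f x ≤ ∑ x ∈ Ω, (L f x) ^ 2)
    (hker : ∀ g, (∀ x ∈ Ω, L g x = 0) → ∀ x ∈ Ω, ∀ y ∈ Ω, g x = g y) (f : β → ℝ) :
    c * ((Ω.card : ℝ) * ∑ x ∈ Ω, f x ^ 2 - (∑ x ∈ Ω, f x) ^ 2) ≤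
      (Ω.card : ℝ) * ∑ x ∈ Ω, f x * L f x := by
  classical
  let L' : (Ω → ℝ) →ₗ[ℝ] (Ω → ℝ) :=
    { toFun := fun g x => L (ext0 Ω g) x.1
      map_add' := by
        intro g g'
        ext x
        have : L (ext0 Ω (g + g')) x.1 = L (ext0 Ω g + ext0 Ω g') x.1 := by
          apply hloc _ _ _ x.1 x.2
          intro y hy
          simp [ext0, hy]
        simp only [Pi.add_apply]
        rw [this, hadd _ _ x.1 x.2]
      map_smul' := by
        intro a g
        ext x
        have : L (ext0 Ω (a • g)) x.1 = L (a • ext0 Ω g) x.1 := by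
          apply hloc _ _ _ x.1 x.2
          intro y hy
          simp [ext0, hy]
        simp only [Pi.smul_apply, RingHom.id_apply, smul_eq_mul]
        rw [this, hsmul _ _ x.1 x.2] }
  have hL' : ∀ g x, L' g x = L (ext0 Ω g) x.1 := fun _ _ => rfl
  have conv : ∀ F : β → ℝ, ∑ x : Ω, F x.1 = ∑ x ∈ Ω, F x := fun F => Finset.sum_coe_sort Ω F
  have h := poincare_fintype L' c hc
    (by
      intro g g'
      have := hsymm (ext0 Ω g) (ext0 Ω g')
      rw [← conv, ← conv] at this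
      simpa only [hL', ext0_apply] using this)
    (by
      intro g
      have := hpos (ext0 Ω g)
      rw [← conv] at this
      simpa only [hL', ext0_apply] using this)
    (by
      intro g
      have := hsq (ext0 Ω g)
      rw [← conv, ← conv] at this
      simpa only [hL', ext0_apply] using this)
    (by
      intro g hg x y
      have := hker (ext0 Ω g) (fun z hz => by
        have := congrFun hg ⟨z, hz⟩
        simpa only [hL', Pi.zero_apply] using this) x.1 x.2 y.1 y.2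
      simpa only [ext0_apply] using this)
    (fun x => f x.1)
  have hLf : ∀ x : Ω, L' (fun y : Ω => f y.1) x = L f x.1 := by
    intro x
    rw [hL']
    exact hloc _ _ (fun y hy => ext0_restrict Ω f y hy) x.1 x.2
  simp only [hLf, Fintype.card_coe] at h
  rw [conv (fun x => f x ^ 2), conv f, conv (fun x => f x * L f x)] at h
  exact h

end finset

end Crest.Agent.S0453Hilb
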