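import Crest.Agent.S0453_CE
import Crest.Agent.S0453_Hilb

/-! # S0453, package A2 : Hilbert space lemmas `gap_of_sq`, `bound_of_eigen`, `sq_of_star` -/

set_option autoImplicit false
open Finset

namespace Crest.Agent.S0453Hilb

section abstract

variable {E : Type*} [NormedAddCommGroup E] [InnerProductSpace ℝ E] [FiniteDimensional ℝ E]

/-- a bound on all eigenvalues bounds the quadratic form (spectral theorem). -/
theorem abstract_bound (T : E →ₗ[ℝ] E) (hT : T.IsSymmetric) (c : ℝ)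
    (h : ∀ (lam : ℝ) (v : E), v ≠ 0 → T v = lam • v → lam ≤ c) (v : E) :
    inner ℝ v (T v) ≤ c * ‖v‖ ^ 2 := by
  set b := hT.eigenvectorBasis (rfl : Module.finrank ℝ E = Module.finrank ℝ E) with hb
  have hl : ∀ i, hT.eigenvalues rfl i ≤ c := by
    intro i
    apply h _ (b i) (b.orthonormal.ne_zero i)
    exact hT.apply_eigenvectorBasis rfl i
  rw [← b.sum_inner_mul_inner v (T v), ← b.sum_sq_inner_right v, Finset.mul_sum]
  refine Finset.sum_le_sum fun i _ => ?_
  have h1 : inner ℝ (b i) (T v) = hT.eigenvalues rfl i * inner ℝ (b i) v := by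
    have := hT.eigenvectorBasis_apply_self_apply rfl v i
    rw [OrthonormalBasis.repr_apply_apply, OrthonormalBasis.repr_apply_apply] at this
    simpa using this
  rw [h1, real_inner_comm (b i) v]
  have h2 : 0 ≤ inner ℝ (b i) v ^ 2 := sq_nonneg _
  nlinarith [mul_le_mul_of_nonneg_right (hl i) h2]

end abstract

section fintype

variable {Ω : Type*} [Fintype Ω]

theorem bound_fintype (L : (Ω → ℝ) →ₗ[ℝ] (Ω → ℝ)) (c : ℝ)
    (hsymm : ∀ f g, ∑ x, f x * L g x = ∑ x, L f x * g x)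
    (heig : ∀ (f : Ω → ℝ) (lam : ℝ), f ≠ 0 → L f = lam • f → lam ≤ c) (f : Ω → ℝ) :
    ∑ x, f x * L f x ≤ c * ∑ x, f x ^ 2 := by
  have hT : (toEuc L).IsSymmetric := by
    intro v w
    rw [inner_euc, inner_euc]
    simp only [toEuc_apply]
    exact (hsymm _ _).symm
  have h := abstract_bound (toEuc L) hT c
    (by
      intro lam v hv hTv
      apply heig v.ofLp lam
      · intro h0
        apply hv
        have : WithLp.toLp 2 v.ofLp = WithLp.toLp 2 (0 : Ω → ℝ) := by rw [h0]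
        simpa using this
      · have := congrArg WithLp.ofLp hTv
        rw [toEuc_apply] at this
        simpa using this)
    (WithLp.toLp 2 f)
  rw [inner_euc, EuclideanSpace.real_norm_sq_eq] at h
  simpa only [toEuc_apply] using h

end fintype

section finset

variable {β : Type*} [DecidableEq β]

theorem bound_finset (Ω : Finset β) (L : (β → ℝ) → (β → ℝ)) (c : ℝ)
    (hadd : ∀ f g, ∀ x ∈ Ω, L (f + g) x = L f x + L g x)
    (hsmul : ∀ (a : ℝ) f, ∀ x ∈ Ω, L (a • f) x = a * L f x)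
    (hloc : ∀ f g, (∀ x ∈ Ω, f x = g x) → ∀ x ∈ Ω, L f x = L g x)
    (hsymm : ∀ f g, ∑ x ∈ Ω, f x * L g x = ∑ x ∈ Ω, L f x * g x)
    (heig : ∀ (f : β → ℝ) (lam : ℝ), (∃ x ∈ Ω, f x ≠ 0) → (∀ x ∈ Ω, L f x = lam * f x) → lam ≤ c)
    (f : β → ℝ) :
    ∑ x ∈ Ω, f x * L f x ≤ c * ∑ x ∈ Ω, f x ^ 2 := by
  classical
  let L' : (Ω → ℝ) →ₗ[ℝ] (Ω → ℝ) :=
    { toFun := fun g x => L (ext0 Ω g) x.1
      map_add' := by
        intro g g'
        ext x
        have : L (ext0 Ω (g + g')) x.1 = L (ext0 Ω g + ext0 Ω g') x.1 := by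
          apply hloc _ _ _ x.1 x.2
          intro y hy
          simp [ext0, hy]
        simp only [Pi.add_apply]
        rw [this, hadd _ _ x.1 x.2]
      map_smul' := by
        intro a g
        ext x
        have : L (ext0 Ω (a • g)) x.1 = L (a • ext0 Ω g) x.1 := by
          apply hloc _ _ _ x.1 x.2
          intro y hy
          simp [ext0, hy]
        simp only [Pi.smul_apply, RingHom.id_apply, smul_eq_mul]
        rw [this, hsmul _ _ x.1 x.2] }
  have hL' : ∀ g x, L' g x = L (ext0 Ω g) x.1 := fun _ _ => rfl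
  have conv : ∀ F : β → ℝ, ∑ x : Ω, F x.1 = ∑ x ∈ Ω, F x := fun F => Finset.sum_coe_sort Ω F
  have h := bound_fintype L' c
    (by
      intro g g'
      have := hsymm (ext0 Ω g) (ext0 Ω g')
      rw [← conv, ← conv] at this
      simpa only [hL', ext0_apply] using this)
    (by
      intro g lam hg hLg
      apply heig (ext0 Ω g) lam
      · by_contra hcon
        push Not at hcon
        apply hg
        ext x
        have := hcon x.1 x.2
        simpa only [ext0_apply, Pi.zero_apply] using this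
      · intro x hx
        have := congrFun hLg ⟨x, hx⟩
        rw [hL'] at this
        simp only [Pi.smul_apply, smul_eq_mul] at this
        rw [this]
        have h2 := ext0_apply Ω g ⟨x, hx⟩
        simp only at h2
        rw [h2])
    (fun x => f x.1)
  have hLf : ∀ x : Ω, L' (fun y : Ω => f y.1) x = L f x.1 := by
    intro x
    rw [hL']
    exact hloc _ _ (fun y hy => ext0_restrict Ω f y hy) x.1 x.2
  simp only [hLf] at h
  rw [conv (fun x => f x ^ 2), conv (fun x => f x * L f x)] at h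
  exact h

end finset

end Crest.Agent.S0453Hilb

namespace Crest.Agent.S0453D

open Crest.Agent.S0453Hilb

/-- Lemma A'' (gap from square). -/
theorem gap_of_sq {α κ ι : Type*} [DecidableEq κ] (Ω : Finset α) (I : Finset ι) (key : ι → α → κ)
    (c : ℝ) (hc : 0 < c)
    (hsq : ∀ f : α → ℝ, c * ∑ i ∈ I, ∑ x ∈ Ω, (cD Ω (key i) f x) ^ 2 ≤
      ∑ x ∈ Ω, (∑ i ∈ I, cD Ω (key i) f x) ^ 2)
    (hker : ∀ f : α → ℝ, (∀ i ∈ I, ∀ x ∈ Ω, cD Ω (key i) f x = 0) → ∀ x ∈ Ω, ∀ y ∈ Ω, f x = f y)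
    (f : α → ℝ) :
    c * ∑ x ∈ Ω, (f x - mean Ω f) ^ 2 ≤ ∑ i ∈ I, ∑ x ∈ Ω, (cD Ω (key i) f x) ^ 2 := by
  classical
  rcases Ω.eq_empty_or_nonempty with hΩ | hΩ
  · subst hΩ; simp
  have hN : (0 : ℝ) < (Ω.card : ℝ) := by exact_mod_cast hΩ.card_pos
  -- the quadratic form
  have hform : ∀ g : α → ℝ, ∑ x ∈ Ω, g x * (∑ i ∈ I, cD Ω (key i) g x)
      = ∑ i ∈ I, ∑ x ∈ Ω, (cD Ω (key i) g x) ^ 2 := by
    intro g
    simp only [Finset.mul_sum]
    rw [Finset.sum_comm]
    refine Finset.sum_congr rfl fun i _ => ?_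
    rw [sum_cD_sq']
  have h := poincare_finset Ω (fun g x => ∑ i ∈ I, cD Ω (key i) g x) c hc
    (by
      intro f g x _
      rw [← Finset.sum_add_distrib]
      refine Finset.sum_congr rfl fun i _ => ?_
      have := cE_add Ω (key i) f g x
      simp only [cD, Pi.add_apply]
      have h2 : cE Ω (key i) (f + g) x = cE Ω (key i) (fun y => f y + g y) x := rfl
      rw [h2, this]; ring)
    (by
      intro a f x _
      rw [Finset.mul_sum]
      refine Finset.sum_congr rfl fun i _ => ?_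
      have := cE_const_mul Ω (key i) a f x
      simp only [cD, Pi.smul_apply, smul_eq_mul]
      have h2 : cE Ω (key i) (a • f) x = cE Ω (key i) (fun y => a * f y) x := rfl
      rw [h2, this]; ring)
    (by
      intro f g hfg x hx
      refine Finset.sum_congr rfl fun i _ => ?_
      simp only [cD]
      rw [cE_congr Ω (key i) hfg x, hfg x hx])
    (by
      intro f g
      simp only [Finset.mul_sum, Finset.sum_mul]
      rw [Finset.sum_comm, Finset.sum_comm (s := Ω)]
      refine Finset.sum_congr rfl fun i _ => ?_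
      exact (sum_cD_mul Ω (key i) f g).symm)
    (by
      intro g
      rw [hform]
      exact Finset.sum_nonneg fun i _ => Finset.sum_nonneg fun x _ => sq_nonneg _)
    (by
      intro g
      rw [hform]
      exact hsq g)
    (by
      intro g hg
      apply hker
      have h0 : ∑ i ∈ I, ∑ x ∈ Ω, (cD Ω (key i) g x) ^ 2 = 0 := by
        rw [← hform]
        exact Finset.sum_eq_zero fun x hx => by rw [hg x hx, mul_zero]
      intro i hi x hx
      have h1 := (Finset.sum_eq_zero_iff_of_nonneg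
        (fun i _ => Finset.sum_nonneg fun x _ => sq_nonneg (cD Ω (key i) g x))).mp h0 i hi
      have h2 := (Finset.sum_eq_zero_iff_of_nonneg
        (fun x _ => sq_nonneg (cD Ω (key i) g x))).mp h1 x hx
      exact pow_eq_zero_iff (two_ne_zero) |>.mp h2)
    f
  rw [hform, ← sum_sub_mean_sq] at h
  have h' : (Ω.card : ℝ) * (c * ∑ x ∈ Ω, (f x - mean Ω f) ^ 2) ≤
      (Ω.card : ℝ) * ∑ i ∈ I, ∑ x ∈ Ω, (cD Ω (key i) f x) ^ 2 := by
    calc (Ω.card : ℝ) * (c * ∑ x ∈ Ω, (f x - mean Ω f) ^ 2)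
        = c * ((Ω.card : ℝ) * ∑ x ∈ Ω, (f x - mean Ω f) ^ 2) := by ring
      _ ≤ _ := h
  exact le_of_mul_le_mul_left h' hN

/-- Lemma B'' : a bound for all eigenfunctions gives a bound for the quadratic form. -/
theorem bound_of_eigen {α κ ι : Type*} [DecidableEq κ] (Ω : Finset α) (I : Finset ι)
    (key : ι → α → κ) (c : ℝ) (hc : 0 ≤ c)
    (heig : ∀ (f : α → ℝ) (lam : ℝ), ∑ x ∈ Ω, f x = 0 → (∃ x ∈ Ω, f x ≠ 0) →
      (∀ x ∈ Ω, ∑ i ∈ I, cE Ω (key i) f x = lam * f x) → lam ≤ c)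
    (f : α → ℝ) (hf : ∑ x ∈ Ω, f x = 0) :
    ∑ i ∈ I, ∑ x ∈ Ω, (cE Ω (key i) f x) ^ 2 ≤ c * ∑ x ∈ Ω, f x ^ 2 := by
  classical
  have hmean_add : ∀ f g : α → ℝ, mean Ω (f + g) = mean Ω f + mean Ω g := by
    intro f g
    simp only [mean, Pi.add_apply, Finset.sum_add_distrib, add_div]
  have hmean_smul : ∀ (a : ℝ) (f : α → ℝ), mean Ω (a • f) = a * mean Ω f := by
    intro a f
    simp only [mean, Pi.smul_apply, smul_eq_mul, ← Finset.mul_sum, mul_div_assoc]
  have hmean_congr : ∀ f g : α → ℝ, (∀ x ∈ Ω, f x = g x) → mean Ω f = mean Ω g := by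
    intro f g h
    simp only [mean]
    rw [Finset.sum_congr rfl h]
  -- the operator `T (1 - Π)`
  have h := bound_finset Ω (fun g x => ∑ i ∈ I, cE Ω (key i) (fun y => g y - mean Ω g) x) c
    (by
      intro f g x _
      rw [← Finset.sum_add_distrib]
      refine Finset.sum_congr rfl fun i _ => ?_
      rw [← cE_add]
      apply cE_congr
      intro y _
      rw [hmean_add]; simp only [Pi.add_apply]; ring)
    (by
      intro a f x _
      rw [Finset.mul_sum]
      refine Finset.sum_congr rfl fun i _ => ?_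
      rw [← cE_const_mul]
      apply cE_congr
      intro y _
      rw [hmean_smul]; simp only [Pi.smul_apply, smul_eq_mul]; ring)
    (by
      intro f g hfg x _
      refine Finset.sum_congr rfl fun i _ => ?_
      apply cE_congr
      intro y hy
      rw [hfg y hy, hmean_congr f g hfg])
    (by
      intro f g
      simp only [Finset.mul_sum, Finset.sum_mul]
      rw [Finset.sum_comm, Finset.sum_comm (s := Ω)]
      refine Finset.sum_congr rfl fun i _ => ?_
      -- `<f, E (g - ḡ)> = <E f, g> - ḡ Σ f`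
      have e1 : ∑ x ∈ Ω, f x * cE Ω (key i) (fun y => g y - mean Ω g) x
          = ∑ x ∈ Ω, cE Ω (key i) f x * g x - mean Ω g * ∑ x ∈ Ω, f x := by
        rw [← sum_cE_mul]
        rw [← sum_cE Ω (key i) f, Finset.mul_sum, ← Finset.sum_sub_distrib]
        refine Finset.sum_congr rfl fun x _ => by ring
      have e2 : ∑ x ∈ Ω, cE Ω (key i) (fun y => f y - mean Ω f) x * g x
          = ∑ x ∈ Ω, f x * cE Ω (key i) g x - mean Ω f * ∑ x ∈ Ω, g x := by
        rw [sum_cE_mul]
        rw [← sum_cE Ω (key i) g, Finset.mul_sum, ← Finset.sum_sub_distrib]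
        refine Finset.sum_congr rfl fun x _ => by ring
      rw [e1, e2, sum_cE_mul]
      simp only [mean]; ring)
    (by
      intro g lam hg hLg
      by_contra hcon
      push Not at hcon
      have hlam : lam ≠ 0 := by
        intro h0; rw [h0] at hcon; exact absurd hc (not_le.mpr hcon)
      -- the sum of `L g` vanishes
      have hs : ∑ x ∈ Ω, ∑ i ∈ I, cE Ω (key i) (fun y => g y - mean Ω g) x = 0 := by
        rw [Finset.sum_comm]
        refine Finset.sum_eq_zero fun i _ => ?_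
        rw [sum_cE]
        exact sum_sub_mean Ω g
      have hs2 : lam * ∑ x ∈ Ω, g x = 0 := by
        rw [Finset.mul_sum, ← hs]
        exact Finset.sum_congr rfl fun x hx => (hLg x hx).symm
      have hg0 : ∑ x ∈ Ω, g x = 0 := (mul_eq_zero.mp hs2).resolve_left hlam
      have hm0 : mean Ω g = 0 := by simp only [mean, hg0, zero_div]
      have := heig g lam hg0 hg (by
        intro x hx
        rw [← hLg x hx]
        refine Finset.sum_congr rfl fun i _ => ?_
        apply cE_congr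
        intro y _
        rw [hm0, sub_zero])
      exact absurd this (not_le.mpr hcon))
    f
  have hm0 : mean Ω f = 0 := by simp only [mean, hf, zero_div]
  calc ∑ i ∈ I, ∑ x ∈ Ω, (cE Ω (key i) f x) ^ 2
      = ∑ x ∈ Ω, f x * ∑ i ∈ I, cE Ω (key i) (fun y => f y - mean Ω f) x := by
        simp only [Finset.mul_sum]
        rw [Finset.sum_comm (s := Ω)]
        refine Finset.sum_congr rfl fun i _ => ?_
        rw [sum_cE_sq]
        refine Finset.sum_congr rfl fun x _ => ?_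
        congr 1
        apply cE_congr
        intro y _
        rw [hm0, sub_zero]
    _ ≤ _ := h

/-- from `∑_i ‖E_i h‖² ≤ (N-1) ‖h‖²` (mean zero `h`) to `‖∑ D_i f‖² ≥ ∑ ‖D_i f‖²`. -/
theorem sq_of_star {α κ ι : Type*} [DecidableEq κ] (Ω : Finset α) (I : Finset ι)
    (key : ι → α → κ)
    (hstar : ∀ h : α → ℝ, ∑ x ∈ Ω, h x = 0 →
      ∑ i ∈ I, ∑ x ∈ Ω, (cE Ω (key i) h x) ^ 2 ≤ ((I.card : ℝ) - 1) * ∑ x ∈ Ω, h x ^ 2)
    (f : α → ℝ) :
    ∑ i ∈ I, ∑ x ∈ Ω, (cD Ω (key i) f x) ^ 2 ≤ ∑ x ∈ Ω, (∑ i ∈ I, cD Ω (key i) f x) ^ 2 := by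
  classical
  set h : α → ℝ := fun x => f x - mean Ω f with hh
  have hD : ∀ i, ∀ x ∈ Ω, cD Ω (key i) f x = cD Ω (key i) h x := by
    intro i x hx
    have := cD_add_const Ω (key i) f (- mean Ω f) hx
    rw [← this]
    rfl
  have hsum : ∑ x ∈ Ω, h x = 0 := sum_sub_mean Ω f
  set B : α → ℝ := fun x => ∑ i ∈ I, cD Ω (key i) h x with hB
  set q : ℝ := ∑ i ∈ I, ∑ x ∈ Ω, (cD Ω (key i) h x) ^ 2 with hq
  have hform : ∑ x ∈ Ω, h x * B x = q := by
    simp only [hB, Finset.mul_sum]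
    rw [Finset.sum_comm]
    refine Finset.sum_congr rfl fun i _ => ?_
    rw [sum_cD_sq']
  have hq1 : ∑ x ∈ Ω, h x ^ 2 ≤ q := by
    have h1 : q = (I.card : ℝ) * ∑ x ∈ Ω, h x ^ 2 - ∑ i ∈ I, ∑ x ∈ Ω, (cE Ω (key i) h x) ^ 2 := by
      simp only [hq, sum_cD_sq, Finset.sum_sub_distrib, Finset.sum_const, nsmul_eq_mul]
    have h2 := hstar h hsum
    rw [h1]; linarith
  have hq0 : 0 ≤ q := Finset.sum_nonneg fun i _ => Finset.sum_nonneg fun x _ => sq_nonneg _
  have hcs : q ^ 2 ≤ (∑ x ∈ Ω, h x ^ 2) * ∑ x ∈ Ω, B x ^ 2 := by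
    rw [← hform]
    exact Finset.sum_mul_sq_le_sq_mul_sq Ω h B
  have hB0 : 0 ≤ ∑ x ∈ Ω, B x ^ 2 := Finset.sum_nonneg fun x _ => sq_nonneg _
  have hgoal : q ≤ ∑ x ∈ Ω, B x ^ 2 := by
    rcases hq0.eq_or_lt with h0 | h0
    · rw [← h0]; exact hB0
    · have : q * q ≤ q * ∑ x ∈ Ω, B x ^ 2 := by
        calc q * q = q ^ 2 := by ring
          _ ≤ (∑ x ∈ Ω, h x ^ 2) * ∑ x ∈ Ω, B x ^ 2 := hcs
          _ ≤ q * ∑ x ∈ Ω, B x ^ 2 := mul_le_mul_of_nonneg_right hq1 hB0
      exact le_of_mul_le_mul_left this h0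
  calc ∑ i ∈ I, ∑ x ∈ Ω, (cD Ω (key i) f x) ^ 2 = q := by
        refine Finset.sum_congr rfl fun i _ => Finset.sum_congr rfl fun x hx => ?_
        rw [hD i x hx]
    _ ≤ ∑ x ∈ Ω, B x ^ 2 := hgoal
    _ = ∑ x ∈ Ω, (∑ i ∈ I, cD Ω (key i) f x) ^ 2 := by
        refine Finset.sum_congr rfl fun x hx => ?_
        simp only [hB]
        congr 1
        exact Finset.sum_congr rfl fun i _ => (hD i x hx).symm

end Crest.Agent.S0453D
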