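import Mathlib

/-!
# S0453, package JOHNSON : the sharp Poincaré inequality of the Johnson graph `J(N,k)`

`S.powersetCard k` is the set of `k`-subsets of the finite set `S`, `N = S.card`.  For every `f`,
`2 N (|Ω| ∑ f² - (∑ f)²) ≤ |Ω| ∑_{A} ∑_{a ∈ A} ∑_{b ∈ S \ A} (f A - f (A - a + b))²`.
Proof: up/down operators and induction on `k`.
-/

set_option autoImplicit false

namespace Crest.Agent.S0453Johnson

open Finset

variable {α : Type*} [DecidableEq α] (S : Finset α)

/-- double counting of the pairs `(B, b)`, `b ∈ S \ B`, `|B| = k`. -/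
theorem sum_up_down (k : ℕ) (F : Finset α → α → ℝ) :
    ∑ B ∈ S.powersetCard k, ∑ b ∈ S \ B, F B b
      = ∑ A ∈ S.powersetCard (k + 1), ∑ a ∈ A, F (A.erase a) a := by
  rw [Finset.sum_sigma', Finset.sum_sigma']
  refine Finset.sum_bij' (fun x _ => ⟨insert x.2 x.1, x.2⟩) (fun x _ => ⟨x.1.erase x.2, x.2⟩)
    ?_ ?_ ?_ ?_ ?_
  · rintro ⟨B, b⟩ h
    simp only [Finset.mem_sigma, Finset.mem_powersetCard, Finset.mem_sdiff] at h ⊢
    refine ⟨⟨Finset.insert_subset h.2.1 h.1.1, ?_⟩, Finset.mem_insert_self _ _⟩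
    rw [Finset.card_insert_of_notMem h.2.2, h.1.2]
  · rintro ⟨A, a⟩ h
    simp only [Finset.mem_sigma, Finset.mem_powersetCard, Finset.mem_sdiff] at h ⊢
    refine ⟨⟨(Finset.erase_subset _ _).trans h.1.1, ?_⟩, h.1.1 h.2, Finset.notMem_erase _ _⟩
    rw [Finset.card_erase_of_mem h.2, h.1.2]
    rfl
  · rintro ⟨B, b⟩ h
    simp only [Finset.mem_sigma, Finset.mem_powersetCard, Finset.mem_sdiff] at h
    simp [Finset.erase_insert h.2.2]
  · rintro ⟨A, a⟩ h
    simp only [Finset.mem_sigma, Finset.mem_powersetCard] at h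
    simp [Finset.insert_erase h.2]
  · rintro ⟨B, b⟩ h
    simp only [Finset.mem_sigma, Finset.mem_powersetCard, Finset.mem_sdiff] at h
    simp [Finset.erase_insert h.2.2]

/-- squared norm on the `k`-th slice. -/
def nrm (k : ℕ) (f : Finset α → ℝ) : ℝ := ∑ A ∈ S.powersetCard k, f A ^ 2

/-- down operator. -/
def Dn (f : Finset α → ℝ) (B : Finset α) : ℝ := ∑ b ∈ S \ B, f (insert b B)

/-- up operator. -/
def Up (g : Finset α → ℝ) (A : Finset α) : ℝ := ∑ a ∈ A, g (A.erase a)

/-- the Dirichlet form (ordered exchange pairs). -/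
def Estd (k : ℕ) (f : Finset α → ℝ) : ℝ :=
  ∑ A ∈ S.powersetCard k, ∑ a ∈ A, ∑ b ∈ S \ A, (f A - f (insert b (A.erase a))) ^ 2

omit [DecidableEq α] in
theorem nrm_nonneg (k : ℕ) (f : Finset α → ℝ) : 0 ≤ nrm S k f :=
  Finset.sum_nonneg fun _ _ => sq_nonneg _

theorem Estd_nonneg (k : ℕ) (f : Finset α → ℝ) : 0 ≤ Estd S k f :=
  Finset.sum_nonneg fun _ _ => Finset.sum_nonneg fun _ _ => Finset.sum_nonneg fun _ _ => sq_nonneg _

/-- `∑_{a,b ∈ S} (x a - x b)² = 2 |S| ∑ x² - 2 (∑ x)²`. -/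
theorem sum_sq_diff {ι : Type*} (S : Finset ι) (x : ι → ℝ) :
    ∑ a ∈ S, ∑ b ∈ S, (x a - x b) ^ 2 = 2 * S.card * ∑ a ∈ S, x a ^ 2 - 2 * (∑ a ∈ S, x a) ^ 2 := by
  have h : ∀ a ∈ S, ∑ b ∈ S, (x a - x b) ^ 2
      = S.card * x a ^ 2 - 2 * x a * (∑ b ∈ S, x b) + ∑ b ∈ S, x b ^ 2 := by
    intro a _
    have : ∀ b ∈ S, (x a - x b) ^ 2 = x a ^ 2 - 2 * x a * x b + x b ^ 2 := by
      intro b _; ring
    rw [Finset.sum_congr rfl this, Finset.sum_add_distrib, Finset.sum_sub_distrib,
      Finset.sum_const, ← Finset.mul_sum]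
    simp
  rw [Finset.sum_congr rfl h, Finset.sum_add_distrib, Finset.sum_sub_distrib, ← Finset.mul_sum,
    ← Finset.sum_mul, ← Finset.mul_sum, Finset.sum_const]
  simp only [nsmul_eq_mul]
  ring

/-- the Dirichlet form through the `k`-subsets below. -/
theorem Estd_eq_down (k : ℕ) (f : Finset α → ℝ) :
    Estd S (k + 1) f
      = ∑ B ∈ S.powersetCard k, ∑ a ∈ S \ B, ∑ b ∈ S \ B, (f (insert a B) - f (insert b B)) ^ 2 := by
  rw [sum_up_down S k (fun B a => ∑ b ∈ S \ B, (f (insert a B) - f (insert b B)) ^ 2)]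
  unfold Estd
  refine Finset.sum_congr rfl fun A hA => Finset.sum_congr rfl fun a ha => ?_
  have hAS : A ⊆ S := (Finset.mem_powersetCard.mp hA).1
  have h1 : S \ (A.erase a) = insert a (S \ A) := by
    ext x
    simp only [Finset.mem_sdiff, Finset.mem_erase, Finset.mem_insert]
    by_cases hx : x = a
    · simp [hx, hAS ha]
    · simp [hx]
  have h2 : a ∉ S \ A := by simp [ha]
  rw [h1, Finset.sum_insert h2, Finset.insert_erase ha]
  simp

/-- the Dirichlet form through the `(k+1)`-subsets above. -/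
theorem Estd_eq_up (k : ℕ) (g : Finset α → ℝ) :
    Estd S k g
      = ∑ A ∈ S.powersetCard (k + 1), ∑ a ∈ A, ∑ b ∈ A, (g (A.erase a) - g (A.erase b)) ^ 2 := by
  have := sum_up_down S k (fun B a => ∑ b ∈ insert a B, (g B - g ((insert a B).erase b)) ^ 2)
  have h3 : ∑ A ∈ S.powersetCard (k + 1), ∑ a ∈ A, ∑ b ∈ A, (g (A.erase a) - g (A.erase b)) ^ 2
      = ∑ A ∈ S.powersetCard (k + 1), ∑ a ∈ A,
        ∑ b ∈ insert a (A.erase a), (g (A.erase a) - g ((insert a (A.erase a)).erase b)) ^ 2 := by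
    refine Finset.sum_congr rfl fun A _ => Finset.sum_congr rfl fun a ha => ?_
    rw [Finset.insert_erase ha]
  rw [h3, ← this]
  unfold Estd
  refine Finset.sum_congr rfl fun B _ => ?_
  rw [Finset.sum_comm]
  refine Finset.sum_congr rfl fun a ha => ?_
  have ha' : a ∉ B := (Finset.mem_sdiff.mp ha).2
  rw [Finset.sum_insert ha', Finset.erase_insert ha']
  simp only [sub_self, ne_eq, OfNat.ofNat_ne_zero, not_false_eq_true, zero_pow, zero_add]
  refine Finset.sum_congr rfl fun b hb => ?_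
  have hab : a ≠ b := fun h => ha' (h ▸ hb)
  rw [Finset.erase_insert_of_ne hab]

theorem card_sdiff_of_mem {k : ℕ} {B : Finset α} (hB : B ∈ S.powersetCard k) :
    ((S \ B).card : ℝ) = (S.card : ℝ) - k := by
  obtain ⟨h1, h2⟩ := Finset.mem_powersetCard.mp hB
  rw [Finset.card_sdiff_of_subset h1, Nat.cast_sub (Finset.card_le_card h1), h2]

/-- formula (a). -/
theorem Estd_succ_eq (k : ℕ) (f : Finset α → ℝ) :
    Estd S (k + 1) f = 2 * ((S.card : ℝ) - k) * ((k : ℝ) + 1) * nrm S (k + 1) f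
      - 2 * nrm S k (Dn S f) := by
  rw [Estd_eq_down]
  have h : ∀ B ∈ S.powersetCard k, ∑ a ∈ S \ B, ∑ b ∈ S \ B, (f (insert a B) - f (insert b B)) ^ 2
      = 2 * ((S.card : ℝ) - k) * ∑ a ∈ S \ B, f (insert a B) ^ 2 - 2 * (Dn S f B) ^ 2 := by
    intro B hB
    rw [sum_sq_diff (S \ B) (fun a => f (insert a B)), card_sdiff_of_mem S hB]
    rfl
  rw [Finset.sum_congr rfl h, Finset.sum_sub_distrib, ← Finset.mul_sum, ← Finset.mul_sum,
    sum_up_down S k (fun B a => f (insert a B) ^ 2)]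
  have h2 : ∑ A ∈ S.powersetCard (k + 1), ∑ a ∈ A, f (insert a (A.erase a)) ^ 2
      = ((k : ℝ) + 1) * nrm S (k + 1) f := by
    unfold nrm
    rw [Finset.mul_sum]
    refine Finset.sum_congr rfl fun A hA => ?_
    have : ∀ a ∈ A, f (insert a (A.erase a)) ^ 2 = f A ^ 2 := by
      intro a ha; rw [Finset.insert_erase ha]
    rw [Finset.sum_congr rfl this, Finset.sum_const, (Finset.mem_powersetCard.mp hA).2]
    simp
  rw [h2]
  unfold nrm
  ring

/-- formula (b). -/
theorem Estd_eq_Up (k : ℕ) (g : Finset α → ℝ) :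
    Estd S k g = 2 * ((k : ℝ) + 1) * ((S.card : ℝ) - k) * nrm S k g - 2 * nrm S (k + 1) (Up g) := by
  rw [Estd_eq_up]
  have h : ∀ A ∈ S.powersetCard (k + 1), ∑ a ∈ A, ∑ b ∈ A, (g (A.erase a) - g (A.erase b)) ^ 2
      = 2 * ((k : ℝ) + 1) * ∑ a ∈ A, g (A.erase a) ^ 2 - 2 * (Up g A) ^ 2 := by
    intro A hA
    rw [sum_sq_diff A (fun a => g (A.erase a)), (Finset.mem_powersetCard.mp hA).2]
    push_cast
    rfl
  rw [Finset.sum_congr rfl h, Finset.sum_sub_distrib, ← Finset.mul_sum, ← Finset.mul_sum,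
    ← sum_up_down S k (fun B _ => g B ^ 2)]
  have h2 : ∑ B ∈ S.powersetCard k, ∑ _b ∈ S \ B, g B ^ 2 = ((S.card : ℝ) - k) * nrm S k g := by
    unfold nrm
    rw [Finset.mul_sum]
    refine Finset.sum_congr rfl fun B hB => ?_
    rw [Finset.sum_const, nsmul_eq_mul, card_sdiff_of_mem S hB]
  rw [h2]
  unfold nrm
  ring

/-- adjointness (c). -/
theorem sum_Dn_mul (k : ℕ) (f g : Finset α → ℝ) :
    ∑ B ∈ S.powersetCard k, Dn S f B * g B = ∑ A ∈ S.powersetCard (k + 1), f A * Up g A := by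
  have := sum_up_down S k (fun B b => f (insert b B) * g B)
  unfold Dn Up
  simp only [Finset.sum_mul, Finset.mul_sum]
  rw [this]
  refine Finset.sum_congr rfl fun A _ => Finset.sum_congr rfl fun a ha => ?_
  rw [Finset.insert_erase ha]

/-- (d). -/
theorem sum_Dn (k : ℕ) (f : Finset α → ℝ) :
    ∑ B ∈ S.powersetCard k, Dn S f B = ((k : ℝ) + 1) * ∑ A ∈ S.powersetCard (k + 1), f A := by
  have := sum_Dn_mul S k f (fun _ => 1)
  simp only [mul_one] at this
  rw [this, Finset.mul_sum]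
  refine Finset.sum_congr rfl fun A hA => ?_
  unfold Up
  rw [Finset.sum_const, (Finset.mem_powersetCard.mp hA).2]
  simp [mul_comm]

/-- the sharp gap for mean zero functions. -/
theorem gap_of_sum_zero (k : ℕ) : ∀ f : Finset α → ℝ, ∑ A ∈ S.powersetCard k, f A = 0 →
    2 * (S.card : ℝ) * nrm S k f ≤ Estd S k f := by
  induction k with
  | zero =>
    intro f hf
    have h0 : S.powersetCard 0 = {∅} := by simp
    have : nrm S 0 f = 0 := by
      unfold nrm
      rw [h0] at hf ⊢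
      simp only [Finset.sum_singleton] at hf ⊢
      rw [hf]; norm_num
    rw [this, mul_zero]
    exact Estd_nonneg S 0 f
  | succ k ih =>
    intro f hf
    by_cases hk : S.card < k + 1
    · have hE : S.powersetCard (k + 1) = ∅ := Finset.powersetCard_eq_empty.mpr hk
      have : nrm S (k + 1) f = 0 := by unfold nrm; rw [hE]; simp
      rw [this, mul_zero]
      exact Estd_nonneg S _ f
    · have hk' : ((k : ℝ) + 1) ≤ (S.card : ℝ) := by
        have : k + 1 ≤ S.card := not_lt.mp hk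
        exact_mod_cast this
      set N : ℝ := (S.card : ℝ) with hN
      set g := Dn S f with hg
      have hg0 : ∑ B ∈ S.powersetCard k, g B = 0 := by rw [hg, sum_Dn, hf, mul_zero]
      have h1 := ih g hg0
      have h2 := Estd_eq_Up S k g
      have h3 := Estd_succ_eq S k f
      have h4 : nrm S k g = ∑ A ∈ S.powersetCard (k + 1), f A * Up g A := by
        rw [← sum_Dn_mul S k f g]
        unfold nrm
        refine Finset.sum_congr rfl fun B _ => ?_
        rw [sq]
      have h5 : (nrm S k g) ^ 2 ≤ nrm S (k + 1) f * nrm S (k + 1) (Up g) := by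
        rw [h4]
        exact Finset.sum_mul_sq_le_sq_mul_sq _ _ _
      have hgn := nrm_nonneg S k g
      have hfn := nrm_nonneg S (k + 1) f
      have hUn := nrm_nonneg S (k + 1) (Up g)
      have h6 : nrm S (k + 1) (Up g) ≤ (((k : ℝ) + 1) * (N - k) - N) * nrm S k g := by
        nlinarith
      have hkk : 0 ≤ (k : ℝ) := Nat.cast_nonneg k
      have hc : 0 ≤ ((k : ℝ) + 1) * (N - k) - N := by nlinarith
      have h7 : nrm S k g ≤ (((k : ℝ) + 1) * (N - k) - N) * nrm S (k + 1) f := by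
        by_cases hz : nrm S k g = 0
        · rw [hz]; exact mul_nonneg hc hfn
        · have hpos : 0 < nrm S k g := lt_of_le_of_ne hgn (Ne.symm hz)
          have h8 : (nrm S k g) ^ 2
              ≤ nrm S (k + 1) f * ((((k : ℝ) + 1) * (N - k) - N) * nrm S k g) :=
            le_trans h5 (mul_le_mul_of_nonneg_left h6 hfn)
          have h9 : nrm S k g * nrm S k g
              ≤ ((((k : ℝ) + 1) * (N - k) - N) * nrm S (k + 1) f) * nrm S k g := by
            nlinarith
          exact le_of_mul_le_mul_right h9 hpos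
      rw [h3]
      nlinarith

/-- **Sharp Poincaré inequality of the Johnson graph** on the `k`-subsets of a finite set `S`. -/
theorem johnson_gap (k : ℕ) (f : Finset α → ℝ) :
    2 * (S.card : ℝ) *
        (((S.powersetCard k).card : ℝ) * ∑ A ∈ S.powersetCard k, f A ^ 2
          - (∑ A ∈ S.powersetCard k, f A) ^ 2) ≤
      ((S.powersetCard k).card : ℝ) *
        ∑ A ∈ S.powersetCard k, ∑ a ∈ A, ∑ b ∈ S \ A, (f A - f (insert b (A.erase a))) ^ 2 := by
  by_cases hE : (S.powersetCard k).card = 0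
  · have : S.powersetCard k = ∅ := Finset.card_eq_zero.mp hE
    rw [this]; simp
  have hpos : 0 < ((S.powersetCard k).card : ℝ) := by exact_mod_cast Nat.pos_of_ne_zero hE
  set M : ℝ := ((S.powersetCard k).card : ℝ) with hM
  set m : ℝ := (∑ A ∈ S.powersetCard k, f A) / M with hm
  have h0 : ∑ A ∈ S.powersetCard k, (fun A => f A - m) A = 0 := by
    show ∑ A ∈ S.powersetCard k, (f A - m) = 0
    rw [Finset.sum_sub_distrib, Finset.sum_const, nsmul_eq_mul, ← hM, hm, mul_div_cancel₀ _ hpos.ne',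
      sub_self]
  have h1 := gap_of_sum_zero S k (fun A => f A - m) h0
  have h2 : Estd S k (fun A => f A - m) = Estd S k f := by
    unfold Estd
    refine Finset.sum_congr rfl fun A _ => Finset.sum_congr rfl fun a _ =>
      Finset.sum_congr rfl fun b _ => ?_
    ring
  have h3 : M * nrm S k (fun A => f A - m)
      = M * ∑ A ∈ S.powersetCard k, f A ^ 2 - (∑ A ∈ S.powersetCard k, f A) ^ 2 := by
    unfold nrm
    have : ∀ A ∈ S.powersetCard k, (f A - m) ^ 2 = f A ^ 2 - 2 * m * f A + m ^ 2 := by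
      intro A _; ring
    rw [Finset.sum_congr rfl this, Finset.sum_add_distrib, Finset.sum_sub_distrib, ← Finset.mul_sum,
      Finset.sum_const, nsmul_eq_mul, ← hM]
    rw [hm]; field_simp; ring
  rw [h2] at h1
  rw [← h3]
  have := mul_le_mul_of_nonneg_left h1 hpos.le
  unfold Estd at this
  nlinarith

/-- The same for `S = univ`. -/
theorem johnson_gap_univ [Fintype α] (k : ℕ) (f : Finset α → ℝ) :
    2 * (Fintype.card α : ℝ) *
        ((((univ : Finset α).powersetCard k).card : ℝ) * ∑ A ∈ (univ : Finset α).powersetCard k, f A ^ 2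
          - (∑ A ∈ (univ : Finset α).powersetCard k, f A) ^ 2) ≤
      (((univ : Finset α).powersetCard k).card : ℝ) *
        ∑ A ∈ (univ : Finset α).powersetCard k, ∑ a ∈ A, ∑ b ∈ Aᶜ,
          (f A - f (insert b (A.erase a))) ^ 2 := by
  have := johnson_gap (univ : Finset α) k f
  simpa only [Finset.card_univ, Finset.compl_eq_univ_sdiff] using this

/-- Variance form: `∑ (f - mean)² ≤ (1 / (2N)) ∑ ordered exchange pairs`. -/
theorem johnson_var (k : ℕ) (f : Finset α → ℝ) (m : ℝ)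
    (hm : ((S.powersetCard k).card : ℝ) * m = ∑ A ∈ S.powersetCard k, f A) :
    2 * (S.card : ℝ) * ∑ A ∈ S.powersetCard k, (f A - m) ^ 2 ≤
        ∑ A ∈ S.powersetCard k, ∑ a ∈ A, ∑ b ∈ S \ A, (f A - f (insert b (A.erase a))) ^ 2 := by
  have h0 : ∑ A ∈ S.powersetCard k, (fun A => f A - m) A = 0 := by
    show ∑ A ∈ S.powersetCard k, (f A - m) = 0
    rw [Finset.sum_sub_distrib, Finset.sum_const, nsmul_eq_mul, hm, sub_self]
  have h1 := gap_of_sum_zero S k (fun A => f A - m) h0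
  have h2 : Estd S k (fun A => f A - m) = Estd S k f := by
    unfold Estd
    refine Finset.sum_congr rfl fun A _ => Finset.sum_congr rfl fun a _ =>
      Finset.sum_congr rfl fun b _ => ?_
    ring
  rw [h2] at h1
  exact h1

end Crest.Agent.S0453Johnson
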