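import Mathlib
import Crest.Prelude.Def_SwitchChain
import Crest.Agent.S0453_PmCard

/-! S0453 package KER (helper23): row sums of `proposalCount`/`kernel`, invariance of the degrees. -/

set_option autoImplicit false
open Finset

namespace Crest.Agent.S0453Ker

open Crest.SwitchChain

variable {n : ℕ}

/-- total number of proposals -/
lemma sum_proposalCount (E : Finset (Edge n)) :
    ∑ E' : Finset (Edge n), proposalCount E E' = 6 * n.choose 4 := by
  unfold proposalCount
  rw [Finset.sum_comm]
  have : ∀ S ∈ (univ : Finset (Fin n)).powersetCard 4,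
      ∑ E' : Finset (Edge n), ∑ F ∈ pmSet S, ∑ F' ∈ (pmSet S).erase F,
        (if switchResult E F F' = E' then 1 else 0) = 6 := by
    intro S hS
    have hS4 : S.card = 4 := (Finset.mem_powersetCard.mp hS).2
    rw [Finset.sum_comm]
    have h1 : ∀ F ∈ pmSet S, ∑ E' : Finset (Edge n), ∑ F' ∈ (pmSet S).erase F,
        (if switchResult E F F' = E' then 1 else 0) = 2 := by
      intro F hF
      rw [Finset.sum_comm]
      have h2 : ∀ F' ∈ (pmSet S).erase F, ∑ E' : Finset (Edge n),
          (if switchResult E F F' = E' then 1 else 0) = 1 := by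
        intro F' _
        rw [Finset.sum_ite_eq]; simp
      rw [Finset.sum_congr rfl h2, Finset.sum_const, Finset.card_erase_of_mem hF, card_pmSet hS4]
      rfl
    rw [Finset.sum_congr rfl h1, Finset.sum_const, card_pmSet hS4]
    rfl
  rw [Finset.sum_congr rfl this, Finset.sum_const, Finset.card_powersetCard, Finset.card_univ,
    Fintype.card_fin, smul_eq_mul, mul_comm]

lemma pm_filter_card {S : Finset (Fin n)} {F : Finset (Edge n)} (hF : F ∈ pmSet S) (v : Fin n) :
    (F.filter fun e => v ∈ e.1).card = if v ∈ S then 1 else 0 := by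
  unfold pmSet at hF
  rw [Finset.mem_filter] at hF
  obtain ⟨-, hin, hone⟩ := hF
  split_ifs with hv
  · exact hone v hv
  · rw [Finset.card_eq_zero, Finset.filter_eq_empty_iff]
    intro e he hve
    exact hv (hin e he v hve)

lemma deg_switchResult {S : Finset (Fin n)} {F F' : Finset (Edge n)} (hF : F ∈ pmSet S)
    (hF' : F' ∈ pmSet S) (E : Finset (Edge n)) (v : Fin n) :
    deg (switchResult E F F') v = deg E v := by
  unfold switchResult
  split_ifs with h
  · obtain ⟨h1, h2⟩ := h
    unfold deg
    have hsd : (E \ F).filter (fun e => v ∈ e.1) =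
        (E.filter fun e => v ∈ e.1) \ (F.filter fun e => v ∈ e.1) := by
      ext e; simp only [Finset.mem_filter, Finset.mem_sdiff]; tauto
    rw [Finset.filter_union, Finset.card_union_of_disjoint, hsd,
      Finset.card_sdiff_of_subset, pm_filter_card hF, pm_filter_card hF']
    · have : (if v ∈ S then 1 else 0) ≤ (E.filter fun e => v ∈ e.1).card := by
        rw [← pm_filter_card hF v]
        exact Finset.card_le_card (Finset.filter_subset_filter _ h1)
      omega
    · exact Finset.filter_subset_filter _ h1
    · refine Finset.disjoint_of_subset_left (Finset.filter_subset _ _)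
        (Finset.disjoint_of_subset_right (Finset.filter_subset _ _) ?_)
      exact Finset.disjoint_of_subset_left Finset.sdiff_subset h2.symm
  · rfl

lemma proposalCount_eq_zero {d : Fin n → ℕ} {E E' : Finset (Edge n)} (hE : E ∈ realizations d)
    (hE' : E' ∉ realizations d) : proposalCount E E' = 0 := by
  unfold proposalCount
  refine Finset.sum_eq_zero fun S _ => Finset.sum_eq_zero fun F hF =>
    Finset.sum_eq_zero fun F' hF' => ?_
  rw [if_neg]
  rintro rfl
  apply hE'
  unfold realizations at hE ⊢
  rw [Finset.mem_filter] at hE ⊢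
  exact ⟨Finset.mem_univ _, fun v => by
    rw [deg_switchResult hF (Finset.mem_of_mem_erase hF')]; exact hE.2 v⟩

lemma kernel_closed {d : Fin n → ℕ} {E E' : Finset (Edge n)} (hE : E ∈ realizations d)
    (hE' : E' ∉ realizations d) : kernel n E E' = 0 := by
  unfold kernel
  have hne : E ≠ E' := fun h => hE' (h ▸ hE)
  rw [proposalCount_eq_zero hE hE', if_neg hne]
  simp

lemma kernel_row_univ (hn : 4 ≤ n) (E : Finset (Edge n)) :
    ∑ E' : Finset (Edge n), kernel n E E' = 1 := by
  unfold kernel
  rw [Finset.sum_add_distrib, Finset.sum_ite_eq, ← Finset.sum_div, ← Nat.cast_sum,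
    sum_proposalCount]
  have : (0:ℝ) < (n.choose 4 : ℝ) := by exact_mod_cast Nat.choose_pos hn
  simp only [Finset.mem_univ, if_true]
  push_cast
  field_simp
  norm_num

lemma kernel_row (hn : 4 ≤ n) {d : Fin n → ℕ} {E : Finset (Edge n)} (hE : E ∈ realizations d) :
    ∑ E' ∈ realizations d, kernel n E E' = 1 := by
  rw [← kernel_row_univ hn E]
  exact Finset.sum_subset (Finset.subset_univ _) fun E' _ hE' => kernel_closed hE hE'

lemma kernel_nonneg (E E' : Finset (Edge n)) : 0 ≤ kernel n E E' := by
  unfold kernel
  positivity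

lemma kernel_lazy (E : Finset (Edge n)) : 1 / 2 ≤ kernel n E E := by
  unfold kernel
  rw [if_pos rfl]
  have : (0:ℝ) ≤ (proposalCount E E : ℝ) / (12 * (n.choose 4 : ℝ)) := by positivity
  linarith

end Crest.Agent.S0453Ker
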