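import Crest.Agent.S0453_CE
import Crest.Agent.S0453_Hilbert
import Crest.Agent.S0453_L3Defs

/-! # S0453, package A6 (first part) : the 3-label model, symmetries, odd case, radiality -/

set_option autoImplicit false
open Finset

namespace Crest.Agent.S0453D

section L3
variable {C : Type*} [Fintype C] [DecidableEq C]

/-- relabelling by the transposition `(j j')`. -/
def tauL (j j' : C) (c : C → Fin 3) : C → Fin 3 := fun x => c (Equiv.swap j j' x)

omit [Fintype C] in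
lemma tauL_tauL (j j' : C) (c : C → Fin 3) : tauL j j' (tauL j j' c) = c := by
  funext x
  simp [tauL]

omit [Fintype C] in
lemma swap_mem_iff (S : Finset C) {j j' : C} (h : j ∈ S ↔ j' ∈ S) (x : C) :
    Equiv.swap j j' x ∈ S ↔ x ∈ S := by
  by_cases h1 : x = j
  · subst h1; simp [h]
  · by_cases h2 : x = j'
    · subst h2; simp [h]
    · rw [Equiv.swap_apply_of_ne_of_ne h1 h2]

omit [Fintype C] in
lemma cnt_tauL (S : Finset C) {j j' : C} (h : j ∈ S ↔ j' ∈ S) (c : C → Fin 3) (i : Fin 3) :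
    cnt S (tauL j j' c) i = cnt S c i := by
  unfold cnt
  refine Finset.card_equiv (Equiv.swap j j') ?_
  intro x
  rw [mem_filter, mem_filter, swap_mem_iff S h]
  rfl

omit [Fintype C] [DecidableEq C] in
lemma sameType_iff {P Q : Finset C} (hPQ : Disjoint P Q) {j j' : C}
    (hjj : (j ∈ P ∧ j' ∈ P) ∨ (j ∈ Q ∧ j' ∈ Q)) : (j ∈ P ↔ j' ∈ P) ∧ (j ∈ Q ↔ j' ∈ Q) := by
  rcases hjj with ⟨h1, h2⟩ | ⟨h1, h2⟩
  · exact ⟨by simp [h1, h2], by
      simp [Finset.disjoint_left.1 hPQ h1, Finset.disjoint_left.1 hPQ h2]⟩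
  · exact ⟨by simp [Finset.disjoint_right.1 hPQ h1, Finset.disjoint_right.1 hPQ h2],
      by simp [h1, h2]⟩

lemma tauL_mem {P Q : Finset C} (hPQ : Disjoint P Q) {s : Fin 3 → ℤ} {j j' : C}
    (hjj : (j ∈ P ∧ j' ∈ P) ∨ (j ∈ Q ∧ j' ∈ Q)) {c : C → Fin 3} (hc : c ∈ L3Set P Q s) :
    tauL j j' c ∈ L3Set P Q s := by
  obtain ⟨hP, hQ⟩ := sameType_iff hPQ hjj
  simp only [L3Set, mem_filter, mem_univ, true_and] at hc ⊢
  refine ⟨fun x hx => ?_, fun i => ?_⟩
  · apply hc.1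
    have : (j ∈ P ∪ Q ↔ j' ∈ P ∪ Q) := by simp [hP, hQ]
    rwa [swap_mem_iff _ this]
  · rw [cnt_tauL P hP, cnt_tauL Q hQ]; exact hc.2 i

lemma tauL_bijOn {P Q : Finset C} (hPQ : Disjoint P Q) (s : Fin 3 → ℤ) {j j' : C}
    (hjj : (j ∈ P ∧ j' ∈ P) ∨ (j ∈ Q ∧ j' ∈ Q)) :
    Set.BijOn (tauL j j') (L3Set P Q s) (L3Set P Q s) := by
  refine ⟨fun c hc => tauL_mem hPQ hjj hc, fun a _ b _ hab => ?_, fun c hc => ?_⟩
  · have := congrArg (tauL j j') hab
    simpa [tauL_tauL] using this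
  · exact ⟨tauL j j' c, tauL_mem hPQ hjj hc, tauL_tauL j j' c⟩

omit [DecidableEq C] in
lemma rowKey_eq_iff (i : Fin 3) (c c' : C → Fin 3) :
    rowKey i c = rowKey i c' ↔ ∀ x, c x = i ↔ c' x = i := by
  simp [rowKey, Finset.ext_iff]

lemma rowKey_tauL_iff (i : Fin 3) (j j' : C) (c c' : C → Fin 3) :
    rowKey i c = rowKey i c' ↔ rowKey i (tauL j j' c) = rowKey i (tauL j j' c') := by
  rw [rowKey_eq_iff, rowKey_eq_iff]
  constructor
  · intro h x; exact h _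
  · intro h x
    have := h (Equiv.swap j j' x)
    simpa [tauL] using this

/-- `E_i` commutes with the relabelling. -/
lemma cE_tauL {P Q : Finset C} (hPQ : Disjoint P Q) (s : Fin 3 → ℤ) {j j' : C}
    (hjj : (j ∈ P ∧ j' ∈ P) ∨ (j ∈ Q ∧ j' ∈ Q)) (i : Fin 3) (f : (C → Fin 3) → ℝ)
    {c : C → Fin 3} (hc : c ∈ L3Set P Q s) :
    cE (L3Set P Q s) (rowKey i) (fun y => f (tauL j j' y)) c
      = cE (L3Set P Q s) (rowKey i) f (tauL j j' c) :=
  cE_comp_of_bij (L3Set P Q s) (rowKey i) (tauL j j') (tauL_bijOn hPQ s hjj)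
    (fun x _ y _ => rowKey_tauL_iff i j j' x y) f hc

/-- if neither `c j` nor `c j'` is `i` the row `i` does not change. -/
lemma rowKey_tauL_of_ne (i : Fin 3) (j j' : C) (c : C → Fin 3) (h1 : c j ≠ i) (h2 : c j' ≠ i) :
    rowKey i (tauL j j' c) = rowKey i c := by
  rw [rowKey_eq_iff]
  intro x
  by_cases hx1 : x = j
  · subst hx1; simp [tauL, h1, h2]
  · by_cases hx2 : x = j'
    · subst hx2; simp [tauL, h1, h2]
    · simp [tauL, Equiv.swap_apply_of_ne_of_ne hx1 hx2]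

lemma exists_ne_ne (a b : Fin 3) : ∃ i : Fin 3, a ≠ i ∧ b ≠ i := by
  revert a b; decide

lemma two_of_three (g : Fin 3 → ℝ) (h : ∃ i, g i = 0) :
    (∑ i, g i) ^ 2 ≤ 2 * ∑ i, g i ^ 2 := by
  obtain ⟨i, hi⟩ := h
  simp only [Fin.sum_univ_three]
  fin_cases i
  · simp only [Fin.zero_eta] at hi
    rw [hi]; nlinarith [sq_nonneg (g 1 - g 2)]
  · simp only [Fin.mk_one] at hi
    rw [hi]; nlinarith [sq_nonneg (g 0 - g 2)]
  · simp only [Fin.reduceFinMk] at hi
    rw [hi]; nlinarith [sq_nonneg (g 0 - g 1)]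

/-- A6 : the odd case (`j, j'` of the same type, `h ∘ τ = - h`). -/
theorem odd_le (P Q : Finset C) (hPQ : Disjoint P Q) (s : Fin 3 → ℤ) (h : (C → Fin 3) → ℝ)
    (lam : ℝ) (hne : ∃ c ∈ L3Set P Q s, h c ≠ 0)
    (heig : ∀ c ∈ L3Set P Q s, ∑ i : Fin 3, cE (L3Set P Q s) (rowKey i) h c = lam * h c)
    (j j' : C) (hjj : (j ∈ P ∧ j' ∈ P) ∨ (j ∈ Q ∧ j' ∈ Q))
    (hodd : ∀ c ∈ L3Set P Q s, h (fun x => c (Equiv.swap j j' x)) = - h c) :
    lam ≤ 2 := by
  set Φ := L3Set P Q s with hΦ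
  -- `g_i ∘ τ = - g_i`
  have hg : ∀ i, ∀ c ∈ Φ, cE Φ (rowKey i) h (tauL j j' c) = - cE Φ (rowKey i) h c := by
    intro i c hc
    rw [← cE_tauL hPQ s hjj i h hc, ← cE_neg]
    exact cE_congr _ _ (fun x hx => hodd x hx) c
  have hzero : ∀ c ∈ Φ, ∃ i, cE Φ (rowKey i) h c = 0 := by
    intro c hc
    obtain ⟨i, h1, h2⟩ := exists_ne_ne (c j) (c j')
    refine ⟨i, ?_⟩
    have e1 := hg i c hc
    have e2 : cE Φ (rowKey i) h (tauL j j' c) = cE Φ (rowKey i) h c :=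
      cE_eq_of_key_eq _ _ _ (rowKey_tauL_of_ne i j j' c h1 h2)
    linarith
  have hpt : ∀ c ∈ Φ, (lam * h c) ^ 2 ≤ 2 * ∑ i : Fin 3, (cE Φ (rowKey i) h c) ^ 2 := by
    intro c hc
    rw [← heig c hc]
    exact two_of_three (fun i => cE Φ (rowKey i) h c) (hzero c hc)
  have hsum : ∑ c ∈ Φ, (lam * h c) ^ 2 ≤ ∑ c ∈ Φ, 2 * ∑ i : Fin 3, (cE Φ (rowKey i) h c) ^ 2 :=
    Finset.sum_le_sum hpt
  have hR : ∑ c ∈ Φ, 2 * ∑ i : Fin 3, (cE Φ (rowKey i) h c) ^ 2 = 2 * lam * ∑ c ∈ Φ, h c ^ 2 := by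
    rw [← Finset.mul_sum, Finset.sum_comm]
    have : ∀ i : Fin 3, ∑ c ∈ Φ, (cE Φ (rowKey i) h c) ^ 2 = ∑ c ∈ Φ, h c * cE Φ (rowKey i) h c :=
      fun i => sum_cE_sq Φ (rowKey i) h
    rw [Finset.sum_congr rfl (fun i _ => this i), Finset.sum_comm]
    have : ∀ c ∈ Φ, ∑ i : Fin 3, h c * cE Φ (rowKey i) h c = lam * h c ^ 2 := by
      intro c hc
      rw [← Finset.mul_sum, heig c hc]; ring
    rw [Finset.sum_congr rfl this, ← Finset.mul_sum]; ring
  have hL : ∑ c ∈ Φ, (lam * h c) ^ 2 = lam ^ 2 * ∑ c ∈ Φ, h c ^ 2 := by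
    rw [Finset.mul_sum]; exact Finset.sum_congr rfl (fun c _ => by ring)
  have hpos : 0 < ∑ c ∈ Φ, h c ^ 2 := by
    obtain ⟨c, hc, hc0⟩ := hne
    exact Finset.sum_pos' (fun _ _ => sq_nonneg _) ⟨c, hc, by positivity⟩
  rw [hL, hR] at hsum
  by_contra hlam
  rw [not_le] at hlam
  have : 2 * lam * ∑ c ∈ Φ, h c ^ 2 < lam ^ 2 * ∑ c ∈ Φ, h c ^ 2 := by
    apply mul_lt_mul_of_pos_right _ hpos
    nlinarith
  linarith


/-- on `L3Set` equal `Q`-counts give equal `P`-counts. -/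
lemma cntP_eq_of_cntQ_eq {P Q : Finset C} {s : Fin 3 → ℤ} {c c' : C → Fin 3}
    (hc : c ∈ L3Set P Q s) (hc' : c' ∈ L3Set P Q s) {i : Fin 3} (h : cnt Q c i = cnt Q c' i) :
    cnt P c i = cnt P c' i := by
  simp only [L3Set, mem_filter, mem_univ, true_and] at hc hc'
  have h1 := hc.2 i
  have h2 := hc'.2 i
  have h3 : (cnt Q c i : ℤ) = cnt Q c' i := by exact_mod_cast h
  have : (cnt P c i : ℤ) = cnt P c' i := by linarith
  exact_mod_cast this

omit [Fintype C] [DecidableEq C] in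
/-- exchange: same count, `j` has label `i` in `c` only -> some `j'` has label `i` in `c'` only. -/
lemma exists_exchange (S : Finset C) {c c' : C → Fin 3} {i : Fin 3} (h : cnt S c i = cnt S c' i)
    {j : C} (hj : j ∈ S) (h1 : c j = i) (h2 : c' j ≠ i) : ∃ j' ∈ S, c' j' = i ∧ c j' ≠ i := by
  by_contra hcon
  push Not at hcon
  have hsub : S.filter (fun x => c' x = i) ⊆ S.filter (fun x => c x = i) := by
    intro x hx
    rw [mem_filter] at hx ⊢
    exact ⟨hx.1, hcon x hx.1 hx.2⟩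
  have heq := Finset.eq_of_subset_of_card_le hsub (le_of_eq h)
  have : j ∈ S.filter (fun x => c' x = i) := by
    rw [heq, mem_filter]; exact ⟨hj, h1⟩
  exact h2 (mem_filter.1 this).2

/-- A6 : invariance under all same-type transpositions implies radiality of the `E_i h`. -/
theorem radial_of_inv (P Q : Finset C) (hPQ : Disjoint P Q) (s : Fin 3 → ℤ) (h : (C → Fin 3) → ℝ)
    (hinv : ∀ j j' : C, ((j ∈ P ∧ j' ∈ P) ∨ (j ∈ Q ∧ j' ∈ Q)) →
      ∀ c ∈ L3Set P Q s, h (fun x => c (Equiv.swap j j' x)) = h c) :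
    ∀ i, ∀ c ∈ L3Set P Q s, ∀ c' ∈ L3Set P Q s, cnt Q c i = cnt Q c' i →
      cE (L3Set P Q s) (rowKey i) h c = cE (L3Set P Q s) (rowKey i) h c' := by
  intro i
  set Φ := L3Set P Q s with hΦ
  have hg : ∀ j j' : C, ((j ∈ P ∧ j' ∈ P) ∨ (j ∈ Q ∧ j' ∈ Q)) → ∀ c ∈ Φ,
      cE Φ (rowKey i) h (tauL j j' c) = cE Φ (rowKey i) h c := by
    intro j j' hjj c hc
    rw [← cE_tauL hPQ s hjj i h hc]
    exact cE_congr _ _ (fun x hx => hinv j j' hjj x hx) c
  -- induction on the number of columns with label `i` in `c` but not in `c'`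
  have key : ∀ n : ℕ, ∀ c ∈ Φ, ∀ c' ∈ Φ, cnt Q c i = cnt Q c' i →
      (univ.filter fun x => c x = i ∧ c' x ≠ i).card = n →
      cE Φ (rowKey i) h c = cE Φ (rowKey i) h c' := by
    intro n
    induction n with
    | zero =>
      intro c hc c' hc' hQ hn
      apply cE_eq_of_key_eq
      rw [rowKey_eq_iff]
      have hP := cntP_eq_of_cntQ_eq hc hc' hQ
      rw [Finset.card_eq_zero, Finset.filter_eq_empty_iff] at hn
      have h1 : ∀ x, c x = i → c' x = i := by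
        intro x hx
        by_contra hx'
        exact hn (mem_univ x) ⟨hx, hx'⟩
      intro x
      refine ⟨h1 x, fun hx' => ?_⟩
      by_contra hx
      by_cases hxPQ : x ∈ P ∪ Q
      · rcases Finset.mem_union.1 hxPQ with hxP | hxQ
        · obtain ⟨y, _, hy1, hy2⟩ := exists_exchange P hP.symm hxP hx' hx
          exact hy2 (h1 y hy1)
        · obtain ⟨y, _, hy1, hy2⟩ := exists_exchange Q hQ.symm hxQ hx' hx
          exact hy2 (h1 y hy1)
      · simp only [hΦ, L3Set, mem_filter, mem_univ, true_and] at hc hc'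
        rw [hc.1 x hxPQ] at hx
        rw [hc'.1 x hxPQ] at hx'
        exact hx hx'
    | succ n ih =>
      intro c hc c' hc' hQ hn
      have hP := cntP_eq_of_cntQ_eq hc hc' hQ
      have hne : (univ.filter fun x => c x = i ∧ c' x ≠ i).Nonempty := by
        rw [← Finset.card_pos, hn]; exact Nat.succ_pos n
      obtain ⟨j, hj⟩ := hne
      rw [mem_filter] at hj
      obtain ⟨-, hj1, hj2⟩ := hj
      have hjPQ : j ∈ P ∪ Q := by
        by_contra hjPQ
        have hc0 := hc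
        have hc0' := hc'
        simp only [hΦ, L3Set, mem_filter, mem_univ, true_and] at hc0 hc0'
        rw [hc0.1 j hjPQ] at hj1
        rw [hc0'.1 j hjPQ] at hj2
        exact hj2 hj1
      have hex : ∃ j', ((j ∈ P ∧ j' ∈ P) ∨ (j ∈ Q ∧ j' ∈ Q)) ∧ c' j' = i ∧ c j' ≠ i := by
        rcases Finset.mem_union.1 hjPQ with hjP | hjQ
        · obtain ⟨y, hy, hy1, hy2⟩ := exists_exchange P hP hjP hj1 hj2
          exact ⟨y, Or.inl ⟨hjP, hy⟩, hy1, hy2⟩
        · obtain ⟨y, hy, hy1, hy2⟩ := exists_exchange Q hQ hjQ hj1 hj2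
          exact ⟨y, Or.inr ⟨hjQ, hy⟩, hy1, hy2⟩
      obtain ⟨j', hjj, hj'1, hj'2⟩ := hex
      have hjne : j ≠ j' := by
        rintro rfl; exact hj'2 hj1
      rw [← hg j j' hjj c hc]
      apply ih (tauL j j' c) (tauL_mem hPQ hjj hc) c' hc'
      · rw [cnt_tauL Q (sameType_iff hPQ hjj).2]; exact hQ
      · have : (univ.filter fun x => tauL j j' c x = i ∧ c' x ≠ i)
            = (univ.filter fun x => c x = i ∧ c' x ≠ i).erase j := by
          ext x
          simp only [mem_filter, mem_univ, true_and, mem_erase]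
          by_cases hx1 : x = j
          · subst hx1
            simp [tauL, hj'2]
          · by_cases hx2 : x = j'
            · subst hx2
              simp [tauL, hj'1]
            · simp [tauL, Equiv.swap_apply_of_ne_of_ne hx1 hx2, hx1]
        rw [this, Finset.card_erase_of_mem (by simp [hj1, hj2]), hn]
        rfl
  intro c hc c' hc' hQ
  exact key _ c hc c' hc' hQ rfl

end L3

end Crest.Agent.S0453D
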