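import Crest.Agent.S0453_CE
import Crest.Agent.S0453_PairEnc
import Crest.Agent.S0453_SPrime

/-! # S0453, package B4 (helper23): duplicate proof of `lo_le_Q`.
The official `S0453D.offP`, `S0453D.lo_le_Q` are in `S0453_PairQ.lean` (helper75, landed 2 s earlier);
to avoid a name clash everything here lives in `S0453D.PairEnc`. -/

set_option autoImplicit false
open Finset
open Crest.SwitchChain

namespace Crest.Agent.S0453D

variable {n : ℕ}

namespace PairEnc

/-- ordered pairs `(u,v)`, `u ≠ v`, disjoint from `{w,z}`. -/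
def offP (w z : Fin n) : Finset (Fin n × Fin n) :=
  univ.filter fun p => p.1 ≠ p.2 ∧ p.1 ≠ w ∧ p.1 ≠ z ∧ p.2 ≠ w ∧ p.2 ≠ z

open Classical in
/-- the part of the fibre on which the block `{u,v} × {w,z}` is a permutation matrix. -/
noncomputable def fibQ (d : Fin n → ℕ) (u v w z : Fin n) (G0 : Gr n) : Finset (Gr n) :=
  (fibP d w z G0).filter (isP u v w z)

lemma OmP_filter (d : Fin n → ℕ) (u v w z : Fin n) (G0 : Gr n) :
    (OmP d u v w z).filter (fun G => keyP w z G = keyP w z G0) = fibQ d u v w z G0 := by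
  classical
  ext G
  simp only [OmP, fibQ, fibP, Finset.mem_filter]
  tauto

lemma mem_fibQ {d : Fin n → ℕ} {u v w z : Fin n} {G0 G : Gr n} :
    G ∈ fibQ d u v w z G0 ↔ G ∈ fibP d w z G0 ∧ isP u v w z G := by
  classical
  unfold fibQ; rw [Finset.mem_filter]

/-- the loss term on one fibre. -/
lemma lo_fibre (d : Fin n → ℕ) (u v w z : Fin n) (G0 : Gr n) (g : Gr n → ℝ) :
    ∑ G ∈ fibQ d u v w z G0, (cE (OmP d u v w z) (keyP w z) g G) ^ 2 =
      (∑ G ∈ fibQ d u v w z G0, g G) ^ 2 / ((fibQ d u v w z G0).card : ℝ) := by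
  have h : ∀ G ∈ fibQ d u v w z G0, (cE (OmP d u v w z) (keyP w z) g G) ^ 2 =
      ((∑ G ∈ fibQ d u v w z G0, g G) / ((fibQ d u v w z G0).card : ℝ)) ^ 2 := by
    intro G hG
    unfold cE
    rw [(mem_fibP.mp (mem_fibQ.mp hG).1).2, OmP_filter]
  rw [Finset.sum_congr rfl h, Finset.sum_const, nsmul_eq_mul]
  by_cases hc : ((fibQ d u v w z G0).card : ℝ) = 0
  · rw [hc]; simp
  · field_simp

lemma fibQ_eq_empty {d : Fin n → ℕ} {w z : Fin n} (hwz : w ≠ z) {G0 : Gr n}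
    (hG0 : G0 ∈ realizations d) {u v : Fin n}
    (huw : u ≠ w) (huz : u ≠ z) (hvw : v ≠ w) (hvz : v ≠ z)
    (h : ¬ (u ∈ AA w z G0 ∧ v ∈ AA w z G0)) : fibQ d u v w z G0 = ∅ := by
  rw [Finset.eq_empty_iff_forall_notMem]
  intro G hG
  obtain ⟨h1, h2⟩ := mem_fibQ.mp hG
  obtain ⟨a, b, -⟩ := (isP_iff hwz hG0 h1 huw huz hvw hvz).mp h2
  exact h ⟨a, b⟩

lemma image_fibQ {d : Fin n → ℕ} {w z : Fin n} (hwz : w ≠ z) {G0 : Gr n}
    (hG0 : G0 ∈ realizations d) {u v : Fin n} (hu : u ∈ AA w z G0) (hv : v ∈ AA w z G0) :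
    (fibQ d u v w z G0).image (enc w z G0) =
      sepS (AA w z G0) (enc w z G0 G0).card u v := by
  classical
  obtain ⟨huw, huz, -⟩ := mem_AA.mp hu
  obtain ⟨hvw, hvz, -⟩ := mem_AA.mp hv
  unfold sepS
  rw [← image_enc hwz hG0, Finset.filter_image]
  congr 1
  ext G
  rw [mem_fibQ, Finset.mem_filter]
  constructor
  · rintro ⟨h1, h2⟩
    exact ⟨h1, ((isP_iff hwz hG0 h1 huw huz hvw hvz).mp h2).2.2⟩
  · rintro ⟨h1, h2⟩
    exact ⟨h1, (isP_iff hwz hG0 h1 huw huz hvw hvz).mpr ⟨hu, hv, h2⟩⟩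

/-- reindexing of sums over `offP`. -/
lemma sum_offP (w z : Fin n) (G0 : Gr n) (X : Fin n → Fin n → ℝ)
    (hX : ∀ u v, u ≠ w → u ≠ z → v ≠ w → v ≠ z →
      ¬ (u ∈ AA w z G0 ∧ v ∈ AA w z G0) → X u v = 0) :
    ∑ p ∈ offP w z, X p.1 p.2 = ∑ u ∈ AA w z G0, ∑ v ∈ (AA w z G0).erase u, X u v := by
  classical
  rw [← Finset.sum_finset_product'
    ((offP w z).filter fun p => p.1 ∈ AA w z G0 ∧ p.2 ∈ AA w z G0) (AA w z G0)
    (fun u => (AA w z G0).erase u)]
  · symm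
    apply Finset.sum_subset (Finset.filter_subset _ _)
    intro p hp hp'
    unfold offP at hp
    rw [Finset.mem_filter] at hp hp'
    obtain ⟨-, h0, h1, h2, h3, h4⟩ := hp
    refine hX _ _ h1 h2 h3 h4 fun h => hp' ⟨?_, h⟩
    unfold offP
    rw [Finset.mem_filter]
    exact ⟨Finset.mem_univ _, h0, h1, h2, h3, h4⟩
  · intro p
    unfold offP
    simp only [Finset.mem_filter, Finset.mem_univ, true_and, Finset.mem_erase]
    constructor
    · rintro ⟨⟨h0, -⟩, h5, h6⟩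
      exact ⟨h5, Ne.symm h0, h6⟩
    · rintro ⟨h5, h0, h6⟩
      obtain ⟨a1, a2, -⟩ := mem_AA.mp h5
      obtain ⟨b1, b2, -⟩ := mem_AA.mp h6
      exact ⟨⟨Ne.symm h0, a1, a2, b1, b2⟩, h5, h6⟩

/-- (Zb) on one fibre. -/
lemma fibre_lo_le (d : Fin n → ℕ) (w z : Fin n) (hwz : w ≠ z) (f : Gr n → ℝ) {G0 : Gr n}
    (hG0 : G0 ∈ realizations d) :
    ∑ p ∈ offP w z, (∑ G ∈ fibQ d p.1 p.2 w z G0, Dp d w z f G) ^ 2 /
        ((fibQ d p.1 p.2 w z G0).card : ℝ) ≤
      ∑ p ∈ offP w z, ∑ G ∈ fibQ d p.1 p.2 w z G0, ((f G - f (flipB p.1 p.2 w z G)) / 2) ^ 2 := by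
  classical
  set Φ := fibP d w z G0 with hΦ
  set e := enc w z G0 with he
  set A := AA w z G0 with hA
  set k := (enc w z G0 G0).card with hk
  set S := A.powersetCard k with hS
  have himg : Φ.image e = S := image_enc hwz hG0
  have hinj : Set.InjOn e Φ := enc_injOn hwz hG0
  have hDp : ∀ G ∈ Φ, Dp d w z f G = f G - mean Φ f := by
    intro G hG
    unfold Dp cD cE mean
    rw [(mem_fibP.mp hG).2]
    rfl
  let g : Finset (Fin n) → ℝ := fun W => ∑ G ∈ Φ.filter (fun G => e G = W), Dp d w z f G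
  have hg : ∀ G ∈ Φ, g (e G) = Dp d w z f G := by
    intro G hG
    have : Φ.filter (fun G' => e G' = e G) = {G} := by
      ext G'
      simp only [Finset.mem_filter, Finset.mem_singleton]
      constructor
      · rintro ⟨h1, h2⟩; exact hinj h1 hG h2
      · rintro rfl; exact ⟨hG, rfl⟩
    simp only [g, this, Finset.sum_singleton]
  have hg0 : ∑ W ∈ S, g W = 0 := by
    rw [← himg, Finset.sum_image hinj, Finset.sum_congr rfl hg, Finset.sum_congr rfl hDp]
    exact sum_sub_mean Φ f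
  have hsub : ∀ u v, (fibQ d u v w z G0 : Set (Gr n)) ⊆ Φ := fun u v G hG =>
    (mem_fibQ.mp hG).1
  have key := sprime A k g hg0
  rw [sum_offP w z G0 (fun u v => (∑ G ∈ fibQ d u v w z G0, Dp d w z f G) ^ 2 /
        ((fibQ d u v w z G0).card : ℝ)),
    sum_offP w z G0 (fun u v => ∑ G ∈ fibQ d u v w z G0, ((f G - f (flipB u v w z G)) / 2) ^ 2)]
  · have hl : ∀ u ∈ A, ∀ v ∈ A.erase u,
        (∑ G ∈ fibQ d u v w z G0, Dp d w z f G) ^ 2 / ((fibQ d u v w z G0).card : ℝ) =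
        (∑ W ∈ sepS A k u v, g W) ^ 2 / ((sepS A k u v).card : ℝ) := by
      intro u hu v hv
      have hv' := Finset.mem_of_mem_erase hv
      rw [← image_fibQ hwz hG0 hu hv', Finset.sum_image (hinj.mono (hsub u v)),
        Finset.card_image_of_injOn (hinj.mono (hsub u v))]
      congr 2
      exact (Finset.sum_congr rfl fun G hG => hg G (hsub u v hG)).symm
    have hr : ∀ u ∈ A, ∀ v ∈ A.erase u,
        ∑ W ∈ S, ((g W - g (swapS u v W)) / 2) ^ 2 =
        ∑ G ∈ fibQ d u v w z G0, ((f G - f (flipB u v w z G)) / 2) ^ 2 := by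
      intro u hu v hv
      have hv' := Finset.mem_of_mem_erase hv
      have huv : u ≠ v := (Finset.ne_of_mem_erase hv).symm
      obtain ⟨huw, huz, -⟩ := mem_AA.mp hu
      obtain ⟨hvw, hvz, -⟩ := mem_AA.mp hv'
      have h1 : ∑ W ∈ S, ((g W - g (swapS u v W)) / 2) ^ 2 =
          ∑ W ∈ sepS A k u v, ((g W - g (swapS u v W)) / 2) ^ 2 := by
        symm
        apply Finset.sum_subset (Finset.filter_subset _ _)
        intro W hW hW'
        have : swapS u v W = W := by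
          apply swapS_eq_self
          rw [Finset.mem_filter] at hW'
          by_cases a : u ∈ W <;> by_cases b : v ∈ W <;> tauto
        rw [this]; simp
      rw [h1, ← image_fibQ hwz hG0 hu hv', Finset.sum_image (hinj.mono (hsub u v))]
      refine Finset.sum_congr rfl fun G hG => ?_
      obtain ⟨hGΦ, hP⟩ := mem_fibQ.mp hG
      have hfl := flipB_mem_fibP hwz hGΦ huv huw huz hvw hvz hP
      rw [← enc_flipB hwz hG0 hGΦ huv huw huz hvw hvz hP, hg G hGΦ, hg _ hfl, hDp G hGΦ,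
        hDp _ hfl]
      ring
    calc _ = ∑ u ∈ A, ∑ v ∈ A.erase u,
          (∑ W ∈ sepS A k u v, g W) ^ 2 / ((sepS A k u v).card : ℝ) :=
          Finset.sum_congr rfl fun u hu => Finset.sum_congr rfl fun v hv => hl u hu v hv
      _ ≤ _ := key
      _ = _ := Finset.sum_congr rfl fun u hu => Finset.sum_congr rfl fun v hv => hr u hu v hv
  · intro u v h1 h2 h3 h4 h
    rw [fibQ_eq_empty hwz hG0 h1 h2 h3 h4 h]; simp
  · intro u v h1 h2 h3 h4 h
    rw [fibQ_eq_empty hwz hG0 h1 h2 h3 h4 h]; simp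

lemma sum_OmP_fibres (d : Fin n → ℕ) (u v w z : Fin n) (F : Gr n → ℝ) :
    ∑ G ∈ OmP d u v w z, F G =
      ∑ κ ∈ (realizations d).image (keyP w z),
        ∑ G ∈ (OmP d u v w z).filter (fun G => keyP w z G = κ), F G := by
  classical
  symm
  apply Finset.sum_fiberwise_of_maps_to
  intro G hG
  unfold OmP at hG
  exact Finset.mem_image_of_mem _ (Finset.mem_of_mem_filter _ hG)

theorem lo_le_Q (d : Fin n → ℕ) (w z : Fin n) (hwz : w ≠ z) (f : Gr n → ℝ) :
    ∑ p ∈ offP w z, Lo d p.1 p.2 w z f ≤ ∑ p ∈ offP w z, Qf d p.1 p.2 w z f := by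
  unfold Lo Qf
  simp only [sum_OmP_fibres d _ _ w z]
  rw [Finset.sum_comm, Finset.sum_comm (s := offP w z)]
  refine Finset.sum_le_sum fun κ hκ => ?_
  obtain ⟨G0, hG0, rfl⟩ := Finset.mem_image.mp hκ
  simp only [OmP_filter, lo_fibre]
  exact fibre_lo_le d w z hwz f hG0

end PairEnc

end Crest.Agent.S0453D
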