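import Mathlib

/-! Definitions for the 3-row lemma (ROW299 / S0453, package 3LABEL). -/
set_option autoImplicit false
namespace Crest.Agent.S0453TL
open Finset

variable {Z : Type*} [Fintype Z] [DecidableEq Z]

/-- a 3-row 0/1 table: row `i` = set of columns in which row `i` has a one -/
abbrev Tab (Z : Type*) := Fin 3 → Finset Z

/-- tables with row sums `r` and column sums `c` -/
def Om (r : Fin 3 → ℕ) (c : Z → ℕ) : Finset (Tab Z) :=
  univ.filter fun R => (∀ i, (R i).card = r i) ∧ ∀ z, (univ.filter fun i => z ∈ R i).card = c z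

/-- tables of `Om` with the same row `i` as `R` -/
def fib (r : Fin 3 → ℕ) (c : Z → ℕ) (i : Fin 3) (R : Tab Z) : Finset (Tab Z) :=
  (Om r c).filter fun R' => R' i = R i

/-- conditional expectation given row `i` -/
noncomputable def cE (r : Fin 3 → ℕ) (c : Z → ℕ) (i : Fin 3) (f : Tab Z → ℝ) (R : Tab Z) : ℝ :=
  (∑ R' ∈ fib r c i R, f R') / ((fib r c i R).card : ℝ)

/-- exchange the columns `z`, `z'` -/
def swp (z z' : Z) (R : Tab Z) : Tab Z := fun i => (R i).image (Equiv.swap z z')

/-- radial coordinate: number of ones of row `i` in the columns of sum 1 -/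
def xc (c : Z → ℕ) (i : Fin 3) (R : Tab Z) : ℕ := ((R i).filter fun z => c z = 1).card

/-- columns in which exactly one of the two other rows has a one, given that row `i` is `A` -/
def Dset (c : Z → ℕ) (A : Finset Z) : Finset Z := univ.filter fun z => c z = (if z ∈ A then 1 else 0) + 1
/-- columns in which both other rows have a one -/
def Cset (c : Z → ℕ) (A : Finset Z) : Finset Z := univ.filter fun z => c z = (if z ∈ A then 1 else 0) + 2

/-- the table with rows `A` (row i), `C ∪ U` (row j), `C ∪ V` (the third row) -/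
def mkT (i j : Fin 3) (A C U V : Finset Z) : Tab Z :=
  fun m => if m = i then A else if m = j then C ∪ U else C ∪ V

section
variable (r : Fin 3 → ℕ) (c : Z → ℕ) (g : Fin 3 → Tab Z → ℝ) (θ : ℝ)

/-- H1 : `g i` depends only on row `i` -/
def H1 : Prop := ∀ i, ∀ R ∈ Om r c, ∀ R' ∈ Om r c, R i = R' i → g i R = g i R'
/-- H2 : eigen-equation -/
def H2 : Prop := ∀ i, ∀ R ∈ Om r c, θ * g i R = cE r c i (fun R' => ∑ j ∈ univ.erase i, g j R') R
/-- invariance under exchanges of columns with the same sum -/
def Hsw : Prop := ∀ z z', c z = c z' → ∀ i, ∀ R ∈ Om r c, g i (swp z z' R) = g i R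
/-- radial -/
def Hrad : Prop := ∀ i, ∀ R ∈ Om r c, ∀ R' ∈ Om r c, xc c i R = xc c i R' → g i R = g i R'
end

end Crest.Agent.S0453TL
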