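import Crest.Agent.S0453_Defs

/-! # S0453, package B6 : triples (graph side of the 3-label model) : definitions, patterns -/

set_option autoImplicit false
open Finset
open Crest.SwitchChain

namespace Crest.Agent.S0453D
namespace Tri

variable {n : ℕ}

/-! ## patterns (columns of a 3-row 0/1 table) -/

/-- column sum. -/
def sm (π : Fin 3 → Bool) : ℕ := (univ.filter fun a => π a = true).card

/-- the odd one out (`0` if there is none). -/
def lbl (π : Fin 3 → Bool) : Fin 3 :=
  if π 0 = π 1 then (if π 1 = π 2 then 0 else 2) else (if π 0 = π 2 then 1 else 0)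

/-- the column with sum `t` and label `l`. -/
def pat (t : ℕ) (l : Fin 3) : Fin 3 → Bool :=
  fun a => decide (t = 3 ∨ (t = 1 ∧ l = a) ∨ (t = 2 ∧ l ≠ a))

/-- indicator. -/
def ind (b : Bool) : ℤ := if b then 1 else 0

lemma sm_le (π : Fin 3 → Bool) : sm π ≤ 3 := by
  revert π; decide

lemma sm_eq_sum (π : Fin 3 → Bool) : (sm π : ℤ) = ∑ a, ind (π a) := by
  revert π; decide

lemma lbl_eq_zero (π : Fin 3 → Bool) (h1 : sm π ≠ 1) (h2 : sm π ≠ 2) : lbl π = 0 := by
  revert π; decide

lemma pat_inj (π π' : Fin 3 → Bool) (h : sm π = sm π') (hl : lbl π = lbl π') : π = π' := by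
  revert π π'; decide

lemma ind_eq (π : Fin 3 → Bool) (a : Fin 3) :
    ind (π a) = (if sm π = 3 then 1 else 0) + (if sm π = 1 ∧ lbl π = a then 1 else 0)
      + (if sm π = 2 ∧ lbl π ≠ a then 1 else 0) := by
  revert π a; decide

lemma ent_iff (π π' : Fin 3 → Bool) (h : sm π = sm π') (a : Fin 3) :
    π a = π' a ↔ (lbl π = a ↔ lbl π' = a) := by
  revert π π' a; decide

lemma sm_pat (t : ℕ) (ht : t ≤ 3) (l : Fin 3) : sm (pat t l) = t := by
  interval_cases t <;> revert l <;> decide

lemma lbl_pat (t : ℕ) (l : Fin 3) (ht : t = 1 ∨ t = 2) : lbl (pat t l) = l := by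
  rcases ht with rfl | rfl <;> revert l <;> decide

lemma pat_zero (l a : Fin 3) : pat 0 l a = false := by
  revert l a; decide

/-! ## the table of a graph -/

/-- `y` is outside the triple. -/
def off (v : Fin 3 → Fin n) (y : Fin n) : Prop := ∀ b, y ≠ v b

instance (v : Fin 3 → Fin n) (y : Fin n) : Decidable (off v y) := by unfold off; infer_instance

open Classical in
/-- the 3-row table of `G`: columns `some y` (`y` outside the triple): adjacency to `v a`;
column `none`: NON-adjacency of the pair opposite to `v a`. -/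
noncomputable def tab (v : Fin 3 → Fin n) (G : Gr n) : Option (Fin n) → Fin 3 → Bool
  | some y, a => decide (adj G (v a) y ∧ off v y)
  | none, a => decide (¬ adj G (v (a + 1)) (v (a + 2)))

/-- reveal all edges avoiding the triple. -/
def keyT (v : Fin 3 → Fin n) (G : Gr n) : Gr n := G.filter fun e => ∀ a, v a ∉ e.1

/-- row sums of a table. -/
def rs (τ : Option (Fin n) → Fin 3 → Bool) (a : Fin 3) : ℤ := ∑ c, ind (τ c a)

/-- the fibre of `keyT` through `G0`. -/
def Fib (d : Fin n → ℕ) (v : Fin 3 → Fin n) (G0 : Gr n) : Finset (Gr n) :=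
  (realizations d).filter fun G => keyT v G = keyT v G0

open Classical in
/-- adjacency indicator. -/
noncomputable def xi (G : Gr n) (u w : Fin n) : ℤ := if adj G u w then 1 else 0

/-- the vertices outside the triple. -/
def offS (v : Fin 3 → Fin n) : Finset (Fin n) := univ.filter (off v)

variable (v : Fin 3 → Fin n) (G0 : Gr n)

/-- the label of a column. -/
noncomputable def lab (G : Gr n) (c : Option (Fin n)) : Fin 3 := lbl (tab v G c)

/-- columns of sum `t`. -/
noncomputable def colS (t : ℕ) : Finset (Option (Fin n)) := univ.filter fun c => sm (tab v G0 c) = t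

/-- the charges. -/
noncomputable def sch (a : Fin 3) : ℤ :=
  rs (tab v G0) a - ((colS v G0 3).card : ℤ) - ((colS v G0 2).card : ℤ)

lemma disj_colS : Disjoint (colS v G0 1) (colS v G0 2) := by
  rw [Finset.disjoint_left]
  intro c h1 h2
  simp only [colS, mem_filter, mem_univ, true_and] at h1 h2
  omega

end Tri
end Crest.Agent.S0453D
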