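import Crest.Agent.S0453_TriDefs
import Crest.Agent.S0453_L3Defs

/-! # S0453, package B6 / T-LAB, part A : pure table / label combinatorics

Everything here is independent of the other B6 sub-packages: the facts `colsum_eq`, `rowsum_eq`
(T-DEG) enter as hypotheses.  The wrappers with the stub statements are in `S0453_TriLab.lean`. -/

set_option autoImplicit false
open Finset
open Crest.SwitchChain

namespace Crest.Agent.S0453D
namespace Tri

variable {n : ℕ}

/-- row sums of a table in terms of labels. -/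
lemma rs_eq (v : Fin 3 → Fin n) (G0 : Gr n) (τ : Option (Fin n) → Fin 3 → Bool)
    (hc : ∀ c, sm (τ c) = sm (tab v G0 c)) (a : Fin 3) :
    rs τ a = ((colS v G0 3).card : ℤ) + (cnt (colS v G0 1) (fun c => lbl (τ c)) a : ℤ)
      + (((colS v G0 2).card : ℤ) - (cnt (colS v G0 2) (fun c => lbl (τ c)) a : ℤ)) := by
  classical
  have h3 : ((colS v G0 3).card : ℤ) = ∑ c, (if sm (τ c) = 3 then (1 : ℤ) else 0) := by
    rw [Finset.sum_boole]
    congr 2
    ext c
    simp [colS, hc]
  have h1 : (cnt (colS v G0 1) (fun c => lbl (τ c)) a : ℤ)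
      = ∑ c, (if sm (τ c) = 1 ∧ lbl (τ c) = a then (1 : ℤ) else 0) := by
    rw [Finset.sum_boole]
    unfold cnt
    congr 2
    ext c
    simp [colS, hc]
  have h2 : ((colS v G0 2).card : ℤ) - (cnt (colS v G0 2) (fun c => lbl (τ c)) a : ℤ)
      = ∑ c, (if sm (τ c) = 2 ∧ lbl (τ c) ≠ a then (1 : ℤ) else 0) := by
    rw [Finset.sum_boole]
    have hsplit := Finset.card_filter_add_card_filter_not (s := colS v G0 2)
      (fun c => lbl (τ c) = a)
    have hE : ((colS v G0 2).filter fun c => ¬ lbl (τ c) = a)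
        = univ.filter fun c => sm (τ c) = 2 ∧ lbl (τ c) ≠ a := by
      ext c
      simp [colS, hc]
    rw [hE] at hsplit
    unfold cnt
    push_cast [← hsplit]
    ring
  rw [h3, h1, h2, ← Finset.sum_add_distrib, ← Finset.sum_add_distrib]
  unfold rs
  exact Finset.sum_congr rfl fun c _ => ind_eq (τ c) a

namespace Lab

variable (v : Fin 3 → Fin n) (G0 : Gr n)

lemma mem_of {G : Gr n} (hcs : ∀ c, sm (tab v G c) = sm (tab v G0 c))
    (hrs : ∀ a, rs (tab v G) a = rs (tab v G0) a) :
    lab v G ∈ L3Set (colS v G0 1) (colS v G0 2) (sch v G0) := by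
  classical
  simp only [L3Set, mem_filter, mem_univ, true_and]
  refine ⟨fun j hj => ?_, fun i => ?_⟩
  · simp only [mem_union, colS, mem_filter, mem_univ, true_and, not_or] at hj
    exact lbl_eq_zero _ (by rw [hcs]; exact hj.1) (by rw [hcs]; exact hj.2)
  · have h := rs_eq v G0 (tab v G) hcs i
    rw [hrs i] at h
    have e : (fun c => lbl (tab v G c)) = lab v G := rfl
    rw [e] at h
    unfold sch
    rw [h]
    ring

lemma tab_eq_of {G G' : Gr n} (hcs : ∀ c, sm (tab v G c) = sm (tab v G0 c))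
    (hcs' : ∀ c, sm (tab v G' c) = sm (tab v G0 c)) (h : lab v G = lab v G') :
    tab v G = tab v G' := by
  funext c
  exact pat_inj _ _ (by rw [hcs, hcs']) (congrFun h c)

/-- the table with the column sums of `G0` and the labels `c`. -/
noncomputable def tbl (c : Option (Fin n) → Fin 3) : Option (Fin n) → Fin 3 → Bool :=
  fun j => pat (sm (tab v G0 j)) (c j)

lemma tbl_off (c : Option (Fin n) → Fin 3) (y : Fin n) (a : Fin 3) (hy : ¬ off v y) :
    tbl v G0 c (some y) a = false := by
  have h0 : sm (tab v G0 (some y)) = 0 := by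
    have : tab v G0 (some y) = fun _ => false := by
      funext b
      simp [tab, hy]
    rw [this]
    decide
  simp only [tbl, h0]
  exact pat_zero _ _

lemma sm_tbl (c : Option (Fin n) → Fin 3) (j : Option (Fin n)) :
    sm (tbl v G0 c j) = sm (tab v G0 j) :=
  sm_pat _ (sm_le _) _

lemma lbl_tbl (c : Option (Fin n) → Fin 3)
    (hc : c ∈ L3Set (colS v G0 1) (colS v G0 2) (sch v G0)) (j : Option (Fin n)) :
    lbl (tbl v G0 c j) = c j := by
  classical
  simp only [L3Set, mem_filter, mem_univ, true_and] at hc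
  by_cases h : sm (tab v G0 j) = 1 ∨ sm (tab v G0 j) = 2
  · exact lbl_pat _ _ h
  · rw [not_or] at h
    rw [hc.1 j (by simp [colS, h.1, h.2])]
    exact lbl_eq_zero _ (by rw [sm_tbl]; exact h.1) (by rw [sm_tbl]; exact h.2)

lemma rs_tbl (c : Option (Fin n) → Fin 3)
    (hc : c ∈ L3Set (colS v G0 1) (colS v G0 2) (sch v G0)) (a : Fin 3) :
    rs (tbl v G0 c) a = rs (tab v G0) a := by
  classical
  have h := rs_eq v G0 (tbl v G0 c) (sm_tbl v G0 c) a
  have e : (fun j => lbl (tbl v G0 c j)) = c := funext (lbl_tbl v G0 c hc)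
  rw [e] at h
  simp only [L3Set, mem_filter, mem_univ, true_and] at hc
  have h2 := hc.2 a
  unfold sch at h2
  rw [h]
  linarith

lemma lab_eq_of_tab (c : Option (Fin n) → Fin 3)
    (hc : c ∈ L3Set (colS v G0 1) (colS v G0 2) (sch v G0)) {G : Gr n}
    (hG : tab v G = tbl v G0 c) : lab v G = c := by
  funext j
  unfold lab
  rw [hG]
  exact lbl_tbl v G0 c hc j

lemma row_iff {G G' : Gr n} (hcs : ∀ c, sm (tab v G c) = sm (tab v G0 c))
    (hcs' : ∀ c, sm (tab v G' c) = sm (tab v G0 c)) (a : Fin 3) :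
    (∀ c, tab v G c a = tab v G' c a) ↔ ∀ c, lab v G c = a ↔ lab v G' c = a :=
  forall_congr' fun c => ent_iff _ _ (by rw [hcs, hcs']) a

end Lab

end Tri
end Crest.Agent.S0453D
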